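import Crest.Agent.R201.Defs_74
import Crest.Agent.R144.Fi2_865

/-!
# R201 analytic side: definitions (helper293)

`w` is the (unnormalised) weight of `X`, `gk s` the unnormalised Gaussian kernel,
`Lp w s F y = ∫ F x w x gk s (y - x) dx`, `pE w s F y` the posterior mean of `F(X)` given
`X + √s G = y`.
-/

set_option autoImplicit false
open MeasureTheory Matrix

namespace Crest.Agent.R201.An

open Crest.Agent.R201 Crest.Agent.R144.Fi865

variable {n : ℕ}

/-- unnormalised Gaussian kernel of variance `s` -/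
noncomputable def gk (s : ℝ) (z : E n) : ℝ := Real.exp (-(‖z‖ ^ 2 / (2 * s)))

/-- all exponential moments -/
structure Ex (w : E n → ℝ) : Prop where
  nonneg : ∀ x, 0 ≤ w x
  meas : Measurable w
  int : ∀ a : ℝ, Integrable fun x => Real.exp (a * ‖x‖) * w x
  pos : 0 < ∫ x, w x

/-- weight of `X`: bounded support, `c`-strongly log-concave -/
structure Wt (c R : ℝ) (w : E n → ℝ) : Prop where
  nonneg : ∀ x, 0 ≤ w x
  meas : Measurable w
  int : Integrable w
  supp : ∀ x, w x ≠ 0 → ‖x‖ ≤ R
  slc : SLC c w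
  pos : 0 < ∫ x, w x

/-- unnormalised posterior integral -/
noncomputable def Lp (w : E n → ℝ) (s : ℝ) (F : E n → ℝ) (y : E n) : ℝ :=
  ∫ x, F x * (w x * gk s (y - x))

/-- posterior mean of `F(X)` given `X + √s G = y` -/
noncomputable def pE (w : E n → ℝ) (s : ℝ) (F : E n → ℝ) (y : E n) : ℝ :=
  Lp w s F y / Lp w s (fun _ => 1) y

/-- posterior covariance -/
noncomputable def pC (w : E n → ℝ) (s : ℝ) (y : E n) : Mt n :=
  Matrix.of fun i j => pE w s (fun x => x i * x j) y - pE w s (fun x => x i) y * pE w s (fun x => x j) y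

/-- at most exponential growth -/
def EG (F : E n → ℝ) : Prop := Measurable F ∧ ∃ C a : ℝ, 0 ≤ C ∧ 0 ≤ a ∧ ∀ x, |F x| ≤ C * Real.exp (a * ‖x‖)

end Crest.Agent.R201.An
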