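import Crest.Agent.R201.An9_293

/-!
# R201 AN-10: essential self-adjointness, part 2: the Caccioppoli inequality (helper293)
-/

set_option autoImplicit false
open MeasureTheory Filter Topology Metric
open scoped ContDiff Convolution

namespace Crest.Agent.R201.An

open Crest.Agent.R201 Crest.Agent.R201.Tw807

variable {n : ℕ} {η θ ρ W χ : E n → ℝ} {ε L : ℝ} {g : Fin n → E n → ℝ}

/-- a smooth positive density with Lipschitz logarithmic gradient -/
structure Pot (ρ : E n → ℝ) (g : Fin n → E n → ℝ) (L : ℝ) : Prop where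
  smooth : ContDiff ℝ ∞ ρ
  pos : ∀ x, 0 < ρ x
  gsmooth : ∀ k, ContDiff ℝ ∞ (g k)
  pd_eq : ∀ k x, pd k ρ x = -(g k x * ρ x)
  lip : ∀ k x y, |g k x - g k y| ≤ L * ‖x - y‖
  L_nonneg : 0 ≤ L

/-- `W` is a (very weak) solution -/
structure Sol (ρ : E n → ℝ) (g : Fin n → E n → ℝ) (W : E n → ℝ) : Prop where
  int : Integrable W
  intg : ∀ k, Integrable fun x => g k x * W x
  inth : Integrable fun x => W x ^ 2 / ρ x
  eq : ∀ φ : E n → ℝ, ContDiff ℝ ∞ φ → HasCompactSupport φ →
    ∫ x, W x * (φ x + ∑ k, (g k x * pd k φ x - pd k (pd k φ) x)) = 0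

lemma cc_int {f : E n → ℝ} (hf : Continuous f) (hs : HasCompactSupport f) : Integrable f :=
  hf.integrable_of_hasCompactSupport hs

lemma mul_int (hW : Integrable W) {f : E n → ℝ} (hf : Continuous f) (hs : HasCompactSupport f) :
    Integrable fun x => W x * f x := by
  obtain ⟨B, hB⟩ := bdd_of_cc hf hs
  exact hW.mul_bdd hf.aestronglyMeasurable (ae_of_all _ fun x => by
    rw [Real.norm_eq_abs]; exact hB x)

/-- (I) the mollified equation -/
theorem moll_eq (M : Mol η ε) (S : Sol ρ g W) {ψ : E n → ℝ} (hψ : ContDiff ℝ ∞ ψ)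
    (hs : HasCompactSupport ψ) :
    (∫ x, ψ x * cv η W x) + ∑ k, ((∫ x, pd k ψ x * cv η (fun x => g k x * W x) x) +
      ∫ x, pd k ψ x * pd k (cv η W) x) = 0 := by
  have hφ := M.cv_smooth' hψ.continuous hs
  have hφs := M.cv_cs hs
  have h0 := S.eq (cv η ψ) hφ hφs
  have p1 : ∀ k, pd k (cv η ψ) = cv η (pd k ψ) := fun k =>
    M.pd_cv (hψ.of_le (by norm_cast)) hs k
  have p2 : ∀ k, pd k (pd k (cv η ψ)) = cv η (pd k (pd k ψ)) := fun k => by
    rw [p1 k]
    exact M.pd_cv ((pd_smooth hψ k).of_le (by norm_cast)) (pd_cs hs k) k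
  have i1 : Integrable fun x => W x * cv η ψ x := mul_int S.int hφ.continuous hφs
  have i2 : ∀ k, Integrable fun x => (g k x * W x) * pd k (cv η ψ) x := fun k =>
    mul_int (S.intg k) (pd_smooth hφ k).continuous (pd_cs hφs k)
  have i3 : ∀ k, Integrable fun x => W x * pd k (pd k (cv η ψ)) x := fun k =>
    mul_int S.int (pd_smooth (pd_smooth hφ k) k).continuous (pd_cs (pd_cs hφs k) k)
  have i4 : ∀ k, Integrable fun x => (g k x * W x) * pd k (cv η ψ) x -
      W x * pd k (pd k (cv η ψ)) x := fun k => (i2 k).sub (i3 k)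
  have e1 : (fun x => W x * (cv η ψ x + ∑ k, (g k x * pd k (cv η ψ) x -
      pd k (pd k (cv η ψ)) x))) = fun x => W x * cv η ψ x +
      ∑ k, ((g k x * W x) * pd k (cv η ψ) x - W x * pd k (pd k (cv η ψ)) x) := by
    funext x
    rw [mul_add, Finset.mul_sum]
    congr 1
    exact Finset.sum_congr rfl fun k _ => by ring
  rw [e1, integral_add i1 (integrable_finsetSum _ fun k _ => i4 k),
    integral_finsetSum _ fun k _ => i4 k] at h0
  have c0 : ∫ x, W x * cv η ψ x = ∫ x, ψ x * cv η W x :=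
    M.fub S.int (cc_int hψ.continuous hs)
  rw [c0] at h0
  rw [← h0]
  congr 1
  refine Finset.sum_congr rfl fun k _ => ?_
  rw [integral_sub (i2 k) (i3 k), p2 k, p1 k,
    M.fub (S.intg k) (cc_int (pd_smooth hψ k).continuous (pd_cs hs k)),
    M.fub S.int (cc_int (pd_smooth (pd_smooth hψ k) k).continuous (pd_cs (pd_cs hs k) k)),
    sub_eq_add_neg]
  congr 1
  have hW1 : ContDiff ℝ 1 (cv η W) := (M.cv_smooth S.int).of_le (by norm_cast)
  have h5 := ibp_cs hW1 ((pd_smooth hψ k).of_le (by norm_cast)) (pd_cs hs k) k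
  have e5 : ∫ x, pd k (pd k ψ) x * cv η W x = ∫ x, cv η W x * pd k (pd k ψ) x := by
    simp_rw [mul_comm]
  rw [e5, h5, neg_neg]
  simp_rw [mul_comm]

/-- local bounds for the mollification at `x` -/
theorem loc_bound (M : Mol η ε) (P : Pot ρ g L) (S : Sol ρ g W) (x : E n)
    (hx : ∀ y, ‖x - y‖ < ε → ρ y ≤ 2 * ρ x) :
    cv η W x ^ 2 ≤ 2 * ρ x * cv η (fun y => W y ^ 2 / ρ y) x ∧
    ∀ k, (cv η (fun y => g k y * W y) x - g k x * cv η W x) ^ 2 ≤
      (L * ε) ^ 2 * (2 * ρ x * cv η (fun y => W y ^ 2 / ρ y) x) := by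
  set h : E n → ℝ := fun y => W y ^ 2 / ρ y with hh
  have hρx := P.pos x
  have ih : Integrable fun y => η (x - y) * h y := M.int_at S.inth x
  -- pointwise
  have pw : ∀ y, η (x - y) * W y ^ 2 ≤ 2 * ρ x * (η (x - y) * h y) := by
    intro y
    by_cases hy : ‖x - y‖ < ε
    · have h1 := hx y hy
      have h2 : W y ^ 2 = h y * ρ y := by
        simp only [hh]
        rw [div_mul_cancel₀ _ (P.pos y).ne']
      have h3 : 0 ≤ h y := div_nonneg (sq_nonneg _) (P.pos y).le
      rw [h2]
      calc η (x - y) * (h y * ρ y) ≤ η (x - y) * (h y * (2 * ρ x)) :=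
            mul_le_mul_of_nonneg_left (mul_le_mul_of_nonneg_left h1 h3) (M.nonneg _)
        _ = _ := by ring
    · rw [M.supp _ (not_lt.1 hy)]
      simp
  have mW : AEStronglyMeasurable W volume := S.int.aestronglyMeasurable
  have mη : AEStronglyMeasurable (fun y => η (x - y)) volume :=
    (M.cont.comp (continuous_const.sub continuous_id)).aestronglyMeasurable
  have iW2 : Integrable fun y => η (x - y) * W y ^ 2 := by
    refine (ih.const_mul (2 * ρ x)).mono' (mη.mul (mW.pow 2)) (ae_of_all _ fun y => ?_)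
    rw [Real.norm_of_nonneg (mul_nonneg (M.nonneg _) (sq_nonneg _))]
    exact pw y
  have b1 : ∫ y, η (x - y) * W y ^ 2 ≤ 2 * ρ x * cv η h x := by
    unfold cv
    rw [← integral_const_mul]
    exact integral_mono iW2 (ih.const_mul _) pw
  refine ⟨(M.jensen x (M.int_at S.int x) iW2).trans b1, fun k => ?_⟩
  -- the commutator
  have e1 : cv η (fun y => g k y * W y) x - g k x * cv η W x =
      ∫ y, η (x - y) * ((g k y - g k x) * W y) := by
    unfold cv
    rw [← integral_const_mul, ← integral_sub (M.int_at (S.intg k) x)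
      ((M.int_at S.int x).const_mul _)]
    exact integral_congr_ae (ae_of_all _ fun y => by simp only; ring)
  have i5 : Integrable fun y => η (x - y) * ((g k y - g k x) * W y) := by
    have := (M.int_at (S.intg k) x).sub ((M.int_at S.int x).const_mul (g k x))
    refine this.congr (ae_of_all _ fun y => ?_)
    simp only [Pi.sub_apply]
    ring
  have pw2 : ∀ y, η (x - y) * ((g k y - g k x) * W y) ^ 2 ≤
      (L * ε) ^ 2 * (η (x - y) * W y ^ 2) := by
    intro y
    by_cases hy : ‖x - y‖ < ε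
    · have h1 := P.lip k y x
      rw [norm_sub_rev] at h1
      have h2 : |g k y - g k x| ≤ L * ε := h1.trans (mul_le_mul_of_nonneg_left hy.le P.L_nonneg)
      have h3 : (g k y - g k x) ^ 2 ≤ (L * ε) ^ 2 := by
        rw [← sq_abs]; exact pow_le_pow_left₀ (abs_nonneg _) h2 2
      calc η (x - y) * ((g k y - g k x) * W y) ^ 2
          = (g k y - g k x) ^ 2 * (η (x - y) * W y ^ 2) := by ring
        _ ≤ _ := mul_le_mul_of_nonneg_right h3 (mul_nonneg (M.nonneg _) (sq_nonneg _))
    · rw [M.supp _ (not_lt.1 hy)]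
      simp
  have i6 : Integrable fun y => η (x - y) * ((g k y - g k x) * W y) ^ 2 := by
    refine (iW2.const_mul ((L * ε) ^ 2)).mono' ?_ (ae_of_all _ fun y => ?_)
    · exact mη.mul ((((P.gsmooth k).continuous.sub continuous_const).aestronglyMeasurable.mul
        mW).pow 2)
    · rw [Real.norm_of_nonneg (mul_nonneg (M.nonneg _) (sq_nonneg _))]
      exact pw2 y
  rw [e1]
  refine (M.jensen x i5 i6).trans ?_
  calc ∫ y, η (x - y) * ((g k y - g k x) * W y) ^ 2
      ≤ ∫ y, (L * ε) ^ 2 * (η (x - y) * W y ^ 2) := integral_mono i6 (iW2.const_mul _) pw2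
    _ = (L * ε) ^ 2 * ∫ y, η (x - y) * W y ^ 2 := integral_const_mul _ _
    _ ≤ _ := mul_le_mul_of_nonneg_left b1 (sq_nonneg _)

/-- the algebraic inequality -/
lemma alg_ineq {ρ U χ a b r : ℝ} (hρ : 0 < ρ) :
    -(3 * b ^ 2 * ((ρ * U) ^ 2 / ρ) + 3 / 2 * χ ^ 2 * (r ^ 2 / ρ)) ≤
      (χ ^ 2 * a + 2 * χ * b * U) * (r + ρ * a) := by
  have e1 : (ρ * U) ^ 2 / ρ = ρ * U ^ 2 := by field_simp
  set t := r / ρ with ht
  have e2 : r = ρ * t := by rw [ht]; field_simp
  have e3 : r ^ 2 / ρ = ρ * t ^ 2 := by rw [e2]; field_simp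
  rw [e1, e3, e2]
  have h : 0 ≤ ρ * ((χ * a + χ * t) ^ 2 / 2 + (χ * a + 2 * (b * U)) ^ 2 / 2 +
      (χ * t + b * U) ^ 2) := by positivity
  nlinarith [h]

/-- (III) Caccioppoli -/
theorem cacc (M : Mol η ε) (P : Pot ρ g L) (S : Sol ρ g W) (hχ : ContDiff ℝ ∞ χ)
    (hχs : HasCompactSupport χ) (hχ1 : ∀ x, χ x ^ 2 ≤ 1) {C : ℝ} (hC : ∀ k x, pd k χ x ^ 2 ≤ C)
    (hx : ∀ x ∈ tsupport χ, ∀ y, ‖x - y‖ < ε → ρ y ≤ 2 * ρ x) :
    ∫ x, χ x ^ 2 * (cv η W x ^ 2 / ρ x) ≤
      (n * (6 * C + 3 * (L * ε) ^ 2)) * ∫ x, W x ^ 2 / ρ x := by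
  set h : E n → ℝ := fun y => W y ^ 2 / ρ y with hh
  set V : E n → ℝ := cv η W with hV
  have hVs : ContDiff ℝ ∞ V := M.cv_smooth S.int
  set U : E n → ℝ := fun x => V x / ρ x with hU
  have hUs : ContDiff ℝ ∞ U := hVs.div P.smooth fun x => (P.pos x).ne'
  set ψ : E n → ℝ := fun x => χ x ^ 2 * U x with hψ
  have hψs : ContDiff ℝ ∞ ψ := (hχ.pow 2).mul hUs
  have hχ2 : HasCompactSupport fun x => χ x ^ 2 := by
    have := hχs.mul_left (f := χ)
    have e : (fun x => χ x ^ 2) = χ * χ := by funext x; simp [sq]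
    rw [e]; exact this
  have hψc : HasCompactSupport ψ := hχ2.mul_right (f' := U)
  have key := moll_eq M S hψs hψc
  have dU : Differentiable ℝ U := hUs.differentiable (by simp)
  have dχ : Differentiable ℝ χ := hχ.differentiable (by simp)
  have dρ : Differentiable ℝ ρ := P.smooth.differentiable (by simp)
  -- derivatives
  have p1 : ∀ k x, pd k ψ x = χ x ^ 2 * pd k U x + 2 * χ x * pd k χ x * U x := by
    intro k x
    have e : ψ = fun x => χ x * (χ x * U x) := by funext x; simp only [hψ]; ring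
    have d2 : DifferentiableAt ℝ (fun x => χ x * U x) x := (dχ x).mul (dU x)
    rw [e, pd_mul k (dχ x) d2, pd_mul k (dχ x) (dU x)]
    ring
  have p2 : ∀ k x, pd k V x = ρ x * pd k U x - g k x * V x := by
    intro k x
    have e : V = fun x => ρ x * U x := by
      funext x; simp only [hU]; rw [mul_div_cancel₀ _ (P.pos x).ne']
    have e' : V x = ρ x * U x := congrFun e x
    have h5 : pd k V x = pd k (fun x => ρ x * U x) x := by rw [← e]
    rw [h5, pd_mul k (dρ x) (dU x), P.pd_eq, e']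
    ring
  have hF : ∀ k, Continuous (cv η fun x => g k x * W x) := fun k =>
    (M.cv_smooth (S.intg k)).continuous
  -- one integral
  have j1 : Integrable fun x => ψ x * V x :=
    cc_int (hψs.continuous.mul hVs.continuous) (hψc.mul_right (f' := V))
  have j2 : ∀ k, Integrable fun x => pd k ψ x * cv η (fun x => g k x * W x) x := fun k =>
    cc_int ((pd_smooth hψs k).continuous.mul (hF k))
      ((pd_cs hψc k).mul_right (f' := cv η fun x => g k x * W x))
  have j3 : ∀ k, Integrable fun x => pd k ψ x * pd k V x := fun k =>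
    cc_int ((pd_smooth hψs k).continuous.mul (pd_smooth hVs k).continuous)
      ((pd_cs hψc k).mul_right (f' := pd k V))
  set I : E n → ℝ := fun x => ψ x * V x + ∑ k, (pd k ψ x * cv η (fun x => g k x * W x) x +
    pd k ψ x * pd k V x) with hI
  have j23 : ∀ k, Integrable fun x => (pd k ψ x * cv η (fun x => g k x * W x) x +
    pd k ψ x * pd k V x) := fun k => (j2 k).add (j3 k)
  have j4 : Integrable I := j1.add (integrable_finsetSum _ fun k _ => j23 k)
  have hI0 : ∫ x, I x = 0 := by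
    rw [← key, hI, integral_add j1 (integrable_finsetSum _ fun k _ => j23 k),
      integral_finsetSum _ fun k _ => j23 k]
    congr 1
    exact Finset.sum_congr rfl fun k _ => integral_add (j2 k) (j3 k)
  set c1 : ℝ := n * (6 * C + 3 * (L * ε) ^ 2) with hc1
  have hcvh : Integrable (cv η h) := M.cv_integrable S.inth
  have hcv0 : ∀ x, 0 ≤ cv η h x := fun x => integral_nonneg fun y =>
    mul_nonneg (M.nonneg _) (div_nonneg (sq_nonneg _) (P.pos y).le)
  -- the pointwise inequality
  have pw : ∀ x, χ x ^ 2 * (V x ^ 2 / ρ x) ≤ I x + c1 * cv η h x := by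
    intro x
    have hρx := P.pos x
    have hV' : V x = ρ x * U x := by
      simp only [hU]; rw [mul_div_cancel₀ _ (P.pos x).ne']
    have e0 : ψ x * V x = χ x ^ 2 * (V x ^ 2 / ρ x) := by
      simp only [hψ, hU]; ring
    have e1 : I x = χ x ^ 2 * (V x ^ 2 / ρ x) + ∑ k, (χ x ^ 2 * pd k U x +
        2 * χ x * pd k χ x * U x) * ((cv η (fun x => g k x * W x) x - g k x * V x) +
          ρ x * pd k U x) := by
      simp only [hI]
      rw [e0]
      congr 1
      refine Finset.sum_congr rfl fun k _ => ?_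
      rw [p1, p2]
      ring
    by_cases hxs : x ∈ tsupport χ
    · obtain ⟨l1, l2⟩ := loc_bound M P S x (hx x hxs)
      have hk : ∀ k, -((6 * C + 3 * (L * ε) ^ 2) * cv η h x) ≤
          (χ x ^ 2 * pd k U x + 2 * χ x * pd k χ x * U x) *
          ((cv η (fun x => g k x * W x) x - g k x * V x) + ρ x * pd k U x) := by
        intro k
        have a1 := alg_ineq (U := U x) (χ := χ x) (a := pd k U x) (b := pd k χ x)
          (r := cv η (fun x => g k x * W x) x - g k x * V x) hρx
        refine le_trans (neg_le_neg ?_) a1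
        have b1 : (ρ x * U x) ^ 2 / ρ x ≤ 2 * cv η h x := by
          rw [← hV', div_le_iff₀ hρx]
          linarith
        have b2 : (cv η (fun x => g k x * W x) x - g k x * V x) ^ 2 / ρ x ≤
            (L * ε) ^ 2 * (2 * cv η h x) := by
          rw [div_le_iff₀ hρx]
          have := l2 k
          linarith
        have b3 : 3 * pd k χ x ^ 2 * ((ρ x * U x) ^ 2 / ρ x) ≤ 3 * C * (2 * cv η h x) := by
          have h3 : 3 * pd k χ x ^ 2 ≤ 3 * C := by linarith [hC k x]
          have h4 : 0 ≤ (ρ x * U x) ^ 2 / ρ x := div_nonneg (sq_nonneg _) hρx.le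
          have h5 : 0 ≤ 3 * C := le_trans (by positivity) h3
          exact mul_le_mul h3 b1 h4 h5
        have b4 : 3 / 2 * χ x ^ 2 * ((cv η (fun x => g k x * W x) x - g k x * V x) ^ 2 / ρ x) ≤
            3 / 2 * 1 * ((L * ε) ^ 2 * (2 * cv η h x)) := by
          have h3 : 3 / 2 * χ x ^ 2 ≤ 3 / 2 * 1 := by linarith [hχ1 x]
          exact mul_le_mul h3 b2 (div_nonneg (sq_nonneg _) hρx.le) (by norm_num)
        linarith
      have hsum : -(∑ _k : Fin n, (6 * C + 3 * (L * ε) ^ 2) * cv η h x) ≤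
          ∑ k, (χ x ^ 2 * pd k U x + 2 * χ x * pd k χ x * U x) *
          ((cv η (fun x => g k x * W x) x - g k x * V x) + ρ x * pd k U x) := by
        rw [← Finset.sum_neg_distrib]
        exact Finset.sum_le_sum fun k _ => hk k
      have e2 : ∑ _k : Fin n, (6 * C + 3 * (L * ε) ^ 2) * cv η h x = c1 * cv η h x := by
        rw [Finset.sum_const, Finset.card_univ, Fintype.card_fin, nsmul_eq_mul, hc1]
        ring
      rw [e2] at hsum
      rw [e1]
      linarith
    · have z1 : χ x = 0 := image_eq_zero_of_notMem_tsupport hxs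
      have hc10 : 0 ≤ c1 := by
        have hn : (0 : ℝ) ≤ n := Nat.cast_nonneg n
        rcases Nat.eq_zero_or_pos n with h0 | h0
        · simp [hc1, h0]
        · have : 0 ≤ C := le_trans (sq_nonneg _) (hC ⟨0, h0⟩ x)
          positivity
      have z3 : I x = 0 := by
        rw [e1, z1]
        simp
      rw [z3, z1]
      have := mul_nonneg hc10 (hcv0 x)
      simpa using this
  have j5 : Integrable fun x => χ x ^ 2 * (V x ^ 2 / ρ x) :=
    cc_int ((hχ.continuous.pow 2).mul ((hVs.continuous.pow 2).div P.smooth.continuous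
      fun x => (P.pos x).ne')) (hχ2.mul_right (f' := fun x => V x ^ 2 / ρ x))
  calc ∫ x, χ x ^ 2 * (V x ^ 2 / ρ x) ≤ ∫ x, (I x + c1 * cv η h x) :=
        integral_mono j5 (j4.add (hcvh.const_mul _)) pw
    _ = (∫ x, I x) + c1 * ∫ x, cv η h x := by
        rw [integral_add j4 (hcvh.const_mul _), integral_const_mul]
    _ = c1 * ∫ x, h x := by rw [hI0, zero_add, M.int_cv S.inth]

end Crest.Agent.R201.An
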