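import Crest.Agent.R201.An10_293

/-!
# R201 AN-11: essential self-adjointness, part 3: very weak solutions vanish (helper293)
-/

set_option autoImplicit false
open MeasureTheory Filter Topology Metric
open scoped ContDiff Convolution ENNReal

namespace Crest.Agent.R201.An

open Crest.Agent.R201 Crest.Agent.R201.Tw807

variable {n : ℕ} {η θ ρ W χ : E n → ℝ} {ε L : ℝ} {g : Fin n → E n → ℝ}

lemma compare (hρ : Continuous ρ) (hpos : ∀ x, 0 < ρ x) (R : ℝ) :
    ∃ ε : ℝ, 0 < ε ∧ ∀ x : E n, ‖x‖ ≤ R → ∀ y, ‖x - y‖ < ε → ρ y ≤ 2 * ρ x := by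
  have hK : IsCompact (closedBall (0 : E n) (R + 1)) := isCompact_closedBall _ _
  rcases (closedBall (0 : E n) (R + 1)).eq_empty_or_nonempty with h0 | hne
  · refine ⟨1, one_pos, fun x hx => ?_⟩
    have : x ∈ closedBall (0 : E n) (R + 1) := by
      rw [mem_closedBall_zero_iff]; linarith
    rw [h0] at this
    exact absurd this (Set.notMem_empty _)
  · obtain ⟨z, hz, hmin⟩ := hK.exists_isMinOn hne hρ.continuousOn
    have huc := hK.uniformContinuousOn_of_continuous hρ.continuousOn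
    rw [Metric.uniformContinuousOn_iff] at huc
    obtain ⟨ε, hε, h⟩ := huc (ρ z) (hpos z)
    refine ⟨min ε 1, lt_min hε one_pos, fun x hx y hxy => ?_⟩
    have hx' : x ∈ closedBall (0 : E n) (R + 1) := by
      rw [mem_closedBall_zero_iff]; linarith
    have hy' : y ∈ closedBall (0 : E n) (R + 1) := by
      rw [mem_closedBall_zero_iff]
      have h1 : ‖y‖ ≤ ‖x‖ + ‖x - y‖ := by
        have : y = x - (x - y) := by abel
        calc ‖y‖ = ‖x - (x - y)‖ := by rw [← this]
          _ ≤ _ := norm_sub_le _ _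
      have h2 := hxy.trans_le (min_le_right _ _)
      linarith
    have h1 := h x hx' y hy' (by rw [dist_eq_norm]; exact hxy.trans_le (min_le_left _ _))
    rw [Real.dist_eq] at h1
    have h2 : ρ z ≤ ρ x := hmin hx'
    have h3 := neg_abs_le (ρ x - ρ y)
    linarith

/-- the basic cutoff -/
noncomputable def b0 (n : ℕ) : ContDiffBump (0 : E n) := ⟨1, 2, one_pos, one_lt_two⟩

/-- cutoff at scale `m + 1` -/
noncomputable def ch (n : ℕ) (m : ℕ) (x : E n) : ℝ := b0 n ((1 / (m + 1 : ℝ)) • x)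

lemma ch_smooth (m : ℕ) : ContDiff ℝ ∞ (ch n m) :=
  ((b0 n).contDiff (n := ⊤)).comp (contDiff_id.const_smul _)

lemma ch_nonneg (m : ℕ) (x : E n) : 0 ≤ ch n m x := (b0 n).nonneg

lemma ch_le_one (m : ℕ) (x : E n) : ch n m x ≤ 1 := (b0 n).le_one

lemma ch_zero (m : ℕ) {x : E n} (hx : 2 * (m + 1 : ℝ) ≤ ‖x‖) : ch n m x = 0 := by
  have h0 : (0 : ℝ) < m + 1 := by positivity
  apply (b0 n).zero_of_le_dist
  rw [dist_zero_right, norm_smul, Real.norm_of_nonneg (by positivity)]
  change (2 : ℝ) ≤ _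
  rw [one_div, inv_mul_eq_div, le_div_iff₀ h0]
  exact hx

lemma ch_one (m : ℕ) {x : E n} (hx : ‖x‖ ≤ (m + 1 : ℝ)) : ch n m x = 1 := by
  have h0 : (0 : ℝ) < m + 1 := by positivity
  apply (b0 n).one_of_mem_closedBall
  rw [mem_closedBall_zero_iff, norm_smul, Real.norm_of_nonneg (by positivity)]
  change _ ≤ (1 : ℝ)
  rw [one_div, inv_mul_eq_div, div_le_one h0]
  exact hx

lemma ch_tsupport (m : ℕ) : tsupport (ch n m) ⊆ closedBall 0 (2 * (m + 1 : ℝ)) := by
  refine closure_minimal (fun x hx => ?_) isClosed_closedBall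
  rw [mem_closedBall_zero_iff]
  by_contra h
  exact hx (ch_zero m (not_le.1 h).le)

lemma ch_cs (m : ℕ) : HasCompactSupport (ch n m) :=
  (isCompact_closedBall _ _).of_isClosed_subset (isClosed_tsupport _) (ch_tsupport m)

lemma ch_grad (n : ℕ) : ∃ B : ℝ, ∀ (m : ℕ) (k : Fin n) (x : E n),
    pd k (ch n m) x ^ 2 ≤ B / (m + 1 : ℝ) ^ 2 := by
  have h1 : ∀ k : Fin n, ∃ B : ℝ, ∀ x, |pd k (fun x => b0 n x) x| ≤ B := fun k =>
    bdd_of_cc (pd_smooth ((b0 n).contDiff (n := ⊤)) k).continuous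
      (pd_cs (b0 n).hasCompactSupport k)
  choose B hB using h1
  refine ⟨∑ k, B k ^ 2, fun m k x => ?_⟩
  have h0 : (0 : ℝ) < m + 1 := by positivity
  have e : pd k (ch n m) x = (1 / (m + 1 : ℝ)) * pd k (fun x => b0 n x) ((1 / (m + 1 : ℝ)) • x) := by
    unfold pd
    have hd : HasFDerivAt (fun x : E n => (1 / (m + 1 : ℝ)) • x)
        ((1 / (m + 1 : ℝ)) • ContinuousLinearMap.id ℝ (E n)) x :=
      ((1 / (m + 1 : ℝ)) • ContinuousLinearMap.id ℝ (E n)).hasFDerivAt
    have hb : DifferentiableAt ℝ (fun x => b0 n x) ((1 / (m + 1 : ℝ)) • x) :=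
      ((b0 n).contDiff (n := ⊤)).differentiable (by simp) _
    have h2 := hb.hasFDerivAt.comp x hd
    have e2 : ch n m = (fun x => b0 n x) ∘ fun x : E n => (1 / (m + 1 : ℝ)) • x := rfl
    rw [e2, h2.fderiv]
    simp
  rw [e, mul_pow, div_pow, one_pow, div_mul_eq_mul_div, one_mul]
  refine div_le_div_of_nonneg_right ?_ (by positivity)
  have h3 : pd k (fun x => b0 n x) ((1 / (m + 1 : ℝ)) • x) ^ 2 ≤ B k ^ 2 := by
    rw [← sq_abs]; exact pow_le_pow_left₀ (abs_nonneg _) (hB k _) 2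
  exact h3.trans (Finset.single_le_sum (f := fun k => B k ^ 2) (fun _ _ => sq_nonneg _)
    (Finset.mem_univ k))

theorem sol_zero (P : Pot ρ g L) (S : Sol ρ g W) : W =ᵐ[volume] 0 := by
  obtain ⟨B, hB⟩ := ch_grad n
  have hcomp : ∀ m : ℕ, ∃ ε : ℝ, 0 < ε ∧ ε ≤ 1 / (m + 1 : ℝ) ∧ ∀ x : E n,
      ‖x‖ ≤ 2 * (m + 1 : ℝ) → ∀ y, ‖x - y‖ < ε → ρ y ≤ 2 * ρ x := fun m => by
    obtain ⟨ε, hε, h⟩ := compare P.smooth.continuous P.pos (2 * (m + 1 : ℝ))
    have h0 : (0 : ℝ) < 1 / (m + 1 : ℝ) := by positivity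
    exact ⟨min ε (1 / (m + 1 : ℝ)), lt_min hε h0, min_le_right _ _,
      fun x hx y hy => h x hx y (hy.trans_le (min_le_left _ _))⟩
  choose ε hε0 hε1 hε using hcomp
  let φ : ℕ → ContDiffBump (0 : E n) := fun m =>
    ⟨ε m / 2, ε m, half_pos (hε0 m), half_lt_self (hε0 m)⟩
  have hM : ∀ m, Mol ((φ m).normed volume) (ε m) := fun m => mol_of_bump (φ m)
  have hεt : Tendsto ε atTop (𝓝 0) :=
    squeeze_zero (fun m => (hε0 m).le) hε1 tendsto_one_div_add_atTop_nhds_zero_nat
  set H := ∫ x, W x ^ 2 / ρ x with hH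
  set f : ℕ → E n → ℝ := fun m x => ch n m x ^ 2 * (cv ((φ m).normed volume) W x ^ 2 / ρ x) with hf
  have hfc : ∀ m, Continuous (f m) := fun m =>
    ((ch_smooth m).continuous.pow 2).mul ((((hM m).cv_smooth S.int).continuous.pow 2).div
      P.smooth.continuous fun x => (P.pos x).ne')
  have hf0 : ∀ m x, 0 ≤ f m x := fun m x => mul_nonneg (sq_nonneg _)
    (div_nonneg (sq_nonneg _) (P.pos x).le)
  have hfs : ∀ m, HasCompactSupport (f m) := fun m => by
    have hc2 : HasCompactSupport fun x => ch n m x ^ 2 := by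
      have := (ch_cs (n := n) m).mul_left (f := ch n m)
      have e : (fun x => ch n m x ^ 2) = ch n m * ch n m := by funext x; simp [sq]
      rw [e]; exact this
    exact hc2.mul_right (f' := fun x => cv ((φ m).normed volume) W x ^ 2 / ρ x)
  have key : ∀ m, ∫ x, f m x ≤
      (n * (6 * (B / (m + 1 : ℝ) ^ 2) + 3 * (L * ε m) ^ 2)) * H := fun m =>
    cacc (hM m) P S (ch_smooth m) (ch_cs m)
      (fun x => pow_le_one₀ (ch_nonneg m x) (ch_le_one m x)) (fun k x => hB m k x)
      (fun x hx y hy => hε m x (by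
        have := ch_tsupport m hx
        rwa [mem_closedBall_zero_iff] at this) y hy)
  -- a.e. convergence
  have hae : ∀ᵐ x, Tendsto (fun m => f m x) atTop (𝓝 (W x ^ 2 / ρ x)) := by
    have h1 := ContDiffBump.ae_convolution_tendsto_right_of_locallyIntegrable (μ := volume)
      (φ := φ) (l := atTop) (K := 2) hεt (Eventually.of_forall fun m => by
        change ε m ≤ 2 * (ε m / 2)
        linarith) S.int.locallyIntegrable
    filter_upwards [h1] with x hx
    have h2 : Tendsto (fun m => cv ((φ m).normed volume) W x) atTop (𝓝 (W x)) := by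
      refine hx.congr fun m => ?_
      rw [cv_eq]
    have h3 : Tendsto (fun m => ch n m x) atTop (𝓝 1) := by
      refine tendsto_const_nhds.congr' ?_
      obtain ⟨N, hN⟩ := exists_nat_ge ‖x‖
      filter_upwards [eventually_ge_atTop N] with m hm
      have : (N : ℝ) ≤ m := by exact_mod_cast hm
      exact (ch_one m (by linarith)).symm
    have h4 := (h3.pow 2).mul ((h2.pow 2).div_const (ρ x))
    simpa using h4
  -- Fatou
  have h1 : ∫⁻ x, ENNReal.ofReal (W x ^ 2 / ρ x) ≤ 0 := by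
    calc ∫⁻ x, ENNReal.ofReal (W x ^ 2 / ρ x)
        = ∫⁻ x, liminf (fun m => ENNReal.ofReal (f m x)) atTop := by
          refine lintegral_congr_ae ?_
          filter_upwards [hae] with x hx
          exact ((ENNReal.continuous_ofReal.tendsto _).comp hx).liminf_eq.symm
      _ ≤ liminf (fun m => ∫⁻ x, ENNReal.ofReal (f m x)) atTop :=
          lintegral_liminf_le fun m => (hfc m).measurable.ennreal_ofReal
      _ ≤ liminf (fun m : ℕ => ENNReal.ofReal
            ((n * (6 * (B / (m + 1 : ℝ) ^ 2) + 3 * (L * ε m) ^ 2)) * H)) atTop := by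
          refine liminf_le_liminf (Eventually.of_forall fun m => ?_)
          rw [← ofReal_integral_eq_lintegral_ofReal (cc_int (hfc m) (hfs m))
            (ae_of_all _ (hf0 m))]
          exact ENNReal.ofReal_le_ofReal (key m)
      _ = 0 := by
          have t1 : Tendsto (fun m : ℕ => B / (m + 1 : ℝ) ^ 2) atTop (𝓝 0) := by
            have h2 : Tendsto (fun m : ℕ => (1 / ((m : ℝ) + 1)) ^ 2) atTop (𝓝 (0 ^ 2)) :=
              tendsto_one_div_add_atTop_nhds_zero_nat.pow 2
            have h3 := h2.const_mul B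
            simp only [ne_eq, OfNat.ofNat_ne_zero, not_false_eq_true, zero_pow, mul_zero] at h3
            refine h3.congr fun m => ?_
            rw [div_pow, one_pow, mul_one_div]
          have t2 : Tendsto (fun m : ℕ => (L * ε m) ^ 2) atTop (𝓝 0) := by
            have := (hεt.const_mul L).pow 2
            simpa using this
          have t3 : Tendsto (fun m : ℕ => (n * (6 * (B / (m + 1 : ℝ) ^ 2) + 3 * (L * ε m) ^ 2)) * H)
              atTop (𝓝 0) := by
            have := (((t1.const_mul 6).add (t2.const_mul 3)).const_mul (n : ℝ)).mul_const H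
            simpa using this
          have t4 := (ENNReal.continuous_ofReal.tendsto _).comp t3
          rw [ENNReal.ofReal_zero] at t4
          exact t4.liminf_eq
  have h2 : ∫⁻ x, ENNReal.ofReal (W x ^ 2 / ρ x) = 0 := le_antisymm h1 bot_le
  rw [lintegral_eq_zero_iff' S.inth.aestronglyMeasurable.aemeasurable.ennreal_ofReal] at h2
  filter_upwards [h2] with x hx
  have h3 : W x ^ 2 / ρ x ≤ 0 := ENNReal.ofReal_eq_zero.1 hx
  have h4 := P.pos x
  have h5 : W x ^ 2 ≤ 0 := by
    rw [div_le_iff₀ h4, zero_mul] at h3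
    exact h3
  have h6 : W x = 0 := by nlinarith [sq_nonneg (W x)]
  exact h6

end Crest.Agent.R201.An
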