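import Crest.Agent.R201.Tw4_807

/-!
# R201, KLS half (helper807): existence of the tower
-/

set_option autoImplicit false
open MeasureTheory Matrix
open scoped ContDiff

namespace Crest.Agent.R201.Tw807

open Crest.Agent.R201

variable {n : ℕ} {K : KD n}

/-- `q` of a family is the sum of the scalar `q` -/
theorem q_eq {ι : Type*} [Fintype ι] (f : ι → E n → ℝ) : K.q f = ∑ i, qs K (f i) := by
  unfold KD.q qs dsq tsq nsq msq
  rw [Finset.sum_sub_distrib, Finset.sum_add_distrib, ← Finset.mul_sum, ← Finset.mul_sum,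
    Finset.sum_sub_distrib]

/-- sum over the slots of level `j + 1` -/
theorem sum_snoc {j : ℕ} (F : (Fin (j + 1) → Fin n) → ℝ) :
    ∑ w, F w = ∑ w : Fin j → Fin n, ∑ k : Fin n, F (Fin.snoc w k) := by
  rw [Finset.sum_comm, ← Fintype.sum_prod_type']
  exact (Fintype.sum_equiv (Fin.snocEquiv fun _ : Fin (j + 1) => Fin n) _ _
    fun p => rfl).symm

/-- a level of the tower -/
structure Lv (n j : ℕ) where
  Ψ : (Fin j → Fin n) → E n → ℝ
  cb : ∀ w, CB (Ψ w)

/-- the scale of the error of one function -/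
noncomputable def dl (n j : ℕ) (δ : ℝ) : ℝ := δ / (Fintype.card (Fin j → Fin n) + 1)

theorem dl_pos (n j : ℕ) {δ : ℝ} (hδ : 0 < δ) : 0 < dl n j δ := by
  unfold dl; positivity

theorem dl_sum (n j : ℕ) {δ : ℝ} (hδ : 0 < δ) : ∑ _w : Fin j → Fin n, dl n j δ ≤ δ := by
  unfold dl
  rw [Finset.sum_const, Finset.card_univ, nsmul_eq_mul, mul_div_assoc', div_le_iff₀ (by positivity)]
  nlinarith

theorem phi_ex (B : Base K) {δ : ℝ} (hδ : 0 < δ) {j : ℕ} (L : Lv n j) (w : Fin j → Fin n) :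
    ∃ φ : E n → ℝ, ContDiff ℝ ∞ φ ∧ HasCompactSupport φ ∧
      ∫ x, (φ x + AA K φ x - (2 + K.ε) * L.Ψ w x) ^ 2 ∂K.μ ≤ dl n j δ :=
  B.dens (fun x => (2 + K.ε) * L.Ψ w x) (memLp_cb K (cb_const_mul _ (L.cb w)) 2) _
    (dl_pos n j hδ)

noncomputable def phi (B : Base K) {δ : ℝ} (hδ : 0 < δ) {j : ℕ} (L : Lv n j)
    (w : Fin j → Fin n) : E n → ℝ := Classical.choose (phi_ex B hδ L w)

theorem phi_smooth (B : Base K) {δ : ℝ} (hδ : 0 < δ) {j : ℕ} (L : Lv n j)
    (w : Fin j → Fin n) : ContDiff ℝ ∞ (phi B hδ L w) := (Classical.choose_spec (phi_ex B hδ L w)).1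

theorem phi_cs (B : Base K) {δ : ℝ} (hδ : 0 < δ) {j : ℕ} (L : Lv n j)
    (w : Fin j → Fin n) : HasCompactSupport (phi B hδ L w) :=
  (Classical.choose_spec (phi_ex B hδ L w)).2.1

theorem phi_err (B : Base K) {δ : ℝ} (hδ : 0 < δ) {j : ℕ} (L : Lv n j)
    (w : Fin j → Fin n) :
    ∫ x, (phi B hδ L w x + AA K (phi B hδ L w) x - (2 + K.ε) * L.Ψ w x) ^ 2 ∂K.μ ≤ dl n j δ :=
  (Classical.choose_spec (phi_ex B hδ L w)).2.2

noncomputable def next (B : Base K) {δ : ℝ} (hδ : 0 < δ) {j : ℕ} (L : Lv n j) : Lv n (j + 1) where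
  Ψ w' := pd (w' (Fin.last j)) (phi B hδ L (Fin.init w'))
  cb _ := cb_cc (pd_smooth (phi_smooth B hδ L _) _) (pd_cs (phi_cs B hδ L _) _)

theorem next_snoc (B : Base K) {δ : ℝ} (hδ : 0 < δ) {j : ℕ} (L : Lv n j) (w : Fin j → Fin n)
    (k : Fin n) : (next B hδ L).Ψ (Fin.snoc w k) = pd k (phi B hδ L w) := by
  simp [next]

/-- the tower -/
noncomputable def lv (B : Base K) {δ : ℝ} (hδ : 0 < δ) {g : E n → ℝ} (hg : CB g) :
    (j : ℕ) → Lv n j
  | 0 => ⟨fun _ => g, fun _ => hg⟩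
  | j + 1 => next B hδ (lv B hδ hg j)

/-! ### family versions of the step -/

section Level

variable (B : Base K) {δ : ℝ} (hδ : 0 < δ) {j : ℕ} (L : Lv n j)

theorem msq_next : msq K.μ (next B hδ L).Ψ =
    ∑ w : Fin j → Fin n, ∑ k, (∫ x, pd k (phi B hδ L w) x ∂K.μ) ^ 2 := by
  unfold msq
  rw [sum_snoc]
  simp only [next_snoc]

include B hδ in
theorem q_nonneg : 0 ≤ K.q L.Ψ := by
  rw [q_eq]
  exact Finset.sum_nonneg fun w _ => (step B (L.cb w) (phi_smooth B hδ L w) (phi_cs B hδ L w)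
    (dl_pos n j hδ).le (phi_err B hδ L w)).2.2.2

theorem near_fam : ∑ w : Fin j → Fin n, ∑ k, ∫ x, (pd k (L.Ψ w) x - pd k (phi B hδ L w) x) ^ 2 ∂K.μ
    ≤ 1.01 * (K.q L.Ψ + 0.2 * tsq K.μ K.ω L.Ψ) + 10.21 * δ := by
  have h := Finset.sum_le_sum (s := (Finset.univ : Finset (Fin j → Fin n))) fun w _ =>
    (step B (L.cb w) (phi_smooth B hδ L w) (phi_cs B hδ L w) (dl_pos n j hδ).le
      (phi_err B hδ L w)).1
  refine h.trans ?_
  rw [Finset.sum_add_distrib, ← Finset.mul_sum, ← Finset.mul_sum, Finset.sum_add_distrib,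
    ← Finset.mul_sum, ← q_eq]
  have := dl_sum n j hδ
  unfold tsq
  linarith

theorem tsq_fam : tsq K.μ K.ω L.Ψ ≤
    1.119 * msq K.μ (next B hδ L).Ψ + 0.085 * K.q L.Ψ + 1.09 * δ := by
  have h := Finset.sum_le_sum (s := (Finset.univ : Finset (Fin j → Fin n))) fun w _ =>
    (step B (L.cb w) (phi_smooth B hδ L w) (phi_cs B hδ L w) (dl_pos n j hδ).le
      (phi_err B hδ L w)).2.1
  unfold tsq
  refine h.trans ?_
  rw [Finset.sum_add_distrib, Finset.sum_add_distrib, ← Finset.mul_sum, ← Finset.mul_sum,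
    ← Finset.mul_sum, ← q_eq, msq_next]
  have := dl_sum n j hδ
  linarith

theorem X_fam : (∑ w, ∫ x, AA K (phi B hδ L w) x ^ 2 ∂K.μ) -
      (1 + K.ε) * nsq K.μ (next B hδ L).Ψ + (1 + K.ε) * msq K.μ (next B hδ L).Ψ ≤
        1.165 * K.q L.Ψ - 0.744 * msq K.μ (next B hδ L).Ψ + 54 * δ := by
  have h := Finset.sum_le_sum (s := (Finset.univ : Finset (Fin j → Fin n))) fun w _ =>
    (step B (L.cb w) (phi_smooth B hδ L w) (phi_cs B hδ L w) (dl_pos n j hδ).le
      (phi_err B hδ L w)).2.2.1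
  simp only [Finset.sum_add_distrib, Finset.sum_sub_distrib, ← Finset.mul_sum, ← q_eq,
    ← msq_next] at h
  have h1 : nsq K.μ (next B hδ L).Ψ =
      ∑ w : Fin j → Fin n, ∑ k, ∫ x, pd k (phi B hδ L w) x ^ 2 ∂K.μ := by
    unfold nsq
    rw [sum_snoc]
    simp only [next_snoc]
  rw [h1]
  have := dl_sum n j hδ
  linarith

theorem int_V2 {φ : E n → ℝ} (hφ : ContDiff ℝ ∞ φ) (hs : HasCompactSupport φ) (k l : Fin n) :
    Integrable (fun x => K.V2 x k l * pd k φ x * pd l φ x) K.μ := by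
  have hc : Continuous (fun x => K.V2 x k l * pd k φ x * pd l φ x) :=
    ((K.V2_cont k l).mul (pd_smooth hφ k).continuous).mul (pd_smooth hφ l).continuous
  obtain ⟨C, hC⟩ := bdd_of_cc hc ((pd_cs hs l).mul_left
    (f := fun x => K.V2 x k l * pd k φ x))
  exact int_bdd K hc hC

theorem bochner_fam : dsq K.μ (next B hδ L).Ψ +
    en K.μ K.V2 (fun p (w : Fin j → Fin n) => (next B hδ L).Ψ (Fin.snoc w p)) =
    ∑ w, ∫ x, AA K (phi B hδ L w) x ^ 2 ∂K.μ := by
  unfold dsq en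
  rw [sum_snoc]
  simp only [next_snoc]
  rw [integral_finsetSum _ fun w _ => integrable_finsetSum _ fun k _ =>
    integrable_finsetSum _ fun l _ => int_V2 (phi_smooth B hδ L w) (phi_cs B hδ L w) k l,
    ← Finset.sum_add_distrib]
  exact Finset.sum_congr rfl fun w _ => bochner B (phi_smooth B hδ L w) (phi_cs B hδ L w)

theorem en_nonneg : 0 ≤ en K.μ K.V2 (fun p (w : Fin j → Fin n) =>
    (next B hδ L).Ψ (Fin.snoc w p)) := by
  unfold en
  refine integral_nonneg fun x => Finset.sum_nonneg fun w _ => ?_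
  have h := K.V2_nonneg x fun p => (next B hδ L).Ψ (Fin.snoc w p) x
  rw [Matrix.zero_mulVec, dotProduct_zero] at h
  refine h.trans (le_of_eq ?_)
  simp only [dotProduct, Matrix.mulVec, Finset.mul_sum]
  refine Finset.sum_congr rfl fun p _ => Finset.sum_congr rfl fun p' _ => ?_
  ring

theorem recur_fam : K.q (next B hδ L).Ψ +
    en K.μ K.V2 (fun p (w : Fin j → Fin n) => (next B hδ L).Ψ (Fin.snoc w p)) +
    msq K.μ (next B hδ L).Ψ / 2 ≤
      2 * K.q L.Ψ + 3 * msq K.μ (next B hδ (next B hδ L)).Ψ + 70 * δ := by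
  have h1 := X_fam B hδ L
  have h2 := tsq_fam B hδ (next B hδ L)
  have h3 := bochner_fam B hδ L
  have h4 := en_nonneg B hδ L
  have h5 := q_nonneg B hδ L
  have h6 : 0 ≤ msq K.μ (next B hδ L).Ψ := Finset.sum_nonneg fun _ _ => sq_nonneg _
  have h8 : 0 ≤ msq K.μ (next B hδ (next B hδ L)).Ψ := Finset.sum_nonneg fun _ _ => sq_nonneg _
  have h7 : K.q (next B hδ L).Ψ = dsq K.μ (next B hδ L).Ψ + 2 * tsq K.μ K.ω (next B hδ L).Ψ -
      (1 + K.ε) * nsq K.μ (next B hδ L).Ψ + (1 + K.ε) * msq K.μ (next B hδ L).Ψ := by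
    unfold KD.q
    rw [B.kp_eq]
    ring
  linarith

/-- `A` of a linear combination -/
theorem AA_lin {ι : Type*} [Fintype ι] (c : ι → ℝ) {φ : ι → E n → ℝ}
    (hφ : ∀ i, ContDiff ℝ ∞ (φ i)) (x : E n) :
    AA K (fun y => ∑ i, c i * φ i y) x = ∑ i, c i * AA K (φ i) x := by
  have h1 : ∀ k y, pd k (fun y => ∑ i, c i * φ i y) y = ∑ i, c i * pd k (φ i) y := by
    intro k y
    rw [pd_sum Finset.univ k fun i _ => ((hφ i).differentiable (by simp) y).const_mul (c i)]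
    exact Finset.sum_congr rfl fun i _ => pd_const_mul _ k ((hφ i).differentiable (by simp) y)
  have h2 : ∀ k y, pd k (pd k (fun y => ∑ i, c i * φ i y)) y =
      ∑ i, c i * pd k (pd k (φ i)) y := by
    intro k y
    have e : pd k (fun y => ∑ i, c i * φ i y) = fun y => ∑ i, c i * pd k (φ i) y :=
      funext fun y => h1 k y
    have d : ∀ i, DifferentiableAt ℝ (pd k (φ i)) y := fun i =>
      (pd_smooth (hφ i) k).differentiable (by simp) y
    rw [e, pd_sum Finset.univ k fun i _ => (d i).const_mul (c i)]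
    exact Finset.sum_congr rfl fun i _ => pd_const_mul _ k (d i)
  unfold AA
  simp only [h1, h2, Finset.mul_sum, ← Finset.sum_sub_distrib]
  rw [Finset.sum_comm]
  refine Finset.sum_congr rfl fun k _ => Finset.sum_congr rfl fun i _ => ?_
  ring

theorem pd_lin {ι : Type*} [Fintype ι] (c : ι → ℝ) {φ : ι → E n → ℝ}
    (hφ : ∀ i, ContDiff ℝ ∞ (φ i)) (k : Fin n) (x : E n) :
    pd k (fun y => ∑ i, c i * φ i y) x = ∑ i, c i * pd k (φ i) x := by
  rw [pd_sum Finset.univ k fun i _ => ((hφ i).differentiable (by simp) x).const_mul (c i)]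
  exact Finset.sum_congr rfl fun i _ => pd_const_mul _ k ((hφ i).differentiable (by simp) x)

theorem cs_lin {ι : Type*} [Fintype ι] (c : ι → ℝ) {φ : ι → E n → ℝ}
    (hφ : ∀ i, HasCompactSupport (φ i)) : HasCompactSupport (fun y => ∑ i, c i * φ i y) := by
  classical
  have h : ∀ s : Finset ι, HasCompactSupport (fun y => ∑ i ∈ s, c i * φ i y) := by
    intro s
    induction s using Finset.induction_on with
    | empty =>
      simp only [Finset.sum_empty]
      exact HasCompactSupport.zero (α := E n) (β := ℝ)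
    | insert a s ha ih =>
      have e : (fun y => ∑ i ∈ insert a s, c i * φ i y) =
          (fun y => c a * φ a y) + (fun y => ∑ i ∈ s, c i * φ i y) := by
        funext y
        rw [Finset.sum_insert ha]
        rfl
      rw [e]
      exact ((hφ a).mul_left (f := fun _ => c a)).add ih
  exact h Finset.univ

theorem contr_fam (c : (Fin j → Fin n) → ℝ) :
    ∑ k, ∫ x, (∑ w, c w * pd k (phi B hδ L w) x) ^ 2 ∂K.μ ≤
      (11 / 10) * (∫ x, (∑ w, c w * L.Ψ w x) ^ 2 ∂K.μ) + 6 * δ * ∑ w, c w ^ 2 := by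
  set Φ : E n → ℝ := fun y => ∑ w, c w * phi B hδ L w y with hΦ
  have sΦ : ContDiff ℝ ∞ Φ := ContDiff.sum fun w _ => contDiff_const.mul (phi_smooth B hδ L w)
  have csΦ : HasCompactSupport Φ := cs_lin c fun w => phi_cs B hδ L w
  have cΦ : CB Φ := cb_cc sΦ csΦ
  have cA : CB (AA K Φ) := cb_AA B sΦ csΦ
  have h1 := ibp_A B sΦ csΦ cΦ
  have h2 : ∀ k x, pd k Φ x = ∑ w, c w * pd k (phi B hδ L w) x := fun k x =>
    pd_lin c (fun w => phi_smooth B hδ L w) k x
  have h3 : ∑ k, ∫ x, (∑ w, c w * pd k (phi B hδ L w) x) ^ 2 ∂K.μ =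
      ∫ x, AA K Φ x * Φ x ∂K.μ := by
    rw [h1]
    refine Finset.sum_congr rfl fun k _ => ?_
    refine integral_congr_ae (Filter.Eventually.of_forall fun x => ?_)
    simp only [h2]
    ring
  rw [h3]
  set Er : (Fin j → Fin n) → E n → ℝ := fun w x =>
    phi B hδ L w x + AA K (phi B hδ L w) x - (2 + K.ε) * L.Ψ w x with hEr
  have cEr : ∀ w, CB (Er w) := fun w => cb_sub (cb_add
    (cb_cc (phi_smooth B hδ L w) (phi_cs B hδ L w))
    (cb_AA B (phi_smooth B hδ L w) (phi_cs B hδ L w))) (cb_const_mul _ (L.cb w))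
  have cS : CB (fun x => ∑ w, c w * L.Ψ w x) := cb_sum _ fun w _ => cb_const_mul _ (L.cb w)
  have h4 : ∀ x, Φ x + AA K Φ x = (2 + K.ε) * (∑ w, c w * L.Ψ w x) + ∑ w, c w * Er w x := by
    intro x
    rw [hΦ, AA_lin c (fun w => phi_smooth B hδ L w), Finset.mul_sum, ← Finset.sum_add_distrib,
      ← Finset.sum_add_distrib]
    refine Finset.sum_congr rfl fun w _ => ?_
    simp only [hEr]
    ring
  have hε0 := K.ε_nonneg
  have hε1 := K.ε_le
  have h5 : ∀ x, AA K Φ x * Φ x ≤ (11 / 10) * (∑ w, c w * L.Ψ w x) ^ 2 +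
      6 * ((∑ w, c w ^ 2) * ∑ w, Er w x ^ 2) := by
    intro x
    have e1 : 4 * (AA K Φ x * Φ x) ≤ (Φ x + AA K Φ x) ^ 2 := by
      nlinarith [sq_nonneg (Φ x - AA K Φ x)]
    rw [h4 x] at e1
    have e2 : (∑ w, c w * Er w x) ^ 2 ≤ (∑ w, c w ^ 2) * ∑ w, Er w x ^ 2 :=
      Finset.sum_mul_sq_le_sq_mul_sq _ _ _
    set S := ∑ w, c w * L.Ψ w x
    set Z := ∑ w, c w * Er w x
    have e3 : ((2 + K.ε) * S + Z) ^ 2 ≤ 1.05 * ((2 + K.ε) * S) ^ 2 + 21 * Z ^ 2 := by
      nlinarith [sq_nonneg ((2 + K.ε) * S - 20 * Z)]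
    have e4 : ((2 + K.ε) * S) ^ 2 ≤ 4.0401 * S ^ 2 := by
      rw [mul_pow]
      exact mul_le_mul_of_nonneg_right (by nlinarith) (sq_nonneg _)
    nlinarith [sq_nonneg S, sq_nonneg Z]
  have iS : Integrable (fun x => (∑ w, c w * L.Ψ w x) ^ 2) K.μ := by
    simpa [sq] using int_mul_cb (K := K) cS cS
  have iE : ∀ w, Integrable (fun x => Er w x ^ 2) K.μ := fun w => by
    simpa [sq] using int_mul_cb (K := K) (cEr w) (cEr w)
  have iE' : Integrable (fun x => 6 * ((∑ w, c w ^ 2) * ∑ w, Er w x ^ 2)) K.μ :=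
    ((integrable_finsetSum _ fun w _ => iE w).const_mul _).const_mul _
  have iR : Integrable (fun x => (11 / 10) * (∑ w, c w * L.Ψ w x) ^ 2 +
      6 * ((∑ w, c w ^ 2) * ∑ w, Er w x ^ 2)) K.μ := (iS.const_mul _).add iE'
  have h6 := integral_mono (int_mul_cb (K := K) cA cΦ) iR h5
  refine h6.trans ?_
  rw [integral_add (iS.const_mul _) iE', integral_const_mul, integral_const_mul,
    integral_const_mul, integral_finsetSum _ fun w _ => iE w]
  have h7 : ∑ w, ∫ x, Er w x ^ 2 ∂K.μ ≤ δ :=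
    (Finset.sum_le_sum fun w _ => phi_err B hδ L w).trans (dl_sum n j hδ)
  have h8 : 0 ≤ ∑ w, c w ^ 2 := Finset.sum_nonneg fun _ _ => sq_nonneg _
  have h9 := mul_le_mul_of_nonneg_left h7 h8
  linarith

end Level

/-- **existence of the tower** -/
theorem exists_tower (B : Base K) (κ : ℝ) (hκ : 0 < κ) : Nonempty (Tower K κ) := by
  have hδ : 0 < κ / 70 := by positivity
  obtain ⟨g, cg, g1, g2, g3⟩ := B.nearmin κ hκ
  have ms : ∀ j, 0 ≤ msq K.μ (lv B hδ cg j).Ψ := fun j => Finset.sum_nonneg fun _ _ => sq_nonneg _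
  refine ⟨{
    Ψ := fun j => (lv B hδ cg j).Ψ
    cb := fun j => (lv B hδ cg j).cb
    κ_pos := hκ
    dsymm := ?_
    start_norm := ?_
    start_mean := ?_
    start_q := ?_
    recur := ?_
    near := ?_
    contr := ?_
    t1 := ?_ }⟩
  · intro j w k l x
    change pd l ((next B hδ (lv B hδ cg j)).Ψ (Fin.snoc w k)) x =
      pd k ((next B hδ (lv B hδ cg j)).Ψ (Fin.snoc w l)) x
    rw [next_snoc, next_snoc, pd_comm (phi_smooth B hδ _ w)]
  · simp only [nsq, lv, Fintype.sum_unique, g1]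
  · simp only [msq, lv, Fintype.sum_unique, g2]
    norm_num
  · rw [q_eq]
    simp only [lv, Fintype.sum_unique]
    exact g3
  · intro j
    have h := recur_fam B hδ (lv B hδ cg j)
    have e : 70 * (κ / 70) = κ := by ring
    rw [e] at h
    exact h
  · intro j
    have h1 := near_fam B hδ (lv B hδ cg j)
    have h2 := tsq_fam B hδ (lv B hδ cg j)
    have h3 := q_nonneg B hδ (lv B hδ cg j)
    have h4 := ms (j + 1)
    change ∑ w : Fin j → Fin n, ∑ k, ∫ x, (pd k ((lv B hδ cg j).Ψ w) x -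
      (next B hδ (lv B hδ cg j)).Ψ (Fin.snoc w k) x) ^ 2 ∂K.μ ≤
      8 * (K.q (lv B hδ cg j).Ψ + msq K.μ (next B hδ (lv B hδ cg j)).Ψ) + κ
    change 0 ≤ msq K.μ (next B hδ (lv B hδ cg j)).Ψ at h4
    simp only [next_snoc]
    linarith
  · intro j c
    have h1 := contr_fam B hδ (lv B hδ cg j) c
    change ∑ k, ∫ x, (∑ w, c w * (next B hδ (lv B hδ cg j)).Ψ (Fin.snoc w k) x) ^ 2 ∂K.μ ≤
      (11 / 10) * (∫ x, (∑ w, c w * (lv B hδ cg j).Ψ w x) ^ 2 ∂K.μ) + κ * ∑ w, c w ^ 2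
    simp only [next_snoc]
    have h8 : 0 ≤ ∑ w, c w ^ 2 := Finset.sum_nonneg fun _ _ => sq_nonneg _
    have h9 : 6 * (κ / 70) * ∑ w, c w ^ 2 ≤ κ * ∑ w, c w ^ 2 :=
      mul_le_mul_of_nonneg_right (by linarith) h8
    linarith
  · intro j
    have h2 := tsq_fam B hδ (lv B hδ cg j)
    have h3 := q_nonneg B hδ (lv B hδ cg j)
    have h4 := ms (j + 1)
    change tsq K.μ K.ω (lv B hδ cg j).Ψ ≤
      2 * (K.q (lv B hδ cg j).Ψ + msq K.μ (next B hδ (lv B hδ cg j)).Ψ) + κ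
    change 0 ≤ msq K.μ (next B hδ (lv B hδ cg j)).Ψ at h4
    linarith

end Crest.Agent.R201.Tw807
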