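import Crest.Agent.R201.An8_293
import Crest.Agent.R201.An11_293
import Crest.Agent.R201.Tw5_807

/-!
# R201 AN-12: density of `(1 + A) C_c^∞` in `L²(μ)` and the field `dens` of `Base` (helper293)
-/

set_option autoImplicit false
open MeasureTheory Filter Topology Metric
open scoped ContDiff ENNReal RealInnerProductSpace NNReal

namespace Crest.Agent.R201.An

open Crest.Agent.R201 Crest.Agent.R201.Tw807

variable {n : ℕ} {ρ w : E n → ℝ} {L c R s : ℝ} {g : Fin n → E n → ℝ}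

/-- `φ + A φ` -/
noncomputable def TT (g : Fin n → E n → ℝ) (φ : E n → ℝ) (x : E n) : ℝ :=
  φ x + ∑ k, (g k x * pd k φ x - pd k (pd k φ) x)

lemma TT_cont (P : Pot ρ g L) {φ : E n → ℝ} (hφ : ContDiff ℝ ∞ φ) : Continuous (TT g φ) := by
  unfold TT
  exact hφ.continuous.add (continuous_finsetSum _ fun k _ =>
    ((P.gsmooth k).continuous.mul (pd_smooth hφ k).continuous).sub
      (pd_smooth (pd_smooth hφ k) k).continuous)

lemma TT_zero (g : Fin n → E n → ℝ) {φ : E n → ℝ} {x : E n} (hx : x ∉ tsupport φ) :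
    TT g φ x = 0 := by
  have h1 : ∀ k, pd k φ x = 0 := fun k => by
    have : x ∉ tsupport (pd k φ) := fun h => hx (tsupport_fderiv_apply_subset ℝ (ev k) h)
    exact image_eq_zero_of_notMem_tsupport this
  have h2 : ∀ k, pd k (pd k φ) x = 0 := fun k => by
    have : x ∉ tsupport (pd k (pd k φ)) := fun h =>
      hx (tsupport_fderiv_apply_subset ℝ (ev k) (tsupport_fderiv_apply_subset ℝ (ev k) h))
    exact image_eq_zero_of_notMem_tsupport this
  unfold TT
  rw [image_eq_zero_of_notMem_tsupport hx]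
  simp [h1, h2]

lemma TT_cs (g : Fin n → E n → ℝ) {φ : E n → ℝ} (hs : HasCompactSupport φ) :
    HasCompactSupport (TT g φ) :=
  HasCompactSupport.intro hs fun _ hx => TT_zero g hx

lemma TT_add (g : Fin n → E n → ℝ) {φ ψ : E n → ℝ} (hφ : ContDiff ℝ ∞ φ) (hψ : ContDiff ℝ ∞ ψ)
    (x : E n) : TT g (fun x => φ x + ψ x) x = TT g φ x + TT g ψ x := by
  have d1 := hφ.differentiable (by simp)
  have d2 := hψ.differentiable (by simp)
  have e1 : ∀ k, pd k (fun x => φ x + ψ x) = fun x => pd k φ x + pd k ψ x := fun k =>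
    funext fun x => pd_add k (d1 x) (d2 x)
  have e2 : ∀ k, pd k (pd k (fun x => φ x + ψ x)) x = pd k (pd k φ) x + pd k (pd k ψ) x :=
    fun k => by
      rw [e1]
      exact pd_add k ((pd_smooth hφ k).differentiable (by simp) x)
        ((pd_smooth hψ k).differentiable (by simp) x)
  unfold TT
  rw [add_add_add_comm, ← Finset.sum_add_distrib]
  congr 1
  exact Finset.sum_congr rfl fun k _ => by
    rw [e2 k, congrFun (e1 k) x]
    ring

lemma TT_smul (g : Fin n → E n → ℝ) {φ : E n → ℝ} (a : ℝ) (hφ : ContDiff ℝ ∞ φ)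
    (x : E n) : TT g (fun x => a * φ x) x = a * TT g φ x := by
  have d1 := hφ.differentiable (by simp)
  have e1 : ∀ k, pd k (fun x => a * φ x) = fun x => a * pd k φ x := fun k =>
    funext fun x => pd_const_mul a k (d1 x)
  have e2 : ∀ k, pd k (pd k (fun x => a * φ x)) x = a * pd k (pd k φ) x :=
    fun k => by
      rw [e1]
      exact pd_const_mul a k ((pd_smooth hφ k).differentiable (by simp) x)
  unfold TT
  rw [mul_add, Finset.mul_sum]
  congr 1
  exact Finset.sum_congr rfl fun k _ => by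
    rw [e2 k, congrFun (e1 k) x]
    ring

lemma TT_memLp (hρ : Ex ρ) (P : Pot ρ g L) {φ : E n → ℝ} (hφ : ContDiff ℝ ∞ φ)
    (hs : HasCompactSupport φ) : MemLp (TT g φ) 2 (nm ρ) := by
  obtain ⟨B, hB⟩ := bdd_of_cc (TT_cont P hφ) (TT_cs g hs)
  exact memLp_nm hρ (EG.of_bdd (TT_cont P hφ).measurable hB)

/-- the range of `1 + A` -/
noncomputable def RS (_hρ : Ex ρ) (g : Fin n → E n → ℝ) : Submodule ℝ (MeasureTheory.Lp ℝ 2 (nm ρ)) where
  carrier := {f | ∃ φ : E n → ℝ, ContDiff ℝ ∞ φ ∧ HasCompactSupport φ ∧ f =ᵐ[nm ρ] TT g φ}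
  add_mem' := by
    rintro f₁ f₂ ⟨φ, h1, h2, h3⟩ ⟨ψ, k1, k2, k3⟩
    refine ⟨fun x => φ x + ψ x, h1.add k1, h2.add k2, ?_⟩
    filter_upwards [h3, k3, MeasureTheory.Lp.coeFn_add f₁ f₂] with x a b c
    rw [c, Pi.add_apply, a, b, TT_add g h1 k1]
  zero_mem' := by
    refine ⟨fun _ => 0, contDiff_const, HasCompactSupport.zero, ?_⟩
    filter_upwards [MeasureTheory.Lp.coeFn_zero ℝ 2 (nm ρ)] with x hx
    rw [hx]
    have e1 : ∀ k, pd k (fun _ : E n => (0 : ℝ)) = fun _ => 0 := fun k => funext fun x =>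
      pd_const 0 k x
    unfold TT
    simp [e1]
  smul_mem' := by
    rintro a f ⟨φ, h1, h2, h3⟩
    refine ⟨fun x => a * φ x, contDiff_const.mul h1, h2.mul_left (f := fun _ => a), ?_⟩
    filter_upwards [h3, MeasureTheory.Lp.coeFn_smul a f] with x b c
    rw [c, Pi.smul_apply, b, TT_smul g a h1, smul_eq_mul]

theorem RS_orth (hρ : Ex ρ) (P : Pot ρ g L) (hg : ∀ k, EG (g k)) : (RS hρ g)ᗮ = ⊥ := by
  have hpr : IsProbabilityMeasure (nm ρ) := nm_prob hρ
  rw [Submodule.eq_bot_iff]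
  intro v hv
  rw [Submodule.mem_orthogonal] at hv
  have hv2 : MemLp v 2 (nm ρ) := MeasureTheory.Lp.memLp v
  have hZ := hρ.pos
  have S : Sol ρ g (fun x => v x * ρ x) := by
    refine ⟨?_, fun k => ?_, ?_, fun φ hφ hs => ?_⟩
    · exact (integrable_nm_iff hρ).1 (hv2.integrable (by norm_num))
    · have i1 : Integrable (fun x => g k x * v x) (nm ρ) := (memLp_nm hρ (hg k)).integrable_mul hv2
      have := (integrable_nm_iff hρ).1 i1
      refine this.congr (ae_of_all _ fun x => ?_)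
      simp only
      ring
    · have i1 : Integrable (fun x => v x ^ 2) (nm ρ) := hv2.integrable_sq
      have := (integrable_nm_iff hρ).1 i1
      refine this.congr (ae_of_all _ fun x => ?_)
      have := (P.pos x).ne'
      simp only
      field_simp
    · have hT := TT_memLp hρ P hφ hs
      have h1 := hv (hT.toLp _) ⟨φ, hφ, hs, hT.coeFn_toLp⟩
      rw [MeasureTheory.L2.inner_def] at h1
      have h2 : ∫ x, v x * TT g φ x ∂(nm ρ) = 0 := by
        rw [← h1]
        refine integral_congr_ae ?_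
        filter_upwards [hT.coeFn_toLp] with x hx
        rw [hx]
        simp
      rw [int_nm hρ] at h2
      unfold Em at h2
      rw [div_eq_zero_iff] at h2
      rcases h2 with h2 | h2
      · rw [← h2]
        refine integral_congr_ae (ae_of_all _ fun x => ?_)
        simp only [TT]
        ring
      · exact absurd h2 hZ.ne'
  have h0 := sol_zero P S
  have h1 : ∀ᵐ x ∂(nm ρ), v x * ρ x = 0 := by
    have : nm ρ ≪ volume := withDensity_absolutelyContinuous _ _
    exact this.ae_le h0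
  rw [MeasureTheory.Lp.eq_zero_iff_ae_eq_zero]
  filter_upwards [h1] with x hx
  rcases mul_eq_zero.1 hx with h | h
  · exact h
  · exact absurd h (P.pos x).ne'

theorem dens_gen (hρ : Ex ρ) (P : Pot ρ g L) (hg : ∀ k, EG (g k)) {F : E n → ℝ}
    (hF : MemLp F 2 (nm ρ)) {δ : ℝ} (hδ : 0 < δ) : ∃ φ : E n → ℝ,
    ContDiff ℝ ∞ φ ∧ HasCompactSupport φ ∧ ∫ x, (TT g φ x - F x) ^ 2 ∂(nm ρ) ≤ δ := by
  have h1 : (RS hρ g).topologicalClosure = ⊤ :=
    (Submodule.topologicalClosure_eq_top_iff).2 (RS_orth hρ P hg)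
  have h2 : hF.toLp F ∈ (RS hρ g).topologicalClosure := by rw [h1]; trivial
  have h3 : hF.toLp F ∈ closure ((RS hρ g : Set (MeasureTheory.Lp ℝ 2 (nm ρ)))) := h2
  rw [Metric.mem_closure_iff] at h3
  obtain ⟨v, ⟨φ, hφ, hs, hv⟩, hd⟩ := h3 (√δ) (Real.sqrt_pos.2 hδ)
  refine ⟨φ, hφ, hs, ?_⟩
  rw [dist_comm, dist_eq_norm] at hd
  have h4 : ‖v - hF.toLp F‖ ^ 2 ≤ δ := by
    calc ‖v - hF.toLp F‖ ^ 2 ≤ (√δ) ^ 2 := pow_le_pow_left₀ (norm_nonneg _) hd.le 2
      _ = δ := Real.sq_sqrt hδ.le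
  refine le_trans (le_of_eq ?_) h4
  rw [← real_inner_self_eq_norm_sq, MeasureTheory.L2.inner_def]
  refine integral_congr_ae ?_
  filter_upwards [hv, hF.coeFn_toLp, MeasureTheory.Lp.coeFn_sub v (hF.toLp F)] with x a b c
  rw [c, Pi.sub_apply, a, b]
  simp [sq]

/-! ### the instance -/

lemma Vg_lip (hw : Wt c R w) (hs : 0 < s) : ∃ L : ℝ, 0 ≤ L ∧ ∀ k x y,
    |Vg w s k x - Vg w s k y| ≤ L * ‖x - y‖ := by
  have h1 : ∀ k l : Fin n, ∃ B : ℝ, ∀ x, |Vh w s x l k| ≤ B := fun k l => Vh_bdd hw hs l k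
  choose B hB using h1
  set Lk : Fin n → ℝ := fun k => √(∑ l, B k l ^ 2) with hLk
  have hL0 : ∀ k, 0 ≤ Lk k := fun k => Real.sqrt_nonneg _
  refine ⟨∑ k, Lk k, Finset.sum_nonneg fun k _ => hL0 k, fun k x y => ?_⟩
  have hd : Differentiable ℝ (Vg w s k) := (Vg_contDiff hw.ex hs k).differentiable (by simp)
  have h2 : ∀ x, ‖fderiv ℝ (Vg w s k) x‖ ≤ Lk k := by
    intro x
    apply Real.le_sqrt_of_sq_le
    rw [norm_fderiv_sq]
    refine Finset.sum_le_sum fun l _ => ?_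
    rw [pd_Vg hw.ex hs, ← sq_abs]
    exact pow_le_pow_left₀ (abs_nonneg _) (hB k l x) 2
  have h3 : ‖Vg w s k x - Vg w s k y‖ ≤ Lk k * ‖x - y‖ :=
    Convex.norm_image_sub_le_of_norm_fderiv_le (𝕜 := ℝ) (fun x _ => hd x) (fun x _ => h2 x)
      convex_univ (Set.mem_univ y) (Set.mem_univ x)
  rw [Real.norm_eq_abs] at h3
  refine h3.trans (mul_le_mul_of_nonneg_right ?_ (norm_nonneg _))
  exact Finset.single_le_sum (f := Lk) (fun k _ => hL0 k) (Finset.mem_univ k)

theorem pot_noisy (hw : Wt c R w) (hs : 0 < s) :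
    ∃ L : ℝ, Pot (An.Lp w s fun _ => 1) (Vg w s) L := by
  obtain ⟨L, hL, h⟩ := Vg_lip hw hs
  exact ⟨L, contDiff_Lp_infty hw.ex hs (EG.const 1), fun x => Lp_one_pos hw.ex hs x,
    fun k => Vg_contDiff hw.ex hs k, fun k x => pd_noisy hw.ex hs k x, h, hL⟩

variable {σ : ℝ}

/-- **the analytic side is complete**: `Base` holds for the instance. -/
theorem base_KY (H : Hyp c R σ s w) : Tw807.Base (KY H) := by
  have hh : 0 < 2 * s + s := by linarith [H.s_pos]
  obtain ⟨L, P⟩ := pot_noisy H.wt hh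
  refine KY_base H fun F hF δ hδ => ?_
  exact dens_gen (H.wt.ex.noisy hh) P (fun k => EG.Vg H.wt hh k) hF hδ

end Crest.Agent.R201.An
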