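import Crest.Agent.R201.Tw3_807

/-!
# R201, KLS half (helper807): the resolvent step for one function
-/

set_option autoImplicit false
open MeasureTheory Matrix
open scoped ContDiff

namespace Crest.Agent.R201.Tw807

open Crest.Agent.R201

variable {n : ℕ} {K : KD n}

/-- scalar form `q` -/
noncomputable def qs (K : KD n) (f : E n → ℝ) : ℝ :=
  (∑ k, ∫ x, pd k f x ^ 2 ∂K.μ) + K.kp * (∑ k, (∫ x, K.ω k x * f x ∂K.μ) ^ 2)
      - (1 + K.ε) * ((∫ x, f x ^ 2 ∂K.μ) - (∫ x, f x ∂K.μ) ^ 2)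

theorem int_Vg (k : Fin n) : ∫ x, K.Vg k x ∂K.μ = 0 := by
  have := K.ibp k (fun _ => 1) (cb_const 1)
  simpa [pd_const] using this

theorem integrable_Vg (k : Fin n) : Integrable (K.Vg k) K.μ :=
  (K.Vg_L2 k).integrable (by norm_num)

theorem int_ω (k : Fin n) : ∫ x, K.ω k x ∂K.μ = 0 := by
  simp only [K.ω_eq]
  rw [integral_add (int_cb K (K.r_cb k)) ((integrable_Vg k).const_mul _), integral_const_mul,
    int_Vg, K.r_mean]
  simp

theorem ω_C1 (B : Base K) (k : Fin n) : ContDiff ℝ 1 (K.ω k) := by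
  have h : K.ω k = fun x => K.r k x + K.h * K.Vg k x := funext fun x => K.ω_eq k x
  rw [h]
  exact (K.r_cb k).1.add (contDiff_const.mul ((B.Vg_smooth k).of_le (by norm_cast)))

theorem pd_ω (B : Base K) (j k : Fin n) (x : E n) : pd j (K.ω k) x = if j = k then 1 else 0 := by
  have h : K.ω k = fun x => K.r k x + K.h * K.Vg k x := funext fun x => K.ω_eq k x
  rw [h]
  have d1 : DifferentiableAt ℝ (K.r k) x := cb_diff (K.r_cb k) x
  have d2 : DifferentiableAt ℝ (K.Vg k) x := (B.Vg_smooth k).differentiable (by simp) x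
  rw [pd_add j d1 (d2.const_mul _), pd_const_mul _ j d2, K.r_pd, ← B.V2_eq k j x,
    hess_symm (K := K) k j x]
  ring

/-- `∫ D_k φ = ∫ ω_k Aφ` -/
theorem int_pd_eq (B : Base K) {φ : E n → ℝ} (hφ : ContDiff ℝ ∞ φ) (hs : HasCompactSupport φ)
    (k : Fin n) : ∫ x, pd k φ x ∂K.μ = ∫ x, AA K φ x * K.ω k x ∂K.μ := by
  rw [ibp_A' B hφ hs (ω_C1 B k)]
  simp only [pd_ω B]
  rw [Finset.sum_eq_single k]
  · simp
  · intro j _ hj
    simp [hj]
  · simp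

theorem int_mulω {f : E n → ℝ} (hf : CB f) (k : Fin n) :
    Integrable (fun x => K.ω k x * f x) K.μ :=
  (K.ω_L2 k).integrable_mul (memLp_cb K hf 2)

/-- bilinear expansion -/
theorem quad {u w z : E n → ℝ} (hu : CB u) (hw : CB w) (hz : CB z) (a b c a' b' c' : ℝ) :
    ∫ x, (a * u x + b * w x + c * z x) * (a' * u x + b' * w x + c' * z x) ∂K.μ =
      a * a' * (∫ x, u x * u x ∂K.μ) + b * b' * (∫ x, w x * w x ∂K.μ) +
      c * c' * (∫ x, z x * z x ∂K.μ) + (a * b' + a' * b) * (∫ x, u x * w x ∂K.μ) +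
      (a * c' + a' * c) * (∫ x, u x * z x ∂K.μ) + (b * c' + b' * c) * (∫ x, w x * z x ∂K.μ) := by
  have h : ∀ x, (a * u x + b * w x + c * z x) * (a' * u x + b' * w x + c' * z x) =
      a * a' * (u x * u x) + b * b' * (w x * w x) + c * c' * (z x * z x) +
      (a * b' + a' * b) * (u x * w x) + (a * c' + a' * c) * (u x * z x) +
      (b * c' + b' * c) * (w x * z x) := fun x => by ring
  simp only [h]
  have i1 := (int_mul_cb (K := K) hu hu).const_mul (a * a')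
  have i2 := (int_mul_cb (K := K) hw hw).const_mul (b * b')
  have i3 := (int_mul_cb (K := K) hz hz).const_mul (c * c')
  have i4 := (int_mul_cb (K := K) hu hw).const_mul (a * b' + a' * b)
  have i5 := (int_mul_cb (K := K) hu hz).const_mul (a * c' + a' * c)
  have i6 := (int_mul_cb (K := K) hw hz).const_mul (b * c' + b' * c)
  have j2 : Integrable (fun x => a * a' * (u x * u x) + b * b' * (w x * w x)) K.μ := i1.add i2
  have j3 : Integrable (fun x => a * a' * (u x * u x) + b * b' * (w x * w x) +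
    c * c' * (z x * z x)) K.μ := j2.add i3
  have j4 : Integrable (fun x => a * a' * (u x * u x) + b * b' * (w x * w x) +
    c * c' * (z x * z x) + (a * b' + a' * b) * (u x * w x)) K.μ := j3.add i4
  have j5 : Integrable (fun x => a * a' * (u x * u x) + b * b' * (w x * w x) +
    c * c' * (z x * z x) + (a * b' + a' * b) * (u x * w x) +
    (a * c' + a' * c) * (u x * z x)) K.μ := j4.add i5
  rw [integral_add j5 i6, integral_add j4 i5, integral_add j3 i4, integral_add j2 i3,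
    integral_add i1 i2]
  simp only [integral_const_mul]

theorem quadω {u w z : E n → ℝ} (hu : CB u) (hw : CB w) (hz : CB z) (a b c : ℝ) (k : Fin n) :
    ∫ x, (a * u x + b * w x + c * z x) * K.ω k x ∂K.μ =
      a * (∫ x, K.ω k x * u x ∂K.μ) + b * (∫ x, K.ω k x * w x ∂K.μ) +
      c * (∫ x, K.ω k x * z x ∂K.μ) := by
  have h : ∀ x, (a * u x + b * w x + c * z x) * K.ω k x =
      a * (K.ω k x * u x) + b * (K.ω k x * w x) + c * (K.ω k x * z x) := fun x => by ring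
  simp only [h]
  have i1 := (int_mulω (K := K) hu k).const_mul a
  have i2 := (int_mulω (K := K) hw k).const_mul b
  have i3 := (int_mulω (K := K) hz k).const_mul c
  have j2 : Integrable (fun x => a * (K.ω k x * u x) + b * (K.ω k x * w x)) K.μ := i1.add i2
  rw [integral_add j2 i3, integral_add i1 i2]
  simp only [integral_const_mul]

/-- mean zero part -/
noncomputable def mz (K : KD n) (f : E n → ℝ) (x : E n) : ℝ := f x - ∫ y, f y ∂K.μ

theorem cb_mz {f : E n → ℝ} (hf : CB f) : CB (mz K f) := cb_sub hf (cb_const _)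

theorem mz_sq {f : E n → ℝ} (hf : CB f) :
    ∫ x, mz K f x * mz K f x ∂K.μ = (∫ x, f x ^ 2 ∂K.μ) - (∫ x, f x ∂K.μ) ^ 2 := by
  set m := ∫ y, f y ∂K.μ with hm
  have h : ∀ x, mz K f x * mz K f x = f x ^ 2 - 2 * m * f x + m ^ 2 := fun x => by
    simp only [mz, ← hm]; ring
  simp only [h]
  have i1 : Integrable (fun x => f x ^ 2) K.μ := by
    simpa [sq] using int_mul_cb (K := K) hf hf
  have i2 := (int_cb K hf).const_mul (2 * m)
  have j2 : Integrable (fun x => f x ^ 2 - 2 * m * f x) K.μ := i1.sub i2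
  rw [integral_add j2 (integrable_const _), integral_sub i1 i2, integral_const_mul]
  simp [← hm]
  ring

theorem ω_mz {f : E n → ℝ} (hf : CB f) (k : Fin n) :
    ∫ x, K.ω k x * mz K f x ∂K.μ = ∫ x, K.ω k x * f x ∂K.μ := by
  have h : ∀ x, K.ω k x * mz K f x = K.ω k x * f x - (∫ y, f y ∂K.μ) * K.ω k x := fun x => by
    simp only [mz]; ring
  simp only [h]
  rw [integral_sub (int_mulω hf k) (((K.ω_L2 k).integrable (by norm_num)).const_mul _),
    integral_const_mul, int_ω]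
  simp

theorem pd_mz {f : E n → ℝ} (hf : CB f) (k : Fin n) (x : E n) : pd k (mz K f) x = pd k f x := by
  have : mz K f = fun y => f y - (fun _ => ∫ z, f z ∂K.μ) y := rfl
  rw [this, pd_sub k (cb_diff hf x) (differentiableAt_const _), pd_const]
  ring

theorem ω_sq_le {f : E n → ℝ} (hf : CB f) :
    ∑ k, (∫ x, K.ω k x * f x ∂K.μ) ^ 2 ≤ 1 / 100 * ∫ x, f x * f x ∂K.μ := by
  have h1 := K.ω_le f (memLp_cb K hf 2)
  have h2 : 0 ≤ ∫ x, f x ^ 2 ∂K.μ := integral_nonneg fun x => sq_nonneg _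
  have h3 : K.ν * ∫ x, f x ^ 2 ∂K.μ ≤ 1 / 100 * ∫ x, f x ^ 2 ∂K.μ :=
    mul_le_mul_of_nonneg_right K.ν_le h2
  simpa [sq] using h1.trans h3

theorem int_A (B : Base K) {φ : E n → ℝ} (hφ : ContDiff ℝ ∞ φ) (hs : HasCompactSupport φ) :
    ∫ x, AA K φ x ∂K.μ = 0 := by
  have := ibp_A B hφ hs (cb_const 1)
  simpa [pd_const] using this

theorem sq_cs {x p δ : ℝ} (h : x ^ 2 ≤ p * δ) : x ^ 2 ≤ p * δ := h

/-- Cauchy–Schwarz for bounded functions -/
theorem cs_int {u v : E n → ℝ} (hu : CB u) (hv : CB v) :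
    (∫ x, u x * v x ∂K.μ) ^ 2 ≤ (∫ x, u x * u x ∂K.μ) * ∫ x, v x * v x ∂K.μ := by
  have key : ∀ s : ℝ, 0 ≤ (∫ x, u x * u x ∂K.μ) * (s * s) + (2 * ∫ x, u x * v x ∂K.μ) * s +
      ∫ x, v x * v x ∂K.μ := by
    intro s
    have h := quad (K := K) hu hv hv s 1 0 s 1 0
    have h0 : 0 ≤ ∫ x, (s * u x + 1 * v x + 0 * v x) * (s * u x + 1 * v x + 0 * v x) ∂K.μ :=
      integral_nonneg fun x => mul_self_nonneg _
    rw [h] at h0
    nlinarith
  have := discrim_le_zero key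
  unfold discrim at this
  nlinarith

theorem sc1 {ε t y v : ℝ} (h0 : 0 ≤ ε) (h1 : ε ≤ 1 / 100) :
    ((1 + ε) * t + y + v) ^ 2 ≤ 1.1222 * t ^ 2 + 22 * y ^ 2 + 22 * v ^ 2 := by
  have e1 : ((1 + ε) * t + y + v) ^ 2 ≤ 1.1 * ((1 + ε) * t) ^ 2 + 11 * (y + v) ^ 2 := by
    nlinarith [sq_nonneg ((1 + ε) * t - 10 * (y + v))]
  have e2 : ((1 + ε) * t) ^ 2 ≤ 1.0201 * t ^ 2 := by
    have : (1 + ε) ^ 2 ≤ 1.0201 := by nlinarith
    rw [mul_pow]
    exact mul_le_mul_of_nonneg_right this (sq_nonneg _)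
  nlinarith [sq_nonneg (y - v), sq_nonneg t]

theorem sc2 {ε t y v a : ℝ} (h0 : 0 ≤ ε) (e0 : a = (1 + ε) * t + y + v) :
    t ^ 2 ≤ 1.1 * a ^ 2 + 22 * y ^ 2 + 22 * v ^ 2 := by
  have e1 : t ^ 2 ≤ ((1 + ε) * t) ^ 2 := by
    rw [mul_pow]
    have : 1 ≤ (1 + ε) ^ 2 := by nlinarith
    nlinarith [sq_nonneg t]
  have e2 : (1 + ε) * t = a - (y + v) := by linarith
  rw [e2] at e1
  nlinarith [sq_nonneg (a + 10 * (y + v)), sq_nonneg (y - v)]

set_option maxHeartbeats 1000000 in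
theorem step (B : Base K) {Ψ φ : E n → ℝ} (hΨ : CB Ψ) (hφ : ContDiff ℝ ∞ φ)
    (hs : HasCompactSupport φ) {δ : ℝ} (hδ : 0 ≤ δ)
    (hE : ∫ x, (φ x + AA K φ x - (2 + K.ε) * Ψ x) ^ 2 ∂K.μ ≤ δ) :
    (∑ k, ∫ x, (pd k Ψ x - pd k φ x) ^ 2 ∂K.μ ≤
        1.01 * (qs K Ψ + 0.2 * ∑ k, (∫ x, K.ω k x * Ψ x ∂K.μ) ^ 2) + 10.21 * δ) ∧
    (∑ k, (∫ x, K.ω k x * Ψ x ∂K.μ) ^ 2 ≤
        1.119 * (∑ k, (∫ x, pd k φ x ∂K.μ) ^ 2) + 0.085 * qs K Ψ + 1.09 * δ) ∧
    ((∫ x, AA K φ x ^ 2 ∂K.μ) - (1 + K.ε) * (∑ k, ∫ x, pd k φ x ^ 2 ∂K.μ) +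
        (1 + K.ε) * (∑ k, (∫ x, pd k φ x ∂K.μ) ^ 2) ≤
        1.165 * qs K Ψ - 0.744 * (∑ k, (∫ x, pd k φ x ∂K.μ) ^ 2) + 54 * δ) ∧ 0 ≤ qs K Ψ := by
  have cφ : CB φ := cb_cc hφ hs
  have cA : CB (AA K φ) := cb_AA B hφ hs
  have cψ : CB (fun x => Ψ x - φ x) := cb_sub hΨ cφ
  have cE : CB (fun x => φ x + AA K φ x - (2 + K.ε) * Ψ x) :=
    cb_sub (cb_add cφ cA) (cb_const_mul _ hΨ)
  set u := mz K φ with hu
  set w := mz K (fun x => Ψ x - φ x) with hw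
  set z := mz K (fun x => φ x + AA K φ x - (2 + K.ε) * Ψ x) with hz
  have cu : CB u := cb_mz cφ
  have cw : CB w := cb_mz cψ
  have cz : CB z := cb_mz cE
  -- means
  have mψ : ∫ x, (Ψ x - φ x) ∂K.μ = (∫ x, Ψ x ∂K.μ) - ∫ x, φ x ∂K.μ :=
    integral_sub (int_cb K hΨ) (int_cb K cφ)
  have mE : ∫ x, (φ x + AA K φ x - (2 + K.ε) * Ψ x) ∂K.μ =
      (∫ x, φ x ∂K.μ) - (2 + K.ε) * ∫ x, Ψ x ∂K.μ := by
    have j2 : Integrable (fun x => φ x + AA K φ x) K.μ := (int_cb K cφ).add (int_cb K cA)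
    rw [integral_sub j2 ((int_cb K hΨ).const_mul _),
      integral_add (int_cb K cφ) (int_cb K cA), integral_const_mul, int_A B hφ hs]
    ring
  -- the decomposition of `A φ`
  have hA : ∀ x, AA K φ x = (1 + K.ε) * u x + (2 + K.ε) * w x + 1 * z x := by
    intro x
    simp only [hu, hw, hz, mz]
    rw [mψ, mE]
    ring
  have hs0 : ∀ x, mz K Ψ x = 1 * u x + 1 * w x + 0 * z x := by
    intro x
    simp only [hu, hw, mz]
    rw [mψ]
    ring
  -- names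
  set uu := ∫ x, u x * u x ∂K.μ with huu
  set ww := ∫ x, w x * w x ∂K.μ with hww
  set zz := ∫ x, z x * z x ∂K.μ with hzz
  set uw := ∫ x, u x * w x ∂K.μ with huw
  set uz := ∫ x, u x * z x ∂K.μ with huz
  set wz := ∫ x, w x * z x ∂K.μ with hwz
  have hA2 : ∫ x, AA K φ x ^ 2 ∂K.μ = (1 + K.ε) ^ 2 * uu + (2 + K.ε) ^ 2 * ww + zz +
      2 * (1 + K.ε) * (2 + K.ε) * uw + 2 * (1 + K.ε) * uz + 2 * (2 + K.ε) * wz := by
    have : ∫ x, AA K φ x ^ 2 ∂K.μ = ∫ x, ((1 + K.ε) * u x + (2 + K.ε) * w x + 1 * z x) *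
        ((1 + K.ε) * u x + (2 + K.ε) * w x + 1 * z x) ∂K.μ := by
      refine integral_congr_ae (Filter.Eventually.of_forall fun x => ?_)
      simp only [hA x]
      ring
    rw [this, quad cu cw cz]
    ring
  have he1 : ∑ k, ∫ x, pd k φ x ^ 2 ∂K.μ = (1 + K.ε) * uu + (2 + K.ε) * uw + uz := by
    have h1 := ibp_A B hφ hs cu
    have h2 : ∀ k, ∫ x, pd k φ x * pd k u x ∂K.μ = ∫ x, pd k φ x ^ 2 ∂K.μ := by
      intro k
      refine integral_congr_ae (Filter.Eventually.of_forall fun x => ?_)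
      simp only [hu, pd_mz cφ]
      ring
    simp only [h2] at h1
    rw [← h1]
    have : ∫ x, AA K φ x * u x ∂K.μ = ∫ x, ((1 + K.ε) * u x + (2 + K.ε) * w x + 1 * z x) *
        (1 * u x + 0 * w x + 0 * z x) ∂K.μ := by
      refine integral_congr_ae (Filter.Eventually.of_forall fun x => ?_)
      simp only [hA x]
      ring
    rw [this, quad cu cw cz]
    ring
  have hb : ∑ k, ∫ x, pd k φ x * pd k w x ∂K.μ = (1 + K.ε) * uw + (2 + K.ε) * ww + wz := by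
    rw [← ibp_A B hφ hs cw]
    have : ∫ x, AA K φ x * w x ∂K.μ = ∫ x, ((1 + K.ε) * u x + (2 + K.ε) * w x + 1 * z x) *
        (0 * u x + 1 * w x + 0 * z x) ∂K.μ := by
      refine integral_congr_ae (Filter.Eventually.of_forall fun x => ?_)
      simp only [hA x]
      ring
    rw [this, quad cu cw cz]
    ring
  have hpw : ∀ k x, pd k w x = pd k Ψ x - pd k φ x := by
    intro k x
    simp only [hw]
    rw [pd_mz cψ, pd_sub k (cb_diff hΨ x) (cb_diff cφ x)]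
  have heS : ∑ k, ∫ x, pd k Ψ x ^ 2 ∂K.μ = (∑ k, ∫ x, pd k φ x ^ 2 ∂K.μ) +
      2 * (∑ k, ∫ x, pd k φ x * pd k w x ∂K.μ) + ∑ k, ∫ x, (pd k Ψ x - pd k φ x) ^ 2 ∂K.μ := by
    rw [Finset.mul_sum, ← Finset.sum_add_distrib, ← Finset.sum_add_distrib]
    refine Finset.sum_congr rfl fun k _ => ?_
    have bm : ∀ {f g : E n → ℝ}, CB f → CB g → Integrable (fun x => pd k f x * pd k g x) K.μ := by
      intro f g hf hg
      exact (memLp_pd K hf k 2).integrable_mul (memLp_pd K hg k 2)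
    have i1 : Integrable (fun x => pd k φ x ^ 2) K.μ := by simpa [sq] using bm cφ cφ
    have i2 : Integrable (fun x => 2 * (pd k φ x * pd k w x)) K.μ := (bm cφ cw).const_mul 2
    have i3 : Integrable (fun x => (pd k Ψ x - pd k φ x) ^ 2) K.μ := by
      have := bm cw cw
      refine this.congr (Filter.Eventually.of_forall fun x => ?_)
      simp only [hpw, sq]
    have j2 : Integrable (fun x => pd k φ x ^ 2 + 2 * (pd k φ x * pd k w x)) K.μ := i1.add i2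
    rw [← integral_const_mul, ← integral_add i1 i2, ← integral_add j2 i3]
    refine integral_congr_ae (Filter.Eventually.of_forall fun x => ?_)
    simp only [hpw]
    ring
  have hs2 : (∫ x, Ψ x ^ 2 ∂K.μ) - (∫ x, Ψ x ∂K.μ) ^ 2 = uu + 2 * uw + ww := by
    rw [← mz_sq hΨ]
    have : ∫ x, mz K Ψ x * mz K Ψ x ∂K.μ = ∫ x, (1 * u x + 1 * w x + 0 * z x) *
        (1 * u x + 1 * w x + 0 * z x) ∂K.μ := by
      refine integral_congr_ae (Filter.Eventually.of_forall fun x => ?_)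
      simp only [hs0 x]
    rw [this, quad cu cw cz]
    ring
  have hzzδ : zz ≤ δ := by
    rw [hzz, hz, mz_sq cE]
    nlinarith [sq_nonneg (∫ x, (φ x + AA K φ x - (2 + K.ε) * Ψ x) ∂K.μ)]
  have hww0 : 0 ≤ ww := integral_nonneg fun x => mul_self_nonneg _
  have hzz0 : 0 ≤ zz := integral_nonneg fun x => mul_self_nonneg _
  have hP : ww ≤ ∑ k, ∫ x, (pd k Ψ x - pd k φ x) ^ 2 ∂K.μ := by
    have h1 := B.poinc w cw
    have h2 : ∫ x, w x ^ 2 ∂K.μ - (∫ x, w x ∂K.μ) ^ 2 = ww := by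
      have h3 : ∫ x, w x ∂K.μ = 0 := by
        simp only [hw, mz]
        rw [integral_sub (int_cb K cψ) (integrable_const _)]
        simp
      rw [h3, hww]
      simp [sq]
    rw [h2] at h1
    simpa only [hpw] using h1
  -- the vectors
  set tΨ : Fin n → ℝ := fun k => ∫ x, K.ω k x * Ψ x ∂K.μ with htΨ
  set y : Fin n → ℝ := fun k => ∫ x, K.ω k x * w x ∂K.μ with hy
  set v : Fin n → ℝ := fun k => ∫ x, K.ω k x * z x ∂K.μ with hv
  have hφΨ : ∀ k, ∫ x, K.ω k x * φ x ∂K.μ = tΨ k - y k := by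
    intro k
    have h1 : y k = ∫ x, K.ω k x * (Ψ x - φ x) ∂K.μ := ω_mz cψ k
    have h2 : ∫ x, K.ω k x * (Ψ x - φ x) ∂K.μ = tΨ k - ∫ x, K.ω k x * φ x ∂K.μ := by
      rw [htΨ]
      simp only
      rw [← integral_sub (int_mulω hΨ k) (int_mulω cφ k)]
      refine integral_congr_ae (Filter.Eventually.of_forall fun x => ?_)
      simp only
      ring
    linarith
  have hu' : ∀ k, ∫ x, K.ω k x * u x ∂K.μ = tΨ k - y k := fun k => by
    rw [hu, ω_mz cφ k, hφΨ]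
  have ha : ∀ k, ∫ x, pd k φ x ∂K.μ = (1 + K.ε) * tΨ k + y k + v k := by
    intro k
    rw [int_pd_eq B hφ hs k]
    have : ∫ x, AA K φ x * K.ω k x ∂K.μ = ∫ x, ((1 + K.ε) * u x + (2 + K.ε) * w x + 1 * z x) *
        K.ω k x ∂K.μ := by
      refine integral_congr_ae (Filter.Eventually.of_forall fun x => ?_)
      simp only [hA x]
    rw [this, quadω cu cw cz, hu' k]
    simp only [hy, hv]
    ring
  have hyν : ∑ k, y k ^ 2 ≤ 1 / 100 * ww := ω_sq_le cw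
  have hvν : ∑ k, v k ^ 2 ≤ 1 / 100 * δ := (ω_sq_le cz).trans (by linarith)
  have hτ0 : 0 ≤ ∑ k, tΨ k ^ 2 := Finset.sum_nonneg fun _ _ => sq_nonneg _
  have ha0 : 0 ≤ ∑ k, (∫ x, pd k φ x ∂K.μ) ^ 2 := Finset.sum_nonneg fun _ _ => sq_nonneg _
  have hε0 := K.ε_nonneg
  have hε1 := K.ε_le
  have hτφ : ∑ k, (∫ x, K.ω k x * φ x ∂K.μ) ^ 2 ≤ 1.1 * (∑ k, tΨ k ^ 2) + 0.11 * ww := by
    have h1 : ∑ k, (∫ x, K.ω k x * φ x ∂K.μ) ^ 2 ≤ ∑ k, (1.1 * tΨ k ^ 2 + 11 * y k ^ 2) := by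
      refine Finset.sum_le_sum fun k _ => ?_
      rw [hφΨ k]
      nlinarith [sq_nonneg (tΨ k + 10 * y k)]
    rw [Finset.sum_add_distrib, ← Finset.mul_sum, ← Finset.mul_sum] at h1
    linarith
  have haτ : ∑ k, (∫ x, pd k φ x ∂K.μ) ^ 2 ≤
      1.1222 * (∑ k, tΨ k ^ 2) + 0.22 * ww + 0.22 * δ := by
    have h1 : ∑ k, (∫ x, pd k φ x ∂K.μ) ^ 2 ≤
        ∑ k, (1.1222 * tΨ k ^ 2 + 22 * y k ^ 2 + 22 * v k ^ 2) := by
      refine Finset.sum_le_sum fun k _ => ?_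
      rw [ha k]
      exact sc1 hε0 hε1
    simp only [Finset.sum_add_distrib, ← Finset.mul_sum] at h1
    linarith
  have hτa : ∑ k, tΨ k ^ 2 ≤ 1.1 * (∑ k, (∫ x, pd k φ x ∂K.μ) ^ 2) + 0.22 * ww + 0.22 * δ := by
    have h1 : ∑ k, tΨ k ^ 2 ≤
        ∑ k, (1.1 * (∫ x, pd k φ x ∂K.μ) ^ 2 + 22 * y k ^ 2 + 22 * v k ^ 2) := by
      refine Finset.sum_le_sum fun k _ => ?_
      exact sc2 hε0 (ha k)
    simp only [Finset.sum_add_distrib, ← Finset.mul_sum] at h1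
    linarith
  have hMPφ := K.MP φ cφ
  have hMPΨ := K.MP Ψ hΨ
  rw [B.kp_eq] at hMPφ hMPΨ
  have hφ2 : (∫ x, φ x ^ 2 ∂K.μ) - (∫ x, φ x ∂K.μ) ^ 2 = uu := by
    rw [← mz_sq cφ]
  have hq : qs K Ψ = (∑ k, ∫ x, pd k Ψ x ^ 2 ∂K.μ) + 2 * (∑ k, tΨ k ^ 2)
      - (1 + K.ε) * (uu + 2 * uw + ww) := by
    unfold qs
    rw [hs2, B.kp_eq]
  have hD : 0 ≤ qs K Ψ := by
    rw [hq, ← hs2]
    linarith
  have hCS : wz ^ 2 ≤ ww * δ :=
    (cs_int cw cz).trans (mul_le_mul_of_nonneg_left hzzδ hww0)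
  have hmain := alg (ε := K.ε) (δ := δ) (p := ww)
    (eψ := ∑ k, ∫ x, (pd k Ψ x - pd k φ x) ^ 2 ∂K.μ) (D := qs K Ψ) (τ := ∑ k, tΨ k ^ 2)
    (τφ := ∑ k, (∫ x, K.ω k x * φ x ∂K.μ) ^ 2) (a := ∑ k, (∫ x, pd k φ x ∂K.μ) ^ 2)
    (X := (∫ x, AA K φ x ^ 2 ∂K.μ) - (1 + K.ε) * (∑ k, ∫ x, pd k φ x ^ 2 ∂K.μ)) (ψE := wz)
    (ee := zz) (g := (∑ k, ∫ x, pd k φ x ^ 2 ∂K.μ) - (1 + K.ε) * uu)
    hε0 hε1 hδ
    (by
      rw [hq, heS, hb, hA2, he1]
      ring)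
    (by
      rw [hA2, he1]
      ring)
    (by
      rw [hφ2] at hMPφ
      linarith)
    hww0 hP hCS hzz0 hzzδ hτφ haτ hτa hτ0 ha0 hD
  exact ⟨hmain.1, hmain.2.1, hmain.2.2, hD⟩

end Crest.Agent.R201.Tw807
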