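import Crest.Agent.R201.Defs2_74
import Crest.Agent.R201.Tw4_807

/-!
# R201, KLS half (helper807): FD1 (positivity and Cauchy–Schwarz of `q`), FD2 (calculus of `CB`)
-/

set_option autoImplicit false
open MeasureTheory Matrix
open scoped ContDiff

namespace Crest.Agent.R201

variable {n : ℕ}

/-- FD2 calculus of `CB` -/
theorem CB.add {f g : E n → ℝ} (hf : CB f) (hg : CB g) : CB (fun x => f x + g x) :=
  Tw807.cb_add hf hg
theorem CB.mul {f g : E n → ℝ} (hf : CB f) (hg : CB g) : CB (fun x => f x * g x) :=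
  Tw807.cb_mul hf hg
theorem CB.sub {f g : E n → ℝ} (hf : CB f) (hg : CB g) : CB (fun x => f x - g x) :=
  Tw807.cb_sub hf hg
theorem CB.neg {f : E n → ℝ} (hf : CB f) : CB (fun x => - f x) := Tw807.cb_neg hf
theorem CB.const (c : ℝ) : CB (fun _ : E n => c) := Tw807.cb_const c
theorem CB.const_mul {f : E n → ℝ} (c : ℝ) (hf : CB f) : CB (fun x => c * f x) :=
  Tw807.cb_const_mul c hf
theorem CB.sum {ι : Type*} (s : Finset ι) {f : ι → E n → ℝ} (hf : ∀ i ∈ s, CB (f i)) :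
    CB (fun x => ∑ i ∈ s, f i x) := Tw807.cb_sum s hf

section

variable (K : KD n)

/-- bilinear form of `q` -/
noncomputable def KD.qb {ι : Type*} [Fintype ι] (f g : ι → E n → ℝ) : ℝ :=
  ∑ i, ((∑ k, ∫ x, pd k (f i) x * pd k (g i) x ∂K.μ)
    + K.kp * (∑ k, (∫ x, K.ω k x * f i x ∂K.μ) * (∫ x, K.ω k x * g i x ∂K.μ))
    - (1 + K.ε) * ((∫ x, f i x * g i x ∂K.μ) - (∫ x, f i x ∂K.μ) * (∫ x, g i x ∂K.μ)))

theorem KD.q_eq_sum {ι : Type*} [Fintype ι] (f : ι → E n → ℝ) :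
    K.q f = ∑ i, ((∑ k, ∫ x, pd k (f i) x ^ 2 ∂K.μ) + K.kp * (∑ k, (∫ x, K.ω k x * f i x ∂K.μ) ^ 2)
      - (1 + K.ε) * ((∫ x, f i x ^ 2 ∂K.μ) - (∫ x, f i x ∂K.μ) ^ 2)) := by
  unfold KD.q dsq tsq nsq msq
  rw [Finset.sum_sub_distrib, Finset.sum_add_distrib, ← Finset.mul_sum, ← Finset.mul_sum,
    Finset.sum_sub_distrib]

/-- FD1 -/
theorem q_nonneg {ι : Type*} [Fintype ι] (f : ι → E n → ℝ) (hf : ∀ i, CB (f i)) : 0 ≤ K.q f := by
  rw [K.q_eq_sum]
  exact Finset.sum_nonneg fun i _ => by linarith [K.MP (f i) (hf i)]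

theorem KD.qb_self {ι : Type*} [Fintype ι] (f : ι → E n → ℝ) : K.qb f f = K.q f := by
  rw [K.q_eq_sum]
  unfold KD.qb
  simp only [sq]

theorem KD.qb_comm {ι : Type*} [Fintype ι] (f g : ι → E n → ℝ) : K.qb f g = K.qb g f := by
  unfold KD.qb
  refine Finset.sum_congr rfl fun i _ => ?_
  simp only [mul_comm (f i _) (g i _), mul_comm (pd _ (f i) _) (pd _ (g i) _),
    mul_comm (∫ x, f i x ∂K.μ) (∫ x, g i x ∂K.μ),
    mul_comm (∫ x, K.ω _ x * f i x ∂K.μ) (∫ x, K.ω _ x * g i x ∂K.μ)]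

theorem KD.q_smul_add {ι : Type*} [Fintype ι] {f g : ι → E n → ℝ} (hf : ∀ i, CB (f i))
    (hg : ∀ i, CB (g i)) (s t : ℝ) : K.q (fun i x => s * f i x + t * g i x) =
      s ^ 2 * K.q f + 2 * (s * t) * K.qb f g + t ^ 2 * K.q g := by
  have hb : ∀ {u v : E n → ℝ}, CB u → CB v → ∀ k, Integrable (fun x => pd k u x * pd k v x) K.μ :=
    fun hu hv k => (Tw807.memLp_pd K hu k 2).integrable_mul (Tw807.memLp_pd K hv k 2)
  have key : ∀ {p r : E n → ℝ}, Integrable (fun x => p x * p x) K.μ →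
      Integrable (fun x => p x * r x) K.μ → Integrable (fun x => r x * r x) K.μ →
      ∫ x, (s * p x + t * r x) ^ 2 ∂K.μ = s ^ 2 * (∫ x, p x ^ 2 ∂K.μ) +
        2 * (s * t) * (∫ x, p x * r x ∂K.μ) + t ^ 2 * ∫ x, r x ^ 2 ∂K.μ := by
    intro p r h1 h2 h3
    have e : ∀ x, (s * p x + t * r x) ^ 2 = s ^ 2 * (p x * p x) + 2 * (s * t) * (p x * r x) +
        t ^ 2 * (r x * r x) := fun x => by ring
    have i1 : Integrable (fun x => s ^ 2 * (p x * p x)) K.μ := h1.const_mul _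
    have i2 : Integrable (fun x => 2 * (s * t) * (p x * r x)) K.μ := h2.const_mul _
    have i12 : Integrable (fun x => s ^ 2 * (p x * p x) + 2 * (s * t) * (p x * r x)) K.μ :=
      i1.add i2
    simp only [e]
    rw [integral_add i12 (h3.const_mul _), integral_add i1 i2, integral_const_mul,
      integral_const_mul, integral_const_mul]
    simp only [sq]
  rw [K.q_eq_sum, K.q_eq_sum, K.q_eq_sum]
  unfold KD.qb
  rw [Finset.mul_sum, Finset.mul_sum, Finset.mul_sum, ← Finset.sum_add_distrib,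
    ← Finset.sum_add_distrib]
  refine Finset.sum_congr rfl fun i _ => ?_
  have e1 : ∀ k, ∫ x, pd k (fun y => s * f i y + t * g i y) x ^ 2 ∂K.μ =
      s ^ 2 * (∫ x, pd k (f i) x ^ 2 ∂K.μ) + 2 * (s * t) * (∫ x, pd k (f i) x * pd k (g i) x ∂K.μ) +
        t ^ 2 * ∫ x, pd k (g i) x ^ 2 ∂K.μ := by
    intro k
    have e : ∀ x, pd k (fun y => s * f i y + t * g i y) x = s * pd k (f i) x + t * pd k (g i) x := by
      intro x
      rw [Tw807.pd_add k ((Tw807.cb_diff (hf i) x).const_mul s) ((Tw807.cb_diff (hg i) x).const_mul t),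
        Tw807.pd_const_mul _ k (Tw807.cb_diff (hf i) x), Tw807.pd_const_mul _ k (Tw807.cb_diff (hg i) x)]
    simp only [e]
    exact key (hb (hf i) (hf i) k) (hb (hf i) (hg i) k) (hb (hg i) (hg i) k)
  have e2 : ∫ x, (s * f i x + t * g i x) ^ 2 ∂K.μ = s ^ 2 * (∫ x, f i x ^ 2 ∂K.μ) +
        2 * (s * t) * (∫ x, f i x * g i x ∂K.μ) + t ^ 2 * ∫ x, g i x ^ 2 ∂K.μ :=
    key (Tw807.int_mul_cb (hf i) (hf i)) (Tw807.int_mul_cb (hf i) (hg i))
      (Tw807.int_mul_cb (hg i) (hg i))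
  have e3 : ∫ x, (s * f i x + t * g i x) ∂K.μ = s * (∫ x, f i x ∂K.μ) + t * ∫ x, g i x ∂K.μ := by
    rw [integral_add ((Tw807.int_cb K (hf i)).const_mul s) ((Tw807.int_cb K (hg i)).const_mul t),
      integral_const_mul, integral_const_mul]
  have e4 : ∀ k, ∫ x, K.ω k x * (s * f i x + t * g i x) ∂K.μ =
      s * (∫ x, K.ω k x * f i x ∂K.μ) + t * ∫ x, K.ω k x * g i x ∂K.μ := by
    intro k
    have e : ∀ x, K.ω k x * (s * f i x + t * g i x) =
      s * (K.ω k x * f i x) + t * (K.ω k x * g i x) := fun x => by ring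
    simp only [e]
    rw [integral_add ((Tw807.int_mulω (hf i) k).const_mul s)
      ((Tw807.int_mulω (hg i) k).const_mul t), integral_const_mul, integral_const_mul]
  have e5 : ∑ k, (s * (∫ x, K.ω k x * f i x ∂K.μ) + t * ∫ x, K.ω k x * g i x ∂K.μ) ^ 2 =
      s ^ 2 * (∑ k, (∫ x, K.ω k x * f i x ∂K.μ) ^ 2) + 2 * (s * t) *
        (∑ k, (∫ x, K.ω k x * f i x ∂K.μ) * ∫ x, K.ω k x * g i x ∂K.μ) +
        t ^ 2 * ∑ k, (∫ x, K.ω k x * g i x ∂K.μ) ^ 2 := by
    rw [Finset.mul_sum, Finset.mul_sum, Finset.mul_sum, ← Finset.sum_add_distrib,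
      ← Finset.sum_add_distrib]
    exact Finset.sum_congr rfl fun k _ => by ring
  simp only [e1, e2, e3, e4]
  rw [e5, Finset.sum_add_distrib, Finset.sum_add_distrib, ← Finset.mul_sum, ← Finset.mul_sum,
    ← Finset.mul_sum]
  ring

/-- FD1' Cauchy–Schwarz -/
theorem qb_sq_le {ι : Type*} [Fintype ι] (f g : ι → E n → ℝ) (hf : ∀ i, CB (f i))
    (hg : ∀ i, CB (g i)) : K.qb f g ^ 2 ≤ K.q f * K.q g := by
  have key : ∀ s : ℝ, 0 ≤ K.q f * (s * s) + (2 * K.qb f g) * s + K.q g := by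
    intro s
    have h := K.q_smul_add hf hg s 1
    have h0 : 0 ≤ K.q (fun i x => s * f i x + 1 * g i x) :=
      q_nonneg K _ fun i => CB.add (CB.const_mul s (hf i)) (CB.const_mul 1 (hg i))
    rw [h] at h0
    linarith
  have := discrim_le_zero key
  unfold discrim at this
  nlinarith

/-- triangle type inequality -/
theorem q_add_le {ι : Type*} [Fintype ι] {f g : ι → E n → ℝ} (hf : ∀ i, CB (f i))
    (hg : ∀ i, CB (g i)) : K.q (fun i x => f i x + g i x) ≤ 2 * K.q f + 2 * K.q g := by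
  have h1 := K.q_smul_add hf hg 1 1
  have h2 := K.q_smul_add hf hg 1 (-1)
  have h3 : 0 ≤ K.q (fun i x => 1 * f i x + -1 * g i x) :=
    q_nonneg K _ fun i => CB.add (CB.const_mul 1 (hf i)) (CB.const_mul (-1) (hg i))
  rw [h2] at h3
  simp only [one_mul] at h1
  rw [h1]
  linarith

end

end Crest.Agent.R201
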