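import Crest.Agent.R201.An12_293
import Crest.Agent.R201.FD1_807

/-!
# R201 AN-13: the contradiction `v₁ ≥ c' |Ψ₁|²` (helper293)
-/

set_option autoImplicit false
open MeasureTheory Matrix Filter Topology Metric
open scoped ContDiff ENNReal NNReal

namespace Crest.Agent.R201.An

open Crest.Agent.R201

variable {n : ℕ} {w : E n → ℝ} {c R s σ : ℝ}

/-- literal statement of `tensor_main` -/
def TensorMain : Prop := ∃ h0 : ℝ, 0 < h0 ∧ ∀ h1 : ℝ, 0 < h1 → ∃ η0 : ℝ, 0 < η0 ∧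
    ∀ (n : ℕ) (κ' : ℝ), 0 < κ' → ∃ κ₀ : ℝ, 0 < κ₀ ∧
    ∀ K : KD n, h1 ≤ K.h → K.h ≤ h0 → K.η ≤ η0 → ∀ (κ : ℝ) (T : Tower K κ), κ ≤ κ₀ →
      msq K.μ (T.Ψ 2) ≤ κ'

/-- lower bound of the `V''`-energy -/
theorem en_ge (K : KD n) {c' : ℝ} (hV : ∀ x, LeQ (c' • (1 : Mt n)) (K.V2 x))
    (hb : ∀ i j, ∃ B : ℝ, ∀ x, |K.V2 x i j| ≤ B) {ι : Type*} [Fintype ι]
    (f : Fin n → ι → E n → ℝ) (hf : ∀ p i, CB (f p i)) :
    c' * ∑ i, ∑ p, ∫ x, f p i x ^ 2 ∂K.μ ≤ en K.μ K.V2 f := by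
  have i1 : ∀ i p, Integrable (fun x => f p i x ^ 2) K.μ := fun i p => by
    have := Tw807.int_mul_cb (K := K) (hf p i) (hf p i)
    simpa only [sq] using this
  have i2 : ∀ i p p', Integrable (fun x => K.V2 x p p' * f p i x * f p' i x) K.μ := fun i p p' => by
    obtain ⟨B, hB⟩ := hb p p'
    have h1 := Tw807.int_mul_cb (K := K) (hf p i) (hf p' i)
    have h2 := h1.bdd_mul (K.V2_cont p p').aestronglyMeasurable
      (ae_of_all _ fun x => by rw [Real.norm_eq_abs]; exact hB x)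
    refine h2.congr (ae_of_all _ fun x => ?_)
    simp only
    ring
  have e1 : ∑ i, ∑ p, ∫ x, f p i x ^ 2 ∂K.μ = ∫ x, ∑ i, ∑ p, f p i x ^ 2 ∂K.μ := by
    rw [integral_finsetSum _ fun i _ => integrable_finsetSum _ fun p _ => i1 i p]
    exact Finset.sum_congr rfl fun i _ => (integral_finsetSum _ fun p _ => i1 i p).symm
  rw [e1, ← integral_const_mul]
  unfold en
  refine integral_mono ?_ ?_ fun x => ?_
  · exact (integrable_finsetSum _ fun i _ => integrable_finsetSum _ fun p _ => i1 i p).const_mul _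
  · exact integrable_finsetSum _ fun i _ => integrable_finsetSum _ fun p _ =>
      integrable_finsetSum _ fun p' _ => i2 i p p'
  · simp only
    rw [Finset.mul_sum]
    refine Finset.sum_le_sum fun i _ => ?_
    have h1 := hV x fun p => f p i x
    simp only [Matrix.smul_mulVec, Matrix.one_mulVec, dotProduct_smul, smul_eq_mul] at h1
    rw [dot_self] at h1
    refine h1.trans (le_of_eq ?_)
    simp only [dotProduct, Matrix.mulVec, Finset.mul_sum]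
    exact Finset.sum_congr rfl fun p _ => Finset.sum_congr rfl fun p' _ => by ring

lemma sq_split {a b : ℝ} : a ^ 2 ≤ 2 * (a - b) ^ 2 + 2 * b ^ 2 := by
  nlinarith [sq_nonneg (a - 2 * b)]

theorem contra (TM : TensorMain) : ∃ h0 : ℝ, 0 < h0 ∧ ∀ h1 : ℝ, 0 < h1 → ∃ η0 : ℝ, 0 < η0 ∧
    ∀ (n : ℕ) (c R σ s : ℝ) (w : E n → ℝ), h1 ≤ 2 * s + s → 2 * s + s ≤ h0 →
      √(σ / (2 * s)) ≤ η0 → Hyp c R σ s w → False := by
  obtain ⟨h0, hh0, hTM⟩ := TM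
  refine ⟨h0, hh0, fun h1 hh1 => ?_⟩
  obtain ⟨η0, hη0, hTM⟩ := hTM h1 hh1
  refine ⟨η0, hη0, fun n c R σ s w b1 b2 b3 H => ?_⟩
  have hs : 0 < 2 * s + s := by linarith [H.s_pos]
  set K := KY H with hK
  set c' := c / (1 + c * (2 * s + s)) with hc'
  have hc0 : 0 < c' := by
    have := H.c_pos
    positivity
  set κ' := min (1 / 1000) (c' / 100) with hκ'
  have hκ'0 : 0 < κ' := lt_min (by norm_num) (by positivity)
  obtain ⟨κ₀, hκ₀, hTM⟩ := hTM n κ' hκ'0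
  set κ := min κ₀ κ' with hκ
  have hκ0 : 0 < κ := lt_min hκ₀ hκ'0
  obtain ⟨T⟩ := Tw807.exists_tower (base_KY H) κ hκ0
  have ha2 : msq K.μ (T.Ψ 2) ≤ κ' := hTM K b1 b2 b3 κ T (min_le_left _ _)
  have hr := T.recur 0
  have hn := T.near 0
  have ht := T.t1 0
  have hq0 := T.start_q
  have hn0 := T.start_norm
  have hm0 := T.start_mean
  have hq0' : 0 ≤ K.q (T.Ψ 0) := q_nonneg K _ (T.cb 0)
  have hq1' : 0 ≤ K.q (T.Ψ 1) := q_nonneg K _ (T.cb 1)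
  have ha1 : 0 ≤ msq K.μ (T.Ψ 1) := Finset.sum_nonneg fun _ _ => sq_nonneg _
  have hκκ : κ ≤ κ' := min_le_right _ _
  have k1 : κ' ≤ 1 / 1000 := min_le_left _ _
  have k2 : κ' ≤ c' / 100 := min_le_right _ _
  -- the `V''` energy
  set v1 := en K.μ K.V2 (fun p (w : Fin 0 → Fin n) => T.Ψ 1 (Fin.snoc w p)) with hv1
  have hV : ∀ x, LeQ (c' • (1 : Mt n)) (K.V2 x) := fun x =>
    Vh_ge H.wt.ex H.c_pos.le H.wt.slc hs x
  have hb : ∀ i j, ∃ B : ℝ, ∀ x, |K.V2 x i j| ≤ B := fun i j => Vh_bdd H.wt hs i j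
  have hv : c' * ∑ w : Fin 0 → Fin n, ∑ p, ∫ x, T.Ψ 1 (Fin.snoc w p) x ^ 2 ∂K.μ ≤ v1 :=
    en_ge K hV hb _ fun p w => T.cb 1 _
  set N1 := ∑ w : Fin 0 → Fin n, ∑ p, ∫ x, T.Ψ 1 (Fin.snoc w p) x ^ 2 ∂K.μ with hN1
  have hv10 : 0 ≤ v1 := by
    refine le_trans (mul_nonneg hc0.le ?_) hv
    exact Finset.sum_nonneg fun _ _ => Finset.sum_nonneg fun _ _ =>
      integral_nonneg fun _ => sq_nonneg _
  have r1 : K.q (T.Ψ 1) + v1 + msq K.μ (T.Ψ 1) / 2 ≤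
      2 * K.q (T.Ψ 0) + 3 * msq K.μ (T.Ψ 2) + κ := hr
  have r2 : v1 ≤ 6 * κ' := by linarith
  have r3 : msq K.μ (T.Ψ 1) ≤ 12 * κ' := by linarith
  -- `|DΨ₀|²`
  have d1 : dsq K.μ (T.Ψ 0) ≤ 2 * (∑ w : Fin 0 → Fin n, ∑ k,
      ∫ x, (pd k (T.Ψ 0 w) x - T.Ψ 1 (Fin.snoc w k) x) ^ 2 ∂K.μ) + 2 * N1 := by
    unfold dsq
    rw [hN1, Finset.mul_sum, Finset.mul_sum, ← Finset.sum_add_distrib]
    refine Finset.sum_le_sum fun w _ => ?_
    rw [Finset.mul_sum, Finset.mul_sum, ← Finset.sum_add_distrib]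
    refine Finset.sum_le_sum fun k _ => ?_
    have m1 : MemLp (pd k (T.Ψ 0 w)) 2 K.μ := Tw807.memLp_pd K (T.cb 0 w) k 2
    have m2 : MemLp (T.Ψ 1 (Fin.snoc w k)) 2 K.μ := Tw807.memLp_cb K (T.cb 1 _) 2
    have j1 := m1.integrable_sq
    have j2 := m2.integrable_sq
    have j3 : Integrable (fun x => (pd k (T.Ψ 0 w) x - T.Ψ 1 (Fin.snoc w k) x) ^ 2) K.μ :=
      (m1.sub m2).integrable_sq
    rw [← integral_const_mul, ← integral_const_mul, ← integral_add (j3.const_mul _)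
      (j2.const_mul _)]
    exact integral_mono j1 ((j3.const_mul _).add (j2.const_mul _)) fun x => sq_split
  have q0 : K.q (T.Ψ 0) = dsq K.μ (T.Ψ 0) + 2 * tsq K.μ K.«ω» (T.Ψ 0) - (1 + K.ε) * (1 - 0) := by
    unfold KD.q
    rw [hn0, hm0]
    rfl
  have hε : 0 ≤ K.ε := K.ε_nonneg
  have f1 : N1 ≤ v1 / c' := by
    rw [le_div_iff₀ hc0]
    linarith
  have f2 : v1 / c' ≤ 6 / 100 := by
    rw [div_le_iff₀ hc0]
    linarith
  have ht' : tsq K.μ K.«ω» (T.Ψ 0) ≤ 2 * (K.q (T.Ψ 0) + msq K.μ (T.Ψ 1)) + κ := ht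
  have hn' : (∑ w : Fin 0 → Fin n, ∑ k,
      ∫ x, (pd k (T.Ψ 0 w) x - T.Ψ 1 (Fin.snoc w k) x) ^ 2 ∂K.μ) ≤
      8 * (K.q (T.Ψ 0) + msq K.μ (T.Ψ 1)) + κ := hn
  linarith

end Crest.Agent.R201.An
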