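import Crest.Agent.R201.An13_293

/-!
# R201 AN-14: Poincaré constants: comparison with the noisy law, scaling (helper293)
-/

set_option autoImplicit false
open MeasureTheory Matrix Filter Topology Metric
open scoped ContDiff ENNReal NNReal

namespace Crest.Agent.R201.An

open Crest.Agent.R201 Crest.Agent.R144.Fi865

variable {n : ℕ} {w ρ F G : E n → ℝ} {c R s σ t K : ℝ}

/-- Poincaré inequality -/
def PI (ρ : E n → ℝ) (K : ℝ) : Prop := ∀ f : E n → ℝ, CB f → vr (nm ρ) f ≤ K * dr (nm ρ) f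

/-- Poincaré constant -/
noncomputable def CP (ρ : E n → ℝ) : ℝ := sInf {K | 0 ≤ K ∧ PI ρ K}

lemma CP_nonneg (ρ : E n → ℝ) : 0 ≤ CP ρ := Real.sInf_nonneg fun _ h => h.1

lemma CP_le (hK : 0 ≤ K) (h : PI ρ K) : CP ρ ≤ K := csInf_le ⟨0, fun _ h => h.1⟩ ⟨hK, h⟩

lemma PI_CP (h : ∃ K, 0 ≤ K ∧ PI ρ K) : PI ρ (CP ρ) := by
  intro f hf
  have hd := dr_nonneg (nm ρ) f
  have key : ∀ δ : ℝ, 0 < δ → vr (nm ρ) f ≤ CP ρ * dr (nm ρ) f + δ * dr (nm ρ) f := fun δ hδ => by
    obtain ⟨K, ⟨hK, hPI⟩, hlt⟩ := exists_lt_of_csInf_lt (s := {K | 0 ≤ K ∧ PI ρ K}) h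
      (show sInf {K | 0 ≤ K ∧ PI ρ K} < CP ρ + δ by unfold CP; linarith)
    have h1 := hPI f hf
    have h2 : K * dr (nm ρ) f ≤ (CP ρ + δ) * dr (nm ρ) f := mul_le_mul_of_nonneg_right hlt.le hd
    linarith
  rcases hd.eq_or_lt with h0 | h0
  · have := key 1 one_pos
    rw [← h0] at this ⊢
    simpa using this
  · refine le_of_forall_pos_le_add fun δ hδ => ?_
    have := key (δ / dr (nm ρ) f) (by positivity)
    rwa [div_mul_cancel₀ _ h0.ne'] at this

lemma CP_sharp (hC : 0 < CP ρ) {δ : ℝ} (hδ : 0 < δ) : ∃ f : E n → ℝ, CB f ∧ 0 < vr (nm ρ) f ∧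
    dr (nm ρ) f ≤ (1 + δ) / CP ρ * vr (nm ρ) f := by
  set K' := CP ρ / (1 + δ) with hK'
  have hK0 : 0 < K' := by positivity
  have h1 : ¬ PI ρ K' := by
    intro h
    have h2 := CP_le hK0.le h
    rw [hK', le_div_iff₀ (by positivity)] at h2
    nlinarith
  unfold PI at h1
  push Not at h1
  obtain ⟨f, hf, h2⟩ := h1
  have hd := dr_nonneg (nm ρ) f
  refine ⟨f, hf, lt_of_le_of_lt (by positivity) h2, ?_⟩
  have h3 : dr (nm ρ) f < vr (nm ρ) f / K' := by
    rw [lt_div_iff₀ hK0]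
    linarith
  refine h3.le.trans (le_of_eq ?_)
  rw [hK']
  field_simp

/-! ### Gaussian averages -/

/-- Gaussian average -/
noncomputable def NN (t : ℝ) (F : E n → ℝ) (x : E n) : ℝ :=
  (∫ y, F y * gk t (y - x)) / ∫ z : E n, gk t z

lemma int_NN (ht : 0 < t) (hF : EG F) (x : E n) : Integrable fun y => F y * gk t (y - x) := by
  obtain ⟨C, a, hC, ha, hB⟩ := hF.2
  have h1 := ((int_exp_gk (n := n) ht a).comp_sub_right x).const_mul (C * Real.exp (a * ‖x‖))
  refine h1.mono' ?_ (ae_of_all _ fun y => ?_)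
  · exact hF.1.aestronglyMeasurable.mul
      ((gk_cont (n := n) t).comp (continuous_id.sub continuous_const)).aestronglyMeasurable
  · rw [Real.norm_eq_abs, abs_mul, abs_of_pos (gk_pos t _)]
    have h2 : Real.exp (a * ‖y‖) ≤ Real.exp (a * ‖x‖) * Real.exp (a * ‖y - x‖) := by
      rw [← Real.exp_add, ← mul_add]
      refine Real.exp_le_exp.2 (mul_le_mul_of_nonneg_left ?_ ha)
      calc ‖y‖ = ‖x + (y - x)‖ := by rw [add_sub_cancel]
        _ ≤ _ := norm_add_le _ _
    calc |F y| * gk t (y - x) ≤ (C * (Real.exp (a * ‖x‖) * Real.exp (a * ‖y - x‖))) *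
          gk t (y - x) := mul_le_mul_of_nonneg_right
            ((hB y).trans (mul_le_mul_of_nonneg_left h2 hC)) (gk_pos _ _).le
      _ = _ := by ring

lemma NN_const (ht : 0 < t) (a : ℝ) (x : E n) : NN t (fun _ => a) x = a := by
  unfold NN
  rw [integral_const_mul, integral_sub_right_eq_self (fun v => gk t v) x]
  exact mul_div_cancel_right₀ _ (gk_int_pos ht).ne'

lemma NN_sub (ht : 0 < t) (hF : EG F) (hG : EG G) (x : E n) :
    NN t (fun y => F y - G y) x = NN t F x - NN t G x := by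
  unfold NN
  rw [← sub_div, ← integral_sub (int_NN ht hF x) (int_NN ht hG x)]
  congr 1
  exact integral_congr_ae (ae_of_all _ fun y => by simp only; ring)

lemma NN_add (ht : 0 < t) (hF : EG F) (hG : EG G) (x : E n) :
    NN t (fun y => F y + G y) x = NN t F x + NN t G x := by
  unfold NN
  rw [← add_div, ← integral_add (int_NN ht hF x) (int_NN ht hG x)]
  congr 1
  exact integral_congr_ae (ae_of_all _ fun y => by simp only; ring)

lemma NN_smul (a : ℝ) (F : E n → ℝ) (x : E n) : NN t (fun y => a * F y) x = a * NN t F x := by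
  unfold NN
  rw [← mul_div_assoc, ← integral_const_mul]
  congr 1
  exact integral_congr_ae (ae_of_all _ fun y => by simp only; ring)

lemma NN_sum {ι : Type*} (S : Finset ι) {F : ι → E n → ℝ} (ht : 0 < t)
    (h : ∀ i ∈ S, EG (F i)) (x : E n) :
    NN t (fun y => ∑ i ∈ S, F i y) x = ∑ i ∈ S, NN t (F i) x := by
  unfold NN
  rw [← Finset.sum_div, ← integral_finsetSum S fun i hi => int_NN ht (h i hi) x]
  congr 1
  exact integral_congr_ae (ae_of_all _ fun y => by simp only [Finset.sum_mul])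

lemma NN_nonneg (ht : 0 < t) (h : ∀ y, 0 ≤ F y) (x : E n) : 0 ≤ NN t F x :=
  div_nonneg (integral_nonneg fun y => mul_nonneg (h y) (gk_pos _ _).le) (gk_int_pos ht).le

lemma NN_mono (ht : 0 < t) (hF : EG F) (hG : EG G) (h : ∀ x, F x ≤ G x) (x : E n) :
    NN t F x ≤ NN t G x :=
  div_le_div_of_nonneg_right (integral_mono (int_NN ht hF x) (int_NN ht hG x)
    fun y => mul_le_mul_of_nonneg_right (h y) (gk_pos _ _).le) (gk_int_pos ht).le

lemma NN_sq_le (ht : 0 < t) (hF : EG F) (x : E n) : (NN t F x) ^ 2 ≤ NN t (fun y => F y ^ 2) x := by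
  set m := NN t F x with hm
  have hF2 : EG fun x => F x ^ 2 := by simpa [sq] using hF.mul hF
  have h1 : 0 ≤ NN t (fun x => (F x - m) ^ 2) x := NN_nonneg ht (fun y => sq_nonneg _) x
  have e : (fun x => (F x - m) ^ 2) = fun x => (F x ^ 2 - 2 * m * F x) + m ^ 2 := by
    funext x; ring
  rw [e, NN_add ht (hF2.sub (hF.smul _)) (EG.const _), NN_sub ht hF2 (hF.smul _), NN_smul,
    NN_const ht, ← hm] at h1
  nlinarith

/-- `E_ρ F = E_w (N F)` -/
lemma Em_NN (hw : Ex w) (ht : 0 < t) (hF : EG F) :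
    Em (Lp w t fun _ => 1) F = Em w (NN t F) := by
  have h1 := hw.fubini ht hF (EG.const 1)
  have h2 := int_noisy hw ht
  have hg := gk_int_pos (n := n) ht
  have h3 := hw.pos
  unfold Em
  rw [h1, h2]
  have e : ∫ x, (fun _ : E n => (1 : ℝ)) x * w x * ∫ y, F y * gk t (y - x) =
      (∫ z : E n, gk t z) * ∫ x, NN t F x * w x := by
    rw [← integral_const_mul]
    refine integral_congr_ae (ae_of_all _ fun x => ?_)
    simp only [NN]
    field_simp
  rw [e]
  exact mul_div_mul_left _ _ hg.ne'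

lemma gk_even (t : ℝ) (z : E n) : gk t (-z) = gk t z := by unfold gk; rw [norm_neg]

/-- Gaussian Poincaré -/
theorem NN_poinc (ht : 0 < t) {f : E n → ℝ} {L : ℝ≥0} (hf : LipschitzWith L f)
    (hE : EG f) (x : E n) :
    NN t (fun y => f y ^ 2) x - (NN t f x) ^ 2 ≤ t * NN t (fun y => ‖fderiv ℝ f y‖ ^ 2) x := by
  have hl : 0 < 1 / t := by positivity
  have hE2 : EG fun x => f x ^ 2 := by simpa [sq] using hE.mul hE
  have hslc : SLC (1 / t) fun y : E n => gk t (y - x) := by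
    have h1 : SLC 0 fun _ : E n => (1 : ℝ) := by
      intro a b
      simp
    have h2 := slc_post (s := t) ht (fun _ => zero_le_one) h1 x
    have e : (fun y : E n => (1 : ℝ) * gk t (x - y)) = fun y => gk t (y - x) := by
      funext y
      rw [one_mul, ← gk_even, neg_sub]
    rw [zero_add, e] at h2
    exact h2
  have i1 := int_NN (F := fun _ => (1 : ℝ)) ht (EG.const 1) x
  simp only [one_mul] at i1
  have key := poincare_lip (W := fun y : E n => gk t (y - x)) hl (fun y => (gk_pos _ _).le)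
    ((gk_cont (n := n) t).measurable.comp (measurable_id.sub measurable_const)) i1 hslc hf
    (int_NN ht hE2 x)
  have hg := gk_int_pos (n := n) ht
  have e0 : ∫ y : E n, gk t (y - x) = ∫ z : E n, gk t z :=
    integral_sub_right_eq_self (fun v => gk t v) x
  rw [e0] at key
  have e1 : (1 / t)⁻¹ = t := by simp
  rw [e1] at key
  unfold NN
  set g := ∫ z : E n, gk t z
  set A := ∫ y, f y ^ 2 * gk t (y - x)
  set B := ∫ y, f y * gk t (y - x)
  set D := ∫ y, ‖fderiv ℝ f y‖ ^ 2 * gk t (y - x)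
  have h5 : A / g - (B / g) ^ 2 = (g * A - B ^ 2) / g ^ 2 := by field_simp
  have h6 : t * (D / g) = (t * g * D) / g ^ 2 := by field_simp
  rw [h5, h6]
  exact div_le_div_of_nonneg_right key (by positivity)

lemma NN_shift (t : ℝ) (F : E n → ℝ) (x : E n) :
    NN t F x = (∫ z, gk t z * F (x + z)) / ∫ z : E n, gk t z := by
  unfold NN
  congr 1
  rw [← integral_add_left_eq_self (fun y => F y * gk t (y - x)) x]
  refine integral_congr_ae (ae_of_all _ fun z => ?_)
  simp only [add_sub_cancel_left]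
  ring

/-- the Gaussian average of a `CB` function is `CB`, and `pd` commutes -/
theorem NN_CB (ht : 0 < t) {f : E n → ℝ} (hf : CB f) :
    CB (NN t f) ∧ ∀ k, pd k (NN t f) = NN t (pd k f) := by
  obtain ⟨h1, ⟨B, hB⟩⟩ := hf
  have hfE := (CB.eg ⟨h1, ⟨B, hB⟩⟩)
  have hg := gk_int_pos (n := n) ht
  have hd := h1.differentiable (by simp)
  have hcd := h1.continuous_fderiv (by simp)
  obtain ⟨M, hM⟩ : ∃ M : ℝ, ∀ x, ‖fderiv ℝ f x‖ ≤ M := by
    refine ⟨√(∑ _k : Fin n, B ^ 2), fun x => ?_⟩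
    apply Real.le_sqrt_of_sq_le
    rw [norm_fderiv_sq]
    refine Finset.sum_le_sum fun k _ => ?_
    rw [← sq_abs]
    exact pow_le_pow_left₀ (abs_nonneg _) ((hB x).2 k) 2
  have ig := int_gk (n := n) ht
  set J : E n → E n →L[ℝ] ℝ := fun x => ∫ z, gk t z • fderiv ℝ f (x + z) with hJ
  have d1 : ∀ x, HasFDerivAt (fun x => ∫ z, gk t z * f (x + z)) (J x) x := by
    intro x
    refine hasFDerivAt_integral_of_dominated_of_fderiv_le (F := fun x z => gk t z * f (x + z))
      (F' := fun x z => gk t z • fderiv ℝ f (x + z)) (bound := fun z => gk t z * M)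
      (s := Set.univ) Filter.univ_mem ?_ ?_ ?_ ?_ ?_ ?_
    · exact Eventually.of_forall fun x => ((gk_cont t).mul
        (h1.continuous.comp (continuous_const.add continuous_id))).aestronglyMeasurable
    · refine ig.mul_bdd (c := B) (h1.continuous.comp
        (continuous_const.add continuous_id)).aestronglyMeasurable (ae_of_all _ fun z => ?_)
      rw [Real.norm_eq_abs]
      exact (hB _).1
    · exact ((gk_cont t).smul (hcd.comp (continuous_const.add continuous_id))).aestronglyMeasurable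
    · refine ae_of_all _ fun z x _ => ?_
      rw [norm_smul, Real.norm_of_nonneg (gk_pos t z).le]
      exact mul_le_mul_of_nonneg_left (hM _) (gk_pos t z).le
    · exact ig.mul_const M
    · refine ae_of_all _ fun z x _ => ?_
      have h2 : HasFDerivAt (fun x => f (x + z)) (fderiv ℝ f (x + z)) x := by
        have h3 : HasFDerivAt (fun x : E n => x + z) (ContinuousLinearMap.id ℝ (E n)) x :=
          (hasFDerivAt_id x).add_const z
        have h4 := (hd (x + z)).hasFDerivAt.comp x h3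
        rw [ContinuousLinearMap.comp_id] at h4
        exact h4
      exact h2.const_smul (gk t z)
  have e0 : NN t f = fun x => (∫ z, gk t z * f (x + z)) / ∫ z : E n, gk t z :=
    funext fun x => NN_shift t f x
  have d2 : ∀ x, HasFDerivAt (NN t f) ((∫ z : E n, gk t z)⁻¹ • J x) x := by
    intro x
    rw [e0]
    have := (d1 x).const_smul ((∫ z : E n, gk t z)⁻¹)
    refine this.congr_of_eventuallyEq (Eventually.of_forall fun y => ?_)
    simp only [Pi.smul_apply, smul_eq_mul]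
    rw [div_eq_inv_mul]
  have cJ : Continuous J := by
    refine continuous_of_dominated (bound := fun z => gk t z * M) ?_ ?_ (ig.mul_const M) ?_
    · exact fun x => ((gk_cont t).smul
        (hcd.comp (continuous_const.add continuous_id))).aestronglyMeasurable
    · intro x
      refine ae_of_all _ fun z => ?_
      rw [norm_smul, Real.norm_of_nonneg (gk_pos t z).le]
      exact mul_le_mul_of_nonneg_left (hM _) (gk_pos t z).le
    · refine ae_of_all _ fun z => ?_
      have h3 : Continuous fun x : E n => fderiv ℝ f (x + z) :=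
        hcd.comp (continuous_id.add continuous_const)
      exact h3.fun_const_smul (gk t z)
  have epd : ∀ k, pd k (NN t f) = NN t (pd k f) := by
    intro k
    funext x
    rw [NN_shift]
    unfold pd
    rw [(d2 x).fderiv]
    simp only [_root_.smul_apply, smul_eq_mul]
    rw [div_eq_inv_mul]
    congr 1
    have hint : Integrable fun z => gk t z • fderiv ℝ f (x + z) := by
      refine (ig.mul_const M).mono' ((gk_cont t).smul
        (hcd.comp (continuous_const.add continuous_id))).aestronglyMeasurable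
        (ae_of_all _ fun z => ?_)
      rw [norm_smul, Real.norm_of_nonneg (gk_pos t z).le]
      exact mul_le_mul_of_nonneg_left (hM _) (gk_pos t z).le
    simp only [hJ]
    rw [ContinuousLinearMap.integral_apply hint]
    rfl
  refine ⟨⟨?_, B, fun x => ⟨?_, fun k => ?_⟩⟩, epd⟩
  · rw [contDiff_one_iff_fderiv]
    refine ⟨fun x => (d2 x).differentiableAt, ?_⟩
    have : fderiv ℝ (NN t f) = fun x => (∫ z : E n, gk t z)⁻¹ • J x :=
      funext fun x => (d2 x).fderiv
    rw [this]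
    exact cJ.fun_const_smul _
  · rw [abs_le]
    constructor
    · have := NN_mono ht (EG.const (-B)) hfE.1 (fun x => (abs_le.1 (hB x).1).1) x
      rwa [NN_const ht] at this
    · have := NN_mono ht hfE.1 (EG.const B) (fun x => (abs_le.1 (hB x).1).2) x
      rwa [NN_const ht] at this
  · rw [epd k, abs_le]
    constructor
    · have := NN_mono ht (EG.const (-B)) (hfE.2 k) (fun x => (abs_le.1 ((hB x).2 k)).1) x
      rwa [NN_const ht] at this
    · have := NN_mono ht (hfE.2 k) (EG.const B) (fun x => (abs_le.1 ((hB x).2 k)).2) x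
      rwa [NN_const ht] at this

lemma EG.NN (ht : 0 < t) (hm : Measurable (NN t F)) {B : ℝ} (hF : EG F) (hB : ∀ x, |F x| ≤ B) :
    EG (NN t F) := by
  refine EG.of_bdd hm (C := B) fun x => ?_
  rw [abs_le]
  constructor
  · have := NN_mono ht (EG.const (-B)) hF (fun x => (abs_le.1 (hB x)).1) x
    rwa [NN_const ht] at this
  · have := NN_mono ht hF (EG.const B) (fun x => (abs_le.1 (hB x)).2) x
    rwa [NN_const ht] at this

lemma cb_lip {f : E n → ℝ} (hf : CB f) : ∃ L : ℝ≥0, LipschitzWith L f := by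
  obtain ⟨h1, ⟨B, hB⟩⟩ := hf
  refine ⟨Real.toNNReal √(∑ _k : Fin n, B ^ 2), ?_⟩
  refine lipschitzWith_of_nnnorm_fderiv_le (h1.differentiable (by simp)) fun x => ?_
  rw [← NNReal.coe_le_coe, Real.coe_toNNReal _ (Real.sqrt_nonneg _), coe_nnnorm]
  apply Real.le_sqrt_of_sq_le
  rw [norm_fderiv_sq]
  refine Finset.sum_le_sum fun k _ => ?_
  rw [← sq_abs]
  exact pow_le_pow_left₀ (abs_nonneg _) ((hB x).2 k) 2

lemma vr_eq (hρ : Ex ρ) (f : E n → ℝ) :
    vr (nm ρ) f = Em ρ (fun x => f x ^ 2) - (Em ρ f) ^ 2 := by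
  unfold vr; rw [int_nm hρ, int_nm hρ]

lemma dr_eq (hρ : Ex ρ) (f : E n → ℝ) :
    dr (nm ρ) f = ∑ k, Em ρ (fun x => pd k f x ^ 2) := by
  unfold dr; simp_rw [int_nm hρ]

lemma dr_eq' (hρ : Ex ρ) {f : E n → ℝ} (hf : CB f) :
    dr (nm ρ) f = Em ρ (fun x => ‖fderiv ℝ f x‖ ^ 2) := by
  rw [dr_eq hρ, ← Em_sum _ hρ fun k _ => by
    have := ((CB.eg hf).2 k).mul ((CB.eg hf).2 k)
    simpa [sq] using this]
  congr 1
  funext x
  rw [norm_fderiv_sq]

/-- (ii) `C_P(X) ≤ C_P(Y) + t` -/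
theorem PI_of_noisy (hw : Ex w) (hc : 0 ≤ c) (h : SLC c w) (ht : 0 < t)
    (hK : 0 ≤ K) (hP : PI (Lp w t fun _ => 1) K) : PI w (K + t) := by
  intro F hF
  have hρ := hw.noisy ht
  have hFE := CB.eg hF
  have hF2 : EG fun x => F x ^ 2 := by simpa [sq] using hFE.1.mul hFE.1
  obtain ⟨B, hB⟩ := hF.2
  obtain ⟨L, hL⟩ := cb_lip hF
  have hM : CB (pE w t F) := CB_pE hw hc h ht hFE.1.1 fun x => (hB x).1
  have hM2 : EG fun x => pE w t F x ^ 2 := by
    simpa [sq] using (CB.eg hM).1.mul (CB.eg hM).1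
  have hDE : EG fun x => ‖fderiv ℝ F x‖ ^ 2 := by
    have e : (fun x => ‖fderiv ℝ F x‖ ^ 2) = fun x => ∑ k, pd k F x * pd k F x := by
      funext x; rw [norm_fderiv_sq]; simp [sq]
    rw [e]
    exact EG.sum _ fun k _ => (hFE.2 k).mul (hFE.2 k)
  have bF2 : ∀ x, |F x ^ 2| ≤ B ^ 2 := fun x => by
    rw [abs_of_nonneg (sq_nonneg _), ← sq_abs]
    exact pow_le_pow_left₀ (abs_nonneg _) (hB x).1 2
  have hpF2 : EG (pE w t fun x => F x ^ 2) :=
    (CB.eg (CB_pE hw hc h ht hF2.1 bF2)).1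
  have hpD : EG (pE w t fun x => ‖fderiv ℝ F x‖ ^ 2) := by
    have bD : ∀ x, |‖fderiv ℝ F x‖ ^ 2| ≤ (L : ℝ) ^ 2 := fun x => by
      rw [abs_of_nonneg (sq_nonneg _)]
      exact pow_le_pow_left₀ (norm_nonneg _) (norm_fderiv_le_of_lipschitz ℝ hL) 2
    exact (CB.eg (CB_pE hw hc h ht hDE.1 bD)).1
  have h1 := hP _ hM
  rw [vr_eq hρ, Em_pE hw ht hFE.1, dr_eq hρ] at h1
  -- pointwise Poincaré
  have p1 : ∀ y, pE w t (fun x => F x ^ 2) y - pE w t F y ^ 2 ≤
      t * pE w t (fun x => ‖fderiv ℝ F x‖ ^ 2) y := by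
    intro y
    refine (post_poincare hw hc h ht hL y).trans ?_
    refine mul_le_mul_of_nonneg_right ?_ (pE_nonneg hw ht (fun x => sq_nonneg _) y)
    exact div_le_self ht.le (by nlinarith [mul_nonneg hc ht.le])
  have p2 : ∀ y, ∑ k, pd k (pE w t F) y ^ 2 ≤ pE w t (fun x => ‖fderiv ℝ F x‖ ^ 2) y := by
    intro y
    have hb := bessel hw hc h ht hFE.1 y
    have e : ∑ k, pd k (pE w t F) y ^ 2 = (∑ k, (pE w t (fun x => F x * x k) y -
        pE w t F y * pE w t (fun x => x k) y) ^ 2) / t ^ 2 := by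
      rw [Finset.sum_div]
      refine Finset.sum_congr rfl fun k _ => ?_
      rw [pd_pE hw ht hFE.1, div_pow]
    rw [e, div_le_iff₀ (by positivity)]
    refine hb.trans ?_
    have := mul_le_mul_of_nonneg_left (p1 y) ht.le
    refine this.trans (le_of_eq ?_)
    ring
  have hpd2 : ∀ k, EG fun x => pd k (pE w t F) x ^ 2 := fun k => by
    simpa [sq] using ((CB.eg hM).2 k).mul ((CB.eg hM).2 k)
  have h2 : ∑ k, Em (Lp w t fun _ => 1) (fun x => pd k (pE w t F) x ^ 2) ≤
      Em w (fun x => ‖fderiv ℝ F x‖ ^ 2) := by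
    rw [← Em_pE hw ht hDE, ← Em_sum _ hρ fun k _ => hpd2 k]
    exact Em_mono hρ (EG.sum _ fun k _ => hpd2 k) hpD p2
  have h3 : Em w (fun x => F x ^ 2) - Em (Lp w t fun _ => 1) (fun y => pE w t F y ^ 2) ≤
      t * Em w (fun x => ‖fderiv ℝ F x‖ ^ 2) := by
    rw [← Em_pE hw ht hF2, ← Em_pE hw ht hDE, ← Em_sub hρ hpF2 hM2, ← Em_smul]
    exact Em_mono hρ (hpF2.sub hM2) (hpD.smul t) p1
  rw [vr_eq hw, dr_eq' hw hF]
  have h4 := mul_le_mul_of_nonneg_left h2 hK
  linarith

/-- (i) `C_P(Y) ≤ C_P(X) + t` -/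
theorem PI_noisy (hw : Ex w) (ht : 0 < t) (hK : 0 ≤ K) (hP : PI w K) :
    PI (Lp w t fun _ => 1) (K + t) := by
  intro f hf
  have hρ := hw.noisy ht
  have hfE := CB.eg hf
  have hf2 : EG fun x => f x ^ 2 := by simpa [sq] using hfE.1.mul hfE.1
  obtain ⟨L, hL⟩ := cb_lip hf
  obtain ⟨hN, hNpd⟩ := NN_CB ht hf
  have hNE := CB.eg hN
  have hN2 : EG fun x => NN t f x ^ 2 := by simpa [sq] using hNE.1.mul hNE.1
  have hDE : EG fun x => ‖fderiv ℝ f x‖ ^ 2 := by
    have e : (fun x => ‖fderiv ℝ f x‖ ^ 2) = fun x => ∑ k, pd k f x * pd k f x := by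
      funext x; rw [norm_fderiv_sq]; simp [sq]
    rw [e]
    exact EG.sum _ fun k _ => (hfE.2 k).mul (hfE.2 k)
  -- measurability of Gaussian averages of continuous bounded functions
  have mN : ∀ {g : E n → ℝ} {C : ℝ}, Continuous g → (∀ x, |g x| ≤ C) → Continuous (NN t g) := by
    intro g C hg hC
    have e0 : NN t g = fun x => (∫ z, gk t z * g (x + z)) / ∫ z : E n, gk t z :=
      funext fun x => NN_shift t g x
    rw [e0]
    refine Continuous.div_const ?_ _
    refine continuous_of_dominated (bound := fun z => gk t z * C) ?_ ?_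
      ((int_gk ht).mul_const C) ?_
    · exact fun x => ((gk_cont t).mul
        (hg.comp (continuous_const.add continuous_id))).aestronglyMeasurable
    · intro x
      refine ae_of_all _ fun z => ?_
      rw [norm_mul, Real.norm_of_nonneg (gk_pos t z).le, Real.norm_eq_abs]
      exact mul_le_mul_of_nonneg_left (hC _) (gk_pos t z).le
    · refine ae_of_all _ fun z => ?_
      exact continuous_const.mul (hg.comp (continuous_id.add continuous_const))
  obtain ⟨B, hB⟩ := hf.2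
  have bF2 : ∀ x, |f x ^ 2| ≤ B ^ 2 := fun x => by
    rw [abs_of_nonneg (sq_nonneg _), ← sq_abs]
    exact pow_le_pow_left₀ (abs_nonneg _) (hB x).1 2
  have bP2 : ∀ k x, |pd k f x ^ 2| ≤ B ^ 2 := fun k x => by
    rw [abs_of_nonneg (sq_nonneg _), ← sq_abs]
    exact pow_le_pow_left₀ (abs_nonneg _) ((hB x).2 k) 2
  have bD : ∀ x, |‖fderiv ℝ f x‖ ^ 2| ≤ (L : ℝ) ^ 2 := fun x => by
    rw [abs_of_nonneg (sq_nonneg _)]
    exact pow_le_pow_left₀ (norm_nonneg _) (norm_fderiv_le_of_lipschitz ℝ hL) 2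
  have cf : Continuous f := hf.1.continuous
  have cd : Continuous fun x => ‖fderiv ℝ f x‖ ^ 2 :=
    (hf.1.continuous_fderiv (by simp)).norm.pow 2
  have hNf2 : EG (NN t fun x => f x ^ 2) :=
    EG.NN ht (mN (cf.pow 2) bF2).measurable hf2 bF2
  have hND : EG (NN t fun x => ‖fderiv ℝ f x‖ ^ 2) :=
    EG.NN ht (mN cd bD).measurable hDE bD
  have h1 := hP _ hN
  rw [vr_eq hw, dr_eq hw, ← Em_NN hw ht hfE.1] at h1
  have p1 : ∀ x, NN t (fun y => f y ^ 2) x - NN t f x ^ 2 ≤
      t * NN t (fun y => ‖fderiv ℝ f y‖ ^ 2) x := fun x => NN_poinc ht hL hfE.1 x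
  have h3 : Em (Lp w t fun _ => 1) (fun x => f x ^ 2) - Em w (fun y => NN t f y ^ 2) ≤
      t * Em (Lp w t fun _ => 1) (fun x => ‖fderiv ℝ f x‖ ^ 2) := by
    rw [Em_NN hw ht hf2, Em_NN hw ht hDE, ← Em_sub hw hNf2 hN2, ← Em_smul]
    exact Em_mono hw (hNf2.sub hN2) (hND.smul t) p1
  have h2 : ∑ k, Em w (fun x => pd k (NN t f) x ^ 2) ≤
      Em (Lp w t fun _ => 1) (fun x => ‖fderiv ℝ f x‖ ^ 2) := by
    rw [← dr_eq' hρ hf, dr_eq hρ]
    refine Finset.sum_le_sum fun k _ => ?_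
    have hk2 : EG fun x => pd k f x ^ 2 := by simpa [sq] using (hfE.2 k).mul (hfE.2 k)
    rw [Em_NN hw ht hk2]
    have e : (fun x => pd k (NN t f) x ^ 2) = fun x => NN t (pd k f) x ^ 2 := by
      rw [hNpd k]
    rw [e]
    have hk3 : EG fun x => NN t (pd k f) x ^ 2 := by
      rw [← e]; simpa [sq] using (hNE.2 k).mul (hNE.2 k)
    exact Em_mono hw hk3 (EG.NN ht (mN ((Tw807.pd_cont hf.1 k).pow 2) (bP2 k)).measurable hk2
      (bP2 k)) fun x => NN_sq_le ht (hfE.2 k) x
  rw [vr_eq hρ, dr_eq' hρ hf]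
  have h4 := mul_le_mul_of_nonneg_left h2 hK
  linarith

end Crest.Agent.R201.An
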