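import Crest.Agent.R201.An14_293

/-!
# R201 AN-15: scaling and the KLS inequality for strongly log-concave weights (helper293)
-/

set_option autoImplicit false
open MeasureTheory Matrix Filter Topology Metric
open scoped ContDiff ENNReal NNReal

namespace Crest.Agent.R201.An

open Crest.Agent.R201 Crest.Agent.R144.Fi865

variable {n : ℕ} {w ρ F G : E n → ℝ} {c R s σ t K l a : ℝ}

/-- scaled weight: law of `X/l` -/
noncomputable def scl (l : ℝ) (w : E n → ℝ) : E n → ℝ := fun x => w (l • x)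

lemma int_scl (hl : 0 < l) (F : E n → ℝ) :
    ∫ x, F (l • x) = (l ^ n)⁻¹ * ∫ x, F x := by
  rw [Measure.integral_comp_smul, abs_of_pos (by positivity), smul_eq_mul]
  simp

/-- change of variables for expectations -/
lemma Em_scl (hl : 0 < l) (ha : 0 < a) (F : E n → ℝ) :
    Em (fun x => a * ρ (l • x)) F = Em ρ (fun x => F (l⁻¹ • x)) := by
  unfold Em
  have e1 : ∫ y, F y * (a * ρ (l • y)) = a * ((l ^ n)⁻¹ * ∫ x, F (l⁻¹ • x) * ρ x) := by
    rw [← int_scl hl (fun x => F (l⁻¹ • x) * ρ x), ← integral_const_mul]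
    refine integral_congr_ae (ae_of_all _ fun y => ?_)
    simp only
    rw [inv_smul_smul₀ hl.ne']
    ring
  have e2 : ∫ y : E n, a * ρ (l • y) = a * ((l ^ n)⁻¹ * ∫ x, ρ x) := by
    rw [integral_const_mul, int_scl hl]
  rw [e1, e2, ← mul_assoc, ← mul_assoc]
  exact mul_div_mul_left _ _ (by positivity)

lemma Ex.scl (hρ : Ex ρ) (hl : 0 < l) (ha : 0 < a) : Ex fun x => a * ρ (l • x) where
  nonneg x := mul_nonneg ha.le (hρ.nonneg _)
  meas := (hρ.meas.comp (measurable_const_smul l)).const_mul a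
  int b := by
    have h1 := (hρ.int (b / l)).comp_smul hl.ne'
    refine (h1.const_mul a).congr (ae_of_all _ fun x => ?_)
    simp only
    rw [norm_smul, Real.norm_of_nonneg hl.le]
    have : b / l * (l * ‖x‖) = b * ‖x‖ := by field_simp
    rw [this]
    ring
  pos := by
    rw [integral_const_mul, int_scl hl]
    have := hρ.pos
    positivity

lemma CB_comp_smul {f : E n → ℝ} (hf : CB f) (l : ℝ) : CB (fun x => f (l • x)) ∧
    ∀ k x, pd k (fun x => f (l • x)) x = l * pd k f (l • x) := by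
  have hd := hf.1.differentiable (by simp)
  have e : ∀ k x, pd k (fun x => f (l • x)) x = l * pd k f (l • x) := by
    intro k x
    unfold pd
    have h3 : HasFDerivAt (fun x : E n => l • x) (l • ContinuousLinearMap.id ℝ (E n)) x :=
      (l • ContinuousLinearMap.id ℝ (E n)).hasFDerivAt
    have h4 := (hd (l • x)).hasFDerivAt.comp x h3
    have h5 : fderiv ℝ (fun x => f (l • x)) x =
        (fderiv ℝ f (l • x)).comp (l • ContinuousLinearMap.id ℝ (E n)) := h4.fderiv
    rw [h5]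
    simp
  obtain ⟨h1, B, hB⟩ := hf
  refine ⟨Tw807.cb_iff.2 ⟨h1.comp (contDiff_id.const_smul l), ⟨B, fun x => (hB _).1⟩, fun k => ?_⟩, e⟩
  refine ⟨|l| * B, fun x => ?_⟩
  rw [e, abs_mul]
  exact mul_le_mul_of_nonneg_left ((hB _).2 k) (abs_nonneg _)

/-- transport of variance and energy -/
lemma vr_scl (hρ : Ex ρ) (hl : 0 < l) (ha : 0 < a) (f : E n → ℝ) :
    vr (nm fun x => a * ρ (l • x)) f = vr (nm ρ) (fun x => f (l⁻¹ • x)) := by
  rw [vr_eq (hρ.scl hl ha), vr_eq hρ, Em_scl hl ha, Em_scl hl ha]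

lemma dr_scl (hρ : Ex ρ) (hl : 0 < l) (ha : 0 < a) {f : E n → ℝ} (hf : CB f) :
    dr (nm fun x => a * ρ (l • x)) f = l ^ 2 * dr (nm ρ) (fun x => f (l⁻¹ • x)) := by
  rw [dr_eq (hρ.scl hl ha), dr_eq hρ, Finset.mul_sum]
  refine Finset.sum_congr rfl fun k _ => ?_
  rw [Em_scl hl ha, ← Em_smul]
  congr 1
  funext x
  rw [(CB_comp_smul hf l⁻¹).2 k x, mul_pow, inv_pow]
  field_simp

lemma PI_scl (hρ : Ex ρ) (hl : 0 < l) (ha : 0 < a) (h : PI ρ K) :
    PI (fun x => a * ρ (l • x)) (K / l ^ 2) := by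
  intro f hf
  have h1 := h _ (CB_comp_smul hf l⁻¹).1
  rw [vr_scl hρ hl ha, dr_scl hρ hl ha hf]
  refine h1.trans (le_of_eq ?_)
  field_simp

lemma sharp_scl (hρ : Ex ρ) (hl : 0 < l) (ha : 0 < a) (hC : CP ρ = l ^ 2) {δ : ℝ} (hδ : 0 < δ) :
    ∃ f : E n → ℝ, CB f ∧ 0 < vr (nm fun x => a * ρ (l • x)) f ∧
      dr (nm fun x => a * ρ (l • x)) f ≤ (1 + δ) * vr (nm fun x => a * ρ (l • x)) f := by
  obtain ⟨g, hg, h1, h2⟩ := CP_sharp (ρ := ρ) (by rw [hC]; positivity) hδ
  have hgl := (CB_comp_smul hg l).1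
  refine ⟨fun x => g (l • x), hgl, ?_, ?_⟩
  · rw [vr_scl hρ hl ha]
    have e : (fun x => g (l • l⁻¹ • x)) = g := by funext x; rw [smul_inv_smul₀ hl.ne']
    rw [e]
    exact h1
  · rw [vr_scl hρ hl ha, dr_scl hρ hl ha hgl]
    have e : (fun x => g (l • l⁻¹ • x)) = g := by funext x; rw [smul_inv_smul₀ hl.ne']
    rw [e]
    rw [hC] at h2
    have h3 := mul_le_mul_of_nonneg_left h2 (sq_nonneg l)
    refine h3.trans (le_of_eq ?_)
    field_simp

lemma gk_scl (hl : 0 < l) (h : ℝ) (z : E n) : gk h z = gk (l ^ 2 * h) (l • z) := by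
  unfold gk
  rw [norm_smul, Real.norm_of_nonneg hl.le, mul_pow]
  congr 2
  rw [mul_comm 2 (l ^ 2 * h), mul_assoc, mul_div_mul_left _ _ (by positivity), mul_comm h 2]

lemma Lp_scl (hl : 0 < l) (h : ℝ) (y : E n) :
    Lp (scl l w) h (fun _ => 1) y = (l ^ n)⁻¹ * Lp w (l ^ 2 * h) (fun _ => 1) (l • y) := by
  unfold Lp scl
  rw [← int_scl hl (fun x => 1 * (w x * gk (l ^ 2 * h) (l • y - x)))]
  refine integral_congr_ae (ae_of_all _ fun x => ?_)
  simp only
  rw [gk_scl hl h (y - x), smul_sub]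

lemma Wt.scl (hw : Wt c R w) (hl : 0 < l) : Wt (c * l ^ 2) (R / l) (An.scl l w) where
  nonneg x := hw.nonneg _
  meas := hw.meas.comp (measurable_const_smul l)
  int := hw.int.comp_smul hl.ne'
  supp x hx := by
    have := hw.supp _ hx
    rw [norm_smul, Real.norm_of_nonneg hl.le] at this
    rw [le_div_iff₀ hl]
    linarith
  slc := by
    intro x y
    have h1 := hw.slc (l • x) (l • y)
    have e1 : (1 / 2 : ℝ) • (l • x + l • y) = l • ((1 / 2 : ℝ) • (x + y)) := by module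
    have e2 : ‖l • x - l • y‖ ^ 2 = l ^ 2 * ‖x - y‖ ^ 2 := by
      rw [← smul_sub, norm_smul, Real.norm_of_nonneg hl.le, mul_pow]
    rw [e1, e2] at h1
    refine h1.trans (le_of_eq ?_)
    unfold An.scl
    congr 3
    ring
  pos := by
    unfold An.scl
    rw [int_scl hl]
    have := hw.pos
    positivity

lemma vX_scl (hl : 0 < l) (u : Fin n → ℝ) : vX (scl l w) u = vX w u / l ^ 2 := by
  have e0 : scl l w = fun x => (1 : ℝ) * w (l • x) := by funext x; unfold scl; ring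
  unfold vX
  rw [e0, Em_scl hl one_pos, Em_scl hl one_pos]
  have e1 : (fun x : E n => (∑ i, u i * (l⁻¹ • x) i) ^ 2) =
      fun x => (l ^ 2)⁻¹ * (∑ i, u i * x i) ^ 2 := by
    funext x
    have : ∑ i, u i * (l⁻¹ • x) i = l⁻¹ * ∑ i, u i * x i := by
      rw [Finset.mul_sum]
      exact Finset.sum_congr rfl fun i _ => by simp; ring
    rw [this, mul_pow, inv_pow]
  have e2 : (fun x : E n => ∑ i, u i * (l⁻¹ • x) i) =
      fun x => l⁻¹ * ∑ i, u i * x i := by
    funext x
    rw [Finset.mul_sum]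
    exact Finset.sum_congr rfl fun i _ => by simp; ring
  rw [e1, e2, Em_smul, Em_smul]
  field_simp

/-- Poincaré for the noisy weight, crude -/
lemma PI_slc (hw : Ex w) (hc : 0 < c) (h : SLC c w) : PI w (1 / c) := by
  intro f hf
  obtain ⟨L, hL⟩ := cb_lip hf
  have hfE := CB.eg hf
  have hf2 : EG fun x => f x ^ 2 := by simpa [sq] using hfE.1.mul hfE.1
  have key := poincare_lip (W := w) hc hw.nonneg hw.meas hw.integrable h hL (hw.int_mul hf2)
  rw [vr_eq hw, dr_eq' hw hf]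
  unfold Em
  have hp := hw.pos
  set Z := ∫ x, w x
  set A := ∫ x, f x ^ 2 * w x
  set B := ∫ x, f x * w x
  set D := ∫ x, ‖fderiv ℝ f x‖ ^ 2 * w x
  have h5 : A / Z - (B / Z) ^ 2 = (Z * A - B ^ 2) / Z ^ 2 := by field_simp
  have h6 : 1 / c * (D / Z) = (c⁻¹ * Z * D) / Z ^ 2 := by field_simp
  rw [h5, h6]
  exact div_le_div_of_nonneg_right key (by positivity)

/-- **KLS for strongly log-concave weights of bounded support**, from `tensor_main` -/
theorem kls_wt (TM : TensorMain) : ∃ C : ℝ, 0 < C ∧ ∀ (n : ℕ) (c R σ : ℝ) (w : E n → ℝ),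
    0 < c → Wt c R w → 0 < σ → (∀ u, vX w u ≤ σ * (u ⬝ᵥ u)) → PI w (C * σ) := by
  obtain ⟨h0, hh0, hc⟩ := contra TM
  set hs := min (h0 / 4) (1 / 4000) with hhs
  have hs0 : 0 < hs := lt_min (by positivity) (by norm_num)
  have hs1 : hs ≤ 1 / 4000 := min_le_right _ _
  have hs2 : hs ≤ h0 / 4 := min_le_left _ _
  obtain ⟨η0, hη0, hcc⟩ := hc (hs / 2) (by positivity)
  set c0 := min (1 / 400) (η0 ^ 2 * (hs / 3)) with hc0
  have c00 : 0 < c0 := lt_min (by norm_num) (by positivity)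
  refine ⟨2 / c0, by positivity, fun n c R σ w hcp hw hσ hcov => ?_⟩
  by_contra hcon
  have hX : PI w (CP w) := PI_CP ⟨1 / c, by positivity, PI_slc hw.ex hcp hw.slc⟩
  -- `K = C_P(X)` is large
  set K := CP w with hK
  have hK1 : 2 / c0 * σ < K := by
    by_contra h
    push Not at h
    apply hcon
    intro f hf
    exact (hX f hf).trans (mul_le_mul_of_nonneg_right h (dr_nonneg _ _))
  have hK0 : 0 < K := lt_trans (by positivity) hK1
  set t := hs * K with ht
  have ht0 : 0 < t := by positivity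
  have hρ := hw.ex.noisy ht0
  have hY : PI (Lp w t fun _ => 1) (K + t) := PI_noisy hw.ex ht0 hK0.le hX
  set KY := CP (Lp w t fun _ => 1) with hKY
  have hPY : PI (Lp w t fun _ => 1) KY := PI_CP ⟨K + t, by positivity, hY⟩
  have b1 : KY ≤ K + t := CP_le (by positivity) hY
  have b2 : K ≤ KY + t := by
    rw [hK]
    exact CP_le (add_nonneg (CP_nonneg _) ht0.le)
      (PI_of_noisy hw.ex hcp.le hw.slc ht0 (CP_nonneg _) hPY)
  have b3 : t ≤ K / 4000 := by
    rw [ht]
    have := mul_le_mul_of_nonneg_right hs1 hK0.le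
    linarith
  have hKY0 : 0 < KY := by linarith
  have b4 : K ≤ 2 * KY := by linarith
  have b5 : KY ≤ 2 * K := by linarith
  -- scaling
  set l := √KY with hl
  have hl0 : 0 < l := Real.sqrt_pos.2 hKY0
  have hl2 : l ^ 2 = KY := Real.sq_sqrt hKY0.le
  set h := t / KY with hh
  have hh0' : 0 < h := by positivity
  set s := h / 3 with hs'
  have hss : 2 * s + s = h := by rw [hs']; ring
  have hlh : l ^ 2 * h = t := by rw [hl2, hh]; field_simp
  have c1 : hs / 2 ≤ h := by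
    rw [hh, le_div_iff₀ hKY0, ht]
    nlinarith
  have c2 : h ≤ 2 * hs := by
    rw [hh, div_le_iff₀ hKY0, ht]
    nlinarith
  have eY : (Lp (scl l w) h fun _ => 1) = fun x => (l ^ n)⁻¹ * (Lp w t fun _ => 1) (l • x) := by
    funext y
    rw [Lp_scl hl0, hlh]
  have hln : 0 < (l ^ n)⁻¹ := by positivity
  set σ' := σ / KY with hσ'
  have hσ'0 : 0 < σ' := by positivity
  have c3 : σ' ≤ c0 := by
    rw [hσ', div_le_iff₀ hKY0]
    have h1 : 2 / c0 * σ < 2 * KY := lt_of_lt_of_le hK1 b4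
    have h2 : 2 / c0 * σ = 2 * (σ / c0) := by ring
    rw [h2] at h1
    have h3 : σ / c0 < KY := by linarith
    rw [div_lt_iff₀ c00] at h3
    linarith
  have c4 : σ' ≤ 1 / 400 := c3.trans (min_le_left _ _)
  have c5 : σ' ≤ η0 ^ 2 * (hs / 3) := c3.trans (min_le_right _ _)
  have H : Hyp (c * l ^ 2) (R / l) σ' s (scl l w) := by
    refine ⟨hw.scl hl0, by positivity, by positivity, ?_, hσ'0, ?_, ?_, ?_, ?_⟩
    · rw [hs']; linarith
    · intro u
      rw [vX_scl hl0, hl2, hσ', div_mul_eq_mul_div]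
      exact div_le_div_of_nonneg_right (hcov u) hKY0.le
    · rw [hss]; linarith
    · rw [hss, eY]
      intro f hf
      have h1 := PI_scl hρ hl0 hln hPY f hf
      rw [hl2, div_self hKY0.ne', one_mul] at h1
      exact h1
    · rw [hss, eY]
      intro δ hδ
      exact sharp_scl hρ hl0 hln (by rw [← hKY, hl2]) hδ
  refine hcc n _ _ σ' s (scl l w) ?_ ?_ ?_ H
  · rw [hss]; exact c1
  · rw [hss]; linarith
  · have h2s : 0 < 2 * s := by positivity
    rw [Real.sqrt_le_left hη0.le, div_le_iff₀ h2s]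
    have h3 : hs / 3 ≤ 2 * s := by rw [hs']; linarith
    exact c5.trans (mul_le_mul_of_nonneg_left h3 (sq_nonneg _))

end Crest.Agent.R201.An
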