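import Crest.Agent.R201.An0_293

/-!
# R201 AN-1: differentiation of posterior means (helper293)
-/

set_option autoImplicit false
open MeasureTheory Matrix Filter Topology
open scoped ContDiff RealInnerProductSpace

namespace Crest.Agent.R201.An

open Crest.Agent.R201

variable {n : ℕ} {w F G : E n → ℝ} {s : ℝ}

/-! ### kernels -/

lemma gk_pos (s : ℝ) (z : E n) : 0 < gk s z := Real.exp_pos _

lemma gk_le_one (hs : 0 < s) (z : E n) : gk s z ≤ 1 := by
  unfold gk
  rw [Real.exp_le_one_iff]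
  have : 0 ≤ ‖z‖ ^ 2 / (2 * s) := by positivity
  linarith

lemma gk_cont (s : ℝ) : Continuous (gk s : E n → ℝ) := by
  unfold gk
  fun_prop

lemma prj_apply (k : Fin n) (v : E n) : (EuclideanSpace.proj k : E n →L[ℝ] ℝ) v = v k := rfl

lemma gk_hasFDerivAt (s : ℝ) (x y : E n) :
    HasFDerivAt (fun y => gk s (y - x))
      ((gk s (y - x) * (-(1 / (2 * s)))) • ((2 : ℝ) • innerSL ℝ (y - x))) y := by
  have h1 : HasFDerivAt (fun z : E n => ‖z‖ ^ 2) ((2 : ℝ) • innerSL ℝ (y - x)) (y - x) := by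
    have := (hasStrictFDerivAt_norm_sq (y - x)).hasFDerivAt
    convert! this using 1
    ext v
    simp [two_smul]
  have h2 : HasFDerivAt (fun y : E n => y - x) (ContinuousLinearMap.id ℝ (E n)) y :=
    (hasFDerivAt_id y).sub_const x
  have h3 : HasFDerivAt (fun y : E n => ‖y - x‖ ^ 2) ((2 : ℝ) • innerSL ℝ (y - x)) y := by
    have := h1.comp y h2
    simpa [Function.comp_def] using this
  have h4 : HasFDerivAt (fun y : E n => -(‖y - x‖ ^ 2 / (2 * s)))
      ((-(1 / (2 * s))) • ((2 : ℝ) • innerSL ℝ (y - x))) y := by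
    have := h3.const_mul (-(1 / (2 * s)))
    refine this.congr_of_eventuallyEq (Eventually.of_forall fun z => ?_)
    show -(‖z - x‖ ^ 2 / (2 * s)) = -(1 / (2 * s)) * ‖z - x‖ ^ 2
    ring
  have h5 := h4.exp
  unfold gk
  rw [mul_smul]
  exact h5

/-! ### growth class -/

lemma EG.const (c : ℝ) : EG (fun _ : E n => c) :=
  ⟨measurable_const, |c|, 0, abs_nonneg _, le_rfl, fun x => by simp⟩

lemma le_exp_norm (x : E n) : ‖x‖ ≤ Real.exp (1 * ‖x‖) := by
  rw [one_mul]
  linarith [Real.add_one_le_exp ‖x‖]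

lemma EG.coord (k : Fin n) : EG (fun x : E n => x k) := by
  refine ⟨by fun_prop, 1, 1, zero_le_one, zero_le_one, fun x => ?_⟩
  rw [one_mul]
  have := PiLp.norm_apply_le x k
  rw [Real.norm_eq_abs] at this
  exact this.trans (le_exp_norm x)

lemma EG.add (hF : EG F) (hG : EG G) : EG (fun x => F x + G x) := by
  obtain ⟨mF, C, a, hC, ha, h⟩ := hF
  obtain ⟨mG, C', a', hC', ha', h'⟩ := hG
  refine ⟨mF.add mG, C + C', a + a', by positivity, by positivity, fun x => ?_⟩
  have e1 : Real.exp (a * ‖x‖) ≤ Real.exp ((a + a') * ‖x‖) :=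
    Real.exp_le_exp.2 (by nlinarith [norm_nonneg x])
  have e2 : Real.exp (a' * ‖x‖) ≤ Real.exp ((a + a') * ‖x‖) :=
    Real.exp_le_exp.2 (by nlinarith [norm_nonneg x])
  calc |F x + G x| ≤ |F x| + |G x| := abs_add_le _ _
    _ ≤ C * Real.exp (a * ‖x‖) + C' * Real.exp (a' * ‖x‖) := add_le_add (h x) (h' x)
    _ ≤ C * Real.exp ((a + a') * ‖x‖) + C' * Real.exp ((a + a') * ‖x‖) := by gcongr
    _ = _ := by ring

lemma EG.mul (hF : EG F) (hG : EG G) : EG (fun x => F x * G x) := by
  obtain ⟨mF, C, a, hC, ha, h⟩ := hF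
  obtain ⟨mG, C', a', hC', ha', h'⟩ := hG
  refine ⟨mF.mul mG, C * C', a + a', by positivity, by positivity, fun x => ?_⟩
  rw [abs_mul]
  calc |F x| * |G x| ≤ (C * Real.exp (a * ‖x‖)) * (C' * Real.exp (a' * ‖x‖)) :=
        mul_le_mul (h x) (h' x) (abs_nonneg _) (by positivity)
    _ = C * C' * (Real.exp (a * ‖x‖) * Real.exp (a' * ‖x‖)) := by ring
    _ = _ := by rw [← Real.exp_add, add_mul]

lemma EG.smul (c : ℝ) (hF : EG F) : EG (fun x => c * F x) := (EG.const c).mul hF

lemma EG.neg (hF : EG F) : EG (fun x => -F x) := by simpa using hF.smul (-1)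

lemma EG.sub (hF : EG F) (hG : EG G) : EG (fun x => F x - G x) := by
  simpa [sub_eq_add_neg] using hF.add hG.neg

lemma EG.sum {ι : Type*} (S : Finset ι) {F : ι → E n → ℝ} (h : ∀ i ∈ S, EG (F i)) :
    EG (fun x => ∑ i ∈ S, F i x) := by
  classical
  induction S using Finset.induction_on with
  | empty => simpa using EG.const 0
  | insert a S ha ih =>
    have h1 := (h a (Finset.mem_insert_self _ _)).add (ih fun i hi => h i (Finset.mem_insert_of_mem hi))
    simpa [Finset.sum_insert ha] using h1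

lemma EG.norm : EG (fun x : E n => ‖x‖) :=
  ⟨measurable_norm, 1, 1, zero_le_one, zero_le_one, fun x => by
    rw [one_mul, abs_of_nonneg (norm_nonneg _)]; exact le_exp_norm x⟩

lemma EG.of_bdd (mF : Measurable F) {C : ℝ} (h : ∀ x, |F x| ≤ C) : EG F :=
  ⟨mF, |C|, 0, abs_nonneg _, le_rfl, fun x => by simpa using (h x).trans (le_abs_self C)⟩

/-! ### integrability -/

lemma Wt.ex {c R : ℝ} (hw : Wt c R w) : Ex w := by
  refine ⟨hw.nonneg, hw.meas, fun a => ?_, hw.pos⟩
  refine (hw.int.const_mul (Real.exp (|a| * |R|))).mono'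
    (by have := hw.meas; fun_prop) (ae_of_all _ fun x => ?_)
  rw [Real.norm_eq_abs, abs_mul, abs_of_pos (Real.exp_pos _), abs_of_nonneg (hw.nonneg x)]
  by_cases hx : w x = 0
  · simp [hx]
  · have h1 := hw.supp x hx
    refine mul_le_mul_of_nonneg_right (Real.exp_le_exp.2 ?_) (hw.nonneg x)
    calc a * ‖x‖ ≤ |a| * ‖x‖ := mul_le_mul_of_nonneg_right (le_abs_self a) (norm_nonneg _)
      _ ≤ |a| * |R| := mul_le_mul_of_nonneg_left (h1.trans (le_abs_self R)) (abs_nonneg _)

lemma Ex.int_mul (hw : Ex w) (hF : EG F) : Integrable fun x => F x * w x := by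
  obtain ⟨mF, C, a, hC, ha, h⟩ := hF
  refine ((hw.int a).const_mul C).mono' (mF.mul hw.meas).aestronglyMeasurable
    (ae_of_all _ fun x => ?_)
  rw [Real.norm_eq_abs, abs_mul, abs_of_nonneg (hw.nonneg x), ← mul_assoc]
  exact mul_le_mul_of_nonneg_right (h x) (hw.nonneg x)

lemma Ex.int_Lp (hw : Ex w) (hs : 0 < s) (hF : EG F) (y : E n) :
    Integrable fun x => F x * (w x * gk s (y - x)) := by
  have mg : Measurable fun x : E n => gk s (y - x) := by
    have := (gk_cont (n := n) s).measurable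
    exact this.comp (measurable_const.sub measurable_id)
  refine (hw.int_mul hF).norm.mono' (hF.1.mul (hw.meas.mul mg)).aestronglyMeasurable
    (ae_of_all _ fun x => ?_)
  rw [norm_mul, norm_mul, norm_mul, Real.norm_of_nonneg (gk_pos s _).le]
  calc ‖F x‖ * (‖w x‖ * gk s (y - x)) ≤ ‖F x‖ * (‖w x‖ * 1) := by
        gcongr; exact gk_le_one hs _
    _ = _ := by ring

lemma Lp_add (hw : Ex w) (hs : 0 < s) (hF : EG F) (hG : EG G) (y : E n) :
    Lp w s (fun x => F x + G x) y = Lp w s F y + Lp w s G y := by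
  unfold Lp
  rw [← integral_add (hw.int_Lp hs hF y) (hw.int_Lp hs hG y)]
  exact integral_congr_ae (ae_of_all _ fun x => by ring)

lemma Lp_smul (c : ℝ) (F : E n → ℝ) (y : E n) :
    Lp w s (fun x => c * F x) y = c * Lp w s F y := by
  unfold Lp
  rw [← integral_const_mul]
  exact integral_congr_ae (ae_of_all _ fun x => by ring)

lemma Lp_sub (hw : Ex w) (hs : 0 < s) (hF : EG F) (hG : EG G) (y : E n) :
    Lp w s (fun x => F x - G x) y = Lp w s F y - Lp w s G y := by
  unfold Lp
  rw [← integral_sub (hw.int_Lp hs hF y) (hw.int_Lp hs hG y)]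
  exact integral_congr_ae (ae_of_all _ fun x => by ring)

lemma Lp_sum {ι : Type*} (S : Finset ι) {F : ι → E n → ℝ} (hw : Ex w) (hs : 0 < s)
    (h : ∀ i ∈ S, EG (F i)) (y : E n) :
    Lp w s (fun x => ∑ i ∈ S, F i x) y = ∑ i ∈ S, Lp w s (F i) y := by
  unfold Lp
  rw [← integral_finsetSum S fun i hi => hw.int_Lp hs (h i hi) y]
  exact integral_congr_ae (ae_of_all _ fun x => by simp [Finset.sum_mul])

lemma Lp_nonneg (hw : Ex w) (hF : ∀ x, 0 ≤ F x) (y : E n) : 0 ≤ Lp w s F y :=
  integral_nonneg fun x => mul_nonneg (hF x) (mul_nonneg (hw.nonneg x) (gk_pos s _).le)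

lemma Lp_mono (hw : Ex w) (hs : 0 < s) (hF : EG F) (hG : EG G) (h : ∀ x, F x ≤ G x) (y : E n) :
    Lp w s F y ≤ Lp w s G y :=
  integral_mono (hw.int_Lp hs hF y) (hw.int_Lp hs hG y) fun x =>
    mul_le_mul_of_nonneg_right (h x) (mul_nonneg (hw.nonneg x) (gk_pos s _).le)

lemma Lp_one_pos (hw : Ex w) (hs : 0 < s) (y : E n) : 0 < Lp w s (fun _ => 1) y := by
  have hi := hw.int_Lp hs (EG.const 1) y
  unfold Lp
  rw [integral_pos_iff_support_of_nonneg
    (fun x => by have := hw.nonneg x; have := (gk_pos s (y - x)).le; positivity) hi]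
  have h0 := hw.pos
  have hi0 : Integrable w := by simpa using hw.int 0
  rw [integral_pos_iff_support_of_nonneg hw.nonneg hi0] at h0
  refine lt_of_lt_of_le h0 (measure_mono fun x hx => ?_)
  simp only [Function.mem_support] at hx ⊢
  exact mul_ne_zero one_ne_zero (mul_ne_zero hx (gk_pos s _).ne')

/-! ### differentiation -/

set_option maxHeartbeats 1000000 in
theorem hasFDerivAt_Lp (hw : Ex w) (hs : 0 < s) (hF : EG F) (y₀ : E n) :
    HasFDerivAt (Lp w s F)
      (∑ k, ((Lp w s (fun x => F x * x k) y₀ - y₀ k * Lp w s F y₀) / s) •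
        (EuclideanSpace.proj k : E n →L[ℝ] ℝ)) y₀ := by
  set F' : E n → E n → (E n →L[ℝ] ℝ) := fun y x =>
    (F x * w x) • ((gk s (y - x) * (-(1 / (2 * s)))) • ((2 : ℝ) • innerSL ℝ (y - x))) with hF'
  obtain ⟨mF, C, a, hC, ha, h⟩ := id hF
  have mw := hw.meas
  have mg : ∀ y : E n, Measurable fun x : E n => gk s (y - x) := fun y =>
    (gk_cont (n := n) s).measurable.comp (measurable_const.sub measurable_id)
  have mg2 : Measurable fun x : E n =>
      (gk s (y₀ - x) * (-(1 / (2 * s)))) • ((2 : ℝ) • innerSL ℝ (y₀ - x)) := by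
    refine Continuous.measurable ?_
    refine Continuous.smul (((gk_cont s).comp (continuous_const.sub continuous_id)).mul
      continuous_const) ?_
    exact ((innerSL ℝ (E := E n)).continuous.comp
      (continuous_const.sub continuous_id)).const_smul (2 : ℝ)
  have key : HasFDerivAt (fun y => ∫ x, F x * (w x * gk s (y - x))) (∫ x, F' y₀ x) y₀ := by
    refine hasFDerivAt_integral_of_dominated_of_fderiv_le (s := Metric.ball y₀ 1)
      (bound := fun x => (1 / s) * (C * (Real.exp (‖y₀‖ + 1) * (Real.exp ((a + 1) * ‖x‖) * w x))))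
      (Metric.ball_mem_nhds _ one_pos)
      (Eventually.of_forall fun y => (mF.mul (mw.mul (mg y))).aestronglyMeasurable)
      (hw.int_Lp hs hF y₀) ?_ ?_ ?_ ?_
    · apply Measurable.aestronglyMeasurable
      exact (mF.mul mw).smul mg2
    · refine ae_of_all _ fun x y hy => ?_
      have h1 : ‖y - x‖ ≤ ‖y₀‖ + 1 + ‖x‖ := by
        have := mem_ball_iff_norm.1 hy
        calc ‖y - x‖ = ‖(y - y₀) + y₀ - x‖ := by congr 1; abel
          _ ≤ ‖(y - y₀) + y₀‖ + ‖x‖ := norm_sub_le _ _
          _ ≤ ‖y - y₀‖ + ‖y₀‖ + ‖x‖ := by gcongr; exact norm_add_le _ _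
          _ ≤ _ := by linarith
      have h2 : ‖y - x‖ ≤ Real.exp (‖y₀‖ + 1 + ‖x‖) := by
        linarith [Real.add_one_le_exp (‖y₀‖ + 1 + ‖x‖)]
      rw [hF']
      simp only [norm_smul, norm_mul, Real.norm_eq_abs]
      rw [abs_of_pos (gk_pos s _), innerSL_apply_norm, abs_neg, abs_of_pos (by positivity : (0:ℝ) < 1 / (2 * s)),
        abs_of_pos (by norm_num : (0:ℝ) < 2), abs_of_nonneg (hw.nonneg x)]
      have h3 := gk_le_one hs (y - x)
      have h4 := (gk_pos s (y - x)).le
      have h5 := h x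
      have h6 := hw.nonneg x
      calc |F x| * w x * (gk s (y - x) * (1 / (2 * s)) * (2 * ‖y - x‖))
          = (1 / s) * (|F x| * (w x * (gk s (y - x) * ‖y - x‖))) := by
            field_simp
        _ ≤ (1 / s) * ((C * Real.exp (a * ‖x‖)) * (w x * (1 * Real.exp (‖y₀‖ + 1 + ‖x‖)))) := by
            gcongr
        _ = _ := by
            rw [show (a + 1) * ‖x‖ = a * ‖x‖ + ‖x‖ by ring, Real.exp_add (a * ‖x‖),
              Real.exp_add (‖y₀‖ + 1)]
            ring
    · exact (((hw.int (a + 1)).const_mul _).const_mul _).const_mul _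
    · refine ae_of_all _ fun x y _ => ?_
      have := (gk_hasFDerivAt s x y).const_mul (F x * w x)
      refine this.congr_of_eventuallyEq (Eventually.of_forall fun z => ?_)
      show F x * (w x * gk s (z - x)) = F x * w x * gk s (z - x)
      ring
  have e : (∫ x, F' y₀ x) = ∑ k, ((Lp w s (fun x => F x * x k) y₀ - y₀ k * Lp w s F y₀) / s) •
        (EuclideanSpace.proj k : E n →L[ℝ] ℝ) := by
    have hint : Integrable (F' y₀) := by
      refine Integrable.mono' (g := fun x => (1 / s) * (C * (Real.exp (‖y₀‖ + 1) *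
        (Real.exp ((a + 1) * ‖x‖) * w x))))
        ((((hw.int (a + 1)).const_mul _).const_mul _).const_mul _) ?_ ?_
      · apply Measurable.aestronglyMeasurable
        exact (mF.mul mw).smul mg2
      · refine ae_of_all _ fun x => ?_
        have h1 : ‖y₀ - x‖ ≤ ‖y₀‖ + 1 + ‖x‖ := (norm_sub_le _ _).trans (by linarith)
        have h2 : ‖y₀ - x‖ ≤ Real.exp (‖y₀‖ + 1 + ‖x‖) := by
          linarith [Real.add_one_le_exp (‖y₀‖ + 1 + ‖x‖)]
        rw [hF']
        simp only [norm_smul, norm_mul, Real.norm_eq_abs]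
        rw [abs_of_pos (gk_pos s _), innerSL_apply_norm, abs_neg,
          abs_of_pos (by positivity : (0:ℝ) < 1 / (2 * s)),
          abs_of_pos (by norm_num : (0:ℝ) < 2), abs_of_nonneg (hw.nonneg x)]
        have h3 := gk_le_one hs (y₀ - x)
        have h4 := (gk_pos s (y₀ - x)).le
        have h5 := h x
        have h6 := hw.nonneg x
        calc |F x| * w x * (gk s (y₀ - x) * (1 / (2 * s)) * (2 * ‖y₀ - x‖))
            = (1 / s) * (|F x| * (w x * (gk s (y₀ - x) * ‖y₀ - x‖))) := by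
              field_simp
          _ ≤ (1 / s) * ((C * Real.exp (a * ‖x‖)) * (w x * (1 * Real.exp (‖y₀‖ + 1 + ‖x‖)))) := by
              gcongr
          _ = _ := by
              rw [show (a + 1) * ‖x‖ = a * ‖x‖ + ‖x‖ by ring, Real.exp_add (a * ‖x‖),
              Real.exp_add (‖y₀‖ + 1)]
              ring
    ext v
    rw [ContinuousLinearMap.integral_apply hint]
    simp only [_root_.sum_apply, _root_.smul_apply, smul_eq_mul,
      prj_apply]
    have e1 : ∀ x, F' y₀ x v = ∑ k, (v k / s) * (F x * x k * (w x * gk s (y₀ - x)) -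
        y₀ k * (F x * (w x * gk s (y₀ - x)))) := by
      intro x
      rw [hF']
      simp only [_root_.smul_apply, smul_eq_mul, innerSL_apply_apply]
      have e2 : (inner ℝ (y₀ - x) v : ℝ) = ∑ k, v k * (y₀ k - x k) := by
        rw [PiLp.inner_apply]
        exact Finset.sum_congr rfl fun k _ => by simp
      rw [e2, Finset.mul_sum, Finset.mul_sum, Finset.mul_sum]
      refine Finset.sum_congr rfl fun k _ => ?_
      field_simp
      ring
    rw [integral_congr_ae (ae_of_all _ e1)]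
    have i1 : ∀ k, Integrable fun x => F x * x k * (w x * gk s (y₀ - x)) := fun k =>
      hw.int_Lp hs (hF.mul (EG.coord k)) y₀
    have i2 := hw.int_Lp hs hF y₀
    have i3 : ∀ k, Integrable fun x => (v k / s) * (F x * x k * (w x * gk s (y₀ - x)) -
        y₀ k * (F x * (w x * gk s (y₀ - x)))) := fun k =>
      ((i1 k).sub (i2.const_mul (y₀ k))).const_mul (v k / s)
    rw [integral_finsetSum _ fun k _ => i3 k]
    refine Finset.sum_congr rfl fun k _ => ?_
    rw [integral_const_mul, integral_sub (i1 k) (i2.const_mul _), integral_const_mul]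
    unfold Lp
    ring
  rw [← e]
  exact key

theorem pd_Lp (hw : Ex w) (hs : 0 < s) (hF : EG F) (k : Fin n) (y : E n) :
    pd k (Lp w s F) y = (Lp w s (fun x => F x * x k) y - y k * Lp w s F y) / s := by
  unfold pd
  rw [(hasFDerivAt_Lp hw hs hF y).fderiv]
  simp only [_root_.sum_apply, _root_.smul_apply, smul_eq_mul,
    prj_apply]
  rw [Finset.sum_eq_single k]
  · simp
  · intro b _ hb
    simp [hb]
  · intro h; exact absurd (Finset.mem_univ _) h

theorem contDiff_Lp (hw : Ex w) (hs : 0 < s) : ∀ (m : ℕ) {F : E n → ℝ}, EG F →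
    ContDiff ℝ m (Lp w s F) := by
  intro m
  induction m with
  | zero =>
    intro F hF
    exact contDiff_zero.2 (continuous_iff_continuousAt.2 fun y =>
      (hasFDerivAt_Lp hw hs hF y).continuousAt)
  | succ m ih =>
    intro F hF
    rw [show ((m + 1 : ℕ) : WithTop ℕ∞) = (m : WithTop ℕ∞) + 1 by push_cast; rfl,
      contDiff_succ_iff_hasFDerivAt]
    refine ⟨_, ?_, fun y => hasFDerivAt_Lp hw hs hF y⟩
    refine ContDiff.sum fun k _ => ContDiff.smul_const ?_ _
    refine ContDiff.div_const (ContDiff.sub (ih (hF.mul (EG.coord k))) (ContDiff.mul ?_ (ih hF))) _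
    exact (EuclideanSpace.proj k : E n →L[ℝ] ℝ).contDiff

theorem contDiff_Lp_infty (hw : Ex w) (hs : 0 < s) (hF : EG F) : ContDiff ℝ ∞ (Lp w s F) :=
  contDiff_infty.2 fun m => contDiff_Lp hw hs m hF

theorem contDiff_pE (hw : Ex w) (hs : 0 < s) (hF : EG F) : ContDiff ℝ ∞ (pE w s F) :=
  (contDiff_Lp_infty hw hs hF).div (contDiff_Lp_infty hw hs (EG.const 1))
    fun y => (Lp_one_pos hw hs y).ne'

/-- derivative of a posterior mean = posterior covariance with `x_k`, divided by `s` -/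
theorem pd_pE (hw : Ex w) (hs : 0 < s) (hF : EG F) (k : Fin n) (y : E n) :
    pd k (pE w s F) y =
      (pE w s (fun x => F x * x k) y - pE w s F y * pE w s (fun x => x k) y) / s := by
  have h0 := Lp_one_pos hw hs y
  have d1 := hasFDerivAt_Lp hw hs hF y
  have d2 := hasFDerivAt_Lp hw hs (EG.const 1) y
  have e1 := pd_Lp hw hs hF k y
  have e2 := pd_Lp hw hs (EG.const 1) k y
  unfold pd at e1 e2 ⊢
  have d3 := d1.mul ((hasDerivAt_inv h0.ne').comp_hasFDerivAt y d2)
  have d4 : pE w s F = Lp w s F * (fun y => y⁻¹) ∘ Lp w s fun x => 1 := by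
    funext z
    simp only [pE, div_eq_mul_inv, Function.comp_apply, Pi.mul_apply]
  have d5 : fderiv ℝ (pE w s F) y = fderiv ℝ (Lp w s F * (fun y => y⁻¹) ∘ Lp w s fun x => 1) y := by
    rw [d4]
  rw [d5, d3.fderiv]
  rw [d1.fderiv] at e1
  rw [d2.fderiv] at e2
  simp only [_root_.smul_apply, _root_.add_apply, smul_eq_mul, Function.comp_apply]
  rw [e1, e2]
  unfold pE
  simp only [one_mul]
  field_simp
  ring

/-! ### algebra of posterior means -/

lemma pE_add (hw : Ex w) (hs : 0 < s) (hF : EG F) (hG : EG G) (y : E n) :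
    pE w s (fun x => F x + G x) y = pE w s F y + pE w s G y := by
  unfold pE; rw [Lp_add hw hs hF hG, add_div]

lemma pE_sub (hw : Ex w) (hs : 0 < s) (hF : EG F) (hG : EG G) (y : E n) :
    pE w s (fun x => F x - G x) y = pE w s F y - pE w s G y := by
  unfold pE; rw [Lp_sub hw hs hF hG, sub_div]

lemma pE_smul (c : ℝ) (F : E n → ℝ) (y : E n) :
    pE w s (fun x => c * F x) y = c * pE w s F y := by
  unfold pE; rw [Lp_smul, mul_div_assoc]

lemma pE_const (hw : Ex w) (hs : 0 < s) (c : ℝ) (y : E n) : pE w s (fun _ => c) y = c := by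
  have := Lp_one_pos hw hs y
  have e := Lp_smul (w := w) (s := s) c (fun _ => (1 : ℝ)) y
  unfold pE
  simp only [mul_one] at e
  rw [e]
  field_simp

lemma pE_sum {ι : Type*} (S : Finset ι) {F : ι → E n → ℝ} (hw : Ex w) (hs : 0 < s)
    (h : ∀ i ∈ S, EG (F i)) (y : E n) :
    pE w s (fun x => ∑ i ∈ S, F i x) y = ∑ i ∈ S, pE w s (F i) y := by
  unfold pE; rw [Lp_sum S hw hs h, Finset.sum_div]

lemma pE_nonneg (hw : Ex w) (hs : 0 < s) (hF : ∀ x, 0 ≤ F x) (y : E n) : 0 ≤ pE w s F y :=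
  div_nonneg (Lp_nonneg hw hF y) (Lp_one_pos hw hs y).le

lemma pE_mono (hw : Ex w) (hs : 0 < s) (hF : EG F) (hG : EG G) (h : ∀ x, F x ≤ G x) (y : E n) :
    pE w s F y ≤ pE w s G y :=
  div_le_div_of_nonneg_right (Lp_mono hw hs hF hG h y) (Lp_one_pos hw hs y).le

end Crest.Agent.R201.An
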