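import Crest.Agent.R201.An1_293

/-!
# R201 AN-2: posterior Poincaré, potential and Hessian (helper293)
-/

set_option autoImplicit false
open MeasureTheory Matrix Filter Topology
open scoped ContDiff RealInnerProductSpace NNReal

namespace Crest.Agent.R201.An

open Crest.Agent.R201 Crest.Agent.R144.Fi865

variable {n : ℕ} {w F G : E n → ℝ} {s c : ℝ}

/-- the posterior weight is strongly log-concave -/
theorem slc_post (hs : 0 < s) (hw0 : ∀ x, 0 ≤ w x) (h : SLC c w) (y₀ : E n) :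
    SLC (c + 1 / s) fun x => w x * gk s (y₀ - x) := by
  intro x y
  have h1 := h x y
  set m := (1 / 2 : ℝ) • (x + y) with hm
  have e1 : ‖y₀ - x‖ ^ 2 + ‖y₀ - y‖ ^ 2 = 2 * ‖y₀ - m‖ ^ 2 + ‖x - y‖ ^ 2 / 2 := by
    have h2 := parallelogram_law_with_norm ℝ (y₀ - x) (y₀ - y)
    have h3 : y₀ - x + (y₀ - y) = (2 : ℝ) • (y₀ - m) := by rw [hm]; module
    have h4 : y₀ - x - (y₀ - y) = y - x := by abel
    rw [h3, h4, norm_smul, Real.norm_of_nonneg (by norm_num), norm_sub_rev y x] at h2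
    nlinarith
  beta_reduce
  unfold gk
  rw [Real.sqrt_mul (hw0 x), Real.sqrt_mul (hw0 y), ← Real.exp_half, ← Real.exp_half]
  calc √(w x) * Real.exp (-(‖y₀ - x‖ ^ 2 / (2 * s)) / 2) *
        (√(w y) * Real.exp (-(‖y₀ - y‖ ^ 2 / (2 * s)) / 2))
      = (√(w x) * √(w y)) * (Real.exp (-(‖y₀ - x‖ ^ 2 / (2 * s)) / 2) *
        Real.exp (-(‖y₀ - y‖ ^ 2 / (2 * s)) / 2)) := by ring
    _ ≤ (Real.exp (-(c / 8 * ‖x - y‖ ^ 2)) * w m) *
        (Real.exp (-(‖y₀ - x‖ ^ 2 / (2 * s)) / 2) *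
        Real.exp (-(‖y₀ - y‖ ^ 2 / (2 * s)) / 2)) :=
      mul_le_mul_of_nonneg_right h1 (by positivity)
    _ = w m * (Real.exp (-(c / 8 * ‖x - y‖ ^ 2)) *
        (Real.exp (-(‖y₀ - x‖ ^ 2 / (2 * s)) / 2) *
        Real.exp (-(‖y₀ - y‖ ^ 2 / (2 * s)) / 2))) := by ring
    _ = w m * (Real.exp (-((c + 1 / s) / 8 * ‖x - y‖ ^ 2)) *
        Real.exp (-(‖y₀ - m‖ ^ 2 / (2 * s)))) := by
      rw [← Real.exp_add, ← Real.exp_add, ← Real.exp_add]
      congr 2
      have hs0 : s ≠ 0 := hs.ne'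
      have e5 : -(c / 8 * ‖x - y‖ ^ 2) + (-(‖y₀ - x‖ ^ 2 / (2 * s)) / 2 + -(‖y₀ - y‖ ^ 2 / (2 * s)) / 2)
          = -(c / 8 * ‖x - y‖ ^ 2) - (‖y₀ - x‖ ^ 2 + ‖y₀ - y‖ ^ 2) / (4 * s) := by
        field_simp
        ring
      rw [e5, e1]
      field_simp
      ring
    _ = _ := by ring

/-- **posterior Poincaré inequality** -/
theorem post_poincare (hw : Ex w) (hc : 0 ≤ c) (h : SLC c w) (hs : 0 < s) {f : E n → ℝ} {L : ℝ≥0}
    (hf : LipschitzWith L f) (y : E n) :
    pE w s (fun x => f x ^ 2) y - (pE w s f y) ^ 2 ≤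
      (s / (1 + c * s)) * pE w s (fun x => ‖fderiv ℝ f x‖ ^ 2) y := by
  have hl : 0 < c + 1 / s := by positivity
  have egf : EG f := by
    refine ⟨hf.continuous.measurable, |f 0| + L, 1, by positivity, zero_le_one, fun x => ?_⟩
    have h1 : |f x - f 0| ≤ L * ‖x‖ := by
      have := hf.dist_le_mul x 0
      rwa [Real.dist_eq, dist_zero_right] at this
    have h2 := le_exp_norm x
    have h3 : (1 : ℝ) ≤ Real.exp (1 * ‖x‖) := Real.one_le_exp (by positivity)
    calc |f x| = |f 0 + (f x - f 0)| := by ring_nf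
      _ ≤ |f 0| + |f x - f 0| := abs_add_le _ _
      _ ≤ |f 0| * 1 + L * ‖x‖ := by linarith
      _ ≤ |f 0| * Real.exp (1 * ‖x‖) + L * Real.exp (1 * ‖x‖) := by gcongr
      _ = _ := by ring
  have egf2 : EG fun x => f x ^ 2 := by
    have := egf.mul egf
    simpa [sq] using this
  have h0 := Lp_one_pos hw hs y
  have key := poincare_lip (W := fun x => w x * gk s (y - x)) hl
    (fun x => mul_nonneg (hw.nonneg x) (gk_pos s _).le)
    (hw.meas.mul ((gk_cont (n := n) s).measurable.comp (measurable_const.sub measurable_id)))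
    (by simpa using hw.int_Lp hs (EG.const 1) y) (slc_post hs hw.nonneg h y) hf
    (hw.int_Lp hs egf2 y)
  have e1 : (∫ x, w x * gk s (y - x)) = Lp w s (fun _ => 1) y := by
    unfold Lp; simp
  rw [e1] at key
  have e2 : (c + 1 / s)⁻¹ = s / (1 + c * s) := by
    field_simp
    ring
  rw [e2] at key
  change Lp w s (fun _ => 1) y * Lp w s (fun x => f x ^ 2) y - (Lp w s f y) ^ 2 ≤
    s / (1 + c * s) * Lp w s (fun _ => 1) y * Lp w s (fun x => ‖fderiv ℝ f x‖ ^ 2) y at key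
  unfold pE
  have h5 : 0 < Lp w s (fun _ => 1) y ^ 2 := by positivity
  have e3 : Lp w s (fun x => f x ^ 2) y / Lp w s (fun _ => 1) y -
      (Lp w s f y / Lp w s (fun _ => 1) y) ^ 2 =
      (Lp w s (fun _ => 1) y * Lp w s (fun x => f x ^ 2) y - (Lp w s f y) ^ 2) /
        Lp w s (fun _ => 1) y ^ 2 := by
    field_simp
  have e4 : s / (1 + c * s) * (Lp w s (fun x => ‖fderiv ℝ f x‖ ^ 2) y / Lp w s (fun _ => 1) y) =
      (s / (1 + c * s) * Lp w s (fun _ => 1) y * Lp w s (fun x => ‖fderiv ℝ f x‖ ^ 2) y) /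
        Lp w s (fun _ => 1) y ^ 2 := by
    field_simp
  rw [e3, e4]
  exact div_le_div_of_nonneg_right key h5.le

/-! ### the posterior covariance matrix -/

lemma pC_symm (w : E n → ℝ) (s : ℝ) (y : E n) : (pC w s y)ᵀ = pC w s y := by
  ext i j
  simp only [pC, Matrix.transpose_apply, Matrix.of_apply]
  rw [mul_comm (pE w s (fun x => x j) y)]
  congr 2
  ext x
  ring

lemma EG.lin (u : Fin n → ℝ) : EG (fun x : E n => ∑ i, u i * x i) :=
  EG.sum _ fun i _ => (EG.coord i).smul (u i)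

lemma pE_lin (hw : Ex w) (hs : 0 < s) (u : Fin n → ℝ) (y : E n) :
    pE w s (fun x => ∑ i, u i * x i) y = ∑ i, u i * pE w s (fun x => x i) y := by
  rw [pE_sum _ hw hs fun i _ => (EG.coord i).smul (u i)]
  exact Finset.sum_congr rfl fun i _ => pE_smul _ _ _

/-- quadratic form of the posterior covariance = posterior variance of `⟨u, x⟩` -/
lemma pC_quad (hw : Ex w) (hs : 0 < s) (u : Fin n → ℝ) (y : E n) :
    u ⬝ᵥ (pC w s y *ᵥ u) = pE w s (fun x => (∑ i, u i * x i) ^ 2) y -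
      (pE w s (fun x => ∑ i, u i * x i) y) ^ 2 := by
  have e1 : (fun x : E n => (∑ i, u i * x i) ^ 2) =
      fun x => ∑ i, ∑ j, (u i * u j) * (x i * x j) := by
    funext x
    rw [sq, Finset.sum_mul_sum]
    exact Finset.sum_congr rfl fun i _ => Finset.sum_congr rfl fun j _ => by ring
  have e2 : pE w s (fun x => (∑ i, u i * x i) ^ 2) y =
      ∑ i, ∑ j, (u i * u j) * pE w s (fun x => x i * x j) y := by
    rw [e1, pE_sum _ hw hs fun i _ => EG.sum _ fun j _ => ((EG.coord i).mul (EG.coord j)).smul _]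
    refine Finset.sum_congr rfl fun i _ => ?_
    rw [pE_sum _ hw hs fun j _ => ((EG.coord i).mul (EG.coord j)).smul _]
    exact Finset.sum_congr rfl fun j _ => pE_smul _ _ _
  rw [e2, pE_lin hw hs, sq, Finset.sum_mul_sum, ← Finset.sum_sub_distrib]
  simp only [dotProduct, Matrix.mulVec, pC, Matrix.of_apply, Finset.mul_sum]
  refine Finset.sum_congr rfl fun i _ => ?_
  rw [← Finset.sum_sub_distrib]
  exact Finset.sum_congr rfl fun j _ => by ring

lemma lin_lip (u : Fin n → ℝ) :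
    ∃ L : ℝ≥0, LipschitzWith L (fun x : E n => ∑ i, u i * x i) ∧
      ∀ x, ‖fderiv ℝ (fun x : E n => ∑ i, u i * x i) x‖ ^ 2 = ∑ i, u i ^ 2 := by
  set v : E n := (WithLp.equiv 2 _).symm u with hv
  have e : (fun x : E n => ∑ i, u i * x i) = fun x => innerSL ℝ v x := by
    funext x
    rw [innerSL_apply_apply, PiLp.inner_apply]
    exact Finset.sum_congr rfl fun i _ => by simp [hv, mul_comm]
  refine ⟨‖innerSL ℝ v‖₊, ?_, fun x => ?_⟩
  · rw [e]; exact (innerSL ℝ v).lipschitz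
  · rw [e, ContinuousLinearMap.fderiv, innerSL_apply_norm, EuclideanSpace.norm_sq_eq]
    exact Finset.sum_congr rfl fun i _ => by simp [hv]

theorem pC_le (hw : Ex w) (hc : 0 ≤ c) (h : SLC c w) (hs : 0 < s) (y : E n) :
    LeQ (pC w s y) ((s / (1 + c * s)) • (1 : Mt n)) := by
  intro u
  obtain ⟨L, hL, hD⟩ := lin_lip u
  have key := post_poincare hw hc h hs hL y
  rw [pC_quad hw hs]
  refine key.trans (le_of_eq ?_)
  have : (fun x : E n => ‖fderiv ℝ (fun x : E n => ∑ i, u i * x i) x‖ ^ 2) =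
      fun _ => ∑ i, u i ^ 2 := funext hD
  rw [this, pE_const hw hs]
  simp only [Matrix.smul_mulVec, Matrix.one_mulVec, dotProduct_smul, smul_eq_mul]
  congr 1
  exact Finset.sum_congr rfl fun i _ => by ring

/-- Jensen: `(E F)² ≤ E F²` for the posterior -/
lemma pE_sq_le (hw : Ex w) (hs : 0 < s) (hF : EG F) (y : E n) :
    (pE w s F y) ^ 2 ≤ pE w s (fun x => F x ^ 2) y := by
  set m := pE w s F y with hm
  have hF2 : EG fun x => F x ^ 2 := by simpa [sq] using hF.mul hF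
  have h1 : 0 ≤ pE w s (fun x => (F x - m) ^ 2) y := pE_nonneg hw hs (fun x => sq_nonneg _) y
  have e : (fun x => (F x - m) ^ 2) = fun x => (F x ^ 2 - 2 * m * F x) + m ^ 2 := by
    funext x; ring
  rw [e, pE_add hw hs (hF2.sub (hF.smul _)) (EG.const _), pE_sub hw hs hF2 (hF.smul _), pE_smul,
    pE_const hw hs, ← hm] at h1
  nlinarith

theorem pC_nonneg (hw : Ex w) (hs : 0 < s) (y : E n) : LeQ 0 (pC w s y) := by
  intro u
  rw [pC_quad hw hs]
  have := pE_sq_le hw hs (EG.lin u) y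
  simp only [Matrix.zero_mulVec, dotProduct_zero]
  linarith

/-! ### the potential of the noisy vector -/

/-- potential of `Y = X + √s G` up to a constant -/
noncomputable def Vp (w : E n → ℝ) (s : ℝ) (y : E n) : ℝ := -Real.log (Lp w s (fun _ => 1) y)

/-- its gradient -/
noncomputable def Vg (w : E n → ℝ) (s : ℝ) (k : Fin n) (y : E n) : ℝ :=
  (y k - pE w s (fun x => x k) y) / s

/-- its Hessian -/
noncomputable def Vh (w : E n → ℝ) (s : ℝ) (y : E n) : Mt n :=
  (1 / s) • ((1 : Mt n) - (1 / s) • pC w s y)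

theorem Vp_contDiff (hw : Ex w) (hs : 0 < s) : ContDiff ℝ ∞ (Vp w s) :=
  ((contDiff_Lp_infty hw hs (EG.const 1)).log fun y => (Lp_one_pos hw hs y).ne').neg

theorem pd_Vp (hw : Ex w) (hs : 0 < s) (k : Fin n) (y : E n) : pd k (Vp w s) y = Vg w s k y := by
  have h0 := Lp_one_pos hw hs y
  have d1 := hasFDerivAt_Lp hw hs (EG.const 1) y
  have e1 := pd_Lp hw hs (EG.const 1) k y
  unfold pd at e1 ⊢
  rw [d1.fderiv] at e1
  have d2 := (d1.log h0.ne').neg
  have e2 : Vp w s = -fun y => Real.log (Lp w s (fun _ => 1) y) := rfl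
  rw [e2, d2.fderiv]
  simp only [_root_.neg_apply, _root_.smul_apply, smul_eq_mul]
  rw [e1]
  unfold Vg pE
  simp only [one_mul]
  field_simp
  ring

theorem Vg_contDiff (hw : Ex w) (hs : 0 < s) (k : Fin n) : ContDiff ℝ ∞ (Vg w s k) :=
  ContDiff.div_const (ContDiff.sub (EuclideanSpace.proj k : E n →L[ℝ] ℝ).contDiff
    (contDiff_pE hw hs (EG.coord k))) _

lemma pd_coord (l k : Fin n) (y : E n) : pd l (fun y : E n => y k) y = if l = k then 1 else 0 := by
  unfold pd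
  have : (fun y : E n => y k) = fun y => (EuclideanSpace.proj k : E n →L[ℝ] ℝ) y := rfl
  rw [this, ContinuousLinearMap.fderiv, prj_apply]
  by_cases h : l = k
  · subst h; simp
  · rw [if_neg h, PiLp.single_apply, if_neg (Ne.symm h)]

theorem pd_Vg (hw : Ex w) (hs : 0 < s) (l k : Fin n) (y : E n) :
    pd l (Vg w s k) y = Vh w s y l k := by
  have e0 : Vg w s k = fun y => (1 / s) * (y k - pE w s (fun x => x k) y) := by
    funext y; unfold Vg; ring
  have d1 : DifferentiableAt ℝ (fun y : E n => y k) y :=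
    (EuclideanSpace.proj k : E n →L[ℝ] ℝ).differentiableAt
  have d2 : DifferentiableAt ℝ (pE w s fun x => x k) y :=
    ((contDiff_pE hw hs (EG.coord k)).differentiable (by simp)).differentiableAt
  have e1 := pd_coord l k y
  have e2 := pd_pE hw hs (EG.coord k) l y
  rw [e0]
  unfold pd at e1 e2 ⊢
  have e4 : HasFDerivAt (fun y => (1 / s) * (y k - pE w s (fun x => x k) y))
      ((1 / s) • (fderiv ℝ (fun y : E n => y k) y - fderiv ℝ (pE w s fun x => x k) y)) y :=
    (d1.hasFDerivAt.sub d2.hasFDerivAt).const_mul (1 / s)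
  rw [e4.fderiv]
  simp only [_root_.smul_apply, _root_.sub_apply, smul_eq_mul]
  rw [e1, e2]
  simp only [Vh, pC, Matrix.smul_apply, Matrix.sub_apply, Matrix.one_apply, Matrix.of_apply,
    smul_eq_mul]
  have e3 : (fun x : E n => x k * x l) = fun x => x l * x k := by funext x; ring
  rw [e3]
  split_ifs <;> ring

lemma Vh_symm (w : E n → ℝ) (s : ℝ) (y : E n) : (Vh w s y)ᵀ = Vh w s y := by
  unfold Vh
  rw [Matrix.transpose_smul, Matrix.transpose_sub, Matrix.transpose_smul, pC_symm,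
    Matrix.transpose_one]

lemma Vh_quad (w : E n → ℝ) (s : ℝ) (y : E n) (u : Fin n → ℝ) :
    u ⬝ᵥ (Vh w s y *ᵥ u) = (1 / s) * (u ⬝ᵥ u - (1 / s) * (u ⬝ᵥ (pC w s y *ᵥ u))) := by
  unfold Vh
  simp only [Matrix.smul_mulVec, Matrix.sub_mulVec, Matrix.one_mulVec, dotProduct_smul,
    dotProduct_sub, smul_eq_mul]

/-- `V'' ≤ 1/s` -/
theorem Vh_le (hw : Ex w) (hs : 0 < s) (y : E n) : LeQ (Vh w s y) ((1 / s) • (1 : Mt n)) := by
  intro u
  rw [Vh_quad]
  have h := pC_nonneg hw hs y u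
  simp only [Matrix.zero_mulVec, dotProduct_zero] at h
  simp only [Matrix.smul_mulVec, Matrix.one_mulVec, dotProduct_smul, smul_eq_mul]
  have h1 : 0 < 1 / s := by positivity
  have h2 : 0 ≤ (1 / s) * (u ⬝ᵥ (pC w s y *ᵥ u)) := mul_nonneg h1.le h
  exact mul_le_mul_of_nonneg_left (by linarith) h1.le

/-- `V'' ≥ c/(1+cs)` -/
theorem Vh_ge (hw : Ex w) (hc : 0 ≤ c) (h : SLC c w) (hs : 0 < s) (y : E n) :
    LeQ ((c / (1 + c * s)) • (1 : Mt n)) (Vh w s y) := by
  intro u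
  rw [Vh_quad]
  have h1 := pC_le hw hc h hs y u
  simp only [Matrix.smul_mulVec, Matrix.one_mulVec, dotProduct_smul, smul_eq_mul] at h1 ⊢
  have h2 : 0 < 1 / s := by positivity
  have h3 : (1 / s) * (u ⬝ᵥ u - (1 / s) * (s / (1 + c * s) * (u ⬝ᵥ u))) =
      c / (1 + c * s) * (u ⬝ᵥ u) := by
    have : 0 < 1 + c * s := by positivity
    field_simp
    ring
  rw [← h3]
  refine mul_le_mul_of_nonneg_left ?_ h2.le
  have := mul_le_mul_of_nonneg_left h1 h2.le
  linarith

end Crest.Agent.R201.An
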