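import Crest.Agent.R201.An2_293

/-!
# R201 AN-3: Gaussian integrals, Fubini, the semigroup (tower) property (helper293)
-/

set_option autoImplicit false
open MeasureTheory Matrix Filter Topology
open scoped ContDiff RealInnerProductSpace NNReal

namespace Crest.Agent.R201.An

open Crest.Agent.R201 Crest.Agent.R144.Fi865

variable {n : ℕ} {w F G : E n → ℝ} {s s₀ c : ℝ}

lemma int_gk (hs : 0 < s) : Integrable (gk s : E n → ℝ) := by
  have h := (GaussianFourier.integrable_cexp_neg_mul_sq_norm_add (V := E n)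
    (b := ((1 / (2 * s) : ℝ) : ℂ)) (by simpa using hs) 0 0).norm
  refine h.congr (ae_of_all _ fun z => ?_)
  simp only [Complex.norm_exp, gk]
  congr 1
  rw [zero_mul, add_zero, ← Complex.ofReal_pow, ← Complex.ofReal_neg, ← Complex.ofReal_mul,
    Complex.ofReal_re]
  ring

lemma exp_gk_le (hs : 0 < s) (a : ℝ) (z : E n) :
    Real.exp (a * ‖z‖) * gk s z ≤ Real.exp (a ^ 2 * s) * gk (2 * s) z := by
  unfold gk
  rw [← Real.exp_add, ← Real.exp_add]
  apply Real.exp_le_exp.2
  have h : 0 ≤ (‖z‖ - 2 * s * a) ^ 2 / (4 * s) := by positivity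
  have e : (‖z‖ - 2 * s * a) ^ 2 / (4 * s) = ‖z‖ ^ 2 / (4 * s) - a * ‖z‖ + a ^ 2 * s := by
    field_simp
    ring
  have e2 : ‖z‖ ^ 2 / (2 * s) = 2 * (‖z‖ ^ 2 / (4 * s)) := by
    field_simp
    ring
  have e3 : ‖z‖ ^ 2 / (2 * (2 * s)) = ‖z‖ ^ 2 / (4 * s) := by ring
  rw [e2, e3]
  linarith

lemma int_exp_gk (hs : 0 < s) (a : ℝ) : Integrable fun z : E n => Real.exp (a * ‖z‖) * gk s z := by
  refine ((int_gk (n := n) (s := 2 * s) (by positivity)).const_mul (Real.exp (a ^ 2 * s))).mono'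
    ?_ (ae_of_all _ fun z => ?_)
  · exact ((by fun_prop : Continuous fun z : E n => Real.exp (a * ‖z‖)).mul
      (gk_cont s)).aestronglyMeasurable
  · rw [Real.norm_of_nonneg (mul_nonneg (Real.exp_pos _).le (gk_pos _ _).le)]
    exact exp_gk_le hs a z

lemma gk_int_pos (hs : 0 < s) : 0 < ∫ z : E n, gk s z := by
  rw [integral_pos_iff_support_of_nonneg (fun z => (gk_pos s z).le) (int_gk hs)]
  have : Function.support (gk s : E n → ℝ) = Set.univ := by
    ext z; simp [(gk_pos s z).ne']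
  rw [this]
  exact isOpen_univ.measure_pos volume Set.univ_nonempty

lemma EG.bound (hF : EG F) : ∃ C a : ℝ, 0 ≤ C ∧ 0 ≤ a ∧ ∀ x, |F x| ≤ C * Real.exp (a * ‖x‖) := hF.2

/-- joint integrability -/
theorem Ex.int_prod (hw : Ex w) (hs : 0 < s) {H : E n → ℝ} (hH : EG H) (hF : EG F) :
    Integrable (fun p : E n × E n => H p.1 * (F p.2 * (w p.2 * gk s (p.1 - p.2))))
      (volume.prod volume) := by
  obtain ⟨C, a, hC, ha, hB⟩ := hH.2
  obtain ⟨C', a', hC', ha', hB'⟩ := hF.2
  have h1 : Integrable fun x : E n => Real.exp ((a + a') * ‖x‖) * w x := hw.int _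
  have h2 := (h1.convolution_integrand (ContinuousLinearMap.mul ℝ ℝ)
    (int_exp_gk (n := n) hs a)).const_mul (C * C')
  refine h2.mono' ?_ (ae_of_all _ fun p => ?_)
  · have m1 : Measurable fun p : E n × E n => H p.1 := hH.1.comp measurable_fst
    have m2 : Measurable fun p : E n × E n => F p.2 := hF.1.comp measurable_snd
    have m3 : Measurable fun p : E n × E n => w p.2 := hw.meas.comp measurable_snd
    have m4 : Measurable fun p : E n × E n => gk s (p.1 - p.2) :=
      (gk_cont (n := n) s).measurable.comp (measurable_fst.sub measurable_snd)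
    exact (m1.mul (m2.mul (m3.mul m4))).aestronglyMeasurable
  · simp only [ContinuousLinearMap.mul_apply']
    rw [Real.norm_eq_abs, abs_mul, abs_mul, abs_mul, abs_of_nonneg (hw.nonneg p.2),
      abs_of_pos (gk_pos _ _)]
    have h5 : |H p.1| ≤ C * (Real.exp (a * ‖p.1 - p.2‖) * Real.exp (a * ‖p.2‖)) := by
      refine (hB p.1).trans ?_
      rw [← Real.exp_add, ← mul_add]
      refine mul_le_mul_of_nonneg_left (Real.exp_le_exp.2 (mul_le_mul_of_nonneg_left ?_ ha)) hC
      calc ‖p.1‖ = ‖p.1 - p.2 + p.2‖ := by rw [sub_add_cancel]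
        _ ≤ _ := norm_add_le _ _
    have h6 := hB' p.2
    have h7 := hw.nonneg p.2
    have h8 := (gk_pos s (p.1 - p.2)).le
    calc |H p.1| * (|F p.2| * (w p.2 * gk s (p.1 - p.2)))
        ≤ (C * (Real.exp (a * ‖p.1 - p.2‖) * Real.exp (a * ‖p.2‖))) *
          ((C' * Real.exp (a' * ‖p.2‖)) * (w p.2 * gk s (p.1 - p.2))) := by gcongr
      _ = _ := by
        rw [add_mul, Real.exp_add]
        ring

/-- Fubini -/
theorem Ex.fubini (hw : Ex w) (hs : 0 < s) {H : E n → ℝ} (hH : EG H) (hF : EG F) :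
    ∫ y, H y * Lp w s F y = ∫ x, F x * w x * ∫ y, H y * gk s (y - x) := by
  have h := hw.int_prod hs hH hF
  have e := integral_integral_swap (f := fun (y x : E n) => H y * (F x * (w x * gk s (y - x)))) h
  unfold Lp
  calc ∫ y, H y * ∫ x, F x * (w x * gk s (y - x))
      = ∫ y, ∫ x, H y * (F x * (w x * gk s (y - x))) := by
        simp_rw [integral_const_mul]
    _ = ∫ x, ∫ y, H y * (F x * (w x * gk s (y - x))) := e
    _ = _ := by
        refine integral_congr_ae (ae_of_all _ fun x => ?_)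
        simp only
        rw [← integral_const_mul]
        refine integral_congr_ae (ae_of_all _ fun y => ?_)
        simp only
        ring

/-- integrability of `H · Lp w s F` -/
theorem Ex.int_H_Lp (hw : Ex w) (hs : 0 < s) {H : E n → ℝ} (hH : EG H) (hF : EG F) :
    Integrable fun y => H y * Lp w s F y := by
  have h := (hw.int_prod hs hH hF).integral_prod_left
  refine h.congr (ae_of_all _ fun y => ?_)
  simp only [Lp]
  rw [integral_const_mul]

lemma Lp_meas (hw : Ex w) (hs : 0 < s) (hF : EG F) : Measurable (Lp w s F) :=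
  (contDiff_Lp_infty hw hs hF).continuous.measurable

lemma EG.exp (a : ℝ) : EG fun x : E n => Real.exp (a * ‖x‖) := by
  refine ⟨by fun_prop, 1, |a|, zero_le_one, abs_nonneg _, fun x => ?_⟩
  rw [abs_of_pos (Real.exp_pos _), one_mul]
  exact Real.exp_le_exp.2 (mul_le_mul_of_nonneg_right (le_abs_self _) (norm_nonneg _))

/-- the noisy weight has all exponential moments -/
theorem Ex.noisy (hw : Ex w) (hs : 0 < s) : Ex (Lp w s fun _ => 1) where
  nonneg y := (Lp_one_pos hw hs y).le
  meas := Lp_meas hw hs (EG.const 1)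
  int a := hw.int_H_Lp hs (EG.exp a) (EG.const 1)
  pos := by
    have h1 : Integrable (Lp w s fun _ => 1) := by
      simpa using hw.int_H_Lp hs (EG.const 1) (EG.const 1)
    rw [integral_pos_iff_support_of_nonneg (fun z => (Lp_one_pos hw hs z).le) h1]
    have : Function.support (Lp w s fun _ => 1) = Set.univ := by
      ext z; simp [(Lp_one_pos hw hs z).ne']
    rw [this]
    exact isOpen_univ.measure_pos volume Set.univ_nonempty

/-! ### Gaussian semigroup -/

lemma gk_sq (hs : 0 < s) (hs₀ : 0 < s₀) (z v : E n) :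
    gk s (z - v) * gk s₀ v =
      gk (s₀ + s) z * gk (s₀ * s / (s₀ + s)) (v - (s₀ / (s₀ + s)) • z) := by
  unfold gk
  rw [← Real.exp_add, ← Real.exp_add]
  congr 1
  rw [norm_sub_sq_real, norm_sub_sq_real, norm_smul, inner_smul_right, real_inner_comm v z,
    Real.norm_eq_abs, mul_pow, sq_abs]
  have h1 : s₀ + s ≠ 0 := by positivity
  field_simp
  ring

/-- the Gaussian constant -/
noncomputable def gC (n : ℕ) (s₀ s : ℝ) : ℝ := ∫ z : E n, gk (s₀ * s / (s₀ + s)) z

lemma gC_pos (hs : 0 < s) (hs₀ : 0 < s₀) : 0 < gC n s₀ s := gk_int_pos (by positivity)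

lemma gk_conv (hs : 0 < s) (hs₀ : 0 < s₀) (z x : E n) :
    ∫ u : E n, gk s (z - u) * gk s₀ (u - x) = gC n s₀ s * gk (s₀ + s) (z - x) := by
  have e1 : ∫ u : E n, gk s (z - u) * gk s₀ (u - x) = ∫ v : E n, gk s (z - x - v) * gk s₀ v := by
    rw [← integral_add_right_eq_self (μ := volume) (fun u => gk s (z - u) * gk s₀ (u - x)) x]
    refine integral_congr_ae (ae_of_all _ fun v => ?_)
    simp only [add_sub_cancel_right]
    congr 2
    abel
  rw [e1]
  simp_rw [gk_sq hs hs₀]
  rw [integral_const_mul]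
  rw [integral_sub_right_eq_self (fun v => gk (s₀ * s / (s₀ + s)) v)]
  unfold gC
  ring

/-- semigroup at the level of `Lp` -/
theorem Lp_tower (hw : Ex w) (hs : 0 < s) (hs₀ : 0 < s₀) (hF : EG F) (z : E n) :
    ∫ u, Lp w s₀ F u * gk s (z - u) = gC n s₀ s * Lp w (s₀ + s) F z := by
  have hH : EG fun u : E n => gk s (z - u) :=
    EG.of_bdd ((gk_cont (n := n) s).measurable.comp (measurable_const.sub measurable_id))
      (C := 1) fun u => by
        rw [abs_of_pos (gk_pos _ _)]
        exact gk_le_one hs _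
  have h := hw.fubini hs₀ hH hF
  calc ∫ u, Lp w s₀ F u * gk s (z - u) = ∫ u, gk s (z - u) * Lp w s₀ F u := by
        simp_rw [mul_comm]
    _ = ∫ x, F x * w x * ∫ y, gk s (z - y) * gk s₀ (y - x) := h
    _ = ∫ x, gC n s₀ s * (F x * (w x * gk (s₀ + s) (z - x))) := by
        refine integral_congr_ae (ae_of_all _ fun x => ?_)
        simp only
        rw [gk_conv hs hs₀]
        ring
    _ = _ := by rw [integral_const_mul]; rfl

lemma pE_mul_one (hw : Ex w) (hs : 0 < s) (F : E n → ℝ) (y : E n) :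
    pE w s F y * Lp w s (fun _ => 1) y = Lp w s F y :=
  div_mul_cancel₀ _ (Lp_one_pos hw hs y).ne'

theorem Lp_noisy (hw : Ex w) (hs : 0 < s) (hs₀ : 0 < s₀) (hF : EG F) (z : E n) :
    Lp (Lp w s₀ fun _ => 1) s (pE w s₀ F) z = gC n s₀ s * Lp w (s₀ + s) F z := by
  rw [← Lp_tower hw hs hs₀ hF]
  refine integral_congr_ae (ae_of_all _ fun u => ?_)
  simp only
  rw [← mul_assoc, pE_mul_one hw hs₀]

theorem Lp_noisy_one (hw : Ex w) (hs : 0 < s) (hs₀ : 0 < s₀) (z : E n) :
    Lp (Lp w s₀ fun _ => 1) s (fun _ => 1) z = gC n s₀ s * Lp w (s₀ + s) (fun _ => 1) z := by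
  have h := Lp_noisy hw hs hs₀ (EG.const 1) z
  have e : pE w s₀ (fun _ => 1) = fun _ => 1 := by
    funext u; exact pE_const hw hs₀ 1 u
  rwa [e] at h

/-- **tower property** -/
theorem pE_tower (hw : Ex w) (hs : 0 < s) (hs₀ : 0 < s₀) (hF : EG F) (z : E n) :
    pE (Lp w s₀ fun _ => 1) s (pE w s₀ F) z = pE w (s₀ + s) F z := by
  have h1 := gC_pos (n := n) hs hs₀
  rw [pE, Lp_noisy hw hs hs₀ hF, Lp_noisy_one hw hs hs₀, pE]
  exact mul_div_mul_left _ _ h1.ne'

/-- expectation under the law of `Y` -/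
theorem int_pE (hw : Ex w) (hs : 0 < s) (hF : EG F) :
    ∫ y, pE w s F y * Lp w s (fun _ => 1) y = (∫ z : E n, gk s z) * ∫ x, F x * w x := by
  have e : ∫ y, pE w s F y * Lp w s (fun _ => 1) y = ∫ y, (1 : ℝ) * Lp w s F y := by
    refine integral_congr_ae (ae_of_all _ fun y => ?_)
    simp only [pE]
    have := (Lp_one_pos hw hs y).ne'
    field_simp
  rw [e, hw.fubini hs (EG.const 1) hF]
  have e2 : ∀ x : E n, ∫ y : E n, (1 : ℝ) * gk s (y - x) = ∫ z : E n, gk s z := by
    intro x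
    simp only [one_mul]
    exact integral_sub_right_eq_self (fun v => gk s v) x
  simp_rw [e2]
  rw [integral_mul_const]
  ring

end Crest.Agent.R201.An
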