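import Crest.Agent.R201.An3_293

/-!
# R201 AN-4: strong log-concavity from a Hessian bound; the noisy weight is SLC (helper293)
-/

set_option autoImplicit false
open MeasureTheory Matrix Filter Topology
open scoped ContDiff RealInnerProductSpace NNReal

namespace Crest.Agent.R201.An

open Crest.Agent.R201 Crest.Agent.R144.Fi865

variable {n : ℕ} {w F G : E n → ℝ} {s s₀ c : ℝ}

lemma vec_eq_sum (v : E n) : v = ∑ k, v k • (EuclideanSpace.single k (1 : ℝ) : E n) := by
  ext i
  simp [Finset.sum_apply, Pi.single_apply]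

lemma fderiv_eq_sum (f : E n → ℝ) (z v : E n) : fderiv ℝ f z v = ∑ k, v k * pd k f z := by
  conv_lhs => rw [vec_eq_sum v]
  rw [map_sum]
  exact Finset.sum_congr rfl fun k _ => by rw [map_smul]; rfl

lemma line_deriv {f : E n → ℝ} (hf : Differentiable ℝ f) (x v : E n) (t : ℝ) :
    HasDerivAt (fun t : ℝ => f (x + t • v)) (∑ k, v k * pd k f (x + t • v)) t := by
  have h1 : HasDerivAt (fun t : ℝ => x + t • v) v t := by
    simpa using ((hasDerivAt_id t).smul_const v).const_add x
  have h2 := (hf (x + t • v)).hasFDerivAt.comp_hasDerivAt t h1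
  rw [fderiv_eq_sum] at h2
  exact h2

theorem slc_of_hess {V : E n → ℝ} {g : Fin n → E n → ℝ} {H : E n → Mt n} {c : ℝ}
    (hV : Differentiable ℝ V) (h1 : ∀ k x, pd k V x = g k x) (hg : ∀ k, Differentiable ℝ (g k))
    (h2 : ∀ l k x, pd l (g k) x = H x l k) (hH : ∀ x, LeQ (c • (1 : Mt n)) (H x)) :
    SLC c fun x => Real.exp (-(V x)) := by
  intro x y
  set v := y - x with hv
  set D := ‖v‖ ^ 2 with hD
  have d1 : ∀ t : ℝ, HasDerivAt (fun t : ℝ => V (x + t • v)) (∑ k, v k * g k (x + t • v)) t := by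
    intro t
    have := line_deriv hV x v t
    simpa only [h1] using this
  have d2 : ∀ t : ℝ, HasDerivAt (fun t : ℝ => ∑ k, v k * g k (x + t • v))
      (∑ k, v k * ∑ l, v l * H (x + t • v) l k) t := by
    intro t
    have := HasDerivAt.fun_sum (u := Finset.univ) (A := fun k (t : ℝ) => v k * g k (x + t • v))
      (A' := fun k => v k * ∑ l, v l * H (x + t • v) l k) (x := t) fun k _ => by
        have h3 := (line_deriv (hg k) x v t).const_mul (v k)
        simpa only [h2] using h3
    exact this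
  set ψ : ℝ → ℝ := fun t => V (x + t • v) - c / 2 * D * t ^ 2 with hψ
  have e1 : ∀ t : ℝ, HasDerivAt ψ ((∑ k, v k * g k (x + t • v)) - c * D * t) t := by
    intro t
    have h3 := (d1 t).fun_sub ((hasDerivAt_pow 2 t).const_mul (c / 2 * D))
    refine h3.congr_deriv ?_
    push_cast
    ring
  have e2 : ∀ t : ℝ, HasDerivAt (deriv ψ)
      ((∑ k, v k * ∑ l, v l * H (x + t • v) l k) - c * D) t := by
    intro t
    have h3 : deriv ψ = fun t => (∑ k, v k * g k (x + t • v)) - c * D * t :=
      funext fun t => (e1 t).deriv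
    rw [h3]
    have h4 := (d2 t).fun_sub ((hasDerivAt_id t).const_mul (c * D))
    refine h4.congr_deriv ?_
    ring
  have hc : ConvexOn ℝ Set.univ ψ := by
    refine convexOn_univ_of_deriv2_nonneg (fun t => (e1 t).differentiableAt)
      (fun t => (e2 t).differentiableAt) fun t => ?_
    have h3 : deriv^[2] ψ t = deriv (deriv ψ) t := rfl
    rw [h3, (e2 t).deriv]
    have h4 := hH (x + t • v) (fun k => v k)
    have h5 : (fun k => v k) ⬝ᵥ ((c • (1 : Mt n)) *ᵥ fun k => v k) = c * D := by
      simp only [Matrix.smul_mulVec, Matrix.one_mulVec, dotProduct_smul, smul_eq_mul]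
      congr 1
      rw [hD, EuclideanSpace.norm_sq_eq]
      exact Finset.sum_congr rfl fun i _ => by rw [Real.norm_eq_abs, sq_abs]; ring
    have h6 : (fun k => v k) ⬝ᵥ (H (x + t • v) *ᵥ fun k => v k) =
        ∑ k, v k * ∑ l, v l * H (x + t • v) l k := by
      simp only [dotProduct, Matrix.mulVec, Finset.mul_sum]
      rw [Finset.sum_comm]
      exact Finset.sum_congr rfl fun i _ => Finset.sum_congr rfl fun j _ => by ring
    rw [h5, h6] at h4
    linarith
  have h7' := hc.2
  have h7 := h7' (Set.mem_univ (0 : ℝ)) (Set.mem_univ (1 : ℝ))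
    (by norm_num : (0 : ℝ) ≤ 1 / 2) (by norm_num : (0 : ℝ) ≤ 1 / 2) (by norm_num)
  simp only [smul_eq_mul, mul_zero, mul_one, zero_add] at h7
  have h8 : x + (1 / 2 : ℝ) • v = (1 / 2 : ℝ) • (x + y) := by rw [hv]; module
  have h9 : x + (1 : ℝ) • v = y := by rw [hv]; module
  have h10 : x + (0 : ℝ) • v = x := by module
  simp only [hψ] at h7
  rw [h8, h9, h10] at h7
  have h11 : ‖x - y‖ ^ 2 = D := by rw [hD, hv, norm_sub_rev]
  rw [← Real.exp_half, ← Real.exp_half, ← Real.exp_add, ← Real.exp_add, h11]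
  apply Real.exp_le_exp.2
  nlinarith

lemma exp_neg_Vp (hw : Ex w) (hs : 0 < s) (y : E n) :
    Real.exp (-(Vp w s y)) = Lp w s (fun _ => 1) y := by
  unfold Vp
  rw [neg_neg, Real.exp_log (Lp_one_pos hw hs y)]

/-- the noisy weight is strongly log-concave -/
theorem slc_noisy (hw : Ex w) (hc : 0 ≤ c) (h : SLC c w) (hs : 0 < s) :
    SLC (c / (1 + c * s)) (Lp w s fun _ => 1) := by
  have key := slc_of_hess (V := Vp w s) (g := Vg w s) (H := Vh w s) (c := c / (1 + c * s))
    ((Vp_contDiff hw hs).differentiable (by simp)) (fun k x => pd_Vp hw hs k x)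
    (fun k => (Vg_contDiff hw hs k).differentiable (by simp)) (fun l k x => pd_Vg hw hs l k x)
    (fun x => Vh_ge hw hc h hs x)
  have e : (fun x => Real.exp (-(Vp w s x))) = Lp w s fun _ => 1 :=
    funext fun x => exp_neg_Vp hw hs x
  rwa [e] at key

end Crest.Agent.R201.An
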