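import Crest.Agent.R201.An4_293

/-!
# R201 AN-5: bounded posteriors, Bessel, total covariance, the field `P` (helper293)
-/

set_option autoImplicit false
open MeasureTheory Matrix Filter Topology
open scoped ContDiff RealInnerProductSpace NNReal

namespace Crest.Agent.R201.An

open Crest.Agent.R201 Crest.Agent.R144.Fi865

variable {n : ℕ} {w F G : E n → ℝ} {s s₀ c R : ℝ}

lemma pE_bdd (hw : Wt c R w) (hs : 0 < s) (hF : EG F) {B : ℝ} (hB : ∀ x, ‖x‖ ≤ R → |F x| ≤ B)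
    (y : E n) : |pE w s F y| ≤ B := by
  have h0 := Lp_one_pos hw.ex hs y
  unfold pE
  rw [abs_div, abs_of_pos h0, div_le_iff₀ h0]
  unfold Lp
  refine (abs_integral_le_integral_abs).trans ?_
  rw [← integral_const_mul]
  refine integral_mono (hw.ex.int_Lp hs hF y).abs ((hw.ex.int_Lp hs (EG.const 1) y).const_mul B)
    fun x => ?_
  simp only [one_mul]
  rw [abs_mul, abs_of_nonneg (mul_nonneg (hw.nonneg x) (gk_pos _ _).le)]
  by_cases h : w x = 0
  · simp [h]
  · exact mul_le_mul_of_nonneg_right (hB x (hw.supp x h))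
      (mul_nonneg (hw.nonneg x) (gk_pos _ _).le)

lemma pE_bdd' (hw : Wt c R w) (hs : 0 < s) (hF : EG F) : ∃ B : ℝ, ∀ y, |pE w s F y| ≤ B := by
  obtain ⟨C, a, hC, ha, hB⟩ := hF.2
  refine ⟨C * Real.exp (a * R), fun y => pE_bdd hw hs hF (fun x hx => (hB x).trans ?_) y⟩
  exact mul_le_mul_of_nonneg_left (Real.exp_le_exp.2 (mul_le_mul_of_nonneg_left hx ha)) hC

lemma EG.pE (hw : Wt c R w) (hs : 0 < s) (hF : EG F) : EG (pE w s F) := by
  obtain ⟨B, hB⟩ := pE_bdd' hw hs hF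
  exact EG.of_bdd (contDiff_pE hw.ex hs hF).continuous.measurable hB

lemma EG.pC (hw : Wt c R w) (hs : 0 < s) (i j : Fin n) : EG fun u => pC w s u i j :=
  (EG.pE hw hs ((EG.coord i).mul (EG.coord j))).sub
    ((EG.pE hw hs (EG.coord i)).mul (EG.pE hw hs (EG.coord j)))

lemma EG.quad (hw : Wt c R w) (hs : 0 < s) (u : Fin n → ℝ) :
    EG fun x => u ⬝ᵥ (An.pC w s x *ᵥ u) := by
  simp only [dotProduct, Matrix.mulVec]
  exact EG.sum _ fun i _ => by
    have := (EG.sum (Finset.univ : Finset (Fin n)) fun j _ =>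
      (EG.pC hw hs i j).mul (EG.const (u j))).smul (u i)
    exact this

lemma EG.Vg (hw : Wt c R w) (hs : 0 < s) (k : Fin n) : EG (Vg w s k) := by
  have := ((EG.coord k).sub (EG.pE hw hs (EG.coord k))).smul (1 / s)
  have e : An.Vg w s k = fun x => 1 / s * (x k - An.pE w s (fun x => x k) x) := by
    funext x; unfold An.Vg; ring
  rw [e]
  exact this

/-! ### Bessel -/

theorem bessel (hw : Ex w) (hc : 0 ≤ c) (h : SLC c w) (hs : 0 < s) (hF : EG F) (y : E n) :
    ∑ k, (pE w s (fun x => F x * x k) y - pE w s F y * pE w s (fun x => x k) y) ^ 2 ≤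
      s * (pE w s (fun x => F x ^ 2) y - pE w s F y ^ 2) := by
  set b : Fin n → ℝ := fun k => pE w s (fun x => F x * x k) y - pE w s F y * pE w s (fun x => x k) y
    with hb
  set L : E n → ℝ := fun x => ∑ k, b k * x k with hL
  have hLE : EG L := EG.lin b
  have hF2 : EG fun x => F x ^ 2 := by simpa [sq] using hF.mul hF
  have hL2 : EG fun x => L x ^ 2 := by simpa [sq] using hLE.mul hLE
  have hFL : EG fun x => F x * L x := hF.mul hLE
  have e1 : pE w s (fun x => F x * L x) y = ∑ k, b k * pE w s (fun x => F x * x k) y := by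
    have : (fun x => F x * L x) = fun x => ∑ k, b k * (F x * x k) := by
      funext x
      simp only [hL, Finset.mul_sum]
      exact Finset.sum_congr rfl fun k _ => by ring
    rw [this, pE_sum _ hw hs fun k _ => (hF.mul (EG.coord k)).smul _]
    exact Finset.sum_congr rfl fun k _ => pE_smul _ _ _
  have e2 : pE w s L y = ∑ k, b k * pE w s (fun x => x k) y := pE_lin hw hs b y
  have e3 : pE w s (fun x => F x * L x) y - pE w s F y * pE w s L y = ∑ k, b k ^ 2 := by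
    rw [e1, e2, Finset.mul_sum, ← Finset.sum_sub_distrib]
    exact Finset.sum_congr rfl fun k _ => by simp only [hb]; ring
  have e4 : pE w s (fun x => L x ^ 2) y - pE w s L y ^ 2 ≤ s * ∑ k, b k ^ 2 := by
    have h1 := pC_le hw hc h hs y b
    rw [pC_quad hw hs] at h1
    refine h1.trans ?_
    simp only [Matrix.smul_mulVec, Matrix.one_mulVec, dotProduct_smul, smul_eq_mul]
    have h2 : b ⬝ᵥ b = ∑ k, b k ^ 2 := Finset.sum_congr rfl fun k _ => by ring
    rw [h2]
    refine mul_le_mul_of_nonneg_right ?_ (Finset.sum_nonneg fun k _ => sq_nonneg _)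
    exact div_le_self hs.le (by nlinarith [mul_nonneg hc hs.le])
  have h5 := pE_sq_le hw hs (hF.sub (hLE.smul (1 / s))) y
  have e6 : pE w s (fun x => F x - 1 / s * L x) y = pE w s F y - 1 / s * pE w s L y := by
    rw [pE_sub hw hs hF (hLE.smul _), pE_smul]
  have e7 : pE w s (fun x => (F x - 1 / s * L x) ^ 2) y =
      pE w s (fun x => F x ^ 2) y - 2 / s * pE w s (fun x => F x * L x) y +
        1 / s ^ 2 * pE w s (fun x => L x ^ 2) y := by
    have : (fun x => (F x - 1 / s * L x) ^ 2) = fun x =>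
        (F x ^ 2 - 2 / s * (F x * L x)) + 1 / s ^ 2 * L x ^ 2 := by
      funext x
      field_simp
      ring
    rw [this, pE_add hw hs (hF2.sub (hFL.smul _)) (hL2.smul _), pE_sub hw hs hF2 (hFL.smul _),
      pE_smul, pE_smul]
  rw [e6, e7] at h5
  set A := pE w s (fun x => F x ^ 2) y
  set B := pE w s (fun x => F x * L x) y
  set D := pE w s (fun x => L x ^ 2) y
  set f := pE w s F y
  set l := pE w s L y
  set S := ∑ k, b k ^ 2
  have h6 : 0 ≤ s ^ 2 * (A - f ^ 2) - 2 * s * S + (D - l ^ 2) := by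
    have h7 : 0 ≤ s ^ 2 * (A - 2 / s * B + 1 / s ^ 2 * D - (f - 1 / s * l) ^ 2) :=
      mul_nonneg (sq_nonneg _) (by linarith)
    have h8 : s ^ 2 * (A - 2 / s * B + 1 / s ^ 2 * D - (f - 1 / s * l) ^ 2) =
        s ^ 2 * (A - f ^ 2) - 2 * s * (B - f * l) + (D - l ^ 2) := by
      field_simp
      ring
    rw [h8, e3] at h7
    exact h7
  have h9 : s * S ≤ s * (s * (A - f ^ 2)) := by nlinarith
  exact le_of_mul_le_mul_left h9 hs

/-- `A² ≤ A` for symmetric `0 ≤ A ≤ 1` -/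
lemma sq_le_self {A : Mt n} (hA : Aᵀ = A) (h0 : LeQ 0 A) (h1 : LeQ A 1) (u : Fin n → ℝ) :
    (A *ᵥ u) ⬝ᵥ (A *ᵥ u) ≤ u ⬝ᵥ (A *ᵥ u) := by
  set v := A *ᵥ u with hv
  have k0 := h0 (u - v)
  have k1 := h1 v
  simp only [Matrix.zero_mulVec, dotProduct_zero, Matrix.one_mulVec] at k0 k1
  rw [Matrix.mulVec_sub, ← hv] at k0
  simp only [sub_dotProduct, dotProduct_sub] at k0
  have e1 : u ⬝ᵥ (A *ᵥ v) = v ⬝ᵥ v := by
    rw [Matrix.dotProduct_mulVec, ← Matrix.mulVec_transpose, hA]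
  rw [e1] at k0
  linarith

/-! ### composition of the two noises -/

lemma Vp_noisy (hw : Ex w) (hs : 0 < s) (hs₀ : 0 < s₀) (z : E n) :
    Vp (Lp w s₀ fun _ => 1) s z = Vp w (s₀ + s) z - Real.log (gC n s₀ s) := by
  unfold Vp
  rw [Lp_noisy_one hw hs hs₀, Real.log_mul (gC_pos hs hs₀).ne' (Lp_one_pos hw (by positivity) z).ne']
  ring

lemma pd_sub_const (k : Fin n) (f : E n → ℝ) (C : ℝ) (z : E n) :
    pd k (fun y => f y - C) z = pd k f z := by
  unfold pd
  rw [fderiv_sub_const]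

lemma Vg_noisy (hw : Ex w) (hs : 0 < s) (hs₀ : 0 < s₀) (k : Fin n) :
    Vg (Lp w s₀ fun _ => 1) s k = Vg w (s₀ + s) k := by
  funext z
  rw [← pd_Vp (hw.noisy hs₀) hs k z, ← pd_Vp hw (by positivity) k z]
  have e : Vp (Lp w s₀ fun _ => 1) s = fun z => Vp w (s₀ + s) z - Real.log (gC n s₀ s) :=
    funext fun z => Vp_noisy hw hs hs₀ z
  rw [e, pd_sub_const]

lemma Vh_noisy (hw : Ex w) (hs : 0 < s) (hs₀ : 0 < s₀) (z : E n) :
    Vh (Lp w s₀ fun _ => 1) s z = Vh w (s₀ + s) z := by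
  ext l k
  rw [← pd_Vg (hw.noisy hs₀) hs l k z, ← pd_Vg hw (by positivity) l k z, Vg_noisy hw hs hs₀]

/-- `V'(y) = E[V₁'(U) | Y = y]` -/
lemma pE_Vg (hw : Wt c R w) (hs : 0 < s) (hs₀ : 0 < s₀) (k : Fin n) (z : E n) :
    pE (Lp w s₀ fun _ => 1) s (Vg w s₀ k) z = Vg w (s₀ + s) k z := by
  have hq := hw.ex.noisy hs₀
  have e1 : Vg w s₀ k = fun x => 1 / s₀ * (x k - pE w s₀ (fun x => x k) x) := by
    funext x; unfold Vg; ring
  rw [e1, pE_smul, pE_sub hq hs (EG.coord k) (EG.pE hw hs₀ (EG.coord k)),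
    pE_tower hw.ex hs hs₀ (EG.coord k)]
  have e2 : Vg (Lp w s₀ fun _ => 1) s k z = Vg w (s₀ + s) k z := by
    rw [Vg_noisy hw.ex hs hs₀]
  unfold Vg at e2 ⊢
  have h1 : s₀ + s ≠ 0 := by positivity
  field_simp at e2 ⊢
  linear_combination (-1) * e2

lemma quad_sum (A : Mt n) (u : Fin n → ℝ) :
    u ⬝ᵥ (A *ᵥ u) = ∑ k, ∑ l, u l * u k * A l k := by
  simp only [dotProduct, Matrix.mulVec, Finset.mul_sum]
  rw [Finset.sum_comm]
  exact Finset.sum_congr rfl fun i _ => Finset.sum_congr rfl fun j _ => by ring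

/-- law of total covariance, in terms of the two potentials -/
theorem total_cov (hw : Wt c R w) (hs : 0 < s) (hs₀ : 0 < s₀) (u : Fin n → ℝ) (z : E n) :
    u ⬝ᵥ u - 1 / s₀ * pE (Lp w s₀ fun _ => 1) s (fun x => u ⬝ᵥ (pC w s₀ x *ᵥ u)) z =
      s₀ * (u ⬝ᵥ (Vh w (s₀ + s) z *ᵥ u) +
        (pE (Lp w s₀ fun _ => 1) s (fun x => (∑ k, u k * Vg w s₀ k x) ^ 2) z -
          (pE (Lp w s₀ fun _ => 1) s (fun x => ∑ k, u k * Vg w s₀ k x) z) ^ 2)) := by
  have hq := hw.ex.noisy hs₀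
  have hh : 0 < s₀ + s := by positivity
  set q := Lp w s₀ (fun _ => 1) with hqd
  set L : E n → ℝ := fun x => ∑ k, u k * x k with hL
  set f : E n → ℝ := fun x => ∑ k, u k * Vg w s₀ k x with hf
  have hLE : EG L := EG.lin u
  have hL2 : EG fun x => L x ^ 2 := by simpa [sq] using hLE.mul hLE
  have hfE : EG f := EG.sum _ fun k _ => (EG.Vg hw hs₀ k).smul (u k)
  have hf2 : EG fun x => f x ^ 2 := by simpa [sq] using hfE.mul hfE
  have hLf : EG fun x => L x * f x := hLE.mul hfE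
  have eM : ∀ x, pE w s₀ L x = L x - s₀ * f x := by
    intro x
    rw [pE_lin hw.ex hs₀]
    simp only [hL, hf, Vg, Finset.mul_sum]
    rw [← Finset.sum_sub_distrib]
    refine Finset.sum_congr rfl fun k _ => ?_
    field_simp
    ring
  -- (b)
  have eb : pE w (s₀ + s) (fun x => L x ^ 2) z =
      pE q s (fun x => u ⬝ᵥ (pC w s₀ x *ᵥ u)) z + pE q s (fun x => (L x - s₀ * f x) ^ 2) z := by
    rw [← pE_tower hw.ex hs hs₀ hL2]
    have hM2 : EG fun x => (L x - s₀ * f x) ^ 2 := by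
      have := (hLE.sub (hfE.smul s₀)).mul (hLE.sub (hfE.smul s₀))
      simpa [sq] using this
    rw [← pE_add hq hs (EG.quad hw hs₀ u) hM2]
    congr 1
    funext x
    rw [pC_quad hw.ex hs₀]
    change _ = pE w s₀ (fun x => L x ^ 2) x - pE w s₀ L x ^ 2 + (L x - s₀ * f x) ^ 2
    rw [eM x]
    ring
  have ec : pE w (s₀ + s) L z = pE q s L z - s₀ * pE q s f z := by
    rw [← pE_tower hw.ex hs hs₀ hLE]
    have : pE w s₀ L = fun x => L x - s₀ * f x := funext eM
    rw [this, pE_sub hq hs hLE (hfE.smul _), pE_smul]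
  have ed : pE q s (fun x => (L x - s₀ * f x) ^ 2) z =
      pE q s (fun x => L x ^ 2) z - 2 * s₀ * pE q s (fun x => L x * f x) z +
        s₀ ^ 2 * pE q s (fun x => f x ^ 2) z := by
    have : (fun x => (L x - s₀ * f x) ^ 2) = fun x =>
        (L x ^ 2 - 2 * s₀ * (L x * f x)) + s₀ ^ 2 * f x ^ 2 := by
      funext x; ring
    rw [this, pE_add hq hs (hL2.sub (hLf.smul _)) (hf2.smul _), pE_sub hq hs hL2 (hLf.smul _),
      pE_smul, pE_smul]
  -- (a), (f)
  have ea := pC_quad hw.ex hh u z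
  have ea' := Vh_quad w (s₀ + s) z u
  have ef := pC_quad hq hs u z
  have ef' := Vh_quad q s z u
  rw [Vh_noisy hw.ex hs hs₀] at ef'
  -- (g)
  have eg : pE q s (fun x => L x * f x) z - pE q s L z * pE q s f z =
      s * (u ⬝ᵥ (Vh w (s₀ + s) z *ᵥ u)) := by
    have g1 : pE q s (fun x => L x * f x) z =
        ∑ k, ∑ l, u l * u k * pE q s (fun x => Vg w s₀ k x * x l) z := by
      have : (fun x => L x * f x) = fun x => ∑ k, ∑ l, (u l * u k) * (Vg w s₀ k x * x l) := by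
        funext x
        simp only [hL, hf]
        rw [Finset.sum_mul_sum, Finset.sum_comm]
        exact Finset.sum_congr rfl fun k _ => Finset.sum_congr rfl fun l _ => by ring
      rw [this, pE_sum _ hq hs fun k _ => EG.sum _ fun l _ =>
        ((EG.Vg hw hs₀ k).mul (EG.coord l)).smul _]
      refine Finset.sum_congr rfl fun k _ => ?_
      rw [pE_sum _ hq hs fun l _ => ((EG.Vg hw hs₀ k).mul (EG.coord l)).smul _]
      exact Finset.sum_congr rfl fun l _ => pE_smul _ _ _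
    have g2 : pE q s L z * pE q s f z =
        ∑ k, ∑ l, u l * u k * (pE q s (Vg w s₀ k) z * pE q s (fun x => x l) z) := by
      rw [pE_lin hq hs, hf, pE_sum _ hq hs fun k _ => (EG.Vg hw hs₀ k).smul _,
        Finset.sum_mul_sum, Finset.sum_comm]
      refine Finset.sum_congr rfl fun k _ => Finset.sum_congr rfl fun l _ => ?_
      rw [pE_smul]
      ring
    rw [g1, g2, quad_sum, Finset.mul_sum, ← Finset.sum_sub_distrib]
    refine Finset.sum_congr rfl fun k _ => ?_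
    rw [Finset.mul_sum, ← Finset.sum_sub_distrib]
    refine Finset.sum_congr rfl fun l _ => ?_
    have g3 := pd_pE hq hs (EG.Vg hw hs₀ k) l z
    have g4 : pE q s (Vg w s₀ k) = Vg w (s₀ + s) k := funext fun z => pE_Vg hw hs hs₀ k z
    rw [g4, pd_Vg hw.ex hh] at g3
    rw [g3, g4]
    field_simp
  set X := u ⬝ᵥ (Vh w (s₀ + s) z *ᵥ u)
  set A := u ⬝ᵥ (pC w (s₀ + s) z *ᵥ u)
  set B := u ⬝ᵥ (pC q s z *ᵥ u)
  set pp := pE q s (fun x => u ⬝ᵥ (pC w s₀ x *ᵥ u)) z
  have h1 : A = (s₀ + s) * (u ⬝ᵥ u) - (s₀ + s) ^ 2 * X := by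
    rw [ea']
    field_simp
    ring
  have h2 : B = s * (u ⬝ᵥ u) - s ^ 2 * X := by
    rw [ef']
    field_simp
    ring
  change A = pE w (s₀ + s) (fun x => L x ^ 2) z - pE w (s₀ + s) L z ^ 2 at ea
  change B = pE q s (fun x => L x ^ 2) z - pE q s L z ^ 2 at ef
  rw [eb, ec, ed] at ea
  field_simp
  nlinarith [ea, ef, eg, h1, h2]

end Crest.Agent.R201.An
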