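import Crest.Agent.R201.An5_293

/-!
# R201 AN-6: the field `P` (helper293)
-/

set_option autoImplicit false
open MeasureTheory Matrix Filter Topology
open scoped ContDiff RealInnerProductSpace NNReal

namespace Crest.Agent.R201.An

open Crest.Agent.R201 Crest.Agent.R144.Fi865

variable {n : ℕ} {w F G : E n → ℝ} {s s₀ c R : ℝ}

/-- entries of `A = Cov(X | U)/s₀` -/
noncomputable def Af (w : E n → ℝ) (s₀ : ℝ) (i j : Fin n) (x : E n) : ℝ := 1 / s₀ * pC w s₀ x i j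

/-- the matrix `A` -/
noncomputable def Am (w : E n → ℝ) (s₀ : ℝ) (x : E n) : Mt n := (1 / s₀) • pC w s₀ x

/-- the field `P` -/
noncomputable def PP (w : E n → ℝ) (s₀ s : ℝ) (y : E n) : Mt n :=
  Matrix.of fun i j => pE (Lp w s₀ fun _ => 1) s (Af w s₀ i j) y

lemma Am_apply (i j : Fin n) (x : E n) : Am w s₀ x i j = Af w s₀ i j x := by
  simp [Am, Af]

lemma Am_symm (x : E n) : (Am w s₀ x)ᵀ = Am w s₀ x := by
  unfold Am; rw [Matrix.transpose_smul, pC_symm]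

lemma Am_nonneg (hw : Ex w) (hs₀ : 0 < s₀) (x : E n) : LeQ 0 (Am w s₀ x) := by
  intro u
  have h := pC_nonneg hw hs₀ x u
  simp only [Am, Matrix.zero_mulVec, dotProduct_zero, Matrix.smul_mulVec, dotProduct_smul,
    smul_eq_mul] at h ⊢
  positivity

lemma Am_le (hw : Ex w) (hc : 0 ≤ c) (h : SLC c w) (hs₀ : 0 < s₀) (x : E n) :
    LeQ (Am w s₀ x) 1 := by
  intro u
  have h1 := pC_le hw hc h hs₀ x u
  simp only [Am, Matrix.one_mulVec, Matrix.smul_mulVec, dotProduct_smul, smul_eq_mul] at h1 ⊢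
  have hu : 0 ≤ u ⬝ᵥ u := Finset.sum_nonneg fun i _ => mul_self_nonneg _
  have h2 : s₀ / (1 + c * s₀) ≤ s₀ := div_le_self hs₀.le (by nlinarith [mul_nonneg hc hs₀.le])
  have h3 : u ⬝ᵥ (pC w s₀ x *ᵥ u) ≤ s₀ * (u ⬝ᵥ u) :=
    h1.trans (mul_le_mul_of_nonneg_right h2 hu)
  rw [one_div, inv_mul_le_iff₀ hs₀]
  exact h3

lemma Af_EG (hw : Wt c R w) (hs₀ : 0 < s₀) (i j : Fin n) : EG (Af w s₀ i j) :=
  (EG.pC hw hs₀ i j).smul _

lemma pC_bdd (hw : Wt c R w) (hs : 0 < s) (i j : Fin n) : ∃ B : ℝ, ∀ y, |pC w s y i j| ≤ B := by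
  obtain ⟨B1, h1⟩ := pE_bdd' hw hs ((EG.coord i).mul (EG.coord j))
  obtain ⟨B2, h2⟩ := pE_bdd' hw hs (EG.coord i)
  obtain ⟨B3, h3⟩ := pE_bdd' hw hs (EG.coord j)
  refine ⟨B1 + B2 * B3, fun y => ?_⟩
  simp only [pC, Matrix.of_apply]
  refine (abs_sub _ _).trans (add_le_add (h1 y) ?_)
  rw [abs_mul]
  exact mul_le_mul (h2 y) (h3 y) (abs_nonneg _) ((abs_nonneg _).trans (h2 y))

lemma Af_bdd (hw : Wt c R w) (hs₀ : 0 < s₀) (i j : Fin n) : ∃ B : ℝ, ∀ y, |Af w s₀ i j y| ≤ B := by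
  obtain ⟨B, hB⟩ := pC_bdd hw hs₀ i j
  refine ⟨1 / s₀ * B, fun y => ?_⟩
  unfold Af
  rw [abs_mul, abs_of_pos (by positivity : (0 : ℝ) < 1 / s₀)]
  exact mul_le_mul_of_nonneg_left (hB y) (by positivity)

/-- posterior mean of a bounded function is `CB` -/
lemma CB_pE (hw : Ex w) (hc : 0 ≤ c) (h : SLC c w) (hs : 0 < s) (hF : Measurable F) {B : ℝ}
    (hB : ∀ x, |F x| ≤ B) : CB (pE w s F) := by
  have hE : EG F := EG.of_bdd hF hB
  have hB0 : 0 ≤ B := (abs_nonneg _).trans (hB 0)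
  refine ⟨(contDiff_pE hw hs hE).of_le (by norm_cast), B + (1 + 1 / s * B ^ 2), fun y => ⟨?_, fun k => ?_⟩⟩
  · have h1 : pE w s F y ≤ B := by
      have := pE_mono hw hs hE (EG.const B) (fun x => (abs_le.1 (hB x)).2) y
      rwa [pE_const hw hs] at this
    have h2 : -B ≤ pE w s F y := by
      have := pE_mono hw hs (EG.const (-B)) hE (fun x => (abs_le.1 (hB x)).1) y
      rwa [pE_const hw hs] at this
    have h3 : 0 ≤ 1 / s * B ^ 2 := by positivity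
    rw [abs_le]
    constructor <;> linarith
  · have hb := bessel hw hc h hs hE y
    have h1 : (pE w s (fun x => F x * x k) y - pE w s F y * pE w s (fun x => x k) y) ^ 2 ≤
        s * (pE w s (fun x => F x ^ 2) y - pE w s F y ^ 2) :=
      (Finset.single_le_sum (f := fun k => (pE w s (fun x => F x * x k) y -
        pE w s F y * pE w s (fun x => x k) y) ^ 2) (fun _ _ => sq_nonneg _)
        (Finset.mem_univ k)).trans hb
    have h2 : pE w s (fun x => F x ^ 2) y ≤ B ^ 2 := by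
      have h4 : EG fun x => F x ^ 2 := by simpa [sq] using hE.mul hE
      have := pE_mono hw hs h4 (EG.const (B ^ 2)) (fun x => by
        rw [← sq_abs]; exact pow_le_pow_left₀ (abs_nonneg _) (hB x) 2) y
      rwa [pE_const hw hs] at this
    have h3 : (pd k (pE w s F) y) ^ 2 ≤ 1 / s * B ^ 2 := by
      rw [pd_pE hw hs hE k y, div_pow, div_le_iff₀ (by positivity)]
      have h5 : s * (pE w s (fun x => F x ^ 2) y - pE w s F y ^ 2) ≤ s * B ^ 2 :=
        mul_le_mul_of_nonneg_left (by nlinarith [sq_nonneg (pE w s F y)]) hs.le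
      have h6 : 1 / s * B ^ 2 * s ^ 2 = s * B ^ 2 := by field_simp
      rw [h6]
      exact h1.trans h5
    have h4 : |pd k (pE w s F) y| ≤ 1 + 1 / s * B ^ 2 := by
      have h5 : |pd k (pE w s F) y| ^ 2 ≤ 1 / s * B ^ 2 := by rwa [sq_abs]
      nlinarith [sq_nonneg (|pd k (pE w s F) y| - 1), abs_nonneg (pd k (pE w s F) y)]
    linarith

/-! ### the fields of `KD` about `P` -/

lemma PP_quad (hw : Wt c R w) (hs : 0 < s) (hs₀ : 0 < s₀) (u : Fin n → ℝ) (y : E n) :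
    u ⬝ᵥ (PP w s₀ s y *ᵥ u) = pE (Lp w s₀ fun _ => 1) s (fun x => u ⬝ᵥ (Am w s₀ x *ᵥ u)) y := by
  have hq := hw.ex.noisy hs₀
  have e : (fun x => u ⬝ᵥ (Am w s₀ x *ᵥ u)) = fun x => ∑ k, ∑ l, (u l * u k) * Af w s₀ l k x := by
    funext x
    rw [quad_sum]
    simp only [Am_apply]
  rw [e, pE_sum _ hq hs fun k _ => EG.sum _ fun l _ => (Af_EG hw hs₀ l k).smul _, quad_sum]
  refine Finset.sum_congr rfl fun k _ => ?_
  rw [pE_sum _ hq hs fun l _ => (Af_EG hw hs₀ l k).smul _]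
  exact Finset.sum_congr rfl fun l _ => by rw [pE_smul]; rfl

lemma quadA_EG (hw : Wt c R w) (hs₀ : 0 < s₀) (u : Fin n → ℝ) :
    EG fun x => u ⬝ᵥ (Am w s₀ x *ᵥ u) := by
  have e : (fun x => u ⬝ᵥ (Am w s₀ x *ᵥ u)) = fun x => 1 / s₀ * (u ⬝ᵥ (pC w s₀ x *ᵥ u)) := by
    funext x
    simp only [Am, Matrix.smul_mulVec, dotProduct_smul, smul_eq_mul]
  rw [e]
  exact (EG.quad hw hs₀ u).smul _

lemma PP_symm (y : E n) : (PP w s₀ s y)ᵀ = PP w s₀ s y := by
  ext i j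
  simp only [PP, Matrix.transpose_apply, Matrix.of_apply]
  congr 1
  funext x
  rw [← Am_apply, ← Am_apply, ← Matrix.transpose_apply (Am w s₀ x), Am_symm]

lemma PP_nonneg (hw : Wt c R w) (hs : 0 < s) (hs₀ : 0 < s₀) (y : E n) : LeQ 0 (PP w s₀ s y) := by
  intro u
  rw [PP_quad hw hs hs₀]
  simp only [Matrix.zero_mulVec, dotProduct_zero]
  refine pE_nonneg (hw.ex.noisy hs₀) hs (fun x => ?_) y
  simpa only [Matrix.zero_mulVec, dotProduct_zero] using Am_nonneg hw.ex hs₀ x u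

lemma PP_le (hw : Wt c R w) (hc : 0 ≤ c) (hs : 0 < s) (hs₀ : 0 < s₀) (y : E n) :
    LeQ (PP w s₀ s y) 1 := by
  intro u
  rw [PP_quad hw hs hs₀]
  have := pE_mono (hw.ex.noisy hs₀) hs (quadA_EG hw hs₀ u) (EG.const (u ⬝ᵥ u))
    (fun x => by simpa only [Matrix.one_mulVec] using Am_le hw.ex hc hw.slc hs₀ x u) y
  rw [pE_const (hw.ex.noisy hs₀) hs] at this
  simpa only [Matrix.one_mulVec] using this

lemma PP_cb (hw : Wt c R w) (hc : 0 ≤ c) (hs : 0 < s) (hs₀ : 0 < s₀) (i j : Fin n) :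
    CB fun x => PP w s₀ s x i j := by
  obtain ⟨B, hB⟩ := Af_bdd hw hs₀ i j
  exact CB_pE (hw.ex.noisy hs₀) (by positivity : 0 ≤ c / (1 + c * s₀))
    (slc_noisy hw.ex hc hw.slc hs₀) hs (Af_EG hw hs₀ i j).1 hB

lemma dot_self (v : Fin n → ℝ) : v ⬝ᵥ v = ∑ i, v i ^ 2 :=
  Finset.sum_congr rfl fun i _ => by ring

lemma quad_mul_self {A : Mt n} (hA : Aᵀ = A) (u : Fin n → ℝ) :
    u ⬝ᵥ ((A * A) *ᵥ u) = ∑ i, (∑ j, u j * A i j) ^ 2 := by
  rw [← Matrix.mulVec_mulVec, Matrix.dotProduct_mulVec, ← Matrix.mulVec_transpose, hA, dot_self]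
  refine Finset.sum_congr rfl fun i _ => ?_
  congr 1
  simp only [Matrix.mulVec, dotProduct]
  exact Finset.sum_congr rfl fun j _ => by ring

lemma quad_mul_one_sub {A : Mt n} (hA : Aᵀ = A) (u : Fin n → ℝ) :
    u ⬝ᵥ ((A * (1 - A)) *ᵥ u) = u ⬝ᵥ (A *ᵥ u) - ∑ i, (∑ j, u j * A i j) ^ 2 := by
  rw [mul_sub, mul_one, Matrix.sub_mulVec, dotProduct_sub, quad_mul_self hA]

lemma quad_sq_le {A : Mt n} (hA : Aᵀ = A) (h0 : LeQ 0 A) (h1 : LeQ A 1) (u : Fin n → ℝ) :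
    ∑ i, (∑ j, u j * A i j) ^ 2 ≤ u ⬝ᵥ (A *ᵥ u) := by
  refine le_trans (le_of_eq ?_) (sq_le_self hA h0 h1 u)
  rw [dot_self]
  refine Finset.sum_congr rfl fun i _ => ?_
  congr 1
  simp only [Matrix.mulVec, dotProduct]
  exact Finset.sum_congr rfl fun j _ => by ring

theorem PP_grad (hw : Wt c R w) (hc : 0 ≤ c) (hs : 0 < s) (hs₀ : 0 < s₀) {h : ℝ} (hh : 0 < h)
    (h4 : h ≤ 4 * s) (y : E n) :
    LeQ (∑ k, pdM k (PP w s₀ s) y * pdM k (PP w s₀ s) y)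
      ((4 / h) • (PP w s₀ s y * (1 - PP w s₀ s y))) := by
  intro u
  have hq := hw.ex.noisy hs₀
  have hqc : 0 ≤ c / (1 + c * s₀) := by positivity
  have hqs := slc_noisy hw.ex hc hw.slc hs₀
  set q := Lp w s₀ (fun _ => 1) with hqd
  -- the functions `F i = (A u)_i`
  set Fi : Fin n → E n → ℝ := fun i x => ∑ j, u j * Af w s₀ i j x with hFi
  have hFE : ∀ i, EG (Fi i) := fun i => EG.sum _ fun j _ => (Af_EG hw hs₀ i j).smul _
  have hFE2 : ∀ i, EG fun x => Fi i x ^ 2 := fun i => by simpa [sq] using (hFE i).mul (hFE i)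
  have hsymm : ∀ k, (pdM k (PP w s₀ s) y)ᵀ = pdM k (PP w s₀ s) y := by
    intro k
    ext i j
    simp only [pdM, Matrix.transpose_apply, Matrix.of_apply]
    congr 1
    funext z
    rw [← Matrix.transpose_apply (PP w s₀ s z), PP_symm]
  have e1 : ∀ k i, ∑ j, u j * pdM k (PP w s₀ s) y i j =
      (pE q s (fun x => Fi i x * x k) y - pE q s (Fi i) y * pE q s (fun x => x k) y) / s := by
    intro k i
    have g1 : ∀ j, pdM k (PP w s₀ s) y i j = (pE q s (fun x => Af w s₀ i j x * x k) y -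
        pE q s (Af w s₀ i j) y * pE q s (fun x => x k) y) / s := fun j => by
      simp only [pdM, PP, Matrix.of_apply]
      exact pd_pE hq hs (Af_EG hw hs₀ i j) k y
    have g2 : pE q s (fun x => Fi i x * x k) y =
        ∑ j, u j * pE q s (fun x => Af w s₀ i j x * x k) y := by
      have : (fun x => Fi i x * x k) = fun x => ∑ j, u j * (Af w s₀ i j x * x k) := by
        funext x
        simp only [hFi, Finset.sum_mul]
        exact Finset.sum_congr rfl fun k _ => by ring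
      rw [this, pE_sum _ hq hs fun j _ => ((Af_EG hw hs₀ i j).mul (EG.coord k)).smul _]
      exact Finset.sum_congr rfl fun k _ => pE_smul _ _ _
    have g3 : pE q s (Fi i) y = ∑ j, u j * pE q s (Af w s₀ i j) y := by
      simp only [hFi]
      rw [pE_sum _ hq hs fun j _ => (Af_EG hw hs₀ i j).smul _]
      exact Finset.sum_congr rfl fun k _ => pE_smul _ _ _
    rw [g2, g3, Finset.sum_mul, ← Finset.sum_sub_distrib, Finset.sum_div]
    refine Finset.sum_congr rfl fun j _ => ?_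
    rw [g1]
    ring
  have e2 : u ⬝ᵥ ((∑ k, pdM k (PP w s₀ s) y * pdM k (PP w s₀ s) y) *ᵥ u) =
      ∑ k, ∑ i, (∑ j, u j * pdM k (PP w s₀ s) y i j) ^ 2 := by
    rw [Matrix.sum_mulVec, dotProduct_sum]
    exact Finset.sum_congr rfl fun k _ => quad_mul_self (hsymm k) u
  have e3 : ∑ k, ∑ i, (∑ j, u j * pdM k (PP w s₀ s) y i j) ^ 2 ≤
      ∑ i, 1 / s * (pE q s (fun x => Fi i x ^ 2) y - pE q s (Fi i) y ^ 2) := by
    rw [Finset.sum_comm]
    refine Finset.sum_le_sum fun i _ => ?_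
    have hb := bessel hq hqc hqs hs (hFE i) y
    simp_rw [e1, div_pow]
    rw [← Finset.sum_div, div_le_iff₀ (by positivity)]
    refine hb.trans (le_of_eq ?_)
    field_simp
  have e4 : ∑ i, pE q s (fun x => Fi i x ^ 2) y ≤ u ⬝ᵥ (PP w s₀ s y *ᵥ u) := by
    rw [PP_quad hw hs hs₀, ← pE_sum _ hq hs fun i _ => hFE2 i]
    refine pE_mono hq hs (EG.sum _ fun i _ => hFE2 i) (quadA_EG hw hs₀ u) (fun x => ?_) y
    have := quad_sq_le (Am_symm (w := w) (s₀ := s₀) x) (Am_nonneg hw.ex hs₀ x)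
      (Am_le hw.ex hc hw.slc hs₀ x) u
    simpa only [Am_apply] using this
  have e5 : ∀ i, pE q s (Fi i) y = ∑ j, u j * PP w s₀ s y i j := by
    intro i
    simp only [hFi]
    rw [pE_sum _ hq hs fun j _ => (Af_EG hw hs₀ i j).smul _]
    exact Finset.sum_congr rfl fun k _ => pE_smul _ _ _
  rw [e2]
  refine e3.trans ?_
  rw [← Finset.mul_sum, Finset.sum_sub_distrib]
  simp_rw [e5]
  simp only [Matrix.smul_mulVec, dotProduct_smul, smul_eq_mul]
  rw [quad_mul_one_sub (PP_symm y)]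
  have h6 := quad_sq_le (PP_symm (w := w) (s₀ := s₀) (s := s) y) (PP_nonneg hw hs hs₀ y)
    (PP_le hw hc hs hs₀ y) u
  have h7 : 1 / s ≤ 4 / h := by
    rw [div_le_div_iff₀ hs hh]
    linarith
  calc 1 / s * (∑ i, pE q s (fun x => Fi i x ^ 2) y - ∑ i, (∑ j, u j * PP w s₀ s y i j) ^ 2)
      ≤ 1 / s * (u ⬝ᵥ (PP w s₀ s y *ᵥ u) - ∑ i, (∑ j, u j * PP w s₀ s y i j) ^ 2) :=
        mul_le_mul_of_nonneg_left (by linarith) (by positivity)
    _ ≤ _ := mul_le_mul_of_nonneg_right h7 (by linarith)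

/-! ### `1 - P ≤ 2 h V''` -/

lemma norm_fderiv_sq (f : E n → ℝ) (x : E n) : ‖fderiv ℝ f x‖ ^ 2 = ∑ k, pd k f x ^ 2 := by
  set v : E n := (WithLp.equiv 2 _).symm fun k => pd k f x with hv
  have e : fderiv ℝ f x = innerSL ℝ v := by
    ext z
    rw [fderiv_eq_sum, innerSL_apply_apply, PiLp.inner_apply]
    exact Finset.sum_congr rfl fun i _ => by simp [hv]
  rw [e, innerSL_apply_norm, EuclideanSpace.norm_sq_eq]
  exact Finset.sum_congr rfl fun i _ => by simp [hv]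

lemma lin_Vg (hw : Ex w) (hs : 0 < s) (u : Fin n → ℝ) :
    Differentiable ℝ (fun x => ∑ k, u k * Vg w s k x) ∧
    ∀ l x, pd l (fun x => ∑ k, u k * Vg w s k x) x = ∑ k, u k * Vh w s x l k := by
  have h1 : ∀ k, Differentiable ℝ (Vg w s k) := fun k =>
    (Vg_contDiff hw hs k).differentiable (by simp)
  constructor
  · exact Differentiable.fun_sum fun k _ => (h1 k).const_mul _
  · intro l x
    unfold pd
    rw [fderiv_fun_sum fun k _ => ((h1 k).const_mul _) x]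
    simp only [_root_.sum_apply]
    refine Finset.sum_congr rfl fun k _ => ?_
    have e : fderiv ℝ (fun x => u k * Vg w s k x) x = u k • fderiv ℝ (Vg w s k) x :=
      fderiv_const_mul ((h1 k) x) (u k)
    rw [e]
    simp only [_root_.smul_apply, smul_eq_mul]
    rw [← pd_Vg hw hs l k x]
    rfl

theorem PP_hess (hw : Wt c R w) (hc : 0 ≤ c) (hs : 0 < s) (hs₀ : 0 < s₀) (h2 : 2 * s ≤ s₀)
    (y : E n) :
    LeQ (1 - PP w s₀ s y) ((2 * (s₀ + s)) • Vh w (s₀ + s) y) := by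
  intro u
  have hq := hw.ex.noisy hs₀
  have hqc : 0 ≤ c / (1 + c * s₀) := by positivity
  have hqs := slc_noisy hw.ex hc hw.slc hs₀
  have hh : 0 < s₀ + s := by positivity
  set q := Lp w s₀ (fun _ => 1) with hqd
  set f : E n → ℝ := fun x => ∑ k, u k * Vg w s₀ k x with hf
  obtain ⟨f1, f2⟩ := lin_Vg hw.ex hs₀ u
  have f2' : ∀ l x, pd l f x = ∑ k, u k * Vh w s₀ x l k := f2
  have huu : 0 ≤ u ⬝ᵥ u := Finset.sum_nonneg fun i _ => mul_self_nonneg _
  -- |D f|² = Σ_l (Σ_k u_k V₁''_{lk})²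
  have g1 : ∀ x, s₀ * ‖fderiv ℝ f x‖ ^ 2 ≤ u ⬝ᵥ (Vh w s₀ x *ᵥ u) := by
    intro x
    have a1 : ((s₀ • Vh w s₀ x))ᵀ = s₀ • Vh w s₀ x := by
      rw [Matrix.transpose_smul, Vh_symm]
    have a2 : LeQ 0 (s₀ • Vh w s₀ x) := by
      intro v
      have := Vh_ge hw.ex hc hw.slc hs₀ x v
      simp only [Matrix.zero_mulVec, dotProduct_zero, Matrix.smul_mulVec, Matrix.one_mulVec,
        dotProduct_smul, smul_eq_mul] at this ⊢
      have hv : 0 ≤ v ⬝ᵥ v := Finset.sum_nonneg fun i _ => mul_self_nonneg _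
      have : 0 ≤ c / (1 + c * s₀) * (v ⬝ᵥ v) := mul_nonneg hqc hv
      exact mul_nonneg hs₀.le (by linarith)
    have a3 : LeQ (s₀ • Vh w s₀ x) 1 := by
      intro v
      have := Vh_le hw.ex hs₀ x v
      simp only [Matrix.smul_mulVec, Matrix.one_mulVec, dotProduct_smul, smul_eq_mul] at this ⊢
      have h3 := mul_le_mul_of_nonneg_left this hs₀.le
      refine h3.trans (le_of_eq ?_)
      field_simp
    have a4 := quad_sq_le a1 a2 a3 u
    rw [norm_fderiv_sq]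
    simp only [f2']
    simp only [Matrix.smul_apply, smul_eq_mul, Matrix.smul_mulVec, dotProduct_smul] at a4
    have a5 : ∀ i, (∑ j, u j * (s₀ * Vh w s₀ x i j)) ^ 2 =
        s₀ ^ 2 * (∑ j, u j * Vh w s₀ x i j) ^ 2 := by
      intro i
      rw [← mul_pow, Finset.mul_sum]
      congr 1
      exact Finset.sum_congr rfl fun j _ => by ring
    simp_rw [a5] at a4
    rw [← Finset.mul_sum] at a4
    have a6 : s₀ * (s₀ * ∑ i, (∑ j, u j * Vh w s₀ x i j) ^ 2) ≤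
        s₀ * (u ⬝ᵥ (Vh w s₀ x *ᵥ u)) := by
      refine le_trans (le_of_eq ?_) a4
      ring
    exact le_of_mul_le_mul_left a6 hs₀
  -- Lipschitz
  have g2 : ∃ L : ℝ≥0, LipschitzWith L f := by
    refine ⟨Real.toNNReal √(1 / s₀ ^ 2 * (u ⬝ᵥ u)), ?_⟩
    refine lipschitzWith_of_nnnorm_fderiv_le f1 fun x => ?_
    rw [← NNReal.coe_le_coe, Real.coe_toNNReal _ (Real.sqrt_nonneg _), coe_nnnorm]
    apply Real.le_sqrt_of_sq_le
    have a1 := g1 x
    have a2 := Vh_le hw.ex hs₀ x u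
    simp only [Matrix.smul_mulVec, Matrix.one_mulVec, dotProduct_smul, smul_eq_mul] at a2
    have a3 : s₀ * ‖fderiv ℝ f x‖ ^ 2 ≤ 1 / s₀ * (u ⬝ᵥ u) := a1.trans a2
    have a4 : s₀ * (1 / s₀ ^ 2 * (u ⬝ᵥ u)) = 1 / s₀ * (u ⬝ᵥ u) := by field_simp
    rw [← a4] at a3
    exact le_of_mul_le_mul_left a3 hs₀
  obtain ⟨L, hL⟩ := g2
  have key := post_poincare hq hqc hqs hs hL y
  have hVE : EG fun x => u ⬝ᵥ (Vh w s₀ x *ᵥ u) := by
    have e : (fun x => u ⬝ᵥ (Vh w s₀ x *ᵥ u)) =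
        fun x => 1 / s₀ * (u ⬝ᵥ u - 1 / s₀ * (u ⬝ᵥ (pC w s₀ x *ᵥ u))) := by
      funext x; exact Vh_quad w s₀ x u
    rw [e]
    exact ((EG.const _).sub ((EG.quad hw hs₀ u).smul _)).smul _
  have hDE : EG fun x => ‖fderiv ℝ f x‖ ^ 2 := by
    have mm : Measurable fun x => ‖fderiv ℝ f x‖ ^ 2 := by
      have : (fun x => ‖fderiv ℝ f x‖ ^ 2) = fun x => ∑ k, (∑ j, u j * Vh w s₀ x k j) ^ 2 := by
        funext x; rw [norm_fderiv_sq]; simp only [f2']
      rw [this]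
      refine Finset.measurable_sum _ fun k _ => (Finset.measurable_sum _ fun j _ => ?_).pow_const 2
      have e2 : (fun x => u j * Vh w s₀ x k j) = fun x => u j * pd k (Vg w s₀ j) x := by
        funext x; rw [pd_Vg hw.ex hs₀]
      rw [e2]
      have e3 : Continuous fun x => pd k (Vg w s₀ j) x := by
        unfold pd
        exact ((Vg_contDiff hw.ex hs₀ j).continuous_fderiv (by simp)).clm_apply continuous_const
      exact (e3.measurable).const_mul _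
    refine EG.of_bdd mm (C := (L : ℝ) ^ 2) fun x => ?_
    rw [abs_of_nonneg (sq_nonneg _)]
    exact pow_le_pow_left₀ (norm_nonneg _) (norm_fderiv_le_of_lipschitz ℝ hL) 2
  -- pE |Df|² ≤ (1/s₀) pE ⟨V₁''u,u⟩
  have k1 : s₀ * pE q s (fun x => ‖fderiv ℝ f x‖ ^ 2) y ≤
      pE q s (fun x => u ⬝ᵥ (Vh w s₀ x *ᵥ u)) y := by
    rw [← pE_smul]
    exact pE_mono hq hs (hDE.smul s₀) hVE g1 y
  have k2 : pE q s (fun x => u ⬝ᵥ (Vh w s₀ x *ᵥ u)) y =
      1 / s₀ * (u ⬝ᵥ u - 1 / s₀ * pE q s (fun x => u ⬝ᵥ (pC w s₀ x *ᵥ u)) y) := by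
    have e : (fun x => u ⬝ᵥ (Vh w s₀ x *ᵥ u)) =
        fun x => 1 / s₀ * (u ⬝ᵥ u - 1 / s₀ * (u ⬝ᵥ (pC w s₀ x *ᵥ u))) := by
      funext x; exact Vh_quad w s₀ x u
    rw [e, pE_smul, pE_sub hq hs (EG.const _) ((EG.quad hw hs₀ u).smul _), pE_const hq hs, pE_smul]
  have k3 := total_cov hw hs hs₀ u y
  have k4 : u ⬝ᵥ (PP w s₀ s y *ᵥ u) = 1 / s₀ * pE q s (fun x => u ⬝ᵥ (pC w s₀ x *ᵥ u)) y := by
    rw [PP_quad hw hs hs₀, ← pE_smul]
    congr 1
    funext x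
    simp only [Am, Matrix.smul_mulVec, dotProduct_smul, smul_eq_mul]
  have k5 : s / (1 + c / (1 + c * s₀) * s) ≤ s :=
    div_le_self hs.le (by nlinarith [mul_nonneg hqc hs.le])
  have k6 : 0 ≤ pE q s (fun x => ‖fderiv ℝ f x‖ ^ 2) y :=
    pE_nonneg hq hs (fun x => sq_nonneg _) y
  set X := u ⬝ᵥ (Vh w (s₀ + s) y *ᵥ u) with hX
  set W := pE q s (fun x => f x ^ 2) y - pE q s f y ^ 2 with hW
  set T := pE q s (fun x => ‖fderiv ℝ f x‖ ^ 2) y with hT
  set J := pE q s (fun x => u ⬝ᵥ (Vh w s₀ x *ᵥ u)) y with hJ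
  have m1 : W ≤ s * T := key.trans (mul_le_mul_of_nonneg_right k5 k6)
  change u ⬝ᵥ u - 1 / s₀ * pE q s (fun x => u ⬝ᵥ (pC w s₀ x *ᵥ u)) y = s₀ * (X + W) at k3
  rw [k3] at k2
  have m2 : J = X + W := by
    rw [k2]
    field_simp
  have m3 : 2 * W ≤ J := by
    have : 2 * (s * T) ≤ s₀ * T := by nlinarith
    linarith
  have hX0 : 0 ≤ X := by
    have := Vh_ge hw.ex hc hw.slc hh y u
    simp only [Matrix.smul_mulVec, Matrix.one_mulVec, dotProduct_smul, smul_eq_mul] at this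
    have h5 : 0 ≤ c / (1 + c * (s₀ + s)) * (u ⬝ᵥ u) := by positivity
    linarith
  have m4 : u ⬝ᵥ ((1 - PP w s₀ s y) *ᵥ u) = s₀ * (X + W) := by
    rw [Matrix.sub_mulVec, Matrix.one_mulVec, dotProduct_sub, k4, k3]
  rw [m4]
  simp only [Matrix.smul_mulVec, dotProduct_smul, smul_eq_mul]
  have m5 : X + W ≤ 2 * X := by linarith
  calc s₀ * (X + W) ≤ s₀ * (2 * X) := mul_le_mul_of_nonneg_left m5 hs₀.le
    _ ≤ 2 * (s₀ + s) * X := by nlinarith

end Crest.Agent.R201.An
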