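import Crest.Agent.R201.An6_293

/-!
# R201 AN-7: the measures, integration by parts, mean bounds (helper293)
-/

set_option autoImplicit false
open MeasureTheory Matrix Filter Topology
open scoped ContDiff RealInnerProductSpace NNReal ENNReal

namespace Crest.Agent.R201.An

open Crest.Agent.R201 Crest.Agent.R144.Fi865

variable {n : ℕ} {w ρ F G : E n → ℝ} {s s₀ c R : ℝ}

/-- normalised measure of a weight -/
noncomputable def nm (ρ : E n → ℝ) : Measure (E n) :=
  volume.withDensity fun y => ENNReal.ofReal (ρ y / ∫ z, ρ z)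

/-- expectation -/
noncomputable def Em (ρ F : E n → ℝ) : ℝ := (∫ y, F y * ρ y) / ∫ z, ρ z

lemma Ex.integrable (hρ : Ex ρ) : Integrable ρ := by simpa using hρ.int 0

lemma nm_dens_meas (hρ : Ex ρ) : Measurable fun y => ENNReal.ofReal (ρ y / ∫ z, ρ z) :=
  (hρ.meas.div_const _).ennreal_ofReal

lemma int_nm (hρ : Ex ρ) (F : E n → ℝ) : ∫ y, F y ∂(nm ρ) = Em ρ F := by
  unfold nm Em
  rw [integral_withDensity_eq_integral_toReal_smul (nm_dens_meas hρ)
    (ae_of_all _ fun x => ENNReal.ofReal_lt_top), ← integral_div]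
  refine integral_congr_ae (ae_of_all _ fun y => ?_)
  simp only [smul_eq_mul]
  rw [ENNReal.toReal_ofReal (div_nonneg (hρ.nonneg y) hρ.pos.le)]
  ring

lemma integrable_nm_iff (hρ : Ex ρ) {F : E n → ℝ} :
    Integrable F (nm ρ) ↔ Integrable fun y => F y * ρ y := by
  unfold nm
  rw [integrable_withDensity_iff_integrable_smul' (nm_dens_meas hρ)
    (ae_of_all _ fun x => ENNReal.ofReal_lt_top)]
  have e : (fun y => (ENNReal.ofReal (ρ y / ∫ z, ρ z)).toReal • F y) =
      fun y => (∫ z, ρ z)⁻¹ * (F y * ρ y) := by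
    funext y
    rw [ENNReal.toReal_ofReal (div_nonneg (hρ.nonneg y) hρ.pos.le), smul_eq_mul]
    ring
  rw [e]
  constructor
  · intro h
    have := h.const_mul (∫ z, ρ z)
    refine this.congr (ae_of_all _ fun y => ?_)
    have h0 := hρ.pos.ne'
    simp only
    field_simp
  · intro h; exact h.const_mul _

lemma integrable_nm (hρ : Ex ρ) (hF : EG F) : Integrable F (nm ρ) :=
  (integrable_nm_iff hρ).2 (hρ.int_mul hF)

lemma nm_prob (hρ : Ex ρ) : IsProbabilityMeasure (nm ρ) := by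
  constructor
  unfold nm
  rw [withDensity_apply _ MeasurableSet.univ, Measure.restrict_univ,
    ← ofReal_integral_eq_lintegral_ofReal (hρ.integrable.div_const _)
      (ae_of_all _ fun y => div_nonneg (hρ.nonneg y) hρ.pos.le), integral_div,
    div_self hρ.pos.ne', ENNReal.ofReal_one]

lemma memLp_nm (hρ : Ex ρ) (hF : EG F) : MemLp F 2 (nm ρ) := by
  rw [memLp_two_iff_integrable_sq hF.1.aestronglyMeasurable]
  have : EG fun x => F x ^ 2 := by simpa [sq] using hF.mul hF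
  exact integrable_nm hρ this

lemma Em_add (hρ : Ex ρ) (hF : EG F) (hG : EG G) :
    Em ρ (fun x => F x + G x) = Em ρ F + Em ρ G := by
  unfold Em
  rw [← add_div, ← integral_add (hρ.int_mul hF) (hρ.int_mul hG)]
  congr 1
  exact integral_congr_ae (ae_of_all _ fun y => by simp only; ring)

lemma Em_sub (hρ : Ex ρ) (hF : EG F) (hG : EG G) :
    Em ρ (fun x => F x - G x) = Em ρ F - Em ρ G := by
  unfold Em
  rw [← sub_div, ← integral_sub (hρ.int_mul hF) (hρ.int_mul hG)]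
  congr 1
  exact integral_congr_ae (ae_of_all _ fun y => by simp only; ring)

lemma Em_smul (ρ : E n → ℝ) (a : ℝ) (F : E n → ℝ) : Em ρ (fun x => a * F x) = a * Em ρ F := by
  unfold Em
  rw [← mul_div_assoc, ← integral_const_mul]
  congr 1
  exact integral_congr_ae (ae_of_all _ fun y => by simp only; ring)

lemma Em_const (hρ : Ex ρ) (a : ℝ) : Em ρ (fun _ => a) = a := by
  unfold Em
  rw [integral_const_mul]
  exact mul_div_cancel_right₀ _ hρ.pos.ne'

lemma Em_sum {ι : Type*} (S : Finset ι) {F : ι → E n → ℝ} (hρ : Ex ρ) (h : ∀ i ∈ S, EG (F i)) :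
    Em ρ (fun x => ∑ i ∈ S, F i x) = ∑ i ∈ S, Em ρ (F i) := by
  unfold Em
  rw [← Finset.sum_div, ← integral_finsetSum S fun i hi => hρ.int_mul (h i hi)]
  congr 1
  exact integral_congr_ae (ae_of_all _ fun y => by simp only [Finset.sum_mul])

lemma Em_nonneg (hρ : Ex ρ) (h : ∀ x, 0 ≤ F x) : 0 ≤ Em ρ F :=
  div_nonneg (integral_nonneg fun x => mul_nonneg (h x) (hρ.nonneg x)) hρ.pos.le

lemma Em_mono (hρ : Ex ρ) (hF : EG F) (hG : EG G) (h : ∀ x, F x ≤ G x) : Em ρ F ≤ Em ρ G :=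
  div_le_div_of_nonneg_right (integral_mono (hρ.int_mul hF) (hρ.int_mul hG)
    fun x => mul_le_mul_of_nonneg_right (h x) (hρ.nonneg x)) hρ.pos.le

lemma Em_sq_le (hρ : Ex ρ) (hF : EG F) : (Em ρ F) ^ 2 ≤ Em ρ (fun x => F x ^ 2) := by
  set m := Em ρ F with hm
  have hF2 : EG fun x => F x ^ 2 := by simpa [sq] using hF.mul hF
  have h1 : 0 ≤ Em ρ (fun x => (F x - m) ^ 2) := Em_nonneg hρ fun x => sq_nonneg _
  have e : (fun x => (F x - m) ^ 2) = fun x => (F x ^ 2 - 2 * m * F x) + m ^ 2 := by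
    funext x; ring
  rw [e, Em_add hρ (hF2.sub (hF.smul _)) (EG.const _), Em_sub hρ hF2 (hF.smul _), Em_smul,
    Em_const hρ, ← hm] at h1
  nlinarith

lemma int_noisy (hw : Ex w) (hs : 0 < s) :
    ∫ y, Lp w s (fun _ => 1) y = (∫ z : E n, gk s z) * ∫ x, w x := by
  have h := int_pE hw hs (EG.const 1)
  have e : pE w s (fun _ => 1) = fun _ => 1 := funext fun y => pE_const hw hs 1 y
  rw [e] at h
  simpa using h

/-- `E[E[F(X)|Y]] = E F(X)` -/
lemma Em_pE (hw : Ex w) (hs : 0 < s) (hF : EG F) :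
    Em (Lp w s fun _ => 1) (pE w s F) = Em w F := by
  unfold Em
  rw [int_pE hw hs hF, int_noisy hw hs]
  exact mul_div_mul_left _ _ (gk_int_pos hs).ne'

lemma Em_noisy (hw : Ex w) (hs : 0 < s) (hs₀ : 0 < s₀) (F : E n → ℝ) :
    Em (Lp w (s₀ + s) fun _ => 1) F = Em (Lp (Lp w s₀ fun _ => 1) s fun _ => 1) F := by
  unfold Em
  have h1 := gC_pos (n := n) hs hs₀
  simp_rw [Lp_noisy_one hw hs hs₀]
  rw [integral_const_mul]
  have e : ∫ y, F y * (gC n s₀ s * Lp w (s₀ + s) (fun _ => 1) y) =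
      gC n s₀ s * ∫ y, F y * Lp w (s₀ + s) (fun _ => 1) y := by
    rw [← integral_const_mul]
    exact integral_congr_ae (ae_of_all _ fun y => by simp only; ring)
  rw [e, mul_div_mul_left _ _ h1.ne']

/-! ### integration by parts -/

lemma pd_noisy (hw : Ex w) (hs : 0 < s) (k : Fin n) (y : E n) :
    pd k (Lp w s fun _ => 1) y = -(Vg w s k y * Lp w s (fun _ => 1) y) := by
  rw [pd_Lp hw hs (EG.const 1)]
  have h0 := (Lp_one_pos hw hs y).ne'
  unfold Vg pE
  simp only [one_mul]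
  field_simp
  ring

theorem ibp_EG (hw : Wt c R w) (hs : 0 < s) (k : Fin n) (hF : Differentiable ℝ F) (h0 : EG F)
    (h1 : EG (pd k F)) :
    Em (Lp w s fun _ => 1) (fun x => Vg w s k x * F x) = Em (Lp w s fun _ => 1) (pd k F) := by
  have hρ := hw.ex.noisy hs
  have key := integral_mul_fderiv_eq_neg_fderiv_mul_of_integrable (μ := (volume : Measure (E n)))
    (f := F) (g := Lp w s fun _ => 1) (v := EuclideanSpace.single k (1 : ℝ))
    (hρ.int_mul h1) ?_ (hρ.int_mul h0) (fun x _ => hF x)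
    (fun x _ => ((contDiff_Lp_infty hw.ex hs (EG.const 1)).differentiable (by simp)) x)
  · unfold Em
    congr 1
    change ∫ x, F x * pd k (Lp w s fun _ => 1) x = -∫ x, pd k F x * Lp w s (fun _ => 1) x at key
    rw [← neg_eq_iff_eq_neg] at key
    rw [← key, ← integral_neg]
    refine integral_congr_ae (ae_of_all _ fun x => ?_)
    simp only
    rw [pd_noisy hw.ex hs]
    ring
  · change Integrable fun x => F x * pd k (Lp w s fun _ => 1) x
    have e : (fun x => F x * pd k (Lp w s fun _ => 1) x) =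
        fun x => (-(Vg w s k x * F x)) * Lp w s (fun _ => 1) x := by
      funext x
      rw [pd_noisy hw.ex hs]
      ring
    rw [e]
    exact hρ.int_mul ((EG.Vg hw hs k).mul h0).neg

lemma CB.eg {f : E n → ℝ} (hf : CB f) : EG f ∧ ∀ k, EG (pd k f) := by
  obtain ⟨h1, B, hB⟩ := hf
  refine ⟨EG.of_bdd h1.continuous.measurable fun x => (hB x).1, fun k => ?_⟩
  refine EG.of_bdd ?_ fun x => (hB x).2 k
  unfold pd
  exact ((h1.continuous_fderiv (by simp)).clm_apply continuous_const).measurable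

/-! ### variances -/

/-- variance of `⟨u, X⟩` -/
noncomputable def vX (w : E n → ℝ) (u : Fin n → ℝ) : ℝ :=
  Em w (fun x => (∑ i, u i * x i) ^ 2) - (Em w fun x => ∑ i, u i * x i) ^ 2

/-- `E ⟨u, Cov(X|Y) u⟩ ≤ Var ⟨u,X⟩` -/
lemma Em_pC_le (hw : Wt c R w) (hs : 0 < s) (u : Fin n → ℝ) :
    Em (Lp w s fun _ => 1) (fun y => u ⬝ᵥ (pC w s y *ᵥ u)) ≤ vX w u := by
  have hρ := hw.ex.noisy hs
  have hL : EG fun x : E n => ∑ i, u i * x i := EG.lin u
  have hL2 : EG fun x : E n => (∑ i, u i * x i) ^ 2 := by simpa [sq] using hL.mul hL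
  have hM := EG.pE hw hs hL
  have hM2 : EG fun y => pE w s (fun x => ∑ i, u i * x i) y ^ 2 := by simpa [sq] using hM.mul hM
  simp_rw [pC_quad hw.ex hs]
  rw [Em_sub hρ (EG.pE hw hs hL2) hM2, Em_pE hw.ex hs hL2]
  have h1 := Em_sq_le hρ hM
  rw [Em_pE hw.ex hs hL] at h1
  unfold vX
  linarith

/-- `E (E[⟨u,X⟩|Y])² - (E ⟨u,X⟩)² ≤ Var ⟨u, X⟩` -/
lemma Em_mean_le (hw : Wt c R w) (hs : 0 < s) (u : Fin n → ℝ) :
    Em (Lp w s fun _ => 1) (fun y => pE w s (fun x => ∑ i, u i * x i) y ^ 2) -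
      (Em w fun x => ∑ i, u i * x i) ^ 2 ≤ vX w u := by
  have hρ := hw.ex.noisy hs
  have hL : EG fun x : E n => ∑ i, u i * x i := EG.lin u
  have hL2 : EG fun x : E n => (∑ i, u i * x i) ^ 2 := by simpa [sq] using hL.mul hL
  have hM := EG.pE hw hs hL
  have hM2 : EG fun y => pE w s (fun x => ∑ i, u i * x i) y ^ 2 := by simpa [sq] using hM.mul hM
  have h1 := Em_mono hρ hM2 (EG.pE hw hs hL2) (fun y => pE_sq_le hw.ex hs hL y)
  rw [Em_pE hw.ex hs hL2] at h1
  unfold vX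
  linarith

lemma quad_int {A : E n → Mt n} (hρ : Ex ρ) (hA : ∀ i j, EG fun x => A x i j) (u : Fin n → ℝ) :
    u ⬝ᵥ ((Matrix.of fun i j => ∫ x, A x i j ∂(nm ρ)) *ᵥ u) =
      Em ρ (fun x => u ⬝ᵥ (A x *ᵥ u)) := by
  rw [quad_sum]
  simp_rw [quad_sum, Matrix.of_apply, int_nm hρ]
  rw [Em_sum _ hρ fun k _ => EG.sum _ fun l _ => (hA l k).smul _]
  refine Finset.sum_congr rfl fun k _ => ?_
  rw [Em_sum _ hρ fun l _ => (hA l k).smul _]
  exact Finset.sum_congr rfl fun l _ => (Em_smul _ _ _).symm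

theorem PP_mean (hw : Wt c R w) (hc : 0 ≤ c) (hs : 0 < s) (hs₀ : 0 < s₀) {σ : ℝ}
    (hσ : ∀ u, vX w u ≤ σ * (u ⬝ᵥ u)) :
    LeQ (Matrix.of fun i j => ∫ x, PP w s₀ s x i j ∂(nm (Lp w (s₀ + s) fun _ => 1)))
      ((σ / s₀) • (1 : Mt n)) := by
  intro u
  have hρ := hw.ex.noisy (by positivity : 0 < s₀ + s)
  have hq := hw.ex.noisy hs₀
  rw [quad_int hρ fun i j => (CB.eg (PP_cb hw hc hs hs₀ i j)).1, Em_noisy hw.ex hs hs₀]
  simp_rw [PP_quad hw hs hs₀]
  rw [Em_pE hq hs (quadA_EG hw hs₀ u)]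
  have e : (fun x => u ⬝ᵥ (Am w s₀ x *ᵥ u)) = fun x => 1 / s₀ * (u ⬝ᵥ (pC w s₀ x *ᵥ u)) := by
    funext x
    simp only [Am, Matrix.smul_mulVec, dotProduct_smul, smul_eq_mul]
  rw [e, Em_smul]
  simp only [Matrix.smul_mulVec, Matrix.one_mulVec, dotProduct_smul, smul_eq_mul]
  have h1 := (Em_pC_le hw hs₀ u).trans (hσ u)
  calc 1 / s₀ * Em (Lp w s₀ fun _ => 1) (fun x => u ⬝ᵥ (pC w s₀ x *ᵥ u))
      ≤ 1 / s₀ * (σ * (u ⬝ᵥ u)) := mul_le_mul_of_nonneg_left h1 (by positivity)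
    _ = _ := by ring

/-! ### the fields `r`, `ω` -/

/-- `r = E[X|Y] - E X` -/
noncomputable def rr (w : E n → ℝ) (h : ℝ) (k : Fin n) (y : E n) : ℝ :=
  pE w h (fun x => x k) y - Em w fun x => x k

/-- `ω = Y - E X` -/
noncomputable def om (w : E n → ℝ) (k : Fin n) (y : E n) : ℝ := y k - Em w fun x => x k

lemma om_eq (hs : 0 < s) (k : Fin n) (y : E n) : om w k y = rr w s k y + s * Vg w s k y := by
  unfold om rr Vg
  field_simp
  ring

lemma pd_rr (hw : Ex w) (hs : 0 < s) (k j : Fin n) (y : E n) :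
    pd j (rr w s k) y = (if j = k then 1 else 0) - s * Vh w s y j k := by
  have e : rr w s k = fun y => pE w s (fun x => x k) y - Em w fun x => x k := rfl
  rw [e, pd_sub_const, pd_pE hw hs (EG.coord k)]
  simp only [Vh, pC, Matrix.smul_apply, Matrix.sub_apply, Matrix.one_apply, Matrix.of_apply,
    smul_eq_mul]
  have e3 : (fun x : E n => x k * x j) = fun x => x j * x k := by funext x; ring
  rw [e3]
  split_ifs
  · field_simp
    ring
  · field_simp
    ring

lemma Vh_bdd (hw : Wt c R w) (hs : 0 < s) (i j : Fin n) :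
    ∃ B : ℝ, ∀ x, |Vh w s x i j| ≤ B := by
  obtain ⟨B, hB⟩ := pC_bdd hw hs i j
  refine ⟨1 / s * (1 + 1 / s * B), fun x => ?_⟩
  simp only [Vh, Matrix.smul_apply, Matrix.sub_apply, Matrix.one_apply, smul_eq_mul]
  rw [abs_mul, abs_of_pos (by positivity : (0 : ℝ) < 1 / s)]
  refine mul_le_mul_of_nonneg_left ((abs_sub _ _).trans (add_le_add ?_ ?_)) (by positivity)
  · split_ifs <;> simp
  · rw [abs_mul, abs_of_pos (by positivity : (0 : ℝ) < 1 / s)]
    exact mul_le_mul_of_nonneg_left (hB x) (by positivity)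

lemma Vh_cont (hw : Ex w) (hs : 0 < s) (i j : Fin n) : Continuous fun x => Vh w s x i j := by
  have e : (fun x => Vh w s x i j) = pd i (Vg w s j) := by
    funext x; rw [pd_Vg hw hs]
  rw [e]
  unfold pd
  exact ((Vg_contDiff hw hs j).continuous_fderiv (by simp)).clm_apply continuous_const

lemma rr_cb (hw : Wt c R w) (hs : 0 < s) (k : Fin n) : CB (rr w s k) := by
  obtain ⟨B, hB⟩ := pE_bdd' hw hs (EG.coord k)
  have h2 : ∀ j : Fin n, ∃ B : ℝ, ∀ x, |pd j (rr w s k) x| ≤ B := fun j => by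
    obtain ⟨B', hB'⟩ := Vh_bdd hw hs j k
    refine ⟨1 + s * B', fun x => ?_⟩
    rw [pd_rr hw.ex hs]
    refine (abs_sub _ _).trans (add_le_add ?_ ?_)
    · split_ifs <;> simp
    · rw [abs_mul, abs_of_pos hs]
      exact mul_le_mul_of_nonneg_left (hB' x) hs.le
  choose C hC using h2
  refine ⟨((contDiff_pE hw.ex hs (EG.coord k)).sub contDiff_const).of_le (by norm_cast),
    (B + |Em w fun x => x k|) + ∑ j, |C j|, fun x => ⟨?_, fun j => ?_⟩⟩
  · have h1 : |rr w s k x| ≤ B + |Em w fun x => x k| :=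
      (abs_sub _ _).trans (add_le_add (hB x) le_rfl)
    have h3 : 0 ≤ ∑ j, |C j| := Finset.sum_nonneg fun _ _ => abs_nonneg _
    linarith
  · have h3 : |C j| ≤ ∑ j, |C j| :=
      Finset.single_le_sum (f := fun k => |C k|) (fun _ _ => abs_nonneg _) (Finset.mem_univ j)
    have h4 : 0 ≤ B := (abs_nonneg _).trans (hB x)
    have h5 := hC j x
    have h6 := le_abs_self (C j)
    have h7 := abs_nonneg (Em w fun x => x k)
    linarith

lemma rr_mean (hw : Wt c R w) (hs : 0 < s) (k : Fin n) :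
    ∫ x, rr w s k x ∂(nm (Lp w s fun _ => 1)) = 0 := by
  have hρ := hw.ex.noisy hs
  rw [int_nm hρ]
  have e : rr w s k = fun y => pE w s (fun x => x k) y - Em w fun x => x k := rfl
  rw [e, Em_sub hρ (EG.pE hw hs (EG.coord k)) (EG.const _), Em_const hρ, Em_pE hw.ex hs (EG.coord k),
    sub_self]

theorem r_sq (hw : Wt c R w) (hc : 0 ≤ c) (hs : 0 < s) {σ : ℝ}
    (hσ : ∀ u, vX w u ≤ σ * (u ⬝ᵥ u)) :
    LeQ (Matrix.of fun i j => ∫ x, ((1 - s • Vh w s x) * (1 - s • Vh w s x)) i j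
      ∂(nm (Lp w s fun _ => 1))) ((σ / s) • (1 : Mt n)) := by
  intro u
  have hρ := hw.ex.noisy hs
  have e0 : ∀ x, 1 - s • Vh w s x = Am w s x := by
    intro x
    ext i j
    simp only [Vh, Am, Matrix.sub_apply, Matrix.smul_apply, smul_eq_mul]
    field_simp
    ring
  simp_rw [e0]
  have hE : ∀ i j, EG fun x => (Am w s x * Am w s x) i j := by
    intro i j
    simp only [Matrix.mul_apply, Am_apply]
    exact EG.sum _ fun k _ => (Af_EG hw hs i k).mul (Af_EG hw hs k j)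
  rw [quad_int hρ hE]
  have h1 : Em (Lp w s fun _ => 1) (fun x => u ⬝ᵥ ((Am w s x * Am w s x) *ᵥ u)) ≤
      Em (Lp w s fun _ => 1) (fun x => u ⬝ᵥ (Am w s x *ᵥ u)) := by
    refine Em_mono hρ ?_ (quadA_EG hw hs u) fun x => ?_
    · simp_rw [quad_sum]
      exact EG.sum _ fun k _ => EG.sum _ fun l _ => (hE l k).smul _
    · rw [quad_mul_self (Am_symm x)]
      exact quad_sq_le (Am_symm x) (Am_nonneg hw.ex hs x) (Am_le hw.ex hc hw.slc hs x) u
  refine h1.trans ?_
  have e : (fun x => u ⬝ᵥ (Am w s x *ᵥ u)) = fun x => 1 / s * (u ⬝ᵥ (pC w s x *ᵥ u)) := by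
    funext x
    simp only [Am, Matrix.smul_mulVec, dotProduct_smul, smul_eq_mul]
  rw [e, Em_smul]
  simp only [Matrix.smul_mulVec, Matrix.one_mulVec, dotProduct_smul, smul_eq_mul]
  have h1 := (Em_pC_le hw hs u).trans (hσ u)
  calc 1 / s * Em (Lp w s fun _ => 1) (fun x => u ⬝ᵥ (pC w s x *ᵥ u))
      ≤ 1 / s * (σ * (u ⬝ᵥ u)) := mul_le_mul_of_nonneg_left h1 (by positivity)
    _ = _ := by ring

lemma om_EG (k : Fin n) : EG (om w k) := (EG.coord k).sub (EG.const _)

/-- `E ⟨b, ω⟩² ≤ (σ + 2 s)|b|²` -/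
lemma om_var (hw : Wt c R w) (hs : 0 < s) {σ : ℝ} (hσ : ∀ u, vX w u ≤ σ * (u ⬝ᵥ u))
    (b : Fin n → ℝ) :
    Em (Lp w s fun _ => 1) (fun y => (∑ k, b k * om w k y) ^ 2) ≤ (σ + 2 * s) * (b ⬝ᵥ b) := by
  have hρ := hw.ex.noisy hs
  set ρ := Lp w s (fun _ => 1) with hρd
  set W : E n → ℝ := fun y => ∑ k, b k * om w k y with hW
  set Bv : E n → ℝ := fun y => ∑ k, b k * Vg w s k y with hBv
  set L : E n → ℝ := fun x => ∑ k, b k * x k with hL
  set m := Em w L with hm
  set Br : E n → ℝ := fun y => pE w s L y - m with hBr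
  have hLE : EG L := EG.lin b
  have hWE : EG W := EG.sum _ fun k _ => (om_EG k).smul _
  have hBvE : EG Bv := EG.sum _ fun k _ => (EG.Vg hw hs k).smul _
  have hBrE : EG Br := (EG.pE hw hs hLE).sub (EG.const _)
  have hW2 : EG fun x => W x ^ 2 := by simpa [sq] using hWE.mul hWE
  have hBr2 : EG fun x => Br x ^ 2 := by simpa [sq] using hBrE.mul hBrE
  have e1 : ∀ y, W y = Br y + s * Bv y := by
    intro y
    simp only [hW, hBr, hBv]
    rw [pE_lin hw.ex hs, hm, hL, Em_sum _ hw.ex fun k _ => (EG.coord k).smul _, Finset.mul_sum,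
      ← Finset.sum_sub_distrib, ← Finset.sum_add_distrib]
    refine Finset.sum_congr rfl fun k _ => ?_
    rw [Em_smul, om_eq hs]
    unfold rr
    ring
  have hWd : Differentiable ℝ W := by
    refine Differentiable.fun_sum fun k _ => (Differentiable.const_mul ?_ _)
    exact ((EuclideanSpace.proj k : E n →L[ℝ] ℝ).differentiable.sub_const _)
  have e2 : ∀ k y, pd k W y = b k := by
    intro k y
    have hd : ∀ j : Fin n, DifferentiableAt ℝ (fun y : E n => om w j y) y := fun j =>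
      ((EuclideanSpace.proj j : E n →L[ℝ] ℝ).differentiable.sub_const _) y
    unfold pd
    rw [hW, fderiv_fun_sum fun j _ => (hd j).const_mul _]
    simp only [_root_.sum_apply]
    have e3 : ∀ j : Fin n, (fderiv ℝ (fun y => b j * om w j y) y) (EuclideanSpace.single k (1 : ℝ)) =
        b j * (if k = j then 1 else 0) := by
      intro j
      have e : fderiv ℝ (fun x => b j * om w j x) y = b j • fderiv ℝ (fun y => om w j y) y :=
        fderiv_const_mul (hd j) (b j)
      rw [e]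
      simp only [_root_.smul_apply, smul_eq_mul]
      congr 1
      have e4 : fderiv ℝ (fun y : E n => om w j y) y = fderiv ℝ (fun y : E n => y j) y := by
        unfold om
        rw [fderiv_sub_const]
      rw [e4]
      exact pd_coord k j y
    simp_rw [e3]
    simp
  have hpd : ∀ k, EG (pd k W) := fun k => by
    have : pd k W = fun _ => b k := funext (e2 k)
    rw [this]; exact EG.const _
  have e5 : Em ρ (fun y => W y * Bv y) = b ⬝ᵥ b := by
    have : (fun y => W y * Bv y) = fun y => ∑ k, b k * (Vg w s k y * W y) := by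
      funext y
      simp only [hBv, Finset.mul_sum]
      exact Finset.sum_congr rfl fun k _ => by ring
    rw [this, Em_sum _ hρ fun k _ => ((EG.Vg hw hs k).mul hWE).smul _]
    refine Finset.sum_congr rfl fun k _ => ?_
    rw [Em_smul, ibp_EG hw hs k hWd hWE (hpd k)]
    have : pd k W = fun _ => b k := funext (e2 k)
    rw [this, Em_const hρ]
  have e6 : Em ρ (fun y => W y ^ 2) = Em ρ (fun y => W y * Br y) + s * (b ⬝ᵥ b) := by
    have : (fun y => W y ^ 2) = fun y => W y * Br y + s * (W y * Bv y) := by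
      funext y
      have := e1 y
      calc W y ^ 2 = W y * W y := by ring
        _ = W y * (Br y + s * Bv y) := by rw [← this]
        _ = _ := by ring
    rw [this, Em_add hρ (hWE.mul hBrE) ((hWE.mul hBvE).smul _), Em_smul, e5]
  have e7 : Em ρ (fun y => W y * Br y) ≤ Em ρ (fun y => 1 / 2 * W y ^ 2 + 1 / 2 * Br y ^ 2) := by
    refine Em_mono hρ (hWE.mul hBrE) ((hW2.smul _).add (hBr2.smul _)) fun x => ?_
    nlinarith [sq_nonneg (W x - Br x)]
  rw [Em_add hρ (hW2.smul _) (hBr2.smul _), Em_smul, Em_smul] at e7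
  have e8 : Em ρ (fun y => Br y ^ 2) ≤ vX w b := by
    have h1 := Em_mean_le hw hs b
    have h2 : Em ρ (fun y => Br y ^ 2) =
        Em ρ (fun y => pE w s L y ^ 2) - m ^ 2 := by
      have h3 : (fun y => Br y ^ 2) = fun y => (pE w s L y ^ 2 - 2 * m * pE w s L y) + m ^ 2 := by
        funext y; simp only [hBr]; ring
      have hM := EG.pE hw hs hLE
      have hM2 : EG fun y => pE w s L y ^ 2 := by simpa [sq] using hM.mul hM
      rw [h3, Em_add hρ (hM2.sub (hM.smul _)) (EG.const _), Em_sub hρ hM2 (hM.smul _), Em_smul,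
        Em_const hρ, Em_pE hw.ex hs hLE, ← hm]
      ring
    rw [h2]
    exact h1
  have e9 := hσ b
  have : (σ + 2 * s) * (b ⬝ᵥ b) = σ * (b ⬝ᵥ b) + 2 * s * (b ⬝ᵥ b) := by ring
  rw [this]
  linarith

theorem om_le (hw : Wt c R w) (hs : 0 < s) {σ : ℝ} (hσ0 : 0 ≤ σ)
    (hσ : ∀ u, vX w u ≤ σ * (u ⬝ᵥ u)) (f : E n → ℝ) (hf : MemLp f 2 (nm (Lp w s fun _ => 1))) :
    ∑ k, (∫ x, om w k x * f x ∂(nm (Lp w s fun _ => 1))) ^ 2 ≤
      (σ + 2 * s) * ∫ x, f x ^ 2 ∂(nm (Lp w s fun _ => 1)) := by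
  have hρ := hw.ex.noisy hs
  set ρ := Lp w s (fun _ => 1) with hρd
  set μ := nm ρ with hμ
  set b : Fin n → ℝ := fun k => ∫ x, om w k x * f x ∂μ with hb
  set W : E n → ℝ := fun y => ∑ k, b k * om w k y with hW
  have hWE : EG W := EG.sum _ fun k _ => (om_EG k).smul _
  have hW2 : MemLp W 2 μ := memLp_nm hρ hWE
  set ν := σ + 2 * s with hν
  have hν0 : 0 < ν := by positivity
  have iWf : Integrable (fun x => W x * f x) μ := hW2.integrable_mul hf
  have iW2 : Integrable (fun x => W x ^ 2) μ := hW2.integrable_sq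
  have if2 : Integrable (fun x => f x ^ 2) μ := hf.integrable_sq
  have h1 : 0 ≤ ∫ x, (ν * f x - W x) ^ 2 ∂μ := integral_nonneg fun x => sq_nonneg _
  have e1 : ∫ x, (ν * f x - W x) ^ 2 ∂μ =
      ν ^ 2 * ∫ x, f x ^ 2 ∂μ - 2 * ν * ∫ x, W x * f x ∂μ + ∫ x, W x ^ 2 ∂μ := by
    have i3 : Integrable (fun x => ν ^ 2 * f x ^ 2 - 2 * ν * (W x * f x)) μ :=
      (if2.const_mul _).sub (iWf.const_mul _)
    rw [← integral_const_mul, ← integral_const_mul, ← integral_sub (if2.const_mul _)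
      (iWf.const_mul _), ← integral_add i3 iW2]
    exact integral_congr_ae (ae_of_all _ fun x => by simp only; ring)
  have e2 : ∫ x, W x * f x ∂μ = ∑ k, b k ^ 2 := by
    have : (fun x => W x * f x) = fun x => ∑ k, b k * (om w k x * f x) := by
      funext x
      simp only [hW, Finset.sum_mul]
      exact Finset.sum_congr rfl fun k _ => by ring
    have i4 : ∀ k, Integrable (fun x => b k * (om w k x * f x)) μ := fun k => by
      have i5 : Integrable (fun x => om w k x * f x) μ :=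
        (memLp_nm hρ (om_EG k)).integrable_mul hf
      exact i5.const_mul _
    rw [this, integral_finsetSum _ fun k _ => i4 k]
    refine Finset.sum_congr rfl fun k _ => ?_
    rw [integral_const_mul, sq]
  have e3 : ∫ x, W x ^ 2 ∂μ ≤ ν * ∑ k, b k ^ 2 := by
    rw [hμ, int_nm hρ]
    have := om_var hw hs hσ b
    rwa [dot_self] at this
  rw [e1, e2] at h1
  have h2 : 0 ≤ ν * (ν * ∫ x, f x ^ 2 ∂μ - ∑ k, b k ^ 2) := by nlinarith
  have h3 := nonneg_of_mul_nonneg_right h2 hν0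
  change ∑ k, b k ^ 2 ≤ _
  linarith

end Crest.Agent.R201.An
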