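import Crest.Agent.R201.Tw1_807

/-!
# R201, KLS half (helper807): the operator `A`, integration by parts, Bochner
-/

set_option autoImplicit false
open MeasureTheory Matrix
open scoped ContDiff

namespace Crest.Agent.R201.Tw807

open Crest.Agent.R201

variable {n : ℕ}

/-- `A φ = -Δφ + V'·Dφ` -/
noncomputable def AA (K : KD n) (φ : E n → ℝ) (x : E n) : ℝ :=
  ∑ k, (K.Vg k x * pd k φ x - pd k (pd k φ) x)

/-- what the analytic side has to deliver in addition to `KD` -/
structure Base (K : KD n) : Prop where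
  kp_eq : K.kp = 2
  Vg_smooth : ∀ k, ContDiff ℝ ∞ (K.Vg k)
  V2_eq : ∀ k l x, K.V2 x k l = pd l (K.Vg k) x
  dens : ∀ F : E n → ℝ, MemLp F 2 K.μ → ∀ δ : ℝ, 0 < δ → ∃ φ : E n → ℝ,
    ContDiff ℝ ∞ φ ∧ HasCompactSupport φ ∧ ∫ x, (φ x + AA K φ x - F x) ^ 2 ∂K.μ ≤ δ
  poinc : ∀ f : E n → ℝ, CB f →
    (∫ x, f x ^ 2 ∂K.μ) - (∫ x, f x ∂K.μ) ^ 2 ≤ ∑ k, ∫ x, pd k f x ^ 2 ∂K.μ
  nearmin : ∀ δ : ℝ, 0 < δ → ∃ g : E n → ℝ, CB g ∧ ∫ x, g x ^ 2 ∂K.μ = 1 ∧ ∫ x, g x ∂K.μ = 0 ∧
    (∑ k, ∫ x, pd k g x ^ 2 ∂K.μ) + K.kp * (∑ k, (∫ x, K.ω k x * g x ∂K.μ) ^ 2)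
      - (1 + K.ε) * ((∫ x, g x ^ 2 ∂K.μ) - (∫ x, g x ∂K.μ) ^ 2) ≤ δ

variable {K : KD n}

theorem hess_symm (k l : Fin n) (x : E n) : K.V2 x k l = K.V2 x l k := by
  have := congrFun (congrFun (K.V2_symm x) k) l
  simpa [Matrix.transpose_apply] using this.symm

theorem Vg_cont (B : Base K) (k : Fin n) : Continuous (K.Vg k) := (B.Vg_smooth k).continuous

/-- a smooth function times a compactly supported one -/
theorem cb_mul_cs {f g : E n → ℝ} (hf : ContDiff ℝ ∞ f) (hg : ContDiff ℝ ∞ g)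
    (hs : HasCompactSupport g) : CB (fun x => f x * g x) :=
  cb_cc (hf.mul hg) (hs.mul_left (f := f))

theorem cs_AA {φ : E n → ℝ} (hs : HasCompactSupport φ) : HasCompactSupport (AA K φ) := by
  unfold AA
  have h : ∀ s : Finset (Fin n), HasCompactSupport
      (fun x => ∑ k ∈ s, (K.Vg k x * pd k φ x - pd k (pd k φ) x)) := by
    classical
    intro s
    induction s using Finset.induction_on with
    | empty =>
      simp only [Finset.sum_empty]
      exact HasCompactSupport.zero (α := E n) (β := ℝ)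
    | insert a s ha ih =>
      have h1 : HasCompactSupport (fun x => K.Vg a x * pd a φ x - pd a (pd a φ) x) := by
        have h2 : HasCompactSupport (fun x => K.Vg a x * pd a φ x) :=
          (pd_cs hs a).mul_left (f := K.Vg a)
        have h3 := pd_cs (pd_cs hs a) a
        have e : (fun x => K.Vg a x * pd a φ x - pd a (pd a φ) x) =
            (fun x => K.Vg a x * pd a φ x) + -pd a (pd a φ) := by
          funext x
          simp [sub_eq_add_neg]
        rw [e]
        exact h2.add h3.neg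
      have e : (fun x => ∑ k ∈ insert a s, (K.Vg k x * pd k φ x - pd k (pd k φ) x)) =
          (fun x => K.Vg a x * pd a φ x - pd a (pd a φ) x) +
          (fun x => ∑ k ∈ s, (K.Vg k x * pd k φ x - pd k (pd k φ) x)) := by
        funext x
        rw [Finset.sum_insert ha]
        rfl
      rw [e]
      exact h1.add ih
  exact h Finset.univ

theorem smooth_AA (B : Base K) {φ : E n → ℝ} (hφ : ContDiff ℝ ∞ φ) :
    ContDiff ℝ ∞ (AA K φ) := by
  unfold AA
  exact ContDiff.sum fun k _ => ((B.Vg_smooth k).mul (pd_smooth hφ k)).sub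
    (pd_smooth (pd_smooth hφ k) k)

theorem cb_AA (B : Base K) {φ : E n → ℝ} (hφ : ContDiff ℝ ∞ φ) (hs : HasCompactSupport φ) :
    CB (AA K φ) := cb_cc (smooth_AA B hφ) (cs_AA hs)

theorem int_mul_cb {f g : E n → ℝ} (hf : CB f) (hg : CB g) :
    Integrable (fun x => f x * g x) K.μ := int_cb K (cb_mul hf hg)

/-- integration by parts: `∫ (Aφ) f = ∑ ∫ D_kφ D_k f` for `C¹` functions `f` with bounded
products -/
theorem ibp_A' (B : Base K) {φ f : E n → ℝ} (hφ : ContDiff ℝ ∞ φ) (hs : HasCompactSupport φ)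
    (hf : ContDiff ℝ 1 f) :
    ∫ x, AA K φ x * f x ∂K.μ = ∑ k, ∫ x, pd k φ x * pd k f x ∂K.μ := by
  have hdf : Differentiable ℝ f := hf.differentiable (by simp)
  have h1 : ∀ k, CB (fun x => pd k φ x * f x) := fun k =>
    cb_c1 (((pd_smooth hφ k).of_le (by norm_cast)).mul hf) ((pd_cs hs k).mul_right (f' := f))
  have h2 : ∀ k x, pd k (fun y => pd k φ y * f y) x =
      pd k φ x * pd k f x + pd k (pd k φ) x * f x := fun k x =>
    pd_mul k ((pd_smooth hφ k).differentiable (by simp) x) (hdf x)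
  have c1 : ∀ k, CB (fun x => pd k (pd k φ) x * f x) := fun k =>
    cb_c1 (((pd_smooth (pd_smooth hφ k) k).of_le (by norm_cast)).mul hf)
      ((pd_cs (pd_cs hs k) k).mul_right (f' := f))
  have i2 : ∀ k, Integrable (fun x => pd k (pd k φ) x * f x) K.μ := fun k => int_cb K (c1 k)
  have i3 : ∀ k, Integrable (fun x => pd k φ x * pd k f x) K.μ := by
    intro k
    have hc : Continuous (fun x => pd k φ x * pd k f x) :=
      (pd_smooth hφ k).continuous.mul (pd_cont hf k)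
    obtain ⟨C, hC⟩ := bdd_of_cc hc ((pd_cs hs k).mul_right (f' := pd k f))
    exact int_bdd K hc hC
  have i1 : ∀ k, Integrable (fun x => K.Vg k x * (pd k φ x * f x)) K.μ := by
    intro k
    have hc : Continuous (fun x => K.Vg k x * (pd k φ x * f x)) :=
      (Vg_cont B k).mul (h1 k).1.continuous
    obtain ⟨C, hC⟩ := bdd_of_cc hc
      (((pd_cs hs k).mul_right (f' := f)).mul_left (f := K.Vg k))
    exact int_bdd K hc hC
  have h3 : ∀ k, ∫ x, (K.Vg k x * pd k φ x - pd k (pd k φ) x) * f x ∂K.μ =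
      ∫ x, pd k φ x * pd k f x ∂K.μ := by
    intro k
    have e1 : ∀ x, (K.Vg k x * pd k φ x - pd k (pd k φ) x) * f x =
        K.Vg k x * (pd k φ x * f x) - pd k (pd k φ) x * f x := fun x => by ring
    simp only [e1]
    rw [integral_sub (i1 k) (i2 k), K.ibp k _ (h1 k)]
    simp only [h2]
    rw [integral_add (i3 k) (i2 k)]
    ring
  unfold AA
  simp only [Finset.sum_mul]
  rw [integral_finsetSum]
  · exact Finset.sum_congr rfl fun k _ => h3 k
  · intro k _
    have e1 : (fun x => (K.Vg k x * pd k φ x - pd k (pd k φ) x) * f x) =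
        fun x => K.Vg k x * (pd k φ x * f x) - pd k (pd k φ) x * f x := by
      funext x; ring
    rw [e1]
    exact (i1 k).sub (i2 k)

theorem ibp_A (B : Base K) {φ f : E n → ℝ} (hφ : ContDiff ℝ ∞ φ) (hs : HasCompactSupport φ)
    (hf : CB f) :
    ∫ x, AA K φ x * f x ∂K.μ = ∑ k, ∫ x, pd k φ x * pd k f x ∂K.μ :=
  ibp_A' B hφ hs hf.1

/-- `D_k (A φ) = A (D_k φ) + (V'' Dφ)_k` -/
theorem pd_AA (B : Base K) {φ : E n → ℝ} (hφ : ContDiff ℝ ∞ φ) (k : Fin n) (x : E n) :
    pd k (AA K φ) x = AA K (pd k φ) x + ∑ l, K.V2 x k l * pd l φ x := by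
  have d1 : ∀ l, Differentiable ℝ (K.Vg l) := fun l => (B.Vg_smooth l).differentiable (by simp)
  have d2 : ∀ l, Differentiable ℝ (pd l φ) := fun l =>
    (pd_smooth hφ l).differentiable (by simp)
  have d3 : ∀ l, Differentiable ℝ (pd l (pd l φ)) := fun l =>
    (pd_smooth (pd_smooth hφ l) l).differentiable (by simp)
  have h1 : pd k (AA K φ) x =
      ∑ l, pd k (fun y => K.Vg l y * pd l φ y - pd l (pd l φ) y) x := by
    unfold AA
    exact pd_sum Finset.univ k fun l _ => ((d1 l x).mul (d2 l x)).sub (d3 l x)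
  have h2 : ∀ l, pd k (fun y => K.Vg l y * pd l φ y - pd l (pd l φ) y) x =
      (K.Vg l x * pd l (pd k φ) x - pd l (pd l (pd k φ)) x) + K.V2 x k l * pd l φ x := by
    intro l
    have dm : DifferentiableAt ℝ (fun y => K.Vg l y * pd l φ y) x := (d1 l x).mul (d2 l x)
    rw [pd_sub k dm (d3 l x), pd_mul k (d1 l x) (d2 l x), pd_comm hφ k l x]
    have e1 : pd k (pd l (pd l φ)) x = pd l (pd l (pd k φ)) x := by
      rw [pd_comm (pd_smooth hφ l) k l x]
      have : pd k (pd l φ) = pd l (pd k φ) := funext fun y => pd_comm hφ k l y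
      rw [this]
    rw [e1, hess_symm k l x, B.V2_eq l k x]
    ring
  rw [h1]
  unfold AA
  rw [← Finset.sum_add_distrib]
  exact Finset.sum_congr rfl fun l _ => h2 l

/-- Bochner: `∑_{k,l} ∫ (D_l D_k φ)² + ∫ V''(Dφ,Dφ) = ∫ (Aφ)²` -/
theorem bochner (B : Base K) {φ : E n → ℝ} (hφ : ContDiff ℝ ∞ φ) (hs : HasCompactSupport φ) :
    (∑ k, ∑ l, ∫ x, pd l (pd k φ) x ^ 2 ∂K.μ) +
      ∫ x, ∑ k, ∑ l, K.V2 x k l * pd k φ x * pd l φ x ∂K.μ = ∫ x, AA K φ x ^ 2 ∂K.μ := by
  have h1 := ibp_A B hφ hs (cb_AA B hφ hs)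
  have iA : ∀ k, Integrable (fun x => pd k φ x * AA K (pd k φ) x) K.μ := fun k =>
    int_mul_cb (cb_cc (pd_smooth hφ k) (pd_cs hs k))
      (cb_AA B (pd_smooth hφ k) (pd_cs hs k))
  have iV : ∀ k l, Integrable (fun x => K.V2 x k l * pd k φ x * pd l φ x) K.μ := by
    intro k l
    have hc : Continuous (fun x => K.V2 x k l * pd k φ x * pd l φ x) :=
      ((K.V2_cont k l).mul (pd_smooth hφ k).continuous).mul (pd_smooth hφ l).continuous
    obtain ⟨C, hC⟩ := bdd_of_cc hc ((pd_cs hs l).mul_left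
      (f := fun x => K.V2 x k l * pd k φ x))
    exact int_bdd K hc hC
  have h2 : ∀ k, ∫ x, pd k φ x * pd k (AA K φ) x ∂K.μ =
      (∑ l, ∫ x, pd l (pd k φ) x ^ 2 ∂K.μ) +
        ∑ l, ∫ x, K.V2 x k l * pd k φ x * pd l φ x ∂K.μ := by
    intro k
    have e1 : ∀ x, pd k φ x * pd k (AA K φ) x = AA K (pd k φ) x * pd k φ x +
        ∑ l, K.V2 x k l * pd k φ x * pd l φ x := by
      intro x
      rw [pd_AA B hφ k x, mul_add, Finset.mul_sum]
      congr 1
      · ring
      · exact Finset.sum_congr rfl fun l _ => by ring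
    simp only [e1]
    rw [integral_add _ (integrable_finsetSum _ fun l _ => iV k l),
      integral_finsetSum _ fun l _ => iV k l,
      ibp_A B (pd_smooth hφ k) (pd_cs hs k) (cb_cc (pd_smooth hφ k) (pd_cs hs k))]
    · congr 1
      exact Finset.sum_congr rfl fun l _ => by simp only [sq]
    · exact (iA k).congr (Filter.Eventually.of_forall fun x => by simp only; ring)
  have h3 : ∫ x, ∑ k, ∑ l, K.V2 x k l * pd k φ x * pd l φ x ∂K.μ =
      ∑ k, ∑ l, ∫ x, K.V2 x k l * pd k φ x * pd l φ x ∂K.μ := by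
    rw [integral_finsetSum _ fun k _ => integrable_finsetSum _ fun l _ => iV k l]
    exact Finset.sum_congr rfl fun k _ => integral_finsetSum _ fun l _ => iV k l
  have h4 : ∫ x, AA K φ x ^ 2 ∂K.μ = ∫ x, AA K φ x * AA K φ x ∂K.μ := by
    simp only [sq]
  rw [h4, h1, h3, ← Finset.sum_add_distrib]
  exact (Finset.sum_congr rfl fun k _ => h2 k).symm

end Crest.Agent.R201.Tw807
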