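import Crest.Agent.R201.An7_293
import Crest.Agent.R201.Tw2_807

/-!
# R201 AN-8: assembly of `KD` and `Base` (helper293)
-/

set_option autoImplicit false
open MeasureTheory Matrix Filter Topology
open scoped ContDiff RealInnerProductSpace NNReal ENNReal

namespace Crest.Agent.R201.An

open Crest.Agent.R201 Crest.Agent.R144.Fi865

variable {n : ℕ} {w ρ F G : E n → ℝ} {s s₀ c R : ℝ}

/-- variance, energy, `|T₁|²` of a scalar function -/
noncomputable def vr (μ : Measure (E n)) (f : E n → ℝ) : ℝ := (∫ x, f x ^ 2 ∂μ) - (∫ x, f x ∂μ) ^ 2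
noncomputable def dr (μ : Measure (E n)) (f : E n → ℝ) : ℝ := ∑ k, ∫ x, pd k f x ^ 2 ∂μ
noncomputable def tr (μ : Measure (E n)) (τ : Fin n → E n → ℝ) (f : E n → ℝ) : ℝ :=
  ∑ k, (∫ x, τ k x * f x ∂μ) ^ 2

lemma vr_nonneg (hρ : Ex ρ) {f : E n → ℝ} (hf : EG f) : 0 ≤ vr (nm ρ) f := by
  unfold vr
  rw [int_nm hρ, int_nm hρ]
  linarith [Em_sq_le hρ hf]

lemma dr_nonneg (μ : Measure (E n)) (f : E n → ℝ) : 0 ≤ dr μ f :=
  Finset.sum_nonneg fun _ _ => integral_nonneg fun _ => sq_nonneg _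

lemma tr_nonneg (μ : Measure (E n)) (τ : Fin n → E n → ℝ) (f : E n → ℝ) : 0 ≤ tr μ τ f :=
  Finset.sum_nonneg fun _ _ => sq_nonneg _

/-- normalisation of a function -/
theorem normalise (hρ : Ex ρ) {τ : Fin n → E n → ℝ} (hω : ∀ k, EG (τ k))
    (hω0 : ∀ k, ∫ x, τ k x ∂(nm ρ) = 0) {f : E n → ℝ} (hf : CB f) (hv : 0 < vr (nm ρ) f) :
    ∃ g : E n → ℝ, CB g ∧ ∫ x, g x ^ 2 ∂(nm ρ) = 1 ∧ ∫ x, g x ∂(nm ρ) = 0 ∧
      dr (nm ρ) g = dr (nm ρ) f / vr (nm ρ) f ∧ tr (nm ρ) τ g = tr (nm ρ) τ f / vr (nm ρ) f := by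
  set μ := nm ρ with hμ
  have hpr : IsProbabilityMeasure μ := nm_prob hρ
  set v := vr μ f with hvd
  set m := ∫ x, f x ∂μ with hm
  set a := (√v)⁻¹ with ha
  have ha2 : a ^ 2 = v⁻¹ := by rw [ha, inv_pow, Real.sq_sqrt hv.le]
  have hfE := (CB.eg hf).1
  have hf2 : EG fun x => f x ^ 2 := by simpa [sq] using hfE.mul hfE
  have if1 : Integrable f μ := integrable_nm hρ hfE
  have if2 : Integrable (fun x => f x ^ 2) μ := integrable_nm hρ hf2
  refine ⟨fun x => a * (f x - m), Tw807.cb_const_mul a (Tw807.cb_sub hf (Tw807.cb_const m)),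
    ?_, ?_, ?_, ?_⟩
  · have e : (fun x => (a * (f x - m)) ^ 2) = fun x => a ^ 2 * (f x ^ 2 - 2 * m * f x + m ^ 2) := by
      funext x; ring
    have i3 : Integrable (fun x => f x ^ 2 - 2 * m * f x) μ := if2.sub (if1.const_mul _)
    rw [e, integral_const_mul, integral_add i3 (integrable_const _),
      integral_sub if2 (if1.const_mul _), integral_const_mul, integral_const, ha2]
    simp only [probReal_univ, smul_eq_mul, one_mul]
    have : (∫ x, f x ^ 2 ∂μ) - 2 * m * (∫ x, f x ∂μ) + m ^ 2 = v := by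
      rw [hvd]; unfold vr; rw [← hm]; ring
    rw [this]
    exact inv_mul_cancel₀ hv.ne'
  · rw [integral_const_mul, integral_sub if1 (integrable_const _), integral_const]
    simp [← hm]
  · unfold dr
    rw [Finset.sum_div]
    refine Finset.sum_congr rfl fun k _ => ?_
    have hd := Tw807.cb_diff hf
    have e : ∀ x, pd k (fun x => a * (f x - m)) x = a * pd k f x := by
      intro x
      rw [Tw807.pd_const_mul a k ((hd x).sub_const m), Tw807.pd_sub k (hd x)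
        (differentiableAt_const m), Tw807.pd_const, sub_zero]
    simp_rw [e, mul_pow]
    rw [integral_const_mul, ha2]
    rw [inv_mul_eq_div]
  · unfold tr
    rw [Finset.sum_div]
    refine Finset.sum_congr rfl fun k _ => ?_
    have i1 : Integrable (fun x => τ k x * f x) μ := integrable_nm hρ ((hω k).mul hfE)
    have i2 : Integrable (fun x => τ k x) μ := integrable_nm hρ (hω k)
    have e : (fun x => τ k x * (a * (f x - m))) = fun x => a * (τ k x * f x - m * τ k x) := by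
      funext x; ring
    rw [e, integral_const_mul, integral_sub i1 (i2.const_mul _), integral_const_mul, hω0, mul_zero,
      sub_zero, mul_pow, ha2]
    rw [inv_mul_eq_div]

lemma om_mean (hw : Wt c R w) (hs : 0 < s) (k : Fin n) :
    ∫ x, om w k x ∂(nm (Lp w s fun _ => 1)) = 0 := by
  have hρ := hw.ex.noisy hs
  have h1 := rr_mean hw hs k
  rw [int_nm hρ] at h1 ⊢
  have e : om w k = fun y => rr w s k y + s * Vg w s k y := funext fun y => om_eq hs k y
  have h2 := ibp_EG hw hs k (F := fun _ => (1 : ℝ)) (differentiable_const 1) (EG.const 1)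
    (by
      have : pd k (fun _ : E n => (1 : ℝ)) = fun _ => 0 := funext fun x => Tw807.pd_const 1 k x
      rw [this]; exact EG.const 0)
  have h3 : pd k (fun _ : E n => (1 : ℝ)) = fun _ => 0 := funext fun x => Tw807.pd_const 1 k x
  rw [h3, Em_const hρ] at h2
  simp only [mul_one] at h2
  have hr := (CB.eg (rr_cb hw hs k)).1
  change Em _ (om w k) = 0
  rw [e, Em_add hρ hr ((EG.Vg hw hs k).smul s), Em_smul, h2]
  have h1' : Em (Lp w s fun _ => 1) (rr w s k) = 0 := h1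
  rw [h1']
  simp

/-- the hypotheses on `Y = X + √h G` -/
structure Hyp (c R σ s : ℝ) (w : E n → ℝ) : Prop where
  wt : Wt c R w
  c_pos : 0 < c
  s_pos : 0 < s
  s_le : 3 * s ≤ 1
  σ_pos : 0 < σ
  cov : ∀ u, vX w u ≤ σ * (u ⬝ᵥ u)
  small : σ + 2 * (2 * s + s) ≤ 1 / 200
  poinc : ∀ f : E n → ℝ, CB f →
    vr (nm (Lp w (2 * s + s) fun _ => 1)) f ≤ dr (nm (Lp w (2 * s + s) fun _ => 1)) f
  sharp : ∀ δ : ℝ, 0 < δ → ∃ f : E n → ℝ, CB f ∧ 0 < vr (nm (Lp w (2 * s + s) fun _ => 1)) f ∧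
    dr (nm (Lp w (2 * s + s) fun _ => 1)) f ≤
      (1 + δ) * vr (nm (Lp w (2 * s + s) fun _ => 1)) f

section

variable {σ : ℝ}

/-- law of `Y` -/
noncomputable abbrev muY (w : E n → ℝ) (s : ℝ) : Measure (E n) := nm (Lp w (2 * s + s) fun _ => 1)

/-- normalised energies -/
def SS (w : E n → ℝ) (s : ℝ) : Set ℝ := {t | ∃ g : E n → ℝ, CB g ∧ ∫ x, g x ^ 2 ∂(muY w s) = 1 ∧
  ∫ x, g x ∂(muY w s) = 0 ∧ t = dr (muY w s) g + 2 * tr (muY w s) (om w) g}

noncomputable def eps (w : E n → ℝ) (s : ℝ) : ℝ := sInf (SS w s) - 1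

lemma SS_ge (H : Hyp c R σ s w) {t : ℝ} (ht : t ∈ SS w s) : 1 ≤ t := by
  obtain ⟨g, hg, h1, h0, rfl⟩ := ht
  have h2 := H.poinc g hg
  unfold vr at h2
  rw [h1, h0] at h2
  have h3 := tr_nonneg (muY w s) (om w) g
  linarith

lemma SS_bdd (H : Hyp c R σ s w) : BddBelow (SS w s) := ⟨1, fun _ ht => SS_ge H ht⟩

lemma tr_norm_le (H : Hyp c R σ s w) {g : E n → ℝ} (hg : CB g) (h1 : ∫ x, g x ^ 2 ∂(muY w s) = 1) :
    tr (muY w s) (om w) g ≤ 1 / 200 := by
  have hh : 0 < 2 * s + s := by linarith [H.s_pos]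
  have hρ := H.wt.ex.noisy hh
  have h2 := om_le H.wt hh H.σ_pos.le H.cov g (memLp_nm hρ (CB.eg hg).1)
  change tr (muY w s) (om w) g ≤ (σ + 2 * (2 * s + s)) * ∫ x, g x ^ 2 ∂(muY w s) at h2
  rw [h1, mul_one] at h2
  exact h2.trans H.small

lemma norm_ex (H : Hyp c R σ s w) {f : E n → ℝ} (hf : CB f) (hv : 0 < vr (muY w s) f) :
    ∃ g : E n → ℝ, CB g ∧ ∫ x, g x ^ 2 ∂(muY w s) = 1 ∧ ∫ x, g x ∂(muY w s) = 0 ∧
      dr (muY w s) g = dr (muY w s) f / vr (muY w s) f ∧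
      tr (muY w s) (om w) g = tr (muY w s) (om w) f / vr (muY w s) f := by
  have hh : 0 < 2 * s + s := by linarith [H.s_pos]
  exact normalise (H.wt.ex.noisy hh) (fun k => om_EG k) (fun k => om_mean H.wt hh k) hf hv

lemma SS_small (H : Hyp c R σ s w) {δ : ℝ} (hδ : 0 < δ) : ∃ t ∈ SS w s, t ≤ 1 + δ + 1 / 100 := by
  obtain ⟨f, hf, hv, hd⟩ := H.sharp δ hδ
  obtain ⟨g, hg, h1, h0, hdg, htg⟩ := norm_ex H hf hv
  refine ⟨_, ⟨g, hg, h1, h0, rfl⟩, ?_⟩
  have h2 := tr_norm_le H hg h1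
  have h3 : dr (muY w s) g ≤ 1 + δ := by
    rw [hdg, div_le_iff₀ hv]
    exact hd
  linarith

lemma SS_nonempty (H : Hyp c R σ s w) : (SS w s).Nonempty := by
  obtain ⟨t, ht, _⟩ := SS_small H one_pos
  exact ⟨t, ht⟩

lemma eps_nonneg (H : Hyp c R σ s w) : 0 ≤ eps w s := by
  unfold eps
  have := le_csInf (SS_nonempty H) fun t ht => SS_ge H ht
  linarith

lemma eps_le (H : Hyp c R σ s w) : eps w s ≤ 1 / 100 := by
  unfold eps
  have : ∀ δ : ℝ, 0 < δ → sInf (SS w s) ≤ 1 + 1 / 100 + δ := fun δ hδ => by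
    obtain ⟨t, ht, h⟩ := SS_small H hδ
    have := csInf_le (SS_bdd H) ht
    linarith
  have := le_of_forall_pos_le_add this
  linarith

lemma MP_holds (H : Hyp c R σ s w) {f : E n → ℝ} (hf : CB f) :
    (1 + eps w s) * vr (muY w s) f ≤ dr (muY w s) f + 2 * tr (muY w s) (om w) f := by
  have hh : 0 < 2 * s + s := by linarith [H.s_pos]
  have h0 := vr_nonneg (H.wt.ex.noisy hh) (CB.eg hf).1
  change 0 ≤ vr (muY w s) f at h0
  rcases h0.eq_or_lt with h | h
  · rw [← h, mul_zero]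
    have := dr_nonneg (muY w s) f
    have := tr_nonneg (muY w s) (om w) f
    positivity
  · obtain ⟨g, hg, h1, h2, hdg, htg⟩ := norm_ex H hf h
    have h3 := csInf_le (SS_bdd H) (⟨g, hg, h1, h2, rfl⟩ : _ ∈ SS w s)
    rw [hdg, htg] at h3
    have e : (1 + eps w s) = sInf (SS w s) := by unfold eps; ring
    rw [e]
    have h4 : dr (muY w s) f / vr (muY w s) f + 2 * (tr (muY w s) (om w) f / vr (muY w s) f) =
        (dr (muY w s) f + 2 * tr (muY w s) (om w) f) / vr (muY w s) f := by ring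
    rw [h4, le_div_iff₀ h] at h3
    exact h3

/-- **the instance** -/
noncomputable def KY (H : Hyp c R σ s w) : KD n where
  μ := muY w s
  prob := nm_prob (H.wt.ex.noisy (by linarith [H.s_pos]))
  V2 := Vh w (2 * s + s)
  Vg := Vg w (2 * s + s)
  P := PP w (2 * s) s
  r := rr w (2 * s + s)
  «ω» := om w
  h := 2 * s + s
  η := √(σ / (2 * s))
  ν := 1 / 200
  ε := eps w s
  kp := 2
  h_pos := by linarith [H.s_pos]
  h_le := by linarith [H.s_le]
  η_pos := Real.sqrt_pos.2 (div_pos H.σ_pos (by linarith [H.s_pos]))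
  ν_nonneg := by norm_num
  ν_le := by norm_num
  ε_nonneg := eps_nonneg H
  ε_le := eps_le H
  kp_pos := by norm_num
  kp_le := by norm_num
  V2_cont i j := Vh_cont H.wt.ex (by linarith [H.s_pos]) i j
  V2_symm x := Vh_symm _ _ _
  V2_nonneg x := by
    intro u
    have hh : 0 < 2 * s + s := by linarith [H.s_pos]
    have h1 := Vh_ge H.wt.ex H.c_pos.le H.wt.slc hh x u
    simp only [Matrix.zero_mulVec, dotProduct_zero, Matrix.smul_mulVec, Matrix.one_mulVec,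
      dotProduct_smul, smul_eq_mul] at h1 ⊢
    have hu : 0 ≤ u ⬝ᵥ u := Finset.sum_nonneg fun i _ => mul_self_nonneg _
    have hc := H.c_pos
    have : 0 ≤ c / (1 + c * (2 * s + s)) * (u ⬝ᵥ u) := by positivity
    linarith
  V2_le x := by
    intro u
    have hh : 0 < 2 * s + s := by linarith [H.s_pos]
    have h1 := Vh_le H.wt.ex hh x u
    simp only [Matrix.smul_mulVec, Matrix.one_mulVec, dotProduct_smul, smul_eq_mul] at h1 ⊢
    have h2 := mul_le_mul_of_nonneg_left h1 hh.le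
    refine h2.trans (le_of_eq ?_)
    rw [← mul_assoc, mul_one_div_cancel hh.ne', one_mul]
  Vg_L2 k := memLp_nm (H.wt.ex.noisy (by linarith [H.s_pos]))
    (EG.Vg H.wt (by linarith [H.s_pos]) k)
  ibp k f hf := by
    have hh : 0 < 2 * s + s := by linarith [H.s_pos]
    have hρ := H.wt.ex.noisy hh
    rw [int_nm hρ, int_nm hρ]
    exact ibp_EG H.wt hh k (Tw807.cb_diff hf) (CB.eg hf).1 ((CB.eg hf).2 k)
  P_cb i j := PP_cb H.wt H.c_pos.le H.s_pos (by linarith [H.s_pos]) i j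
  P_symm x := PP_symm x
  P_nonneg x := PP_nonneg H.wt H.s_pos (by linarith [H.s_pos]) x
  P_le x := PP_le H.wt H.c_pos.le H.s_pos (by linarith [H.s_pos]) x
  P_mean := by
    have h1 := PP_mean H.wt H.c_pos.le H.s_pos (by linarith [H.s_pos] : 0 < 2 * s) H.cov
    rw [Real.sq_sqrt (div_nonneg H.σ_pos.le (by linarith [H.s_pos]))]
    exact h1
  P_grad x := PP_grad H.wt H.c_pos.le H.s_pos (by linarith [H.s_pos]) (by linarith [H.s_pos])
    (by linarith [H.s_pos]) x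
  P_hess x := PP_hess H.wt H.c_pos.le H.s_pos (by linarith [H.s_pos]) le_rfl x
  r_cb k := rr_cb H.wt (by linarith [H.s_pos]) k
  r_mean k := rr_mean H.wt (by linarith [H.s_pos]) k
  r_pd k j x := pd_rr H.wt.ex (by linarith [H.s_pos]) k j x
  r_sq := by
    intro u
    have hh : 0 < 2 * s + s := by linarith [H.s_pos]
    have h1 := r_sq H.wt H.c_pos.le hh H.cov u
    refine h1.trans ?_
    rw [Real.sq_sqrt (div_nonneg H.σ_pos.le (by linarith [H.s_pos]))]
    simp only [Matrix.smul_mulVec, Matrix.one_mulVec, dotProduct_smul, smul_eq_mul]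
    have hu : 0 ≤ u ⬝ᵥ u := Finset.sum_nonneg fun i _ => mul_self_nonneg _
    refine mul_le_mul_of_nonneg_right ?_ hu
    exact div_le_div_of_nonneg_left H.σ_pos.le (by linarith [H.s_pos]) (by linarith [H.s_pos])
  ω_L2 k := memLp_nm (H.wt.ex.noisy (by linarith [H.s_pos])) (om_EG k)
  ω_le f hf := by
    have hh : 0 < 2 * s + s := by linarith [H.s_pos]
    refine (om_le H.wt hh H.σ_pos.le H.cov f hf).trans ?_
    exact mul_le_mul_of_nonneg_right H.small (integral_nonneg fun _ => sq_nonneg _)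
  MP f hf := MP_holds H hf
  ω_eq k x := om_eq (by linarith [H.s_pos]) k x

theorem KY_nearmin (H : Hyp c R σ s w) (δ : ℝ) (hδ : 0 < δ) : ∃ g : E n → ℝ, CB g ∧
    ∫ x, g x ^ 2 ∂(KY H).μ = 1 ∧ ∫ x, g x ∂(KY H).μ = 0 ∧
    (∑ k, ∫ x, pd k g x ^ 2 ∂(KY H).μ) + (KY H).kp * (∑ k, (∫ x, (KY H).«ω» k x * g x ∂(KY H).μ) ^ 2)
      - (1 + (KY H).ε) * ((∫ x, g x ^ 2 ∂(KY H).μ) - (∫ x, g x ∂(KY H).μ) ^ 2) ≤ δ := by
  have h1 : sInf (SS w s) < sInf (SS w s) + δ := by linarith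
  obtain ⟨t, ⟨g, hg, h2, h3, rfl⟩, ht⟩ := exists_lt_of_csInf_lt (SS_nonempty H) h1
  refine ⟨g, hg, h2, h3, ?_⟩
  change dr (muY w s) g + 2 * tr (muY w s) (om w) g -
    (1 + eps w s) * ((∫ x, g x ^ 2 ∂(muY w s)) - (∫ x, g x ∂(muY w s)) ^ 2) ≤ δ
  rw [h2, h3]
  unfold eps
  linarith

/-- `Base` up to density -/
theorem KY_base (H : Hyp c R σ s w)
    (hd : ∀ F : E n → ℝ, MemLp F 2 (KY H).μ → ∀ δ : ℝ, 0 < δ → ∃ φ : E n → ℝ,
      ContDiff ℝ ∞ φ ∧ HasCompactSupport φ ∧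
        ∫ x, (φ x + Tw807.AA (KY H) φ x - F x) ^ 2 ∂(KY H).μ ≤ δ) :
    Tw807.Base (KY H) where
  kp_eq := rfl
  Vg_smooth k := Vg_contDiff H.wt.ex (by linarith [H.s_pos]) k
  V2_eq k l x := by
    have h1 := pd_Vg H.wt.ex (by linarith [H.s_pos] : 0 < 2 * s + s) l k x
    change Vh w (2 * s + s) x k l = pd l (Vg w (2 * s + s) k) x
    rw [h1, ← Matrix.transpose_apply (Vh w (2 * s + s) x), Vh_symm]
  dens := hd
  poinc f hf := H.poinc f hf
  nearmin := KY_nearmin H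

end

end Crest.Agent.R201.An
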