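import Crest.Agent.R201.Tw1_807

/-!
# R201 AN-9: essential self-adjointness, part 1: mollification (helper293)
-/

set_option autoImplicit false
open MeasureTheory Filter Topology Metric
open scoped ContDiff Convolution

namespace Crest.Agent.R201.An

open Crest.Agent.R201 Crest.Agent.R201.Tw807

variable {n : ℕ} {η g θ : E n → ℝ} {ε : ℝ}

/-- an even mollifier of radius `ε` -/
structure Mol (η : E n → ℝ) (ε : ℝ) : Prop where
  smooth : ContDiff ℝ ∞ η
  cs : HasCompactSupport η
  nonneg : ∀ x, 0 ≤ η x
  int_one : ∫ x, η x = 1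
  even : ∀ x, η (-x) = η x
  supp : ∀ x, ε ≤ ‖x‖ → η x = 0

theorem mol_of_bump (φ : ContDiffBump (0 : E n)) : Mol (φ.normed volume) φ.rOut where
  smooth := φ.contDiff_normed
  cs := φ.hasCompactSupport_normed
  nonneg := φ.nonneg_normed
  int_one := φ.integral_normed
  even x := φ.normed_neg x
  supp x hx := by
    by_contra h
    have h1 : x ∈ Function.support (φ.normed volume) := h
    rw [φ.support_normed_eq, mem_ball_zero_iff] at h1
    linarith

/-- convolution -/
noncomputable def cv (η g : E n → ℝ) (y : E n) : ℝ := ∫ x, η (y - x) * g x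

lemma cv_eq (η g : E n → ℝ) : cv η g = η ⋆[ContinuousLinearMap.lsmul ℝ ℝ, volume] g := by
  funext y
  rw [convolution_eq_swap]
  rfl

namespace Mol

lemma cont (M : Mol η ε) : Continuous η := M.smooth.continuous

lemma integrable (M : Mol η ε) : Integrable η := M.cont.integrable_of_hasCompactSupport M.cs

lemma bdd (M : Mol η ε) : ∃ B : ℝ, 0 ≤ B ∧ ∀ x, |η x| ≤ B := by
  obtain ⟨B, hB⟩ := bdd_of_cc M.cont M.cs
  exact ⟨B, (abs_nonneg _).trans (hB 0), hB⟩

/-- integrability of the integrand -/
lemma int_at (M : Mol η ε) (hg : Integrable g) (y : E n) : Integrable fun x => η (y - x) * g x := by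
  obtain ⟨B, _, hB⟩ := M.bdd
  exact hg.bdd_mul (M.cont.comp (continuous_const.sub continuous_id)).aestronglyMeasurable
    (ae_of_all _ fun x => by rw [Real.norm_eq_abs]; exact hB _)

lemma int_one_at (M : Mol η ε) (y : E n) : ∫ x, η (y - x) = 1 := by
  rw [integral_sub_left_eq_self η volume y]
  exact M.int_one

lemma int_eta_at (M : Mol η ε) (y : E n) : Integrable fun x => η (y - x) := by
  exact M.integrable.comp_sub_left y

lemma cv_smooth (M : Mol η ε) (hg : Integrable g) : ContDiff ℝ ∞ (cv η g) := by
  rw [cv_eq]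
  exact M.cs.contDiff_convolution_left _ M.smooth hg.locallyIntegrable

lemma cv_cs (M : Mol η ε) (hθ : HasCompactSupport θ) : HasCompactSupport (cv η θ) := by
  rw [cv_eq]
  exact M.cs.convolution _ hθ

lemma cv_smooth' (M : Mol η ε) (hθ : Continuous θ) (hs : HasCompactSupport θ) :
    ContDiff ℝ ∞ (cv η θ) := M.cv_smooth (hθ.integrable_of_hasCompactSupport hs)

lemma pd_cv (M : Mol η ε) (hθ : ContDiff ℝ 1 θ) (hs : HasCompactSupport θ) (k : Fin n) :
    pd k (cv η θ) = cv η (pd k θ) := by
  funext y
  have h := hs.hasFDerivAt_convolution_right (ContinuousLinearMap.lsmul ℝ ℝ)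
    (M.cont.locallyIntegrable (μ := volume)) hθ y
  unfold pd
  rw [cv_eq, h.fderiv, convolution_precompR_apply _ (M.cont.locallyIntegrable)
    (hs.fderiv ℝ) (hθ.continuous_fderiv (by simp)), cv_eq]

/-- `∫ g (η ⋆ θ) = ∫ θ (η ⋆ g)` -/
lemma fub (M : Mol η ε) (hg : Integrable g) (hθ : Integrable θ) :
    ∫ x, g x * cv η θ x = ∫ t, θ t * cv η g t := by
  obtain ⟨B, _, hB⟩ := M.bdd
  have h1 : Integrable (fun p : E n × E n => η (p.1 - p.2) * (g p.1 * θ p.2))
      (volume.prod volume) := by
    refine (hg.mul_prod hθ).bdd_mul ?_ (ae_of_all _ fun p => by rw [Real.norm_eq_abs]; exact hB _)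
    exact (M.cont.comp (continuous_fst.sub continuous_snd)).aestronglyMeasurable
  have h2 := integral_integral_swap (f := fun x t : E n => η (x - t) * (g x * θ t)) h1
  calc ∫ x, g x * cv η θ x = ∫ x, ∫ t, η (x - t) * (g x * θ t) := by
        refine integral_congr_ae (ae_of_all _ fun x => ?_)
        simp only [cv]
        rw [← integral_const_mul]
        exact integral_congr_ae (ae_of_all _ fun t => by simp only; ring)
    _ = ∫ t, ∫ x, η (x - t) * (g x * θ t) := h2
    _ = _ := by
        refine integral_congr_ae (ae_of_all _ fun t => ?_)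
        simp only [cv]
        rw [← integral_const_mul]
        refine integral_congr_ae (ae_of_all _ fun x => ?_)
        simp only
        have : η (x - t) = η (t - x) := by rw [← M.even (x - t), neg_sub]
        rw [this]
        ring

lemma int_cv (M : Mol η ε) (hg : Integrable g) : ∫ y, cv η g y = ∫ x, g x := by
  rw [cv_eq, integral_convolution _ M.integrable hg, M.int_one]
  simp

lemma cv_integrable (M : Mol η ε) (hg : Integrable g) : Integrable (cv η g) := by
  rw [cv_eq]
  exact M.integrable.integrable_convolution _ hg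

/-- Jensen -/
lemma jensen (M : Mol η ε) {k : E n → ℝ} (y : E n) (h1 : Integrable fun x => η (y - x) * k x)
    (h2 : Integrable fun x => η (y - x) * k x ^ 2) :
    (∫ x, η (y - x) * k x) ^ 2 ≤ ∫ x, η (y - x) * k x ^ 2 := by
  set m := ∫ x, η (y - x) * k x with hm
  have h0 : 0 ≤ ∫ x, η (y - x) * (k x - m) ^ 2 :=
    integral_nonneg fun x => mul_nonneg (M.nonneg _) (sq_nonneg _)
  have i3 : Integrable (fun x => η (y - x) * k x ^ 2 - 2 * m * (η (y - x) * k x)) :=
    h2.sub (h1.const_mul _)
  have e : ∫ x, η (y - x) * (k x - m) ^ 2 =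
      (∫ x, η (y - x) * k x ^ 2) - 2 * m * m + m ^ 2 := by
    have e1 : (fun x => η (y - x) * (k x - m) ^ 2) = fun x =>
        (η (y - x) * k x ^ 2 - 2 * m * (η (y - x) * k x)) + m ^ 2 * η (y - x) := by
      funext x; ring
    rw [e1, integral_add i3 ((M.int_eta_at y).const_mul _), integral_sub h2 (h1.const_mul _),
      integral_const_mul, integral_const_mul, M.int_one_at, ← hm, mul_one]
  rw [e] at h0
  nlinarith

end Mol

/-- integration by parts with compact support -/
lemma ibp_cs {a b : E n → ℝ} (ha : ContDiff ℝ 1 a) (hb : ContDiff ℝ 1 b)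
    (hbs : HasCompactSupport b) (k : Fin n) :
    ∫ x, a x * pd k b x = -∫ x, pd k a x * b x := by
  refine integral_mul_fderiv_eq_neg_fderiv_mul_of_integrable ?_ ?_ ?_
    (fun x _ => ha.differentiable (by simp) x) (fun x _ => hb.differentiable (by simp) x)
  · exact ((pd_cont ha k).mul hb.continuous).integrable_of_hasCompactSupport
      (hbs.mul_left (f := pd k a))
  · exact (ha.continuous.mul (pd_cont hb k)).integrable_of_hasCompactSupport
      ((pd_cs hbs k).mul_left (f := a))
  · exact (ha.continuous.mul hb.continuous).integrable_of_hasCompactSupport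
      (hbs.mul_left (f := a))

end Crest.Agent.R201.An
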