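import Crest.Agent.R201.An14_293

/-!
# R201 Bk1_189: the standard Gaussian measure, Gaussian averages `PG t` valid for `t ≥ 0`,
Gaussian integration by parts, the time derivative of a heat solution along `x + √r z` (helper189)
-/

set_option autoImplicit false
open MeasureTheory Matrix Filter Topology Metric
open scoped ContDiff ENNReal NNReal

namespace Crest.Agent.R201.Bk189

open Crest.Agent.R201 Crest.Agent.R201.An

variable {n : ℕ} {w f g F : E n → ℝ} {t r : ℝ}

/-! ### the standard Gaussian measure -/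

lemma ex_gk : Ex (gk 1 : E n → ℝ) :=
  ⟨fun x => (gk_pos 1 x).le, (gk_cont 1).measurable, int_exp_gk one_pos, gk_int_pos one_pos⟩

/-- the standard Gaussian measure on `E n` -/
noncomputable def gm (n : ℕ) : Measure (E n) := nm (gk 1)

instance gm_prob : IsProbabilityMeasure (gm n) := nm_prob ex_gk

lemma int_gm_EG (hF : EG F) : Integrable F (gm n) := integrable_nm ex_gk hF

lemma pd_gk (k : Fin n) (z : E n) : pd k (gk 1) z = -(z k * gk 1 z) := by
  have h := gk_hasFDerivAt (n := n) 1 0 z
  simp only [sub_zero] at h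
  unfold pd
  have e : (gk 1 : E n → ℝ) = fun y => gk 1 y := rfl
  rw [e, h.fderiv]
  simp only [_root_.smul_apply, smul_eq_mul, innerSL_apply_apply]
  rw [PiLp.inner_apply, Finset.sum_eq_single k]
  · simp
    ring
  · intro b _ hb
    simp [hb]
  · intro h; exact absurd (Finset.mem_univ _) h

/-- Gaussian integration by parts -/
theorem gm_ibp (hf : CB f) (k : Fin n) :
    ∫ z, z k * f z ∂(gm n) = ∫ z, pd k f z ∂(gm n) := by
  have hE := CB.eg hf
  have hc := EG.coord (n := n) k
  unfold gm
  rw [int_nm ex_gk, int_nm ex_gk]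
  have key := integral_mul_fderiv_eq_neg_fderiv_mul_of_integrable (μ := (volume : Measure (E n)))
    (f := f) (g := gk 1) (v := EuclideanSpace.single k (1 : ℝ))
    (ex_gk.int_mul (hE.2 k)) ?_ (ex_gk.int_mul hE.1)
    (fun x _ => (hf.1.differentiable (by simp)) x)
    (fun x _ => by
      have h := gk_hasFDerivAt (n := n) 1 0 x
      simp only [sub_zero] at h
      exact h.differentiableAt)
  · unfold Em
    congr 1
    change ∫ x, f x * pd k (gk 1) x = -∫ x, pd k f x * gk 1 x at key
    rw [← neg_eq_iff_eq_neg] at key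
    rw [← key, ← integral_neg]
    refine integral_congr_ae (ae_of_all _ fun x => ?_)
    simp only
    rw [pd_gk]
    ring
  · change Integrable fun x => f x * pd k (gk 1) x
    have e : (fun x => f x * pd k (gk 1) x) = fun x : E n => (-(x k * f x)) * gk 1 x := by
      funext x
      rw [pd_gk]
      ring
    rw [e]
    exact ex_gk.int_mul (hc.mul hE.1).neg

/-- Gaussian average of variance `t ≥ 0` -/
noncomputable def PG (t : ℝ) (F : E n → ℝ) (x : E n) : ℝ := ∫ z, F (x + √t • z) ∂(gm n)

lemma PG_zero (F : E n → ℝ) : PG 0 F = F := by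
  funext x
  simp [PG]

lemma PG_eq_NN (ht : 0 < t) (F : E n → ℝ) : PG t F = NN t F := by
  funext x
  have hs : 0 < √t := Real.sqrt_pos.2 ht
  have hg : ∀ z : E n, gk 1 z = gk t (√t • z) := fun z => by
    unfold gk
    rw [norm_smul, mul_pow, Real.norm_eq_abs, sq_abs, Real.sq_sqrt ht.le]
    congr 2
    field_simp
  have e1 : ∫ z : E n, F (x + √t • z) * gk 1 z =
      ((√t ^ Module.finrank ℝ (E n))⁻¹) * ∫ z, F (x + z) * gk t z := by
    have := Measure.integral_comp_smul_of_nonneg (volume : Measure (E n))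
      (fun z => F (x + z) * gk t z) (√t) (hR := hs.le)
    simp only [smul_eq_mul] at this
    rw [← this]
    refine integral_congr_ae (ae_of_all _ fun z => ?_)
    simp only
    rw [hg]
  have e2 : ∫ z : E n, gk 1 z = ((√t ^ Module.finrank ℝ (E n))⁻¹) * ∫ z : E n, gk t z := by
    have := Measure.integral_comp_smul_of_nonneg (volume : Measure (E n))
      (fun z => gk t z) (√t) (hR := hs.le)
    simp only [smul_eq_mul] at this
    rw [← this]
    refine integral_congr_ae (ae_of_all _ fun z => ?_)
    simp only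
    rw [hg]
  unfold PG gm
  rw [int_nm ex_gk, NN_shift]
  unfold Em
  rw [e1, e2, mul_div_mul_left _ _ (by positivity)]
  congr 1
  exact integral_congr_ae (ae_of_all _ fun z => by simp only; ring)

/-! ### bounded smooth functions -/

/-- bounded, continuous -/
def Bd (f : E n → ℝ) : Prop := Continuous f ∧ ∃ B : ℝ, ∀ x, |f x| ≤ B

lemma cb_bd (hf : CB f) : Bd f := ⟨hf.1.continuous, hf.2.imp fun _ h x => (h x).1⟩

lemma cb_bd_pd (hf : CB f) (k : Fin n) : Bd (pd k f) := by
  refine ⟨?_, hf.2.imp fun _ h x => (h x).2 k⟩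
  unfold pd
  exact (hf.1.continuous_fderiv (by simp)).clm_apply continuous_const

lemma Bd.int (hf : Bd f) (y : E n) (a : ℝ) : Integrable (fun z => f (y + a • z)) (gm n) := by
  obtain ⟨h1, B, hB⟩ := hf
  refine Integrable.of_bound (h1.comp (continuous_const.add
    (continuous_const_smul a))).aestronglyMeasurable B (ae_of_all _ fun z => ?_)
  rw [Real.norm_eq_abs]
  exact hB _

lemma PG_le (hf : Bd f) {B : ℝ} (hB : ∀ x, f x ≤ B) (x : E n) : PG t f x ≤ B := by
  have := integral_mono (hf.int x (√t)) (integrable_const B) (fun z => hB _)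
  simpa [PG] using this

lemma le_PG (hf : Bd f) {B : ℝ} (hB : ∀ x, B ≤ f x) (x : E n) : B ≤ PG t f x := by
  have := integral_mono (integrable_const B) (hf.int x (√t)) (fun z => hB _)
  simpa [PG] using this

lemma abs_PG_le (hf : Bd f) {B : ℝ} (hB : ∀ x, |f x| ≤ B) (x : E n) : |PG t f x| ≤ B :=
  abs_le.2 ⟨le_PG hf (fun x => (abs_le.1 (hB x)).1) x, PG_le hf (fun x => (abs_le.1 (hB x)).2) x⟩

/-- joint continuity of Gaussian averages along moving points -/
lemma cont_PG {X : Type*} [TopologicalSpace X] [FirstCountableTopology X] (hf : Bd f)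
    {y : X → E n} {a : X → ℝ} (hy : Continuous y) (ha : Continuous a) :
    Continuous fun x => ∫ z, f (y x + a x • z) ∂(gm n) := by
  obtain ⟨h1, B, hB⟩ := hf
  refine continuous_of_dominated (bound := fun _ => B) ?_ ?_ (integrable_const _) ?_
  · exact fun x => (h1.comp (continuous_const.add
      (continuous_const_smul (a x)))).aestronglyMeasurable
  · exact fun x => ae_of_all _ fun z => by rw [Real.norm_eq_abs]; exact hB _
  · exact ae_of_all _ fun z => h1.comp (hy.add (ha.smul continuous_const))

lemma Bd.PG (hf : Bd f) (t : ℝ) : Bd (PG t f) := by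
  refine ⟨cont_PG hf continuous_id continuous_const, hf.2.imp fun B hB x => ?_⟩
  exact abs_PG_le hf hB x

lemma CB_PG (ht : 0 ≤ t) (hf : CB f) : CB (PG t f) ∧ ∀ k, pd k (PG t f) = PG t (pd k f) := by
  rcases ht.eq_or_lt with h | h
  · subst h
    rw [PG_zero]
    exact ⟨hf, fun k => by rw [PG_zero]⟩
  · obtain ⟨h1, h2⟩ := NN_CB h hf
    rw [PG_eq_NN h]
    exact ⟨h1, fun k => by rw [h2 k, PG_eq_NN h]⟩

/-- chain rule along an affine map -/
lemma cb_aff (hf : CB f) (y : E n) (a : ℝ) :
    CB (fun z => f (y + a • z)) ∧ ∀ k z, pd k (fun z => f (y + a • z)) z = a * pd k f (y + a • z) := by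
  obtain ⟨h1, B, hB⟩ := hf
  have hpd : ∀ k z, pd k (fun z => f (y + a • z)) z = a * pd k f (y + a • z) := by
    intro k z
    have h3 : HasFDerivAt (fun z : E n => y + a • z) (a • ContinuousLinearMap.id ℝ (E n)) z :=
      ((hasFDerivAt_id z).const_smul a).const_add y
    have h4 := (h1.differentiable (by simp) (y + a • z)).hasFDerivAt.comp z h3
    unfold pd
    have e : (fun z => f (y + a • z)) = f ∘ fun z => y + a • z := rfl
    rw [e, h4.fderiv]
    simp
  refine ⟨⟨h1.comp (contDiff_const.add (contDiff_id.const_smul a)),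
    (1 + |a|) * B, fun z => ⟨?_, fun k => ?_⟩⟩, hpd⟩
  · have := (hB (y + a • z)).1
    have hB0 : 0 ≤ B := (abs_nonneg _).trans this
    nlinarith [abs_nonneg a]
  · rw [hpd, abs_mul]
    have := (hB (y + a • z)).2 k
    have hB0 : 0 ≤ B := (abs_nonneg _).trans this
    nlinarith [abs_nonneg a]

lemma int_coord (k : Fin n) : Integrable (fun z : E n => z k) (gm n) := int_gm_EG (EG.coord k)

lemma int_abs_coord (k : Fin n) : Integrable (fun z : E n => |z k|) (gm n) := (int_coord k).abs

/-- derivative of `f` along a curve with two Gaussian directions -/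
lemma path_deriv (hf : CB f) (x z z' : E n) (ht : r < t) (hr : 0 < r) :
    HasDerivAt (fun r => f (x + √r • z + √(t - r) • z'))
      (∑ k, (z k / (2 * √r) - z' k / (2 * √(t - r))) * pd k f (x + √r • z + √(t - r) • z')) r := by
  have h1 : HasDerivAt (fun r : ℝ => √r) (1 / (2 * √r)) r := Real.hasDerivAt_sqrt hr.ne'
  have h2 : HasDerivAt (fun r : ℝ => √(t - r)) (-(1 / (2 * √(t - r)))) r := by
    have h := ((hasDerivAt_id r).const_sub t).sqrt (sub_pos.2 ht).ne'
    simp only [id] at h
    rw [neg_div] at h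
    exact h
  have h3 : HasDerivAt (fun r : ℝ => x + √r • z + √(t - r) • z')
      ((1 / (2 * √r)) • z + (-(1 / (2 * √(t - r)))) • z') r :=
    ((h1.smul_const z).const_add x).add (h2.smul_const z')
  have h4 := (hf.1.differentiable (by simp) (x + √r • z + √(t - r) • z')).hasFDerivAt.comp_hasDerivAt
    r h3
  have e : fderiv ℝ f (x + √r • z + √(t - r) • z')
      ((1 / (2 * √r)) • z + (-(1 / (2 * √(t - r)))) • z') =
      ∑ k, (z k / (2 * √r) - z' k / (2 * √(t - r))) * pd k f (x + √r • z + √(t - r) • z') := by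
    rw [fderiv_eq_sum]
    refine Finset.sum_congr rfl fun k _ => ?_
    congr 1
    simp only [PiLp.add_apply, PiLp.smul_apply, smul_eq_mul]
    ring
  rw [← e]
  exact h4

/-- **heat equation along a path**: `d/dr (P_{t-r} f)(x + √r z)` -/
theorem PG_path (hf : CB f) (hf2 : ∀ k, CB (pd k f)) (x z : E n) (hr : 0 < r) (ht : r < t) :
    HasDerivAt (fun r => PG (t - r) f (x + √r • z))
      ((∑ k, z k / (2 * √r) * PG (t - r) (pd k f) (x + √r • z)) -
        1 / 2 * ∑ k, PG (t - r) (pd k (pd k f)) (x + √r • z)) r := by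
  obtain ⟨B, hB⟩ := id hf.2
  have hB0 : 0 ≤ B := (abs_nonneg _).trans (hB 0).1
  obtain ⟨ε, hε, hε1, hε2⟩ : ∃ ε > 0, ε < r ∧ ε < t - r := by
    refine ⟨min r (t - r) / 2, ?_, ?_, ?_⟩
    · have := lt_min hr (sub_pos.2 ht); linarith
    · have := min_le_left r (t - r); linarith
    · have := min_le_right r (t - r); have := sub_pos.2 ht; linarith
  have s1 : 0 < √(r - ε) := Real.sqrt_pos.2 (by linarith)
  have s2 : 0 < √(t - r - ε) := Real.sqrt_pos.2 (by linarith)
  have key := (hasDerivAt_integral_of_dominated_loc_of_deriv_le (μ := gm n)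
    (F := fun r z' => f (x + √r • z + √(t - r) • z'))
    (F' := fun r z' => ∑ k, (z k / (2 * √r) - z' k / (2 * √(t - r))) *
      pd k f (x + √r • z + √(t - r) • z')) (x₀ := r) (s := ball r ε)
    (bound := fun z' => ∑ k, (|z k| / (2 * √(r - ε)) + |z' k| / (2 * √(t - r - ε))) * B)
    (ball_mem_nhds r hε) ?_ ?_ ?_ ?_ ?_ ?_).2
  · -- identify the derivative
    have e : (∫ z', ∑ k, (z k / (2 * √r) - z' k / (2 * √(t - r))) *
        pd k f (x + √r • z + √(t - r) • z') ∂(gm n)) =
        (∑ k, z k / (2 * √r) * PG (t - r) (pd k f) (x + √r • z)) -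
        1 / 2 * ∑ k, PG (t - r) (pd k (pd k f)) (x + √r • z) := by
      have i1 : ∀ k, Integrable (fun z' => pd k f (x + √r • z + √(t - r) • z')) (gm n) :=
        fun k => (cb_bd_pd hf k).int _ _
      have i2 : ∀ k, Integrable (fun z' : E n => z' k * pd k f (x + √r • z + √(t - r) • z')) (gm n) := by
        intro k
        refine int_gm_EG ((EG.coord k).mul ?_)
        exact (CB.eg (cb_aff (hf2 k) _ _).1).1
      have i3 : ∀ k, Integrable (fun z' => (z k / (2 * √r) - z' k / (2 * √(t - r))) *
        pd k f (x + √r • z + √(t - r) • z')) (gm n) := by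
        intro k
        have := ((i1 k).const_mul (z k / (2 * √r))).sub ((i2 k).const_mul (1 / (2 * √(t - r))))
        refine this.congr (ae_of_all _ fun z' => ?_)
        simp only [Pi.sub_apply]
        ring
      rw [integral_finsetSum _ fun k _ => i3 k, Finset.mul_sum, ← Finset.sum_sub_distrib]
      refine Finset.sum_congr rfl fun k _ => ?_
      have e1 : ∫ z', (z k / (2 * √r) - z' k / (2 * √(t - r))) *
          pd k f (x + √r • z + √(t - r) • z') ∂(gm n) =
          z k / (2 * √r) * ∫ z', pd k f (x + √r • z + √(t - r) • z') ∂(gm n) -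
          1 / (2 * √(t - r)) * ∫ z', z' k * pd k f (x + √r • z + √(t - r) • z') ∂(gm n) := by
        rw [← integral_const_mul, ← integral_const_mul,
          ← integral_sub ((i1 k).const_mul _) ((i2 k).const_mul _)]
        refine integral_congr_ae (ae_of_all _ fun z' => ?_)
        simp only
        ring
      have e2 : ∫ z', z' k * pd k f (x + √r • z + √(t - r) • z') ∂(gm n) =
          √(t - r) * ∫ z', pd k (pd k f) (x + √r • z + √(t - r) • z') ∂(gm n) := by
        have h := cb_aff (hf2 k) (x + √r • z) (√(t - r))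
        rw [gm_ibp h.1 k, ← integral_const_mul]
        refine integral_congr_ae (ae_of_all _ fun z' => ?_)
        simp only
        rw [h.2]
      rw [e1, e2]
      have s3 : √(t - r) ≠ 0 := (Real.sqrt_pos.2 (sub_pos.2 ht)).ne'
      unfold PG
      field_simp
    rw [← e]
    exact key
  · refine Eventually.of_forall fun r => ?_
    exact (hf.1.continuous.comp (continuous_const.add
      (continuous_const_smul _))).aestronglyMeasurable
  · exact (cb_bd hf).int _ _
  · refine Continuous.aestronglyMeasurable ?_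
    refine continuous_finsetSum _ fun k _ => ?_
    refine Continuous.mul ?_ ((cb_bd_pd hf k).1.comp (continuous_const.add
      (continuous_const_smul _)))
    fun_prop
  · refine ae_of_all _ fun z' r' hr' => ?_
    rw [mem_ball, Real.dist_eq, abs_lt] at hr'
    have a1 : √(r - ε) ≤ √r' := Real.sqrt_le_sqrt (by linarith)
    have a2 : √(t - r - ε) ≤ √(t - r') := Real.sqrt_le_sqrt (by linarith)
    rw [Real.norm_eq_abs]
    refine (Finset.abs_sum_le_sum_abs _ _).trans (Finset.sum_le_sum fun k _ => ?_)
    rw [abs_mul]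
    refine mul_le_mul ?_ ((hB _).2 k) (abs_nonneg _) (by positivity)
    refine (abs_sub _ _).trans (add_le_add ?_ ?_)
    · rw [abs_div, abs_of_pos (by linarith : (0:ℝ) < 2 * √r')]
      gcongr
    · rw [abs_div, abs_of_pos (by linarith : (0:ℝ) < 2 * √(t - r'))]
      gcongr
  · refine integrable_finsetSum _ fun k _ => ?_
    refine Integrable.mul_const ?_ _
    exact (integrable_const _).add ((int_abs_coord k).div_const _)
  · refine ae_of_all _ fun z' r' hr' => ?_
    rw [mem_ball, Real.dist_eq, abs_lt] at hr'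
    exact path_deriv hf x z z' (by linarith) (by linarith)

end Crest.Agent.R201.Bk189
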