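import Crest.Agent.R201.Bk1_189

/-!
# R201 Bk2_189: `d/dr E_{μ_r} H(r,·)` along Gaussian noise, abstract form (helper189)
-/

set_option autoImplicit false
open MeasureTheory Matrix Filter Topology Metric Set
open scoped ContDiff ENNReal NNReal

namespace Crest.Agent.R201.Bk189

open Crest.Agent.R201 Crest.Agent.R201.An Crest.Agent.R201.Tw807

variable {n : ℕ} {w f g F : E n → ℝ} {t r : ℝ} (μ : Measure (E n))

/-- expectation of `F(X + √r G)` -/
noncomputable def EE (r : ℝ) (F : E n → ℝ) : ℝ := ∫ x, PG r F x ∂μ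

lemma EE_zero (F : E n → ℝ) : EE μ 0 F = ∫ x, F x ∂μ := by
  unfold EE
  rw [PG_zero]

lemma PG_smul (a : ℝ) (F : E n → ℝ) (x : E n) : PG r (fun y => a * F y) x = a * PG r F x :=
  integral_const_mul a _

lemma EE_smul (a : ℝ) (F : E n → ℝ) : EE μ r (fun y => a * F y) = a * EE μ r F := by
  unfold EE
  rw [← integral_const_mul]
  refine integral_congr_ae (ae_of_all _ fun x => ?_)
  exact PG_smul a F x

variable [IsProbabilityMeasure μ]

lemma cont_shift (r : ℝ) : Continuous fun p : E n × E n => p.1 + √r • p.2 := by fun_prop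

lemma int_prod_bd (hF : Bd F) (r : ℝ) :
    Integrable (fun p : E n × E n => F (p.1 + √r • p.2)) (μ.prod (gm n)) := by
  obtain ⟨h1, B, hB⟩ := hF
  refine Integrable.of_bound (h1.comp (cont_shift r)).aestronglyMeasurable B
    (ae_of_all _ fun z => ?_)
  rw [Real.norm_eq_abs]
  exact hB _

lemma EE_eq (hF : Bd F) (r : ℝ) : EE μ r F = ∫ p, F (p.1 + √r • p.2) ∂(μ.prod (gm n)) := by
  rw [integral_prod _ (int_prod_bd μ hF r)]
  rfl

lemma PG_int (hF : Bd F) (r : ℝ) : Integrable (PG r F) μ := by
  obtain ⟨h1, B, hB⟩ := hF.PG r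
  exact Integrable.of_bound h1.aestronglyMeasurable B (ae_of_all _ fun z => by
    rw [Real.norm_eq_abs]; exact hB _)

lemma PG_add (hF : Bd F) {G : E n → ℝ} (hG : Bd G) (x : E n) :
    PG r (fun y => F y + G y) x = PG r F x + PG r G x :=
  integral_add (hF.int x (√r)) (hG.int x (√r))

lemma EE_add (hF : Bd F) {G : E n → ℝ} (hG : Bd G) :
    EE μ r (fun y => F y + G y) = EE μ r F + EE μ r G := by
  unfold EE
  rw [← integral_add (PG_int μ hF r) (PG_int μ hG r)]
  refine integral_congr_ae (ae_of_all _ fun x => ?_)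
  exact PG_add hF hG x

lemma Bd.add (hF : Bd F) {G : E n → ℝ} (hG : Bd G) : Bd fun y => F y + G y := by
  obtain ⟨h1, B, hB⟩ := hF
  obtain ⟨h2, B', hB'⟩ := hG
  exact ⟨h1.add h2, B + B', fun x => (abs_add_le _ _).trans (add_le_add (hB x) (hB' x))⟩

lemma Bd.const (a : ℝ) : Bd fun _ : E n => a := ⟨continuous_const, |a|, fun _ => le_rfl⟩

lemma Bd.sum {ι : Type*} (S : Finset ι) {F : ι → E n → ℝ} (h : ∀ i ∈ S, Bd (F i)) :
    Bd fun y => ∑ i ∈ S, F i y := by
  classical
  induction S using Finset.induction_on with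
  | empty => simpa using Bd.const (n := n) 0
  | insert a S ha ih =>
    have h1 := (h a (Finset.mem_insert_self _ _)).add
      (ih fun i hi => h i (Finset.mem_insert_of_mem hi))
    simpa [Finset.sum_insert ha] using h1

lemma EE_sum {ι : Type*} (S : Finset ι) {F : ι → E n → ℝ} (h : ∀ i ∈ S, Bd (F i)) :
    EE μ r (fun y => ∑ i ∈ S, F i y) = ∑ i ∈ S, EE μ r (F i) := by
  classical
  induction S using Finset.induction_on with
  | empty =>
    simp only [Finset.sum_empty]
    unfold EE PG
    simp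
  | insert a S ha ih =>
    have h1 := EE_add μ (r := r) (h a (Finset.mem_insert_self _ _))
      (Bd.sum S fun i hi => h i (Finset.mem_insert_of_mem hi))
    rw [ih fun i hi => h i (Finset.mem_insert_of_mem hi)] at h1
    simp only [Finset.sum_insert ha]
    exact h1

/-- **abstract time derivative** along `x + √r z` -/
theorem EE_deriv {H R : ℝ → E n → ℝ} {V : Fin n → ℝ → E n → ℝ} {C : ℝ}
    (hH : ∀ r ∈ Ioo 0 t, Bd (H r)) (hR : ∀ r ∈ Ioo 0 t, Continuous (R r))
    (hV : ∀ k, ∀ r ∈ Ioo 0 t, CB (V k r))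
    (bR : ∀ r ∈ Ioo 0 t, ∀ y, |R r y| ≤ C) (bV : ∀ k, ∀ r ∈ Ioo 0 t, ∀ y, |V k r y| ≤ C)
    (hd : ∀ r ∈ Ioo 0 t, ∀ x z : E n, HasDerivAt (fun r => H r (x + √r • z))
      ((∑ k, z k / (2 * √r) * V k r (x + √r • z)) - 1 / 2 * R r (x + √r • z)) r)
    (hr : r ∈ Ioo 0 t) :
    HasDerivAt (fun r => EE μ r (H r))
      (1 / 2 * EE μ r (fun y => (∑ k, pd k (V k r) y) - R r y)) r := by
  obtain ⟨hr0, hrt⟩ := hr
  have hr : r ∈ Ioo 0 t := ⟨hr0, hrt⟩
  obtain ⟨ε, hε, hε1, hε2⟩ : ∃ ε > 0, ε < r ∧ ε < t - r := by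
    refine ⟨min r (t - r) / 2, ?_, ?_, ?_⟩
    · have := lt_min hr0 (sub_pos.2 hrt); linarith
    · have := min_le_left r (t - r); linarith
    · have := min_le_right r (t - r); have := sub_pos.2 hrt; linarith
  have s1 : 0 < √(r - ε) := Real.sqrt_pos.2 (by linarith)
  have hC : 0 ≤ C := (abs_nonneg _).trans (bR r hr 0)
  have hball : ∀ r' ∈ ball r ε, r' ∈ Ioo 0 t := fun r' hr' => by
    rw [mem_ball, Real.dist_eq, abs_lt] at hr'
    exact ⟨by linarith, by linarith⟩
  have key := (hasDerivAt_integral_of_dominated_loc_of_deriv_le (μ := μ.prod (gm n))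
    (F := fun r (p : E n × E n) => H r (p.1 + √r • p.2))
    (F' := fun r p => (∑ k, p.2 k / (2 * √r) * V k r (p.1 + √r • p.2)) -
      1 / 2 * R r (p.1 + √r • p.2)) (x₀ := r) (s := ball r ε)
    (bound := fun p => (∑ k, |p.2 k| / (2 * √(r - ε)) * C) + 1 / 2 * C)
    (ball_mem_nhds r hε) ?_ ?_ ?_ ?_ ?_ ?_).2
  · have e0 : (fun r => ∫ p : E n × E n, H r (p.1 + √r • p.2) ∂(μ.prod (gm n))) =ᶠ[𝓝 r]
        fun r => EE μ r (H r) := by
      filter_upwards [ball_mem_nhds r hε] with r' hr'
      exact (EE_eq μ (hH r' (hball r' hr')) r').symm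
    have e1 : ∫ p : E n × E n, ((∑ k, p.2 k / (2 * √r) * V k r (p.1 + √r • p.2)) -
        1 / 2 * R r (p.1 + √r • p.2)) ∂(μ.prod (gm n)) =
        1 / 2 * EE μ r (fun y => (∑ k, pd k (V k r) y) - R r y) := by
      have bdV : ∀ k, Bd (V k r) := fun k => cb_bd (hV k r hr)
      have bdP : ∀ k, Bd (pd k (V k r)) := fun k => cb_bd_pd (hV k r hr) k
      have bdR : Bd (R r) := ⟨hR r hr, C, bR r hr⟩
      have i1 : ∀ k, Integrable (fun p : E n × E n => p.2 k / (2 * √r) * V k r (p.1 + √r • p.2))
          (μ.prod (gm n)) := by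
        intro k
        have h1 : Integrable (fun p : E n × E n => p.2 k / (2 * √r)) (μ.prod (gm n)) := by
          have := (int_coord (n := n) k).comp_snd μ
          exact this.div_const _
        refine h1.mul_bdd (c := C) ((hV k r hr).1.continuous.comp
          (cont_shift r)).aestronglyMeasurable (ae_of_all _ fun p => ?_)
        rw [Real.norm_eq_abs]
        exact bV k r hr _
      have i2 := int_prod_bd μ bdR r
      rw [integral_sub (integrable_finsetSum _ fun k _ => i1 k) (i2.const_mul _),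
        integral_finsetSum _ fun k _ => i1 k, integral_const_mul, ← EE_eq μ bdR]
      have e2 : ∀ k, ∫ p : E n × E n, p.2 k / (2 * √r) * V k r (p.1 + √r • p.2) ∂(μ.prod (gm n)) =
          1 / 2 * EE μ r (pd k (V k r)) := by
        intro k
        rw [integral_prod _ (i1 k)]
        unfold EE
        rw [← integral_const_mul]
        refine integral_congr_ae (ae_of_all _ fun x => ?_)
        simp only
        have h := cb_aff (hV k r hr) x (√r)
        have h2 : ∫ z : E n, z k / (2 * √r) * V k r (x + √r • z) ∂(gm n) =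
            1 / (2 * √r) * ∫ z, z k * V k r (x + √r • z) ∂(gm n) := by
          rw [← integral_const_mul]
          refine integral_congr_ae (ae_of_all _ fun z => ?_)
          simp only
          ring
        have h3 : ∫ z, pd k (fun z => V k r (x + √r • z)) z ∂(gm n) =
            √r * ∫ z, pd k (V k r) (x + √r • z) ∂(gm n) := by
          rw [← integral_const_mul]
          refine integral_congr_ae (ae_of_all _ fun z => ?_)
          simp only
          rw [h.2]
        rw [h2, gm_ibp h.1 k, h3]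
        have s3 : √r ≠ 0 := (Real.sqrt_pos.2 hr0).ne'
        unfold PG
        field_simp
      simp_rw [e2]
      have e3 : EE μ r (fun y => (∑ k, pd k (V k r) y) - R r y) =
          (∑ k, EE μ r (pd k (V k r))) - EE μ r (R r) := by
        have e4 : (fun y => (∑ k, pd k (V k r) y) - R r y) =
            fun y => (∑ k, pd k (V k r) y) + (-1) * R r y := by
          funext y; ring
        have bdR' : Bd fun y => (-1) * R r y :=
          ⟨continuous_const.mul (hR r hr), C, fun y => by simpa using bR r hr y⟩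
        rw [e4, EE_add μ (Bd.sum _ fun k _ => bdP k) bdR', EE_smul,
          EE_sum μ _ fun k _ => bdP k]
        ring
      rw [e3, ← Finset.mul_sum]
      ring
    rw [← e1]
    exact key.congr_of_eventuallyEq e0.symm
  · filter_upwards [ball_mem_nhds r hε] with r' hr'
    exact ((hH r' (hball r' hr')).1.comp (cont_shift r')).aestronglyMeasurable
  · exact int_prod_bd μ (hH r hr) r
  · refine Continuous.aestronglyMeasurable ?_
    refine Continuous.sub (continuous_finsetSum _ fun k _ => ?_)
      (continuous_const.mul ((hR r hr).comp (cont_shift r)))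
    refine Continuous.mul ?_ ((hV k r hr).1.continuous.comp (cont_shift r))
    fun_prop
  · refine ae_of_all _ fun p r' hr' => ?_
    have hr'' := hball r' hr'
    rw [mem_ball, Real.dist_eq, abs_lt] at hr'
    have a1 : √(r - ε) ≤ √r' := Real.sqrt_le_sqrt (by linarith)
    rw [Real.norm_eq_abs]
    refine (abs_sub _ _).trans (add_le_add ?_ ?_)
    · refine (Finset.abs_sum_le_sum_abs _ _).trans (Finset.sum_le_sum fun k _ => ?_)
      rw [abs_mul, abs_div, abs_of_pos (by linarith : (0:ℝ) < 2 * √r')]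
      have := bV k r' hr'' (p.1 + √r' • p.2)
      gcongr
    · rw [abs_mul, abs_of_pos (by norm_num : (0:ℝ) < 1 / 2)]
      exact mul_le_mul_of_nonneg_left (bR r' hr'' _) (by norm_num)
  · refine Integrable.add (integrable_finsetSum _ fun k _ => ?_) (integrable_const _)
    refine Integrable.mul_const ?_ _
    exact ((int_abs_coord (n := n) k).comp_snd μ).div_const _
  · exact ae_of_all _ fun p r' hr' => hd r' (hball r' hr') p.1 p.2

/-- continuity in time up to the end points -/
theorem EE_cont {H : ℝ → E n → ℝ} {C : ℝ} {S : Set ℝ} (hH : ∀ r ∈ S, Bd (H r))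
    (bH : ∀ r ∈ S, ∀ y, |H r y| ≤ C)
    (hc : ∀ x z : E n, ContinuousOn (fun r => H r (x + √r • z)) S) :
    ContinuousOn (fun r => EE μ r (H r)) S := by
  have e : Set.EqOn (fun r => EE μ r (H r))
      (fun r => ∫ p : E n × E n, H r (p.1 + √r • p.2) ∂(μ.prod (gm n))) S :=
    fun r hr => EE_eq μ (hH r hr) r
  refine ContinuousOn.congr ?_ e
  refine continuousOn_of_dominated (bound := fun _ => C) ?_ ?_ (integrable_const _) ?_
  · exact fun r hr => ((hH r hr).1.comp (cont_shift r)).aestronglyMeasurable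
  · exact fun r hr => ae_of_all _ fun p => by rw [Real.norm_eq_abs]; exact bH r hr _
  · exact ae_of_all _ fun p => hc p.1 p.2

omit [IsProbabilityMeasure μ] in
/-- link with the weights: `E_{μ_r} F` for `r > 0` -/
theorem EE_nm (hw : Ex w) (hr : 0 < r) (hF : EG F) :
    EE (nm w) r F = Em (Lp w r fun _ => 1) F := by
  unfold EE
  rw [PG_eq_NN hr, int_nm hw, Em_NN hw hr hF]

omit [IsProbabilityMeasure μ] in
theorem EE_nm_zero (hw : Ex w) (F : E n → ℝ) : EE (nm w) 0 F = Em w F := by
  rw [EE_zero, int_nm hw]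

end Crest.Agent.R201.Bk189
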