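import Crest.Agent.R201.Bk2_189

/-!
# R201 Bk3_189: the backward leg: `H' = I/2`, `I' = E |D² log f|²` (helper189)

`φ` positive, `C³`-bounded; `f_r = PG (t-r) φ` (Gaussian average of the density ratio), base
`μ_r = law (X + √r G)`, any probability measure `μ`.
-/

set_option autoImplicit false
open MeasureTheory Matrix Filter Topology Metric Set
open scoped ContDiff ENNReal NNReal

namespace Crest.Agent.R201.Bk189

open Crest.Agent.R201 Crest.Agent.R201.An Crest.Agent.R201.Tw807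

variable {n : ℕ} {w f g F φ : E n → ℝ} {t r c : ℝ}

/-! ### log and inverse -/

lemma pd_log {u : E n → ℝ} {y : E n} (hu : DifferentiableAt ℝ u y) (h0 : u y ≠ 0) (k : Fin n) :
    pd k (fun y => Real.log (u y)) y = pd k u y / u y := by
  unfold pd
  rw [(hu.hasFDerivAt.log h0).fderiv]
  simp only [_root_.smul_apply, smul_eq_mul]
  ring

lemma pd_inv {u : E n → ℝ} {y : E n} (hu : DifferentiableAt ℝ u y) (h0 : u y ≠ 0) (k : Fin n) :
    pd k (fun y => (u y)⁻¹) y = -(pd k u y / u y ^ 2) := by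
  have h := (hasDerivAt_inv h0).comp_hasFDerivAt y hu.hasFDerivAt
  unfold pd
  have e : (fun y => (u y)⁻¹) = (fun x => x⁻¹) ∘ u := rfl
  rw [e, h.fderiv]
  simp only [_root_.smul_apply, smul_eq_mul]
  ring

lemma abs_log_le {u c B : ℝ} (hc : 0 < c) (h1 : c ≤ u) (h2 : u ≤ B) :
    |Real.log u| ≤ |Real.log c| + |Real.log B| := by
  have h3 := Real.log_le_log hc h1
  have h4 := Real.log_le_log (hc.trans_le h1) h2
  rw [abs_le]
  constructor
  · have := neg_abs_le (Real.log c); have := abs_nonneg (Real.log B); linarith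
  · have := le_abs_self (Real.log B); have := abs_nonneg (Real.log c); linarith

lemma cb_log {u : E n → ℝ} (hu : CB u) (hc : 0 < c) (h : ∀ y, c ≤ u y) :
    CB fun y => Real.log (u y) := by
  obtain ⟨h1, ⟨B, hB⟩, h3⟩ := cb_iff.1 hu
  have hp : ∀ y, 0 < u y := fun y => hc.trans_le (h y)
  refine cb_iff.2 ⟨h1.log fun y => (hp y).ne', ⟨|Real.log c| + |Real.log B|, fun y =>
    abs_log_le hc (h y) ((le_abs_self _).trans (hB y))⟩, fun k => ?_⟩
  obtain ⟨C, hC⟩ := h3 k
  refine ⟨C / c, fun y => ?_⟩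
  rw [pd_log (cb_diff hu y) (hp y).ne', abs_div, abs_of_pos (hp y)]
  exact div_le_div₀ ((abs_nonneg _).trans (hC y)) (hC y) hc (h y)

lemma cb_inv {u : E n → ℝ} (hu : CB u) (hc : 0 < c) (h : ∀ y, c ≤ u y) :
    CB fun y => (u y)⁻¹ := by
  obtain ⟨h1, ⟨B, hB⟩, h3⟩ := cb_iff.1 hu
  have hp : ∀ y, 0 < u y := fun y => hc.trans_le (h y)
  refine cb_iff.2 ⟨h1.inv fun y => (hp y).ne', ⟨c⁻¹, fun y => ?_⟩, fun k => ?_⟩
  · rw [abs_of_pos (inv_pos.2 (hp y))]
    exact inv_anti₀ hc (h y)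
  obtain ⟨C, hC⟩ := h3 k
  refine ⟨C / c ^ 2, fun y => ?_⟩
  rw [pd_inv (cb_diff hu y) (hp y).ne', abs_neg, abs_div, abs_of_pos (by have := hp y; positivity :
    0 < u y ^ 2)]
  exact div_le_div₀ ((abs_nonneg _).trans (hC y)) (hC y) (by positivity)
    (pow_le_pow_left₀ hc.le (h y) 2)

/-! ### the class of terminal data -/

/-- bounded `C³` with bounded derivatives -/
def C3 (φ : E n → ℝ) : Prop := CB φ ∧ (∀ k, CB (pd k φ)) ∧ ∀ k l, CB (pd l (pd k φ))

lemma C3.bound (h : C3 φ) : ∃ B : ℝ, 0 ≤ B ∧ (∀ x, |φ x| ≤ B) ∧ (∀ k x, |pd k φ x| ≤ B) ∧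
    (∀ k l x, |pd l (pd k φ) x| ≤ B) ∧ ∀ k l m x, |pd m (pd l (pd k φ)) x| ≤ B := by
  obtain ⟨h1, h2, h3⟩ := h
  obtain ⟨B, hB⟩ := h1.2
  choose B1 hB1 using fun k => (h2 k).2
  choose B2 hB2 using fun k l => (h3 k l).2
  have s1 : ∀ k, |B1 k| ≤ ∑ k, |B1 k| := fun k =>
    Finset.single_le_sum (f := fun k => |B1 k|) (fun _ _ => abs_nonneg _) (Finset.mem_univ k)
  have s2 : ∀ k l, |B2 k l| ≤ ∑ k, ∑ l, |B2 k l| := fun k l =>
    (Finset.single_le_sum (f := fun l => |B2 k l|) (fun _ _ => abs_nonneg _)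
      (Finset.mem_univ l)).trans (Finset.single_le_sum (f := fun k => ∑ l, |B2 k l|)
      (fun _ _ => Finset.sum_nonneg fun _ _ => abs_nonneg _) (Finset.mem_univ k))
  have n1 : 0 ≤ ∑ k, |B1 k| := Finset.sum_nonneg fun _ _ => abs_nonneg _
  have n2 : 0 ≤ ∑ k, ∑ l, |B2 k l| :=
    Finset.sum_nonneg fun _ _ => Finset.sum_nonneg fun _ _ => abs_nonneg _
  have n0 := abs_nonneg B
  refine ⟨|B| + (∑ k, |B1 k|) + ∑ k, ∑ l, |B2 k l|, by positivity, fun x => ?_, fun k x => ?_,
    fun k l x => ?_, fun k l m x => ?_⟩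
  · linarith [(hB x).1, le_abs_self B]
  · linarith [(hB x).2 k, le_abs_self B]
  · linarith [(hB1 k x).2 l, le_abs_self (B1 k), s1 k]
  · linarith [(hB2 k l x).2 m, le_abs_self (B2 k l), s2 k l]

/-! ### the functionals of the backward leg -/

variable (μ : Measure (E n))

/-- entropy without the mass term -/
noncomputable def Hb (t : ℝ) (φ : E n → ℝ) (r : ℝ) : ℝ :=
  EE μ r fun y => PG (t - r) φ y * Real.log (PG (t - r) φ y)

/-- Fisher information -/
noncomputable def Ib (t : ℝ) (φ : E n → ℝ) (r : ℝ) : ℝ :=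
  EE μ r fun y => (∑ k, pd k (PG (t - r) φ) y ^ 2) / PG (t - r) φ y

/-- `E |D² log f|²` -/
noncomputable def Ab (t : ℝ) (φ : E n → ℝ) (r : ℝ) : ℝ :=
  EE μ r fun y => PG (t - r) φ y *
    ∑ m, ∑ k, pd k (pd m fun y => Real.log (PG (t - r) φ y)) y ^ 2

variable [IsProbabilityMeasure μ]

section facts

variable (h : C3 φ) (hc : 0 < c) (hφ : ∀ y, c ≤ φ y)
include h hc hφ

omit h hc in
lemma low (hφ' : Bd φ) (a : ℝ) (y : E n) : c ≤ PG a φ y := le_PG hφ' hφ y

omit μ [IsProbabilityMeasure μ] hc hφ in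
lemma path_cont (ψ : E n → ℝ) (hψ : Bd ψ) (x z : E n) :
    Continuous fun r => PG (t - r) ψ (x + √r • z) := by
  have := cont_PG (X := ℝ) hψ (y := fun r : ℝ => x + √r • z) (a := fun r => √(t - r))
    (by fun_prop) (by fun_prop)
  exact this

/-- conservation of mass -/
theorem mass (hr : r ∈ Icc 0 t) : EE μ r (PG (t - r) φ) = EE μ t φ := by
  obtain ⟨B, hB0, b0, b1, b2, b3⟩ := h.bound
  have ht : 0 ≤ t := hr.1.trans hr.2
  rcases ht.eq_or_lt with ht0 | ht0
  · have : r = 0 := le_antisymm (ht0 ▸ hr.2) hr.1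
    subst this
    rw [← ht0, sub_zero, PG_zero]
  have hcont : ContinuousOn (fun r => EE μ r (PG (t - r) φ)) (Icc 0 t) := by
    refine EE_cont μ (C := B) (fun r _ => (cb_bd h.1).PG _) (fun r _ y => abs_PG_le (cb_bd h.1) b0 y)
      fun x z => (path_cont h φ (cb_bd h.1) x z).continuousOn
  have hder : ∀ r ∈ Ioo 0 t, HasDerivAt (fun r => EE μ r (PG (t - r) φ)) 0 r := by
    intro r hr
    have key := EE_deriv μ (t := t) (H := fun r => PG (t - r) φ)
      (V := fun k r => PG (t - r) (pd k φ))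
      (R := fun r y => ∑ k, PG (t - r) (pd k (pd k φ)) y) (C := B + n * B)
      (fun r _ => (cb_bd h.1).PG _)
      (fun r _ => continuous_finsetSum _ fun k _ => ((cb_bd_pd (h.2.1 k) k).PG _).1)
      (fun k r hr => (CB_PG (by linarith [hr.2]) (h.2.1 k)).1)
      (fun r _ y => ?_) (fun k r _ y => ?_) (fun r hr x z => PG_path h.1 h.2.1 x z hr.1 hr.2) hr
    · have e : (fun y => (∑ k, pd k (PG (t - r) (pd k φ)) y) -
          ∑ k, PG (t - r) (pd k (pd k φ)) y) = fun _ : E n => (0 : ℝ) := by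
        funext y
        rw [sub_eq_zero]
        exact Finset.sum_congr rfl fun k _ => by
          rw [(CB_PG (by linarith [hr.2] : 0 ≤ t - r) (h.2.1 k)).2 k]
      rw [e] at key
      have e2 : EE μ r (fun _ : E n => (0 : ℝ)) = 0 := by simp [EE, PG]
      rw [e2, mul_zero] at key
      exact key
    · refine (Finset.abs_sum_le_sum_abs _ _).trans ?_
      have : ∑ k : Fin n, |PG (t - r) (pd k (pd k φ)) y| ≤ ∑ _k : Fin n, B :=
        Finset.sum_le_sum fun k _ => abs_PG_le (cb_bd_pd (h.2.1 k) k) (b2 k k) y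
      simp only [Finset.sum_const, Finset.card_univ, Fintype.card_fin, nsmul_eq_mul] at this
      linarith
    · refine (abs_PG_le (cb_bd (h.2.1 k)) (b1 k) y).trans ?_
      have : 0 ≤ (n : ℝ) * B := by positivity
      linarith
  have e : EE μ t φ = EE μ t (PG (t - t) φ) := by rw [sub_self, PG_zero]
  rw [e]
  have h1 := intervalIntegral.integral_eq_sub_of_hasDerivAt_of_le
    (f := fun r => EE μ r (PG (t - r) φ)) (f' := fun _ => (0 : ℝ)) hr.2
    (hcont.mono (Icc_subset_Icc_left hr.1))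
    (fun x hx => hder x ⟨hr.1.trans_lt hx.1, hx.2⟩) (by simp)
  simp only [intervalIntegral.integral_zero] at h1
  linarith

/-- **`H' = I/2` on the backward leg** -/
theorem dHb (hr : r ∈ Ioo 0 t) : HasDerivAt (Hb μ t φ) (Ib μ t φ r / 2) r := by
  obtain ⟨B, hB0, b0, b1, b2, b3⟩ := h.bound
  have bφ := cb_bd h.1
  obtain ⟨Λ, hΛ⟩ : ∃ Λ : ℝ, Λ = |Real.log c| + |Real.log B| + 1 := ⟨_, rfl⟩
  have hΛ0 : 0 ≤ Λ := by rw [hΛ]; positivity
  have blog : ∀ a y, |Real.log (PG a φ y) + 1| ≤ Λ := fun a y => by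
    refine (abs_add_le _ _).trans ?_
    rw [abs_one]
    have := abs_log_le hc (low hφ bφ a y) ((le_abs_self _).trans (abs_PG_le bφ b0 y))
    rw [hΛ]
    linarith
  have pos : ∀ a y, 0 < PG a φ y := fun a y => hc.trans_le (low hφ bφ a y)
  have key : HasDerivAt (fun r => EE μ r fun y => PG (t - r) φ y * Real.log (PG (t - r) φ y))
      (1 / 2 * EE μ r fun y => (∑ k, pd k (fun y => (Real.log (PG (t - r) φ y) + 1) *
        PG (t - r) (pd k φ) y) y) -
        (Real.log (PG (t - r) φ y) + 1) * ∑ k, PG (t - r) (pd k (pd k φ)) y) r := by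
    refine EE_deriv μ (t := t)
      (H := fun r y => PG (t - r) φ y * Real.log (PG (t - r) φ y))
      (V := fun k r y => (Real.log (PG (t - r) φ y) + 1) * PG (t - r) (pd k φ) y)
      (R := fun r y => (Real.log (PG (t - r) φ y) + 1) * ∑ k, PG (t - r) (pd k (pd k φ)) y)
      (C := Λ * B + Λ * (n * B))
      (fun r hr => ?_) (fun r hr => ?_) (fun k r hr => ?_) (fun r hr y => ?_)
      (fun k r hr y => ?_) (fun r hr x z => ?_) hr
    · have hr' : 0 ≤ t - r := by linarith [hr.2]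
      exact cb_bd (cb_mul (CB_PG hr' h.1).1 (cb_log (CB_PG hr' h.1).1 hc (low hφ bφ (t - r))))
    · have hr' : 0 ≤ t - r := by linarith [hr.2]
      have cl := cb_log (CB_PG hr' h.1).1 hc (low hφ bφ (t - r))
      exact (cb_add cl (cb_const 1)).1.continuous.mul
        (continuous_finsetSum _ fun k _ => ((cb_bd_pd (h.2.1 k) k).PG _).1)
    · have hr' : 0 ≤ t - r := by linarith [hr.2]
      have cl := cb_log (CB_PG hr' h.1).1 hc (low hφ bφ (t - r))
      exact cb_mul (cb_add cl (cb_const 1)) (CB_PG hr' (h.2.1 k)).1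
    · rw [abs_mul]
      have h1 : |∑ k : Fin n, PG (t - r) (pd k (pd k φ)) y| ≤ n * B := by
        refine (Finset.abs_sum_le_sum_abs _ _).trans ?_
        have : ∑ k : Fin n, |PG (t - r) (pd k (pd k φ)) y| ≤ ∑ _k : Fin n, B :=
          Finset.sum_le_sum fun k _ => abs_PG_le (cb_bd_pd (h.2.1 k) k) (b2 k k) y
        simpa using this
      have h2 := mul_le_mul (blog (t - r) y) h1 (abs_nonneg _) hΛ0
      have h3 : 0 ≤ Λ * B := by positivity
      linarith
    · rw [abs_mul]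
      have h2 := mul_le_mul (blog (t - r) y) (abs_PG_le (t := t - r) (cb_bd (h.2.1 k)) (b1 k) y)
        (abs_nonneg _) hΛ0
      have h3 : 0 ≤ Λ * (n * B) := by positivity
      linarith
    · have d := PG_path h.1 h.2.1 x z hr.1 hr.2
      have hp := (pos (t - r) (x + √r • z)).ne'
      have d2 := d.mul (d.log hp)
      refine d2.congr_deriv ?_
      have e1 : (∑ k, z k / (2 * √r) * ((Real.log (PG (t - r) φ (x + √r • z)) + 1) *
          PG (t - r) (pd k φ) (x + √r • z))) = (Real.log (PG (t - r) φ (x + √r • z)) + 1) *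
          ∑ k, z k / (2 * √r) * PG (t - r) (pd k φ) (x + √r • z) := by
        rw [Finset.mul_sum]
        exact Finset.sum_congr rfl fun k _ => by ring
      rw [e1]
      generalize (∑ k, z k / (2 * √r) * PG (t - r) (pd k φ) (x + √r • z)) = S2
      generalize (∑ k, PG (t - r) (pd k (pd k φ)) (x + √r • z)) = S4
      revert hp
      generalize PG (t - r) φ (x + √r • z) = u
      intro hp
      have e3 : u * ((S2 - 1 / 2 * S4) / u) = S2 - 1 / 2 * S4 := mul_div_cancel₀ _ hp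
      rw [e3]
      ring
  have e : (fun y => (∑ k, pd k (fun y => (Real.log (PG (t - r) φ y) + 1) *
      PG (t - r) (pd k φ) y) y) -
      (Real.log (PG (t - r) φ y) + 1) * ∑ k, PG (t - r) (pd k (pd k φ)) y) =
      fun y => (∑ k, pd k (PG (t - r) φ) y ^ 2) / PG (t - r) φ y := by
    have hr' : 0 ≤ t - r := by linarith [hr.2]
    have cu := (CB_PG hr' h.1).1
    funext y
    rw [Finset.mul_sum, ← Finset.sum_sub_distrib, Finset.sum_div]
    refine Finset.sum_congr rfl fun k _ => ?_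
    have hp := (pos (t - r) y).ne'
    have cl := cb_log cu hc (low hφ bφ (t - r))
    rw [pd_mul k (cb_diff (cb_add cl (cb_const 1)) y) (cb_diff (CB_PG hr' (h.2.1 k)).1 y),
      pd_add k (cb_diff cl y) (cb_diff (cb_const 1) y), pd_const, pd_log (cb_diff cu y) hp,
      (CB_PG hr' (h.2.1 k)).2 k, (CB_PG hr' h.1).2 k]
    field_simp
    ring
  rw [e] at key
  have e2 : Ib μ t φ r / 2 = 1 / 2 * EE μ r fun y =>
      (∑ k, pd k (PG (t - r) φ) y ^ 2) / PG (t - r) φ y := by
    unfold Ib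
    ring
  rw [e2]
  exact key

omit μ [IsProbabilityMeasure μ] hc hφ in
lemma abs_lap (h1 : ∀ k x, |pd k (pd k φ) x| ≤ c) (a : ℝ) (y : E n) :
    |∑ k : Fin n, PG a (pd k (pd k φ)) y| ≤ n * c := by
  refine (Finset.abs_sum_le_sum_abs _ _).trans ?_
  have : ∑ k : Fin n, |PG a (pd k (pd k φ)) y| ≤ ∑ _k : Fin n, c :=
    Finset.sum_le_sum fun k _ => abs_PG_le (cb_bd_pd (h.2.1 k) k) (h1 k) y
  simpa using this

omit μ [IsProbabilityMeasure μ] in
/-- the score `D_m log f` -/
lemma score (ha : 0 ≤ r) (m : Fin n) :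
    (pd m fun y => Real.log (PG r φ y)) = fun y => PG r (pd m φ) y * (PG r φ y)⁻¹ := by
  have bφ := cb_bd h.1
  funext y
  rw [pd_log (cb_diff (CB_PG ha h.1).1 y) (hc.trans_le (low hφ bφ r y)).ne', (CB_PG ha h.1).2 m]
  rfl

/-- one component of the Fisher information -/
theorem dIb_comp (m : Fin n) (hr : r ∈ Ioo 0 t) : HasDerivAt (fun r => EE μ r fun y =>
      PG (t - r) (pd m φ) y * (PG (t - r) (pd m φ) y * (PG (t - r) φ y)⁻¹))
      (EE μ r fun y => PG (t - r) φ y *
        ∑ k, pd k (pd m fun y => Real.log (PG (t - r) φ y)) y ^ 2) r := by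
  obtain ⟨B, hB0, b0, b1, b2, b3⟩ := h.bound
  have bφ := cb_bd h.1
  have pos : ∀ a y, 0 < PG a φ y := fun a y => hc.trans_le (low hφ bφ a y)
  have ci : 0 < c⁻¹ := inv_pos.2 hc
  have binv : ∀ a y, |(PG a φ y)⁻¹| ≤ c⁻¹ := fun a y => by
    rw [abs_of_pos (inv_pos.2 (pos a y))]
    exact inv_anti₀ hc (low hφ bφ a y)
  set q : ℝ → E n → ℝ := fun a y => PG a (pd m φ) y * (PG a φ y)⁻¹ with hq
  have bq : ∀ a y, |q a y| ≤ B * c⁻¹ := fun a y => by
    rw [hq]
    simp only
    rw [abs_mul]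
    exact mul_le_mul (abs_PG_le (cb_bd (h.2.1 m)) (b1 m) y) (binv a y) (abs_nonneg _) hB0
  have cq : ∀ a, 0 ≤ a → CB (q a) := fun a ha =>
    cb_mul (CB_PG ha (h.2.1 m)).1 (cb_inv (CB_PG ha h.1).1 hc (low hφ bφ a))
  have lap : ∀ a y, |∑ k : Fin n, PG a (pd k (pd k φ)) y| ≤ n * B := fun a y => by
    refine (Finset.abs_sum_le_sum_abs _ _).trans ?_
    have : ∑ k : Fin n, |PG a (pd k (pd k φ)) y| ≤ ∑ _k : Fin n, B :=
      Finset.sum_le_sum fun k _ => abs_PG_le (cb_bd_pd (h.2.1 k) k) (b2 k k) y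
    simpa using this
  have lap3 : ∀ a y, |∑ k : Fin n, PG a (pd k (pd k (pd m φ))) y| ≤ n * B := fun a y => by
    refine (Finset.abs_sum_le_sum_abs _ _).trans ?_
    have : ∑ k : Fin n, |PG a (pd k (pd k (pd m φ))) y| ≤ ∑ _k : Fin n, B :=
      Finset.sum_le_sum fun k _ => abs_PG_le (cb_bd_pd (h.2.2 m k) k) (b3 m k k) y
    simpa using this
  set M := B * c⁻¹ with hM
  have hM0 : 0 ≤ M := by positivity
  have hn : 0 ≤ (n : ℝ) * B := by positivity
  have key := EE_deriv μ (t := t)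
    (H := fun r y => PG (t - r) (pd m φ) y * q (t - r) y)
    (V := fun k r y => 2 * q (t - r) y * PG (t - r) (pd k (pd m φ)) y -
      q (t - r) y * q (t - r) y * PG (t - r) (pd k φ) y)
    (R := fun r y => 2 * q (t - r) y * (∑ k, PG (t - r) (pd k (pd k (pd m φ))) y) -
      q (t - r) y * q (t - r) y * ∑ k, PG (t - r) (pd k (pd k φ)) y)
    (C := (2 * M * B + M * M * B) + (2 * M * (n * B) + M * M * (n * B)))
    (fun r hr => ?_) (fun r hr => ?_) (fun k r hr => ?_) (fun r hr y => ?_)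
    (fun k r hr y => ?_) (fun r hr x z => ?_) hr
  · have hr' : 0 ≤ t - r := by linarith [hr.2]
    have e : (fun y => (∑ k, pd k (fun y => 2 * q (t - r) y * PG (t - r) (pd k (pd m φ)) y -
        q (t - r) y * q (t - r) y * PG (t - r) (pd k φ) y) y) -
        (2 * q (t - r) y * (∑ k, PG (t - r) (pd k (pd k (pd m φ))) y) -
        q (t - r) y * q (t - r) y * ∑ k, PG (t - r) (pd k (pd k φ)) y)) =
        fun y => 2 * (PG (t - r) φ y *
          ∑ k, pd k (pd m fun y => Real.log (PG (t - r) φ y)) y ^ 2) := by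
      rw [score h hc hφ hr' m]
      funext y
      have c1 := cb_diff (cq _ hr') y
      have hp := (pos (t - r) y).ne'
      rw [Finset.mul_sum, Finset.mul_sum, Finset.mul_sum, Finset.mul_sum,
        ← Finset.sum_sub_distrib, ← Finset.sum_sub_distrib]
      refine Finset.sum_congr rfl fun k _ => ?_
      have c2 := cb_diff (CB_PG hr' (h.2.2 m k)).1 y
      have c3 := cb_diff (CB_PG hr' (h.2.1 k)).1 y
      have c4 := cb_diff (CB_PG hr' (h.2.1 m)).1 y
      have c5 := cb_diff (CB_PG hr' h.1).1 y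
      have eq1 : pd k (q (t - r)) y = PG (t - r) (pd m φ) y *
          (-(PG (t - r) (pd k φ) y / PG (t - r) φ y ^ 2)) +
          PG (t - r) (pd k (pd m φ)) y * (PG (t - r) φ y)⁻¹ := by
        rw [hq]
        simp only
        have c6 : DifferentiableAt ℝ (fun y => (PG (t - r) φ y)⁻¹) y := c5.inv hp
        rw [pd_mul k c4 c6, pd_inv c5 hp, (CB_PG hr' (h.2.1 m)).2 k,
          (CB_PG hr' h.1).2 k]
      have d1 : DifferentiableAt ℝ (fun y => 2 * q (t - r) y) y := c1.const_mul 2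
      have d2 : DifferentiableAt ℝ (fun y => q (t - r) y * q (t - r) y) y := c1.mul c1
      have d3 : DifferentiableAt ℝ (fun y => 2 * q (t - r) y * PG (t - r) (pd k (pd m φ)) y) y :=
        d1.mul c2
      have d4 : DifferentiableAt ℝ
          (fun y => q (t - r) y * q (t - r) y * PG (t - r) (pd k φ) y) y := d2.mul c3
      rw [pd_sub k d3 d4, pd_mul k d1 c2, pd_mul k d2 c3, pd_mul k c1 c1,
        pd_const_mul 2 k c1, (CB_PG hr' (h.2.2 m k)).2 k, (CB_PG hr' (h.2.1 k)).2 k]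
      change _ = 2 * (PG (t - r) φ y * pd k (q (t - r)) y ^ 2)
      rw [eq1]
      simp only [hq]
      field_simp
      ring
    rw [e, EE_smul] at key
    convert key using 1
    ring
  · have hr' : 0 ≤ t - r := by linarith [hr.2]
    exact cb_bd (cb_mul (CB_PG hr' (h.2.1 m)).1 (cq _ hr'))
  · have hr' : 0 ≤ t - r := by linarith [hr.2]
    have c1 := (cq _ hr').1.continuous
    refine Continuous.sub (Continuous.mul (continuous_const.mul c1) ?_)
      (Continuous.mul (c1.mul c1) ?_)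
    · exact continuous_finsetSum _ fun k _ => ((cb_bd_pd (h.2.2 m k) k).PG _).1
    · exact continuous_finsetSum _ fun k _ => ((cb_bd_pd (h.2.1 k) k).PG _).1
  · have hr' : 0 ≤ t - r := by linarith [hr.2]
    have c1 := cq _ hr'
    exact cb_sub (cb_mul (cb_const_mul 2 c1) (CB_PG hr' (h.2.2 m k)).1)
      (cb_mul (cb_mul c1 c1) (CB_PG hr' (h.2.1 k)).1)
  · refine (abs_sub _ _).trans ?_
    have h1 := bq (t - r) y
    have h2 := lap (t - r) y
    have h3 := lap3 (t - r) y
    have g1 : |2 * q (t - r) y * ∑ k, PG (t - r) (pd k (pd k (pd m φ))) y| ≤ 2 * M * (n * B) := by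
      rw [abs_mul, abs_mul, abs_two]
      gcongr
    have g2 : |q (t - r) y * q (t - r) y * ∑ k, PG (t - r) (pd k (pd k φ)) y| ≤
        M * M * (n * B) := by
      rw [abs_mul, abs_mul]
      gcongr
    have g3 : 0 ≤ 2 * M * B + M * M * B := by positivity
    linarith
  · refine (abs_sub _ _).trans ?_
    have h1 := bq (t - r) y
    have h2 := abs_PG_le (t := t - r) (cb_bd (h.2.2 m k)) (b2 m k) y
    have h3 := abs_PG_le (t := t - r) (cb_bd (h.2.1 k)) (b1 k) y
    have g1 : |2 * q (t - r) y * PG (t - r) (pd k (pd m φ)) y| ≤ 2 * M * B := by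
      rw [abs_mul, abs_mul, abs_two]
      gcongr
    have g2 : |q (t - r) y * q (t - r) y * PG (t - r) (pd k φ) y| ≤ M * M * B := by
      rw [abs_mul, abs_mul]
      gcongr
    have g3 : 0 ≤ 2 * M * (n * B) + M * M * (n * B) := by positivity
    linarith
  · have d := PG_path h.1 h.2.1 x z hr.1 hr.2
    have dm := PG_path (h.2.1 m) (h.2.2 m) x z hr.1 hr.2
    have hp := (pos (t - r) (x + √r • z)).ne'
    have d2 : HasDerivAt (fun r => PG (t - r) (pd m φ) (x + √r • z) *
        (PG (t - r) (pd m φ) (x + √r • z) * (PG (t - r) φ (x + √r • z))⁻¹)) _ r :=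
      dm.mul (dm.mul (d.inv hp))
    refine d2.congr_deriv ?_
    have e1 : (∑ k, z k / (2 * √r) * (2 * q (t - r) (x + √r • z) *
        PG (t - r) (pd k (pd m φ)) (x + √r • z) -
        q (t - r) (x + √r • z) * q (t - r) (x + √r • z) * PG (t - r) (pd k φ) (x + √r • z))) =
        2 * q (t - r) (x + √r • z) *
          (∑ k, z k / (2 * √r) * PG (t - r) (pd k (pd m φ)) (x + √r • z)) -
        q (t - r) (x + √r • z) * q (t - r) (x + √r • z) *
          ∑ k, z k / (2 * √r) * PG (t - r) (pd k φ) (x + √r • z) := by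
      rw [Finset.mul_sum, Finset.mul_sum, ← Finset.sum_sub_distrib]
      exact Finset.sum_congr rfl fun k _ => by ring
    rw [e1]
    simp only [hq]
    generalize (∑ k, z k / (2 * √r) * PG (t - r) (pd k (pd m φ)) (x + √r • z)) = S1
    generalize (∑ k, z k / (2 * √r) * PG (t - r) (pd k φ) (x + √r • z)) = S2
    generalize (∑ k, PG (t - r) (pd k (pd k (pd m φ))) (x + √r • z)) = S3
    generalize (∑ k, PG (t - r) (pd k (pd k φ)) (x + √r • z)) = S4
    generalize PG (t - r) (pd m φ) (x + √r • z) = a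
    revert hp
    generalize PG (t - r) φ (x + √r • z) = u
    intro hp
    field_simp
    ring

end facts

end Crest.Agent.R201.Bk189
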