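import Crest.Agent.R201.Bk3_189

/-!
# R201 Bk4_189: the backward leg: `I' = E |D² log f|²`, continuity on the closed interval
(helper189)
-/

set_option autoImplicit false
open MeasureTheory Matrix Filter Topology Metric Set
open scoped ContDiff ENNReal NNReal

namespace Crest.Agent.R201.Bk189

open Crest.Agent.R201 Crest.Agent.R201.An Crest.Agent.R201.Tw807

variable {n : ℕ} {w f g F φ : E n → ℝ} {t r c : ℝ}

lemma Bd.mul {F G : E n → ℝ} (hF : Bd F) (hG : Bd G) : Bd fun y => F y * G y := by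
  obtain ⟨h1, B, hB⟩ := hF
  obtain ⟨h2, B', hB'⟩ := hG
  refine ⟨h1.mul h2, B * B', fun x => ?_⟩
  rw [abs_mul]
  exact mul_le_mul (hB x) (hB' x) (abs_nonneg _) ((abs_nonneg _).trans (hB x))

lemma Bd.sq {F : E n → ℝ} (hF : Bd F) : Bd fun y => F y ^ 2 := by
  have := hF.mul hF
  simpa [pow_two] using this

section facts

variable (h : C3 φ) (hc : 0 < c) (hφ : ∀ y, c ≤ φ y)
include h hc hφ

lemma fi_eq (ht : 0 ≤ t) : (fun y => (∑ k, pd k (PG t φ) y ^ 2) / PG t φ y) =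
    fun y => ∑ m, PG t (pd m φ) y * (PG t (pd m φ) y * (PG t φ y)⁻¹) := by
  funext y
  rw [Finset.sum_div]
  refine Finset.sum_congr rfl fun m _ => ?_
  rw [(CB_PG ht h.1).2 m, div_eq_mul_inv]
  ring

lemma cb_score (ht : 0 ≤ t) (m : Fin n) : CB fun y => PG t (pd m φ) y * (PG t φ y)⁻¹ :=
  cb_mul (CB_PG ht (h.2.1 m)).1 (cb_inv (CB_PG ht h.1).1 hc (low hφ (cb_bd h.1) t))

lemma bd_fi (ht : 0 ≤ t) (m : Fin n) :
    Bd fun y => PG t (pd m φ) y * (PG t (pd m φ) y * (PG t φ y)⁻¹) :=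
  (cb_bd (CB_PG ht (h.2.1 m)).1).mul (cb_bd (cb_score h hc hφ ht m))

lemma bd_hess (ht : 0 ≤ t) (m : Fin n) : Bd fun y => PG t φ y *
    ∑ k, pd k (pd m fun y => Real.log (PG t φ y)) y ^ 2 := by
  rw [score h hc hφ ht m]
  exact (cb_bd (CB_PG ht h.1).1).mul
    (Bd.sum _ fun k _ => (cb_bd_pd (cb_score h hc hφ ht m) k).sq)

lemma bd_hess_all (ht : 0 ≤ t) : Bd fun y => PG t φ y *
    ∑ m, ∑ k, pd k (pd m fun y => Real.log (PG t φ y)) y ^ 2 := by
  have e : (fun y => PG t φ y * ∑ m, ∑ k, pd k (pd m fun y => Real.log (PG t φ y)) y ^ 2) =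
      fun y => ∑ m, PG t φ y * ∑ k, pd k (pd m fun y => Real.log (PG t φ y)) y ^ 2 := by
    funext y; rw [Finset.mul_sum]
  rw [e]
  exact Bd.sum _ fun m _ => bd_hess h hc hφ ht m

lemma bd_fi_all (ht : 0 ≤ t) : Bd fun y => (∑ k, pd k (PG t φ) y ^ 2) / PG t φ y := by
  rw [fi_eq h hc hφ ht]
  exact Bd.sum _ fun m _ => bd_fi h hc hφ ht m

lemma bd_ent (ht : 0 ≤ t) : Bd fun y => PG t φ y * Real.log (PG t φ y) :=
  cb_bd (cb_mul (CB_PG ht h.1).1 (cb_log (CB_PG ht h.1).1 hc (low hφ (cb_bd h.1) t)))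

variable (μ : Measure (E n)) [IsProbabilityMeasure μ]

lemma Ib_eq (hr : r ≤ t) : Ib μ t φ r =
    ∑ m, EE μ r fun y => PG (t - r) (pd m φ) y * (PG (t - r) (pd m φ) y * (PG (t - r) φ y)⁻¹) := by
  have ht : 0 ≤ t - r := sub_nonneg.2 hr
  unfold Ib
  rw [fi_eq h hc hφ ht, EE_sum μ _ fun m _ => bd_fi h hc hφ ht m]

lemma Ab_eq (hr : r ≤ t) : Ab μ t φ r = ∑ m, EE μ r fun y => PG (t - r) φ y *
    ∑ k, pd k (pd m fun y => Real.log (PG (t - r) φ y)) y ^ 2 := by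
  have ht : 0 ≤ t - r := sub_nonneg.2 hr
  unfold Ab
  rw [← EE_sum μ _ fun m _ => bd_hess h hc hφ ht m]
  congr 1
  funext y
  rw [Finset.mul_sum]

/-- **`I' = E |D² log f|²` on the backward leg** -/
theorem dIb (hr : r ∈ Ioo 0 t) : HasDerivAt (Ib μ t φ) (Ab μ t φ r) r := by
  rw [Ab_eq h hc hφ μ hr.2.le]
  have key : HasDerivAt (fun r => ∑ m, EE μ r fun y => PG (t - r) (pd m φ) y *
      (PG (t - r) (pd m φ) y * (PG (t - r) φ y)⁻¹))
      (∑ m, EE μ r fun y => PG (t - r) φ y *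
    ∑ k, pd k (pd m fun y => Real.log (PG (t - r) φ y)) y ^ 2) r :=
    HasDerivAt.fun_sum fun m _ => dIb_comp μ h hc hφ m hr
  refine key.congr_of_eventuallyEq ?_
  filter_upwards [Iio_mem_nhds hr.2] with r' hr'
  exact Ib_eq h hc hφ μ (le_of_lt hr')

/-- continuity of `H` on the closed backward leg -/
theorem cHb : ContinuousOn (Hb μ t φ) (Icc 0 t) := by
  obtain ⟨B, hB0, b0, b1, b2, b3⟩ := h.bound
  have bφ := cb_bd h.1
  refine EE_cont μ (H := fun r y => PG (t - r) φ y * Real.log (PG (t - r) φ y))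
    (C := B * (|Real.log c| + |Real.log B|)) (fun r hr => bd_ent h hc hφ (sub_nonneg.2 hr.2))
    (fun r _ y => ?_) fun x z => ?_
  · rw [abs_mul]
    exact mul_le_mul (abs_PG_le bφ b0 y) (abs_log_le hc (low hφ bφ _ y)
      ((le_abs_self _).trans (abs_PG_le bφ b0 y))) (abs_nonneg _) hB0
  · have h1 := path_cont (t := t) h φ bφ x z
    refine (h1.mul (h1.log fun r => ?_)).continuousOn
    exact (hc.trans_le (low hφ bφ _ _)).ne'

/-- continuity of `I` on the closed backward leg -/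
theorem cIb : ContinuousOn (Ib μ t φ) (Icc 0 t) := by
  obtain ⟨B, hB0, b0, b1, b2, b3⟩ := h.bound
  have bφ := cb_bd h.1
  have key : ContinuousOn (fun r => ∑ m, EE μ r fun y => PG (t - r) (pd m φ) y *
      (PG (t - r) (pd m φ) y * (PG (t - r) φ y)⁻¹)) (Icc 0 t) := by
    refine continuousOn_finsetSum _ fun m _ => ?_
    refine EE_cont μ (H := fun r y => PG (t - r) (pd m φ) y *
      (PG (t - r) (pd m φ) y * (PG (t - r) φ y)⁻¹))
      (C := B * (B * c⁻¹)) (fun r hr => bd_fi h hc hφ (sub_nonneg.2 hr.2) m)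
      (fun r _ y => ?_) fun x z => ?_
    · have h1 := abs_PG_le (t := t - r) (cb_bd (h.2.1 m)) (b1 m) y
      have h2 : |(PG (t - r) φ y)⁻¹| ≤ c⁻¹ := by
        rw [abs_of_pos (inv_pos.2 (hc.trans_le (low hφ bφ _ _)))]
        exact inv_anti₀ hc (low hφ bφ _ _)
      have ci : 0 < c⁻¹ := inv_pos.2 hc
      rw [abs_mul, abs_mul]
      gcongr
    · have h1 := path_cont (t := t) h φ bφ x z
      have h2 := path_cont (t := t) h (pd m φ) (cb_bd (h.2.1 m)) x z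
      refine (h2.mul (h2.mul (h1.inv₀ fun r => ?_))).continuousOn
      exact (hc.trans_le (low hφ bφ _ _)).ne'
  exact key.congr fun r hr => Ib_eq h hc hφ μ hr.2

omit h hc hφ [IsProbabilityMeasure μ] in
lemma EE_nonneg {F : E n → ℝ} (hF : ∀ y, 0 ≤ F y) : 0 ≤ EE μ r F :=
  integral_nonneg fun _ => integral_nonneg fun _ => hF _

omit [IsProbabilityMeasure μ] in
lemma Ib_nonneg : 0 ≤ Ib μ t φ r :=
  EE_nonneg μ fun y => div_nonneg (Finset.sum_nonneg fun _ _ => sq_nonneg _)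
    (hc.le.trans (low hφ (cb_bd h.1) _ y))

omit [IsProbabilityMeasure μ] in
lemma Ab_nonneg : 0 ≤ Ab μ t φ r :=
  EE_nonneg μ fun y => mul_nonneg (hc.le.trans (low hφ (cb_bd h.1) _ y))
    (Finset.sum_nonneg fun _ _ => Finset.sum_nonneg fun _ _ => sq_nonneg _)

end facts

lemma Hb_top (μ : Measure (E n)) : Hb μ t φ t = EE μ t fun y => φ y * Real.log (φ y) := by
  unfold Hb
  rw [sub_self, PG_zero]

lemma Ib_top (μ : Measure (E n)) : Ib μ t φ t = EE μ t fun y => (∑ k, pd k φ y ^ 2) / φ y := by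
  unfold Ib
  rw [sub_self, PG_zero]

/-! ### posterior means are in the class `C3` -/

section post

variable {R : ℝ} {s : ℝ}

lemma cb_pE (hw : Wt c R w) (hs : 0 < s) (hF : EG F) : CB (pE w s F) := by
  refine cb_iff.2 ⟨(contDiff_pE hw.ex hs hF).of_le (by exact_mod_cast le_top), ?_, fun k => ?_⟩
  · exact pE_bdd' hw hs hF
  · obtain ⟨B1, h1⟩ := pE_bdd' hw hs (hF.mul (EG.coord k))
    obtain ⟨B2, h2⟩ := pE_bdd' hw hs hF
    obtain ⟨B3, h3⟩ := pE_bdd' hw hs (EG.coord (n := n) k)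
    refine ⟨(B1 + B2 * B3) / s, fun x => ?_⟩
    rw [pd_pE hw.ex hs hF, abs_div, abs_of_pos hs]
    refine div_le_div_of_nonneg_right ((abs_sub _ _).trans (add_le_add (h1 x) ?_)) hs.le
    rw [abs_mul]
    exact mul_le_mul (h2 x) (h3 x) (abs_nonneg _) ((abs_nonneg _).trans (h2 x))

lemma pd_pE_fun (hw : Wt c R w) (hs : 0 < s) (hF : EG F) (k : Fin n) :
    pd k (pE w s F) = fun y => (1 / s) * (pE w s (fun x => F x * x k) y -
      pE w s F y * pE w s (fun x => x k) y) := by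
  funext y
  rw [pd_pE hw.ex hs hF]
  ring

lemma cb_pd_pE (hw : Wt c R w) (hs : 0 < s) (hF : EG F) (k : Fin n) : CB (pd k (pE w s F)) := by
  rw [pd_pE_fun hw hs hF k]
  exact cb_const_mul _ (cb_sub (cb_pE hw hs (hF.mul (EG.coord k)))
    (cb_mul (cb_pE hw hs hF) (cb_pE hw hs (EG.coord k))))

lemma pd_pd_pE_fun (hw : Wt c R w) (hs : 0 < s) (hF : EG F) (k l : Fin n) :
    pd l (pd k (pE w s F)) = fun y => (1 / s) * (pd l (pE w s (fun x => F x * x k)) y -
      (pE w s F y * pd l (pE w s (fun x => x k)) y +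
        pd l (pE w s F) y * pE w s (fun x => x k) y)) := by
  have c1 := cb_pE hw hs (hF.mul (EG.coord k))
  have c2 := cb_pE hw hs hF
  have c3 := cb_pE hw hs (EG.coord (n := n) k)
  funext y
  rw [pd_pE_fun hw hs hF k, pd_const_mul _ l (cb_diff (cb_sub c1 (cb_mul c2 c3)) y),
    pd_sub l (cb_diff c1 y) (cb_diff (cb_mul c2 c3) y), pd_mul l (cb_diff c2 y) (cb_diff c3 y)]

/-- posterior means of `EG` functions are `C³`-bounded -/
theorem c3_pE (hw : Wt c R w) (hs : 0 < s) (hF : EG F) : C3 (pE w s F) := by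
  refine ⟨cb_pE hw hs hF, cb_pd_pE hw hs hF, fun k l => ?_⟩
  rw [pd_pd_pE_fun hw hs hF k l]
  exact cb_const_mul _ (cb_sub (cb_pd_pE hw hs (hF.mul (EG.coord k)) l)
    (cb_add (cb_mul (cb_pE hw hs hF) (cb_pd_pE hw hs (EG.coord k) l))
      (cb_mul (cb_pd_pE hw hs hF l) (cb_pE hw hs (EG.coord k)))))

lemma le_pE (hw : Ex w) (hs : 0 < s) (hF : EG F) {b : ℝ} (h : ∀ x, b ≤ F x) (y : E n) :
    b ≤ pE w s F y := by
  have := pE_mono hw hs (EG.const b) hF h y
  rwa [pE_const hw hs] at this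

end post

end Crest.Agent.R201.Bk189
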