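import Crest.Agent.R201.NSL1_674

/-!
# R201: log-Sobolev inequality for strongly log-concave weights, Lipschitz and growth versions
(helper674)
-/

set_option autoImplicit false
open MeasureTheory Filter Topology
open scoped ENNReal NNReal ContDiff

namespace Crest.Agent.R201.NSL674

open Crest.Agent.R144.Fi865

variable {E : Type*} [NormedAddCommGroup E] [InnerProductSpace ℝ E] [FiniteDimensional ℝ E]
  [MeasurableSpace E] [BorelSpace E] {lam : ℝ} {W : E → ℝ}

/-- **log-Sobolev inequality**, bounded Lipschitz functions -/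
theorem lsi_lip (hl : 0 < lam) (hW0 : ∀ x, 0 ≤ W x) (mW : Measurable W) (iW : Integrable W)
    (hZ : 0 < ∫ x, W x) (hW : SLC lam W) {g : E → ℝ} {L : ℝ≥0} (hg : LipschitzWith L g)
    {M : ℝ} (hM : ∀ x, |g x| ≤ M) :
    (∫ x, g x * (Real.exp (g x) * W x)) - (∫ x, Real.exp (g x) * W x) *
      Real.log ((∫ x, Real.exp (g x) * W x) / ∫ x, W x) ≤
      (2 * lam)⁻¹ * ∫ x, ‖fderiv ℝ g x‖ ^ 2 * (Real.exp (g x) * W x) := by
  have mg : Measurable g := hg.continuous.measurable
  have hstep : ∀ n : ℕ, (∫ x, g x * (Real.exp (g x) * W x)) - (∫ x, Real.exp (g x) * W x) *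
      Real.log ((∫ x, Real.exp (g x) * W x) / ∫ x, W x) ≤
      (2 * lam)⁻¹ * ∫ x, lipr g (1 / ((n : ℝ) + 1)) x ^ 2 * (Real.exp (g x) * W x) := fun n =>
    lsi_step hl hW0 mW iW hZ hW mg (measurable_lipr hg _) hM (lipr_nonneg _)
      (lipr_le hg _) (by positivity)
      (fun z w hw => (le_abs_self _).trans (lipr_spec hg z w hw))
      (fun z w => (le_abs_self _).trans (lip_le hg z w))
  have t1 : Tendsto (fun n : ℕ => ∫ x, lipr g (1 / ((n : ℝ) + 1)) x ^ 2 * (Real.exp (g x) * W x))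
      atTop (𝓝 (∫ x, ‖fderiv ℝ g x‖ ^ 2 * (Real.exp (g x) * W x))) := by
    refine tendsto_integral_of_dominated_convergence
      (fun x => (L : ℝ) ^ 2 * Real.exp M * W x) (fun n => ?_)
      (iW.const_mul _) (fun n => ae_of_all _ fun x => ?_) ?_
    · exact (((measurable_lipr hg _).pow_const 2).mul
        ((Real.measurable_exp.comp mg).mul mW)).aestronglyMeasurable
    · rw [Real.norm_eq_abs, abs_mul, abs_mul, abs_of_nonneg (hW0 x), abs_pow,
        abs_of_nonneg (lipr_nonneg _ _), abs_of_pos (Real.exp_pos _), ← mul_assoc]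
      exact mul_le_mul_of_nonneg_right (mul_le_mul
        (pow_le_pow_left₀ (lipr_nonneg _ _) (lipr_le hg _ _) 2)
        (Real.exp_le_exp.2 ((le_abs_self _).trans (hM x))) (Real.exp_pos _).le (by positivity))
        (hW0 x)
    · filter_upwards [hg.ae_differentiableAt] with x hx
      exact ((tendsto_lipr hg hx).pow 2).mul_const _
  exact ge_of_tendsto' (t1.const_mul _) hstep

/-- smooth cutoffs -/
theorem cutoffs : ∃ (χ : ℕ → E → ℝ) (B : ℝ), 0 ≤ B ∧ (∀ k, ContDiff ℝ 1 (χ k)) ∧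
    (∀ k, HasCompactSupport (χ k)) ∧ (∀ k x, 0 ≤ χ k x) ∧ (∀ k x, χ k x ≤ 1) ∧
    (∀ (k : ℕ) x, ‖x‖ < k + 1 → χ k =ᶠ[𝓝 x] fun _ => 1) ∧
    (∀ (k : ℕ) x, ‖fderiv ℝ (χ k) x‖ * (1 + ‖x‖) ≤ B) := by
  set f : ContDiffBump (0 : E) := ⟨1, 2, by norm_num, by norm_num⟩ with hf
  obtain ⟨B, hB⟩ : ∃ B : ℝ, ∀ y, ‖fderiv ℝ f y‖ ≤ B := by
    have h1 : HasCompactSupport (fderiv ℝ f) := f.hasCompactSupport.fderiv ℝ
    have h2 : Continuous (fderiv ℝ f) := (f.contDiff (n := 1)).continuous_fderiv (by simp)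
    exact h1.exists_bound_of_continuous h2 |>.imp fun B hB y => hB y
  have hB0 : 0 ≤ B := (norm_nonneg _).trans (hB 0)
  have hc : ∀ k : ℕ, (0 : ℝ) < ((k : ℝ) + 1)⁻¹ := fun k => by positivity
  refine ⟨fun k x => f (((k : ℝ) + 1)⁻¹ • x), 3 * B, by positivity, fun k => ?_, fun k => ?_,
    fun k x => f.nonneg, fun k x => f.le_one, fun k x hx => ?_, fun k x => ?_⟩
  · exact f.contDiff.comp (contDiff_const_smul _)
  · have := f.hasCompactSupport.comp_homeomorph
      (Homeomorph.smulOfNeZero (((k : ℝ) + 1)⁻¹) (hc k).ne' : E ≃ₜ E)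
    exact this
  · have h1 : f =ᶠ[𝓝 (((k : ℝ) + 1)⁻¹ • x)] 1 := by
      apply f.eventuallyEq_one_of_mem_ball
      rw [mem_ball_zero_iff, norm_smul, Real.norm_of_nonneg (hc k).le]
      have : (0 : ℝ) < (k : ℝ) + 1 := by positivity
      rw [inv_mul_lt_iff₀ this]
      simpa [hf] using hx
    have h2 : Tendsto (fun x : E => ((k : ℝ) + 1)⁻¹ • x) (𝓝 x) (𝓝 (((k : ℝ) + 1)⁻¹ • x)) :=
      (continuous_const_smul _).tendsto x
    exact h2.eventually h1
  · have h1 : fderiv ℝ (fun x : E => f (((k : ℝ) + 1)⁻¹ • x)) x =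
        ((k : ℝ) + 1)⁻¹ • fderiv ℝ f (((k : ℝ) + 1)⁻¹ • x) := by
      rw [fderiv_comp_smul]
    show ‖fderiv ℝ (fun x : E => f (((k : ℝ) + 1)⁻¹ • x)) x‖ * (1 + ‖x‖) ≤ 3 * B
    rw [h1, norm_smul, Real.norm_of_nonneg (hc k).le]
    have hk : (1 : ℝ) ≤ (k : ℝ) + 1 := by
      have : (0 : ℝ) ≤ k := Nat.cast_nonneg k
      linarith
    by_cases hx : ‖x‖ ≤ 2 * ((k : ℝ) + 1)
    · have h2 : 1 + ‖x‖ ≤ 3 * ((k : ℝ) + 1) := by linarith
      calc ((k : ℝ) + 1)⁻¹ * ‖fderiv ℝ f (((k : ℝ) + 1)⁻¹ • x)‖ * (1 + ‖x‖)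
          ≤ ((k : ℝ) + 1)⁻¹ * B * (3 * ((k : ℝ) + 1)) := by
            apply mul_le_mul _ h2 (by positivity) (by positivity)
            exact mul_le_mul_of_nonneg_left (hB _) (hc k).le
        _ = 3 * B := by field_simp
    · have h3 : fderiv ℝ f (((k : ℝ) + 1)⁻¹ • x) = 0 := by
        have : ((k : ℝ) + 1)⁻¹ • x ∉ tsupport f := by
          rw [f.tsupport_eq]
          intro h
          rw [mem_closedBall_zero_iff, norm_smul, Real.norm_of_nonneg (hc k).le,
            inv_mul_le_iff₀ (by linarith)] at h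
          apply hx
          have : f.rOut = 2 := rfl
          rw [this] at h
          linarith
        exact image_eq_zero_of_notMem_tsupport (fun h => this (tsupport_fderiv_subset ℝ h))
      rw [h3]
      simp
      positivity


set_option maxHeartbeats 1000000 in
/-- **log-Sobolev inequality**, functions of quadratic growth -/
theorem lsi_growth (hl : 0 < lam) (hW0 : ∀ x, 0 ≤ W x) (mW : Measurable W)
    (hZ : 0 < ∫ x, W x) (hW : SLC lam W) {g : E → ℝ} (hg : ContDiff ℝ 1 g) {K : ℝ}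
    (h1 : ∀ x, |g x| ≤ K * (1 + ‖x‖) ^ 2) (h2 : ∀ x, ‖fderiv ℝ g x‖ ≤ K * (1 + ‖x‖))
    {p : E → ℝ} (mp : Measurable p) (hp0 : ∀ x, 0 ≤ p x) (hp : ∀ x, g x ≤ p x)
    (hi : Integrable fun x => (1 + ‖x‖) ^ 2 * (Real.exp (p x) * W x)) :
    (∫ x, g x * (Real.exp (g x) * W x)) - (∫ x, Real.exp (g x) * W x) *
      Real.log ((∫ x, Real.exp (g x) * W x) / ∫ x, W x) ≤
      (2 * lam)⁻¹ * ∫ x, ‖fderiv ℝ g x‖ ^ 2 * (Real.exp (g x) * W x) := by
  obtain ⟨χ, B, hB0, χs, χc, χ0, χ1, χe, χb⟩ := cutoffs (E := E)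
  have hK : 0 ≤ K := by
    have := (abs_nonneg _).trans (h1 0)
    simpa using this
  have mg : Measurable g := hg.continuous.measurable
  have hq1 : ∀ x : E, 1 ≤ (1 + ‖x‖) ^ 2 := fun x => by nlinarith [norm_nonneg x]
  have hb : ∀ x, W x ≤ (1 + ‖x‖) ^ 2 * (Real.exp (p x) * W x) := by
    intro x
    have h3 : 1 ≤ (1 + ‖x‖) ^ 2 * Real.exp (p x) := by
      have := Real.one_le_exp (hp0 x)
      nlinarith [hq1 x]
    calc W x = 1 * W x := (one_mul _).symm
      _ ≤ (1 + ‖x‖) ^ 2 * Real.exp (p x) * W x := mul_le_mul_of_nonneg_right h3 (hW0 x)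
      _ = _ := by ring
  have iW : Integrable W := by
    refine hi.mono' mW.aestronglyMeasurable (ae_of_all _ fun x => ?_)
    rw [Real.norm_eq_abs, abs_of_nonneg (hW0 x)]
    exact hb x
  have gsm : ∀ k, ContDiff ℝ 1 (fun x => χ k x * g x) := fun k => (χs k).mul hg
  have gcs : ∀ k, HasCompactSupport (fun x => χ k x * g x) := fun k => (χc k).mul_right
  have glip : ∀ k, ∃ L : ℝ≥0, LipschitzWith L (fun x => χ k x * g x) := fun k =>
    (gsm k).lipschitzWith_of_hasCompactSupport (gcs k) (by simp)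
  have gbd : ∀ k, ∃ M : ℝ, ∀ x, |χ k x * g x| ≤ M := by
    intro k
    obtain ⟨M, hM⟩ := (gcs k).exists_bound_of_continuous (gsm k).continuous
    exact ⟨M, fun x => by simpa using hM x⟩
  have hstep : ∀ k : ℕ, (∫ x, (χ k x * g x) * (Real.exp (χ k x * g x) * W x)) -
      (∫ x, Real.exp (χ k x * g x) * W x) *
      Real.log ((∫ x, Real.exp (χ k x * g x) * W x) / ∫ x, W x) ≤
      (2 * lam)⁻¹ * ∫ x, ‖fderiv ℝ (fun x => χ k x * g x) x‖ ^ 2 *
        (Real.exp (χ k x * g x) * W x) := by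
    intro k
    obtain ⟨L, hL⟩ := glip k
    obtain ⟨M, hM⟩ := gbd k
    exact lsi_lip hl hW0 mW iW hZ hW hL hM
  -- pointwise facts
  have hev : ∀ x : E, ∀ᶠ k : ℕ in atTop, ‖x‖ < (k : ℝ) + 1 := by
    intro x
    obtain ⟨N, hN⟩ := exists_nat_gt ‖x‖
    filter_upwards [eventually_ge_atTop N] with k hk
    have : (N : ℝ) ≤ k := Nat.cast_le.2 hk
    linarith
  have hχ1 : ∀ x : E, ∀ᶠ k : ℕ in atTop, χ k x = 1 := by
    intro x
    filter_upwards [hev x] with k hk
    exact (χe k x hk).self_of_nhds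
  have hfd : ∀ x : E, ∀ᶠ k : ℕ in atTop, fderiv ℝ (fun x => χ k x * g x) x = fderiv ℝ g x := by
    intro x
    filter_upwards [hev x] with k hk
    refine Filter.EventuallyEq.fderiv_eq ?_
    filter_upwards [χe k x hk] with y hy
    rw [hy, one_mul]
  have hexp : ∀ k x, Real.exp (χ k x * g x) ≤ Real.exp (p x) := by
    intro k x
    refine Real.exp_le_exp.2 ?_
    rcases le_total 0 (g x) with h | h
    · exact (mul_le_of_le_one_left h (χ1 k x)).trans (hp x)
    · exact (mul_nonpos_of_nonneg_of_nonpos (χ0 k x) h).trans (hp0 x)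
  have habs : ∀ k x, |χ k x * g x| ≤ K * (1 + ‖x‖) ^ 2 := by
    intro k x
    rw [abs_mul, abs_of_nonneg (χ0 k x)]
    exact (mul_le_of_le_one_left (abs_nonneg _) (χ1 k x)).trans (h1 x)
  have hgr : ∀ k x, ‖fderiv ℝ (fun x => χ k x * g x) x‖ ≤ K * (1 + B) * (1 + ‖x‖) := by
    intro k x
    have h3 : fderiv ℝ (fun x => χ k x * g x) x = χ k x • fderiv ℝ g x + g x • fderiv ℝ (χ k) x :=
      fderiv_fun_mul ((χs k).differentiable (by simp) x) (hg.differentiable (by simp) x)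
    rw [h3]
    have hx : 0 ≤ ‖x‖ := norm_nonneg x
    calc ‖χ k x • fderiv ℝ g x + g x • fderiv ℝ (χ k) x‖
        ≤ ‖χ k x • fderiv ℝ g x‖ + ‖g x • fderiv ℝ (χ k) x‖ := norm_add_le _ _
      _ = χ k x * ‖fderiv ℝ g x‖ + |g x| * ‖fderiv ℝ (χ k) x‖ := by
          rw [norm_smul, norm_smul, Real.norm_of_nonneg (χ0 k x), Real.norm_eq_abs]
      _ ≤ K * (1 + ‖x‖) + K * (1 + ‖x‖) ^ 2 * ‖fderiv ℝ (χ k) x‖ := by
          refine add_le_add ?_ (mul_le_mul_of_nonneg_right (h1 x) (norm_nonneg _))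
          exact (mul_le_of_le_one_left (norm_nonneg _) (χ1 k x)).trans (h2 x)
      _ = K * (1 + ‖x‖) + K * (1 + ‖x‖) * (‖fderiv ℝ (χ k) x‖ * (1 + ‖x‖)) := by ring
      _ ≤ K * (1 + ‖x‖) + K * (1 + ‖x‖) * B := by
          refine add_le_add le_rfl (mul_le_mul_of_nonneg_left (χb k x) (by positivity))
      _ = _ := by ring
  have t1 : Tendsto (fun k : ℕ => ∫ x, (χ k x * g x) * (Real.exp (χ k x * g x) * W x)) atTop
      (𝓝 (∫ x, g x * (Real.exp (g x) * W x))) := by
    refine tendsto_integral_of_dominated_convergence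
      (fun x => K * ((1 + ‖x‖) ^ 2 * (Real.exp (p x) * W x))) (fun k => ?_)
      (hi.const_mul _) (fun k => ae_of_all _ fun x => ?_) (ae_of_all _ fun x => ?_)
    · have := (gsm k).continuous.measurable
      exact (this.mul ((Real.measurable_exp.comp this).mul mW)).aestronglyMeasurable
    · rw [Real.norm_eq_abs, abs_mul (χ k x * g x), abs_mul (Real.exp _), abs_of_nonneg (hW0 x),
        abs_of_pos (Real.exp_pos _), ← mul_assoc K]
      exact mul_le_mul (habs k x) (mul_le_mul_of_nonneg_right (hexp k x) (hW0 x))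
        (mul_nonneg (Real.exp_pos _).le (hW0 x)) (by positivity)
    · refine tendsto_const_nhds.congr' ?_
      filter_upwards [hχ1 x] with k hk
      rw [hk, one_mul]
  have t2 : Tendsto (fun k : ℕ => ∫ x, Real.exp (χ k x * g x) * W x) atTop
      (𝓝 (∫ x, Real.exp (g x) * W x)) := by
    refine tendsto_integral_of_dominated_convergence
      (fun x => (1 + ‖x‖) ^ 2 * (Real.exp (p x) * W x)) (fun k => ?_)
      hi (fun k => ae_of_all _ fun x => ?_) (ae_of_all _ fun x => ?_)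
    · have := (gsm k).continuous.measurable
      exact ((Real.measurable_exp.comp this).mul mW).aestronglyMeasurable
    · rw [Real.norm_eq_abs, abs_mul, abs_of_nonneg (hW0 x), abs_of_pos (Real.exp_pos _)]
      have h3 : 0 ≤ Real.exp (p x) * W x := mul_nonneg (Real.exp_pos _).le (hW0 x)
      calc Real.exp (χ k x * g x) * W x ≤ 1 * (Real.exp (p x) * W x) := by
            rw [one_mul]; exact mul_le_mul_of_nonneg_right (hexp k x) (hW0 x)
        _ ≤ _ := mul_le_mul_of_nonneg_right (hq1 x) h3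
    · refine tendsto_const_nhds.congr' ?_
      filter_upwards [hχ1 x] with k hk
      rw [hk, one_mul]
  have t3 : Tendsto (fun k : ℕ => ∫ x, ‖fderiv ℝ (fun x => χ k x * g x) x‖ ^ 2 *
      (Real.exp (χ k x * g x) * W x)) atTop
      (𝓝 (∫ x, ‖fderiv ℝ g x‖ ^ 2 * (Real.exp (g x) * W x))) := by
    refine tendsto_integral_of_dominated_convergence
      (fun x => (K * (1 + B)) ^ 2 * ((1 + ‖x‖) ^ 2 * (Real.exp (p x) * W x))) (fun k => ?_)
      (hi.const_mul _) (fun k => ae_of_all _ fun x => ?_) (ae_of_all _ fun x => ?_)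
    · have := (gsm k).continuous.measurable
      exact (((measurable_fderiv ℝ _).norm.pow_const 2).mul
        ((Real.measurable_exp.comp this).mul mW)).aestronglyMeasurable
    · rw [Real.norm_eq_abs, abs_mul, abs_mul, abs_of_nonneg (hW0 x), abs_of_pos (Real.exp_pos _),
        abs_of_nonneg (sq_nonneg _), ← mul_assoc ((K * (1 + B)) ^ 2)]
      refine mul_le_mul ?_ (mul_le_mul_of_nonneg_right (hexp k x) (hW0 x))
        (mul_nonneg (Real.exp_pos _).le (hW0 x)) (by positivity)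
      rw [← mul_pow]
      exact pow_le_pow_left₀ (norm_nonneg _) (hgr k x) 2
    · refine tendsto_const_nhds.congr' ?_
      filter_upwards [hχ1 x, hfd x] with k hk hk'
      rw [hk, hk', one_mul]
  have hG0 : 0 < ∫ x, Real.exp (g x) * W x := by
    have iG : Integrable fun x => Real.exp (g x) * W x := by
      refine hi.mono' ((Real.measurable_exp.comp mg).mul mW).aestronglyMeasurable
        (ae_of_all _ fun x => ?_)
      rw [Real.norm_eq_abs, abs_mul, abs_of_nonneg (hW0 x), abs_of_pos (Real.exp_pos _)]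
      have h3 : 0 ≤ Real.exp (p x) * W x := mul_nonneg (Real.exp_pos _).le (hW0 x)
      calc Real.exp (g x) * W x ≤ 1 * (Real.exp (p x) * W x) := by
            rw [one_mul]; exact mul_le_mul_of_nonneg_right (Real.exp_le_exp.2 (hp x)) (hW0 x)
        _ ≤ _ := mul_le_mul_of_nonneg_right (hq1 x) h3
    rw [integral_pos_iff_support_of_nonneg (fun x => mul_nonneg (Real.exp_pos _).le (hW0 x)) iG]
    rw [integral_pos_iff_support_of_nonneg hW0 iW] at hZ
    have : (Function.support fun x => Real.exp (g x) * W x) = Function.support W := by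
      ext x
      simp [Function.mem_support]
    rw [this]
    exact hZ
  have t4 := t2.mul ((t2.div_const (∫ x, W x)).log (div_pos hG0 hZ).ne')
  exact le_of_tendsto_of_tendsto' (t1.sub t4) (t3.const_mul _) hstep


/-- **log-Sobolev inequality** for `C¹` functions bounded below by a positive constant -/
theorem lsi_pos (hl : 0 < lam) (hW0 : ∀ x, 0 ≤ W x) (mW : Measurable W) (iW : Integrable W)
    (hZ : 0 < ∫ x, W x) (hW : SLC lam W) {f : E → ℝ} (hf : ContDiff ℝ 1 f) {c B : ℝ} (hc : 0 < c)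
    (h0 : ∀ x, c ≤ f x) (h1 : ∀ x, f x ≤ B) (h2 : ∀ x, ‖fderiv ℝ f x‖ ≤ B) :
    (∫ x, f x * Real.log (f x) * W x) - (∫ x, f x * W x) *
      Real.log ((∫ x, f x * W x) / ∫ x, W x) ≤
      (2 * lam)⁻¹ * ∫ x, ‖fderiv ℝ f x‖ ^ 2 / f x * W x := by
  have hfp : ∀ x, 0 < f x := fun x => hc.trans_le (h0 x)
  have hfd : ∀ x, HasFDerivAt (fun x => Real.log (f x)) ((f x)⁻¹ • fderiv ℝ f x) x := fun x =>
    ((hf.differentiable (by simp) x).hasFDerivAt).log (hfp x).ne'
  have hB0 : 0 ≤ B := (norm_nonneg _).trans (h2 0)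
  have hlip : LipschitzWith (Real.toNNReal (c⁻¹ * B)) (fun x => Real.log (f x)) := by
    refine lipschitzWith_of_nnnorm_fderiv_le (𝕜 := ℝ) (fun x => (hfd x).differentiableAt)
      fun x => ?_
    rw [(hfd x).fderiv, ← NNReal.coe_le_coe, coe_nnnorm, Real.coe_toNNReal _ (by positivity),
      norm_smul, norm_inv, Real.norm_of_nonneg (hfp x).le]
    exact mul_le_mul (inv_anti₀ hc (h0 x)) (h2 x) (norm_nonneg _) (by positivity)
  have hbd : ∀ x, |Real.log (f x)| ≤ |Real.log c| + |Real.log B| := by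
    intro x
    have a1 := Real.log_le_log hc (h0 x)
    have a2 := Real.log_le_log (hfp x) (h1 x)
    have a3 := neg_abs_le (Real.log c)
    have a4 := le_abs_self (Real.log B)
    have a5 := abs_nonneg (Real.log c)
    have a6 := abs_nonneg (Real.log B)
    rw [abs_le]
    constructor <;> linarith
  have key := lsi_lip hl hW0 mW iW hZ hW hlip hbd
  simp only [Real.exp_log (hfp _)] at key
  have e1 : (fun x => Real.log (f x) * (f x * W x)) = fun x => f x * Real.log (f x) * W x := by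
    funext x; ring
  have e2 : (fun x => ‖fderiv ℝ (fun x => Real.log (f x)) x‖ ^ 2 * (f x * W x)) =
      fun x => ‖fderiv ℝ f x‖ ^ 2 / f x * W x := by
    funext x
    rw [(hfd x).fderiv, norm_smul, norm_inv, Real.norm_of_nonneg (hfp x).le]
    have := (hfp x).ne'
    field_simp
  rw [e1, e2] at key
  exact key

end Crest.Agent.R201.NSL674
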