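import Crest.Agent.R201.An14_293
import Crest.Agent.R201.NSL2_674

/-!
# R201 LSn_77: log-Sobolev inequality of the noisy law: `C_LS(X + √t G) ≤ C_LS(X) + t` (helper77)
-/

set_option autoImplicit false
open MeasureTheory Matrix Filter Topology Metric
open scoped ContDiff ENNReal NNReal

namespace Crest.Agent.R201.LSn77

open Crest.Agent.R201 Crest.Agent.R201.An Crest.Agent.R144.Fi865

variable {n : ℕ} {w ρ F G : E n → ℝ} {c R s σ t K : ℝ}

/-- log-Sobolev inequality, exponential form, `Ent(e^g) ≤ (K/2) E |Dg|² e^g` -/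
def LS (ρ : E n → ℝ) (K : ℝ) : Prop := ∀ g : E n → ℝ, CB g →
  Em ρ (fun x => g x * Real.exp (g x)) - Em ρ (fun x => Real.exp (g x)) *
      Real.log (Em ρ fun x => Real.exp (g x)) ≤
    K / 2 * Em ρ (fun x => (∑ k, pd k g x ^ 2) * Real.exp (g x))

/-- the Gaussian kernel is `1/t`-strongly log-concave -/
lemma slc_gk (ht : 0 < t) (x : E n) : SLC (1 / t) fun y : E n => gk t (y - x) := by
  have h1 : SLC 0 fun _ : E n => (1 : ℝ) := by
    intro a b
    simp
  have h2 := slc_post (s := t) ht (fun _ => zero_le_one) h1 x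
  have e : (fun y : E n => (1 : ℝ) * gk t (x - y)) = fun y => gk t (y - x) := by
    funext y
    rw [one_mul, ← gk_even, neg_sub]
  rw [zero_add, e] at h2
  exact h2

/-- exponential of a bounded `C¹` function -/
lemma CB.exp {g : E n → ℝ} (hg : CB g) :
    CB (fun x => Real.exp (g x)) ∧
      ∀ k x, pd k (fun x => Real.exp (g x)) x = pd k g x * Real.exp (g x) := by
  obtain ⟨h1, B, hB⟩ := hg
  have hpd : ∀ k x, pd k (fun x => Real.exp (g x)) x = pd k g x * Real.exp (g x) := by
    intro k x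
    unfold pd
    have d := (h1.differentiable (by simp) x).hasFDerivAt.exp
    rw [d.fderiv]
    simp [mul_comm]
  have hB0 : 0 ≤ B := (abs_nonneg _).trans (hB 0).1
  refine ⟨⟨h1.exp, (1 + B) * Real.exp B, fun x => ⟨?_, fun k => ?_⟩⟩, hpd⟩
  · rw [abs_of_pos (Real.exp_pos _)]
    have : Real.exp (g x) ≤ Real.exp B := Real.exp_le_exp.2 ((le_abs_self _).trans (hB x).1)
    nlinarith [Real.exp_pos B]
  · rw [hpd, abs_mul, abs_of_pos (Real.exp_pos _)]
    have h2 : Real.exp (g x) ≤ Real.exp B := Real.exp_le_exp.2 ((le_abs_self _).trans (hB x).1)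
    have h3 := (hB x).2 k
    calc |pd k g x| * Real.exp (g x) ≤ B * Real.exp B :=
          mul_le_mul h3 h2 (Real.exp_pos _).le hB0
      _ ≤ (1 + B) * Real.exp B := by nlinarith [Real.exp_pos B]

/-- Gaussian log-Sobolev inequality -/
theorem NN_lsi (ht : 0 < t) {g : E n → ℝ} (hg : CB g) (x : E n) :
    NN t (fun y => g y * Real.exp (g y)) x - NN t (fun y => Real.exp (g y)) x *
      Real.log (NN t (fun y => Real.exp (g y)) x) ≤
      t / 2 * NN t (fun y => (∑ k, pd k g y ^ 2) * Real.exp (g y)) x := by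
  have hl : 0 < 1 / t := by positivity
  obtain ⟨L, hL⟩ := cb_lip hg
  obtain ⟨B, hB⟩ := hg.2
  have i1 := int_NN (F := fun _ => (1 : ℝ)) ht (EG.const 1) x
  simp only [one_mul] at i1
  have hgp := gk_int_pos (n := n) ht
  have e0 : ∫ y : E n, gk t (y - x) = ∫ z : E n, gk t z :=
    integral_sub_right_eq_self (fun v => gk t v) x
  have key := NSL674.lsi_lip (W := fun y : E n => gk t (y - x)) hl (fun y => (gk_pos _ _).le)
    ((gk_cont (n := n) t).measurable.comp (measurable_id.sub measurable_const)) i1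
    (by rw [e0]; exact hgp) (slc_gk ht x) hL (fun y => (hB y).1)
  have e1 : (2 * (1 / t))⁻¹ = t / 2 := by
    field_simp
  rw [e0, e1] at key
  unfold NN
  set Z := ∫ z : E n, gk t z with hZ
  have a1 : ∫ y, g y * Real.exp (g y) * gk t (y - x) =
      ∫ y, g y * (Real.exp (g y) * gk t (y - x)) :=
    integral_congr_ae (ae_of_all _ fun y => by ring)
  have a2 : ∫ y, (∑ k, pd k g y ^ 2) * Real.exp (g y) * gk t (y - x) =
      ∫ y, ‖fderiv ℝ g y‖ ^ 2 * (Real.exp (g y) * gk t (y - x)) :=
    integral_congr_ae (ae_of_all _ fun y => by simp only [norm_fderiv_sq]; ring)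
  rw [a1, a2]
  set A := ∫ y, g y * (Real.exp (g y) * gk t (y - x))
  set M := ∫ y, Real.exp (g y) * gk t (y - x)
  set D := ∫ y, ‖fderiv ℝ g y‖ ^ 2 * (Real.exp (g y) * gk t (y - x))
  have h5 : A / Z - M / Z * Real.log (M / Z) = (A - M * Real.log (M / Z)) / Z := by field_simp
  have h6 : t / 2 * (D / Z) = (t / 2 * D) / Z := by field_simp
  rw [h5, h6]
  exact div_le_div_of_nonneg_right key hgp.le

/-- measurability of Gaussian averages of continuous bounded functions -/
lemma NN_cont (ht : 0 < t) {g : E n → ℝ} {C : ℝ} (hg : Continuous g) (hC : ∀ x, |g x| ≤ C) :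
    Continuous (NN t g) := by
  have e0 : NN t g = fun x => (∫ z, gk t z * g (x + z)) / ∫ z : E n, gk t z :=
    funext fun x => NN_shift t g x
  rw [e0]
  refine Continuous.div_const ?_ _
  refine continuous_of_dominated (bound := fun z => gk t z * C) ?_ ?_
    ((int_gk ht).mul_const C) ?_
  · exact fun x => ((gk_cont t).mul
      (hg.comp (continuous_const.add continuous_id))).aestronglyMeasurable
  · intro x
    refine ae_of_all _ fun z => ?_
    rw [norm_mul, Real.norm_of_nonneg (gk_pos t z).le, Real.norm_eq_abs]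
    exact mul_le_mul_of_nonneg_left (hC _) (gk_pos t z).le
  · refine ae_of_all _ fun z => ?_
    exact continuous_const.mul (hg.comp (continuous_id.add continuous_const))

/-- weighted Cauchy–Schwarz for the Gaussian average -/
lemma NN_cs (ht : 0 < t) {f u : E n → ℝ} (hf : EG f) (hu : EG u) (hpos : ∀ y, 0 ≤ f y) (x : E n) :
    NN t (fun y => u y * f y) x ^ 2 ≤ NN t f x * NN t (fun y => u y ^ 2 * f y) x := by
  have hu2 : EG fun y => u y ^ 2 := by simpa [sq] using hu.mul hu
  have h : ∀ l : ℝ, 0 ≤ NN t f x * (l * l) + (-2 * NN t (fun y => u y * f y) x) * l +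
      NN t (fun y => u y ^ 2 * f y) x := by
    intro l
    have h1 : 0 ≤ NN t (fun y => (u y - l) ^ 2 * f y) x :=
      NN_nonneg ht (fun y => mul_nonneg (sq_nonneg _) (hpos y)) x
    have e : (fun y => (u y - l) ^ 2 * f y) =
        fun y => (u y ^ 2 * f y + (-2 * l) * (u y * f y)) + (l * l) * f y := by
      funext y; ring
    rw [e, NN_add ht ((hu2.mul hf).add ((hu.mul hf).smul _)) (hf.smul _),
      NN_add ht (hu2.mul hf) ((hu.mul hf).smul _), NN_smul, NN_smul] at h1
    linarith
  have h2 := discrim_le_zero h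
  unfold discrim at h2
  nlinarith

/-- the log-Sobolev constant of `X + √t G` -/
theorem LS_noisy (hw : Ex w) (ht : 0 < t) (hK : 0 ≤ K) (hP : LS w K) :
    LS (Lp w t fun _ => 1) (K + t) := by
  intro g hg
  have hρ := hw.noisy ht
  have hgE := CB.eg hg
  obtain ⟨hf, hfpd⟩ := CB.exp hg
  set f : E n → ℝ := fun x => Real.exp (g x) with hfd
  have hfE := CB.eg hf
  obtain ⟨hN, hNpd⟩ := NN_CB ht hf
  obtain ⟨B, hB⟩ := hg.2
  have hB0 : 0 ≤ B := (abs_nonneg _).trans (hB 0).1
  have lo : ∀ x, Real.exp (-B) ≤ f x := fun x => Real.exp_le_exp.2 (abs_le.1 (hB x).1).1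
  have hi : ∀ x, f x ≤ Real.exp B := fun x => Real.exp_le_exp.2 (abs_le.1 (hB x).1).2
  have Nlo : ∀ x, Real.exp (-B) ≤ NN t f x := fun x => by
    have := NN_mono ht (EG.const (Real.exp (-B))) hfE.1 lo x
    rwa [NN_const ht] at this
  have Nhi : ∀ x, NN t f x ≤ Real.exp B := fun x => by
    have := NN_mono ht hfE.1 (EG.const (Real.exp B)) hi x
    rwa [NN_const ht] at this
  have Npos : ∀ x, 0 < NN t f x := fun x => (Real.exp_pos _).trans_le (Nlo x)
  -- the logarithm of the average
  set gh : E n → ℝ := fun x => Real.log (NN t f x) with hgh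
  have ghpd : ∀ k x, pd k gh x = pd k (NN t f) x / NN t f x := by
    intro k x
    unfold pd
    have d := (hN.1.differentiable (by simp) x).hasFDerivAt.log (Npos x).ne'
    rw [hgh, d.fderiv]
    simp only [_root_.smul_apply, smul_eq_mul]
    ring
  have ghexp : ∀ x, Real.exp (gh x) = NN t f x := fun x => Real.exp_log (Npos x)
  obtain ⟨B', hB'⟩ := hN.2
  have hB'0 : 0 ≤ B' := (abs_nonneg _).trans (hB' 0).1
  have hghCB : CB gh := by
    refine ⟨hN.1.log fun x => (Npos x).ne', B + B' / Real.exp (-B), fun x => ⟨?_, fun k => ?_⟩⟩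
    · have h1 : |gh x| ≤ B := by
        rw [abs_le]
        constructor
        · rw [hgh]
          simp only
          rw [Real.le_log_iff_exp_le (Npos x)]
          exact Nlo x
        · rw [hgh]
          simp only
          rw [Real.log_le_iff_le_exp (Npos x)]
          exact Nhi x
      have h2 : 0 ≤ B' / Real.exp (-B) := by positivity
      linarith
    · rw [ghpd, abs_div, abs_of_pos (Npos x)]
      have h1 := (hB' x).2 k
      have h2 : |pd k (NN t f) x| / NN t f x ≤ B' / Real.exp (-B) :=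
        div_le_div₀ hB'0 h1 (Real.exp_pos _) (Nlo x)
      linarith
  have h1 := hP gh hghCB
  simp only [ghexp] at h1
  -- growth of everything in sight
  have cg : Continuous g := hg.1.continuous
  have cf : Continuous f := hf.1.continuous
  have cpd : ∀ k, Continuous (pd k g) := fun k => Tw807.pd_cont hg.1 k
  have hgf : EG fun x => g x * f x := hgE.1.mul hfE.1
  have bgf : ∀ x, |g x * f x| ≤ B * Real.exp B := fun x => by
    rw [abs_mul, abs_of_pos (Real.exp_pos _)]
    exact mul_le_mul (hB x).1 (hi x) (Real.exp_pos _).le hB0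
  have hNgf : EG (NN t fun x => g x * f x) :=
    EG.NN ht (NN_cont ht (cg.mul cf) bgf).measurable hgf bgf
  have hpk2 : ∀ k, EG fun x => pd k g x ^ 2 * f x := fun k => by
    have : EG fun x => pd k g x ^ 2 := by simpa [sq] using (hgE.2 k).mul (hgE.2 k)
    exact this.mul hfE.1
  have bpk2 : ∀ k x, |pd k g x ^ 2 * f x| ≤ B ^ 2 * Real.exp B := fun k x => by
    rw [abs_mul, abs_of_pos (Real.exp_pos _), abs_of_nonneg (sq_nonneg _), ← sq_abs]
    exact mul_le_mul (pow_le_pow_left₀ (abs_nonneg _) ((hB x).2 k) 2) (hi x)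
      (Real.exp_pos _).le (by positivity)
  have hNpk2 : ∀ k, EG (NN t fun x => pd k g x ^ 2 * f x) := fun k =>
    EG.NN ht (NN_cont ht (((cpd k).pow 2).mul cf) (bpk2 k)).measurable (hpk2 k) (bpk2 k)
  have eD : (fun x => (∑ k, pd k g x ^ 2) * f x) = fun x => ∑ k, pd k g x ^ 2 * f x := by
    funext x; rw [Finset.sum_mul]
  have hD : EG fun x => (∑ k, pd k g x ^ 2) * f x := by
    rw [eD]; exact EG.sum _ fun k _ => hpk2 k
  have eND : ∀ x, NN t (fun x => (∑ k, pd k g x ^ 2) * f x) x =
      ∑ k, NN t (fun x => pd k g x ^ 2 * f x) x := fun x => by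
    rw [eD, NN_sum _ ht fun k _ => hpk2 k]
  have hND : EG (NN t fun x => (∑ k, pd k g x ^ 2) * f x) := by
    have : (NN t fun x => (∑ k, pd k g x ^ 2) * f x) =
        fun x => ∑ k, NN t (fun x => pd k g x ^ 2 * f x) x := funext eND
    rw [this]
    exact EG.sum _ fun k _ => hNpk2 k
  have hNE := CB.eg hN
  have hghE := CB.eg hghCB
  have hghN : EG fun x => gh x * NN t f x := hghE.1.mul hNE.1
  have hghD : EG fun x => (∑ k, pd k gh x ^ 2) * NN t f x := by
    have e : (fun x => (∑ k, pd k gh x ^ 2) * NN t f x) =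
        fun x => ∑ k, (pd k gh x * pd k gh x) * NN t f x := by
      funext x; rw [Finset.sum_mul]; simp [sq]
    rw [e]
    exact EG.sum _ fun k _ => ((hghE.2 k).mul (hghE.2 k)).mul hNE.1
  -- Gaussian log-Sobolev
  have p1 : ∀ x, NN t (fun y => g y * f y) x - gh x * NN t f x ≤
      t / 2 * NN t (fun y => (∑ k, pd k g y ^ 2) * f y) x := fun x => by
    have := NN_lsi ht hg x
    rw [mul_comm (NN t (fun y => Real.exp (g y)) x)] at this
    exact this
  have h2 : Em (Lp w t fun _ => 1) (fun x => g x * f x) - Em w (fun x => gh x * NN t f x) ≤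
      t / 2 * Em (Lp w t fun _ => 1) (fun x => (∑ k, pd k g x ^ 2) * f x) := by
    rw [Em_NN hw ht hgf, Em_NN hw ht hD, ← Em_sub hw hNgf hghN, ← Em_smul]
    exact Em_mono hw (hNgf.sub hghN) (hND.smul _) p1
  -- Cauchy–Schwarz
  have p2 : ∀ x, (∑ k, pd k gh x ^ 2) * NN t f x ≤ NN t (fun y => (∑ k, pd k g y ^ 2) * f y) x := by
    intro x
    rw [eND, Finset.sum_mul]
    refine Finset.sum_le_sum fun k _ => ?_
    have h3 := NN_cs ht hfE.1 (hgE.2 k) (fun y => (Real.exp_pos _).le) x
    have h4 : pd k (NN t f) x = NN t (fun y => pd k g y * f y) x := by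
      rw [hNpd k]
      congr 1
      funext y
      exact hfpd k y
    rw [ghpd, h4, div_pow]
    have h5 := Npos x
    rw [div_mul_eq_mul_div, div_le_iff₀ (by positivity)]
    calc NN t (fun y => pd k g y * f y) x ^ 2 * NN t f x
        ≤ (NN t f x * NN t (fun y => pd k g y ^ 2 * f y) x) * NN t f x :=
          mul_le_mul_of_nonneg_right h3 h5.le
      _ = _ := by ring
  have h3 : Em w (fun x => (∑ k, pd k gh x ^ 2) * NN t f x) ≤
      Em (Lp w t fun _ => 1) (fun x => (∑ k, pd k g x ^ 2) * f x) := by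
    rw [Em_NN hw ht hD]
    exact Em_mono hw hghD hND p2
  have h4 := mul_le_mul_of_nonneg_left h3 (by positivity : (0 : ℝ) ≤ K / 2)
  have h5 : Em (Lp w t fun _ => 1) f = Em w (NN t f) := Em_NN hw ht hfE.1
  show Em (Lp w t fun _ => 1) (fun x => g x * f x) - Em (Lp w t fun _ => 1) f *
    Real.log (Em (Lp w t fun _ => 1) f) ≤
    (K + t) / 2 * Em (Lp w t fun _ => 1) (fun x => (∑ k, pd k g x ^ 2) * f x)
  rw [h5]
  have h6 : Em w (fun x => gh x * NN t f x) - Em w (NN t f) * Real.log (Em w (NN t f)) ≤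
      K / 2 * Em w (fun x => (∑ k, pd k gh x ^ 2) * NN t f x) := h1
  linarith

end Crest.Agent.R201.LSn77
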