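import Crest.Agent.R201.Defs_74

/-!
# R201, KLS half (helper807): calculus on `CB` and on `C_c^∞`, integration by parts, Bochner
-/

set_option autoImplicit false
open MeasureTheory Matrix
open scoped ContDiff

namespace Crest.Agent.R201.Tw807

open Crest.Agent.R201

variable {n : ℕ}

/-- the coordinate vector -/
noncomputable abbrev ev (k : Fin n) : E n := EuclideanSpace.single k (1 : ℝ)

/-! ### partial derivatives -/

theorem pd_add {f g : E n → ℝ} (k : Fin n) {x : E n} (hf : DifferentiableAt ℝ f x)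
    (hg : DifferentiableAt ℝ g x) : pd k (fun y => f y + g y) x = pd k f x + pd k g x := by
  unfold pd
  rw [show (fun y => f y + g y) = f + g from rfl, fderiv_add hf hg]
  rfl

theorem pd_sub {f g : E n → ℝ} (k : Fin n) {x : E n} (hf : DifferentiableAt ℝ f x)
    (hg : DifferentiableAt ℝ g x) : pd k (fun y => f y - g y) x = pd k f x - pd k g x := by
  unfold pd
  rw [show (fun y => f y - g y) = f - g from rfl, fderiv_sub hf hg]
  rfl

theorem pd_mul {f g : E n → ℝ} (k : Fin n) {x : E n} (hf : DifferentiableAt ℝ f x)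
    (hg : DifferentiableAt ℝ g x) :
    pd k (fun y => f y * g y) x = f x * pd k g x + pd k f x * g x := by
  unfold pd
  rw [show (fun y => f y * g y) = f * g from rfl, fderiv_mul hf hg]
  simp [mul_comm]

theorem pd_const (c : ℝ) (k : Fin n) (x : E n) : pd k (fun _ => c) x = 0 := by
  unfold pd
  simp

theorem pd_const_mul {f : E n → ℝ} (c : ℝ) (k : Fin n) {x : E n}
    (hf : DifferentiableAt ℝ f x) : pd k (fun y => c * f y) x = c * pd k f x := by
  rw [pd_mul k (differentiableAt_const c) hf, pd_const]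
  ring

theorem pd_sum {ι : Type*} (s : Finset ι) {f : ι → E n → ℝ} (k : Fin n) {x : E n}
    (hf : ∀ i ∈ s, DifferentiableAt ℝ (f i) x) :
    pd k (fun y => ∑ i ∈ s, f i y) x = ∑ i ∈ s, pd k (f i) x := by
  unfold pd
  rw [fderiv_fun_sum hf]
  simp

theorem pd_smooth {f : E n → ℝ} (hf : ContDiff ℝ ∞ f) (k : Fin n) :
    ContDiff ℝ ∞ (pd k f) := by
  unfold pd
  exact (hf.fderiv_right (m := ∞) (by simp)).clm_apply contDiff_const

theorem pd_cont {f : E n → ℝ} (hf : ContDiff ℝ 1 f) (k : Fin n) : Continuous (pd k f) := by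
  unfold pd
  exact (hf.continuous_fderiv (by simp)).clm_apply continuous_const

theorem pd_cs {f : E n → ℝ} (hf : HasCompactSupport f) (k : Fin n) :
    HasCompactSupport (pd k f) := by
  unfold pd
  exact hf.fderiv_apply (𝕜 := ℝ) (ev k)

theorem pd_comm {f : E n → ℝ} (hf : ContDiff ℝ ∞ f) (k l : Fin n) (x : E n) :
    pd k (pd l f) x = pd l (pd k f) x := by
  have h1 : ∀ (a b : Fin n), pd a (pd b f) x = fderiv ℝ (fderiv ℝ f) x (ev a) (ev b) := by
    intro a b
    unfold pd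
    have hd : DifferentiableAt ℝ (fderiv ℝ f) x :=
      ((hf.fderiv_right (m := 1) (by norm_cast)).differentiable (by simp)) x
    rw [fderiv_clm_apply hd (differentiableAt_const _)]
    simp
  rw [h1, h1]
  have h2 : IsSymmSndFDerivAt ℝ f x := by
    apply ContDiffAt.isSymmSndFDerivAt (n := 2)
    · exact (hf.of_le (by norm_cast)).contDiffAt
    · simp
  exact h2.eq _ _

/-! ### the class `CB` -/

theorem cb_iff {f : E n → ℝ} : CB f ↔ ContDiff ℝ 1 f ∧ (∃ B : ℝ, ∀ x, |f x| ≤ B) ∧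
    ∀ k, ∃ B : ℝ, ∀ x, |pd k f x| ≤ B := by
  constructor
  · rintro ⟨h1, B, hB⟩
    exact ⟨h1, ⟨B, fun x => (hB x).1⟩, fun k => ⟨B, fun x => (hB x).2 k⟩⟩
  · rintro ⟨h1, ⟨B, hB⟩, h3⟩
    choose C hC using h3
    refine ⟨h1, |B| + ∑ k, |C k|, fun x => ⟨?_, fun k => ?_⟩⟩
    · have : 0 ≤ ∑ k, |C k| := Finset.sum_nonneg fun _ _ => abs_nonneg _
      linarith [hB x, le_abs_self B]
    · have h4 : |C k| ≤ ∑ k, |C k| :=
        Finset.single_le_sum (f := fun k => |C k|) (fun _ _ => abs_nonneg _) (Finset.mem_univ k)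
      linarith [hC k x, le_abs_self (C k), abs_nonneg B]

theorem cb_diff {f : E n → ℝ} (hf : CB f) : Differentiable ℝ f :=
  hf.1.differentiable (by simp)

theorem cb_const (c : ℝ) : CB (fun _ : E n => c) :=
  cb_iff.2 ⟨contDiff_const, ⟨|c|, fun _ => le_rfl⟩, fun k => ⟨0, fun x => by simp [pd_const]⟩⟩

theorem cb_add {f g : E n → ℝ} (hf : CB f) (hg : CB g) : CB (fun x => f x + g x) := by
  obtain ⟨h1, ⟨B, hB⟩, h3⟩ := cb_iff.1 hf
  obtain ⟨g1, ⟨C, hC⟩, g3⟩ := cb_iff.1 hg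
  refine cb_iff.2 ⟨h1.add g1, ⟨B + C, fun x => (abs_add_le _ _).trans (add_le_add (hB x) (hC x))⟩,
    fun k => ?_⟩
  obtain ⟨B', hB'⟩ := h3 k
  obtain ⟨C', hC'⟩ := g3 k
  refine ⟨B' + C', fun x => ?_⟩
  rw [pd_add k (cb_diff hf x) (cb_diff hg x)]
  exact (abs_add_le _ _).trans (add_le_add (hB' x) (hC' x))

theorem cb_mul {f g : E n → ℝ} (hf : CB f) (hg : CB g) : CB (fun x => f x * g x) := by
  obtain ⟨h1, ⟨B, hB⟩, h3⟩ := cb_iff.1 hf
  obtain ⟨g1, ⟨C, hC⟩, g3⟩ := cb_iff.1 hg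
  have hB0 : 0 ≤ B := (abs_nonneg _).trans (hB 0)
  have hC0 : 0 ≤ C := (abs_nonneg _).trans (hC 0)
  refine cb_iff.2 ⟨h1.mul g1, ⟨B * C, fun x => ?_⟩, fun k => ?_⟩
  · rw [abs_mul]
    exact mul_le_mul (hB x) (hC x) (abs_nonneg _) hB0
  obtain ⟨B', hB'⟩ := h3 k
  obtain ⟨C', hC'⟩ := g3 k
  have hB0' : 0 ≤ B' := (abs_nonneg _).trans (hB' 0)
  refine ⟨B * C' + B' * C, fun x => ?_⟩
  rw [pd_mul k (cb_diff hf x) (cb_diff hg x)]
  refine (abs_add_le _ _).trans (add_le_add ?_ ?_)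
  · rw [abs_mul]
    exact mul_le_mul (hB x) (hC' x) (abs_nonneg _) hB0
  · rw [abs_mul]
    exact mul_le_mul (hB' x) (hC x) (abs_nonneg _) hB0'

theorem cb_const_mul {f : E n → ℝ} (c : ℝ) (hf : CB f) : CB (fun x => c * f x) :=
  cb_mul (cb_const c) hf

theorem cb_neg {f : E n → ℝ} (hf : CB f) : CB (fun x => - f x) := by
  have := cb_const_mul (-1) hf
  simpa using this

theorem cb_sub {f g : E n → ℝ} (hf : CB f) (hg : CB g) : CB (fun x => f x - g x) := by
  simpa [sub_eq_add_neg] using cb_add hf (cb_neg hg)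

theorem cb_sum {ι : Type*} (s : Finset ι) {f : ι → E n → ℝ} (hf : ∀ i ∈ s, CB (f i)) :
    CB (fun x => ∑ i ∈ s, f i x) := by
  classical
  induction s using Finset.induction_on with
  | empty => simpa using cb_const (n := n) 0
  | insert a s ha ih =>
    have := cb_add (hf a (Finset.mem_insert_self a s))
      (ih fun i hi => hf i (Finset.mem_insert_of_mem hi))
    simpa [Finset.sum_insert ha] using this

theorem bdd_of_cc {f : E n → ℝ} (hf : Continuous f) (hs : HasCompactSupport f) :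
    ∃ B : ℝ, ∀ x, |f x| ≤ B := by
  obtain ⟨B, hB⟩ := hs.exists_bound_of_continuous hf
  exact ⟨B, fun x => by simpa using hB x⟩

theorem cb_cc {f : E n → ℝ} (hf : ContDiff ℝ ∞ f) (hs : HasCompactSupport f) : CB f :=
  cb_iff.2 ⟨hf.of_le (by norm_cast), bdd_of_cc hf.continuous hs,
    fun k => bdd_of_cc (pd_smooth hf k).continuous (pd_cs hs k)⟩

/-- `C¹` function with compact support -/
theorem cb_c1 {f : E n → ℝ} (hf : ContDiff ℝ 1 f) (hs : HasCompactSupport f) : CB f :=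
  cb_iff.2 ⟨hf, bdd_of_cc hf.continuous hs, fun k => bdd_of_cc (pd_cont hf k) (pd_cs hs k)⟩

section Int

variable (K : KD n)

instance : IsProbabilityMeasure K.μ := K.prob

theorem int_bdd {f : E n → ℝ} (hf : Continuous f) {B : ℝ} (hB : ∀ x, |f x| ≤ B) :
    Integrable f K.μ :=
  Integrable.of_bound hf.aestronglyMeasurable B
    (Filter.Eventually.of_forall fun x => by simpa using hB x)

theorem int_cb {f : E n → ℝ} (hf : CB f) : Integrable f K.μ := by
  obtain ⟨B, hB⟩ := hf.2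
  exact int_bdd K hf.1.continuous fun x => (hB x).1

theorem int_pd {f : E n → ℝ} (hf : CB f) (k : Fin n) : Integrable (pd k f) K.μ := by
  obtain ⟨B, hB⟩ := hf.2
  exact int_bdd K (pd_cont hf.1 k) fun x => (hB x).2 k

theorem memLp_bdd {f : E n → ℝ} (hf : Continuous f) {B : ℝ} (hB : ∀ x, |f x| ≤ B) (p : ENNReal) :
    MemLp f p K.μ :=
  MemLp.of_bound hf.aestronglyMeasurable B
    (Filter.Eventually.of_forall fun x => by simpa using hB x)

theorem memLp_cb {f : E n → ℝ} (hf : CB f) (p : ENNReal) : MemLp f p K.μ := by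
  obtain ⟨B, hB⟩ := hf.2
  exact memLp_bdd K hf.1.continuous (fun x => (hB x).1) p

theorem memLp_pd {f : E n → ℝ} (hf : CB f) (k : Fin n) (p : ENNReal) : MemLp (pd k f) p K.μ := by
  obtain ⟨B, hB⟩ := hf.2
  exact memLp_bdd K (pd_cont hf.1 k) (fun x => (hB x).2 k) p

end Int

end Crest.Agent.R201.Tw807
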