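import Crest.Agent.R201.Defs_74
import Crest.Agent.R201.Tw1_807

/-!
# R201, LSI half (helper809): labelled logarithmic Sobolev inequality with defect

`μ` a probability measure on `E n`, `ν = f μ`, `p : L → E n → ℝ` a channel (`p j x` the density at `j`
of the label `J` given `x`, with respect to `l`).

* `lab` : `I(J;x) ≤ (C/2) E_ν ∫ |D_x log p(j|x)|² p(j|x) dj + ((C/2) I(ν|μ) - H(ν|μ))`.
-/

set_option autoImplicit false
set_option maxHeartbeats 400000
set_option linter.unusedSectionVars false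
set_option linter.unusedVariables false
open MeasureTheory

namespace Crest.Agent.R201.LL809

variable {n : ℕ} {L : Type*} [MeasurableSpace L]

/-- entropy functional -/
noncomputable def Ent (μ : Measure (E n)) (f : E n → ℝ) : ℝ :=
  (∫ x, f x * Real.log (f x) ∂μ) - (∫ x, f x ∂μ) * Real.log (∫ x, f x ∂μ)

/-- `CB` and bounded below by a positive constant -/
def CBp (f : E n → ℝ) : Prop := CB f ∧ ∃ c : ℝ, 0 < c ∧ ∀ x, c ≤ f x

/-- Fisher information `∫ |Df|²/f dμ` -/
noncomputable def Fi (μ : Measure (E n)) (f : E n → ℝ) : ℝ := ∫ x, (∑ k, pd k f x ^ 2) / f x ∂μ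

/-- logarithmic Sobolev inequality with constant `C`, density form -/
def LSI (C : ℝ) (μ : Measure (E n)) : Prop := ∀ f : E n → ℝ, CBp f → Ent μ f ≤ C / 2 * Fi μ f

/-- a channel with label space `(L, l)`, with dominations `G`, `h` -/
structure Chan (l : Measure L) (p : L → E n → ℝ) (G h : L → ℝ) : Prop where
  cb : ∀ j, CBp (p j)
  meas : Measurable fun z : L × E n => p z.1 z.2
  measd : ∀ k, Measurable fun z : L × E n => pd k (p z.1) z.2
  one : ∀ x, ∫ j, p j x ∂l = 1
  zero : ∀ k x, ∫ j, pd k (p j) x ∂l = 0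
  le : ∀ j x, p j x ≤ G j
  log_le : ∀ j x, |Real.log (p j x)| ≤ h j
  pd_le : ∀ j x k, |pd k (p j) x| ≤ h j * p j x
  mh : Measurable h
  mG : Measurable G
  int : Integrable (fun j => (1 + h j) ^ 2 * G j) l

/-- density of the label -/
noncomputable def pJ (μ : Measure (E n)) (f : E n → ℝ) (p : L → E n → ℝ) (j : L) : ℝ :=
  ∫ x, f x * p j x ∂μ

/-- mutual information of the label `J` and `x ~ f μ` -/
noncomputable def MI (μ : Measure (E n)) (f : E n → ℝ) (l : Measure L) (p : L → E n → ℝ) : ℝ :=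
  ∫ j, ((∫ x, f x * (p j x * Real.log (p j x)) ∂μ) - pJ μ f p j * Real.log (pJ μ f p j)) ∂l

/-- Fisher information of the channel, `E_ν ∫ |D_x log p|² p dj` -/
noncomputable def LF (μ : Measure (E n)) (f : E n → ℝ) (l : Measure L) (p : L → E n → ℝ) : ℝ :=
  ∫ j, ∫ x, f x * ((∑ k, pd k (p j) x ^ 2) / p j x) ∂μ ∂l

section Basic

theorem CBp.pos {f : E n → ℝ} (hf : CBp f) (x : E n) : 0 < f x := by
  obtain ⟨-, c, hc, h⟩ := hf
  exact hc.trans_le (h x)

theorem CBp.cont {f : E n → ℝ} (hf : CBp f) : Continuous f := hf.1.1.continuous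

theorem CBp.bdd {f : E n → ℝ} (hf : CBp f) : ∃ B : ℝ, 0 ≤ B ∧ ∀ x, |f x| ≤ B ∧ ∀ k, |pd k f x| ≤ B := by
  obtain ⟨⟨-, B, hB⟩, -⟩ := hf
  exact ⟨B, (abs_nonneg _).trans (hB 0).1, hB⟩

theorem CBp.log_bdd {f : E n → ℝ} (hf : CBp f) : ∃ B : ℝ, 0 ≤ B ∧ ∀ x, |Real.log (f x)| ≤ B := by
  obtain ⟨B, hB0, hB⟩ := hf.bdd
  obtain ⟨-, c, hc, h⟩ := hf
  refine ⟨max |Real.log B| |Real.log c|, le_max_of_le_left (abs_nonneg _), fun x => ?_⟩
  have h1 : Real.log c ≤ Real.log (f x) := Real.log_le_log hc (h x)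
  have h2 : Real.log (f x) ≤ Real.log B :=
    Real.log_le_log (hc.trans_le (h x)) ((le_abs_self _).trans (hB x).1)
  rw [abs_le]
  constructor
  · have := neg_abs_le (Real.log c)
    have := le_max_right |Real.log B| |Real.log c|
    linarith
  · have := le_abs_self (Real.log B)
    have := le_max_left |Real.log B| |Real.log c|
    linarith

theorem CBp.mul {f g : E n → ℝ} (hf : CBp f) (hg : CBp g) : CBp fun x => f x * g x := by
  refine ⟨Tw807.cb_mul hf.1 hg.1, ?_⟩
  obtain ⟨-, c, hc, h⟩ := hf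
  obtain ⟨-, d, hd, h'⟩ := hg
  exact ⟨c * d, mul_pos hc hd, fun x => mul_le_mul (h x) (h' x) hd.le (hc.le.trans (h x))⟩

theorem pd_meas {f : E n → ℝ} (hf : CB f) (k : Fin n) : Measurable (pd k f) :=
  (Tw807.pd_cont hf.1 k).measurable

end Basic

section Main

variable {μ : Measure (E n)} [IsFiniteMeasure μ] {f : E n → ℝ} {l : Measure L} [SFinite l]
  {p : L → E n → ℝ} {G h : L → ℝ} {C : ℝ}

theorem Chan.h_nonneg (hp : Chan l p G h) (j : L) : 0 ≤ h j :=
  (abs_nonneg _).trans (hp.log_le j 0)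

theorem Chan.G_pos (hp : Chan l p G h) (j : L) : 0 < G j :=
  ((hp.cb j).pos 0).trans_le (hp.le j 0)

/-- joint integrability -/
theorem Chan.int_prod (hp : Chan l p G h) {u : E n → ℝ} (mu : Measurable u) {B : ℝ}
    (hB : ∀ x, |u x| ≤ B) {q : L → E n → ℝ} (mq : Measurable fun z : L × E n => q z.1 z.2)
    (hq : ∀ j x, |q j x| ≤ (1 + h j) ^ 2 * G j) :
    Integrable (fun z : L × E n => u z.2 * q z.1 z.2) (l.prod μ) := by
  have h1 : Integrable (fun z : L × E n => ((1 + h z.1) ^ 2 * G z.1) * (fun _ : E n => B) z.2)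
      (l.prod μ) := hp.int.mul_prod (integrable_const B)
  refine h1.mono' ((mu.comp measurable_snd).mul mq).aestronglyMeasurable
    (Filter.Eventually.of_forall fun z => ?_)
  rw [Real.norm_eq_abs, abs_mul, mul_comm]
  exact mul_le_mul (hq z.1 z.2) (hB z.2) (abs_nonneg _)
    (mul_nonneg (sq_nonneg _) (hp.G_pos _).le)

theorem Chan.int_left (hp : Chan l p G h) {q : L → E n → ℝ}
    (mq : Measurable fun z : L × E n => q z.1 z.2)
    (hq : ∀ j x, |q j x| ≤ (1 + h j) ^ 2 * G j) (x : E n) :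
    Integrable (fun j => q j x) l :=
  hp.int.mono' (mq.comp measurable_prodMk_right).aestronglyMeasurable
    (Filter.Eventually.of_forall fun j => hq j x)

theorem Chan.int_right (hp : Chan l p G h) {u : E n → ℝ} (mu : Measurable u) {B : ℝ}
    (hB : ∀ x, |u x| ≤ B) {q : L → E n → ℝ} (mq : Measurable fun z : L × E n => q z.1 z.2)
    (hq : ∀ j x, |q j x| ≤ (1 + h j) ^ 2 * G j) (j : L) :
    Integrable (fun x => u x * q j x) μ := by
  refine (integrable_const (B * ((1 + h j) ^ 2 * G j))).mono'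
    (mu.mul (mq.comp measurable_prodMk_left)).aestronglyMeasurable
    (Filter.Eventually.of_forall fun x => ?_)
  rw [Real.norm_eq_abs, abs_mul]
  exact mul_le_mul (hB x) (hq j x) (abs_nonneg _) ((abs_nonneg _).trans (hB x))

theorem Chan.swap (hp : Chan l p G h) {u : E n → ℝ} (mu : Measurable u) {B : ℝ}
    (hB : ∀ x, |u x| ≤ B) {q : L → E n → ℝ} (mq : Measurable fun z : L × E n => q z.1 z.2)
    (hq : ∀ j x, |q j x| ≤ (1 + h j) ^ 2 * G j) :
    Integrable (fun j => ∫ x, u x * q j x ∂μ) l ∧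
    ∫ j, ∫ x, u x * q j x ∂μ ∂l = ∫ x, u x * ∫ j, q j x ∂l ∂μ := by
  have hi := hp.int_prod (μ := μ) mu hB mq hq
  refine ⟨hi.integral_prod_left, ?_⟩
  rw [integral_integral_swap (f := fun j x => u x * q j x) hi]
  refine integral_congr_ae (Filter.Eventually.of_forall fun x => ?_)
  exact integral_const_mul _ _

theorem Chan.p_nonneg (hp : Chan l p G h) (j : L) (x : E n) : 0 ≤ p j x := ((hp.cb j).pos x).le

/-- domination of `p` -/
theorem Chan.q1 (hp : Chan l p G h) (j : L) (x : E n) : |p j x| ≤ (1 + h j) ^ 2 * G j := by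
  rw [abs_of_nonneg (hp.p_nonneg j x)]
  have h1 := hp.h_nonneg j
  have h2 := hp.le j x
  have h3 := (hp.G_pos j).le
  nlinarith [mul_nonneg h1 h3, mul_nonneg (mul_nonneg h1 h1) h3]

/-- domination of `p log p` -/
theorem Chan.q2 (hp : Chan l p G h) (j : L) (x : E n) :
    |p j x * Real.log (p j x)| ≤ (1 + h j) ^ 2 * G j := by
  rw [abs_mul, abs_of_nonneg (hp.p_nonneg j x)]
  have h1 := hp.h_nonneg j
  have h2 := hp.le j x
  have h3 := (hp.G_pos j).le
  have h4 := hp.log_le j x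
  have h5 : p j x * |Real.log (p j x)| ≤ G j * h j := mul_le_mul h2 h4 (abs_nonneg _) h3
  nlinarith [mul_nonneg h1 h3, mul_nonneg (mul_nonneg h1 h1) h3]

/-- domination of `∂ₖ p` -/
theorem Chan.q3 (hp : Chan l p G h) (k : Fin n) (j : L) (x : E n) :
    |pd k (p j) x| ≤ (1 + h j) ^ 2 * G j := by
  have h1 := hp.h_nonneg j
  have h2 := hp.le j x
  have h3 := (hp.G_pos j).le
  have h4 := hp.pd_le j x k
  have h5 : h j * p j x ≤ h j * G j := mul_le_mul_of_nonneg_left h2 h1
  nlinarith [mul_nonneg h1 h3, mul_nonneg (mul_nonneg h1 h1) h3]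

/-- domination of `(∂ₖ p)² / p` -/
theorem Chan.q4 (hp : Chan l p G h) (k : Fin n) (j : L) (x : E n) :
    |pd k (p j) x ^ 2 / p j x| ≤ (1 + h j) ^ 2 * G j := by
  have h0 := (hp.cb j).pos x
  have h1 := hp.h_nonneg j
  have h2 := hp.le j x
  have h3 := (hp.G_pos j).le
  have h4 := hp.pd_le j x k
  rw [abs_of_nonneg (div_nonneg (sq_nonneg _) h0.le), div_le_iff₀ h0]
  have h5 : pd k (p j) x ^ 2 ≤ (h j * p j x) ^ 2 := by
    rw [← sq_abs]; exact pow_le_pow_left₀ (abs_nonneg _) h4 2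
  refine h5.trans ?_
  have h6 : h j ^ 2 * p j x ≤ (1 + h j) ^ 2 * G j := by
    have : h j ^ 2 * p j x ≤ h j ^ 2 * G j := mul_le_mul_of_nonneg_left h2 (sq_nonneg _)
    nlinarith [mul_nonneg h1 h3]
  calc (h j * p j x) ^ 2 = (h j ^ 2 * p j x) * p j x := by ring
    _ ≤ _ := mul_le_mul_of_nonneg_right h6 h0.le

theorem Chan.mq4 (hp : Chan l p G h) (k : Fin n) :
    Measurable fun z : L × E n => pd k (p z.1) z.2 ^ 2 / p z.1 z.2 :=
  ((hp.measd k).pow_const 2).div hp.meas

/-- the label density: bounds -/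
theorem pJ_bd (hp : Chan l p G h) (hf : CBp f) (h1 : ∫ x, f x ∂μ = 1) (j : L) :
    0 < pJ μ f p j ∧ pJ μ f p j ≤ G j ∧ |Real.log (pJ μ f p j)| ≤ h j := by
  obtain ⟨B, hB0, hB⟩ := hf.bdd
  have fi : Integrable f μ := (integrable_const B).mono' hf.cont.aestronglyMeasurable
    (Filter.Eventually.of_forall fun x => (hB x).1)
  have fpi : Integrable (fun x => f x * p j x) μ := by
    obtain ⟨B', hB0', hB'⟩ := (hp.cb j).bdd
    refine (integrable_const (B * B')).mono' (hf.cont.mul (hp.cb j).cont).aestronglyMeasurable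
      (Filter.Eventually.of_forall fun x => ?_)
    rw [Real.norm_eq_abs, abs_mul]
    exact mul_le_mul (hB x).1 (hB' x).1 (abs_nonneg _) hB0
  have lo : ∀ x, Real.exp (-h j) ≤ p j x := by
    intro x
    have := (abs_le.1 (hp.log_le j x)).1
    rw [← Real.exp_log ((hp.cb j).pos x)]
    exact Real.exp_le_exp.2 this
  have up : ∀ x, p j x ≤ Real.exp (h j) := by
    intro x
    have := (abs_le.1 (hp.log_le j x)).2
    rw [← Real.exp_log ((hp.cb j).pos x)]
    exact Real.exp_le_exp.2 this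
  have k1 : ∀ c : ℝ, (∀ x, p j x ≤ c) → pJ μ f p j ≤ c := by
    intro c hc
    have : pJ μ f p j ≤ ∫ x, f x * c ∂μ :=
      integral_mono fpi (fi.mul_const c) fun x => mul_le_mul_of_nonneg_left (hc x) (hf.pos x).le
    rwa [integral_mul_const, h1, one_mul] at this
  have k2 : Real.exp (-h j) ≤ pJ μ f p j := by
    have : ∫ x, f x * Real.exp (-h j) ∂μ ≤ pJ μ f p j :=
      integral_mono (fi.mul_const _) fpi fun x => mul_le_mul_of_nonneg_left (lo x) (hf.pos x).le
    rwa [integral_mul_const, h1, one_mul] at this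
  have hpos : 0 < pJ μ f p j := (Real.exp_pos _).trans_le k2
  refine ⟨hpos, k1 _ (hp.le j), ?_⟩
  rw [abs_le]
  constructor
  · have := Real.log_le_log (Real.exp_pos _) k2
    rwa [Real.log_exp] at this
  · have := Real.log_le_log hpos (k1 _ up)
    rwa [Real.log_exp] at this

theorem pJ_meas (hp : Chan l p G h) (hf : CBp f) : Measurable (pJ μ f p) := by
  have : StronglyMeasurable fun z : L × E n => f z.2 * p z.1 z.2 :=
    ((hf.cont.measurable.comp measurable_snd).mul hp.meas).stronglyMeasurable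
  exact this.integral_prod_right.measurable

theorem pJlog_int (hp : Chan l p G h) (hf : CBp f) (h1 : ∫ x, f x ∂μ = 1) :
    Integrable (fun j => pJ μ f p j * Real.log (pJ μ f p j)) l := by
  refine hp.int.mono' ((pJ_meas hp hf).mul (pJ_meas hp hf).log).aestronglyMeasurable
    (Filter.Eventually.of_forall fun j => ?_)
  obtain ⟨h0, h2, h3⟩ := pJ_bd hp hf h1 j
  rw [Real.norm_eq_abs, abs_mul, abs_of_pos h0]
  have h4 : pJ μ f p j * |Real.log (pJ μ f p j)| ≤ G j * h j :=
    mul_le_mul h2 h3 (abs_nonneg _) (hp.G_pos j).le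
  have h5 := hp.h_nonneg j
  have h6 := (hp.G_pos j).le
  nlinarith [mul_nonneg h5 h6, mul_nonneg (mul_nonneg h5 h5) h6]

/-- **labelled LSI with defect** -/
theorem lab (H : LSI C μ) (hf : CBp f) (h1 : ∫ x, f x ∂μ = 1) (hp : Chan l p G h) :
    MI μ f l p ≤ C / 2 * LF μ f l p + (C / 2 * Fi μ f - Ent μ f) := by
  obtain ⟨B, hB0, hB⟩ := hf.bdd
  obtain ⟨B', hB0', hB'⟩ := hf.log_bdd
  obtain ⟨-, c, hc, hcf⟩ := id hf
  have mf := hf.cont.measurable
  have mk : ∀ k, Measurable (pd k f) := fun k => pd_meas hf.1 k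
  -- the four swaps
  have u1 : Measurable fun x => f x * Real.log (f x) := mf.mul mf.log
  have b1 : ∀ x, |f x * Real.log (f x)| ≤ B * B' := fun x => by
    rw [abs_mul]; exact mul_le_mul (hB x).1 (hB' x) (abs_nonneg _) hB0
  have u3 : ∀ k, Measurable fun x => pd k f x ^ 2 / f x := fun k => ((mk k).pow_const 2).div mf
  have b3 : ∀ k x, |pd k f x ^ 2 / f x| ≤ B ^ 2 / c := fun k x => by
    rw [abs_div, abs_of_pos (hf.pos x), abs_of_nonneg (sq_nonneg _), ← sq_abs]
    exact div_le_div₀ (sq_nonneg _) (pow_le_pow_left₀ (abs_nonneg _) ((hB x).2 k) 2) hc (hcf x)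
  obtain ⟨i1, s1⟩ := hp.swap (μ := μ) (q := p) u1 b1 hp.meas hp.q1
  have m2 : Measurable fun z : L × E n => p z.1 z.2 * Real.log (p z.1 z.2) := hp.meas.mul hp.meas.log
  obtain ⟨i2, s2⟩ := hp.swap (μ := μ) (q := fun j x => p j x * Real.log (p j x)) mf
    (fun x => (hB x).1) m2 hp.q2
  have s3 := fun k => hp.swap (μ := μ) (q := p) (u3 k) (b3 k) hp.meas hp.q1
  have s4 := fun k => hp.swap (μ := μ) (q := fun j x => pd k (p j) x) (mk k)
    (fun x => (hB x).2 k) (hp.measd k) (hp.q3 k)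
  have s5 := fun k => hp.swap (μ := μ) (q := fun j x => pd k (p j) x ^ 2 / p j x) mf
    (fun x => (hB x).1) (hp.mq4 k) (hp.q4 k)
  have i6 := pJlog_int (μ := μ) hp hf h1
  -- pointwise LSI
  have key : ∀ j, (∫ x, f x * Real.log (f x) * p j x ∂μ) +
      (∫ x, f x * (p j x * Real.log (p j x)) ∂μ) - pJ μ f p j * Real.log (pJ μ f p j) ≤
      C / 2 * (∑ k, ((∫ x, pd k f x ^ 2 / f x * p j x ∂μ) + 2 * (∫ x, pd k f x * pd k (p j) x ∂μ) +
        ∫ x, f x * (pd k (p j) x ^ 2 / p j x) ∂μ)) := by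
    intro j
    have h0 := H (fun x => f x * p j x) (hf.mul (hp.cb j))
    have e1 : ∫ x, f x * p j x * Real.log (f x * p j x) ∂μ =
        (∫ x, f x * Real.log (f x) * p j x ∂μ) + ∫ x, f x * (p j x * Real.log (p j x)) ∂μ := by
      rw [← integral_add (hp.int_right (q := p) u1 b1 hp.meas hp.q1 j)
        (hp.int_right (q := fun j x => p j x * Real.log (p j x)) mf (fun x => (hB x).1) m2 hp.q2 j)]
      refine integral_congr_ae (Filter.Eventually.of_forall fun x => ?_)
      simp only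
      rw [Real.log_mul (hf.pos x).ne' ((hp.cb j).pos x).ne']
      ring
    have e2 : Fi μ (fun x => f x * p j x) = ∑ k, ((∫ x, pd k f x ^ 2 / f x * p j x ∂μ) +
        2 * (∫ x, pd k f x * pd k (p j) x ∂μ) + ∫ x, f x * (pd k (p j) x ^ 2 / p j x) ∂μ) := by
      have j3 := fun k => hp.int_right (μ := μ) (q := p) (u3 k) (b3 k) hp.meas hp.q1 j
      have j4 := fun k => hp.int_right (μ := μ) (q := fun j x => pd k (p j) x)
        (mk k) (fun x => (hB x).2 k) (hp.measd k) (hp.q3 k) j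
      have j5 := fun k => hp.int_right (μ := μ) (q := fun j x => pd k (p j) x ^ 2 / p j x)
        mf (fun x => (hB x).1) (hp.mq4 k) (hp.q4 k) j
      have j6 : ∀ k, Integrable (fun x => pd k f x ^ 2 / f x * p j x +
          2 * (pd k f x * pd k (p j) x)) μ := fun k => (j3 k).add ((j4 k).const_mul 2)
      have j7 : ∀ k, Integrable (fun x => pd k f x ^ 2 / f x * p j x +
          2 * (pd k f x * pd k (p j) x) + f x * (pd k (p j) x ^ 2 / p j x)) μ := fun k =>
        (j6 k).add (j5 k)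
      have e3 : ∀ k, (∫ x, pd k f x ^ 2 / f x * p j x ∂μ) +
          2 * (∫ x, pd k f x * pd k (p j) x ∂μ) + ∫ x, f x * (pd k (p j) x ^ 2 / p j x) ∂μ =
          ∫ x, (pd k f x ^ 2 / f x * p j x + 2 * (pd k f x * pd k (p j) x) +
            f x * (pd k (p j) x ^ 2 / p j x)) ∂μ := by
        intro k
        rw [integral_add (j6 k) (j5 k), integral_add (j3 k) ((j4 k).const_mul 2), integral_const_mul]
      simp only [e3]
      rw [← integral_finsetSum _ fun k _ => j7 k]
      refine integral_congr_ae (Filter.Eventually.of_forall fun x => ?_)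
      simp only
      rw [Finset.sum_div]
      refine Finset.sum_congr rfl fun k _ => ?_
      rw [Tw807.pd_mul k (Tw807.cb_diff hf.1 x) (Tw807.cb_diff (hp.cb j).1 x)]
      have := (hf.pos x).ne'
      have := ((hp.cb j).pos x).ne'
      field_simp
      ring
    unfold Ent at h0
    rw [e1, e2] at h0
    exact h0
  -- integrate over `j`
  have hL : MI μ f l p + ∫ x, f x * Real.log (f x) ∂μ =
      ∫ j, ((∫ x, f x * Real.log (f x) * p j x ∂μ) +
      (∫ x, f x * (p j x * Real.log (p j x)) ∂μ) - pJ μ f p j * Real.log (pJ μ f p j)) ∂l := by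
    have a1 : ∫ x, f x * Real.log (f x) ∂μ = ∫ j, ∫ x, f x * Real.log (f x) * p j x ∂μ ∂l := by
      rw [s1]
      simp only [hp.one, mul_one]
    rw [a1]
    unfold MI
    have i26 : Integrable (fun j => (∫ x, f x * (p j x * Real.log (p j x)) ∂μ) -
      pJ μ f p j * Real.log (pJ μ f p j)) l := i2.sub i6
    rw [← integral_add i26 i1]
    refine integral_congr_ae (Filter.Eventually.of_forall fun j => ?_)
    ring
  have tk : ∀ k, Integrable (fun j => (∫ x, pd k f x ^ 2 / f x * p j x ∂μ) +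
      2 * (∫ x, pd k f x * pd k (p j) x ∂μ) + ∫ x, f x * (pd k (p j) x ^ 2 / p j x) ∂μ) l := fun k =>
    (((s3 k).1).add (((s4 k).1).const_mul 2)).add (s5 k).1
  have hR : ∫ j, C / 2 * (∑ k, ((∫ x, pd k f x ^ 2 / f x * p j x ∂μ) +
      2 * (∫ x, pd k f x * pd k (p j) x ∂μ) +
        ∫ x, f x * (pd k (p j) x ^ 2 / p j x) ∂μ)) ∂l = C / 2 * (Fi μ f + LF μ f l p) := by
    rw [integral_const_mul]
    congr 1
    rw [integral_finsetSum _ fun k _ => tk k]
    have a2 : Fi μ f = ∑ k, ∫ x, pd k f x ^ 2 / f x ∂μ := by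
      unfold Fi
      rw [← integral_finsetSum _ fun k _ => (integrable_const (B ^ 2 / c)).mono'
        (u3 k).aestronglyMeasurable (Filter.Eventually.of_forall fun x => b3 k x)]
      simp only [Finset.sum_div]
    have a3 : LF μ f l p = ∑ k, ∫ j, ∫ x, f x * (pd k (p j) x ^ 2 / p j x) ∂μ ∂l := by
      unfold LF
      rw [← integral_finsetSum _ fun k _ => (s5 k).1]
      refine integral_congr_ae (Filter.Eventually.of_forall fun j => ?_)
      simp only
      rw [← integral_finsetSum _ fun k _ => hp.int_right (μ := μ) (q := fun j x => pd k (p j) x ^ 2 / p j x) mf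
        (fun x => (hB x).1) (hp.mq4 k) (hp.q4 k) j]
      refine integral_congr_ae (Filter.Eventually.of_forall fun x => ?_)
      simp only
      rw [Finset.sum_div, Finset.mul_sum]
    rw [a2, a3, ← Finset.sum_add_distrib]
    refine Finset.sum_congr rfl fun k _ => ?_
    have b4 : ∫ j, ∫ x, pd k f x * pd k (p j) x ∂μ ∂l = 0 := by
      rw [(s4 k).2]
      simp only [hp.zero, mul_zero, integral_zero]
    have b5 : ∫ j, ∫ x, pd k f x ^ 2 / f x * p j x ∂μ ∂l = ∫ x, pd k f x ^ 2 / f x ∂μ := by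
      rw [(s3 k).2]
      simp only [hp.one, mul_one]
    have t2 : Integrable (fun j => (∫ x, pd k f x ^ 2 / f x * p j x ∂μ) +
      2 * (∫ x, pd k f x * pd k (p j) x ∂μ)) l := ((s3 k).1).add (((s4 k).1).const_mul 2)
    rw [integral_add t2 (s5 k).1, integral_add (s3 k).1 (((s4 k).1).const_mul 2),
      integral_const_mul, b4, b5]
    ring
  have i126 : Integrable (fun j => (∫ x, f x * Real.log (f x) * p j x ∂μ) +
      (∫ x, f x * (p j x * Real.log (p j x)) ∂μ) - pJ μ f p j * Real.log (pJ μ f p j)) l :=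
    (i1.add i2).sub i6
  have hI := integral_mono i126
    ((integrable_finsetSum Finset.univ fun k _ => tk k).const_mul (C / 2)) key
  have hEnt : Ent μ f = ∫ x, f x * Real.log (f x) ∂μ := by
    unfold Ent
    rw [h1, Real.log_one, mul_zero, sub_zero]
  have hI' := hL.trans_le (hI.trans_eq hR)
  rw [hEnt]
  linarith

end Main

end Crest.Agent.R201.LL809
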