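import Crest.Agent.R201.Noi1_402
import Crest.Agent.R201.LSn_77
import Crest.Agent.R201.LabLSI_809
import Crest.Agent.R201.An15_293

/-!
# R201 (S0308): the log-Sobolev constant: equivalent forms, near-extremals, scaling  (helper402)

* `lsi_iff`  : `LL809.LSI K (nm ρ) ↔ LS ρ K`,  `ls77_iff : LSn77.LS ρ K ↔ LS ρ K`.
* `CLS`      : best constant; `LS_CLS`, `CLS_sharp`.
* `LS_slc`   : `SLC c w → LS w (1/c)`.
* `LS_scl`, `sharp_scl`.
* `LS_sq`    : `Ent(f²) ≤ 2 K E|Df|²` for `f ∈ CB`.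
-/

set_option autoImplicit false
open MeasureTheory Matrix Filter Topology
open scoped ContDiff RealInnerProductSpace NNReal

namespace Crest.Agent.R201.Noi402

open Crest.Agent.R201 Crest.Agent.R144.Fi865 Crest.Agent.R201.An Crest.Agent.R201.DVQ402

variable {n : ℕ} {w ρ F G f : E n → ℝ} {s c K l a : ℝ}

/-! ### equivalent forms -/

/-- the entropy functional -/
noncomputable def En (ρ f : E n → ℝ) : ℝ :=
  Em ρ (fun x => f x * Real.log (f x)) - Em ρ f * Real.log (Em ρ f)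

/-- the Fisher information -/
noncomputable def Fi (ρ f : E n → ℝ) : ℝ := Em ρ (fun x => ‖fderiv ℝ f x‖ ^ 2 / f x)

lemma LS_def : LS ρ K ↔ ∀ f : E n → ℝ, LL809.CBp f → En ρ f ≤ K / 2 * Fi ρ f := by
  constructor
  · intro h f hf
    obtain ⟨h1, c, hc, h2⟩ := hf
    exact h f h1 ⟨c, hc, h2⟩
  · intro h f hf hc
    obtain ⟨c, hc, h2⟩ := hc
    exact h f ⟨hf, c, hc, h2⟩

lemma ent_nm (hρ : Ex ρ) (f : E n → ℝ) : LL809.Ent (nm ρ) f = En ρ f := by
  unfold LL809.Ent En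
  rw [int_nm hρ, int_nm hρ]

lemma fi_nm (hρ : Ex ρ) (f : E n → ℝ) : LL809.Fi (nm ρ) f = Fi ρ f := by
  unfold LL809.Fi Fi
  rw [int_nm hρ]
  congr 1
  funext x
  rw [norm_fderiv_sq]

theorem lsi_iff (hρ : Ex ρ) : LL809.LSI K (nm ρ) ↔ LS ρ K := by
  rw [LS_def]
  unfold LL809.LSI
  simp only [ent_nm hρ, fi_nm hρ]

/-- logarithm of a function bounded below -/
lemma CB_log {f : E n → ℝ} (hf : LL809.CBp f) :
    CB (fun x => Real.log (f x)) ∧ ∀ k x, pd k (fun x => Real.log (f x)) x = pd k f x / f x := by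
  obtain ⟨hcb, c, hc, hge⟩ := hf
  obtain ⟨c', B', hp⟩ := exists_pos hcb ⟨c, hc, hge⟩
  obtain ⟨B, hB⟩ := hcb.2
  have hpd : ∀ k x, pd k (fun x => Real.log (f x)) x = pd k f x / f x := by
    intro k x
    unfold pd
    have d := ((hcb.1.differentiable (by simp) x).hasFDerivAt).log (hp.pos x).ne'
    rw [d.fderiv]
    simp [div_eq_inv_mul]
  have hB0 : 0 ≤ B := (abs_nonneg _).trans (hB 0).1
  refine ⟨⟨hcb.1.log fun x => (hp.pos x).ne',
    max (max |Real.log c'| |Real.log B'|) (B / c'), fun x => ⟨?_, fun k => ?_⟩⟩, hpd⟩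
  · exact (hp.log_bdd x).trans (le_max_left _ _)
  · rw [hpd, abs_div, abs_of_pos (hp.pos x)]
    refine le_trans ?_ (le_max_right _ _)
    exact div_le_div₀ hB0 ((hB x).2 k) hp.c_pos (hp.ge x)

theorem ls77_iff : LSn77.LS ρ K ↔ LS ρ K := by
  constructor
  · intro h
    rw [LS_def]
    intro f hf
    obtain ⟨hg, hpd⟩ := CB_log hf
    have hp := hf.pos
    have key := h _ hg
    simp only [hpd, Real.exp_log (hp _)] at key
    unfold En Fi
    have e1 : (fun x => f x * Real.log (f x)) = fun x => Real.log (f x) * f x := by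
      funext x; ring
    have e2 : (fun x => ‖fderiv ℝ f x‖ ^ 2 / f x) =
        fun x => (∑ k, (pd k f x / f x) ^ 2) * f x := by
      funext x
      rw [norm_fderiv_sq, Finset.sum_mul, Finset.sum_div]
      refine Finset.sum_congr rfl fun k _ => ?_
      have := (hp x).ne'
      field_simp
    rw [e1, e2]
    exact key
  · intro h g hg
    obtain ⟨hf, hpd⟩ := LSn77.CB.exp hg
    obtain ⟨B, hB⟩ := hg.2
    have hfp : LL809.CBp (fun x => Real.exp (g x)) :=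
      ⟨hf, Real.exp (-B), Real.exp_pos _, fun x => Real.exp_le_exp.2 (abs_le.1 (hB x).1).1⟩
    have key := LS_def.1 h _ hfp
    unfold En Fi at key
    simp only [Real.log_exp] at key
    have e1 : (fun x => Real.exp (g x) * g x) = fun x => g x * Real.exp (g x) := by
      funext x; ring
    have e2 : (fun x => ‖fderiv ℝ (fun x => Real.exp (g x)) x‖ ^ 2 / Real.exp (g x)) =
        fun x => (∑ k, pd k g x ^ 2) * Real.exp (g x) := by
      funext x
      rw [norm_fderiv_sq, Finset.sum_mul, Finset.sum_div]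
      refine Finset.sum_congr rfl fun k _ => ?_
      rw [hpd]
      have := (Real.exp_pos (g x)).ne'
      field_simp
    rw [e1, e2] at key
    exact key

/-- `C_LS(X + √s G) ≤ C_LS(X) + s` in the present form -/
theorem LS_noisy (hw : Ex w) (hs : 0 < s) (hK : 0 ≤ K) (hP : LS w K) :
    LS (An.Lp w s fun _ => 1) (K + s) :=
  ls77_iff.1 (LSn77.LS_noisy hw hs hK (ls77_iff.2 hP))

/-! ### nonnegativity -/

lemma Fi_nonneg (hρ : Ex ρ) (hf : LL809.CBp f) : 0 ≤ Fi ρ f :=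
  Em_nonneg hρ fun x => div_nonneg (sq_nonneg _) (hf.pos x).le

/-- Gibbs -/
lemma En_nonneg (hρ : Ex ρ) (hf : LL809.CBp f) : 0 ≤ En ρ f := by
  obtain ⟨hcb, c, hc, hge⟩ := id hf
  obtain ⟨c', B', hp⟩ := exists_pos hcb ⟨c, hc, hge⟩
  have hm : 0 < Em ρ f := by
    have := Em_mono hρ (EG.const c') hp.eg hp.ge
    rw [Em_const hρ] at this
    exact hp.c_pos.trans_le this
  -- `f log f ≥ f log m + f - m`
  have key : ∀ x, Real.log (Em ρ f) * f x + (f x - Em ρ f) ≤ f x * Real.log (f x) := by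
    intro x
    have h1 := Real.add_one_le_exp (Real.log (Em ρ f) - Real.log (f x))
    rw [Real.exp_sub, Real.exp_log hm, Real.exp_log (hp.pos x), le_div_iff₀ (hp.pos x)] at h1
    nlinarith
  have h2 := Em_mono hρ ((hp.eg.smul _).add (hp.eg.sub (EG.const _))) hp.eg_flogf key
  rw [Em_add hρ (hp.eg.smul _) (hp.eg.sub (EG.const _)), Em_smul, Em_sub hρ hp.eg (EG.const _),
    Em_const hρ] at h2
  unfold En
  linarith

lemma LS_mono (hρ : Ex ρ) {K K' : ℝ} (h : LS ρ K) (hK : K ≤ K') : LS ρ K' := by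
  rw [LS_def] at h ⊢
  intro f hf
  refine (h f hf).trans ?_
  have := Fi_nonneg hρ hf
  gcongr

/-! ### the best constant -/

/-- best log-Sobolev constant -/
noncomputable def CLS (ρ : E n → ℝ) : ℝ := sInf {K | 0 ≤ K ∧ LS ρ K}

lemma CLS_nonneg (ρ : E n → ℝ) : 0 ≤ CLS ρ := Real.sInf_nonneg fun _ h => h.1

lemma CLS_le (hK : 0 ≤ K) (h : LS ρ K) : CLS ρ ≤ K := csInf_le ⟨0, fun _ h => h.1⟩ ⟨hK, h⟩

lemma LS_CLS (hρ : Ex ρ) (h : ∃ K, 0 ≤ K ∧ LS ρ K) : LS ρ (CLS ρ) := by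
  rw [LS_def]
  intro f hf
  have hd := Fi_nonneg hρ hf
  have key : ∀ δ : ℝ, 0 < δ → En ρ f ≤ CLS ρ / 2 * Fi ρ f + δ * Fi ρ f := fun δ hδ => by
    obtain ⟨K, ⟨hK, hPI⟩, hlt⟩ := exists_lt_of_csInf_lt (s := {K | 0 ≤ K ∧ LS ρ K}) h
      (show sInf {K | 0 ≤ K ∧ LS ρ K} < CLS ρ + 2 * δ by unfold CLS; linarith)
    have h1 := LS_def.1 hPI f hf
    have h2 : K * Fi ρ f ≤ (CLS ρ + 2 * δ) * Fi ρ f := mul_le_mul_of_nonneg_right hlt.le hd
    linarith
  rcases hd.eq_or_lt with h0 | h0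
  · have := key 1 one_pos
    rw [← h0] at this ⊢
    simpa using this
  · refine le_of_forall_pos_le_add fun δ hδ => ?_
    have := key (δ / Fi ρ f) (by positivity)
    rwa [div_mul_cancel₀ _ h0.ne'] at this

/-- near-extremals -/
lemma CLS_sharp (hρ : Ex ρ) (hC : 0 < CLS ρ) {δ : ℝ} (hδ : 0 < δ) :
    ∃ f : E n → ℝ, LL809.CBp f ∧ 0 < En ρ f ∧ CLS ρ / 2 * Fi ρ f ≤ (1 + δ) * En ρ f := by
  set K' := CLS ρ / (1 + δ) with hK'
  have hK0 : 0 < K' := by positivity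
  have h1 : ¬ LS ρ K' := by
    intro h
    have h2 := CLS_le hK0.le h
    rw [hK', le_div_iff₀ (by positivity)] at h2
    nlinarith
  rw [LS_def] at h1
  push Not at h1
  obtain ⟨f, hf, h2⟩ := h1
  have hd := Fi_nonneg hρ hf
  refine ⟨f, hf, lt_of_le_of_lt (by positivity) h2, ?_⟩
  have h3 : CLS ρ = (1 + δ) * K' := by rw [hK']; field_simp
  rw [h3]
  have h4 := mul_le_mul_of_nonneg_left h2.le (by positivity : 0 ≤ 1 + δ)
  linarith

/-- normalisation of the near-extremal to a probability density -/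
lemma En_smul (hρ : Ex ρ) (hf : LL809.CBp f) {b : ℝ} (hb : 0 < b) :
    LL809.CBp (fun x => b * f x) ∧ En ρ (fun x => b * f x) = b * En ρ f ∧
      Fi ρ (fun x => b * f x) = b * Fi ρ f := by
  obtain ⟨hcb, c, hc, hge⟩ := id hf
  obtain ⟨c', B', hp⟩ := exists_pos hcb ⟨c, hc, hge⟩
  obtain ⟨B, hB⟩ := hcb.2
  have hd := hcb.1.differentiable (by simp : (1 : WithTop ℕ∞) ≠ 0)
  have hfd : ∀ x, fderiv ℝ (fun x => b * f x) x = b • fderiv ℝ f x := fun x => by
    rw [fderiv_const_mul (hd x)]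
  have hpos : 0 < Em ρ f := by
    have := Em_mono hρ (EG.const c') hp.eg hp.ge
    rw [Em_const hρ] at this
    exact hp.c_pos.trans_le this
  refine ⟨⟨⟨contDiff_const.mul hcb.1, b * B, fun x => ⟨?_, fun k => ?_⟩⟩, b * c, by positivity,
    fun x => mul_le_mul_of_nonneg_left (hge x) hb.le⟩, ?_, ?_⟩
  · rw [abs_mul, abs_of_pos hb]
    exact mul_le_mul_of_nonneg_left (hB x).1 hb.le
  · unfold pd
    rw [hfd]
    simp only [_root_.smul_apply, smul_eq_mul]
    rw [abs_mul, abs_of_pos hb]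
    exact mul_le_mul_of_nonneg_left ((hB x).2 k) hb.le
  · unfold En
    have e : (fun x => b * f x * Real.log (b * f x)) =
        fun x => b * (f x * Real.log (f x)) + (b * Real.log b) * f x := by
      funext x
      rw [Real.log_mul hb.ne' (hp.pos x).ne']
      ring
    rw [e, Em_add hρ (hp.eg_flogf.smul _) (hp.eg.smul _), Em_smul, Em_smul, Em_smul,
      Real.log_mul hb.ne' hpos.ne']
    ring
  · unfold Fi
    rw [← Em_smul]
    congr 1
    funext x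
    rw [hfd, norm_smul, Real.norm_of_nonneg hb.le, mul_pow]
    have := (hp.pos x).ne'
    field_simp

/-- **normalised near-extremals**: a probability density `f` with
`(C_LS/2) I ≤ (1+δ) H`, `H > 0`. -/
theorem near_extremal (hρ : Ex ρ) (hC : 0 < CLS ρ) {δ : ℝ} (hδ : 0 < δ) :
    ∃ f : E n → ℝ, LL809.CBp f ∧ Em ρ f = 1 ∧ 0 < En ρ f ∧
      CLS ρ / 2 * Fi ρ f ≤ (1 + δ) * En ρ f := by
  obtain ⟨f, hf, h1, h2⟩ := CLS_sharp hρ hC hδ
  obtain ⟨hcb, c, hc, hge⟩ := id hf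
  obtain ⟨c', B', hp⟩ := exists_pos hcb ⟨c, hc, hge⟩
  have hpos : 0 < Em ρ f := by
    have := Em_mono hρ (EG.const c') hp.eg hp.ge
    rw [Em_const hρ] at this
    exact hp.c_pos.trans_le this
  obtain ⟨k1, k2, k3⟩ := En_smul hρ hf (inv_pos.2 hpos)
  refine ⟨fun x => (Em ρ f)⁻¹ * f x, k1, ?_, ?_, ?_⟩
  · rw [Em_smul]
    exact inv_mul_cancel₀ hpos.ne'
  · rw [k2]; positivity
  · rw [k2, k3]
    have := mul_le_mul_of_nonneg_left h2 (inv_pos.2 hpos).le
    linarith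

/-! ### strongly log-concave weights -/

theorem LS_slc (hw : Ex w) (hc : 0 < c) (h : SLC c w) : LS w (1 / c) := by
  rw [LS_def]
  intro f hf
  obtain ⟨hcb, c', hc', hge⟩ := id hf
  obtain ⟨c', B', hp⟩ := exists_pos hcb ⟨c', hc', hge⟩
  have key := NSL674.lsi_pos (W := w) hc hw.nonneg hw.meas (by simpa using hw.int 0) hw.pos h
    hcb.1 hp.c_pos hp.ge hp.le hp.dle
  have hZ := hw.pos
  unfold En Fi Em
  have e : 1 / c / 2 * ((∫ y, ‖fderiv ℝ f y‖ ^ 2 / f y * w y) / ∫ z, w z) -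
      ((∫ y, f y * Real.log (f y) * w y) / (∫ z, w z) -
        (∫ y, f y * w y) / (∫ z, w z) * Real.log ((∫ y, f y * w y) / ∫ z, w z)) =
      ((2 * c)⁻¹ * (∫ y, ‖fderiv ℝ f y‖ ^ 2 / f y * w y) -
        ((∫ y, f y * Real.log (f y) * w y) -
          (∫ y, f y * w y) * Real.log ((∫ y, f y * w y) / ∫ z, w z))) / ∫ z, w z := by
    field_simp
  rw [← sub_nonneg, e]
  exact div_nonneg (sub_nonneg.2 key) hZ.le

/-! ### scaling -/

lemma CBp_comp_smul {f : E n → ℝ} (hf : LL809.CBp f) (l : ℝ) : LL809.CBp (fun x => f (l • x)) := by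
  obtain ⟨h1, c, hc, h2⟩ := hf
  exact ⟨(CB_comp_smul h1 l).1, c, hc, fun x => h2 _⟩

lemma En_scl (hl : 0 < l) (ha : 0 < a) (f : E n → ℝ) :
    En (fun x => a * ρ (l • x)) f = En ρ (fun x => f (l⁻¹ • x)) := by
  unfold En
  rw [Em_scl hl ha, Em_scl hl ha]

lemma Fi_scl (hl : 0 < l) (ha : 0 < a) (hf : LL809.CBp f) :
    Fi (fun x => a * ρ (l • x)) f = l ^ 2 * Fi ρ (fun x => f (l⁻¹ • x)) := by
  unfold Fi
  rw [Em_scl hl ha, ← Em_smul]
  congr 1
  funext x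
  have h1 : ‖fderiv ℝ (fun x => f (l⁻¹ • x)) x‖ ^ 2 = (l⁻¹) ^ 2 * ‖fderiv ℝ f (l⁻¹ • x)‖ ^ 2 := by
    rw [norm_fderiv_sq, norm_fderiv_sq, Finset.mul_sum]
    refine Finset.sum_congr rfl fun k _ => ?_
    rw [(CB_comp_smul hf.1 l⁻¹).2 k x, mul_pow]
  rw [h1]
  have := (hf.pos (l⁻¹ • x)).ne'
  field_simp

lemma LS_scl (hl : 0 < l) (ha : 0 < a) (h : LS ρ K) :
    LS (fun x => a * ρ (l • x)) (K / l ^ 2) := by
  rw [LS_def] at h ⊢
  intro f hf
  have h1 := h _ (CBp_comp_smul hf l⁻¹)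
  rw [En_scl hl ha, Fi_scl hl ha hf]
  refine h1.trans (le_of_eq ?_)
  field_simp

lemma near_scl (hρ : Ex ρ) (hl : 0 < l) (ha : 0 < a) (hC : CLS ρ = l ^ 2) {δ : ℝ} (hδ : 0 < δ) :
    ∃ f : E n → ℝ, LL809.CBp f ∧ Em (fun x => a * ρ (l • x)) f = 1 ∧
      0 < En (fun x => a * ρ (l • x)) f ∧
      1 / 2 * Fi (fun x => a * ρ (l • x)) f ≤ (1 + δ) * En (fun x => a * ρ (l • x)) f := by
  obtain ⟨g, hg, h0, h1, h2⟩ := near_extremal hρ (by rw [hC]; positivity) hδ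
  have e : (fun x => g (l • l⁻¹ • x)) = g := by funext x; rw [smul_inv_smul₀ hl.ne']
  refine ⟨fun x => g (l • x), CBp_comp_smul hg l, ?_, ?_, ?_⟩
  · rw [Em_scl hl ha, e]; exact h0
  · rw [En_scl hl ha, e]; exact h1
  · rw [En_scl hl ha, Fi_scl hl ha (CBp_comp_smul hg l), e]
    rw [hC] at h2
    linarith

/-! ### squares -/

/-- **`Ent(f²) ≤ 2 K E|Df|²`** for every bounded `C¹` function with bounded gradient -/
theorem LS_sq (hρ : Ex ρ) (hK : 0 ≤ K) (h : LS ρ K) {f : E n → ℝ} (hf : CB f) :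
    Em ρ (fun x => f x ^ 2 * Real.log (f x ^ 2)) -
      Em ρ (fun x => f x ^ 2) * Real.log (Em ρ fun x => f x ^ 2) ≤
      2 * K * Em ρ (fun x => ‖fderiv ℝ f x‖ ^ 2) := by
  rw [LS_def] at h
  obtain ⟨B, hB⟩ := hf.2
  have hd := hf.1.differentiable (by simp : (1 : WithTop ℕ∞) ≠ 0)
  have hcf : Continuous f := hf.1.continuous
  have hf2 : CB fun x => f x ^ 2 := by
    have := Tw807.cb_mul hf hf
    simpa [sq] using this
  have hfd : ∀ (ε : ℝ) (x), fderiv ℝ (fun x => f x ^ 2 + ε) x = (2 * f x) • fderiv ℝ f x := by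
    intro ε x
    have h1 : HasFDerivAt (fun x => f x ^ 2 + ε) ((2 * f x) • fderiv ℝ f x) x := by
      have := ((hd x).hasFDerivAt.pow 2).add_const ε
      simpa using this
    exact h1.fderiv
  have hDE : EG fun x => ‖fderiv ℝ f x‖ ^ 2 := by
    have e : (fun x => ‖fderiv ℝ f x‖ ^ 2) = fun x => ∑ k, pd k f x * pd k f x := by
      funext x; rw [norm_fderiv_sq]; simp [sq]
    rw [e]
    exact EG.sum _ fun k _ => ((CB.eg hf).2 k).mul ((CB.eg hf).2 k)
  have hcbp : ∀ ε : ℝ, 0 < ε → LL809.CBp (fun x => f x ^ 2 + ε) := fun ε hε =>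
    ⟨Tw807.cb_add hf2 (Tw807.cb_const ε), ε, hε, fun x => by nlinarith [sq_nonneg (f x)]⟩
  have key : ∀ ε : ℝ, 0 < ε → En ρ (fun x => f x ^ 2 + ε) ≤
      2 * K * Em ρ (fun x => ‖fderiv ℝ f x‖ ^ 2) := by
    intro ε hε
    refine (h _ (hcbp ε hε)).trans ?_
    obtain ⟨c', B', hp⟩ := exists_pos (hcbp ε hε).1 ⟨ε, hε, fun x => by nlinarith [sq_nonneg (f x)]⟩
    have h1 : Fi ρ (fun x => f x ^ 2 + ε) ≤ 4 * Em ρ (fun x => ‖fderiv ℝ f x‖ ^ 2) := by
      unfold Fi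
      rw [← Em_smul]
      refine Em_mono hρ hp.eg_fi (hDE.smul _) fun x => ?_
      rw [hfd, norm_smul, mul_pow, Real.norm_eq_abs, sq_abs, div_le_iff₀ (hp.pos x)]
      nlinarith [sq_nonneg (f x), sq_nonneg ‖fderiv ℝ f x‖,
        mul_nonneg (sq_nonneg ‖fderiv ℝ f x‖) hε.le]
    have h2 := mul_le_mul_of_nonneg_left h1 (by positivity : 0 ≤ K / 2)
    linarith
  -- limit `ε → 0`
  have hcont : Continuous fun x : ℝ => x * Real.log x := Real.continuous_mul_log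
  have hB0 : 0 ≤ B := (abs_nonneg _).trans (hB 0).1
  obtain ⟨M, hM⟩ : ∃ M, ∀ u ∈ Set.Icc (0 : ℝ) (B ^ 2 + 1), |u * Real.log u| ≤ M := by
    obtain ⟨M, hM⟩ := isCompact_Icc.exists_bound_of_continuousOn
      (hcont.continuousOn (s := Set.Icc (0 : ℝ) (B ^ 2 + 1)))
    exact ⟨M, fun u hu => hM u hu⟩
  have hmem : ∀ ε ∈ Set.Icc (0 : ℝ) 1, ∀ x, f x ^ 2 + ε ∈ Set.Icc (0 : ℝ) (B ^ 2 + 1) := by
    intro ε hε x
    have h1 : f x ^ 2 ≤ B ^ 2 := by
      rw [← sq_abs]; exact pow_le_pow_left₀ (abs_nonneg _) (hB x).1 2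
    exact ⟨by nlinarith [sq_nonneg (f x), hε.1], by linarith [hε.2]⟩
  have t1 : Tendsto (fun ε : ℝ => ∫ x, (f x ^ 2 + ε) * Real.log (f x ^ 2 + ε) * ρ x)
      (𝓝[>] 0) (𝓝 (∫ x, f x ^ 2 * Real.log (f x ^ 2) * ρ x)) := by
    refine tendsto_integral_filter_of_dominated_convergence (fun x => M * ρ x) ?_ ?_ ?_ ?_
    · refine Eventually.of_forall fun ε => ?_
      have : Continuous fun x => (f x ^ 2 + ε) * Real.log (f x ^ 2 + ε) :=
        hcont.comp ((hcf.pow 2).add continuous_const)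
      exact (this.measurable.mul hρ.meas).aestronglyMeasurable
    · have h1 : ∀ᶠ ε : ℝ in 𝓝[>] 0, ε ∈ Set.Icc (0 : ℝ) 1 := by
        filter_upwards [Ioc_mem_nhdsGT (zero_lt_one' ℝ)] with ε hε
        exact ⟨hε.1.le, hε.2⟩
      filter_upwards [h1] with ε hε
      refine ae_of_all _ fun x => ?_
      rw [norm_mul, Real.norm_of_nonneg (hρ.nonneg x)]
      exact mul_le_mul_of_nonneg_right (hM _ (hmem ε hε x)) (hρ.nonneg x)
    · exact (by simpa using hρ.int 0 : Integrable ρ).const_mul _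
    · refine ae_of_all _ fun x => ?_
      have h2 : Continuous fun ε : ℝ => (f x ^ 2 + ε) * Real.log (f x ^ 2 + ε) * ρ x :=
        (hcont.comp (continuous_const.add continuous_id)).mul continuous_const
      have h3 := (h2.tendsto 0).mono_left (nhdsWithin_le_nhds (s := Set.Ioi 0))
      simpa using h3
  have hf2E : EG fun x => f x ^ 2 := (CB.eg hf2).1
  have t2 : Tendsto (fun ε : ℝ => Em ρ (fun x => f x ^ 2) + ε) (𝓝[>] 0)
      (𝓝 (Em ρ fun x => f x ^ 2)) := by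
    have h2 : Continuous fun ε : ℝ => Em ρ (fun x => f x ^ 2) + ε := by fun_prop
    have h3 := (h2.tendsto 0).mono_left (nhdsWithin_le_nhds (s := Set.Ioi 0))
    simpa using h3
  have t3 : Tendsto (fun ε : ℝ => En ρ (fun x => f x ^ 2 + ε)) (𝓝[>] 0)
      (𝓝 (Em ρ (fun x => f x ^ 2 * Real.log (f x ^ 2)) -
        Em ρ (fun x => f x ^ 2) * Real.log (Em ρ fun x => f x ^ 2))) := by
    have e : (fun ε : ℝ => En ρ (fun x => f x ^ 2 + ε)) = fun ε =>
        (∫ x, (f x ^ 2 + ε) * Real.log (f x ^ 2 + ε) * ρ x) / (∫ z, ρ z) -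
          (Em ρ (fun x => f x ^ 2) + ε) * Real.log (Em ρ (fun x => f x ^ 2) + ε) := by
      funext ε
      unfold En
      rw [Em_add hρ hf2E (EG.const ε), Em_const hρ]
      rfl
    rw [e]
    exact (t1.div_const _).sub ((hcont.tendsto _).comp t2)
  exact le_of_tendsto t3 (by filter_upwards [self_mem_nhdsWithin] with ε hε using key ε hε)

end Crest.Agent.R201.Noi402
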