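import Crest.Agent.R201.Bk4_189
import Crest.Agent.R201.Noi2_402

/-!
# R201 Bk5_189: the backward leg in the literals of 293 / 402 / 593 (helper189)

`f_r = PG (η - r) φ`, `φ = pE w η f₀`, base weight `Lp w r 1`:
`d/dr En = Fi / 2`, `d/dr Fi = E_ν |D w|²`, `w_k = D_k f_r / f_r`, on `0 < r < η`,
continuity on `[s₀, η]`.
-/

set_option autoImplicit false
open MeasureTheory Matrix Filter Topology Metric Set
open scoped ContDiff ENNReal NNReal

namespace Crest.Agent.R201.Bk189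

open Crest.Agent.R201 Crest.Agent.R201.An Crest.Agent.R201.Tw807 Crest.Agent.R201.Noi402

variable {n : ℕ} {w f g F φ : E n → ℝ} {t r c s₀ η R : ℝ}

lemma Bd.eg (hF : Bd F) : EG F := by
  obtain ⟨h1, B, hB⟩ := hF
  exact EG.of_bdd h1.measurable hB

/-- `E_ν |D w|²` with `w_k = D_k f / f`, written over the base -/
noncomputable def Hs (ρ f : E n → ℝ) : ℝ :=
  Em ρ fun y => f y * ∑ m, ∑ k, pd k (fun y => pd m f y / f y) y ^ 2

lemma Em_dens {ρ f : E n → ℝ} (h1 : Em ρ f = 1) (hρ : Ex ρ)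
    (hx : Ex fun x => f x * ρ x) (G : E n → ℝ) :
    ∫ x, G x ∂(nm fun x => f x * ρ x) = Em ρ fun x => f x * G x := by
  rw [int_nm hx]
  unfold Em at h1 ⊢
  have h2 : ∫ y, f y * ρ y = ∫ y, ρ y := by
    rw [div_eq_one_iff_eq hρ.pos.ne'] at h1
    exact h1
  rw [h2]
  congr 1
  exact integral_congr_ae (ae_of_all _ fun y => by simp only; ring)

/-- link of `Hs` with `dsq` of 593's state -/
theorem Hs_eq_dsq {ρ f : E n → ℝ} (h1 : Em ρ f = 1) (hρ : Ex ρ) (hx : Ex fun x => f x * ρ x)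
    (hw : ∀ m, CB fun y => pd m f y / f y) :
    Hs ρ f = dsq (nm fun x => f x * ρ x) (fun m y => pd m f y / f y) := by
  have hEG : ∀ m k, EG fun y => pd k (fun y => pd m f y / f y) y ^ 2 := fun m k =>
    (cb_bd_pd (hw m) k).sq.eg
  unfold Hs dsq
  rw [← Em_dens h1 hρ hx, int_nm hx, Em_sum _ hx fun m _ => EG.sum _ fun k _ => hEG m k]
  refine Finset.sum_congr rfl fun m _ => ?_
  rw [Em_sum _ hx fun k _ => hEG m k]
  exact Finset.sum_congr rfl fun k _ => (int_nm hx _).symm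

section general

variable (hw : Ex w) (h : C3 φ) (hc : 0 < c) (hφ : ∀ y, c ≤ φ y)
include hw h hc hφ

theorem Em_mass (hr : 0 < r) (hrt : r ≤ t) :
    Em (Lp w r fun _ => 1) (PG (t - r) φ) = EE (nm w) t φ := by
  haveI := nm_prob hw
  rw [← EE_nm hw hr ((cb_bd (CB_PG (sub_nonneg.2 hrt) h.1).1).eg)]
  exact mass (nm w) h hc hφ ⟨hr.le, hrt⟩

theorem En_eq (hr : 0 < r) (hrt : r ≤ t) : En (Lp w r fun _ => 1) (PG (t - r) φ) =
    Hb (nm w) t φ r - EE (nm w) t φ * Real.log (EE (nm w) t φ) := by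
  haveI := nm_prob hw
  unfold En
  rw [Em_mass hw h hc hφ hr hrt]
  congr 1
  unfold Hb
  rw [EE_nm hw hr (bd_ent h hc hφ (sub_nonneg.2 hrt)).eg]

theorem Fi_eq (hr : 0 < r) (hrt : r ≤ t) : Fi (Lp w r fun _ => 1) (PG (t - r) φ) =
    Ib (nm w) t φ r := by
  unfold Fi Ib
  rw [EE_nm hw hr (bd_fi_all h hc hφ (sub_nonneg.2 hrt)).eg]
  congr 1
  funext y
  rw [norm_fderiv_sq]

lemma score_eq (ht : 0 ≤ t) (m : Fin n) :
    (pd m fun y => Real.log (PG t φ y)) = fun y => pd m (PG t φ) y / PG t φ y := by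
  funext y
  exact pd_log (cb_diff (CB_PG ht h.1).1 y) (hc.trans_le (low hφ (cb_bd h.1) t y)).ne' m

lemma cb_w (ht : 0 ≤ t) (m : Fin n) : CB fun y => pd m (PG t φ) y / PG t φ y := by
  have := cb_score h hc hφ ht m
  rw [(CB_PG ht h.1).2 m]
  simpa [div_eq_mul_inv] using this

theorem Ab_eq_Hs (hr : 0 < r) (hrt : r ≤ t) : Ab (nm w) t φ r =
    Hs (Lp w r fun _ => 1) (PG (t - r) φ) := by
  have ht := sub_nonneg.2 hrt
  unfold Ab Hs
  rw [EE_nm hw hr (bd_hess_all h hc hφ ht).eg]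
  congr 1
  funext y
  congr 1
  refine Finset.sum_congr rfl fun m _ => Finset.sum_congr rfl fun k _ => ?_
  rw [score_eq hw h hc hφ ht m]

/-- **backward leg, level 0**, general terminal datum -/
theorem dEn (hr : r ∈ Ioo 0 t) : HasDerivAt (fun r => En (Lp w r fun _ => 1) (PG (t - r) φ))
    (Fi (Lp w r fun _ => 1) (PG (t - r) φ) / 2) r := by
  haveI := nm_prob hw
  rw [Fi_eq hw h hc hφ hr.1 hr.2.le]
  have key := (dHb (nm w) h hc hφ hr).sub_const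
    (EE (nm w) t φ * Real.log (EE (nm w) t φ))
  refine key.congr_of_eventuallyEq ?_
  filter_upwards [Ioo_mem_nhds hr.1 hr.2] with r' hr'
  exact En_eq hw h hc hφ hr'.1 hr'.2.le

/-- **backward leg, level 1**, general terminal datum -/
theorem dFi (hr : r ∈ Ioo 0 t) : HasDerivAt (fun r => Fi (Lp w r fun _ => 1) (PG (t - r) φ))
    (Hs (Lp w r fun _ => 1) (PG (t - r) φ)) r := by
  haveI := nm_prob hw
  rw [← Ab_eq_Hs hw h hc hφ hr.1 hr.2.le]
  refine (dIb h hc hφ (nm w) hr).congr_of_eventuallyEq ?_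
  filter_upwards [Ioo_mem_nhds hr.1 hr.2] with r' hr'
  exact Fi_eq hw h hc hφ hr'.1 hr'.2.le

theorem cEn (h0 : 0 < s₀) : ContinuousOn (fun r => En (Lp w r fun _ => 1) (PG (t - r) φ))
    (Icc s₀ t) := by
  haveI := nm_prob hw
  have key := ((cHb h hc hφ (nm w) (t := t)).mono (Icc_subset_Icc_left h0.le)).sub
    (continuousOn_const (c := EE (nm w) t φ * Real.log (EE (nm w) t φ)))
  exact key.congr fun r hr => En_eq hw h hc hφ (h0.trans_le hr.1) hr.2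

theorem cFi (h0 : 0 < s₀) : ContinuousOn (fun r => Fi (Lp w r fun _ => 1) (PG (t - r) φ))
    (Icc s₀ t) := by
  haveI := nm_prob hw
  exact ((cIb h hc hφ (nm w) (t := t)).mono (Icc_subset_Icc_left h0.le)).congr
    fun r hr => Fi_eq hw h hc hφ (h0.trans_le hr.1) hr.2

theorem Hs_nonneg (hr : 0 < r) (hrt : r ≤ t) : 0 ≤ Hs (Lp w r fun _ => 1) (PG (t - r) φ) := by
  rw [← Ab_eq_Hs hw h hc hφ hr hrt]
  exact Ab_nonneg h hc hφ (nm w)

end general

/-! ### the terminal datum `φ = pE w η f₀` -/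

/-- everything 293's `Cut` wants from the backward leg -/
theorem backward {f₀ : E n → ℝ} (hw : Wt c R w) (hη : 0 < η) (hf : LL809.CBp f₀) :
    (∀ r ∈ Ioo 0 η, HasDerivAt (fun r => En (Lp w r fun _ => 1) (PG (η - r) (pE w η f₀)))
      (Fi (Lp w r fun _ => 1) (PG (η - r) (pE w η f₀)) / 2) r) ∧
    (∀ r ∈ Ioo 0 η, HasDerivAt (fun r => Fi (Lp w r fun _ => 1) (PG (η - r) (pE w η f₀)))
      (Hs (Lp w r fun _ => 1) (PG (η - r) (pE w η f₀))) r) ∧
    (∀ s₀, 0 < s₀ → ContinuousOn (fun r => En (Lp w r fun _ => 1) (PG (η - r) (pE w η f₀)))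
      (Icc s₀ η)) ∧
    (∀ s₀, 0 < s₀ → ContinuousOn (fun r => Fi (Lp w r fun _ => 1) (PG (η - r) (pE w η f₀)))
      (Icc s₀ η)) ∧
    (∀ r, 0 < r → r ≤ η → 0 ≤ Hs (Lp w r fun _ => 1) (PG (η - r) (pE w η f₀))) ∧
    (∀ r, 0 < r → r ≤ η →
      Em (Lp w r fun _ => 1) (PG (η - r) (pE w η f₀)) = Em w f₀) := by
  obtain ⟨hf1, b, hb, hf2⟩ := hf
  have hE := (CB.eg hf1).1
  have h3 := c3_pE hw hη hE
  have hl := le_pE hw.ex hη hE hf2
  refine ⟨fun r hr => dEn hw.ex h3 hb hl hr, fun r hr => dFi hw.ex h3 hb hl hr,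
    fun s₀ h0 => cEn hw.ex h3 hb hl h0, fun s₀ h0 => cFi hw.ex h3 hb hl h0,
    fun r hr hrt => Hs_nonneg hw.ex h3 hb hl hr hrt, fun r hr hrt => ?_⟩
  rw [Em_mass hw.ex h3 hb hl hr hrt, EE_nm hw.ex hη (CB.eg h3.1).1, Em_pE hw.ex hη hE]

/-- the score of the backward ratio is `CB`, the ratio is `CBp` (in fact `C3`) -/
theorem backward_cb {f₀ : E n → ℝ} (hw : Wt c R w) (hη : 0 < η) (hf : LL809.CBp f₀)
    (hrη : r ≤ η) : LL809.CBp (PG (η - r) (pE w η f₀)) ∧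
    ∀ m, CB fun y => pd m (PG (η - r) (pE w η f₀)) y / PG (η - r) (pE w η f₀) y := by
  obtain ⟨hf1, b, hb, hf2⟩ := hf
  have hE := (CB.eg hf1).1
  have h3 := c3_pE hw hη hE
  have hl := le_pE hw.ex hη hE hf2
  have ht := sub_nonneg.2 hrη
  exact ⟨⟨(CB_PG ht h3.1).1, b, hb, low hl (cb_bd h3.1) _⟩, fun m => cb_w hw.ex h3 hb hl ht m⟩

end Crest.Agent.R201.Bk189
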