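import Crest.Agent.R201.GC1_844

/-!
# R201, LSI half (helper844): Gaussian channels, part 2: posterior integrals, smoothness
-/

set_option autoImplicit false
set_option linter.unusedSectionVars false
open MeasureTheory Matrix ProbabilityTheory Filter Topology
open scoped ENNReal RealInnerProductSpace

namespace Crest.Agent.R201.GC844

open Crest.Agent.R201 Crest.Agent.R285

variable {n : ℕ} {Ω : Type*} [MeasurableSpace Ω] {ρ : Measure Ω} {ζ : Ω → E n} {σ : ℝ}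

/-- unnormalised posterior integral -/
noncomputable def Z (ρ : Measure Ω) (ζ : Ω → E n) (σ : ℝ) (F : Ω → ℝ) (y : E n) : ℝ :=
  ∫ ω, F ω * L σ (ζ ω) y ∂ρ

theorem meas_L' (hζ : Measurable ζ) (σ : ℝ) (y : E n) : Measurable fun ω => L σ (ζ ω) y := by
  unfold L
  exact Real.measurable_exp.comp (((hζ.inner measurable_const).const_mul σ).sub
    (((hζ.norm.pow_const 2).const_mul (σ ^ 2)).div_const 2))

theorem int_Z (hζ : Measurable ζ) {F : Ω → ℝ} (hF : Integrable F ρ) (y : E n) :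
    Integrable (fun ω => F ω * L σ (ζ ω) y) ρ :=
  hF.mul_bdd (meas_L' hζ σ y).aestronglyMeasurable
    (Eventually.of_forall fun ω => by
      rw [Real.norm_eq_abs, abs_of_pos (L_pos _ _ _)]; exact L_le _ _ _)

theorem Z_add (hζ : Measurable ζ) {F G : Ω → ℝ} (hF : Integrable F ρ) (hG : Integrable G ρ)
    (y : E n) : Z ρ ζ σ (fun ω => F ω + G ω) y = Z ρ ζ σ F y + Z ρ ζ σ G y := by
  unfold Z
  rw [← integral_add (int_Z hζ hF y) (int_Z hζ hG y)]
  exact integral_congr_ae (Eventually.of_forall fun ω => by ring)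

theorem Z_sub (hζ : Measurable ζ) {F G : Ω → ℝ} (hF : Integrable F ρ) (hG : Integrable G ρ)
    (y : E n) : Z ρ ζ σ (fun ω => F ω - G ω) y = Z ρ ζ σ F y - Z ρ ζ σ G y := by
  unfold Z
  rw [← integral_sub (int_Z hζ hF y) (int_Z hζ hG y)]
  exact integral_congr_ae (Eventually.of_forall fun ω => by ring)

theorem Z_const_mul (c : ℝ) (F : Ω → ℝ) (y : E n) :
    Z ρ ζ σ (fun ω => c * F ω) y = c * Z ρ ζ σ F y := by
  unfold Z
  rw [← integral_const_mul]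
  exact integral_congr_ae (Eventually.of_forall fun ω => by ring)

theorem Z_sum (hζ : Measurable ζ) {ι : Type*} (s : Finset ι) {F : ι → Ω → ℝ}
    (hF : ∀ i ∈ s, Integrable (F i) ρ) (y : E n) :
    Z ρ ζ σ (fun ω => ∑ i ∈ s, F i ω) y = ∑ i ∈ s, Z ρ ζ σ (F i) y := by
  unfold Z
  rw [← integral_finsetSum s fun i hi => int_Z hζ (hF i hi) y]
  exact integral_congr_ae (Eventually.of_forall fun ω => by simp only [Finset.sum_mul])

theorem Z_nonneg {F : Ω → ℝ} (hF : ∀ ω, 0 ≤ F ω) (y : E n) : 0 ≤ Z ρ ζ σ F y :=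
  integral_nonneg fun ω => mul_nonneg (hF ω) (L_pos _ _ _).le

theorem Z_mono (hζ : Measurable ζ) {F G : Ω → ℝ} (hF : Integrable F ρ) (hG : Integrable G ρ)
    (h : ∀ ω, F ω ≤ G ω) (y : E n) : Z ρ ζ σ F y ≤ Z ρ ζ σ G y :=
  integral_mono (int_Z hζ hF y) (int_Z hζ hG y) fun ω =>
    mul_le_mul_of_nonneg_right (h ω) (L_pos _ _ _).le

theorem abs_Z_le {F G : Ω → ℝ} (hζ : Measurable ζ) (hG : Integrable G ρ)
    (h : ∀ ω, |F ω| ≤ G ω) (y : E n) : |Z ρ ζ σ F y| ≤ Z ρ ζ σ G y := by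
  unfold Z
  rw [← Real.norm_eq_abs]
  refine norm_integral_le_of_norm_le (int_Z hζ hG y) (Eventually.of_forall fun ω => ?_)
  rw [Real.norm_eq_abs, abs_mul, abs_of_pos (L_pos _ _ _)]
  exact mul_le_mul_of_nonneg_right (h ω) (L_pos _ _ _).le

/-- the weight: density of the law of `J` relative to the Gaussian -/
noncomputable def wt (ρ : Measure Ω) (ζ : Ω → E n) (σ : ℝ) (y : E n) : ℝ :=
  Z ρ ζ σ (fun _ => 1) y

theorem wt_pos [IsProbabilityMeasure ρ] (hζ : Measurable ζ) (y : E n) : 0 < wt ρ ζ σ y := by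
  unfold wt Z
  have h1 := int_Z (σ := σ) hζ (integrable_const (μ := ρ) (1 : ℝ)) y
  rw [integral_pos_iff_support_of_nonneg (fun ω => by
    have := L_pos σ (ζ ω) y
    simp only [one_mul]
    exact this.le) h1]
  have : Function.support (fun ω => 1 * L σ (ζ ω) y) = Set.univ := by
    ext ω
    simp [(L_pos σ (ζ ω) y).ne']
  rw [this]
  simp

theorem Z_one (y : E n) : Z ρ ζ σ (fun _ => 1) y = wt ρ ζ σ y := rfl

theorem hasFDerivAt_L (σ : ℝ) (z y : E n) :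
    HasFDerivAt (fun y => L σ z y) ((σ * L σ z y) • innerSL ℝ z) y := by
  unfold L
  have h1 : HasFDerivAt (fun y : E n => σ * ⟪z, y⟫ - σ ^ 2 * ‖z‖ ^ 2 / 2) (σ • innerSL ℝ z) y :=
    ((innerSL ℝ z).hasFDerivAt.const_mul σ).sub_const _
  have h2 := h1.exp
  refine h2.congr_fderiv ?_
  rw [smul_smul, mul_comm]

theorem exp_bound {y y₀ : E n} (h : y ∈ Metric.ball y₀ 1) :
    Real.exp (‖y‖ ^ 2 / 2) ≤ Real.exp ((‖y₀‖ + 1) ^ 2 / 2) := by
  apply Real.exp_le_exp.mpr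
  rw [Metric.mem_ball, dist_eq_norm] at h
  have h1 : ‖y‖ ≤ ‖y₀‖ + 1 := by
    have := norm_le_norm_add_norm_sub' y y₀
    linarith
  have h2 : ‖y‖ ^ 2 ≤ (‖y₀‖ + 1) ^ 2 := pow_le_pow_left₀ (norm_nonneg _) h1 2
  linarith

theorem hasFDerivAt_Z (hζ : Measurable ζ) {F : Ω → ℝ} (hF : Integrable F ρ)
    (hF1 : Integrable (fun ω => ‖ζ ω‖ * F ω) ρ) (y₀ : E n) :
    HasFDerivAt (Z ρ ζ σ F) (∫ ω, F ω • ((σ * L σ (ζ ω) y₀) • innerSL ℝ (ζ ω)) ∂ρ) y₀ := by
  unfold Z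
  have hi : Measurable fun ω => innerSL ℝ (ζ ω) := (innerSL ℝ).continuous.measurable.comp hζ
  refine hasFDerivAt_integral_of_dominated_of_fderiv_le
    (F := fun y ω => F ω * L σ (ζ ω) y)
    (F' := fun y ω => F ω • ((σ * L σ (ζ ω) y) • innerSL ℝ (ζ ω)))
    (bound := fun ω => |σ| * Real.exp ((‖y₀‖ + 1) ^ 2 / 2) * |‖ζ ω‖ * F ω|)
    (Metric.ball_mem_nhds y₀ one_pos) ?_ (int_Z hζ hF y₀) ?_ ?_ (hF1.abs.const_mul _) ?_
  · exact Eventually.of_forall fun y =>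
      hF.aestronglyMeasurable.mul (meas_L' hζ σ y).aestronglyMeasurable
  · exact hF.aestronglyMeasurable.smul (((meas_L' hζ σ y₀).const_mul σ).aestronglyMeasurable.smul
      hi.aestronglyMeasurable)
  · refine Eventually.of_forall fun ω y hy => ?_
    rw [norm_smul, norm_smul, innerSL_apply_norm, Real.norm_eq_abs, Real.norm_eq_abs, abs_mul σ,
      abs_of_pos (L_pos _ _ _), abs_mul, abs_of_nonneg (norm_nonneg (ζ ω))]
    have h1 := (L_le σ (ζ ω) y).trans (exp_bound hy)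
    have h2 : 0 ≤ |F ω| * |σ| * ‖ζ ω‖ := by positivity
    calc |F ω| * (|σ| * L σ (ζ ω) y * ‖ζ ω‖) = |F ω| * |σ| * ‖ζ ω‖ * L σ (ζ ω) y := by ring
      _ ≤ |F ω| * |σ| * ‖ζ ω‖ * Real.exp ((‖y₀‖ + 1) ^ 2 / 2) := mul_le_mul_of_nonneg_left h1 h2
      _ = _ := by ring
  · refine Eventually.of_forall fun ω y _ => ?_
    have := (hasFDerivAt_L σ (ζ ω) y).const_mul (F ω)
    exact this

theorem pd_Z (hζ : Measurable ζ) {F : Ω → ℝ} (hF : Integrable F ρ)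
    (hF1 : Integrable (fun ω => ‖ζ ω‖ * F ω) ρ) (k : Fin n) (y : E n) :
    pd k (Z ρ ζ σ F) y = σ * Z ρ ζ σ (fun ω => ζ ω k * F ω) y := by
  unfold pd
  rw [(hasFDerivAt_Z hζ hF hF1 y).fderiv]
  have hi : Measurable fun ω => innerSL ℝ (ζ ω) := (innerSL ℝ).continuous.measurable.comp hζ
  have h1 : Integrable (fun ω => F ω • ((σ * L σ (ζ ω) y) • innerSL ℝ (ζ ω))) ρ := by
    refine ((hF1.abs.const_mul (|σ| * Real.exp (‖y‖ ^ 2 / 2)))).mono'
      (hF.aestronglyMeasurable.smul (((meas_L' hζ σ y).const_mul σ).aestronglyMeasurable.smul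
      hi.aestronglyMeasurable)) (Eventually.of_forall fun ω => ?_)
    rw [norm_smul, norm_smul, innerSL_apply_norm, Real.norm_eq_abs, Real.norm_eq_abs, abs_mul σ,
      abs_of_pos (L_pos _ _ _), abs_mul, abs_of_nonneg (norm_nonneg (ζ ω))]
    have h1 := L_le σ (ζ ω) y
    have h2 : 0 ≤ |F ω| * |σ| * ‖ζ ω‖ := by positivity
    calc |F ω| * (|σ| * L σ (ζ ω) y * ‖ζ ω‖) = |F ω| * |σ| * ‖ζ ω‖ * L σ (ζ ω) y := by ring
      _ ≤ |F ω| * |σ| * ‖ζ ω‖ * Real.exp (‖y‖ ^ 2 / 2) := mul_le_mul_of_nonneg_left h1 h2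
      _ = _ := by ring
  rw [ContinuousLinearMap.integral_apply h1]
  unfold Z
  rw [← integral_const_mul]
  refine integral_congr_ae (Eventually.of_forall fun ω => ?_)
  simp only [_root_.smul_apply, innerSL_apply_apply, smul_eq_mul,
    EuclideanSpace.inner_single_right, conj_trivial, one_mul]
  ring

theorem differentiable_Z (hζ : Measurable ζ) {F : Ω → ℝ} (hF : Integrable F ρ)
    (hF1 : Integrable (fun ω => ‖ζ ω‖ * F ω) ρ) : Differentiable ℝ (Z ρ ζ σ F) :=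
  fun y => (hasFDerivAt_Z hζ hF hF1 y).differentiableAt

theorem continuous_Z (hζ : Measurable ζ) {F : Ω → ℝ} (hF : Integrable F ρ) :
    Continuous (Z ρ ζ σ F) := by
  rw [continuous_iff_continuousAt]
  intro y₀
  unfold Z
  refine continuousAt_of_dominated (bound := fun ω => |F ω| * Real.exp ((‖y₀‖ + 1) ^ 2 / 2)) ?_ ?_
    (hF.abs.mul_const _) ?_
  · exact Eventually.of_forall fun y =>
      hF.aestronglyMeasurable.mul (meas_L' hζ σ y).aestronglyMeasurable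
  · filter_upwards [Metric.ball_mem_nhds y₀ one_pos] with y hy
    refine Eventually.of_forall fun ω => ?_
    rw [norm_mul, Real.norm_eq_abs, Real.norm_eq_abs, abs_of_pos (L_pos _ _ _)]
    exact mul_le_mul_of_nonneg_left ((L_le _ _ _).trans (exp_bound hy)) (abs_nonneg _)
  · refine Eventually.of_forall fun ω => ?_
    exact ((hasFDerivAt_L σ (ζ ω) y₀).continuousAt).const_mul (F ω)

/-- posterior expectation -/
noncomputable def pe (ρ : Measure Ω) (ζ : Ω → E n) (σ : ℝ) (F : Ω → ℝ) (y : E n) : ℝ :=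
  Z ρ ζ σ F y / wt ρ ζ σ y

/-- posterior mean of `ζ` -/
noncomputable def pm (ρ : Measure Ω) (ζ : Ω → E n) (σ : ℝ) (y : E n) : Fin n → ℝ :=
  fun k => pe ρ ζ σ (fun ω => ζ ω k) y

/-- posterior covariance of `ζ` -/
noncomputable def pc (ρ : Measure Ω) (ζ : Ω → E n) (σ : ℝ) (y : E n) : Mt n :=
  Matrix.of fun k l => pe ρ ζ σ (fun ω => ζ ω k * ζ ω l) y - pm ρ ζ σ y k * pm ρ ζ σ y l

section

variable [IsProbabilityMeasure ρ]

theorem Z_eq_pe (hζ : Measurable ζ) (F : Ω → ℝ) (y : E n) :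
    Z ρ ζ σ F y = pe ρ ζ σ F y * wt ρ ζ σ y := by
  unfold pe
  rw [div_mul_cancel₀ _ (wt_pos hζ y).ne']

theorem pe_const (hζ : Measurable ζ) (c : ℝ) (y : E n) : pe ρ ζ σ (fun _ => c) y = c := by
  unfold pe
  have : Z ρ ζ σ (fun _ => c) y = c * wt ρ ζ σ y := by
    rw [wt, ← Z_const_mul]
    simp
  rw [this, mul_div_cancel_right₀ _ (wt_pos hζ y).ne']

theorem pe_add (hζ : Measurable ζ) {F G : Ω → ℝ} (hF : Integrable F ρ) (hG : Integrable G ρ)
    (y : E n) : pe ρ ζ σ (fun ω => F ω + G ω) y = pe ρ ζ σ F y + pe ρ ζ σ G y := by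
  unfold pe; rw [Z_add hζ hF hG, add_div]

theorem pe_sub (hζ : Measurable ζ) {F G : Ω → ℝ} (hF : Integrable F ρ) (hG : Integrable G ρ)
    (y : E n) : pe ρ ζ σ (fun ω => F ω - G ω) y = pe ρ ζ σ F y - pe ρ ζ σ G y := by
  unfold pe; rw [Z_sub hζ hF hG, sub_div]

theorem pe_const_mul (c : ℝ) (F : Ω → ℝ) (y : E n) :
    pe ρ ζ σ (fun ω => c * F ω) y = c * pe ρ ζ σ F y := by
  unfold pe; rw [Z_const_mul, mul_div_assoc]

theorem pe_sum (hζ : Measurable ζ) {ι : Type*} (s : Finset ι) {F : ι → Ω → ℝ}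
    (hF : ∀ i ∈ s, Integrable (F i) ρ) (y : E n) :
    pe ρ ζ σ (fun ω => ∑ i ∈ s, F i ω) y = ∑ i ∈ s, pe ρ ζ σ (F i) y := by
  unfold pe; rw [Z_sum hζ s hF, Finset.sum_div]

theorem pe_nonneg (hζ : Measurable ζ) {F : Ω → ℝ} (hF : ∀ ω, 0 ≤ F ω) (y : E n) :
    0 ≤ pe ρ ζ σ F y := div_nonneg (Z_nonneg hF y) (wt_pos hζ y).le

theorem pe_mono (hζ : Measurable ζ) {F G : Ω → ℝ} (hF : Integrable F ρ) (hG : Integrable G ρ)
    (h : ∀ ω, F ω ≤ G ω) (y : E n) : pe ρ ζ σ F y ≤ pe ρ ζ σ G y :=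
  div_le_div_of_nonneg_right (Z_mono hζ hF hG h y) (wt_pos hζ y).le

/-- Jensen -/
theorem pe_sq_le (hζ : Measurable ζ) {F : Ω → ℝ} (hF : Integrable F ρ)
    (hF2 : Integrable (fun ω => F ω ^ 2) ρ) (y : E n) :
    (pe ρ ζ σ F y) ^ 2 ≤ pe ρ ζ σ (fun ω => F ω ^ 2) y := by
  set m := pe ρ ζ σ F y with hm
  have h1 : 0 ≤ pe ρ ζ σ (fun ω => F ω ^ 2 - (2 * m * F ω - m ^ 2)) y :=
    pe_nonneg hζ (fun ω => by nlinarith [sq_nonneg (F ω - m)]) y
  have i1 : Integrable (fun ω => 2 * m * F ω) ρ := hF.const_mul _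
  have i2 : Integrable (fun _ : Ω => m ^ 2) ρ := integrable_const _
  have i3 : Integrable (fun ω => 2 * m * F ω - m ^ 2) ρ := i1.sub i2
  rw [pe_sub hζ hF2 i3, pe_sub hζ i1 i2, pe_const_mul, pe_const hζ, ← hm] at h1
  nlinarith

end

end Crest.Agent.R201.GC844
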