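import Crest.Agent.R201.LabG2_809

/-!
# R201, LSI half (helper809): Gaussian labels `J | x ~ N(v(x), M(x))` as channels,
their Fisher information and mutual information
-/

set_option autoImplicit false
set_option maxHeartbeats 400000
set_option linter.unusedSectionVars false
open MeasureTheory Matrix Filter Topology
open scoped ContDiff RealInnerProductSpace

namespace Crest.Agent.R201.LL809

open Crest.Agent.R201.An

variable {n : ℕ}

/-! ### families of fields with polynomial growth in the label -/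

/-- `CB` in `x`, polynomial growth of degree `d` in the label `y` -/
structure PG (d : ℕ) (φ : E n → E n → ℝ) : Prop where
  cb : ∀ y, CB (φ y)
  meas : Measurable fun z : E n × E n => φ z.1 z.2
  measd : ∀ k, Measurable fun z : E n × E n => pd k (φ z.1) z.2
  bd : ∃ C : ℝ, 0 ≤ C ∧ ∀ y x, |φ y x| ≤ C * (1 + ‖y‖) ^ d ∧
    ∀ k, |pd k (φ y) x| ≤ C * (1 + ‖y‖) ^ d

theorem PG.cst {f : E n → ℝ} (hf : CB f) : PG 0 (fun _ x => f x) where
  cb _ := hf
  meas := hf.1.continuous.measurable.comp measurable_snd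
  measd k := (pd_meas hf k).comp measurable_snd
  bd := by
    obtain ⟨-, B, hB⟩ := hf
    exact ⟨B, (abs_nonneg _).trans (hB 0).1, fun y x => by simpa using hB x⟩

theorem PG.coord (i : Fin n) : PG 1 (fun (y _ : E n) => y i) where
  cb y := Tw807.cb_const _
  meas := by fun_prop
  measd k := by
    have : (fun z : E n × E n => pd k ((fun (y _ : E n) => y i) z.1) z.2) = fun _ => 0 := by
      funext z; exact Tw807.pd_const _ k _
    rw [this]; exact measurable_const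
  bd := by
    refine ⟨1, zero_le_one, fun y x => ⟨?_, fun k => ?_⟩⟩
    · have := PiLp.norm_apply_le y i
      rw [Real.norm_eq_abs] at this
      rw [pow_one, one_mul]
      linarith
    · rw [show pd k (fun _ : E n => y i) x = 0 from Tw807.pd_const _ k x, abs_zero]
      positivity

theorem PG.add {d : ℕ} {φ ψ : E n → E n → ℝ} (hφ : PG d φ) (hψ : PG d ψ) :
    PG d (fun y x => φ y x + ψ y x) where
  cb y := Tw807.cb_add (hφ.cb y) (hψ.cb y)
  meas := hφ.meas.add hψ.meas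
  measd k := by
    have : (fun z : E n × E n => pd k (fun x => φ z.1 x + ψ z.1 x) z.2) =
        fun z => pd k (φ z.1) z.2 + pd k (ψ z.1) z.2 := by
      funext z
      exact Tw807.pd_add k (Tw807.cb_diff (hφ.cb z.1) z.2) (Tw807.cb_diff (hψ.cb z.1) z.2)
    simp only [this]
    exact (hφ.measd k).add (hψ.measd k)
  bd := by
    obtain ⟨C, hC, h⟩ := hφ.bd
    obtain ⟨C', hC', h'⟩ := hψ.bd
    refine ⟨C + C', by positivity, fun y x => ⟨?_, fun k => ?_⟩⟩
    · rw [add_mul]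
      exact (abs_add_le _ _).trans (add_le_add (h y x).1 (h' y x).1)
    · rw [add_mul, Tw807.pd_add k (Tw807.cb_diff (hφ.cb y) x) (Tw807.cb_diff (hψ.cb y) x)]
      exact (abs_add_le _ _).trans (add_le_add ((h y x).2 k) ((h' y x).2 k))

theorem PG.mul {d e : ℕ} {φ ψ : E n → E n → ℝ} (hφ : PG d φ) (hψ : PG e ψ) :
    PG (d + e) (fun y x => φ y x * ψ y x) where
  cb y := Tw807.cb_mul (hφ.cb y) (hψ.cb y)
  meas := hφ.meas.mul hψ.meas
  measd k := by
    have : (fun z : E n × E n => pd k (fun x => φ z.1 x * ψ z.1 x) z.2) =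
        fun z => φ z.1 z.2 * pd k (ψ z.1) z.2 + pd k (φ z.1) z.2 * ψ z.1 z.2 := by
      funext z
      exact Tw807.pd_mul k (Tw807.cb_diff (hφ.cb z.1) z.2) (Tw807.cb_diff (hψ.cb z.1) z.2)
    simp only [this]
    exact (hφ.meas.mul (hψ.measd k)).add ((hφ.measd k).mul hψ.meas)
  bd := by
    obtain ⟨C, hC, h⟩ := hφ.bd
    obtain ⟨C', hC', h'⟩ := hψ.bd
    refine ⟨C * C' + C * C', by positivity, fun y x => ⟨?_, fun k => ?_⟩⟩
    · rw [abs_mul]
      have h1 : 0 ≤ C * (1 + ‖y‖) ^ d := by positivity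
      have := mul_le_mul (h y x).1 (h' y x).1 (abs_nonneg _) h1
      refine this.trans ?_
      rw [pow_add]
      have h2 : 0 ≤ C * C' * ((1 + ‖y‖) ^ d * (1 + ‖y‖) ^ e) := by positivity
      nlinarith
    · rw [Tw807.pd_mul k (Tw807.cb_diff (hφ.cb y) x) (Tw807.cb_diff (hψ.cb y) x)]
      refine (abs_add_le _ _).trans ?_
      rw [abs_mul, abs_mul]
      have h1 : 0 ≤ C * (1 + ‖y‖) ^ d := by positivity
      have a1 := mul_le_mul (h y x).1 ((h' y x).2 k) (abs_nonneg _) h1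
      have a2 := mul_le_mul ((h y x).2 k) (h' y x).1 (abs_nonneg _) h1
      refine (add_le_add a1 a2).trans (le_of_eq ?_)
      rw [pow_add]
      ring

theorem PG.mono {d e : ℕ} (hde : d ≤ e) {φ : E n → E n → ℝ} (hφ : PG d φ) : PG e φ where
  cb := hφ.cb
  meas := hφ.meas
  measd := hφ.measd
  bd := by
    obtain ⟨C, hC, h⟩ := hφ.bd
    refine ⟨C, hC, fun y x => ?_⟩
    have h1 : (1 + ‖y‖) ^ d ≤ (1 + ‖y‖) ^ e :=
      pow_le_pow_right₀ (by linarith [norm_nonneg y]) hde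
    exact ⟨(h y x).1.trans (mul_le_mul_of_nonneg_left h1 hC),
      fun k => ((h y x).2 k).trans (mul_le_mul_of_nonneg_left h1 hC)⟩

theorem PG.smul {d : ℕ} (c : ℝ) {φ : E n → E n → ℝ} (hφ : PG d φ) : PG d (fun y x => c * φ y x) := by
  have := (PG.cst (Tw807.cb_const (n := n) c)).mul hφ
  rwa [zero_add] at this

theorem PG.sub {d : ℕ} {φ ψ : E n → E n → ℝ} (hφ : PG d φ) (hψ : PG d ψ) :
    PG d (fun y x => φ y x - ψ y x) := by
  have := hφ.add (hψ.smul (-1))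
  simpa [sub_eq_add_neg] using this

theorem PG.sum {ι : Type*} (s : Finset ι) {d : ℕ} {φ : ι → E n → E n → ℝ}
    (h : ∀ i ∈ s, PG d (φ i)) : PG d (fun y x => ∑ i ∈ s, φ i y x) := by
  classical
  induction s using Finset.induction_on with
  | empty =>
    simp only [Finset.sum_empty]
    exact (PG.cst (Tw807.cb_const (n := n) 0)).mono (Nat.zero_le d)
  | insert a s ha ih =>
    simp only [Finset.sum_insert ha]
    exact (h a (Finset.mem_insert_self a s)).add (ih fun i hi => h i (Finset.mem_insert_of_mem hi))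

/-- exponential of a family of degree 2 is a channel -/
theorem chan_of_PG {φ : E n → E n → ℝ} (hφ : PG 2 φ) {K c : ℝ} (hc : 0 < c)
    (hup : ∀ y x, φ y x ≤ K + (1 / 2) * ‖y‖ ^ 2 - c * ‖y‖ ^ 2)
    (one : ∀ x, ∫ y, Real.exp (φ y x) ∂(gam n) = 1)
    (zero : ∀ k x, ∫ y, pd k (φ y) x * Real.exp (φ y x) ∂(gam n) = 0) :
    ∃ G h : E n → ℝ, Chan (gam n) (fun y x => Real.exp (φ y x)) G h := by
  obtain ⟨C, hC, hb⟩ := hφ.bd
  have hpd : ∀ k y x, pd k (fun x => Real.exp (φ y x)) x = Real.exp (φ y x) * pd k (φ y) x :=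
    fun k y x => pd_exp k (Tw807.cb_diff (hφ.cb y) x)
  refine ⟨fun y => Real.exp (K + (1 / 2) * ‖y‖ ^ 2 - c * ‖y‖ ^ 2), fun y => C * (1 + ‖y‖) ^ 2, ?_⟩
  refine
    { cb := fun y => cb_exp (hφ.cb y)
      meas := hφ.meas.exp
      measd := fun k => ?_
      one := one
      zero := fun k x => ?_
      le := fun y x => Real.exp_le_exp.2 (hup y x)
      log_le := fun y x => ?_
      pd_le := fun y x k => ?_
      mh := ?_
      mG := ?_
      int := ?_ }
  · simp only [hpd]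
    exact hφ.meas.exp.mul (hφ.measd k)
  · rw [← zero k x]
    refine integral_congr_ae (ae_of_all _ fun y => ?_)
    simp only
    rw [hpd, mul_comm]
  · rw [Real.log_exp]
    exact (hb y x).1
  · rw [hpd, abs_mul, abs_of_pos (Real.exp_pos _), mul_comm]
    exact mul_le_mul_of_nonneg_right ((hb y x).2 k) (Real.exp_pos _).le
  · exact (measurable_const.add measurable_norm).pow_const 2 |>.const_mul C
  · fun_prop
  · unfold gam
    rw [integrable_nm_iff (ex_gk one_pos)]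
    have hE : EG fun y : E n => (1 + C * (1 + ‖y‖) ^ 2) ^ 2 * Real.exp K := by
      have a1 : EG fun y : E n => 1 + ‖y‖ := (EG.const 1).add EG.norm
      have a2 : EG fun y : E n => (1 + ‖y‖) ^ 2 := by simpa [sq] using a1.mul a1
      have a3 : EG fun y : E n => 1 + C * (1 + ‖y‖) ^ 2 := (EG.const 1).add (a2.smul C)
      have a4 : EG fun y : E n => (1 + C * (1 + ‖y‖) ^ 2) ^ 2 := by simpa [sq] using a3.mul a3
      exact a4.mul (EG.const _)
    have hs : 0 < 1 / (2 * c) := by positivity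
    refine ((ex_gk (n := n) hs).int_mul hE).congr (ae_of_all _ fun y => ?_)
    simp only
    have : Real.exp (K + 1 / 2 * ‖y‖ ^ 2 - c * ‖y‖ ^ 2) * gk 1 y =
        Real.exp K * gk (1 / (2 * c)) y := by
      unfold gk
      rw [← Real.exp_add, ← Real.exp_add]
      congr 1
      field_simp
      ring
    calc (1 + C * (1 + ‖y‖) ^ 2) ^ 2 * Real.exp K * gk (1 / (2 * c)) y
        = (1 + C * (1 + ‖y‖) ^ 2) ^ 2 * (Real.exp K * gk (1 / (2 * c)) y) := by ring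
      _ = _ := by rw [← this]; ring

/-! ### the log-density as a family -/

variable {M : E n → Mt n} {v : E n → Fin n → ℝ}

/-- derivative of a vector field -/
noncomputable def pdv (k : Fin n) (v : E n → Fin n → ℝ) (x : E n) : Fin n → ℝ :=
  fun i => pd k (fun y => v y i) x

/-- the Gaussian channel -/
noncomputable def gp (v : E n → Fin n → ℝ) (M : E n → Mt n) : E n → E n → ℝ :=
  fun y x => gd (v x) (M x) y

theorem PG_D (hv : ∀ i, CB fun x => v x i) (i : Fin n) : PG 1 (fun y x => y i - v x i) :=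
  (PG.coord i).sub ((PG.cst (hv i)).mono zero_le_one)

theorem PG_gl (hM : MF M) (hv : ∀ i, CB fun x => v x i) : PG 2 (fun y x => gl (v x) (M x) y) := by
  have h1 : PG 2 (fun (y x : E n) => ∑ i, (y i - v x i) * ∑ j, (M x)⁻¹ i j * (y j - v x j)) := by
    refine PG.sum _ fun i _ => ?_
    have h2 : PG 1 (fun (y x : E n) => ∑ j, (M x)⁻¹ i j * (y j - v x j)) := by
      refine PG.sum _ fun j _ => ?_
      have := (PG.cst (hM.cb_inv i j)).mul (PG_D hv j)
      rwa [zero_add] at this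
    exact (PG_D hv i).mul h2
  have h3 : PG 2 (fun (y _ : E n) => ∑ i, y i * y i) :=
    PG.sum _ fun i _ => (PG.coord i).mul (PG.coord i)
  have h4 : PG 2 (fun (_ x : E n) => Real.log (M x).det) :=
    (PG.cst (cbp_log hM.det_cbp)).mono (Nat.zero_le 2)
  exact ((h1.smul (-(1 / 2))).add (h3.smul (1 / 2))).sub (h4.smul (1 / 2))

/-- derivative of the log-density -/
theorem pd_gl (hM : MF M) (hv : ∀ i, CB fun x => v x i) (k : Fin n) (x y : E n) :
    pd k (fun x => gl (v x) (M x) y) x =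
      -(1 / 2) * ((M x)⁻¹ * pdM k M x).trace + (y.ofLp - v x) ⬝ᵥ ((M x)⁻¹ *ᵥ pdv k v x) +
        (1 / 2) * ((y.ofLp - v x) ⬝ᵥ (((M x)⁻¹ * pdM k M x * (M x)⁻¹) *ᵥ (y.ofLp - v x))) := by
  set A := fun x => (M x)⁻¹ with hA
  set D := y.ofLp - v x with hD
  have dA : ∀ i j, DifferentiableAt ℝ (fun x => A x i j) x := fun i j =>
    Tw807.cb_diff (hM.cb_inv i j) x
  have dD : ∀ i, DifferentiableAt ℝ (fun x => y i - v x i) x := fun i =>
    (differentiableAt_const _).sub (Tw807.cb_diff (hv i) x)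
  have pD : ∀ i, pd k (fun x => y i - v x i) x = -(pdv k v x i) := by
    intro i
    rw [Tw807.pd_sub k (differentiableAt_const _) (Tw807.cb_diff (hv i) x), Tw807.pd_const]
    simp [pdv]
  have d1 : ∀ i j, DifferentiableAt ℝ (fun x => A x i j * (y j - v x j)) x := fun i j =>
    (dA i j).mul (dD j)
  have d2 : ∀ i, DifferentiableAt ℝ (fun x => ∑ j, A x i j * (y j - v x j)) x := fun i =>
    DifferentiableAt.fun_sum fun j _ => d1 i j
  have d3 : ∀ i, DifferentiableAt ℝ (fun x => (y i - v x i) * ∑ j, A x i j * (y j - v x j)) x :=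
    fun i => (dD i).mul (d2 i)
  have d4 : DifferentiableAt ℝ
      (fun x => ∑ i, (y i - v x i) * ∑ j, A x i j * (y j - v x j)) x :=
    DifferentiableAt.fun_sum fun i _ => d3 i
  have dl : DifferentiableAt ℝ (fun x => Real.log (M x).det) x :=
    Tw807.cb_diff (cbp_log hM.det_cbp) x
  have e1 : pd k (fun x => ∑ i, (y i - v x i) * ∑ j, A x i j * (y j - v x j)) x =
      D ⬝ᵥ (pdM k A x *ᵥ D) - D ⬝ᵥ (A x *ᵥ pdv k v x) - pdv k v x ⬝ᵥ (A x *ᵥ D) := by
    rw [Tw807.pd_sum _ k fun i _ => d3 i]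
    have : ∀ i, pd k (fun x => (y i - v x i) * ∑ j, A x i j * (y j - v x j)) x =
        D i * (pdM k A x *ᵥ D) i - D i * (A x *ᵥ pdv k v x) i - pdv k v x i * (A x *ᵥ D) i := by
      intro i
      rw [Tw807.pd_mul k (dD i) (d2 i), Tw807.pd_sum _ k fun j _ => d1 i j, pD]
      have h5 : ∀ j, pd k (fun x => A x i j * (y j - v x j)) x =
          pdM k A x i j * D j - A x i j * pdv k v x j := by
        intro j
        rw [Tw807.pd_mul k (dA i j) (dD j), pD]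
        simp only [pdM, Matrix.of_apply, hD, Pi.sub_apply]
        ring
      simp only [h5, Finset.sum_sub_distrib, Matrix.mulVec, dotProduct]
      simp only [hD, Pi.sub_apply]
      ring
    simp only [this, Finset.sum_sub_distrib, dotProduct]
  have e2 : (fun x => gl (v x) (M x) y) = fun x =>
      (-(1 / 2) * (∑ i, (y i - v x i) * ∑ j, A x i j * (y j - v x j)) +
        (1 / 2) * (y.ofLp ⬝ᵥ y.ofLp)) - (1 / 2) * Real.log (M x).det := rfl
  have d5 : DifferentiableAt ℝ (fun x => -(1 / 2) *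
      (∑ i, (y i - v x i) * ∑ j, A x i j * (y j - v x j)) + (1 / 2) * (y.ofLp ⬝ᵥ y.ofLp)) x :=
    (d4.const_mul _).add (differentiableAt_const _)
  have d6 : DifferentiableAt ℝ (fun x => -(1 / 2) *
      (∑ i, (y i - v x i) * ∑ j, A x i j * (y j - v x j))) x := d4.const_mul _
  have d7 : DifferentiableAt ℝ (fun x => (1 / 2) * Real.log (M x).det) x := dl.const_mul _
  rw [e2, Tw807.pd_sub k d5 d7, Tw807.pd_add k d6 (differentiableAt_const _),
    Tw807.pd_const_mul _ k d4,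
    Tw807.pd_const_mul _ k dl, Tw807.pd_const, e1, hM.pd_logdet]
  have h6 : pdM k A x = -(A x * pdM k M x * A x) := hM.pd_inv k x
  have h7 : pdv k v x ⬝ᵥ (A x *ᵥ D) = D ⬝ᵥ (A x *ᵥ pdv k v x) := by
    rw [Matrix.dotProduct_mulVec, ← Matrix.mulVec_transpose, hM.symm_inv, dotProduct_comm]
  rw [h6, h7, Matrix.neg_mulVec, dotProduct_neg]
  ring

/-- the score in whitened coordinates -/
theorem score_am (v w : Fin n → ℝ) {B : Mt n} (hBs : Bᵀ = B) (hB : 0 < B.det) (K : Mt n) (g : E n) :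
    -(1 / 2) * ((B * B)⁻¹ * K).trace + ((am v B g).ofLp - v) ⬝ᵥ ((B * B)⁻¹ *ᵥ w) +
        (1 / 2) * (((am v B g).ofLp - v) ⬝ᵥ (((B * B)⁻¹ * K * (B * B)⁻¹) *ᵥ
          ((am v B g).ofLp - v))) =
      (∑ i, (B⁻¹ *ᵥ w) i * g i) + ((∑ i, ∑ j, ((1 / 2 : ℝ) • (B⁻¹ * K * B⁻¹)) i j * (g i * g j)) -
        ((1 / 2 : ℝ) • (B⁻¹ * K * B⁻¹)).trace) := by
  have hu : IsUnit B.det := isUnit_iff_ne_zero.2 hB.ne'
  have hadj : ∀ z : Fin n → ℝ, (B *ᵥ g.ofLp) ⬝ᵥ z = g.ofLp ⬝ᵥ (B *ᵥ z) := by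
    intro z
    rw [Matrix.dotProduct_mulVec g.ofLp, ← Matrix.mulVec_transpose, hBs]
  rw [am_ofLp, add_sub_cancel_left, hadj, hadj]
  have h1 : B *ᵥ ((B * B)⁻¹ *ᵥ w) = B⁻¹ *ᵥ w := by
    rw [Matrix.mul_inv_rev, Matrix.mulVec_mulVec, ← Matrix.mul_assoc, Matrix.mul_nonsing_inv _ hu,
      Matrix.one_mul]
  have h2 : B *ᵥ (((B * B)⁻¹ * K * (B * B)⁻¹) *ᵥ (B *ᵥ g.ofLp)) =
      (B⁻¹ * K * B⁻¹) *ᵥ g.ofLp := by
    rw [Matrix.mul_inv_rev, Matrix.mulVec_mulVec, Matrix.mulVec_mulVec]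
    congr 1
    calc B * (B⁻¹ * B⁻¹ * K * (B⁻¹ * B⁻¹)) * B
        = (B * B⁻¹) * B⁻¹ * K * B⁻¹ * (B⁻¹ * B) := by simp only [Matrix.mul_assoc]
      _ = _ := by
        rw [Matrix.mul_nonsing_inv _ hu, Matrix.nonsing_inv_mul _ hu, Matrix.one_mul, Matrix.mul_one]
  have h3 : ((B * B)⁻¹ * K).trace = (B⁻¹ * K * B⁻¹).trace := by
    rw [Matrix.mul_inv_rev, Matrix.mul_assoc, Matrix.trace_mul_comm]
  rw [h1, h2, h3]
  have h4 : g.ofLp ⬝ᵥ (B⁻¹ *ᵥ w) = ∑ i, (B⁻¹ *ᵥ w) i * g i := by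
    rw [dotProduct_comm]; rfl
  have h5 : (1 / 2 : ℝ) * (g.ofLp ⬝ᵥ ((B⁻¹ * K * B⁻¹) *ᵥ g.ofLp)) =
      ∑ i, ∑ j, ((1 / 2 : ℝ) • (B⁻¹ * K * B⁻¹)) i j * (g i * g j) := by
    simp only [dotProduct, Matrix.mulVec, Finset.mul_sum, Matrix.smul_apply, smul_eq_mul]
    refine Finset.sum_congr rfl fun i _ => Finset.sum_congr rfl fun j _ => ?_
    ring
  rw [h4, h5, Matrix.trace_smul, smul_eq_mul]
  ring

/-- second moment of the score -/
theorem score_sq (w : Fin n → ℝ) {B K : Mt n} (hBs : Bᵀ = B) (hK : Kᵀ = K) :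
    (B⁻¹ *ᵥ w) ⬝ᵥ (B⁻¹ *ᵥ w) + (((1 / 2 : ℝ) • (B⁻¹ * K * B⁻¹)) *
        ((1 / 2 : ℝ) • (B⁻¹ * K * B⁻¹))ᵀ).trace +
        (((1 / 2 : ℝ) • (B⁻¹ * K * B⁻¹)) * ((1 / 2 : ℝ) • (B⁻¹ * K * B⁻¹))).trace =
      w ⬝ᵥ ((B * B)⁻¹ *ᵥ w) + (1 / 2) * ((B * B)⁻¹ * K * (B * B)⁻¹ * K).trace := by
  have hBi : (B⁻¹)ᵀ = B⁻¹ := by rw [Matrix.transpose_nonsing_inv, hBs]
  have h1 : (B⁻¹ *ᵥ w) ⬝ᵥ (B⁻¹ *ᵥ w) = w ⬝ᵥ ((B * B)⁻¹ *ᵥ w) := by
    rw [Matrix.mul_inv_rev, ← Matrix.mulVec_mulVec, Matrix.dotProduct_mulVec w,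
      ← Matrix.mulVec_transpose, hBi]
  have hs : ((1 / 2 : ℝ) • (B⁻¹ * K * B⁻¹))ᵀ = (1 / 2 : ℝ) • (B⁻¹ * K * B⁻¹) := by
    rw [Matrix.transpose_smul, Matrix.transpose_mul, Matrix.transpose_mul, hBi, hK, Matrix.mul_assoc]
  have h2 : (((1 / 2 : ℝ) • (B⁻¹ * K * B⁻¹)) * ((1 / 2 : ℝ) • (B⁻¹ * K * B⁻¹))).trace =
      (1 / 4) * ((B * B)⁻¹ * K * (B * B)⁻¹ * K).trace := by
    rw [Matrix.smul_mul, Matrix.mul_smul, Matrix.trace_smul, Matrix.trace_smul, smul_eq_mul,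
      smul_eq_mul, ← mul_assoc, Matrix.mul_inv_rev]
    have : (B⁻¹ * K * B⁻¹ * (B⁻¹ * K * B⁻¹)).trace = (B⁻¹ * B⁻¹ * K * (B⁻¹ * B⁻¹) * K).trace := by
      have e1 : B⁻¹ * K * B⁻¹ * (B⁻¹ * K * B⁻¹) = B⁻¹ * (K * (B⁻¹ * B⁻¹) * K * B⁻¹) := by
        simp only [Matrix.mul_assoc]
      have e2 : K * (B⁻¹ * B⁻¹) * K * B⁻¹ * B⁻¹ = (K * (B⁻¹ * B⁻¹) * K) * (B⁻¹ * B⁻¹) := by
        simp only [Matrix.mul_assoc]
      have e3 : (B⁻¹ * B⁻¹ * K * (B⁻¹ * B⁻¹) * K) = (B⁻¹ * B⁻¹) * (K * (B⁻¹ * B⁻¹) * K) := by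
        simp only [Matrix.mul_assoc]
      rw [e1, Matrix.trace_mul_comm, e2, e3, Matrix.trace_mul_comm]
    rw [this]
    norm_num
  rw [hs, h1, h2]
  ring

theorem pdM_symm (hM : MF M) (k : Fin n) (x : E n) : (pdM k M x)ᵀ = pdM k M x := by
  ext i j
  simp only [pdM, Matrix.transpose_apply, Matrix.of_apply]
  congr 1
  funext y
  have := congrFun (congrFun (hM.symm y) i) j
  rw [Matrix.transpose_apply] at this
  exact this

theorem gam_const (c : ℝ) : ∫ _y : E n, c ∂(gam n) = c := by simp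

/-- moments of the Gaussian channel -/
theorem gp_moments (hM : MF M) (hv : ∀ i, CB fun x => v x i) (x : E n) :
    ∫ y, gd (v x) (M x) y ∂(gam n) = 1 ∧
    (∀ k, ∫ y, pd k (fun x => gl (v x) (M x) y) x * gd (v x) (M x) y ∂(gam n) = 0) ∧
    (∀ k, ∫ y, pd k (fun x => gl (v x) (M x) y) x ^ 2 * gd (v x) (M x) y ∂(gam n) =
      pdv k v x ⬝ᵥ ((M x)⁻¹ *ᵥ pdv k v x) +
        (1 / 2) * ((M x)⁻¹ * pdM k M x * (M x)⁻¹ * pdM k M x).trace) ∧
    ∫ y, gl (v x) (M x) y * gd (v x) (M x) y ∂(gam n) =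
      (1 / 2) * (v x ⬝ᵥ v x + (M x).trace - n - Real.log (M x).det) := by
  obtain ⟨B, hBs, hBB, hB⟩ := hM.root x
  refine ⟨?_, fun k => ?_, fun k => ?_, ?_⟩
  · have := (gd_cov (v x) hBs hB (fun _ => 1)).2
    rw [hBB] at this
    simpa using this
  · have := (gd_cov (v x) hBs hB fun y => pd k (fun x => gl (v x) (M x) y) x).2
    rw [hBB] at this
    rw [this, int_gam]
    simp only [pd_gl hM hv]
    rw [← hBB]
    simp only [score_am _ _ hBs hB]
    exact mscore0 _ _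
  · have := (gd_cov (v x) hBs hB fun y => pd k (fun x => gl (v x) (M x) y) x ^ 2).2
    rw [hBB] at this
    rw [this, int_gam]
    simp only [pd_gl hM hv]
    rw [← hBB]
    simp only [score_am _ _ hBs hB]
    rw [mscore]
    exact score_sq _ hBs (pdM_symm hM k x)
  · have := (gd_cov (v x) hBs hB fun y => gl (v x) (M x) y).2
    rw [hBB] at this
    rw [this, int_gam, ← hBB]
    have hu : IsUnit B.det := isUnit_iff_ne_zero.2 hB.ne'
    have e : ∀ g : E n, gl (v x) (B * B) (am (v x) B g) =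
        (1 / 2) * (v x ⬝ᵥ v x - Real.log (B * B).det) + ((∑ i, (B *ᵥ v x) i * g i) +
          ∑ i, ∑ j, ((1 / 2 : ℝ) • (B * B - 1)) i j * (g i * g j)) := by
      intro g
      have hadj : ∀ z : Fin n → ℝ, (B *ᵥ g.ofLp) ⬝ᵥ z = g.ofLp ⬝ᵥ (B *ᵥ z) := by
        intro z
        rw [Matrix.dotProduct_mulVec g.ofLp, ← Matrix.mulVec_transpose, hBs]
      have h1 : (B *ᵥ g.ofLp) ⬝ᵥ ((B * B)⁻¹ *ᵥ (B *ᵥ g.ofLp)) = g.ofLp ⬝ᵥ g.ofLp := by
        rw [hadj, Matrix.mulVec_mulVec, Matrix.mulVec_mulVec, Matrix.mul_inv_rev]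
        have : B * (B⁻¹ * B⁻¹) * B = 1 := by
          calc B * (B⁻¹ * B⁻¹) * B = (B * B⁻¹) * (B⁻¹ * B) := by simp only [Matrix.mul_assoc]
            _ = 1 := by
              rw [Matrix.mul_nonsing_inv _ hu, Matrix.nonsing_inv_mul _ hu, Matrix.one_mul]
        rw [← Matrix.mul_assoc] at this ⊢
        rw [this, Matrix.one_mulVec]
      have h2 : (v x + B *ᵥ g.ofLp) ⬝ᵥ (v x + B *ᵥ g.ofLp) =
          v x ⬝ᵥ v x + 2 * (g.ofLp ⬝ᵥ (B *ᵥ v x)) + g.ofLp ⬝ᵥ ((B * B) *ᵥ g.ofLp) := by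
        have h0 : v x ⬝ᵥ (B *ᵥ g.ofLp) = g.ofLp ⬝ᵥ (B *ᵥ v x) := by
          rw [dotProduct_comm, hadj]
        rw [add_dotProduct, dotProduct_add, dotProduct_add, hadj, hadj, h0, Matrix.mulVec_mulVec]
        ring
      have h3 : ∑ i, (B *ᵥ v x) i * g i = g.ofLp ⬝ᵥ (B *ᵥ v x) := by
        rw [dotProduct_comm]; rfl
      have h4 : ∑ i, ∑ j, ((1 / 2 : ℝ) • (B * B - 1)) i j * (g i * g j) =
          (1 / 2) * (g.ofLp ⬝ᵥ ((B * B) *ᵥ g.ofLp) - g.ofLp ⬝ᵥ g.ofLp) := by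
        have h5 : g.ofLp ⬝ᵥ ((B * B) *ᵥ g.ofLp) - g.ofLp ⬝ᵥ g.ofLp =
            g.ofLp ⬝ᵥ ((B * B - 1) *ᵥ g.ofLp) := by
          rw [Matrix.sub_mulVec, Matrix.one_mulVec, dotProduct_sub]
        rw [h5]
        simp only [dotProduct, Matrix.mulVec, Finset.mul_sum, Matrix.smul_apply, smul_eq_mul]
        refine Finset.sum_congr rfl fun i _ => Finset.sum_congr rfl fun j _ => ?_
        ring
      unfold gl
      rw [am_ofLp, add_sub_cancel_left, h1, h2, h3, h4]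
      ring
    simp only [e]
    have hρ : Ex (gk 1 : E n → ℝ) := ex_gk one_pos
    rw [Em_add hρ (EG.const _) ((EGl _).add (EGq _)), Em_add hρ (EGl _) (EGq _), Em_const hρ, ml, mq,
      Matrix.trace_smul, Matrix.trace_sub, Matrix.trace_one, Fintype.card_fin, smul_eq_mul]
    ring

/-- lower bound for the quadratic form of the inverse -/
theorem inv_quad_ge {A : Mt n} (hA : Aᵀ = A) {m c : ℝ} (hc : 0 < c) (h0 : LeQ (c • (1 : Mt n)) A)
    (hm : LeQ A (m • (1 : Mt n))) (u : Fin n → ℝ) : u ⬝ᵥ u ≤ m * (u ⬝ᵥ (A⁻¹ *ᵥ u)) := by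
  have hP := symm_posDef hA hc h0
  have hu : IsUnit A.det := isUnit_iff_ne_zero.2 hP.det_pos.ne'
  set w := A⁻¹ *ᵥ u with hw
  have hAw : A *ᵥ w = u := by rw [hw, Matrix.mulVec_mulVec, Matrix.mul_nonsing_inv _ hu, Matrix.one_mulVec]
  obtain ⟨B, hB, hBB⟩ := MX354.root_exists hP.posSemidef
  have hBs := MX354.posSemidef_transpose hB
  have hadj : ∀ z z' : Fin n → ℝ, (B *ᵥ z) ⬝ᵥ z' = z ⬝ᵥ (B *ᵥ z') := by
    intro z z'
    rw [Matrix.dotProduct_mulVec z, ← Matrix.mulVec_transpose, hBs]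
  have h1 : u ⬝ᵥ u = (B *ᵥ w) ⬝ᵥ (A *ᵥ (B *ᵥ w)) := by
    rw [← hAw, ← hBB]
    simp only [← Matrix.mulVec_mulVec]
    rw [hadj, hadj]
  have h2 := hm (B *ᵥ w)
  rw [Matrix.smul_mulVec, Matrix.one_mulVec, dotProduct_smul, smul_eq_mul] at h2
  have h3 : (B *ᵥ w) ⬝ᵥ (B *ᵥ w) = u ⬝ᵥ w := by
    rw [hadj, Matrix.mulVec_mulVec, hBB, hAw, dotProduct_comm]
  rw [h1]
  rw [h3] at h2
  exact h2

/-- upper bound of a bounded matrix field -/
theorem MF.le (hM : MF M) : ∃ m : ℝ, 0 < m ∧ ∀ x, LeQ (M x) (m • (1 : Mt n)) := by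
  have h1 : ∀ i j, ∃ B : ℝ, ∀ x, |M x i j| ≤ B := fun i j => by
    obtain ⟨-, B, hB⟩ := hM.cb i j
    exact ⟨B, fun x => (hB x).1⟩
  choose B hB using h1
  have hB0 : ∀ i j, 0 ≤ B i j := fun i j => (abs_nonneg _).trans (hB i j 0)
  set S := ∑ i, ∑ j, B i j with hS
  have hS0 : 0 ≤ S := Finset.sum_nonneg fun i _ => Finset.sum_nonneg fun j _ => hB0 i j
  refine ⟨S + 1, by linarith, fun x u => ?_⟩
  rw [Matrix.smul_mulVec, Matrix.one_mulVec, dotProduct_smul, smul_eq_mul]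
  have hu0 : 0 ≤ u ⬝ᵥ u := Finset.sum_nonneg fun i _ => mul_self_nonneg (u i)
  have hui : ∀ i, u i * u i ≤ u ⬝ᵥ u := fun i =>
    Finset.single_le_sum (f := fun i => u i * u i) (fun i _ => mul_self_nonneg (u i))
      (Finset.mem_univ i)
  have h2 : u ⬝ᵥ (M x *ᵥ u) ≤ S * (u ⬝ᵥ u) := by
    simp only [hS, Finset.sum_mul]
    have e : u ⬝ᵥ (M x *ᵥ u) = ∑ i, ∑ j, u i * (M x i j * u j) := by
      simp only [dotProduct, Matrix.mulVec, Finset.mul_sum]
    rw [e]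
    refine Finset.sum_le_sum fun i _ => Finset.sum_le_sum fun j _ => ?_
    have h3 : |u i * u j| ≤ u ⬝ᵥ u := by
      rw [abs_mul]
      have h5 := hui i
      have h6 := hui j
      nlinarith [sq_nonneg (|u i| - |u j|), abs_mul_abs_self (u i), abs_mul_abs_self (u j)]
    calc u i * (M x i j * u j) ≤ |u i * (M x i j * u j)| := le_abs_self _
      _ = |M x i j| * |u i * u j| := by rw [← abs_mul]; congr 1; ring
      _ ≤ B i j * (u ⬝ᵥ u) := mul_le_mul (hB i j x) h3 (abs_nonneg _) (hB0 i j)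
  nlinarith

/-- **(G1)** the Gaussian channel -/
theorem gchan (hM : MF M) (hv : ∀ i, CB fun x => v x i) :
    ∃ G h : E n → ℝ, Chan (gam n) (gp v M) G h := by
  obtain ⟨c, hc, hge⟩ := hM.ge
  obtain ⟨m, hm, hle⟩ := hM.le
  obtain ⟨L, hL0, hL⟩ := hM.det_cbp.log_bdd
  have h1 : ∀ i, ∃ B : ℝ, ∀ x, |v x i| ≤ B := fun i => by
    obtain ⟨-, B, hB⟩ := hv i
    exact ⟨B, fun x => (hB x).1⟩
  choose b hb using h1
  set V := ∑ i, b i ^ 2 with hV
  have hvV : ∀ x, v x ⬝ᵥ v x ≤ V := by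
    intro x
    refine Finset.sum_le_sum fun i _ => ?_
    rw [← sq, ← sq_abs]
    exact pow_le_pow_left₀ (abs_nonneg _) (hb i x) 2
  refine chan_of_PG (PG_gl hM hv) (K := 1 / (2 * m) * V + (1 / 2) * L) (c := 1 / (4 * m))
    (by positivity) (fun y x => ?_) (fun x => (gp_moments hM hv x).1)
    (fun k x => (gp_moments hM hv x).2.1 k)
  have h2 := inv_quad_ge (hM.symm x) hc (hge x) (hle x) (y.ofLp - v x)
  have h3 : y.ofLp ⬝ᵥ y.ofLp ≤ 2 * ((y.ofLp - v x) ⬝ᵥ (y.ofLp - v x)) + 2 * (v x ⬝ᵥ v x) := by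
    simp only [dotProduct, Finset.mul_sum, ← Finset.sum_add_distrib, Pi.sub_apply]
    refine Finset.sum_le_sum fun i _ => ?_
    nlinarith [sq_nonneg (y.ofLp i - 2 * v x i)]
  have h4 := hvV x
  have h5 := (abs_le.1 (hL x)).1
  rw [norm_sq_dot]
  unfold gl
  set q := (y.ofLp - v x) ⬝ᵥ ((M x)⁻¹ *ᵥ (y.ofLp - v x)) with hq
  set D := (y.ofLp - v x) ⬝ᵥ (y.ofLp - v x) with hD
  set Y := y.ofLp ⬝ᵥ y.ofLp with hY
  have h6 : Y ≤ 2 * (m * q) + 2 * V := by linarith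
  have h7 : 1 / (4 * m) * Y ≤ 1 / (4 * m) * (2 * (m * q) + 2 * V) :=
    mul_le_mul_of_nonneg_left h6 (by positivity)
  have h8 : 1 / (4 * m) * (2 * (m * q) + 2 * V) = (1 / 2) * q + 1 / (2 * m) * V := by
    field_simp
    ring
  linarith

section Info

variable {μ : Measure (E n)} [IsFiniteMeasure μ] {f : E n → ℝ}

/-- KL divergence of the label from the standard Gaussian -/
noncomputable def Dis (μ : Measure (E n)) (f : E n → ℝ) (v : E n → Fin n → ℝ) (M : E n → Mt n) : ℝ :=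
  ∫ y, pJ μ f (gp v M) y * Real.log (pJ μ f (gp v M) y) ∂(gam n)

/-- **(G2)** the Fisher information of the Gaussian channel -/
theorem LF_gp (hM : MF M) (hv : ∀ i, CB fun x => v x i) (hf : CBp f) :
    LF μ f (gam n) (gp v M) = ∫ x, f x * ∑ k, (pdv k v x ⬝ᵥ ((M x)⁻¹ *ᵥ pdv k v x) +
      (1 / 2) * ((M x)⁻¹ * pdM k M x * (M x)⁻¹ * pdM k M x).trace) ∂μ := by
  obtain ⟨G, h, hp⟩ := gchan hM hv
  obtain ⟨B, hB0, hB⟩ := hf.bdd
  have mf := hf.cont.measurable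
  have s5 := fun k => hp.swap (μ := μ) (q := fun j x => pd k (gp v M j) x ^ 2 / gp v M j x) mf
    (fun x => (hB x).1) (hp.mq4 k) (hp.q4 k)
  have e1 : LF μ f (gam n) (gp v M) =
      ∑ k, ∫ j, ∫ x, f x * (pd k (gp v M j) x ^ 2 / gp v M j x) ∂μ ∂(gam n) := by
    unfold LF
    rw [← integral_finsetSum _ fun k _ => (s5 k).1]
    refine integral_congr_ae (Filter.Eventually.of_forall fun j => ?_)
    simp only
    rw [← integral_finsetSum _ fun k _ => hp.int_right (μ := μ)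
      (q := fun j x => pd k (gp v M j) x ^ 2 / gp v M j x) mf (fun x => (hB x).1)
      (hp.mq4 k) (hp.q4 k) j]
    refine integral_congr_ae (Filter.Eventually.of_forall fun x => ?_)
    simp only
    rw [Finset.sum_div, Finset.mul_sum]
  have e2 : ∀ k x, ∫ j, pd k (gp v M j) x ^ 2 / gp v M j x ∂(gam n) =
      pdv k v x ⬝ᵥ ((M x)⁻¹ *ᵥ pdv k v x) +
        (1 / 2) * ((M x)⁻¹ * pdM k M x * (M x)⁻¹ * pdM k M x).trace := by
    intro k x
    rw [← (gp_moments hM hv x).2.2.1 k]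
    refine integral_congr_ae (Filter.Eventually.of_forall fun y => ?_)
    simp only
    have : pd k (gp v M y) x = gd (v x) (M x) y * pd k (fun x => gl (v x) (M x) y) x :=
      pd_exp k (Tw807.cb_diff ((PG_gl hM hv).cb y) x)
    have h0 : gp v M y x = gd (v x) (M x) y := rfl
    have h1 : gd (v x) (M x) y ≠ 0 := (Real.exp_pos _).ne'
    rw [this, h0]
    field_simp
  have h3 : ∀ k, Integrable (fun x => f x * (pdv k v x ⬝ᵥ ((M x)⁻¹ *ᵥ pdv k v x) +
        (1 / 2) * ((M x)⁻¹ * pdM k M x * (M x)⁻¹ * pdM k M x).trace)) μ := by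
    intro k
    have := (hp.int_prod (μ := μ) (q := fun j x => pd k (gp v M j) x ^ 2 / gp v M j x) mf
      (fun x => (hB x).1) (hp.mq4 k) (hp.q4 k)).integral_prod_right
    refine this.congr (Filter.Eventually.of_forall fun x => ?_)
    simp only
    rw [integral_const_mul, e2]
  rw [e1]
  simp only [fun k => (s5 k).2, e2]
  rw [← integral_finsetSum _ fun k _ => h3 k]
  simp only [Finset.mul_sum]

/-- **(G3)** the mutual information of the Gaussian channel -/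
theorem MI_gp (hM : MF M) (hv : ∀ i, CB fun x => v x i) (hf : CBp f) (h1 : ∫ x, f x ∂μ = 1) :
    MI μ f (gam n) (gp v M) = (1 / 2) * (∫ x, f x * (v x ⬝ᵥ v x + (M x).trace - n -
      Real.log (M x).det) ∂μ) - Dis μ f v M := by
  obtain ⟨G, h, hp⟩ := gchan hM hv
  obtain ⟨B, hB0, hB⟩ := hf.bdd
  have mf := hf.cont.measurable
  have m2 : Measurable fun z : E n × E n => gp v M z.1 z.2 * Real.log (gp v M z.1 z.2) :=
    hp.meas.mul hp.meas.log
  obtain ⟨i2, s2⟩ := hp.swap (μ := μ) (q := fun j x => gp v M j x * Real.log (gp v M j x)) mf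
    (fun x => (hB x).1) m2 hp.q2
  unfold MI Dis
  rw [integral_sub i2 (pJlog_int hp hf h1), s2]
  congr 1
  rw [← integral_const_mul]
  refine integral_congr_ae (Filter.Eventually.of_forall fun x => ?_)
  simp only
  have : ∫ j, gp v M j x * Real.log (gp v M j x) ∂(gam n) =
      (1 / 2) * (v x ⬝ᵥ v x + (M x).trace - n - Real.log (M x).det) := by
    rw [← (gp_moments hM hv x).2.2.2]
    refine integral_congr_ae (Filter.Eventually.of_forall fun y => ?_)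
    simp only
    have h0 : gp v M y x = gd (v x) (M x) y := rfl
    rw [h0]
    unfold gd
    rw [Real.log_exp, mul_comm]
  rw [this]
  ring

end Info

end Crest.Agent.R201.LL809
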