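import Crest.Agent.R201.NSL3_674
import Crest.Agent.R201.LSn_77

/-!
# R201: Gaussian log-Sobolev inequality for Mathlib's `stdGaussian` (helper674)
-/

set_option autoImplicit false
open MeasureTheory Filter Topology ProbabilityTheory
open scoped ENNReal NNReal ContDiff

namespace Crest.Agent.R201.NSL674

open Crest.Agent.R144.Fi865 Crest.Agent.R201.An

variable {n : ℕ}

/-- normalising constant -/
noncomputable def gZ (n : ℕ) : ℝ := ∫ z : E n, gk 1 z

lemma gZ_pos : 0 < gZ n := gk_int_pos (n := n) one_pos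

/-- density of the standard Gaussian -/
noncomputable def gd (x : E n) : ℝ := gk 1 x / gZ n

lemma gd_pos (x : E n) : 0 < gd x := div_pos (gk_pos _ _) gZ_pos

lemma gd_cont : Continuous (gd : E n → ℝ) := (gk_cont 1).div_const _

lemma gd_int : Integrable (gd : E n → ℝ) := (int_gk one_pos).div_const _

theorem stdGaussian_density :
    stdGaussian (E n) = (volume : Measure (E n)).withDensity (fun x => ENNReal.ofReal (gd x)) := by
  haveI : IsFiniteMeasure ((volume : Measure (E n)).withDensity fun x => ENNReal.ofReal (gd x)) :=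
    isFiniteMeasure_withDensity_ofReal (gd_int (n := n)).2
  apply Measure.ext_of_charFun
  ext t
  rw [charFun_stdGaussian, charFun_apply,
    integral_withDensity_eq_integral_toReal_smul (by have := gd_cont (n := n); fun_prop)
      (ae_of_all _ fun x => ENNReal.ofReal_lt_top)]
  have h0 := GaussianFourier.integral_cexp_neg_mul_sq_norm_add (V := E n) (b := (1 / 2 : ℂ))
    (by norm_num) Complex.I t
  have h1 := GaussianFourier.integral_cexp_neg_mul_sq_norm_add (V := E n) (b := (1 / 2 : ℂ))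
    (by norm_num) 0 0
  have h2 : ∫ v : E n, Complex.exp (-(1 / 2 : ℂ) * ‖v‖ ^ 2 + 0 * (inner ℝ (0 : E n) v : ℂ)) =
      ((gZ n : ℝ) : ℂ) := by
    unfold gZ
    rw [← integral_complex_ofReal]
    refine integral_congr_ae (ae_of_all _ fun v => ?_)
    simp only [gk]
    push_cast
    congr 1
    ring
  rw [h2] at h1
  have h3 : ∫ x : E n, (ENNReal.ofReal (gd x)).toReal •
      Complex.exp ((inner ℝ x t : ℂ) * Complex.I) =
      ((gZ n : ℝ) : ℂ)⁻¹ * ∫ v : E n, Complex.exp (-(1 / 2 : ℂ) * ‖v‖ ^ 2 +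
        Complex.I * (inner ℝ t v : ℂ)) := by
    rw [← integral_const_mul]
    refine integral_congr_ae (ae_of_all _ fun v => ?_)
    simp only
    rw [ENNReal.toReal_ofReal (gd_pos v).le]
    unfold gd gk
    rw [real_inner_comm t v, Complex.exp_add, Complex.real_smul]
    push_cast
    rw [div_eq_mul_inv]
    have e1 : -((‖v‖ : ℂ) ^ 2 / (2 * 1)) = -(1 / 2) * (‖v‖ : ℂ) ^ 2 := by ring
    rw [e1, mul_comm Complex.I]
    ring
  rw [h3, h0]
  have h4 : ((gZ n : ℝ) : ℂ) ≠ 0 := by
    exact_mod_cast (gZ_pos (n := n)).ne'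
  have h5 : (Real.pi / (1 / 2 : ℂ)) ^ ((Module.finrank ℝ (E n) : ℂ) / 2) = ((gZ n : ℝ) : ℂ) := by
    rw [h1]
    simp
  rw [h5, ← mul_assoc, inv_mul_cancel₀ h4, one_mul]
  congr 1
  rw [Complex.I_sq]
  ring

lemma integral_stdGaussian (f : E n → ℝ) :
    ∫ x, f x ∂(stdGaussian (E n)) = ∫ x, f x * gd x := by
  rw [stdGaussian_density, integral_withDensity_eq_integral_toReal_smul
    (by have := gd_cont (n := n); fun_prop) (ae_of_all _ fun x => ENNReal.ofReal_lt_top)]
  refine integral_congr_ae (ae_of_all _ fun x => ?_)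
  simp only
  rw [ENNReal.toReal_ofReal (gd_pos x).le, smul_eq_mul, mul_comm]

lemma integrable_stdGaussian_iff (f : E n → ℝ) :
    Integrable f (stdGaussian (E n)) ↔ Integrable (fun x => f x * gd x) := by
  rw [stdGaussian_density, integrable_withDensity_iff
    (by have := gd_cont (n := n); fun_prop) (ae_of_all _ fun x => ENNReal.ofReal_lt_top)]
  refine integrable_congr (ae_of_all _ fun x => ?_)
  simp only
  rw [ENNReal.toReal_ofReal (gd_pos x).le]

lemma slc_gd : SLC 1 (gd : E n → ℝ) := by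
  have h := LSn77.slc_gk (n := n) one_pos (0 : E n)
  intro x y
  have h1 := h x y
  simp only [sub_zero, one_div_one, div_one] at h1
  unfold gd
  have hZ := gZ_pos (n := n)
  rw [Real.sqrt_div (gk_pos _ _).le, Real.sqrt_div (gk_pos _ _).le, div_mul_div_comm,
    Real.mul_self_sqrt hZ.le, mul_div_assoc']
  exact div_le_div_of_nonneg_right h1 hZ.le

/-- **Gaussian log-Sobolev inequality** -/
theorem gauss_lsi {f : E n → ℝ} (hf : ContDiff ℝ 1 f) (hp : ∀ x, 0 < f x)
    (i1 : Integrable f (stdGaussian (E n)))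
    (i2 : Integrable (fun x => ‖fderiv ℝ f x‖ ^ 2 / f x) (stdGaussian (E n))) :
    Integrable (fun x => f x * Real.log (f x)) (stdGaussian (E n)) ∧
    (∫ x, f x * Real.log (f x) ∂(stdGaussian (E n))) - (∫ x, f x ∂(stdGaussian (E n))) *
      Real.log (∫ x, f x ∂(stdGaussian (E n))) ≤
      1 / 2 * ∫ x, ‖fderiv ℝ f x‖ ^ 2 / f x ∂(stdGaussian (E n)) := by
  have hone : ∫ x : E n, gd x = 1 := by
    unfold gd
    rw [integral_div]
    exact div_self gZ_pos.ne'
  rw [integrable_stdGaussian_iff] at i1 i2 ⊢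
  obtain ⟨h1, h2⟩ := lsi_gen (lam := 1) one_pos (fun x => (gd_pos x).le) gd_cont.measurable gd_int
    (by rw [hone]; exact one_pos) slc_gd hf hp i1 i2
  refine ⟨h1, ?_⟩
  rw [hone, div_one] at h2
  simp only [integral_stdGaussian]
  calc _ ≤ _ := h2
    _ = _ := by norm_num

end Crest.Agent.R201.NSL674
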