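import Crest.Agent.R201.LDefs_74
import Crest.Agent.R201.LabG3_809
import Crest.Agent.R201.NSL4_674
import Crest.Agent.R201.GC2_844

/-!
# R201, block CH (helper238): labelled LSI with `J | x ~ N(φ(x), 1)`
-/

set_option autoImplicit false
set_option maxHeartbeats 400000
open MeasureTheory Matrix Filter Topology ProbabilityTheory
open scoped ContDiff RealInnerProductSpace

namespace Crest.Agent.R201.CH238

open Crest.Agent.R201 Crest.Agent.R201.LL809

variable {n : ℕ}

section Jens

variable {L : Type*} [MeasurableSpace L] {μ : Measure (E n)} [IsFiniteMeasure μ] {f : E n → ℝ}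
  {l : Measure L} [SFinite l] {p : L → E n → ℝ} {G h : L → ℝ}

/-- the unnormalised conditional mean is measurable in the label -/
theorem meas_cm (hp : Chan l p G h) (hf : CBp f) {u : E n → ℝ} (mu : Measurable u) :
    Measurable fun j => ∫ x, f x * (u x * p j x) ∂μ := by
  have : StronglyMeasurable fun z : L × E n => f z.2 * (u z.2 * p z.1 z.2) :=
    ((hf.cont.measurable.comp measurable_snd).mul
      ((mu.comp measurable_snd).mul hp.meas)).stronglyMeasurable
  exact this.integral_prod_right.measurable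

/-- **Jensen for labels** -/
theorem jens (hp : Chan l p G h) (hf : CBp f) (h1 : ∫ x, f x ∂μ = 1) {u : E n → ℝ}
    (mu : Measurable u) {B : ℝ} (hB : ∀ x, |u x| ≤ B) :
    Integrable (fun j => (∫ x, f x * (u x * p j x) ∂μ) ^ 2 / pJ μ f p j) l ∧
    ∫ j, (∫ x, f x * (u x * p j x) ∂μ) ^ 2 / pJ μ f p j ∂l ≤ ∫ x, f x * u x ^ 2 ∂μ := by
  obtain ⟨K, hK0, hK⟩ := hf.bdd
  have mf := hf.cont.measurable
  have hB0 : 0 ≤ B := (abs_nonneg _).trans (hB 0)
  have bK : ∀ x, |f x| ≤ K := fun x => (hK x).1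
  have m2 : Measurable fun x => f x * u x ^ 2 := mf.mul (mu.pow_const 2)
  have b2 : ∀ x, |f x * u x ^ 2| ≤ K * B ^ 2 := fun x => by
    rw [abs_mul, abs_pow]
    exact mul_le_mul (bK x) (pow_le_pow_left₀ (abs_nonneg _) (hB x) 2) (by positivity) hK0
  have m1 : Measurable fun x => f x * u x := mf.mul mu
  have b1 : ∀ x, |f x * u x| ≤ K * B := fun x => by
    rw [abs_mul]; exact mul_le_mul (bK x) (hB x) (abs_nonneg _) hK0
  obtain ⟨i2, s2⟩ := hp.swap (μ := μ) (q := p) m2 b2 hp.meas hp.q1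
  have key : ∀ j, (∫ x, f x * (u x * p j x) ∂μ) ^ 2 / pJ μ f p j ≤
      ∫ x, f x * u x ^ 2 * p j x ∂μ := by
    intro j
    have hC := (pJ_bd (μ := μ) hp hf h1 j).1
    set C := pJ μ f p j with hCd
    set b := ∫ x, f x * (u x * p j x) ∂μ with hbd
    have j0 : Integrable (fun x => f x * p j x) μ := hp.int_right (q := p) mf bK hp.meas hp.q1 j
    have j1 : Integrable (fun x => f x * u x * p j x) μ :=
      hp.int_right (q := p) m1 b1 hp.meas hp.q1 j
    have j2 : Integrable (fun x => f x * u x ^ 2 * p j x) μ :=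
      hp.int_right (q := p) m2 b2 hp.meas hp.q1 j
    have e1 : ∫ x, f x * u x * p j x ∂μ = b := by
      rw [hbd]; exact integral_congr_ae (Eventually.of_forall fun x => by ring)
    have h0 : 0 ≤ ∫ x, f x * ((u x - b / C) ^ 2 * p j x) ∂μ :=
      integral_nonneg fun x => mul_nonneg (hf.pos x).le
        (mul_nonneg (sq_nonneg _) ((hp.cb j).pos x).le)
    have e2 : ∫ x, f x * ((u x - b / C) ^ 2 * p j x) ∂μ =
        (∫ x, f x * u x ^ 2 * p j x ∂μ) - 2 * (b / C) * b + (b / C) ^ 2 * C := by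
      have : ∀ x, f x * ((u x - b / C) ^ 2 * p j x) = f x * u x ^ 2 * p j x -
          2 * (b / C) * (f x * u x * p j x) + (b / C) ^ 2 * (f x * p j x) := fun x => by ring
      simp only [this]
      have k1 : Integrable (fun x => f x * u x ^ 2 * p j x - 2 * (b / C) * (f x * u x * p j x)) μ :=
        j2.sub (j1.const_mul _)
      rw [integral_add k1 (j0.const_mul _), integral_sub j2 (j1.const_mul _), integral_const_mul,
        integral_const_mul, e1]
      rfl
    rw [e2] at h0
    have e3 : (b / C) ^ 2 * C = b ^ 2 / C := by field_simp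
    have e4 : 2 * (b / C) * b = 2 * (b ^ 2 / C) := by ring
    rw [e3, e4] at h0
    linarith
  have hnn : ∀ j, 0 ≤ (∫ x, f x * (u x * p j x) ∂μ) ^ 2 / pJ μ f p j := fun j =>
    div_nonneg (sq_nonneg _) (pJ_bd (μ := μ) hp hf h1 j).1.le
  have hint : Integrable (fun j => (∫ x, f x * (u x * p j x) ∂μ) ^ 2 / pJ μ f p j) l := by
    refine i2.mono' (((meas_cm hp hf mu).pow_const 2).div (pJ_meas hp hf)).aestronglyMeasurable
      (Eventually.of_forall fun j => ?_)
    rw [Real.norm_eq_abs, abs_of_nonneg (hnn j)]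
    exact key j
  refine ⟨hint, (integral_mono hint i2 key).trans_eq ?_⟩
  rw [s2]
  simp only [hp.one, mul_one]

/-- mass of the label density -/
theorem pJ_mass (hp : Chan l p G h) (hf : CBp f) (h1 : ∫ x, f x ∂μ = 1) :
    Integrable (pJ μ f p) l ∧ ∫ j, pJ μ f p j ∂l = 1 := by
  obtain ⟨K, hK0, hK⟩ := hf.bdd
  obtain ⟨i, s⟩ := hp.swap (μ := μ) (q := p) hf.cont.measurable (fun x => (hK x).1) hp.meas hp.q1
  refine ⟨i, ?_⟩
  have : ∫ j, pJ μ f p j ∂l = ∫ j, ∫ x, f x * p j x ∂μ ∂l := rfl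
  rw [this, s]
  simp only [hp.one, mul_one, h1]

/-- the label divergence is nonnegative -/
theorem dis_nonneg (hp : Chan l p G h) (hf : CBp f) (h1 : ∫ x, f x ∂μ = 1) [IsProbabilityMeasure l] :
    0 ≤ ∫ j, pJ μ f p j * Real.log (pJ μ f p j) ∂l := by
  obtain ⟨i, e⟩ := pJ_mass (μ := μ) hp hf h1
  have h2 : ∫ j, (pJ μ f p j - 1) ∂l ≤ ∫ j, pJ μ f p j * Real.log (pJ μ f p j) ∂l := by
    refine integral_mono (i.sub (integrable_const _)) (pJlog_int hp hf h1) fun j => ?_
    have h3 := (pJ_bd (μ := μ) hp hf h1 j).1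
    have h4 := Real.one_sub_inv_le_log_of_pos h3
    have h5 : pJ μ f p j * (1 - (pJ μ f p j)⁻¹) ≤ pJ μ f p j * Real.log (pJ μ f p j) :=
      mul_le_mul_of_nonneg_left h4 h3.le
    have h6 : pJ μ f p j * (1 - (pJ μ f p j)⁻¹) = pJ μ f p j - 1 := by field_simp
    linarith
  rw [integral_sub i (integrable_const _), e] at h2
  simpa using h2

end Jens

/-! ### the unit Gaussian channel -/

section Unit

variable {v : E n → Fin n → ℝ}

/-- the constant field `1` -/
theorem MF_one : MF (fun _ : E n => (1 : Mt n)) where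
  cb i j := Tw807.cb_const _
  symm x := Matrix.transpose_one
  ge := ⟨1, one_pos, fun x u => by simp⟩

/-- the label as a point of `E n` -/
noncomputable def ze (v : E n → Fin n → ℝ) (x : E n) : E n := WithLp.toLp 2 (v x)

theorem meas_ze (hv : ∀ i, CB fun x => v x i) : Measurable (ze v) := by
  have h1 : Measurable fun x => v x := measurable_pi_lambda _ fun i => (hv i).1.continuous.measurable
  exact (WithLp.measurable_toLp 2 _).comp h1

theorem inner_ze (x y : E n) : (⟪ze v x, y⟫ : ℝ) = v x ⬝ᵥ y.ofLp := by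
  rw [real_inner_comm]
  simp [ze, PiLp.inner_apply, dotProduct]

theorem gp_one (x y : E n) : gp v (fun _ => 1) y x = GC844.L 1 (ze v x) y := by
  unfold gp gd gl GC844.L
  congr 1
  have h1 : ‖ze v x‖ ^ 2 = v x ⬝ᵥ v x := norm_sq_dot _
  rw [inner_ze, h1, inv_one, one_mulVec, det_one, Real.log_one]
  have h2 : (y.ofLp - v x) ⬝ᵥ (y.ofLp - v x) =
      y.ofLp ⬝ᵥ y.ofLp - 2 * (v x ⬝ᵥ y.ofLp) + v x ⬝ᵥ v x := by
    simp only [sub_dotProduct, dotProduct_sub]
    rw [dotProduct_comm y.ofLp (v x)]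
    ring
  rw [h2]
  ring

end Unit

/-- a differentiable function with continuous partial derivatives is `C¹` -/
theorem c1_of_pd {g : E n → ℝ} (hd : Differentiable ℝ g) (hc : ∀ k, Continuous (pd k g)) :
    ContDiff ℝ 1 g := by
  rw [contDiff_one_iff_fderiv]
  refine ⟨hd, ?_⟩
  have e : fderiv ℝ g = fun z => ∑ k, pd k g z • (EuclideanSpace.proj k : E n →L[ℝ] ℝ) := by
    funext z
    ext v
    rw [An.fderiv_eq_sum g z v]
    simp [mul_comm]
  rw [e]
  exact continuous_finset_sum _ fun k _ => (hc k).smul continuous_const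

section Law

variable {μ : Measure (E n)} [IsProbabilityMeasure μ] {f : E n → ℝ} {v : E n → Fin n → ℝ}

/-- `ν = f μ` -/
noncomputable def nu (μ : Measure (E n)) (f : E n → ℝ) : Measure (E n) :=
  μ.withDensity fun x => ENNReal.ofReal (f x)

theorem int_nu (hf : CBp f) (F : E n → ℝ) : ∫ x, F x ∂(nu μ f) = ∫ x, f x * F x ∂μ := by
  unfold nu
  rw [integral_withDensity_eq_integral_toReal_smul hf.cont.measurable.ennreal_ofReal
    (Eventually.of_forall fun x => ENNReal.ofReal_lt_top)]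
  refine integral_congr_ae (Eventually.of_forall fun x => ?_)
  simp only [smul_eq_mul]
  rw [ENNReal.toReal_ofReal (hf.pos x).le]

theorem prob_nu (hf : CBp f) (h1 : ∫ x, f x ∂μ = 1) : IsProbabilityMeasure (nu μ f) := by
  constructor
  unfold nu
  obtain ⟨K, hK0, hK⟩ := hf.bdd
  have fi : Integrable f μ := (integrable_const K).mono' hf.cont.aestronglyMeasurable
    (Eventually.of_forall fun x => (hK x).1)
  rw [withDensity_apply _ MeasurableSet.univ, Measure.restrict_univ,
    ← ofReal_integral_eq_lintegral_ofReal fi (Eventually.of_forall fun x => (hf.pos x).le), h1,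
    ENNReal.ofReal_one]

theorem cm_eq (hf : CBp f) (u : E n → ℝ) (y : E n) :
    ∫ x, f x * (u x * gp v (fun _ => 1) y x) ∂μ = GC844.Z (nu μ f) (ze v) 1 u y := by
  unfold GC844.Z
  rw [int_nu hf]
  simp only [gp_one]

theorem pJ_eq (hf : CBp f) : pJ μ f (gp v fun _ => 1) = GC844.wt (nu μ f) (ze v) 1 := by
  funext y
  have h := cm_eq (μ := μ) (v := v) hf (fun _ => 1) y
  simp only [one_mul] at h
  exact h

/-- **law part**: `D(p_J | γ) ≤ (1/2) E |E[v|J]|²` -/
theorem dis_le (hf : CBp f) (h1 : ∫ x, f x ∂μ = 1) (hv : ∀ i, CB fun x => v x i) :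
    Dis μ f v (fun _ => 1) ≤ 1 / 2 * ∫ y, ∑ i, (∫ x, f x * (v x i * gp v (fun _ => 1) y x) ∂μ) ^ 2 /
      pJ μ f (gp v fun _ => 1) y ∂(gam n) := by
  obtain ⟨G, h, hp⟩ := gchan (MF_one (n := n)) hv
  have hz := meas_ze hv
  haveI := prob_nu hf h1
  obtain ⟨i0, m0⟩ := pJ_mass (μ := μ) hp hf h1
  have hb : ∀ i, ∃ B : ℝ, ∀ x, |v x i| ≤ B := fun i => by
    obtain ⟨-, B, hB⟩ := hv i
    exact ⟨B, fun x => (hB x).1⟩
  have mv : ∀ i, Measurable fun x => v x i := fun i => (hv i).1.continuous.measurable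
  choose B hB using hb
  have j := fun i => jens (μ := μ) hp hf h1 (mv i) (hB i)
  have iv : ∀ i, Integrable (fun x => v x i) (nu μ f) := fun i =>
    Integrable.of_bound (mv i).aestronglyMeasurable (B i) (Eventually.of_forall fun x => by
      simpa using hB i x)
  have inorm : Integrable (fun x => ‖ze v x‖ * (1 : ℝ)) (nu μ f) := by
    simp only [mul_one]
    refine Integrable.of_bound hz.norm.aestronglyMeasurable (∑ i, B i)
      (Eventually.of_forall fun x => ?_)
    rw [norm_norm]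
    refine (EuclideanSpace.norm_eq _).trans_le ?_
    have h0 : ∀ i, 0 ≤ B i := fun i => (abs_nonneg _).trans (hB i 0)
    refine Real.sqrt_le_iff.2 ⟨Finset.sum_nonneg fun i _ => h0 i, ?_⟩
    rw [sq (∑ i, B i), Finset.sum_mul]
    refine Finset.sum_le_sum fun i _ => ?_
    rw [Real.norm_eq_abs, sq]
    exact mul_le_mul (hB i x) ((hB i x).trans (Finset.single_le_sum (fun k _ => h0 k)
      (Finset.mem_univ i))) (abs_nonneg _) (h0 i)
  set w := GC844.wt (nu μ f) (ze v) 1 with hw
  have hw' : pJ μ f (gp v fun _ => 1) = w := pJ_eq hf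
  have wpos : ∀ y, 0 < w y := fun y => by
    rw [← hw']; exact (pJ_bd (μ := μ) hp hf h1 y).1
  have hpd : ∀ k y, pd k w y = GC844.Z (nu μ f) (ze v) 1 (fun x => v x k) y := fun k y => by
    have := GC844.pd_Z (σ := 1) (ρ := nu μ f) hz (integrable_const (1 : ℝ)) inorm k y
    rw [hw]
    refine this.trans ?_
    simp only [mul_one, one_mul]
    rfl
  have hdiff : Differentiable ℝ w :=
    GC844.differentiable_Z hz (integrable_const (1 : ℝ)) inorm
  have hC1 : ContDiff ℝ 1 w := by
    refine c1_of_pd hdiff fun k => ?_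
    have : pd k w = GC844.Z (nu μ f) (ze v) 1 (fun x => v x k) := funext fun y => hpd k y
    rw [this]
    exact GC844.continuous_Z hz (iv k)
  have e2 : ∀ y, ‖fderiv ℝ w y‖ ^ 2 / w y =
      ∑ i, (∫ x, f x * (v x i * gp v (fun _ => 1) y x) ∂μ) ^ 2 / pJ μ f (gp v fun _ => 1) y := by
    intro y
    rw [An.norm_fderiv_sq, Finset.sum_div]
    refine Finset.sum_congr rfl fun i _ => ?_
    rw [hpd, cm_eq hf, hw']
  have isum : Integrable (fun y => ∑ i, (∫ x, f x * (v x i * gp v (fun _ => 1) y x) ∂μ) ^ 2 /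
      pJ μ f (gp v fun _ => 1) y) (gam n) := integrable_finset_sum _ fun i _ => (j i).1
  have g1 : Integrable w (stdGaussian (E n)) := by rw [← gam_eq, ← hw']; exact i0
  have g2 : Integrable (fun y => ‖fderiv ℝ w y‖ ^ 2 / w y) (stdGaussian (E n)) := by
    rw [← gam_eq]; simp only [e2]; exact isum
  obtain ⟨-, key⟩ := NSL674.gauss_lsi hC1 wpos g1 g2
  rw [← gam_eq] at key
  simp only [e2] at key
  have mm : ∫ y, w y ∂(gam n) = 1 := by rw [← hw']; exact m0
  rw [mm, Real.log_one, mul_zero, sub_zero] at key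
  have hD : Dis μ f v (fun _ => 1) = ∫ y, w y * Real.log (w y) ∂(gam n) := by
    unfold Dis
    rw [hw']
  rw [hD]
  exact key

end Law

/-! ### the block -/

section Final

variable {μ : Measure (E n)} [IsProbabilityMeasure μ] {f : E n → ℝ}

theorem nsq_nu (hf : CBp f) (g : Fin n → E n → ℝ) :
    nsq (nu μ f) g = ∑ i, ∫ x, f x * g i x ^ 2 ∂μ := by
  unfold nsq
  exact Finset.sum_congr rfl fun i _ => int_nu hf _

theorem fi_eq (hf : CBp f) (w : Fin n → E n → ℝ) (hw : ∀ i x, w i x = pd i f x / f x) :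
    Fi μ f = nsq (nu μ f) w := by
  rw [nsq_nu hf]
  obtain ⟨B, hB0, hB⟩ := hf.bdd
  obtain ⟨-, c, hc, hcf⟩ := id hf
  have i1 : ∀ i, Integrable (fun x => f x * w i x ^ 2) μ := fun i => by
    refine Integrable.of_bound (hf.cont.measurable.mul (?_ : Measurable (fun x => w i x ^ 2))).aestronglyMeasurable
      (B ^ 2 / c) (Eventually.of_forall fun x => ?_)
    · have : w i = fun x => pd i f x / f x := funext (hw i)
      rw [this]
      exact ((pd_meas hf.1 i).div hf.cont.measurable).pow_const 2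
    · have h1 : f x * w i x ^ 2 = pd i f x ^ 2 / f x := by
        have := (hf.pos x).ne'
        rw [hw]; field_simp
      rw [h1, Real.norm_eq_abs, abs_div, abs_of_pos (hf.pos x), abs_of_nonneg (sq_nonneg _),
        ← sq_abs]
      exact div_le_div₀ (sq_nonneg _) (pow_le_pow_left₀ (abs_nonneg _) ((hB x).2 i) 2) hc (hcf x)
  rw [← integral_finset_sum _ fun i _ => i1 i]
  unfold Fi
  refine integral_congr_ae (Eventually.of_forall fun x => ?_)
  simp only
  rw [Finset.sum_div]
  refine Finset.sum_congr rfl fun i _ => ?_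
  have := (hf.pos x).ne'
  rw [hw]; field_simp

theorem pdM_const (k : Fin n) (x : E n) : pdM k (fun _ : E n => (1 : Mt n)) x = 0 := by
  ext i j
  unfold pdM
  simp [pd]

end Final

theorem ch_238 : L74.CH := by
  intro n ε S hε φ hφ hs
  haveI := S.prob_μ
  have hε0 : 0 < ε := S.h_pos.trans_le S.h_le
  set μ := S.μ with hμ
  set f := S.f with hfd
  have hf : CBp f := S.f_cbp
  have h1 : ∫ x, f x ∂μ = 1 := S.f_one
  let v : E n → Fin n → ℝ := fun x i => φ i x
  have hv : ∀ i, CB fun x => v x i := fun i => Tw807.cb_cc (hφ i) (hs i)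
  have hν : S.ν = nu μ f := S.ν_eq
  obtain ⟨G, h, hp⟩ := gchan (MF_one (n := n)) hv
  set p := gp v (fun _ => (1 : Mt n)) with hpd
  have mf := hf.cont.measurable
  obtain ⟨K, hK0, hK⟩ := hf.bdd
  -- the functions `w`
  have mw : ∀ i, Measurable (S.w i) := fun i => (S.w_cb i).1.continuous.measurable
  have mφ : ∀ i, Measurable (φ i) := fun i => (hφ i).continuous.measurable
  have bw : ∀ i, ∃ B : ℝ, ∀ x, |S.w i x| ≤ B := fun i => by
    obtain ⟨-, B, hB⟩ := S.w_cb i
    exact ⟨B, fun x => (hB x).1⟩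
  have bφ : ∀ i, ∃ B : ℝ, ∀ x, |φ i x| ≤ B := fun i => by
    obtain ⟨-, B, hB⟩ := hv i
    exact ⟨B, fun x => (hB x).1⟩
  choose Bw hBw using bw
  choose Bφ hBφ using bφ
  have jw := fun i => jens (μ := μ) hp hf h1 (mw i) (hBw i)
  have jφ := fun i => jens (μ := μ) hp hf h1 (mφ i) (hBφ i)
  have bd : ∀ i x, |φ i x - S.w i x| ≤ Bφ i + Bw i := fun i x =>
    (abs_sub _ _).trans (add_le_add (hBφ i x) (hBw i x))
  have jd := fun i => jens (μ := μ) hp hf h1 (u := fun x => φ i x - S.w i x) ((mφ i).sub (mw i)) (bd i)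
  -- the labelled LSI
  have hL := lab (μ := μ) S.lsi hf h1 hp
  have hFi : Fi μ f = nsq S.ν S.w := by rw [hν]; exact fi_eq hf S.w S.w_eq
  have hS1 := S.S1
  -- Fisher information of the channel
  have hLF : LF μ f (gam n) p = dsq S.ν φ := by
    rw [hpd, LF_gp MF_one hv hf, hν]
    unfold dsq
    simp only [int_nu hf]
    have ik : ∀ i k, Integrable (fun x => f x * pd k (φ i) x ^ 2) μ := fun i k => by
      obtain ⟨-, B, hB⟩ := hv i
      have hB0 : 0 ≤ B := (abs_nonneg _).trans ((hB 0).2 k)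
      refine Integrable.of_bound (mf.mul ((pd_meas (hv i) k).pow_const 2)).aestronglyMeasurable
        (K * B ^ 2) (Eventually.of_forall fun x => ?_)
      rw [Real.norm_eq_abs, abs_mul, abs_pow]
      exact mul_le_mul (hK x).1 (pow_le_pow_left₀ (abs_nonneg _) ((hB x).2 k) 2) (by positivity) hK0
    have e : ∀ i, ∑ k, ∫ x, f x * pd k (φ i) x ^ 2 ∂μ = ∫ x, ∑ k, f x * pd k (φ i) x ^ 2 ∂μ :=
      fun i => (integral_finset_sum _ fun k _ => ik i k).symm
    simp only [e]
    rw [← integral_finset_sum _ fun i _ => integrable_finset_sum _ fun k _ => ik i k]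
    refine integral_congr_ae (Eventually.of_forall fun x => ?_)
    simp only [pdM_const, mul_zero, zero_mul, trace_zero, add_zero, inv_one, one_mulVec]
    rw [Finset.sum_comm, Finset.mul_sum]
    refine Finset.sum_congr rfl fun k _ => ?_
    rw [← Finset.mul_sum]
    congr 1
    exact Finset.sum_congr rfl fun i _ => by simp only [pdv, sq]; rfl
  -- mutual information
  have hMI : MI μ f (gam n) p = 1 / 2 * nsq S.ν φ - Dis μ f v (fun _ => 1) := by
    rw [hpd, MI_gp MF_one hv hf h1, hν, nsq_nu hf]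
    congr 2
    have ik : ∀ i, Integrable (fun x => f x * φ i x ^ 2) μ := fun i => by
      have hB0 : 0 ≤ Bφ i := (abs_nonneg _).trans (hBφ i 0)
      refine Integrable.of_bound (mf.mul ((mφ i).pow_const 2)).aestronglyMeasurable
        (K * Bφ i ^ 2) (Eventually.of_forall fun x => ?_)
      rw [Real.norm_eq_abs, abs_mul, abs_pow]
      exact mul_le_mul (hK x).1 (pow_le_pow_left₀ (abs_nonneg _) (hBφ i x) 2) (by positivity) hK0
    rw [← integral_finset_sum _ fun i _ => ik i]
    refine integral_congr_ae (Eventually.of_forall fun x => ?_)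
    simp only [trace_one, Fintype.card_fin, det_one, Real.log_one, sub_zero, add_sub_cancel_right]
    rw [← Finset.mul_sum]
    congr 1
    exact Finset.sum_congr rfl fun i _ => by rw [sq]
  -- the divergence of the label
  have hD0 : 0 ≤ Dis μ f v (fun _ => 1) := dis_nonneg hp hf h1
  have hD1 := dis_le (μ := μ) hf h1 hv
  have hS3 := S.S3 p G h hp
  have idd : ∀ i, Integrable (fun j => (∫ x, f x * ((φ i x - S.w i x) * p j x) ∂μ) ^ 2 /
      pJ μ f p j) (gam n) := fun i => (jd i).1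
  have hA : ∫ y, ∑ i, (∫ x, f x * (v x i * p y x) ∂μ) ^ 2 / pJ μ f p y ∂(gam n) ≤
      2 * (∫ j, (∑ i, (∫ x, f x * (S.w i x * p j x) ∂μ) ^ 2) / pJ μ f p j ∂(gam n)) +
      2 * ∑ i, ∫ j, (∫ x, f x * ((φ i x - S.w i x) * p j x) ∂μ) ^ 2 / pJ μ f p j ∂(gam n) := by
    rw [← integral_finset_sum _ fun i _ => idd i, ← integral_const_mul, ← integral_const_mul]
    have iw : Integrable (fun j => (∑ i, (∫ x, f x * (S.w i x * p j x) ∂μ) ^ 2) / pJ μ f p j)
        (gam n) := by
      simp only [Finset.sum_div]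
      exact integrable_finset_sum _ fun i _ => (jw i).1
    rw [← integral_add (iw.const_mul _) ((integrable_finset_sum _ fun i _ => idd i).const_mul _)]
    refine integral_mono (integrable_finset_sum _ fun i _ => (jφ i).1)
      ((iw.const_mul _).add ((integrable_finset_sum _ fun i _ => idd i).const_mul _)) fun j => ?_
    simp only
    rw [Finset.sum_div, Finset.mul_sum, Finset.mul_sum, ← Finset.sum_add_distrib]
    refine Finset.sum_le_sum fun i _ => ?_
    have hC := (pJ_bd (μ := μ) hp hf h1 j).1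
    have j1 : Integrable (fun x => f x * S.w i x * p j x) μ :=
      hp.int_right (q := p) (u := fun x => f x * S.w i x) (mf.mul (mw i)) (B := K * Bw i)
        (fun x => by
          rw [abs_mul]; exact mul_le_mul (hK x).1 (hBw i x) (abs_nonneg _) hK0) hp.meas hp.q1 j
    have j2 : Integrable (fun x => f x * (φ i x - S.w i x) * p j x) μ :=
      hp.int_right (q := p) (u := fun x => f x * (φ i x - S.w i x)) (mf.mul ((mφ i).sub (mw i)))
        (B := K * (Bφ i + Bw i)) (fun x => by
          rw [abs_mul]; exact mul_le_mul (hK x).1 (bd i x) (abs_nonneg _) hK0) hp.meas hp.q1 j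
    have e : ∫ x, f x * (v x i * p j x) ∂μ = (∫ x, f x * (S.w i x * p j x) ∂μ) +
        ∫ x, f x * ((φ i x - S.w i x) * p j x) ∂μ := by
      have e1 : ∀ x, f x * (S.w i x * p j x) = f x * S.w i x * p j x := fun x => by ring
      have e2 : ∀ x, f x * ((φ i x - S.w i x) * p j x) = f x * (φ i x - S.w i x) * p j x :=
        fun x => by ring
      simp only [e1, e2]
      rw [← integral_add j1 j2]
      refine integral_congr_ae (Eventually.of_forall fun x => ?_)
      simp only [v]
      ring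
    rw [e]
    set a := ∫ x, f x * (S.w i x * p j x) ∂μ
    set b := ∫ x, f x * ((φ i x - S.w i x) * p j x) ∂μ
    have h2 : (a + b) ^ 2 ≤ 2 * a ^ 2 + 2 * b ^ 2 := by nlinarith [sq_nonneg (a - b)]
    have h3 := div_le_div_of_nonneg_right h2 hC.le
    have h4 : (2 * a ^ 2 + 2 * b ^ 2) / pJ μ f p j = 2 * (a ^ 2 / pJ μ f p j) +
      2 * (b ^ 2 / pJ μ f p j) := by ring
    linarith
  have hd : ∑ i, ∫ j, (∫ x, f x * ((φ i x - S.w i x) * p j x) ∂μ) ^ 2 / pJ μ f p j ∂(gam n) ≤
      ∑ i, ∫ x, (S.w i x - φ i x) ^ 2 ∂S.ν := by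
    refine Finset.sum_le_sum fun i _ => (jd i).2.trans_eq ?_
    rw [hν, int_nu hf]
    refine integral_congr_ae (Eventually.of_forall fun x => ?_)
    simp only
    ring
  have hMI' : MI μ f (gam n) p ≤ 1 / 2 * nsq S.ν φ := by linarith
  have hεM : ε * MI μ f (gam n) p ≤ ε * (1 / 2 * nsq S.ν φ) :=
    mul_le_mul_of_nonneg_left hMI' hε0.le
  have hI : S.I = nsq S.ν S.w := rfl
  rw [hI]
  rw [hLF, hFi] at hL
  change ∫ j, (∑ i, (∫ x, f x * (S.w i x * p j x) ∂μ) ^ 2) / pJ μ f p j ∂(gam n) ≤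
    ε * (nsq S.ν S.w + MI μ f (gam n) p) at hS3
  change (1 + ε) / 2 * nsq S.ν S.w - Ent μ f ≤ ε * nsq S.ν S.w at hS1
  change nsq S.ν φ ≤ (1 + ε) * dsq S.ν φ + 2 * (ε * nsq S.ν S.w) +
    2 * ∑ i, ∫ x, (S.w i x - φ i x) ^ 2 ∂S.ν + 2 * ε * (nsq S.ν S.w + 1 / 2 * nsq S.ν φ)
  nlinarith

end Crest.Agent.R201.CH238
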