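import Mathlib

/-!
# R201, LSI half (helper150): the channel, one-variable calculus.
`q l s = a l s² / (1 + l s²)`, weight `dl / l²`.
-/

set_option autoImplicit false
open MeasureTheory Set

namespace Crest.Agent.R201.Ch150

/-- cost of a pair of eigenvalues, `|s'| ≤ |s|` -/
theorem pair_aux {s s' l0 l1 : ℝ} (h0 : 0 ≤ l0) (h1 : l0 ≤ l1) (hs : s' ^ 2 ≤ s ^ 2) :
    ∫ l in l0..l1, (s + s') ^ 2 / ((1 + l * s ^ 2) ^ 2 * (1 + l * s' ^ 2) ^ 2) ≤ 3 / 2 := by
  rcases eq_or_ne s 0 with rfl | hs0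
  · have : s' = 0 := by nlinarith [sq_nonneg s']
    subst this
    simp
    norm_num
  have hs2 : 0 < s ^ 2 := by positivity
  set c : ℝ := s' ^ 2 / s ^ 2 with hc
  have hc0 : 0 ≤ c := by positivity
  have hc1 : c ≤ 1 := by rw [hc, div_le_one hs2]; exact hs
  have hcs : c * s ^ 2 = s' ^ 2 := by rw [hc]; field_simp
  set G : ℝ → ℝ := fun l => -((1 + l * s ^ 2) ^ (-(1 + 2 * c)) / ((1 + 2 * c) * s ^ 2)) with hG
  have hpos : ∀ l ∈ uIcc l0 l1, 0 < 1 + l * s ^ 2 := by
    intro l hl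
    rw [uIcc_of_le h1] at hl
    have : 0 ≤ l := h0.trans hl.1
    positivity
  have hder : ∀ l ∈ uIcc l0 l1, HasDerivAt G ((1 + l * s ^ 2) ^ (-(2 + 2 * c))) l := by
    intro l hl
    have hp := hpos l hl
    have d1 : HasDerivAt (fun l : ℝ => 1 + l * s ^ 2) (s ^ 2) l := by
      simpa using ((hasDerivAt_id l).mul_const (s ^ 2)).const_add 1
    have d2 := d1.rpow_const (p := -(1 + 2 * c)) (Or.inl hp.ne')
    have d3 := (d2.div_const ((1 + 2 * c) * s ^ 2)).neg
    refine d3.congr_deriv ?_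
    have e : -(1 + 2 * c) - 1 = -(2 + 2 * c) := by ring
    rw [e]
    have h12 : (1 + 2 * c) ≠ 0 := by positivity
    field_simp
  have hcont : ContinuousOn (fun l : ℝ => (1 + l * s ^ 2) ^ (-(2 + 2 * c))) (uIcc l0 l1) := by
    intro l hl
    have hp := hpos l hl
    exact ContinuousAt.continuousWithinAt
      ((by fun_prop : ContinuousAt (fun l : ℝ => 1 + l * s ^ 2) l).rpow_const (Or.inl hp.ne'))
  have hint := hcont.intervalIntegrable (μ := volume)
  have hFTC := intervalIntegral.integral_eq_sub_of_hasDerivAt hder hint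
  have hle : ∫ l in l0..l1, (s + s') ^ 2 / ((1 + l * s ^ 2) ^ 2 * (1 + l * s' ^ 2) ^ 2) ≤
      ∫ l in l0..l1, (s + s') ^ 2 * (1 + l * s ^ 2) ^ (-(2 + 2 * c)) := by
    refine intervalIntegral.integral_mono_on h1 ?_ (hint.const_mul _) fun l hl => ?_
    · refine ContinuousOn.intervalIntegrable fun l hl => ?_
      have hp := hpos l hl
      rw [uIcc_of_le h1] at hl
      have hl0 : 0 ≤ l := h0.trans hl.1
      have hp' : 0 < 1 + l * s' ^ 2 := by positivity
      refine ContinuousAt.continuousWithinAt (ContinuousAt.div (by fun_prop) (by fun_prop) ?_)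
      positivity
    · have hl0 : 0 ≤ l := h0.trans hl.1
      have hp : 0 < 1 + l * s ^ 2 := by positivity
      have hB : (1 + l * s ^ 2) ^ c ≤ 1 + l * s' ^ 2 := by
        have := rpow_one_add_le_one_add_mul_self (s := l * s ^ 2) (p := c) (by nlinarith)
          hc0 hc1
        refine this.trans (le_of_eq ?_)
        rw [← hcs]
        ring
      have hB2 : (1 + l * s ^ 2) ^ (2 + 2 * c) ≤ (1 + l * s ^ 2) ^ 2 * (1 + l * s' ^ 2) ^ 2 := by
        have e : (1 + l * s ^ 2) ^ (2 + 2 * c) = (1 + l * s ^ 2) ^ 2 * ((1 + l * s ^ 2) ^ c) ^ 2 := by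
          rw [← Real.rpow_natCast (((1 + l * s ^ 2)) ^ c) 2, ← Real.rpow_mul hp.le,
            ← Real.rpow_natCast (1 + l * s ^ 2) 2, ← Real.rpow_add hp]
          congr 1
          push_cast
          ring
        rw [e]
        exact mul_le_mul_of_nonneg_left (pow_le_pow_left₀ (Real.rpow_nonneg hp.le _) hB 2)
          (by positivity)
      rw [Real.rpow_neg hp.le, div_eq_mul_inv]
      refine mul_le_mul_of_nonneg_left ?_ (sq_nonneg _)
      exact inv_anti₀ (Real.rpow_pos_of_pos hp _) hB2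
  refine hle.trans ?_
  rw [intervalIntegral.integral_const_mul, hFTC]
  have hG1 : G l1 ≤ 0 := by
    have : 0 < 1 + l1 * s ^ 2 := hpos l1 right_mem_uIcc
    simp only [hG]
    have h2 : 0 ≤ (1 + l1 * s ^ 2) ^ (-(1 + 2 * c)) / ((1 + 2 * c) * s ^ 2) := by positivity
    linarith
  have hG0 : -(1 / ((1 + 2 * c) * s ^ 2)) ≤ G l0 := by
    simp only [hG]
    refine neg_le_neg (div_le_div_of_nonneg_right ?_ (by positivity))
    refine Real.rpow_le_one_of_one_le_of_nonpos ?_ (by linarith)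
    nlinarith
  have h3 : (s + s') ^ 2 * (G l1 - G l0) ≤ (s + s') ^ 2 * (1 / ((1 + 2 * c) * s ^ 2)) :=
    mul_le_mul_of_nonneg_left (by linarith) (sq_nonneg _)
  refine h3.trans ?_
  have h4 : (1 + 2 * c) * s ^ 2 = s ^ 2 + 2 * s' ^ 2 := by rw [← hcs]; ring
  rw [h4, mul_one_div, div_le_iff₀ (by positivity)]
  nlinarith [sq_nonneg (s - 2 * s')]

/-- cost of a pair of eigenvalues -/
theorem pair (s s' : ℝ) {l0 l1 : ℝ} (h0 : 0 ≤ l0) (h1 : l0 ≤ l1) :
    ∫ l in l0..l1, (s + s') ^ 2 / ((1 + l * s ^ 2) ^ 2 * (1 + l * s' ^ 2) ^ 2) ≤ 3 / 2 := by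
  rcases le_total (s' ^ 2) (s ^ 2) with h | h
  · exact pair_aux h0 h1 h
  · have := pair_aux h0 h1 h
    refine le_trans (le_of_eq ?_) this
    refine intervalIntegral.integral_congr fun l _ => ?_
    change (s + s') ^ 2 / ((1 + l * s ^ 2) ^ 2 * (1 + l * s' ^ 2) ^ 2) =
      (s' + s) ^ 2 / ((1 + l * s' ^ 2) ^ 2 * (1 + l * s ^ 2) ^ 2)
    rw [add_comm s s', mul_comm ((1 + l * s ^ 2) ^ 2)]

/-- `q = a l s² / (1 + l s²)` -/
noncomputable def q (a l s : ℝ) : ℝ := a * l * s ^ 2 / (1 + l * s ^ 2)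

theorem q_sq_integral {a s l0 l1 : ℝ} (h0 : 0 < l0) (h1 : l0 ≤ l1) :
    ∫ l in l0..l1, (l ^ 2)⁻¹ * q a l s ^ 2 =
      a ^ 2 * s ^ 2 * (l1 * s ^ 2 / (1 + l1 * s ^ 2) - l0 * s ^ 2 / (1 + l0 * s ^ 2)) := by
  have hpos : ∀ l ∈ uIcc l0 l1, 0 < l := by
    intro l hl
    rw [uIcc_of_le h1] at hl
    exact h0.trans_le hl.1
  have e : ∫ l in l0..l1, (l ^ 2)⁻¹ * q a l s ^ 2 =
      ∫ l in l0..l1, a ^ 2 * s ^ 2 * (s ^ 2 / (1 + l * s ^ 2) ^ 2) := by
    refine intervalIntegral.integral_congr fun l hl => ?_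
    have hl := hpos l hl
    have : 0 < 1 + l * s ^ 2 := by positivity
    simp only [q]
    field_simp
  rw [e, intervalIntegral.integral_const_mul]
  congr 1
  refine intervalIntegral.integral_eq_sub_of_hasDerivAt
    (f := fun l => l * s ^ 2 / (1 + l * s ^ 2)) (fun l hl => ?_) ?_
  · have hl := hpos l hl
    have hp : 0 < 1 + l * s ^ 2 := by positivity
    have d0 : HasDerivAt (fun l : ℝ => l * s ^ 2) (s ^ 2) l := by
      simpa using (hasDerivAt_id l).mul_const (s ^ 2)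
    have d1 : HasDerivAt (fun l : ℝ => 1 + l * s ^ 2) (s ^ 2) l := d0.const_add 1
    refine (d0.div d1 hp.ne').congr_deriv ?_
    field_simp
    ring
  · refine ContinuousOn.intervalIntegrable fun l hl => ?_
    have hl := hpos l hl
    have hp : 0 < 1 + l * s ^ 2 := by positivity
    exact ContinuousAt.continuousWithinAt (ContinuousAt.div (by fun_prop) (by fun_prop)
      (by positivity))

theorem q_sq_le {a s l0 l1 : ℝ} (h0 : 0 < l0) (h1 : l0 ≤ l1) :
    ∫ l in l0..l1, (l ^ 2)⁻¹ * q a l s ^ 2 ≤ a ^ 2 * s ^ 2 := by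
  rw [q_sq_integral h0 h1]
  have h2 : l1 * s ^ 2 / (1 + l1 * s ^ 2) ≤ 1 := by
    have : 0 < l1 := h0.trans_le h1
    rw [div_le_one (by positivity)]
    linarith
  have h3 : 0 ≤ l0 * s ^ 2 / (1 + l0 * s ^ 2) := by positivity
  have h4 : a ^ 2 * s ^ 2 * (l1 * s ^ 2 / (1 + l1 * s ^ 2) - l0 * s ^ 2 / (1 + l0 * s ^ 2)) ≤
      a ^ 2 * s ^ 2 * 1 := mul_le_mul_of_nonneg_left (by linarith) (by positivity)
  linarith

theorem q_sq_ge {a s l0 l1 : ℝ} (h0 : 0 < l0) (h1 : l0 ≤ l1) :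
    a ^ 2 * s ^ 2 - a ^ 2 * l0 * s ^ 4 - a ^ 2 / l1 ≤
      ∫ l in l0..l1, (l ^ 2)⁻¹ * q a l s ^ 2 := by
  rw [q_sq_integral h0 h1]
  have hl1 : 0 < l1 := h0.trans_le h1
  have h2 : s ^ 2 - 1 / l1 ≤ s ^ 2 * (l1 * s ^ 2 / (1 + l1 * s ^ 2)) := by
    have hp : 0 < 1 + l1 * s ^ 2 := by positivity
    rw [mul_div_assoc', le_div_iff₀ hp]
    have e : (s ^ 2 - 1 / l1) * (1 + l1 * s ^ 2) = s ^ 2 * (l1 * s ^ 2) - 1 / l1 := by
      field_simp
      ring
    rw [e]
    have : 0 < 1 / l1 := by positivity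
    linarith
  have h3 : s ^ 2 * (l0 * s ^ 2 / (1 + l0 * s ^ 2)) ≤ l0 * s ^ 4 := by
    have hp : 0 < 1 + l0 * s ^ 2 := by positivity
    have : l0 * s ^ 2 / (1 + l0 * s ^ 2) ≤ l0 * s ^ 2 := div_le_self (by positivity) (by nlinarith [sq_nonneg s])
    calc s ^ 2 * (l0 * s ^ 2 / (1 + l0 * s ^ 2)) ≤ s ^ 2 * (l0 * s ^ 2) :=
          mul_le_mul_of_nonneg_left this (sq_nonneg _)
      _ = _ := by ring
  have h4 := mul_le_mul_of_nonneg_left h2 (sq_nonneg a)
  have h5 := mul_le_mul_of_nonneg_left h3 (sq_nonneg a)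
  have e : a ^ 2 * s ^ 2 * (l1 * s ^ 2 / (1 + l1 * s ^ 2) - l0 * s ^ 2 / (1 + l0 * s ^ 2)) =
      a ^ 2 * (s ^ 2 * (l1 * s ^ 2 / (1 + l1 * s ^ 2))) -
        a ^ 2 * (s ^ 2 * (l0 * s ^ 2 / (1 + l0 * s ^ 2))) := by ring
  rw [e]
  have e2 : a ^ 2 * (s ^ 2 - 1 / l1) = a ^ 2 * s ^ 2 - a ^ 2 / l1 := by ring
  rw [e2] at h4
  linarith

/-- `log (1 + x²) ≤ 2 x arctan x` -/
theorem log_le_arctan {x : ℝ} (hx : 0 ≤ x) : Real.log (1 + x ^ 2) ≤ 2 * x * Real.arctan x := by
  have key : MonotoneOn (fun x : ℝ => 2 * x * Real.arctan x - Real.log (1 + x ^ 2)) (Ici 0) := by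
    have hd : ∀ x : ℝ, HasDerivAt (fun x : ℝ => 2 * x * Real.arctan x - Real.log (1 + x ^ 2))
        (2 * Real.arctan x) x := by
      intro x
      have hp : 0 < 1 + x ^ 2 := by positivity
      have d1 : HasDerivAt (fun x : ℝ => 2 * x) 2 x := by
        simpa using (hasDerivAt_id x).const_mul 2
      have d2 : HasDerivAt (fun x : ℝ => 1 + x ^ 2) (2 * x) x := by
        simpa using (hasDerivAt_pow 2 x).const_add 1
      refine ((d1.mul (Real.hasDerivAt_arctan x)).sub (d2.log hp.ne')).congr_deriv ?_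
      field_simp
      ring
    refine monotoneOn_of_deriv_nonneg (convex_Ici 0)
      (fun x _ => (hd x).continuousAt.continuousWithinAt)
      (fun x _ => (hd x).differentiableAt.differentiableWithinAt) fun x hx => ?_
    rw [(hd x).deriv]
    rw [interior_Ici] at hx
    have := Real.arctan_pos.mpr hx
    positivity
  have h := key (mem_Ici.mpr le_rfl) (mem_Ici.mpr hx) hx
  simp only [mul_zero, zero_mul, ne_eq, OfNat.ofNat_ne_zero, not_false_eq_true, zero_pow, add_zero,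
    Real.log_one, sub_zero] at h
  linarith

theorem log_integral_le {b l0 l1 : ℝ} (hb : 0 ≤ b) (h0 : 0 < l0) (h1 : l0 ≤ l1) :
    ∫ l in l0..l1, (l ^ 2)⁻¹ * Real.log (1 + (b * l) ^ 2) ≤ Real.pi * b := by
  have hpos : ∀ l ∈ uIcc l0 l1, 0 < l := by
    intro l hl
    rw [uIcc_of_le h1] at hl
    exact h0.trans_le hl.1
  have hFTC : ∫ l in l0..l1, (l ^ 2)⁻¹ * Real.log (1 + (b * l) ^ 2) =
      (2 * b * Real.arctan (b * l1) - Real.log (1 + (b * l1) ^ 2) / l1) -
      (2 * b * Real.arctan (b * l0) - Real.log (1 + (b * l0) ^ 2) / l0) := by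
    refine intervalIntegral.integral_eq_sub_of_hasDerivAt
      (f := fun l => 2 * b * Real.arctan (b * l) - Real.log (1 + (b * l) ^ 2) / l)
      (fun l hl => ?_) ?_
    · have hl := hpos l hl
      have hp : 0 < 1 + (b * l) ^ 2 := by positivity
      have d1 : HasDerivAt (fun l : ℝ => b * l) b l := by
        simpa using (hasDerivAt_id l).const_mul b
      have d2 : HasDerivAt (fun l : ℝ => 1 + (b * l) ^ 2) (2 * (b * l) * b) l := by
        simpa using (d1.pow 2).const_add 1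
      refine (((d1.arctan).const_mul (2 * b)).sub ((d2.log hp.ne').div (hasDerivAt_id l)
        hl.ne')).congr_deriv ?_
      simp only [id]
      field_simp
      ring
    · refine ContinuousOn.intervalIntegrable fun l hl => ?_
      have hl := hpos l hl
      have hp : 0 < 1 + (b * l) ^ 2 := by positivity
      exact ContinuousAt.continuousWithinAt (ContinuousAt.mul (ContinuousAt.inv₀ (by fun_prop)
        (by positivity)) (ContinuousAt.log (by fun_prop) hp.ne'))
  rw [hFTC]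
  have h2 : Real.log (1 + (b * l0) ^ 2) / l0 ≤ 2 * b * Real.arctan (b * l0) := by
    rw [div_le_iff₀ h0]
    refine (log_le_arctan (by positivity : 0 ≤ b * l0)).trans (le_of_eq ?_)
    ring
  have h3 : 0 ≤ Real.log (1 + (b * l1) ^ 2) / l1 := by
    have : 0 < l1 := h0.trans_le h1
    exact div_nonneg (Real.log_nonneg (by nlinarith [sq_nonneg (b * l1)])) this.le
  have h4 : 2 * b * Real.arctan (b * l1) ≤ Real.pi * b := by
    have := (Real.arctan_lt_pi_div_two (b * l1)).le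
    nlinarith
  linarith

/-- benefit of one eigenvalue -/
theorem benefit {a s l0 l1 : ℝ} (ha : 0 ≤ a) (h0 : 0 < l0) (h1 : l0 ≤ l1) :
    (a ^ 2 - Real.pi * a) * s ^ 2 - a ^ 2 * l0 * s ^ 4 - a ^ 2 / l1 ≤
      ∫ l in l0..l1, (l ^ 2)⁻¹ * (q a l s ^ 2 - Real.log (1 + q a l s ^ 2)) := by
  have hpos : ∀ l ∈ uIcc l0 l1, 0 < l := by
    intro l hl
    rw [uIcc_of_le h1] at hl
    exact h0.trans_le hl.1
  have hqc : ∀ l ∈ uIcc l0 l1, ContinuousAt (fun l => q a l s) l := by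
    intro l hl
    have hl := hpos l hl
    have hp : 0 < 1 + l * s ^ 2 := by positivity
    exact ContinuousAt.div (by fun_prop) (by fun_prop) hp.ne'
  have i1 : IntervalIntegrable (fun l => (l ^ 2)⁻¹ * q a l s ^ 2) volume l0 l1 := by
    refine ContinuousOn.intervalIntegrable fun l hl => ?_
    have hl' := hpos l hl
    exact ContinuousAt.continuousWithinAt (ContinuousAt.mul (ContinuousAt.inv₀ (by fun_prop)
      (by positivity)) ((hqc l hl).pow 2))
  have i2 : IntervalIntegrable (fun l => (l ^ 2)⁻¹ * Real.log (1 + q a l s ^ 2)) volume l0 l1 := by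
    refine ContinuousOn.intervalIntegrable fun l hl => ?_
    have hl' := hpos l hl
    have hp : 0 < 1 + q a l s ^ 2 := by positivity
    exact ContinuousAt.continuousWithinAt (ContinuousAt.mul (ContinuousAt.inv₀ (by fun_prop)
      (by positivity)) (ContinuousAt.log (((hqc l hl).pow 2).const_add 1) hp.ne'))
  have i3 : IntervalIntegrable (fun l => (l ^ 2)⁻¹ * Real.log (1 + (a * s ^ 2 * l) ^ 2))
      volume l0 l1 := by
    refine ContinuousOn.intervalIntegrable fun l hl => ?_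
    have hl' := hpos l hl
    have hp : 0 < 1 + (a * s ^ 2 * l) ^ 2 := by positivity
    exact ContinuousAt.continuousWithinAt (ContinuousAt.mul (ContinuousAt.inv₀ (by fun_prop)
      (by positivity)) (ContinuousAt.log (by fun_prop) hp.ne'))
  have e : ∫ l in l0..l1, (l ^ 2)⁻¹ * (q a l s ^ 2 - Real.log (1 + q a l s ^ 2)) =
      (∫ l in l0..l1, (l ^ 2)⁻¹ * q a l s ^ 2) -
        ∫ l in l0..l1, (l ^ 2)⁻¹ * Real.log (1 + q a l s ^ 2) := by
    rw [← intervalIntegral.integral_sub i1 i2]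
    refine intervalIntegral.integral_congr fun l _ => ?_
    exact mul_sub _ _ _
  have h2 : ∫ l in l0..l1, (l ^ 2)⁻¹ * Real.log (1 + q a l s ^ 2) ≤
      ∫ l in l0..l1, (l ^ 2)⁻¹ * Real.log (1 + (a * s ^ 2 * l) ^ 2) := by
    refine intervalIntegral.integral_mono_on h1 i2 i3 fun l hl => ?_
    have hl0 : 0 < l := h0.trans_le hl.1
    refine mul_le_mul_of_nonneg_left ?_ (by positivity)
    refine Real.log_le_log (by positivity) ?_
    have hq0 : 0 ≤ q a l s := by unfold q; positivity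
    have hq1 : q a l s ≤ a * s ^ 2 * l := by
      unfold q
      refine (div_le_self (by positivity) (by nlinarith [sq_nonneg s])).trans (le_of_eq ?_)
      ring
    have := pow_le_pow_left₀ hq0 hq1 2
    linarith
  have h3 := log_integral_le (b := a * s ^ 2) (by positivity) h0 h1
  have h4 := q_sq_ge (a := a) (s := s) h0 h1
  rw [e]
  linarith

end Crest.Agent.R201.Ch150
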