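import Crest.Agent.R201.Defs2_74

/-!
# R201 (helper764): entrywise spectral masks (replacement of the dyadic blocks of section 5).

`Z = U diag z Uᵀ`, `β = V diag b Vᵀ`; `lo B` keeps the entries `⟨β_j, B ζ_i⟩` with `z_i < t b_j`.
-/

set_option autoImplicit false
open Matrix

namespace Crest.Agent.R201.Mask764

section general

variable {m m' m'' : Type*} [Fintype m] [Fintype m'] [Fintype m'']

lemma hs_nonneg (A : Matrix m m' ℝ) : 0 ≤ hs A :=
  Finset.sum_nonneg fun _ _ => Finset.sum_nonneg fun _ _ => sq_nonneg _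

lemma hs_eq_trace (A : Matrix m m' ℝ) : hs A = (A * Aᵀ).trace := by
  simp [hs, trace, Matrix.mul_apply, sq]

lemma hs_transpose (A : Matrix m m' ℝ) : hs Aᵀ = hs A := by
  unfold hs
  rw [Finset.sum_comm]
  rfl

lemma hs_eq_trace' (A : Matrix m m' ℝ) : hs A = (Aᵀ * A).trace := by
  rw [← hs_transpose, hs_eq_trace, transpose_transpose]

lemma hs_neg (A : Matrix m m' ℝ) : hs (-A) = hs A := by simp [hs]

lemma hs_mul_left [DecidableEq m] {U : Matrix m'' m ℝ} (h : Uᵀ * U = 1) (A : Matrix m m' ℝ) :
    hs (U * A) = hs A := by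
  rw [hs_eq_trace', hs_eq_trace', transpose_mul]
  have : Aᵀ * Uᵀ * (U * A) = Aᵀ * (Uᵀ * U) * A := by simp only [Matrix.mul_assoc]
  rw [this, h, Matrix.mul_one]

lemma hs_mul_right [DecidableEq m'] {V : Matrix m' m'' ℝ} (h : V * Vᵀ = 1) (A : Matrix m m' ℝ) :
    hs (A * V) = hs A := by
  rw [hs_eq_trace, hs_eq_trace, transpose_mul]
  have : A * V * (Vᵀ * Aᵀ) = A * (V * Vᵀ) * Aᵀ := by simp only [Matrix.mul_assoc]
  rw [this, h, Matrix.mul_one]

variable [DecidableEq m]

/-- orthogonal diagonalisation of a symmetric real matrix -/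
lemma exists_diag {A : Matrix m m ℝ} (hA : A.IsHermitian) :
    ∃ U : Matrix m m ℝ, U * Uᵀ = 1 ∧ Uᵀ * U = 1 ∧
      A = U * diagonal hA.eigenvalues * Uᵀ := by
  refine ⟨(hA.eigenvectorUnitary : Matrix m m ℝ), ?_, ?_, ?_⟩
  · have := Unitary.coe_mul_star_self hA.eigenvectorUnitary
    rwa [Unitary.coe_star, star_eq_conjTranspose, conjTranspose_eq_transpose_of_trivial] at this
  · have := Unitary.coe_star_mul_self hA.eigenvectorUnitary
    rwa [star_eq_conjTranspose, conjTranspose_eq_transpose_of_trivial] at this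
  · have := hA.spectral_theorem
    rw [Unitary.conjStarAlgAut_apply, star_eq_conjTranspose,
      conjTranspose_eq_transpose_of_trivial] at this
    exact this

end general

variable {n : ℕ}

/-- The mask lemma. -/
theorem mask_exists {Z β : Mt n} (hZ : Z.PosDef) (hβ : β.PosSemidef) {t : ℝ} (ht : 0 < t) :
    ∃ (Zh : Mt n) (lo : Mt n → Mt n), Zhᵀ = Zh ∧ Zh * Zh = Z ∧
      ∀ B : Mt n,
        hs (lo B * Z) ≤ 2 * t * (β * (Zh * (B * Bᵀ) * Zh)).trace + 2 * hs (Z * B - B * Z) ∧
        hs (β * (B - lo B)) ≤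
          (2 / t) * (β * (Zh * (B * Bᵀ) * Zh)).trace + (2 / t ^ 2) * hs (Z * B - B * Z) := by
  obtain ⟨U, hU, hU', hZU⟩ := exists_diag hZ.1
  obtain ⟨V, hV, hV', hβV⟩ := exists_diag hβ.1
  set z := hZ.1.eigenvalues with hz
  set b := hβ.1.eigenvalues with hb
  have hz0 : ∀ i, 0 < z i := fun i => hZ.eigenvalues_pos i
  have hb0 : ∀ j, 0 ≤ b j := fun j => hβ.eigenvalues_nonneg j
  set r : Fin n → ℝ := fun i => Real.sqrt (z i) with hr
  have hr0 : ∀ i, 0 < r i := fun i => Real.sqrt_pos.2 (hz0 i)
  have hr2 : ∀ i, r i * r i = z i := fun i => Real.mul_self_sqrt (hz0 i).le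
  set Zh : Mt n := U * diagonal r * Uᵀ with hZh
  have hZht : Zhᵀ = Zh := by
    rw [hZh]
    simp [transpose_mul, Matrix.mul_assoc]
  have hZhU : Zh * U = U * diagonal r := by
    rw [hZh, Matrix.mul_assoc, hU', Matrix.mul_one]
  have hUZh : Uᵀ * Zh = diagonal r * Uᵀ := by
    rw [hZh, Matrix.mul_assoc, ← Matrix.mul_assoc, hU', Matrix.one_mul]
  have hZZ : Zh * Zh = Z := by
    have e : Zh * Zh = U * (diagonal r * diagonal r) * Uᵀ := by
      calc Zh * Zh = Zh * U * diagonal r * Uᵀ := by rw [hZh]; simp only [Matrix.mul_assoc]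
        _ = U * diagonal r * diagonal r * Uᵀ := by rw [hZhU]
        _ = _ := by simp only [Matrix.mul_assoc]
    rw [e, diagonal_mul_diagonal, hZU]
    congr 3
    ext i
    exact hr2 i
  have hZU' : Z * U = U * diagonal z := by
    rw [hZU, Matrix.mul_assoc, hU', Matrix.mul_one]
  have hUZ' : Uᵀ * Z = diagonal z * Uᵀ := by
    rw [hZU, Matrix.mul_assoc, ← Matrix.mul_assoc, hU', Matrix.one_mul]
  set M : Mt n → Mt n := fun B => Matrix.of fun j i => if z i < t * b j then (Vᵀ * B * U) j i else 0
    with hM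
  refine ⟨Zh, fun B => V * M B * Uᵀ, hZht, hZZ, fun B => ?_⟩
  -- the transformed objects
  set Bh : Mt n := Vᵀ * B * U with hBh
  set K : Mt n := Vᵀ * Zh * B * U with hK
  set R' : Mt n := B * Z - Zh * B * Zh with hR'
  set Rh : Mt n := Vᵀ * R' * U with hRh
  -- key entrywise relation
  have key : ∀ j i, Bh j i * z i = K j i * r i + Rh j i := by
    have e : Bh * diagonal z = K * diagonal r + Rh := by
      have e1 : Bh * diagonal z = Vᵀ * (B * Z) * U := by
        calc Bh * diagonal z = Vᵀ * B * (U * diagonal z) := by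
              rw [hBh]; simp only [Matrix.mul_assoc]
          _ = Vᵀ * B * (Z * U) := by rw [hZU']
          _ = _ := by simp only [Matrix.mul_assoc]
      have e2 : K * diagonal r = Vᵀ * (Zh * B * Zh) * U := by
        calc K * diagonal r = Vᵀ * Zh * B * (U * diagonal r) := by
              rw [hK]; simp only [Matrix.mul_assoc]
          _ = Vᵀ * Zh * B * (Zh * U) := by rw [hZhU]
          _ = _ := by simp only [Matrix.mul_assoc]
      rw [e1, e2, hRh, hR', Matrix.mul_sub, Matrix.sub_mul]
      abel
    intro j i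
    have := congrFun (congrFun e j) i
    simpa [Matrix.mul_diagonal] using this
  -- hs R' ≤ hs [Z,B]
  have hR : hs Rh ≤ hs (Z * B - B * Z) := by
    have e1 : hs Rh = hs R' := by
      rw [hRh, hs_mul_right hU, hs_mul_left (by rw [transpose_transpose]; exact hV)]
    have e2 : hs R' = hs (Uᵀ * R' * U) := by
      rw [hs_mul_right hU, hs_mul_left (by rw [transpose_transpose]; exact hU)]
    have e3 : hs (Z * B - B * Z) = hs (Uᵀ * (Z * B - B * Z) * U) := by
      rw [hs_mul_right hU, hs_mul_left (by rw [transpose_transpose]; exact hU)]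
    rw [e1, e2, e3]
    set Bt : Mt n := Uᵀ * B * U with hBt
    have f1 : Uᵀ * R' * U = Bt * diagonal z - diagonal r * Bt * diagonal r := by
      have g1 : Bt * diagonal z = Uᵀ * (B * Z) * U := by
        calc Bt * diagonal z = Uᵀ * B * (U * diagonal z) := by
              rw [hBt]; simp only [Matrix.mul_assoc]
          _ = Uᵀ * B * (Z * U) := by rw [hZU']
          _ = _ := by simp only [Matrix.mul_assoc]
      have g2 : diagonal r * Bt * diagonal r = Uᵀ * (Zh * B * Zh) * U := by
        calc diagonal r * Bt * diagonal r = (diagonal r * Uᵀ) * B * (U * diagonal r) := by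
              rw [hBt]; simp only [Matrix.mul_assoc]
          _ = (Uᵀ * Zh) * B * (Zh * U) := by rw [hUZh, hZhU]
          _ = _ := by simp only [Matrix.mul_assoc]
      rw [g1, g2, hR', Matrix.mul_sub, Matrix.sub_mul]
    have f2 : Uᵀ * (Z * B - B * Z) * U = diagonal z * Bt - Bt * diagonal z := by
      have g1 : Bt * diagonal z = Uᵀ * (B * Z) * U := by
        calc Bt * diagonal z = Uᵀ * B * (U * diagonal z) := by
              rw [hBt]; simp only [Matrix.mul_assoc]
          _ = Uᵀ * B * (Z * U) := by rw [hZU']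
          _ = _ := by simp only [Matrix.mul_assoc]
      have g2 : diagonal z * Bt = Uᵀ * (Z * B) * U := by
        calc diagonal z * Bt = (diagonal z * Uᵀ) * B * U := by
              rw [hBt]; simp only [Matrix.mul_assoc]
          _ = (Uᵀ * Z) * B * U := by rw [hUZ']
          _ = _ := by simp only [Matrix.mul_assoc]
      rw [g1, g2, Matrix.mul_sub, Matrix.sub_mul]
    rw [f1, f2]
    unfold hs
    refine Finset.sum_le_sum fun i' _ => Finset.sum_le_sum fun i _ => ?_
    simp only [Matrix.sub_apply, Matrix.mul_diagonal, Matrix.diagonal_mul]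
    have h1 : Bt i' i * z i - r i' * Bt i' i * r i = Bt i' i * (r i * (r i - r i')) := by
      rw [← hr2 i]; ring
    have h2 : z i' * Bt i' i - Bt i' i * z i = Bt i' i * ((r i' - r i) * (r i' + r i)) := by
      rw [← hr2 i, ← hr2 i']; ring
    rw [h1, h2]
    have h3 : (Bt i' i * (r i * (r i - r i'))) ^ 2
        = (Bt i' i ^ 2 * (r i' - r i) ^ 2) * (r i) ^ 2 := by ring
    have h4 : (Bt i' i * ((r i' - r i) * (r i' + r i))) ^ 2
        = (Bt i' i ^ 2 * (r i' - r i) ^ 2) * (r i' + r i) ^ 2 := by ring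
    rw [h3, h4]
    apply mul_le_mul_of_nonneg_left _ (by positivity)
    have := hr0 i
    have := hr0 i'
    nlinarith
  -- the trace
  have hT : ∑ j, ∑ i, b j * K j i ^ 2 = (β * (Zh * (B * Bᵀ) * Zh)).trace := by
    have e1 : (β * (Zh * (B * Bᵀ) * Zh)).trace = (diagonal b * (K * Kᵀ)).trace := by
      have e2 : K * Kᵀ = Vᵀ * (Zh * (B * Bᵀ) * Zh) * V := by
        calc K * Kᵀ = Vᵀ * Zh * B * U * (Uᵀ * Bᵀ * Zhᵀ * V) := by
              rw [hK]; simp only [transpose_mul, transpose_transpose, Matrix.mul_assoc]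
          _ = Vᵀ * Zh * B * (U * Uᵀ) * Bᵀ * Zhᵀ * V := by simp only [Matrix.mul_assoc]
          _ = _ := by rw [hU, hZht, Matrix.mul_one]; simp only [Matrix.mul_assoc]
      rw [e2, hβV]
      have e3 : V * diagonal b * Vᵀ * (Zh * (B * Bᵀ) * Zh)
          = V * (diagonal b * Vᵀ * (Zh * (B * Bᵀ) * Zh)) := by simp only [Matrix.mul_assoc]
      rw [e3, Matrix.trace_mul_comm]
      simp only [Matrix.mul_assoc]
    rw [e1]
    simp only [trace, diag_apply, Matrix.diagonal_mul]
    refine Finset.sum_congr rfl fun j _ => ?_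
    rw [Matrix.mul_apply, Finset.mul_sum]
    refine Finset.sum_congr rfl fun i _ => ?_
    rw [transpose_apply]
    ring
  have hK0 : ∀ j i, 0 ≤ b j * K j i ^ 2 := fun j i => mul_nonneg (hb0 j) (sq_nonneg _)
  constructor
  · -- LOW
    have e1 : hs (V * M B * Uᵀ * Z) = ∑ j, ∑ i, (M B j i * z i) ^ 2 := by
      have : V * M B * Uᵀ * Z = V * (M B * diagonal z) * Uᵀ := by
        calc V * M B * Uᵀ * Z = V * M B * (Uᵀ * Z) := by simp only [Matrix.mul_assoc]
          _ = _ := by rw [hUZ']; simp only [Matrix.mul_assoc]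
      rw [this, hs_mul_right (by rw [transpose_transpose]; exact hU'),
        hs_mul_left hV']
      simp [hs, Matrix.mul_diagonal]
    rw [e1, ← hT]
    calc ∑ j, ∑ i, (M B j i * z i) ^ 2
        ≤ ∑ j, ∑ i, (2 * t * (b j * K j i ^ 2) + 2 * Rh j i ^ 2) := by
          refine Finset.sum_le_sum fun j _ => Finset.sum_le_sum fun i _ => ?_
          simp only [hM, Matrix.of_apply]
          split_ifs with hlow
          · rw [key j i]
            have h1 : (K j i * r i + Rh j i) ^ 2 ≤ 2 * (K j i ^ 2 * z i) + 2 * Rh j i ^ 2 := by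
              rw [← hr2 i]
              nlinarith [sq_nonneg (K j i * r i - Rh j i)]
            have h2 : K j i ^ 2 * z i ≤ K j i ^ 2 * (t * b j) :=
              mul_le_mul_of_nonneg_left hlow.le (sq_nonneg _)
            nlinarith
          · have := hK0 j i
            have := sq_nonneg (Rh j i)
            have : 0 ≤ 2 * t * (b j * K j i ^ 2) := by positivity
            nlinarith
      _ = 2 * t * (∑ j, ∑ i, b j * K j i ^ 2) + 2 * hs Rh := by
          simp only [Finset.sum_add_distrib, Finset.mul_sum, hs]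
      _ ≤ _ := by linarith
  · -- HIGH
    have e1 : hs (β * (B - V * M B * Uᵀ)) = ∑ j, ∑ i, (b j * (Bh j i - M B j i)) ^ 2 := by
      have e2 : B = V * Bh * Uᵀ := by
        calc B = (V * Vᵀ) * B * (U * Uᵀ) := by rw [hV, hU, Matrix.one_mul, Matrix.mul_one]
          _ = _ := by rw [hBh]; simp only [Matrix.mul_assoc]
      have : β * (B - V * M B * Uᵀ) = V * (diagonal b * (Bh - M B)) * Uᵀ := by
        calc β * (B - V * M B * Uᵀ) = β * (V * (Bh - M B) * Uᵀ) := by
              rw [Matrix.mul_sub V, Matrix.sub_mul, ← e2]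
          _ = V * diagonal b * (Vᵀ * V) * (Bh - M B) * Uᵀ := by
              rw [hβV]; simp only [Matrix.mul_assoc]
          _ = _ := by rw [hV', Matrix.mul_one]; simp only [Matrix.mul_assoc]
      rw [this, hs_mul_right (by rw [transpose_transpose]; exact hU'),
        hs_mul_left hV']
      simp [hs, Matrix.diagonal_mul]
    rw [e1, ← hT]
    calc ∑ j, ∑ i, (b j * (Bh j i - M B j i)) ^ 2
        ≤ ∑ j, ∑ i, ((2 / t) * (b j * K j i ^ 2) + (2 / t ^ 2) * Rh j i ^ 2) := by
          refine Finset.sum_le_sum fun j _ => Finset.sum_le_sum fun i _ => ?_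
          simp only [hM, Matrix.of_apply]
          have hk0 := hK0 j i
          have hzi := hz0 i
          split_ifs with hlow
          · have : (b j * (Bh j i - Bh j i)) ^ 2 = 0 := by ring
            rw [this]
            positivity
          · push Not at hlow
            -- `z_i ≥ t b_j`
            have hbz : b j / z i ≤ 1 / t := by
              rw [div_le_div_iff₀ hzi ht]
              linarith
            have hbz0 : 0 ≤ b j / z i := div_nonneg (hb0 j) hzi.le
            have hB : Bh j i = K j i * r i / z i + Rh j i / z i := by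
              rw [← add_div, ← key j i]
              field_simp
            have h1 : (b j * (Bh j i - 0)) ^ 2 ≤
                2 * (b j ^ 2 * K j i ^ 2 / z i) + 2 * ((b j / z i) ^ 2 * Rh j i ^ 2) := by
              have h2 : (b j * (Bh j i - 0)) = b j * K j i * r i / z i + b j * Rh j i / z i := by
                rw [sub_zero, hB]; ring
              have h3 : (b j * K j i * r i / z i) ^ 2 = b j ^ 2 * K j i ^ 2 / z i := by
                rw [div_pow]
                have : (b j * K j i * r i) ^ 2 = b j ^ 2 * K j i ^ 2 * z i := by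
                  rw [← hr2 i]; ring
                rw [this]
                field_simp
              have h4 : (b j * Rh j i / z i) ^ 2 = (b j / z i) ^ 2 * Rh j i ^ 2 := by ring
              rw [h2, ← h3, ← h4]
              nlinarith [sq_nonneg (b j * K j i * r i / z i - b j * Rh j i / z i)]
            have h5 : b j ^ 2 * K j i ^ 2 / z i ≤ 1 / t * (b j * K j i ^ 2) := by
              have : b j ^ 2 * K j i ^ 2 / z i = (b j / z i) * (b j * K j i ^ 2) := by ring
              rw [this]
              exact mul_le_mul_of_nonneg_right hbz hk0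
            have h6 : (b j / z i) ^ 2 * Rh j i ^ 2 ≤ 1 / t ^ 2 * Rh j i ^ 2 := by
              apply mul_le_mul_of_nonneg_right _ (sq_nonneg _)
              calc (b j / z i) ^ 2 ≤ (1 / t) ^ 2 := by gcongr
                _ = 1 / t ^ 2 := by rw [div_pow, one_pow]
            calc (b j * (Bh j i - 0)) ^ 2 ≤ _ := h1
              _ ≤ 2 * (1 / t * (b j * K j i ^ 2)) + 2 * (1 / t ^ 2 * Rh j i ^ 2) := by linarith
              _ = _ := by ring
      _ = (2 / t) * (∑ j, ∑ i, b j * K j i ^ 2) + (2 / t ^ 2) * hs Rh := by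
          simp only [Finset.sum_add_distrib, Finset.mul_sum, hs]
      _ ≤ _ := by
          have : 0 ≤ 2 / t ^ 2 := by positivity
          nlinarith [mul_le_mul_of_nonneg_left hR this]

end Crest.Agent.R201.Mask764
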