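import Crest.Agent.R201.NB_152

/-!
# R201: real spectral calculus in explicit form, spectral projections (helper152)
-/

set_option autoImplicit false
set_option linter.unusedSectionVars false
open Matrix

namespace Crest.Agent.R201.NB152

open Crest.Agent.R201

variable {m : Type*} [Fintype m] [DecidableEq m]

/-- real symmetric matrices are orthogonally diagonalisable -/
theorem diagonalize {N : Matrix m m ℝ} (hN : Nᵀ = N) :
    ∃ (U : Matrix m m ℝ) (lam : m → ℝ), Uᵀ * U = 1 ∧ U * Uᵀ = 1 ∧
      N = U * diagonal lam * Uᵀ := by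
  have hH : N.IsHermitian := by
    rw [Matrix.IsHermitian, Matrix.conjTranspose_eq_transpose_of_trivial, hN]
  refine ⟨(hH.eigenvectorUnitary : Matrix m m ℝ), hH.eigenvalues, ?_, ?_, ?_⟩
  · have := Unitary.coe_star_mul_self hH.eigenvectorUnitary
    rwa [Matrix.star_eq_conjTranspose, Matrix.conjTranspose_eq_transpose_of_trivial] at this
  · have := Unitary.coe_mul_star_self hH.eigenvectorUnitary
    rwa [Unitary.coe_star, Matrix.star_eq_conjTranspose,
      Matrix.conjTranspose_eq_transpose_of_trivial] at this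
  · conv_lhs => rw [hH.spectral_theorem]
    rw [Unitary.conjStarAlgAut_apply, Matrix.star_eq_conjTranspose,
      Matrix.conjTranspose_eq_transpose_of_trivial]
    rfl

/-- the matrix with eigenvalues `f` in the basis `U` -/
def spec (U : Matrix m m ℝ) (f : m → ℝ) : Matrix m m ℝ := U * diagonal f * Uᵀ

theorem spec_transpose (U : Matrix m m ℝ) (f : m → ℝ) : (spec U f)ᵀ = spec U f := by
  simp only [spec, Matrix.transpose_mul, Matrix.transpose_transpose, Matrix.diagonal_transpose,
    Matrix.mul_assoc]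

theorem spec_mul {U : Matrix m m ℝ} (hU : Uᵀ * U = 1) (f g : m → ℝ) :
    spec U f * spec U g = spec U (fun i => f i * g i) := by
  unfold spec
  rw [Matrix.mul_assoc, Matrix.mul_assoc, Matrix.mul_assoc, ← Matrix.mul_assoc Uᵀ U, hU,
    Matrix.one_mul, ← Matrix.mul_assoc (diagonal f), Matrix.diagonal_mul_diagonal,
    Matrix.mul_assoc]

theorem spec_one {U : Matrix m m ℝ} (hU : U * Uᵀ = 1) : spec U (fun _ => 1) = 1 := by
  have : (diagonal fun _ : m => (1 : ℝ)) = 1 := Matrix.diagonal_one
  rw [spec, this, Matrix.mul_one, hU]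

theorem spec_sub (U : Matrix m m ℝ) (f g : m → ℝ) :
    spec U f - spec U g = spec U (fun i => f i - g i) := by
  unfold spec
  rw [← Matrix.sub_mul, ← Matrix.mul_sub, Matrix.diagonal_sub]

theorem spec_add (U : Matrix m m ℝ) (f g : m → ℝ) :
    spec U f + spec U g = spec U (fun i => f i + g i) := by
  unfold spec
  rw [← Matrix.add_mul, ← Matrix.mul_add, Matrix.diagonal_add]

theorem spec_smul (U : Matrix m m ℝ) (t : ℝ) (f : m → ℝ) :
    t • spec U f = spec U (fun i => t * f i) := by
  unfold spec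
  rw [← Matrix.smul_mul, ← Matrix.mul_smul, ← Matrix.diagonal_smul]
  rfl

theorem spec_form (U : Matrix m m ℝ) (f : m → ℝ) (u : m → ℝ) :
    u ⬝ᵥ (spec U f *ᵥ u) = ∑ i, f i * (Uᵀ *ᵥ u) i ^ 2 := by
  unfold spec
  rw [Matrix.mul_assoc, ← Matrix.mulVec_mulVec, ← Matrix.mulVec_mulVec, Matrix.dotProduct_mulVec,
    ← Matrix.mulVec_transpose, dotProduct]
  refine Finset.sum_congr rfl fun i _ => ?_
  rw [Matrix.mulVec_diagonal]
  ring

theorem spec_mono (U : Matrix m m ℝ) {f g : m → ℝ} (h : ∀ i, f i ≤ g i) :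
    LeQ (spec U f) (spec U g) := by
  intro u
  rw [spec_form, spec_form]
  exact Finset.sum_le_sum fun i _ => mul_le_mul_of_nonneg_right (h i) (sq_nonneg _)

/-- spectral projection of a symmetric matrix onto `(c, ∞)` -/
theorem exists_proj {N : Matrix m m ℝ} (hN : Nᵀ = N) (c : ℝ) :
    ∃ Q : Matrix m m ℝ, Qᵀ = Q ∧ Q * Q = Q ∧ Q * N = N * Q ∧ LeQ (c • Q) (Q * N) ∧
      LeQ ((1 - Q) * N) (c • (1 - Q)) := by
  classical
  obtain ⟨U, lam, h1, h2, h3⟩ := diagonalize hN
  have h3' : N = spec U lam := h3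
  refine ⟨spec U (fun i => if c < lam i then 1 else 0), spec_transpose _ _, ?_, ?_, ?_, ?_⟩
  · rw [spec_mul h1]
    congr 1
    funext i
    split_ifs <;> simp
  · rw [h3', spec_mul h1, spec_mul h1]
    congr 1
    funext i
    ring
  · rw [h3', spec_mul h1, spec_smul]
    refine spec_mono U fun i => ?_
    split_ifs with h
    · simpa using h.le
    · simp
  · rw [← spec_one h2, spec_sub]
    rw [h3', spec_mul h1, spec_smul]
    refine spec_mono U fun i => ?_
    split_ifs with h
    · simp
    · push Not at h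
      simpa using h

end Crest.Agent.R201.NB152
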