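import Crest.Agent.R201.Ch1_150
import Crest.Agent.R201.Spec_152
import Crest.Agent.R201.Mask_764

/-!
# R201, LSI half (helper150): the channel, pointwise matrix part
-/

set_option autoImplicit false
open MeasureTheory Matrix Set

namespace Crest.Agent.R201.Ch150

open Crest.Agent.R201 Crest.Agent.R201.NB152

variable {n : ℕ}

/-- resolvent `(1 + l S²)⁻¹` -/
noncomputable def Rl (l : ℝ) (S : Mt n) : Mt n := (1 + l • (S * S))⁻¹

/-- the channel matrix `Q = a (1 - (1 + l S²)⁻¹) = a l S² (1 + l S²)⁻¹` -/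
noncomputable def Ql (a l : ℝ) (S : Mt n) : Mt n := a • (1 - Rl l S)

/-- derivative of `Ql` in direction `T` -/
noncomputable def dQ (a l : ℝ) (S T : Mt n) : Mt n :=
  (a * l) • (Rl l S * (S * T + T * S) * Rl l S)

/-- `ρ = 1 / (1 + l s²)` -/
noncomputable def rho (l s : ℝ) : ℝ := (1 + l * s ^ 2)⁻¹

theorem one_add_eq_spec {U : Mt n} (hU : Uᵀ * U = 1) (hU' : U * Uᵀ = 1) (s : Fin n → ℝ) (l : ℝ) :
    1 + l • (spec U s * spec U s) = spec U (fun i => 1 + l * s i ^ 2) := by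
  rw [spec_mul hU, spec_smul, ← spec_one hU', spec_add]
  congr 1
  funext i
  ring

theorem inv_spec {U : Mt n} (hU : Uᵀ * U = 1) (hU' : U * Uᵀ = 1) {f : Fin n → ℝ}
    (hf : ∀ i, f i ≠ 0) : (spec U f)⁻¹ = spec U (fun i => (f i)⁻¹) := by
  refine Matrix.inv_eq_right_inv ?_
  rw [spec_mul hU, ← spec_one hU']
  congr 1
  funext i
  exact mul_inv_cancel₀ (hf i)

theorem Rl_spec {U : Mt n} (hU : Uᵀ * U = 1) (hU' : U * Uᵀ = 1) (s : Fin n → ℝ) {l : ℝ}
    (hl : 0 ≤ l) : Rl l (spec U s) = spec U (fun i => rho l (s i)) := by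
  unfold Rl
  rw [one_add_eq_spec hU hU', inv_spec hU hU' fun i => ?_]
  · rfl
  · positivity

theorem Ql_spec {U : Mt n} (hU : Uᵀ * U = 1) (hU' : U * Uᵀ = 1) (s : Fin n → ℝ) {a l : ℝ}
    (hl : 0 ≤ l) : Ql a l (spec U s) = spec U (fun i => q a l (s i)) := by
  unfold Ql
  rw [Rl_spec hU hU' s hl, ← spec_one hU', spec_sub, spec_smul]
  congr 1
  funext i
  unfold rho q
  have : 0 < 1 + l * s i ^ 2 := by positivity
  field_simp
  ring

theorem hs_conj {U : Mt n} (hU : Uᵀ * U = 1) (X : Mt n) : hs (U * X * Uᵀ) = hs X := by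
  have h := Mask764.hs_mul_right (V := Uᵀ) (by rw [transpose_transpose]; exact hU) (U * X)
  rw [h, Mask764.hs_mul_left hU]

/-- a symmetric matrix is `spec` -/
theorem exists_spec {S : Mt n} (hS : Sᵀ = S) :
    ∃ (U : Mt n) (s : Fin n → ℝ), Uᵀ * U = 1 ∧ U * Uᵀ = 1 ∧ S = spec U s := by
  obtain ⟨U, s, h1, h2, h3⟩ := diagonalize hS
  exact ⟨U, s, h1, h2, h3⟩

theorem trace_spec {U : Mt n} (hU : Uᵀ * U = 1) (f : Fin n → ℝ) :
    (spec U f).trace = ∑ i, f i := by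
  unfold spec
  rw [Matrix.mul_assoc, trace_mul_comm, Matrix.mul_assoc, hU, Matrix.mul_one, trace_diagonal]

theorem det_spec {U : Mt n} (hU : Uᵀ * U = 1) (f : Fin n → ℝ) :
    (spec U f).det = ∏ i, f i := by
  unfold spec
  rw [det_mul, det_mul, det_diagonal, mul_comm U.det, mul_assoc, mul_comm U.det,
    ← det_mul, hU, det_one, mul_one]

theorem Ql_symm {S : Mt n} (hS : Sᵀ = S) {a l : ℝ} (hl : 0 ≤ l) : (Ql a l S)ᵀ = Ql a l S := by
  obtain ⟨U, s, h1, h2, rfl⟩ := exists_spec hS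
  rw [Ql_spec h1 h2 s hl, spec_transpose]

theorem Rl_symm {S : Mt n} (hS : Sᵀ = S) {l : ℝ} (hl : 0 ≤ l) : (Rl l S)ᵀ = Rl l S := by
  obtain ⟨U, s, h1, h2, rfl⟩ := exists_spec hS
  rw [Rl_spec h1 h2 s hl, spec_transpose]

theorem dQ_symm {S T : Mt n} (hS : Sᵀ = S) (hT : Tᵀ = T) {a l : ℝ} (hl : 0 ≤ l) :
    (dQ a l S T)ᵀ = dQ a l S T := by
  unfold dQ
  rw [transpose_smul, transpose_mul, transpose_mul, Rl_symm hS hl, transpose_add, transpose_mul,
    transpose_mul, hS, hT, ← Matrix.mul_assoc, add_comm (T * S)]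

/-- the hs norm of `dQ` in the eigenbasis -/
theorem hs_dQ {U : Mt n} (hU : Uᵀ * U = 1) (hU' : U * Uᵀ = 1) (s : Fin n → ℝ) (T : Mt n)
    {a l : ℝ} (hl : 0 ≤ l) :
    hs (dQ a l (spec U s) T) = ∑ i, ∑ j, a ^ 2 * (Uᵀ * T * U) i j ^ 2 *
      (l ^ 2 * ((s i + s j) ^ 2 / ((1 + l * s i ^ 2) ^ 2 * (1 + l * s j ^ 2) ^ 2))) := by
  have e : dQ a l (spec U s) T = U * (Matrix.of fun i j =>
      a * l * (rho l (s i) * ((s i + s j) * (Uᵀ * T * U) i j) * rho l (s j))) * Uᵀ := by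
    have e1 : (Matrix.of fun i j =>
        a * l * (rho l (s i) * ((s i + s j) * (Uᵀ * T * U) i j) * rho l (s j))) =
        (a * l) • (diagonal (fun i => rho l (s i)) *
          (diagonal s * (Uᵀ * T * U) + (Uᵀ * T * U) * diagonal s) *
          diagonal (fun i => rho l (s i))) := by
      ext i j
      rw [Matrix.smul_apply, Matrix.mul_diagonal, Matrix.diagonal_mul, Matrix.add_apply,
        Matrix.mul_diagonal, Matrix.diagonal_mul, Matrix.of_apply, smul_eq_mul]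
      ring
    rw [e1]
    unfold dQ
    rw [Rl_spec hU hU' s hl, Matrix.mul_smul, Matrix.smul_mul]
    congr 1
    have hT : T = U * (Uᵀ * T * U) * Uᵀ := by
      rw [Matrix.mul_assoc Uᵀ, ← Matrix.mul_assoc U, hU', Matrix.one_mul,
        Matrix.mul_assoc, hU', Matrix.mul_one]
    set X := Uᵀ * T * U with hX
    rw [hT]
    unfold spec
    have r : ∀ A B : Mt n, U * A * Uᵀ * (U * B * Uᵀ) = U * (A * B) * Uᵀ := by
      intro A B
      rw [Matrix.mul_assoc, Matrix.mul_assoc, ← Matrix.mul_assoc Uᵀ, ← Matrix.mul_assoc Uᵀ, hU,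
        Matrix.one_mul, ← Matrix.mul_assoc, ← Matrix.mul_assoc, ← Matrix.mul_assoc]
    rw [r, r, ← Matrix.add_mul, ← Matrix.mul_add, r, r]
  rw [e, hs_conj hU]
  unfold hs
  refine Finset.sum_congr rfl fun i _ => Finset.sum_congr rfl fun j _ => ?_
  rw [Matrix.of_apply]
  unfold rho
  have h1 : 0 < 1 + l * s i ^ 2 := by positivity
  have h2 : 0 < 1 + l * s j ^ 2 := by positivity
  field_simp

theorem hs_conj' {U : Mt n} (hU' : U * Uᵀ = 1) (T : Mt n) :
    ∑ i, ∑ j, (Uᵀ * T * U) i j ^ 2 = hs T := by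
  have h : hs (Uᵀ * T * U) = hs T := by
    rw [Mask764.hs_mul_right hU', Mask764.hs_mul_left (by rw [transpose_transpose]; exact hU')]
  exact h

/-- (2) the cost, integrated over the levels -/
theorem cost {S : Mt n} (hS : Sᵀ = S) (T : Mt n) {a l0 l1 : ℝ} (h0 : 0 < l0) (h1 : l0 ≤ l1) :
    ∫ l in l0..l1, (l ^ 2)⁻¹ * hs (dQ a l S T) ≤ 3 / 2 * a ^ 2 * hs T := by
  obtain ⟨U, s, hU, hU', rfl⟩ := exists_spec hS
  have hpos : ∀ l ∈ uIcc l0 l1, 0 < l := by
    intro l hl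
    rw [uIcc_of_le h1] at hl
    exact h0.trans_le hl.1
  have e : ∫ l in l0..l1, (l ^ 2)⁻¹ * hs (dQ a l (spec U s) T) =
      ∫ l in l0..l1, ∑ i, ∑ j, a ^ 2 * (Uᵀ * T * U) i j ^ 2 *
        ((s i + s j) ^ 2 / ((1 + l * s i ^ 2) ^ 2 * (1 + l * s j ^ 2) ^ 2)) := by
    refine intervalIntegral.integral_congr fun l hl => ?_
    have hl := hpos l hl
    change (l ^ 2)⁻¹ * hs (dQ a l (spec U s) T) = ∑ i, ∑ j, a ^ 2 * (Uᵀ * T * U) i j ^ 2 *
        ((s i + s j) ^ 2 / ((1 + l * s i ^ 2) ^ 2 * (1 + l * s j ^ 2) ^ 2))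
    rw [hs_dQ hU hU' s T hl.le, Finset.mul_sum]
    refine Finset.sum_congr rfl fun i _ => ?_
    rw [Finset.mul_sum]
    refine Finset.sum_congr rfl fun j _ => ?_
    field_simp
  have cc : ∀ i j, ContinuousOn (fun l => a ^ 2 * (Uᵀ * T * U) i j ^ 2 *
        ((s i + s j) ^ 2 / ((1 + l * s i ^ 2) ^ 2 * (1 + l * s j ^ 2) ^ 2))) (uIcc l0 l1) := by
    intro i j l hl
    have hl := hpos l hl
    exact ContinuousAt.continuousWithinAt (ContinuousAt.mul continuousAt_const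
      (ContinuousAt.div (by fun_prop) (by fun_prop) (by positivity)))
  rw [e, intervalIntegral.integral_finsetSum fun i _ =>
    (continuousOn_finsetSum _ fun j _ => cc i j).intervalIntegrable]
  rw [← hs_conj' hU' T, Finset.mul_sum]
  refine Finset.sum_le_sum fun i _ => ?_
  rw [intervalIntegral.integral_finsetSum fun j _ => (cc i j).intervalIntegrable, Finset.mul_sum]
  refine Finset.sum_le_sum fun j _ => ?_
  rw [intervalIntegral.integral_const_mul]
  have := mul_le_mul_of_nonneg_left (pair (s i) (s j) h0.le h1)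
    (by positivity : 0 ≤ a ^ 2 * (Uᵀ * T * U) i j ^ 2)
  refine this.trans (le_of_eq ?_)
  ring

theorem conj_mul {U : Mt n} (hU : Uᵀ * U = 1) (A B : Mt n) :
    U * A * Uᵀ * (U * B * Uᵀ) = U * (A * B) * Uᵀ := by
  rw [Matrix.mul_assoc, Matrix.mul_assoc, ← Matrix.mul_assoc Uᵀ, ← Matrix.mul_assoc Uᵀ, hU,
    Matrix.one_mul, ← Matrix.mul_assoc, ← Matrix.mul_assoc, ← Matrix.mul_assoc]

theorem conj_inv {U : Mt n} (hU' : U * Uᵀ = 1) (T : Mt n) : T = U * (Uᵀ * T * U) * Uᵀ := by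
  rw [Matrix.mul_assoc Uᵀ, ← Matrix.mul_assoc U, hU', Matrix.one_mul,
    Matrix.mul_assoc, hU', Matrix.mul_one]

theorem trace_conj {U : Mt n} (hU : Uᵀ * U = 1) (A : Mt n) : (U * A * Uᵀ).trace = A.trace := by
  rw [trace_mul_comm, ← Matrix.mul_assoc, hU, Matrix.one_mul]

/-- (1) the Fisher information of the channel `N(0, 1 + Q²)` -/
theorem chan_cost {Q Y : Mt n} (hQ : Qᵀ = Q) (hY : Yᵀ = Y) :
    ((1 + Q * Q)⁻¹ * (Q * Y + Y * Q) * (1 + Q * Q)⁻¹ * (Q * Y + Y * Q)).trace ≤ hs Y := by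
  obtain ⟨U, q, hU, hU', rfl⟩ := exists_spec hQ
  have hM : (1 + spec U q * spec U q)⁻¹ = spec U (fun i => (1 + q i ^ 2)⁻¹) := by
    have := one_add_eq_spec hU hU' q 1
    rw [one_smul] at this
    rw [this, inv_spec hU hU' fun i => by positivity]
    simp only [one_mul]
  set X := Uᵀ * Y * U with hX
  have hXs : Xᵀ = X := by
    rw [hX, transpose_mul, transpose_mul, transpose_transpose, hY, Matrix.mul_assoc]
  have hYX : Y = U * X * Uᵀ := conj_inv hU' Y
  have hN : spec U q * Y + Y * spec U q = U * (diagonal q * X + X * diagonal q) * Uᵀ := by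
    rw [hYX]
    unfold spec
    rw [conj_mul hU, conj_mul hU, ← Matrix.add_mul, ← Matrix.mul_add]
  rw [hM, hN]
  unfold spec
  rw [conj_mul hU, conj_mul hU, conj_mul hU, trace_conj hU, ← hs_conj' hU' Y, ← hX]
  unfold trace
  refine Finset.sum_le_sum fun i _ => ?_
  rw [diag_apply, Matrix.mul_apply]
  refine Finset.sum_le_sum fun j _ => ?_
  rw [Matrix.mul_diagonal, Matrix.diagonal_mul, Matrix.add_apply, Matrix.add_apply,
    Matrix.mul_diagonal, Matrix.diagonal_mul, Matrix.mul_diagonal, Matrix.diagonal_mul]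
  have e : X j i = X i j := by
    conv_lhs => rw [← hXs]
    rfl
  rw [e]
  have h1 : 0 < 1 + q i ^ 2 := by positivity
  have h2 : 0 < 1 + q j ^ 2 := by positivity
  have e2 : (1 + q i ^ 2)⁻¹ * (q i * X i j + X i j * q j) * (1 + q j ^ 2)⁻¹ *
      (q j * X i j + X i j * q i) =
      X i j ^ 2 * ((q i + q j) ^ 2 / ((1 + q i ^ 2) * (1 + q j ^ 2))) := by
    field_simp
    ring
  rw [e2]
  have h3 : (q i + q j) ^ 2 / ((1 + q i ^ 2) * (1 + q j ^ 2)) ≤ 1 := by
    rw [div_le_one (by positivity)]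
    nlinarith [sq_nonneg (q i * q j - 1)]
  calc X i j ^ 2 * ((q i + q j) ^ 2 / ((1 + q i ^ 2) * (1 + q j ^ 2))) ≤ X i j ^ 2 * 1 :=
        mul_le_mul_of_nonneg_left h3 (sq_nonneg _)
    _ = _ := mul_one _

theorem q_cont {a l0 l1 : ℝ} (h0 : 0 < l0) (h1 : l0 ≤ l1) (s : ℝ) :
    ContinuousOn (fun l => q a l s) (uIcc l0 l1) := by
  intro l hl
  rw [uIcc_of_le h1] at hl
  have hl : 0 < l := h0.trans_le hl.1
  have hp : 0 < 1 + l * s ^ 2 := by positivity
  exact ContinuousAt.continuousWithinAt (ContinuousAt.div (by fun_prop) (by fun_prop) hp.ne')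

theorem inv_sq_cont {l0 l1 : ℝ} (h0 : 0 < l0) (h1 : l0 ≤ l1) :
    ContinuousOn (fun l : ℝ => (l ^ 2)⁻¹) (uIcc l0 l1) := by
  intro l hl
  rw [uIcc_of_le h1] at hl
  have hl : 0 < l := h0.trans_le hl.1
  exact ContinuousAt.continuousWithinAt (ContinuousAt.inv₀ (by fun_prop) (by positivity))

/-- `tr Q² - log det (1 + Q²)` -/
noncomputable def ben (Q : Mt n) : ℝ := (Q * Q).trace - Real.log (1 + Q * Q).det

theorem ben_spec {U : Mt n} (hU : Uᵀ * U = 1) (hU' : U * Uᵀ = 1) (q : Fin n → ℝ) :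
    ben (spec U q) = ∑ i, (q i ^ 2 - Real.log (1 + q i ^ 2)) := by
  unfold ben
  have := one_add_eq_spec hU hU' q 1
  rw [one_smul] at this
  rw [this, spec_mul hU, trace_spec hU, det_spec hU, Real.log_prod fun i _ => by positivity,
    Finset.sum_sub_distrib]
  simp only [one_mul, sq]

theorem ben_nonneg {Q : Mt n} (hQ : Qᵀ = Q) : 0 ≤ ben Q := by
  obtain ⟨U, q, hU, hU', rfl⟩ := exists_spec hQ
  rw [ben_spec hU hU']
  refine Finset.sum_nonneg fun i _ => ?_
  have := Real.log_le_sub_one_of_pos (by positivity : 0 < 1 + q i ^ 2)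
  linarith

/-- (3) the benefit, integrated over the levels -/
theorem benefit_mt {S : Mt n} (hS : Sᵀ = S) {a l0 l1 : ℝ} (ha : 0 ≤ a) (h0 : 0 < l0)
    (h1 : l0 ≤ l1) :
    (a ^ 2 - Real.pi * a) * (S * S).trace - a ^ 2 * l0 * (S * S * (S * S)).trace - n * a ^ 2 / l1 ≤
      ∫ l in l0..l1, (l ^ 2)⁻¹ * ben (Ql a l S) := by
  obtain ⟨U, s, hU, hU', rfl⟩ := exists_spec hS
  have hpos : ∀ l ∈ uIcc l0 l1, 0 < l := by
    intro l hl
    rw [uIcc_of_le h1] at hl
    exact h0.trans_le hl.1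
  have e : ∫ l in l0..l1, (l ^ 2)⁻¹ * ben (Ql a l (spec U s)) =
      ∫ l in l0..l1, ∑ i, (l ^ 2)⁻¹ * (q a l (s i) ^ 2 - Real.log (1 + q a l (s i) ^ 2)) := by
    refine intervalIntegral.integral_congr fun l hl => ?_
    have hl := hpos l hl
    change (l ^ 2)⁻¹ * ben (Ql a l (spec U s)) = _
    rw [Ql_spec hU hU' s hl.le, ben_spec hU hU', Finset.mul_sum]
  have cc : ∀ i, ContinuousOn (fun l => (l ^ 2)⁻¹ * (q a l (s i) ^ 2 -
      Real.log (1 + q a l (s i) ^ 2))) (uIcc l0 l1) := by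
    intro i
    have hq := (q_cont (a := a) h0 h1 (s i)).pow 2
    exact (inv_sq_cont h0 h1).mul (hq.sub (ContinuousOn.log (f := fun l => 1 + q a l (s i) ^ 2)
      (continuousOn_const.add hq) fun l _ => ne_of_gt (by positivity)))
  rw [e, intervalIntegral.integral_finsetSum fun i _ => (cc i).intervalIntegrable, spec_mul hU,
    spec_mul hU, trace_spec hU, trace_spec hU]
  have h2 := Finset.sum_le_sum fun (i : Fin n) (_ : i ∈ Finset.univ) =>
    benefit (s := s i) ha h0 h1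
  refine le_trans (le_of_eq ?_) h2
  rw [Finset.sum_sub_distrib, Finset.sum_sub_distrib, Finset.mul_sum, Finset.mul_sum]
  congr 1
  · congr 1
    · exact Finset.sum_congr rfl fun i _ => by ring
    · exact Finset.sum_congr rfl fun i _ => by ring
  · simp only [Finset.sum_const, Finset.card_univ, Fintype.card_fin, nsmul_eq_mul]
    ring

/-- (4) the weight: `∫ l⁻² tr (W Q²) ≤ a² tr (W S²)` -/
theorem weight_mt {S W : Mt n} (hS : Sᵀ = S) (hW : LeQ 0 W) {a l0 l1 : ℝ} (h0 : 0 < l0)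
    (h1 : l0 ≤ l1) :
    ∫ l in l0..l1, (l ^ 2)⁻¹ * (W * (Ql a l S * Ql a l S)).trace ≤
      a ^ 2 * (W * (S * S)).trace := by
  obtain ⟨U, s, hU, hU', rfl⟩ := exists_spec hS
  have hpos : ∀ l ∈ uIcc l0 l1, 0 < l := by
    intro l hl
    rw [uIcc_of_le h1] at hl
    exact h0.trans_le hl.1
  have tr : ∀ f : Fin n → ℝ, (W * spec U f).trace = ∑ i, f i * (Uᵀ * W * U) i i := by
    intro f
    unfold spec
    rw [← Matrix.mul_assoc, trace_mul_comm, ← Matrix.mul_assoc, ← Matrix.mul_assoc]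
    unfold trace
    refine Finset.sum_congr rfl fun i _ => ?_
    rw [diag_apply, Matrix.mul_diagonal, mul_comm]
  have hw : ∀ i, 0 ≤ (Uᵀ * W * U) i i := by
    intro i
    have h := hW (fun k => U k i)
    rw [zero_mulVec, dotProduct_zero] at h
    refine h.trans (le_of_eq ?_)
    rw [Matrix.mul_assoc, Matrix.mul_apply]
    unfold dotProduct mulVec dotProduct
    refine Finset.sum_congr rfl fun k _ => ?_
    rw [Matrix.mul_apply, transpose_apply]
  have e : ∫ l in l0..l1, (l ^ 2)⁻¹ * (W * (Ql a l (spec U s) * Ql a l (spec U s))).trace =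
      ∫ l in l0..l1, ∑ i, (Uᵀ * W * U) i i * ((l ^ 2)⁻¹ * q a l (s i) ^ 2) := by
    refine intervalIntegral.integral_congr fun l hl => ?_
    have hl := hpos l hl
    change (l ^ 2)⁻¹ * (W * (Ql a l (spec U s) * Ql a l (spec U s))).trace = _
    rw [Ql_spec hU hU' s hl.le, spec_mul hU, tr, Finset.mul_sum]
    exact Finset.sum_congr rfl fun i _ => by ring
  have cc : ∀ i, ContinuousOn (fun l => (Uᵀ * W * U) i i * ((l ^ 2)⁻¹ * q a l (s i) ^ 2))
      (uIcc l0 l1) := fun i =>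
    continuousOn_const.mul ((inv_sq_cont h0 h1).mul ((q_cont (a := a) h0 h1 (s i)).pow 2))
  rw [e, intervalIntegral.integral_finsetSum fun i _ => (cc i).intervalIntegrable, spec_mul hU,
    tr, Finset.mul_sum]
  refine Finset.sum_le_sum fun i _ => ?_
  rw [intervalIntegral.integral_const_mul]
  have := mul_le_mul_of_nonneg_left (q_sq_le (a := a) (s := s i) h0 h1) (hw i)
  refine this.trans (le_of_eq ?_)
  ring

end Crest.Agent.R201.Ch150
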