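import Crest.Agent.R201.MX1_354
import Crest.Agent.R201.Tw1_807

/-!
# R201, leaves FD3 (`root_field`) and FD3' (`ppd_field`), helper354

The root of a `CB` field which is bounded below is `CB`, with the Lyapunov derivative.
-/

set_option autoImplicit false
open MeasureTheory Matrix
open scoped Matrix.Norms.Operator

namespace Crest.Agent.R201.MX354

open Crest.Agent.R201

variable {n : ℕ}

/-! ### estimates for the Lyapunov equation -/

lemma hs_nonneg {m m' : Type*} [Fintype m] [Fintype m'] (A : Matrix m m' ℝ) : 0 ≤ hs A :=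
  Finset.sum_nonneg fun _ _ => Finset.sum_nonneg fun _ _ => sq_nonneg _

lemma sq_le_hs {m m' : Type*} [Fintype m] [Fintype m'] (A : Matrix m m' ℝ) (i : m) (j : m') :
    A i j ^ 2 ≤ hs A := by
  refine le_trans ?_ (Finset.single_le_sum (f := fun i => ∑ j, A i j ^ 2)
    (fun _ _ => Finset.sum_nonneg fun _ _ => sq_nonneg _) (Finset.mem_univ i))
  exact Finset.single_le_sum (f := fun j => A i j ^ 2) (fun _ _ => sq_nonneg _) (Finset.mem_univ j)

lemma hs_transpose {m m' : Type*} [Fintype m] [Fintype m'] (A : Matrix m m' ℝ) :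
    hs Aᵀ = hs A := by
  simp only [hs, transpose_apply]
  exact Finset.sum_comm

lemma trace_mul_sq_le {m m' : Type*} [Fintype m] [Fintype m'] (A B : Matrix m m' ℝ) :
    (A * Bᵀ).trace ^ 2 ≤ hs A * hs B := by
  have h := Finset.sum_mul_sq_le_sq_mul_sq (Finset.univ : Finset (m × m'))
    (fun i => A i.1 i.2) (fun i => B i.1 i.2)
  simp only [Fintype.sum_prod_type] at h
  have e : (A * Bᵀ).trace = ∑ i, ∑ j, A i j * B i j := by
    simp [trace, Matrix.mul_apply]
  rw [e]
  exact h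

lemma hs_mul_le {m m' m'' : Type*} [Fintype m] [Fintype m'] [Fintype m''] (A : Matrix m m' ℝ)
    (B : Matrix m' m'' ℝ) : hs (A * B) ≤ hs A * hs B := by
  rw [← hs_transpose B]
  simp only [hs, Finset.sum_mul_sum]
  refine Finset.sum_le_sum fun i _ => Finset.sum_le_sum fun j _ => ?_
  rw [Matrix.mul_apply]
  refine (Finset.sum_mul_sq_le_sq_mul_sq Finset.univ _ _).trans (le_of_eq ?_)
  rw [Finset.sum_mul_sum]
  simp only [transpose_apply]

/-- if `Z D + D Z₀ = K`, `D` symmetric, `Z ≥ 0`, `Z₀ > 0` then `|D| ≤ C(Z₀) |K|` -/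
lemma lyap_bound {Z₀ : Mt n} (hZ₀ : Z₀.PosDef) : ∃ C : ℝ, 0 ≤ C ∧ ∀ Z D K : Mt n, Z.PosSemidef →
    Dᵀ = D → Z * D + D * Z₀ = K → hs D ≤ C * hs K := by
  obtain ⟨T, hT, hTT⟩ := root_exists hZ₀.posSemidef
  have hTt := posSemidef_transpose hT
  have hdet : IsUnit T.det := by
    have h1 : Z₀.det ≠ 0 := hZ₀.det_pos.ne'
    rw [← hTT, det_mul] at h1
    exact isUnit_iff_ne_zero.mpr (left_ne_zero_of_mul h1)
  refine ⟨hs T⁻¹ ^ 2, sq_nonneg _, fun Z D K hZ hD hK => ?_⟩
  have h1 : hs D ≤ hs T⁻¹ * hs (T * D) := by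
    have : D = T⁻¹ * (T * D) := by
      rw [← Matrix.mul_assoc, nonsing_inv_mul _ hdet, Matrix.one_mul]
    calc hs D = hs (T⁻¹ * (T * D)) := by rw [← this]
      _ ≤ _ := hs_mul_le _ _
  have h2 : hs (T * D) = (D * D * Z₀).trace := by
    rw [hs_eq_trace, transpose_mul, hD, hTt, ← hTT, Matrix.mul_assoc T D, trace_mul_comm]
    simp only [Matrix.mul_assoc]
  have h3 : 0 ≤ (D * Z * D).trace := by
    have := hZ.conjTranspose_mul_mul_same D
    rw [conjTranspose_eq_transpose_of_trivial, hD] at this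
    exact this.trace_nonneg
  have h4 : (D * Z * D).trace + (D * D * Z₀).trace = (D * Kᵀᵀ).trace := by
    rw [transpose_transpose, ← hK, Matrix.mul_add, trace_add]
    simp only [Matrix.mul_assoc]
  have h5 : (D * Kᵀᵀ).trace ^ 2 ≤ hs D * hs Kᵀ := trace_mul_sq_le D Kᵀ
  rw [hs_transpose] at h5
  have h6 : hs D ≤ hs T⁻¹ * (D * Kᵀᵀ).trace := by
    refine h1.trans (mul_le_mul_of_nonneg_left ?_ (hs_nonneg _))
    rw [h2]; linarith
  have h7 : hs D ^ 2 ≤ hs T⁻¹ ^ 2 * (hs D * hs K) := by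
    calc hs D ^ 2 ≤ (hs T⁻¹ * (D * Kᵀᵀ).trace) ^ 2 :=
          pow_le_pow_left₀ (hs_nonneg _) h6 2
      _ = hs T⁻¹ ^ 2 * (D * Kᵀᵀ).trace ^ 2 := by ring
      _ ≤ _ := mul_le_mul_of_nonneg_left h5 (sq_nonneg _)
  rcases (hs_nonneg D).lt_or_eq with hp | h0
  · refine le_of_mul_le_mul_right ?_ hp
    calc hs D * hs D = hs D ^ 2 := by ring
      _ ≤ _ := h7
      _ = _ := by ring
  · rw [← h0]; exact mul_nonneg (sq_nonneg _) (hs_nonneg _)

/-- if `Z D + D Z = K`, `D` symmetric, `Z ≥ c > 0` then `4 c² |D|² ≤ |K|²` -/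
lemma lyap_bound' {c : ℝ} (hc : 0 < c) {Z D K : Mt n} (hZ : LeQ (c • (1 : Mt n)) Z)
    (hD : Dᵀ = D) (hK : D * Z + Z * D = K) : 4 * c ^ 2 * hs D ≤ hs K := by
  have h1 : c * hs D ≤ (D * Z * D).trace := by
    have e : ∀ C : Mt n, (D * C * D).trace = ∑ i, (D i) ⬝ᵥ (C *ᵥ (D i)) := by
      intro C
      simp only [trace, diag_apply]
      refine Finset.sum_congr rfl fun i _ => ?_
      rw [Matrix.mul_assoc, Matrix.mul_apply]
      simp only [dotProduct]
      refine Finset.sum_congr rfl fun j _ => ?_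
      rw [Matrix.mul_apply]
      simp only [mulVec, dotProduct]
      congr 1
      refine Finset.sum_congr rfl fun k _ => ?_
      congr 1
      conv_lhs => rw [← hD]
      rfl
    have h2 : (D * (c • (1 : Mt n)) * D).trace = c * hs D := by
      rw [hs_eq_trace, hD, mul_smul_comm, smul_mul_assoc, trace_smul, Matrix.mul_one, smul_eq_mul]
    rw [← h2, e, e]
    exact Finset.sum_le_sum fun i _ => hZ (D i)
  have h4 : 2 * (D * Z * D).trace = (D * Kᵀᵀ).trace := by
    have h8 : (D * (D * Z)).trace = (D * Z * D).trace := trace_mul_comm _ _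
    rw [transpose_transpose, ← hK, Matrix.mul_add, trace_add, h8, ← Matrix.mul_assoc]
    ring
  have h5 : (D * Kᵀᵀ).trace ^ 2 ≤ hs D * hs Kᵀ := trace_mul_sq_le D Kᵀ
  rw [hs_transpose] at h5
  have h6 : 2 * c * hs D ≤ (D * Kᵀᵀ).trace := by rw [← h4]; linarith
  have h7 : (2 * c * hs D) ^ 2 ≤ hs D * hs K :=
    (pow_le_pow_left₀ (by have := hs_nonneg D; positivity) h6 2).trans h5
  rcases (hs_nonneg D).lt_or_eq with hp | h0
  · refine le_of_mul_le_mul_right ?_ hp
    calc 4 * c ^ 2 * hs D * hs D = (2 * c * hs D) ^ 2 := by ring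
      _ ≤ _ := h7
      _ = _ := by ring
  · rw [← h0]; simpa using hs_nonneg K

/-! ### the root of a `C¹` field -/

lemma mt_eq_sum (A : Mt n) : A = ∑ i, ∑ j, A i j • Matrix.single i j (1 : ℝ) := by
  conv_lhs => rw [Matrix.matrix_eq_sum_single A]
  simp [Matrix.smul_single]

lemma contDiffAt_of_entries {X : Type*} [NormedAddCommGroup X] [NormedSpace ℝ X] {F : X → Mt n}
    {x : X} (h : ∀ i j, ContDiffAt ℝ 1 (fun y => F y i j) x) : ContDiffAt ℝ 1 F x := by
  have e : F = fun y => ∑ i, ∑ j, F y i j • Matrix.single i j (1 : ℝ) := by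
    funext y; exact mt_eq_sum (F y)
  rw [e]
  exact ContDiffAt.sum fun i _ => ContDiffAt.sum fun j _ => (h i j).smul contDiffAt_const

lemma continuousAt_of_entries {X : Type*} [TopologicalSpace X] {F : X → Mt n}
    {x : X} (h : ∀ i j, ContinuousAt (fun y => F y i j) x) : ContinuousAt F x := by
  have e : F = fun y => ∑ i, ∑ j, F y i j • Matrix.single i j (1 : ℝ) := by
    funext y; exact mt_eq_sum (F y)
  rw [e]
  exact tendsto_finsetSum _ fun i _ => tendsto_finsetSum _ fun j _ =>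
    (h i j).smul continuousAt_const

/-- the entry as a continuous linear map -/
noncomputable def entryL (i j : Fin n) : Mt n →L[ℝ] ℝ :=
  LinearMap.toContinuousLinearMap
    { toFun := fun A => A i j, map_add' := fun _ _ => rfl, map_smul' := fun _ _ => rfl }

lemma entryL_apply (i j : Fin n) (A : Mt n) : entryL i j A = A i j := rfl

/-- the Lyapunov map -/
def lyapL (Z : Mt n) : Mt n →ₗ[ℝ] Mt n where
  toFun := fun A => A * Z + Z * A
  map_add' := fun A B => by simp only [Matrix.add_mul, Matrix.mul_add]; abel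
  map_smul' := fun c A => by simp [smul_add]

lemma lyapL_inj {Z : Mt n} (hZ : Z.PosDef) : Function.Injective (lyapL Z) := by
  rw [← LinearMap.ker_eq_bot, LinearMap.ker_eq_bot']
  intro A hA
  exact lyap_inj hZ hA

/-- the Lyapunov map as a continuous linear equivalence -/
noncomputable def lyapE {Z : Mt n} (hZ : Z.PosDef) : Mt n ≃L[ℝ] Mt n :=
  (LinearEquiv.ofInjectiveEndo (lyapL Z) (lyapL_inj hZ)).toContinuousLinearEquiv

lemma lyapE_apply {Z : Mt n} (hZ : Z.PosDef) (A : Mt n) : lyapE hZ A = A * Z + Z * A := rfl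

lemma hasFDerivAt_sq {Z : Mt n} (hZ : Z.PosDef) :
    HasFDerivAt (fun A : Mt n => A * A) (lyapE hZ : Mt n →L[ℝ] Mt n) Z := by
  have h := (hasFDerivAt_id (𝕜 := ℝ) Z).mul' (hasFDerivAt_id (𝕜 := ℝ) Z)
  have e : (fun A : Mt n => A * A) = (id * id : Mt n → Mt n) := by
    funext A; rfl
  rw [e]
  refine h.congr_fderiv ?_
  ext1 A
  show Z * A + A * Z = A * Z + Z * A
  exact add_comm _ _

lemma root_continuousAt {X : Type*} [TopologicalSpace X] {G Z : X → Mt n} {x : X}
    (hG : ∀ i j, ContinuousAt (fun y => G y i j) x) (hZ : ∀ y, (Z y).PosDef)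
    (hZG : ∀ y, Z y * Z y = G y) (i j : Fin n) : ContinuousAt (fun y => Z y i j) x := by
  obtain ⟨C, hC, h⟩ := lyap_bound (hZ x)
  have h1 : ∀ y, (Z y i j - Z x i j) ^ 2 ≤ C * hs (G y - G x) := by
    intro y
    have h2 := h (Z y) (Z y - Z x) (G y - G x) (hZ y).posSemidef
      (by rw [transpose_sub, posSemidef_transpose (hZ y).posSemidef,
        posSemidef_transpose (hZ x).posSemidef])
      (by rw [Matrix.mul_sub, Matrix.sub_mul, hZG, hZG]; abel)
    exact (sq_le_hs (Z y - Z x) i j).trans h2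
  have h3 : Filter.Tendsto (fun y => C * hs (G y - G x)) (nhds x) (nhds 0) := by
    have h4 : Filter.Tendsto (fun y => C * hs (G y - G x)) (nhds x) (nhds (C * hs (G x - G x))) := by
      unfold hs
      refine Filter.Tendsto.const_mul _ (tendsto_finsetSum _ fun a _ =>
        tendsto_finsetSum _ fun b _ => Filter.Tendsto.pow ?_ 2)
      simp only [Matrix.sub_apply]
      exact (hG a b).sub_const _
    have h5 : C * hs (G x - G x) = 0 := by rw [sub_self]; simp [hs]
    rwa [h5] at h4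
  have h6 : Filter.Tendsto (fun y => (Z y i j - Z x i j) ^ 2) (nhds x) (nhds 0) :=
    squeeze_zero (fun y => sq_nonneg _) h1 h3
  have h7 : Filter.Tendsto (fun y => |Z y i j - Z x i j|) (nhds x) (nhds 0) := by
    have h8 := (Real.continuous_sqrt.tendsto 0).comp h6
    simp only [Real.sqrt_zero] at h8
    refine h8.congr fun y => ?_
    simp [Real.sqrt_sq_eq_abs]
  have h9 : Filter.Tendsto (fun y => Z y i j - Z x i j) (nhds x) (nhds 0) :=
    (tendsto_zero_iff_abs_tendsto_zero _).mpr h7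
  have h10 := h9.add_const (Z x i j)
  simpa [ContinuousAt] using h10

lemma root_contDiffAt {X : Type*} [NormedAddCommGroup X] [NormedSpace ℝ X] {G Z : X → Mt n} {x : X}
    (hG : ∀ i j, ContDiffAt ℝ 1 (fun y => G y i j) x) (hZ : ∀ y, (Z y).PosDef)
    (hZG : ∀ y, Z y * Z y = G y) (i j : Fin n) : ContDiffAt ℝ 1 (fun y => Z y i j) x := by
  have hc : ContinuousAt Z x :=
    continuousAt_of_entries fun i j =>
      root_continuousAt (fun i j => (hG i j).continuousAt) hZ hZG i j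
  have hf : ContDiffAt ℝ 1 (fun A : Mt n => A * A) (Z x) :=
    (contDiff_id.mul contDiff_id).contDiffAt
  have hf' := hasFDerivAt_sq (hZ x)
  have h1 := hf.to_localInverse hf' one_ne_zero
  have h2 : ∀ᶠ y in nhds x, hf.localInverse hf' one_ne_zero (G y) = Z y := by
    have h3 := (hf.hasStrictFDerivAt' hf' one_ne_zero).eventually_left_inverse
    have h4 := hc.eventually h3
    filter_upwards [h4] with y hy
    rw [← hZG y]
    exact hy
  have h5 : ContDiffAt ℝ 1 (fun y => hf.localInverse hf' one_ne_zero (G y)) x := by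
    refine ContDiffAt.comp x ?_ (contDiffAt_of_entries hG)
    rw [← hZG x]
    exact h1
  have h6 : ContDiffAt ℝ 1 Z x := h5.congr_of_eventuallyEq (h2.mono fun _ h => h.symm)
  exact (entryL i j).contDiff.contDiffAt.comp x h6

/-- root of a `CB` field bounded below: `CB`, and the derivative equation -/
theorem root_CB {G Z : E n → Mt n} (hG : ∀ i, CB (famM G i)) {c : ℝ} (hc : 0 < c)
    (hZc : ∀ x, LeQ (c • (1 : Mt n)) (Z x)) (hZ : ∀ x, (Z x).PosDef)
    (hZG : ∀ x, Z x * Z x = G x) :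
    (∀ i, CB (famM Z i)) ∧ (∀ x k, (pdM k Z x)ᵀ = pdM k Z x) ∧
    ∀ x k, pdM k Z x * Z x + Z x * pdM k Z x = pdM k G x := by
  have hC1 : ∀ i j, ContDiff ℝ 1 (fun y => Z y i j) := by
    intro i j
    rw [contDiff_iff_contDiffAt]
    intro x
    exact root_contDiffAt (fun a b => (hG (a, b)).1.contDiffAt) hZ hZG i j
  have hd : ∀ i j, Differentiable ℝ (fun y => Z y i j) := fun i j =>
    (hC1 i j).differentiable (by simp)
  have hsymm : ∀ x k, (pdM k Z x)ᵀ = pdM k Z x := by
    intro x k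
    ext i j
    simp only [transpose_apply, pdM, Matrix.of_apply]
    congr 1
    funext y
    have := congrFun (congrFun (posSemidef_transpose (hZ y).posSemidef) i) j
    simpa using this
  have hder : ∀ x k, pdM k Z x * Z x + Z x * pdM k Z x = pdM k G x := by
    intro x k
    ext i j
    have e1 : (fun y => G y i j) = fun y => ∑ l, Z y i l * Z y l j := by
      funext y
      rw [← hZG y, Matrix.mul_apply]
    simp only [Matrix.add_apply, Matrix.mul_apply, pdM, Matrix.of_apply]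
    rw [e1, Tw807.pd_sum _ k fun l _ => (hd i l x).fun_mul (hd l j x), ← Finset.sum_add_distrib]
    refine Finset.sum_congr rfl fun l _ => ?_
    rw [Tw807.pd_mul k (hd i l x) (hd l j x)]
    ring
  refine ⟨?_, hsymm, hder⟩
  rintro ⟨i, j⟩
  rw [Tw807.cb_iff]
  refine ⟨hC1 i j, ?_, ?_⟩
  · -- bound of the entries: `Z_ij² ≤ Tr Z² = Tr G`
    have hb : ∀ a, ∃ B : ℝ, ∀ x, |G x a a| ≤ B := fun a => (Tw807.cb_iff.1 (hG (a, a))).2.1
    choose B hB using hb
    refine ⟨1 + ∑ a, B a, fun x => ?_⟩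
    have h1 : (Z x i j) ^ 2 ≤ ∑ a, B a := by
      refine (sq_le_hs (Z x) i j).trans ?_
      rw [hs_eq_trace, posSemidef_transpose (hZ x).posSemidef, hZG x]
      exact Finset.sum_le_sum fun a _ => (le_abs_self _).trans (hB a x)
    show |Z x i j| ≤ _
    have h2 : |Z x i j| ≤ 1 + Z x i j ^ 2 := by
      rw [← sq_abs]
      nlinarith [sq_nonneg (|Z x i j| - 1), abs_nonneg (Z x i j)]
    linarith
  · intro k
    have hb : ∀ a b, ∃ B : ℝ, ∀ x, |pd k (fun y => G y a b) x| ≤ B := fun a b =>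
      (Tw807.cb_iff.1 (hG (a, b))).2.2 k
    choose B hB using hb
    refine ⟨1 + (1 / (4 * c ^ 2)) * ∑ a, ∑ b, B a b ^ 2, fun x => ?_⟩
    have h1 := lyap_bound' hc (hZc x) (hsymm x k) (hder x k)
    have h2 : hs (pdM k G x) ≤ ∑ a, ∑ b, B a b ^ 2 := by
      refine Finset.sum_le_sum fun a _ => Finset.sum_le_sum fun b _ => ?_
      rw [← sq_abs]
      exact pow_le_pow_left₀ (abs_nonneg _) (hB a b x) 2
    have h3 : (pd k (fun y => Z y i j) x) ^ 2 ≤ hs (pdM k Z x) := sq_le_hs (pdM k Z x) i j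
    have h4 : hs (pdM k Z x) ≤ (1 / (4 * c ^ 2)) * ∑ a, ∑ b, B a b ^ 2 := by
      rw [one_div, ← div_eq_inv_mul, le_div_iff₀ (by positivity)]
      calc hs (pdM k Z x) * (4 * c ^ 2) = 4 * c ^ 2 * hs (pdM k Z x) := by ring
        _ ≤ _ := h1.trans h2
    show |pd k (fun y => Z y i j) x| ≤ _
    have h5 : |pd k (fun y => Z y i j) x| ≤ 1 + (pd k (fun y => Z y i j) x) ^ 2 := by
      rw [← sq_abs]
      nlinarith [sq_nonneg (|pd k (fun y => Z y i j) x| - 1),
        abs_nonneg (pd k (fun y => Z y i j) x)]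
    linarith

/-- `c² ≤ Z²`, `Z ≥ 0` gives `c ≤ Z` -/
lemma leQ_of_sq {c : ℝ} {Z : Mt n} (hZ : Z.PosSemidef)
    (h : LeQ (c ^ 2 • (1 : Mt n)) (Z * Z)) : LeQ (c • (1 : Mt n)) Z := by
  refine PosSemidef.leQ (sub_posSemidef hZ (by simp) ?_)
  have : (c • (1 : Mt n)) * (c • (1 : Mt n)) = c ^ 2 • (1 : Mt n) := by
    rw [smul_mul_smul_comm, Matrix.one_mul, sq]
  rw [this]
  exact h

lemma posDef_of_leQ {c : ℝ} (hc : 0 < c) {Z : Mt n} (hZ : Zᵀ = Z)
    (h : LeQ (c • (1 : Mt n)) Z) : Z.PosDef := by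
  refine PosDef.of_dotProduct_mulVec_pos ?_ ?_
  · rw [IsHermitian, conjTranspose_eq_transpose_of_trivial, hZ]
  · intro x hx
    have h1 := h x
    rw [smul_mulVec, one_mulVec, dotProduct_smul, smul_eq_mul] at h1
    have h2 : 0 < x ⬝ᵥ x := by
      rcases (Finset.sum_nonneg fun i _ => mul_self_nonneg (x i) :
        (0 : ℝ) ≤ x ⬝ᵥ x).lt_or_eq with hp | h0
      · exact hp
      · exfalso
        exact hx (dotProduct_self_eq_zero.mp h0.symm)
    rw [star_trivial]
    exact lt_of_lt_of_le (mul_pos hc h2) h1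

lemma gram_CB {R : Type*} [Fintype R] {M N : E n → T3 n R} (hM : ∀ i, CB (fam3 M i))
    (hN : ∀ i, CB (fam3 N i)) (i : Fin n × Fin n) :
    CB (famM (fun x => gram (M x) (N x)) i) := by
  obtain ⟨i, j⟩ := i
  show CB (fun x => ∑ b, ∑ c, ∑ r, M x i b c r * N x j b c r)
  refine Tw807.cb_sum _ fun b _ => Tw807.cb_sum _ fun c _ => Tw807.cb_sum _ fun r _ => ?_
  exact Tw807.cb_mul (hM (i, b, c, r)) (hN (j, b, c, r))

lemma pdM_gram {R : Type*} [Fintype R] {M N : E n → T3 n R} (hM : ∀ i, CB (fam3 M i))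
    (hN : ∀ i, CB (fam3 N i)) (k : Fin n) (x : E n) :
    pdM k (fun x => gram (M x) (N x)) x
      = gram (pdT k M x) (N x) + gram (M x) (pdT k N x) := by
  ext i j
  have hMd : ∀ a b c r, Differentiable ℝ (fun y => M y a b c r) := fun a b c r =>
    Tw807.cb_diff (hM (a, b, c, r))
  have hNd : ∀ a b c r, Differentiable ℝ (fun y => N y a b c r) := fun a b c r =>
    Tw807.cb_diff (hN (a, b, c, r))
  simp only [pdM, Matrix.of_apply, Matrix.add_apply, gram, pdT]
  rw [Tw807.pd_sum _ k fun b _ => by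
    refine DifferentiableAt.fun_sum fun c _ => DifferentiableAt.fun_sum fun r _ => ?_
    exact (hMd i b c r x).fun_mul (hNd j b c r x)]
  rw [← Finset.sum_add_distrib]
  refine Finset.sum_congr rfl fun b _ => ?_
  rw [Tw807.pd_sum _ k fun c _ => by
    refine DifferentiableAt.fun_sum fun r _ => ?_
    exact (hMd i b c r x).fun_mul (hNd j b c r x)]
  rw [← Finset.sum_add_distrib]
  refine Finset.sum_congr rfl fun c _ => ?_
  rw [Tw807.pd_sum _ k fun r _ => (hMd i b c r x).fun_mul (hNd j b c r x)]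
  rw [← Finset.sum_add_distrib]
  refine Finset.sum_congr rfl fun r _ => ?_
  rw [Tw807.pd_mul k (hMd i b c r x) (hNd j b c r x)]
  ring

section

variable (K : KD n)

/-- FD3 root field: `Z` is `CB` with the derivative equation -/
theorem root_field {R : Type} [Fintype R] {a : ℝ} {M : E n → T3 n R} {Z : E n → Mt n}
    (hp : Pack K R a M Z) :
    (∀ i, CB (famM Z i)) ∧ (∀ x k, (pdM k Z x)ᵀ = pdM k Z x) ∧
    ∀ x k, pdM k Z x * Z x + Z x * pdM k Z x
      = gram (pdT k M x) (M x) + gram (M x) (pdT k M x) := by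
  obtain ⟨δ, hδ, hδ'⟩ := hp.pos
  have hc : 0 < Real.sqrt δ := Real.sqrt_pos.mpr hδ
  have h1 := root_CB (G := fun x => gram (M x) (M x)) (Z := Z) (fun i => gram_CB hp.cb hp.cb i) hc
    (fun x => leQ_of_sq (hp.Zpos x).posSemidef (by
      rw [Real.sq_sqrt hδ.le, hp.Zsq x]; exact hδ' x)) hp.Zpos hp.Zsq
  refine ⟨h1.1, h1.2.1, fun x k => ?_⟩
  rw [h1.2.2 x k, pdM_gram hp.cb hp.cb]

end

/-- FD3' the smooth positive part is `CB`, with derivative given by a Lyapunov solution -/
theorem ppd_field {W : E n → Mt n} (hW : ∀ i, CB (famM W i)) (hWs : ∀ x, (W x)ᵀ = W x) {d : ℝ}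
    (hd : 0 < d) :
    (∀ i, CB (famM (fun x => ppd d (W x)) i)) ∧
    ∀ k x, ∃ S : Mt n, Sᵀ = S ∧
      S * rt (W x * W x + d ^ 2 • 1) + rt (W x * W x + d ^ 2 • 1) * S
        = W x * pdM k W x + pdM k W x * W x ∧
      pdM k (fun y => ppd d (W y)) x = (1 / 2 : ℝ) • (pdM k W x + S) := by
  have hpsd : ∀ x, (W x * W x).PosSemidef := by
    intro x
    have := posSemidef_mul_transpose (W x)
    rwa [hWs x] at this
  have hpsd' : ∀ x, (W x * W x + d ^ 2 • (1 : Mt n)).PosSemidef := by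
    intro x
    exact (hpsd x).add (PosSemidef.one.smul (sq_nonneg d))
  have hle : ∀ x, LeQ (d ^ 2 • (1 : Mt n)) (W x * W x + d ^ 2 • (1 : Mt n)) := by
    intro x
    refine PosSemidef.leQ ?_
    rw [add_sub_cancel_right]
    exact hpsd x
  set Z : E n → Mt n := fun x => rt (W x * W x + d ^ 2 • (1 : Mt n)) with hZdef
  have hZs : ∀ x, (Z x).PosSemidef ∧ Z x * Z x = W x * W x + d ^ 2 • (1 : Mt n) :=
    fun x => rt_spec (hpsd' x)
  have hZc : ∀ x, LeQ (d • (1 : Mt n)) (Z x) := fun x =>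
    leQ_of_sq (hZs x).1 (by rw [(hZs x).2]; exact hle x)
  have hZp : ∀ x, (Z x).PosDef := fun x =>
    posDef_of_leQ hd (posSemidef_transpose (hZs x).1) (hZc x)
  have hWd : ∀ i j, Differentiable ℝ (fun y => W y i j) := fun i j => Tw807.cb_diff (hW (i, j))
  have hGcb : ∀ i, CB (famM (fun x => W x * W x + d ^ 2 • (1 : Mt n)) i) := by
    rintro ⟨i, j⟩
    have e : famM (fun x => W x * W x + d ^ 2 • (1 : Mt n)) (i, j)
        = fun x => (∑ l, W x i l * W x l j) + (d ^ 2 • (1 : Mt n)) i j := by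
      funext x
      simp only [famM, Matrix.add_apply, Matrix.mul_apply]
    rw [e]
    exact Tw807.cb_add (Tw807.cb_sum _ fun l _ => Tw807.cb_mul (hW (i, l)) (hW (l, j)))
      (Tw807.cb_const _)
  obtain ⟨h1, h2, h3⟩ := root_CB hGcb hd hZc hZp (fun x => (hZs x).2)
  have hZd : ∀ i j, Differentiable ℝ (fun y => Z y i j) := fun i j => Tw807.cb_diff (h1 (i, j))
  refine ⟨?_, ?_⟩
  · rintro ⟨i, j⟩
    have e : famM (fun x => ppd d (W x)) (i, j) = fun x => (1 / 2 : ℝ) * (W x i j + Z x i j) := by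
      funext x
      simp only [famM, ppd, Matrix.smul_apply, Matrix.add_apply, smul_eq_mul, hZdef]
    rw [e]
    exact Tw807.cb_const_mul _ (Tw807.cb_add (hW (i, j)) (h1 (i, j)))
  · intro k x
    refine ⟨pdM k Z x, h2 x k, ?_, ?_⟩
    · rw [h3 x k]
      ext i j
      have e : (fun y => (W y * W y + d ^ 2 • (1 : Mt n)) i j)
          = fun y => (∑ l, W y i l * W y l j) + (d ^ 2 • (1 : Mt n)) i j := by
        funext y
        simp only [Matrix.add_apply, Matrix.mul_apply]
      simp only [pdM, Matrix.of_apply, Matrix.add_apply, Matrix.mul_apply]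
      have e' : (fun y => (∑ l, W y i l * W y l j) + (d ^ 2 • (1 : Mt n)) i j)
          = fun y => (∑ l, W y i l * W y l j) + (d ^ 2 • (1 : Mt n)) i j := rfl
      rw [Tw807.pd_add k (DifferentiableAt.fun_sum fun l _ => (hWd i l x).fun_mul (hWd l j x))
        (differentiableAt_const _), Tw807.pd_const, add_zero,
        Tw807.pd_sum _ k fun l _ => (hWd i l x).fun_mul (hWd l j x), ← Finset.sum_add_distrib]
      refine Finset.sum_congr rfl fun l _ => ?_
      rw [Tw807.pd_mul k (hWd i l x) (hWd l j x)]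
    · ext i j
      simp only [pdM, Matrix.of_apply, Matrix.add_apply, Matrix.smul_apply, smul_eq_mul]
      have e : (fun y => ppd d (W y) i j) = fun x => (1 / 2 : ℝ) * (W x i j + Z x i j) := by
        funext x
        simp only [ppd, Matrix.smul_apply, Matrix.add_apply, smul_eq_mul, hZdef]
      rw [e, Tw807.pd_const_mul _ k ((hWd i j x).fun_add (hZd i j x)),
        Tw807.pd_add k (hWd i j x) (hZd i j x)]

end Crest.Agent.R201.MX354
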