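import Crest.Agent.R201.Ch2_150
import Crest.Agent.R201.FD3_354

/-!
# R201, LSI half (helper150): the channel matrix field `x ↦ Ql a l (S x)` is `CB`
-/

set_option autoImplicit false
open MeasureTheory Matrix Set
open scoped Matrix.Norms.Operator

namespace Crest.Agent.R201.Ch150

open Crest.Agent.R201 Crest.Agent.R201.NB152

variable {n : ℕ}

/-! ### pointwise bounds -/

theorem rho_mem {l s : ℝ} (hl : 0 ≤ l) : 0 < rho l s ∧ rho l s ≤ 1 := by
  unfold rho
  refine ⟨by positivity, inv_le_one_of_one_le₀ ?_⟩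
  have : 0 ≤ l * s ^ 2 := by positivity
  linarith

theorem q_mem {a l s : ℝ} (ha : 0 ≤ a) (hl : 0 ≤ l) :
    0 ≤ q a l s ∧ q a l s ≤ a ∧ q a l s ≤ a * l * s ^ 2 ∧ q a l s ^ 2 ≤ a ^ 2 * l * s ^ 2 := by
  have hp : 0 < 1 + l * s ^ 2 := by positivity
  have h1 : 0 ≤ q a l s := by unfold q; positivity
  have h2 : q a l s ≤ a := by
    unfold q
    rw [div_le_iff₀ hp]
    nlinarith
  have h3 : q a l s ≤ a * l * s ^ 2 := by
    unfold q
    exact div_le_self (by positivity) (by nlinarith [mul_nonneg hl (sq_nonneg s)])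
  refine ⟨h1, h2, h3, ?_⟩
  calc q a l s ^ 2 = q a l s * q a l s := sq _
    _ ≤ a * (a * l * s ^ 2) := mul_le_mul h2 h3 h1 ha
    _ = _ := by ring

theorem Ql_bounds {S : Mt n} (hS : Sᵀ = S) {a l : ℝ} (ha : 0 ≤ a) (hl : 0 ≤ l) :
    LeQ 0 (Ql a l S) ∧ LeQ (Ql a l S) (a • (1 : Mt n)) ∧
    LeQ (Ql a l S * Ql a l S) (a ^ 2 • (1 : Mt n)) ∧
    LeQ (Ql a l S * Ql a l S) ((a ^ 2 * l) • (S * S)) := by
  obtain ⟨U, s, h1, h2, rfl⟩ := exists_spec hS
  have hz : (0 : Mt n) = spec U (fun _ => 0) := by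
    unfold spec
    simp
  rw [Ql_spec h1 h2 s hl, spec_mul h1, spec_mul h1, ← spec_one h2, spec_smul, spec_smul, spec_smul,
    hz]
  refine ⟨spec_mono U fun i => (q_mem ha hl).1, spec_mono U fun i => ?_, spec_mono U fun i => ?_,
    spec_mono U fun i => ?_⟩
  · rw [mul_one]
    exact (q_mem ha hl).2.1
  · have := q_mem (s := s i) ha hl
    nlinarith
  · have := (q_mem (s := s i) ha hl).2.2.2
    rw [← sq, ← sq]
    exact this

theorem hs_spec {U : Mt n} (hU : Uᵀ * U = 1) (f : Fin n → ℝ) : hs (spec U f) = ∑ i, f i ^ 2 := by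
  rw [hs_eq_trace, spec_transpose, spec_mul hU, trace_spec hU]
  exact Finset.sum_congr rfl fun i _ => (sq _).symm

theorem hs_Rl_le {S : Mt n} (hS : Sᵀ = S) {l : ℝ} (hl : 0 ≤ l) : hs (Rl l S) ≤ n := by
  obtain ⟨U, s, h1, h2, rfl⟩ := exists_spec hS
  rw [Rl_spec h1 h2 s hl, hs_spec h1]
  have : ∀ i : Fin n, rho l (s i) ^ 2 ≤ 1 := fun i => by
    have := rho_mem (s := s i) hl
    nlinarith [this.1, this.2]
  calc ∑ i, rho l (s i) ^ 2 ≤ ∑ _i : Fin n, (1 : ℝ) := Finset.sum_le_sum fun i _ => this i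
    _ = n := by simp

theorem hs_Ql_le {S : Mt n} (hS : Sᵀ = S) {a l : ℝ} (ha : 0 ≤ a) (hl : 0 ≤ l) :
    hs (Ql a l S) ≤ a ^ 2 * n ∧ hs (Ql a l S) ≤ a ^ 2 * l * hs S := by
  obtain ⟨U, s, h1, h2, rfl⟩ := exists_spec hS
  rw [Ql_spec h1 h2 s hl, hs_spec h1, hs_spec h1]
  constructor
  · calc ∑ i, q a l (s i) ^ 2 ≤ ∑ _i : Fin n, a ^ 2 := Finset.sum_le_sum fun i _ => by
          have := q_mem (s := s i) ha hl
          nlinarith
      _ = a ^ 2 * n := by simp [mul_comm]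
  · rw [Finset.mul_sum]
    exact Finset.sum_le_sum fun i _ => (q_mem ha hl).2.2.2

/-- a bound of `dQ` at each level -/
theorem hs_dQ_le {S : Mt n} (hS : Sᵀ = S) (T : Mt n) {a l : ℝ} (hl : 0 ≤ l) :
    hs (dQ a l S T) ≤ a ^ 2 * l * hs T := by
  obtain ⟨U, s, h1, h2, rfl⟩ := exists_spec hS
  rw [hs_dQ h1 h2 s T hl, ← hs_conj' h2 T, Finset.mul_sum]
  refine Finset.sum_le_sum fun i _ => ?_
  rw [Finset.mul_sum]
  refine Finset.sum_le_sum fun j _ => ?_
  have e1 : 1 ≤ 1 + l * s i ^ 2 := by nlinarith [mul_nonneg hl (sq_nonneg (s i))]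
  have e2 : 1 ≤ 1 + l * s j ^ 2 := by nlinarith [mul_nonneg hl (sq_nonneg (s j))]
  have key : l ^ 2 * ((s i + s j) ^ 2 / ((1 + l * s i ^ 2) ^ 2 * (1 + l * s j ^ 2) ^ 2)) ≤ l := by
    rw [mul_div_assoc', div_le_iff₀ (by positivity)]
    have h3 : l * (s i + s j) ^ 2 ≤ (1 + l * s i ^ 2) * (1 + l * s j ^ 2) * 1 := by
      nlinarith [sq_nonneg (l * (s i * s j) - 1), mul_nonneg hl (sq_nonneg (s i - s j)),
        mul_nonneg hl (sq_nonneg (s i * s j)), mul_nonneg hl hl]
    have h4 : 1 ≤ (1 + l * s i ^ 2) * (1 + l * s j ^ 2) := by nlinarith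
    have h5 : l ^ 2 * (s i + s j) ^ 2 ≤ l * ((1 + l * s i ^ 2) * (1 + l * s j ^ 2)) := by
      have := mul_le_mul_of_nonneg_left h3 hl
      nlinarith
    refine h5.trans (mul_le_mul_of_nonneg_left ?_ hl)
    have : (1 + l * s i ^ 2) ^ 2 * (1 + l * s j ^ 2) ^ 2 =
        ((1 + l * s i ^ 2) * (1 + l * s j ^ 2)) * ((1 + l * s i ^ 2) * (1 + l * s j ^ 2)) := by ring
    rw [this]
    nlinarith
  have := mul_le_mul_of_nonneg_left key (by positivity : 0 ≤ a ^ 2 * (Uᵀ * T * U) i j ^ 2)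
  refine this.trans (le_of_eq ?_)
  ring

/-! ### calculus of matrix fields -/

theorem pdM_mul {F G : E n → Mt n} {x : E n} (hF : ∀ i j, DifferentiableAt ℝ (fun y => F y i j) x)
    (hG : ∀ i j, DifferentiableAt ℝ (fun y => G y i j) x) (k : Fin n) :
    pdM k (fun y => F y * G y) x = pdM k F x * G x + F x * pdM k G x := by
  ext i j
  have e : (fun y => (F y * G y) i j) = fun y => ∑ l, F y i l * G y l j := by
    funext y
    exact Matrix.mul_apply
  rw [Matrix.add_apply, Matrix.mul_apply, Matrix.mul_apply]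
  simp only [pdM, Matrix.of_apply]
  rw [e]
  refine (Tw807.pd_sum (f := fun l y => F y i l * G y l j) Finset.univ k
    fun l _ => (hF i l).mul (hG l j)).trans ?_
  rw [← Finset.sum_add_distrib]
  refine Finset.sum_congr rfl fun l _ => ?_
  refine (Tw807.pd_mul k (hF i l) (hG l j)).trans ?_
  exact add_comm _ _

theorem inv_contDiffAt {G : E n → Mt n} {x : E n} (hG : ∀ i j, ContDiffAt ℝ 1 (fun y => G y i j) x)
    (hu : IsUnit (G x)) (i j : Fin n) : ContDiffAt ℝ 1 (fun y => (G y)⁻¹ i j) x := by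
  have h1 : ContDiffAt ℝ 1 G x := MX354.contDiffAt_of_entries hG
  obtain ⟨u, hu⟩ := hu
  have h2 : ContDiffAt ℝ 1 (fun y => Ring.inverse (G y)) x := by
    have h5 : ContDiffAt ℝ 1 (Ring.inverse : Mt n → Mt n) (G x) := by
      rw [← hu]
      exact contDiffAt_ringInverse ℝ u
    exact h5.comp x h1
  have h3 : (fun y => (G y)⁻¹) = fun y => Ring.inverse (G y) := by
    funext y
    exact Matrix.nonsing_inv_eq_ringInverse _
  have h4 : ContDiffAt ℝ 1 (fun y => (G y)⁻¹) x := by rw [h3]; exact h2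
  exact (MX354.entryL i j).contDiff.contDiffAt.comp x h4

/-- derivative of the inverse -/
theorem pdM_inv {G : E n → Mt n} (hG : ∀ i j, ContDiff ℝ 1 (fun y => G y i j))
    (hu : ∀ x, IsUnit (G x)) (k : Fin n) (x : E n) :
    pdM k (fun y => (G y)⁻¹) x = -((G x)⁻¹ * pdM k G x * (G x)⁻¹) := by
  have hI : ∀ i j, DifferentiableAt ℝ (fun y => (G y)⁻¹ i j) x := fun i j =>
    (inv_contDiffAt (fun i j => (hG i j).contDiffAt) (hu x) i j).differentiableAt (by simp)
  have hG' : ∀ i j, DifferentiableAt ℝ (fun y => G y i j) x := fun i j =>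
    (hG i j).contDiffAt.differentiableAt (by simp)
  have h1 := pdM_mul hG' hI k
  have h2 : pdM k (fun y => G y * (G y)⁻¹) x = 0 := by
    have e : (fun y => G y * (G y)⁻¹) = fun _ => (1 : Mt n) := by
      funext y
      exact mul_nonsing_inv _ ((isUnit_iff_isUnit_det _).mp (hu y))
    rw [e]
    ext i j
    exact Tw807.pd_const _ k x
  rw [h2] at h1
  have h3 : G x * pdM k (fun y => (G y)⁻¹) x = -(pdM k G x * (G x)⁻¹) := by
    rw [eq_neg_iff_add_eq_zero, add_comm]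
    exact h1.symm
  have h4 : (G x)⁻¹ * (G x * pdM k (fun y => (G y)⁻¹) x) =
      (G x)⁻¹ * -(pdM k G x * (G x)⁻¹) := by rw [h3]
  rw [← Matrix.mul_assoc, nonsing_inv_mul _ ((isUnit_iff_isUnit_det _).mp (hu x)),
    Matrix.one_mul] at h4
  rw [h4, Matrix.mul_neg, Matrix.mul_assoc]

theorem isUnit_one_add {S : Mt n} (hS : Sᵀ = S) {l : ℝ} (hl : 0 ≤ l) :
    IsUnit (1 + l • (S * S)) := by
  obtain ⟨U, s, h1, h2, rfl⟩ := exists_spec hS
  rw [one_add_eq_spec h1 h2, isUnit_iff_isUnit_det, det_spec h1, isUnit_iff_ne_zero]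
  exact Finset.prod_ne_zero_iff.mpr fun i _ => by positivity

theorem cb_one_add {S : E n → Mt n} (hS : ∀ i, CB (famM S i)) (l : ℝ) :
    ∀ i, CB (famM (fun x => 1 + l • (S x * S x)) i) := by
  rintro ⟨i, j⟩
  have e : famM (fun x => 1 + l • (S x * S x)) (i, j) =
      fun x => (1 : Mt n) i j + l * ∑ k, S x i k * S x k j := by
    funext x
    change (1 + l • (S x * S x)) i j = _
    rw [Matrix.add_apply, Matrix.smul_apply, Matrix.mul_apply, smul_eq_mul]
  rw [e]
  exact Tw807.cb_add (Tw807.cb_const _) (Tw807.cb_const_mul l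
    (Tw807.cb_sum _ fun k _ => Tw807.cb_mul (hS (i, k)) (hS (k, j))))

theorem pdM_one_add {S : E n → Mt n} (hS : ∀ i, CB (famM S i)) (l : ℝ) (k : Fin n) (x : E n) :
    pdM k (fun x => 1 + l • (S x * S x)) x = l • (S x * pdM k S x + pdM k S x * S x) := by
  have hd : ∀ i j, DifferentiableAt ℝ (fun y => S y i j) x := fun i j =>
    (Tw807.cb_diff (hS (i, j))) x
  have h1 := pdM_mul hd hd k
  ext i j
  have h2 := congrFun (congrFun h1 i) j
  have hdd : DifferentiableAt ℝ (fun y => (S y * S y) i j) x := by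
    have e : (fun y => (S y * S y) i j) = fun y => ∑ l, S y i l * S y l j := by
      funext y
      exact Matrix.mul_apply
    rw [e]
    exact DifferentiableAt.fun_sum fun l _ => (hd i l).mul (hd l j)
  have h3 : pd k (fun y => (1 + l • (S y * S y)) i j) x = l * pd k (fun y => (S y * S y) i j) x := by
    have e : (fun y => (1 + l • (S y * S y)) i j) =
        fun y => (1 : Mt n) i j + l * (S y * S y) i j := rfl
    rw [e, Tw807.pd_add k (differentiableAt_const _) (hdd.const_mul l), Tw807.pd_const, zero_add,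
      Tw807.pd_const_mul l k hdd]
  change pd k (fun y => (1 + l • (S y * S y)) i j) x = _
  rw [h3]
  have h4 : pd k (fun y => (S y * S y) i j) x = (pdM k S x * S x + S x * pdM k S x) i j := h2
  rw [h4, Matrix.smul_apply, smul_eq_mul, add_comm (S x * pdM k S x)]

/-- (5) derivative of the channel field -/
theorem pdM_Ql {S : E n → Mt n} (hS : ∀ i, CB (famM S i)) (hSs : ∀ x, (S x)ᵀ = S x) {a l : ℝ}
    (hl : 0 ≤ l) (k : Fin n) (x : E n) :
    pdM k (fun y => Ql a l (S y)) x = dQ a l (S x) (pdM k S x) := by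
  have hc := cb_one_add hS l
  have hu : ∀ x, IsUnit (1 + l • (S x * S x)) := fun x => isUnit_one_add (hSs x) hl
  have h1 := pdM_inv (G := fun x => 1 + l • (S x * S x)) (fun i j => (hc (i, j)).1) hu k x
  rw [pdM_one_add hS l k x] at h1
  have hd : ∀ i j, DifferentiableAt ℝ (fun y => Rl l (S y) i j) x := fun i j =>
    (inv_contDiffAt (fun i j => ((hc (i, j)).1).contDiffAt) (hu x) i j).differentiableAt (by simp)
  have h2 : pdM k (fun y => Ql a l (S y)) x = -(a • pdM k (fun y => Rl l (S y)) x) := by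
    ext i j
    change pd k (fun y => a * ((1 : Mt n) i j - Rl l (S y) i j)) x =
      -(a * pd k (fun y => Rl l (S y) i j) x)
    have e : (fun y => a * ((1 : Mt n) i j - Rl l (S y) i j)) =
        fun y => a * (1 : Mt n) i j - a * Rl l (S y) i j := by
      funext y
      ring
    rw [e, Tw807.pd_sub k (differentiableAt_const _) ((hd i j).const_mul a), Tw807.pd_const,
      Tw807.pd_const_mul a k (hd i j)]
    ring
  have h3 : pdM k (fun y => Rl l (S y)) x =
      -((Rl l (S x)) * (l • (S x * pdM k S x + pdM k S x * S x)) * Rl l (S x)) := h1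
  rw [h2, h3]
  unfold dQ
  rw [Matrix.mul_smul, Matrix.smul_mul, smul_neg, neg_neg, smul_smul]

theorem abs_le_of_hs {A : Mt n} {c : ℝ} (h : hs A ≤ c) (i j : Fin n) : |A i j| ≤ 1 + c := by
  have h1 := (MX354.sq_le_hs A i j).trans h
  have h2 : |A i j| ^ 2 = A i j ^ 2 := sq_abs _
  nlinarith [abs_nonneg (A i j), sq_nonneg (|A i j| - 1)]

theorem hs_bdd {T : E n → Mt n} {B : ℝ} (h : ∀ x i j, |T x i j| ≤ B) (x : E n) :
    hs (T x) ≤ n * (n * B ^ 2) := by
  unfold hs
  calc ∑ i, ∑ j, T x i j ^ 2 ≤ ∑ _i : Fin n, ∑ _j : Fin n, B ^ 2 := by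
        refine Finset.sum_le_sum fun i _ => Finset.sum_le_sum fun j _ => ?_
        rw [← sq_abs]
        exact pow_le_pow_left₀ (abs_nonneg _) (h x i j) 2
    _ = n * (n * B ^ 2) := by simp

/-- (5) the channel field is `CB` -/
theorem cb_Ql {S : E n → Mt n} (hS : ∀ i, CB (famM S i)) (hSs : ∀ x, (S x)ᵀ = S x) {a l : ℝ}
    (ha : 0 ≤ a) (hl : 0 ≤ l) : ∀ i, CB (famM (fun x => Ql a l (S x)) i) := by
  have hc := cb_one_add hS l
  have hu : ∀ x, IsUnit (1 + l • (S x * S x)) := fun x => isUnit_one_add (hSs x) hl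
  choose B hB using fun i => (hS i).2
  set B0 : ℝ := ∑ i, |B i| with hB0
  have hle : ∀ i, B i ≤ B0 := fun i =>
    (le_abs_self _).trans (Finset.single_le_sum (f := fun i => |B i|)
      (fun _ _ => abs_nonneg _) (Finset.mem_univ i))
  have hT : ∀ (k : Fin n) (x : E n) (i j : Fin n), |pdM k S x i j| ≤ B0 := fun k x i j =>
    ((hB (i, j) x).2 k).trans (hle _)
  rintro ⟨i, j⟩
  refine ⟨?_, (1 + a ^ 2 * n) + (1 + a ^ 2 * l * (n * (n * B0 ^ 2))), fun x => ⟨?_, fun k => ?_⟩⟩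
  · have h1 : ContDiff ℝ 1 (fun y => Rl l (S y) i j) := by
      rw [contDiff_iff_contDiffAt]
      intro x
      exact inv_contDiffAt (fun i j => ((hc (i, j)).1).contDiffAt) (hu x) i j
    have e : famM (fun x => Ql a l (S x)) (i, j) =
        fun y => a * ((1 : Mt n) i j - Rl l (S y) i j) := rfl
    rw [e]
    exact contDiff_const.mul (contDiff_const.sub h1)
  · have h1 := abs_le_of_hs (hs_Ql_le (hSs x) ha hl).1 i j
    have h2 : 0 ≤ a ^ 2 * l * (n * (n * B0 ^ 2)) := by positivity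
    change |Ql a l (S x) i j| ≤ _
    linarith
  · have h1 : hs (dQ a l (S x) (pdM k S x)) ≤ a ^ 2 * l * (n * (n * B0 ^ 2)) :=
      (hs_dQ_le (hSs x) _ hl).trans (mul_le_mul_of_nonneg_left
        (hs_bdd (T := fun x => pdM k S x) (fun x i j => hT k x i j) x) (by positivity))
    have h2 := abs_le_of_hs h1 i j
    rw [← pdM_Ql hS hSs hl k x] at h2
    change |pd k (fun y => Ql a l (S y) i j) x| ≤ _
    have h3 : 0 ≤ a ^ 2 * (n : ℝ) := by positivity
    have h4 : |pd k (fun y => Ql a l (S y) i j) x| ≤ 1 + a ^ 2 * l * (n * (n * B0 ^ 2)) := h2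
    linarith

end Crest.Agent.R201.Ch150
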