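import Crest.Agent.R201.Ch3_150

/-!
# R201, LSI half (helper150): the channel inequality integrated over the levels
-/

set_option autoImplicit false
open MeasureTheory Matrix Set
open scoped Matrix.Norms.Operator

namespace Crest.Agent.R201.Ch150

open Crest.Agent.R201 Crest.Agent.R201.NB152

variable {n : ℕ}

/-! ### joint continuity in the level and the point -/

theorem cont_mul {X : Type*} [TopologicalSpace X] {F G : X → Mt n} {s : Set X}
    (hF : ∀ i j, ContinuousOn (fun y => F y i j) s) (hG : ∀ i j, ContinuousOn (fun y => G y i j) s)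
    (i j : Fin n) : ContinuousOn (fun y => (F y * G y) i j) s := by
  have e : (fun y => (F y * G y) i j) = fun y => ∑ l, F y i l * G y l j := by
    funext y
    exact Matrix.mul_apply
  rw [e]
  exact continuousOn_finsetSum _ fun l _ => (hF i l).mul (hG l j)

theorem cont_hs {X : Type*} [TopologicalSpace X] {F : X → Mt n} {s : Set X}
    (hF : ∀ i j, ContinuousOn (fun y => F y i j) s) : ContinuousOn (fun y => hs (F y)) s :=
  continuousOn_finsetSum _ fun i _ => continuousOn_finsetSum _ fun j _ => (hF i j).pow 2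

theorem cont_trace {X : Type*} [TopologicalSpace X] {F : X → Mt n} {s : Set X}
    (hF : ∀ i j, ContinuousOn (fun y => F y i j) s) : ContinuousOn (fun y => (F y).trace) s :=
  continuousOn_finsetSum _ fun i _ => hF i i

theorem cont_det {X : Type*} [TopologicalSpace X] {F : X → Mt n} {s : Set X}
    (hF : ∀ i j, ContinuousOn (fun y => F y i j) s) : ContinuousOn (fun y => (F y).det) s := by
  simp only [Matrix.det_apply]
  exact continuousOn_finsetSum _ fun σ _ => ContinuousOn.const_smul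
    (continuousOn_finsetProd _ fun i _ => hF (σ i) i) _

theorem cont_inv {X : Type*} [TopologicalSpace X] {F : X → Mt n} {s : Set X}
    (hF : ∀ i j, ContinuousOn (fun y => F y i j) s) (hu : ∀ y ∈ s, IsUnit (F y)) (i j : Fin n) :
    ContinuousOn (fun y => (F y)⁻¹ i j) s := by
  intro y hy
  have h1 : ContinuousWithinAt F s y := by
    have e : F = fun y => ∑ i, ∑ j, F y i j • Matrix.single i j (1 : ℝ) := by
      funext y; exact MX354.mt_eq_sum (F y)
    rw [e]
    exact tendsto_finsetSum _ fun i _ => tendsto_finsetSum _ fun j _ =>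
      Filter.Tendsto.smul (hF i j y hy) tendsto_const_nhds
  obtain ⟨u, hu'⟩ := hu y hy
  have h2 : ContinuousAt (Ring.inverse : Mt n → Mt n) (F y) := by
    rw [← hu']
    exact NormedRing.inverse_continuousAt u
  have h3 : ContinuousWithinAt (fun y => Ring.inverse (F y)) s y := h2.comp_continuousWithinAt h1
  have h4 : (fun y => (F y)⁻¹) = fun y => Ring.inverse (F y) := by
    funext y
    exact Matrix.nonsing_inv_eq_ringInverse _
  rw [← h4] at h3
  exact (MX354.entryL i j).continuous.continuousAt.comp_continuousWithinAt h3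

section

variable {S : E n → Mt n}

theorem cont_S (hS : ∀ i, CB (famM S i)) (s : Set (ℝ × E n)) (i j : Fin n) :
    ContinuousOn (fun p : ℝ × E n => S p.2 i j) s :=
  ((hS (i, j)).1.continuous.comp continuous_snd).continuousOn

theorem cont_pdM (hS : ∀ i, CB (famM S i)) (s : Set (ℝ × E n)) (k i j : Fin n) :
    ContinuousOn (fun p : ℝ × E n => pdM k S p.2 i j) s :=
  ((Tw807.pd_cont (hS (i, j)).1 k).comp continuous_snd).continuousOn

/-- the set of levels -/
def lev (l0 l1 : ℝ) : Set (ℝ × E n) := Ioc l0 l1 ×ˢ univ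

theorem lev_pos {l0 l1 : ℝ} (h0 : 0 < l0) {p : ℝ × E n} (hp : p ∈ lev (n := n) l0 l1) :
    0 < p.1 ∧ l0 ≤ p.1 ∧ p.1 ≤ l1 := ⟨h0.trans hp.1.1, hp.1.1.le, hp.1.2⟩

theorem cont_Rl (hS : ∀ i, CB (famM S i)) (hSs : ∀ x, (S x)ᵀ = S x) {l0 l1 : ℝ} (h0 : 0 < l0)
    (i j : Fin n) : ContinuousOn (fun p : ℝ × E n => Rl p.1 (S p.2) i j) (lev l0 l1) := by
  refine cont_inv (F := fun p : ℝ × E n => 1 + p.1 • (S p.2 * S p.2)) (fun i j => ?_)
    (fun p hp => isUnit_one_add (hSs _) (lev_pos h0 hp).1.le) i j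
  change ContinuousOn (fun p : ℝ × E n => (1 : Mt n) i j + p.1 * (S p.2 * S p.2) i j) _
  exact continuousOn_const.add (continuous_fst.continuousOn.mul
    (cont_mul (fun i j => cont_S hS _ i j) (fun i j => cont_S hS _ i j) i j))

theorem cont_Ql (hS : ∀ i, CB (famM S i)) (hSs : ∀ x, (S x)ᵀ = S x) {a l0 l1 : ℝ} (h0 : 0 < l0)
    (i j : Fin n) : ContinuousOn (fun p : ℝ × E n => Ql a p.1 (S p.2) i j) (lev l0 l1) := by
  change ContinuousOn (fun p : ℝ × E n => a * ((1 : Mt n) i j - Rl p.1 (S p.2) i j)) _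
  exact continuousOn_const.mul (continuousOn_const.sub (cont_Rl hS hSs h0 i j))

theorem cont_ben (hS : ∀ i, CB (famM S i)) (hSs : ∀ x, (S x)ᵀ = S x) {a l0 l1 : ℝ} (h0 : 0 < l0) :
    ContinuousOn (fun p : ℝ × E n => ben (Ql a p.1 (S p.2))) (lev l0 l1) := by
  have hQ := fun i j => cont_Ql (a := a) (l1 := l1) hS hSs h0 i j
  have hQQ := cont_mul hQ hQ
  refine (cont_trace hQQ).sub (ContinuousOn.log
    (f := fun p : ℝ × E n => (1 + Ql a p.1 (S p.2) * Ql a p.1 (S p.2)).det) (cont_det fun i j => ?_)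
    fun p hp => ?_)
  · change ContinuousOn (fun p : ℝ × E n =>
      (1 : Mt n) i j + (Ql a p.1 (S p.2) * Ql a p.1 (S p.2)) i j) _
    exact continuousOn_const.add (hQQ i j)
  · have h := isUnit_one_add (Ql_symm (a := a) (hSs p.2) (lev_pos h0 hp).1.le) zero_le_one
    rw [one_smul, isUnit_iff_isUnit_det, isUnit_iff_ne_zero] at h
    exact h

theorem cont_dQ (hS : ∀ i, CB (famM S i)) (hSs : ∀ x, (S x)ᵀ = S x) {a l0 l1 : ℝ} (h0 : 0 < l0)
    (k i j : Fin n) :
    ContinuousOn (fun p : ℝ × E n => dQ a p.1 (S p.2) (pdM k S p.2) i j) (lev l0 l1) := by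
  have hR := fun i j => cont_Rl (l1 := l1) hS hSs h0 i j
  have hs := fun i j => cont_S hS (lev l0 l1) i j
  have hT := fun i j => cont_pdM hS (lev l0 l1) k i j
  have h1 := cont_mul hs hT
  have h2 := cont_mul hT hs
  have h3 : ∀ i j, ContinuousOn (fun p : ℝ × E n =>
      (S p.2 * pdM k S p.2 + pdM k S p.2 * S p.2) i j) (lev l0 l1) := fun i j =>
    (h1 i j).add (h2 i j)
  have h4 := cont_mul (cont_mul hR h3) hR
  change ContinuousOn (fun p : ℝ × E n => a * p.1 *
    (Rl p.1 (S p.2) * (S p.2 * pdM k S p.2 + pdM k S p.2 * S p.2) * Rl p.1 (S p.2)) i j) _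
  exact (continuousOn_const.mul continuous_fst.continuousOn).mul (h4 i j)

end

/-! ### Fubini -/

theorem prod_integrable (μ : Measure (E n)) [IsProbabilityMeasure μ] {f : ℝ × E n → ℝ}
    {l0 l1 C : ℝ} (hc : ContinuousOn f (lev l0 l1)) (hb : ∀ p ∈ lev (n := n) l0 l1, |f p| ≤ C) :
    Integrable f ((volume.restrict (Ioc l0 l1)).prod μ) := by
  have e : (volume.restrict (Ioc l0 l1)).prod μ = (volume.prod μ).restrict (lev l0 l1) := by
    unfold lev
    rw [← Measure.prod_restrict, Measure.restrict_univ]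
  have hm : MeasurableSet (lev (n := n) l0 l1) := measurableSet_Ioc.prod MeasurableSet.univ
  refine Integrable.of_bound (C := C) ?_ ?_
  · rw [e]
    exact hc.aestronglyMeasurable hm
  · rw [e]
    exact ae_restrict_of_forall_mem hm hb

theorem swap (μ : Measure (E n)) [IsProbabilityMeasure μ] {f : ℝ × E n → ℝ}
    {l0 l1 C : ℝ} (h1 : l0 ≤ l1) (hc : ContinuousOn f (lev l0 l1))
    (hb : ∀ p ∈ lev (n := n) l0 l1, |f p| ≤ C) :
    IntervalIntegrable (fun l => ∫ x, f (l, x) ∂μ) volume l0 l1 ∧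
    Integrable (fun x => ∫ l in l0..l1, f (l, x)) μ ∧
    ∫ l in l0..l1, (∫ x, f (l, x) ∂μ) = ∫ x, (∫ l in l0..l1, f (l, x)) ∂μ := by
  have hi := prod_integrable μ hc hb
  simp only [intervalIntegral.integral_of_le h1]
  refine ⟨?_, hi.integral_prod_right, ?_⟩
  · rw [intervalIntegrable_iff_integrableOn_Ioc_of_le h1]
    exact hi.integral_prod_left
  · exact integral_integral_swap (f := fun l x => f (l, x)) hi

theorem hs_eq_tr_sq {S : Mt n} (hS : Sᵀ = S) : (S * S).trace = hs S := by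
  rw [hs_eq_trace, hS]

/-- (6) the channel inequality, integrated over the levels -/
theorem integrated (μ : Measure (E n)) [IsProbabilityMeasure μ] {S : E n → Mt n}
    (hS : ∀ i, CB (famM S i)) (hSs : ∀ x, (S x)ᵀ = S x) {a l0 l1 A : ℝ} (ha : 0 ≤ a)
    (h0 : 0 < l0) (h1 : l0 ≤ l1)
    (hA : ∀ x, (S x * S x * (S x * S x)).trace ≤ A ^ 2 * (S x * S x).trace)
    (err : ℝ → ℝ) (herr : IntervalIntegrable (fun l => (l ^ 2)⁻¹ * err l) volume l0 l1)
    (h : ∀ l ∈ Icc l0 l1, 2 * ∫ x, ben (Ql a l (S x)) ∂μ ≤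
      (∫ x, ∑ k, hs (dQ a l (S x) (pdM k S x)) ∂μ) + err l) :
    2 * (a ^ 2 - Real.pi * a - a ^ 2 * l0 * A ^ 2) * ∫ x, hs (S x) ∂μ ≤
      3 / 2 * a ^ 2 * (∫ x, ∑ k, hs (pdM k S x) ∂μ) + (∫ l in l0..l1, (l ^ 2)⁻¹ * err l)
        + 2 * (n * a ^ 2 / l1) := by
  have hl1 : 0 < l1 := h0.trans_le h1
  -- a common bound for `S` and its derivatives
  choose B hB using fun i => (hS i).2
  set B0 : ℝ := ∑ i, |B i| with hB0
  have hle : ∀ i, B i ≤ B0 := fun i =>
    (le_abs_self _).trans (Finset.single_le_sum (f := fun i => |B i|)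
      (fun _ _ => abs_nonneg _) (Finset.mem_univ i))
  have hT : ∀ (k : Fin n) (x : E n) (i j : Fin n), |pdM k S x i j| ≤ B0 := fun k x i j =>
    ((hB (i, j) x).2 k).trans (hle _)
  have hTS : ∀ (x : E n) (i j : Fin n), |S x i j| ≤ B0 := fun x i j =>
    ((hB (i, j) x).1).trans (hle _)
  have hhT : ∀ (k : Fin n) (x : E n), hs (pdM k S x) ≤ n * (n * B0 ^ 2) := fun k x =>
    hs_bdd (T := fun x => pdM k S x) (fun x i j => hT k x i j) x
  have hhS : ∀ x, hs (S x) ≤ n * (n * B0 ^ 2) := fun x => hs_bdd hTS x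
  -- integrability in `x`
  have intc : ∀ {f : E n → ℝ} {C : ℝ}, Continuous f → (∀ x, |f x| ≤ C) → Integrable f μ :=
    fun hf hC => Integrable.of_bound hf.aestronglyMeasurable _
      (Filter.Eventually.of_forall fun x => hC x)
  have cS : Continuous fun x => hs (S x) := by
    unfold hs
    exact continuous_finsetSum _ fun i _ => continuous_finsetSum _ fun j _ =>
      ((hS (i, j)).1.continuous).pow 2
  have iS : Integrable (fun x => hs (S x)) μ := intc cS fun x => by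
    rw [abs_of_nonneg (NB152.hs_nonneg _)]
    exact hhS x
  have iT : ∀ k, Integrable (fun x => hs (pdM k S x)) μ := fun k => by
    refine intc (C := n * (n * B0 ^ 2)) ?_ fun x => ?_
    · unfold hs
      exact continuous_finsetSum _ fun i _ => continuous_finsetSum _ fun j _ =>
        (Tw807.pd_cont (hS (i, j)).1 k).pow 2
    · rw [abs_of_nonneg (NB152.hs_nonneg _)]
      exact hhT k x
  -- the weight
  have hw : ∀ p ∈ lev (n := n) l0 l1, (p.1 ^ 2)⁻¹ ≤ (l0 ^ 2)⁻¹ ∧ 0 ≤ (p.1 ^ 2)⁻¹ := by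
    intro p hp
    obtain ⟨a1, a2, a3⟩ := lev_pos h0 hp
    exact ⟨inv_anti₀ (by positivity) (pow_le_pow_left₀ h0.le a2 2), by positivity⟩
  have cw : ContinuousOn (fun p : ℝ × E n => (p.1 ^ 2)⁻¹) (lev l0 l1) := by
    intro p hp
    obtain ⟨a1, a2, a3⟩ := lev_pos h0 hp
    exact ContinuousAt.continuousWithinAt (ContinuousAt.inv₀ (by fun_prop) (by positivity))
  -- the two fields
  obtain ⟨j1, j2, j3⟩ := swap μ (C := (l0 ^ 2)⁻¹ * (a ^ 2 * n)) h1 (cw.mul (cont_ben (a := a) hS hSs h0))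
    fun p hp => by
      obtain ⟨a1, a2, a3⟩ := lev_pos h0 hp
      have hQs := Ql_symm (a := a) (hSs p.2) a1.le
      have b1 : 0 ≤ ben (Ql a p.1 (S p.2)) := ben_nonneg hQs
      have b2 : ben (Ql a p.1 (S p.2)) ≤ a ^ 2 * n := by
        have c1 : ben (Ql a p.1 (S p.2)) ≤ (Ql a p.1 (S p.2) * Ql a p.1 (S p.2)).trace := by
          unfold ben
          obtain ⟨U, q, hU, hU', hq⟩ := exists_spec hQs
          have : 0 ≤ Real.log (1 + Ql a p.1 (S p.2) * Ql a p.1 (S p.2)).det := by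
            have e2 := one_add_eq_spec hU hU' q 1
            rw [one_smul] at e2
            rw [hq, e2, det_spec hU, Real.log_prod fun i _ => by positivity]
            exact Finset.sum_nonneg fun i _ => Real.log_nonneg (by nlinarith [sq_nonneg (q i)])
          linarith
        rw [hs_eq_tr_sq hQs] at c1
        exact c1.trans (hs_Ql_le (hSs _) ha a1.le).1
      change |(p.1 ^ 2)⁻¹ * ben (Ql a p.1 (S p.2))| ≤ _
      rw [abs_of_nonneg (mul_nonneg (hw p hp).2 b1)]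
      exact mul_le_mul (hw p hp).1 b2 b1 (by positivity)
  have cd : ContinuousOn (fun p : ℝ × E n => ∑ k, hs (dQ a p.1 (S p.2) (pdM k S p.2)))
      (lev l0 l1) :=
    continuousOn_finsetSum _ fun k _ => cont_hs fun i j => cont_dQ hS hSs h0 k i j
  obtain ⟨k1, k2, k3⟩ := swap μ (C := (l0 ^ 2)⁻¹ * (n * (a ^ 2 * l1 * (n * (n * B0 ^ 2))))) h1
    (cw.mul cd) fun p hp => by
      obtain ⟨a1, a2, a3⟩ := lev_pos h0 hp
      have b1 : 0 ≤ ∑ k, hs (dQ a p.1 (S p.2) (pdM k S p.2)) :=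
        Finset.sum_nonneg fun k _ => NB152.hs_nonneg _
      have b2 : ∑ k, hs (dQ a p.1 (S p.2) (pdM k S p.2)) ≤
          n * (a ^ 2 * l1 * (n * (n * B0 ^ 2))) := by
        calc ∑ k, hs (dQ a p.1 (S p.2) (pdM k S p.2)) ≤
            ∑ _k : Fin n, a ^ 2 * l1 * (n * (n * B0 ^ 2)) := by
              refine Finset.sum_le_sum fun k _ => ?_
              refine (hs_dQ_le (hSs _) _ a1.le).trans ?_
              have c1 : a ^ 2 * p.1 ≤ a ^ 2 * l1 := mul_le_mul_of_nonneg_left a3 (sq_nonneg a)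
              exact mul_le_mul c1 (hhT k _) (NB152.hs_nonneg _) (by positivity)
          _ = _ := by simp
      change |(p.1 ^ 2)⁻¹ * ∑ k, hs (dQ a p.1 (S p.2) (pdM k S p.2))| ≤ _
      rw [abs_of_nonneg (mul_nonneg (hw p hp).2 b1)]
      exact mul_le_mul (hw p hp).1 b2 b1 (by positivity)
  have j1' : IntervalIntegrable (fun l => ∫ x, (l ^ 2)⁻¹ * ben (Ql a l (S x)) ∂μ)
    volume l0 l1 := j1
  have k1' : IntervalIntegrable (fun l => ∫ x, (l ^ 2)⁻¹ *
    ∑ k, hs (dQ a l (S x) (pdM k S x)) ∂μ) volume l0 l1 := k1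
  -- integrate the hypothesis
  have main : 2 * (∫ l in l0..l1, ∫ x, (l ^ 2)⁻¹ * ben (Ql a l (S x)) ∂μ) ≤
      (∫ l in l0..l1, ∫ x, (l ^ 2)⁻¹ * ∑ k, hs (dQ a l (S x) (pdM k S x)) ∂μ) +
        ∫ l in l0..l1, (l ^ 2)⁻¹ * err l := by
    rw [← intervalIntegral.integral_const_mul, ← intervalIntegral.integral_add k1' herr]
    refine intervalIntegral.integral_mono_on h1 (j1'.const_mul 2) (k1'.add herr) fun l hl => ?_
    have hl0 : 0 < l := h0.trans_le hl.1
    have e1 : ∫ x, (l ^ 2)⁻¹ * ben (Ql a l (S x)) ∂μ = (l ^ 2)⁻¹ * ∫ x, ben (Ql a l (S x)) ∂μ :=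
      integral_const_mul _ _
    have e2 : ∫ x, (l ^ 2)⁻¹ * ∑ k, hs (dQ a l (S x) (pdM k S x)) ∂μ =
        (l ^ 2)⁻¹ * ∫ x, ∑ k, hs (dQ a l (S x) (pdM k S x)) ∂μ := integral_const_mul _ _
    change 2 * (∫ x, (l ^ 2)⁻¹ * ben (Ql a l (S x)) ∂μ) ≤
      (∫ x, (l ^ 2)⁻¹ * ∑ k, hs (dQ a l (S x) (pdM k S x)) ∂μ) + (l ^ 2)⁻¹ * err l
    rw [e1, e2]
    have := mul_le_mul_of_nonneg_left (h l hl) (by positivity : 0 ≤ (l ^ 2)⁻¹)
    linarith
  have j3' : ∫ l in l0..l1, ∫ x, (l ^ 2)⁻¹ * ben (Ql a l (S x)) ∂μ =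
      ∫ x, (∫ l in l0..l1, (l ^ 2)⁻¹ * ben (Ql a l (S x))) ∂μ := j3
  have k3' : ∫ l in l0..l1, ∫ x, (l ^ 2)⁻¹ * ∑ k, hs (dQ a l (S x) (pdM k S x)) ∂μ =
      ∫ x, (∫ l in l0..l1, (l ^ 2)⁻¹ * ∑ k, hs (dQ a l (S x) (pdM k S x))) ∂μ := k3
  have j2' : Integrable (fun x => ∫ l in l0..l1, (l ^ 2)⁻¹ * ben (Ql a l (S x))) μ := j2
  have k2' : Integrable (fun x => ∫ l in l0..l1, (l ^ 2)⁻¹ *
      ∑ k, hs (dQ a l (S x) (pdM k S x))) μ := k2
  rw [j3', k3'] at main
  -- the benefit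
  have hben : (a ^ 2 - Real.pi * a - a ^ 2 * l0 * A ^ 2) * (∫ x, hs (S x) ∂μ) - n * a ^ 2 / l1 ≤
      ∫ x, (∫ l in l0..l1, (l ^ 2)⁻¹ * ben (Ql a l (S x))) ∂μ := by
    have e : (a ^ 2 - Real.pi * a - a ^ 2 * l0 * A ^ 2) * (∫ x, hs (S x) ∂μ) - n * a ^ 2 / l1 =
        ∫ x, ((a ^ 2 - Real.pi * a - a ^ 2 * l0 * A ^ 2) * hs (S x) - n * a ^ 2 / l1) ∂μ := by
      rw [integral_sub (iS.const_mul _) (integrable_const _), integral_const_mul, integral_const]
      simp
    rw [e]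
    refine integral_mono ((iS.const_mul _).sub (integrable_const _)) j2' fun x => ?_
    have h2 := benefit_mt (hSs x) ha h0 h1
    refine le_trans ?_ h2
    have h3 := mul_le_mul_of_nonneg_left (hA x) (by positivity : 0 ≤ a ^ 2 * l0)
    rw [hs_eq_tr_sq (hSs x)] at h3 ⊢
    change (a ^ 2 - Real.pi * a - a ^ 2 * l0 * A ^ 2) * hs (S x) - n * a ^ 2 / l1 ≤ _
    linarith
  -- the cost
  have hcost : ∫ x, (∫ l in l0..l1, (l ^ 2)⁻¹ * ∑ k, hs (dQ a l (S x) (pdM k S x))) ∂μ ≤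
      3 / 2 * a ^ 2 * ∫ x, ∑ k, hs (pdM k S x) ∂μ := by
    rw [← integral_const_mul]
    refine integral_mono k2' ((integrable_finsetSum _ fun k _ => iT k).const_mul _) fun x => ?_
    change ∫ l in l0..l1, (l ^ 2)⁻¹ * ∑ k, hs (dQ a l (S x) (pdM k S x)) ≤
      3 / 2 * a ^ 2 * ∑ k, hs (pdM k S x)
    have e : ∫ l in l0..l1, (l ^ 2)⁻¹ * ∑ k, hs (dQ a l (S x) (pdM k S x)) =
        ∑ k, ∫ l in l0..l1, (l ^ 2)⁻¹ * hs (dQ a l (S x) (pdM k S x)) := by
      simp only [Finset.mul_sum]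
      refine intervalIntegral.integral_finsetSum fun k _ => ?_
      refine ContinuousOn.intervalIntegrable ?_
      rw [uIcc_of_le h1]
      refine ContinuousOn.mul ?_ ?_
      · intro l hl
        have hl0 : 0 < l := h0.trans_le hl.1
        exact ContinuousAt.continuousWithinAt (ContinuousAt.inv₀ (by fun_prop) (by positivity))
      · have hc : ContinuousOn (fun p : ℝ × E n => hs (dQ a p.1 (S p.2) (pdM k S p.2)))
            (lev (l0 / 2) l1) := cont_hs fun i j => cont_dQ hS hSs (half_pos h0) k i j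
        refine hc.comp (f := fun l : ℝ => ((l, x) : ℝ × E n))
          (Continuous.continuousOn (by fun_prop)) fun l hl => ?_
        exact ⟨⟨by have := hl.1; simp only; linarith, hl.2⟩, mem_univ _⟩
    rw [e, Finset.mul_sum]
    exact Finset.sum_le_sum fun k _ => cost (hSs x) _ h0 h1
  linarith

end Crest.Agent.R201.Ch150
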