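import Crest.Agent.R201.Ch4_150

/-!
# R201, LSI half (helper150): the end game over the levels with explicit error terms
-/

set_option autoImplicit false
open MeasureTheory Matrix Set
open scoped Matrix.Norms.Operator

namespace Crest.Agent.R201.Ch150

open Crest.Agent.R201 Crest.Agent.R201.NB152

variable {n : ℕ}

theorem inv_sq_integral_le {l0 l1 : ℝ} (h0 : 0 < l0) (h1 : l0 ≤ l1) :
    ∫ l in l0..l1, (l ^ 2)⁻¹ ≤ 1 / l0 := by
  have hl1 : 0 < l1 := h0.trans_le h1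
  have hpos : ∀ l ∈ uIcc l0 l1, 0 < l := by
    intro l hl
    rw [uIcc_of_le h1] at hl
    exact h0.trans_le hl.1
  have e : ∫ l in l0..l1, (l ^ 2)⁻¹ = -(l1)⁻¹ - -(l0)⁻¹ := by
    refine intervalIntegral.integral_eq_sub_of_hasDerivAt (f := fun l => -(l)⁻¹) (fun l hl => ?_)
      (inv_sq_cont h0 h1).intervalIntegrable
    have hl := hpos l hl
    refine ((hasDerivAt_inv hl.ne').neg).congr_deriv ?_
    simp
  rw [e]
  have : 0 < (l1)⁻¹ := by positivity
  rw [one_div]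
  linarith

theorem trace_le_hs_bdd {W X : Mt n} {B C : ℝ} (hW : ∀ i j, |W i j| ≤ B) (hX : ∀ i j, |X i j| ≤ C) :
    |(W * X).trace| ≤ n * (n * (B * C)) := by
  unfold trace
  calc |∑ i, (W * X).diag i| ≤ ∑ i, |(W * X).diag i| := Finset.abs_sum_le_sum_abs _ _
    _ ≤ ∑ _i : Fin n, ∑ _j : Fin n, B * C := by
        refine Finset.sum_le_sum fun i _ => ?_
        rw [diag_apply, Matrix.mul_apply]
        refine (Finset.abs_sum_le_sum_abs _ _).trans (Finset.sum_le_sum fun j _ => ?_)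
        rw [abs_mul]
        exact mul_le_mul (hW i j) (hX j i) (abs_nonneg _) ((abs_nonneg _).trans (hW i j))
    _ = _ := by simp

/-- the weight term integrated over the levels -/
theorem weight_int (μ : Measure (E n)) [IsProbabilityMeasure μ] {S W : E n → Mt n}
    (hS : ∀ i, CB (famM S i)) (hSs : ∀ x, (S x)ᵀ = S x) (hW : ∀ i j, Continuous fun x => W x i j)
    {BW : ℝ} (hWb : ∀ x i j, |W x i j| ≤ BW) (hW0 : ∀ x, LeQ 0 (W x)) {a l0 l1 : ℝ} (ha : 0 ≤ a)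
    (h0 : 0 < l0) (h1 : l0 ≤ l1) :
    IntervalIntegrable (fun l => (l ^ 2)⁻¹ *
      ∫ x, (W x * (Ql a l (S x) * Ql a l (S x))).trace ∂μ) volume l0 l1 ∧
    ∫ l in l0..l1, (l ^ 2)⁻¹ * (∫ x, (W x * (Ql a l (S x) * Ql a l (S x))).trace ∂μ) ≤
      a ^ 2 * ∫ x, (W x * (S x * S x)).trace ∂μ := by
  have hBW : ∀ x i j, |W x i j| ≤ |BW| := fun x i j => (hWb x i j).trans (le_abs_self _)
  have cW : ∀ i j, ContinuousOn (fun p : ℝ × E n => W p.2 i j) (lev l0 l1) := fun i j =>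
    ((hW i j).comp continuous_snd).continuousOn
  have hQ := fun i j => cont_Ql (a := a) (l1 := l1) hS hSs h0 i j
  have hc : ContinuousOn (fun p : ℝ × E n => (W p.2 * (Ql a p.1 (S p.2) * Ql a p.1 (S p.2))).trace)
      (lev l0 l1) := cont_trace (cont_mul cW (cont_mul hQ hQ))
  have cw : ContinuousOn (fun p : ℝ × E n => (p.1 ^ 2)⁻¹) (lev l0 l1) := by
    intro p hp
    obtain ⟨a1, a2, a3⟩ := lev_pos h0 hp
    exact ContinuousAt.continuousWithinAt (ContinuousAt.inv₀ (by fun_prop) (by positivity))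
  have hQb : ∀ l, 0 ≤ l → ∀ x i j, |Ql a l (S x) i j| ≤ 1 + a ^ 2 * n := fun l hl x i j =>
    abs_le_of_hs (hs_Ql_le (hSs x) ha hl).1 i j
  have hQQb : ∀ l, 0 ≤ l → ∀ x i j,
      |(Ql a l (S x) * Ql a l (S x)) i j| ≤ n * ((1 + a ^ 2 * n) * (1 + a ^ 2 * n)) := by
    intro l hl x i j
    rw [Matrix.mul_apply]
    calc |∑ k, Ql a l (S x) i k * Ql a l (S x) k j| ≤ ∑ k, |Ql a l (S x) i k * Ql a l (S x) k j| :=
          Finset.abs_sum_le_sum_abs _ _
      _ ≤ ∑ _k : Fin n, (1 + a ^ 2 * n) * (1 + a ^ 2 * n) := Finset.sum_le_sum fun k _ => by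
          rw [abs_mul]
          exact mul_le_mul (hQb l hl x i k) (hQb l hl x k j) (abs_nonneg _) (by positivity)
      _ = _ := by simp
  obtain ⟨j1, j2, j3⟩ := swap μ (C := (l0 ^ 2)⁻¹ *
      (n * (n * (|BW| * (n * ((1 + a ^ 2 * n) * (1 + a ^ 2 * n))))))) h1 (cw.mul hc) fun p hp => by
      obtain ⟨a1, a2, a3⟩ := lev_pos h0 hp
      change |(p.1 ^ 2)⁻¹ * (W p.2 * (Ql a p.1 (S p.2) * Ql a p.1 (S p.2))).trace| ≤ _
      rw [abs_mul, abs_of_nonneg (by positivity : 0 ≤ (p.1 ^ 2)⁻¹)]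
      exact mul_le_mul (inv_anti₀ (by positivity) (pow_le_pow_left₀ h0.le a2 2))
        (trace_le_hs_bdd (hBW p.2) (hQQb p.1 a1.le p.2)) (abs_nonneg _) (by positivity)
  have e : ∀ l, ∫ x, (l ^ 2)⁻¹ * (W x * (Ql a l (S x) * Ql a l (S x))).trace ∂μ =
      (l ^ 2)⁻¹ * ∫ x, (W x * (Ql a l (S x) * Ql a l (S x))).trace ∂μ := fun l =>
    integral_const_mul _ _
  have j1' : IntervalIntegrable (fun l =>
      ∫ x, (l ^ 2)⁻¹ * (W x * (Ql a l (S x) * Ql a l (S x))).trace ∂μ) volume l0 l1 := j1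
  have j2' : Integrable (fun x =>
      ∫ l in l0..l1, (l ^ 2)⁻¹ * (W x * (Ql a l (S x) * Ql a l (S x))).trace) μ := j2
  have j3' : ∫ l in l0..l1, ∫ x, (l ^ 2)⁻¹ * (W x * (Ql a l (S x) * Ql a l (S x))).trace ∂μ =
      ∫ x, (∫ l in l0..l1, (l ^ 2)⁻¹ * (W x * (Ql a l (S x) * Ql a l (S x))).trace) ∂μ := j3
  simp only [e] at j1' j3'
  refine ⟨j1', ?_⟩
  rw [j3', ← integral_const_mul]
  have iW : Integrable (fun x => (W x * (S x * S x)).trace) μ := by
    choose B hB using fun i => (hS i).2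
    have hB0 : ∀ i, 0 ≤ B i := fun i => (abs_nonneg _).trans (hB i 0).1
    have hSb : ∀ x i j, |(S x * S x) i j| ≤ n * ((∑ i, B i) * (∑ i, B i)) := by
      intro x i j
      have hle : ∀ i, B i ≤ ∑ i, B i := fun i =>
        Finset.single_le_sum (f := B) (fun i _ => hB0 i) (Finset.mem_univ i)
      rw [Matrix.mul_apply]
      calc |∑ k, S x i k * S x k j| ≤ ∑ k, |S x i k * S x k j| := Finset.abs_sum_le_sum_abs _ _
        _ ≤ ∑ _k : Fin n, (∑ i, B i) * (∑ i, B i) := Finset.sum_le_sum fun k _ => by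
            rw [abs_mul]
            exact mul_le_mul (((hB (i, k) x).1).trans (hle _)) (((hB (k, j) x).1).trans (hle _))
              (abs_nonneg _) (Finset.sum_nonneg fun i _ => hB0 i)
        _ = _ := by simp
    refine Integrable.of_bound (C := n * (n * (|BW| * (n * ((∑ i, B i) * (∑ i, B i)))))) ?_
      (Filter.Eventually.of_forall fun x => trace_le_hs_bdd (hBW x) (hSb x))
    have cS : ∀ i j, Continuous fun x => S x i j := fun i j => (hS (i, j)).1.continuous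
    have cSS : ∀ i j, Continuous fun x => (S x * S x) i j := by
      intro i j
      simp only [Matrix.mul_apply]
      exact continuous_finsetSum _ fun k _ => (cS i k).mul (cS k j)
    have : Continuous fun x => (W x * (S x * S x)).trace := by
      simp only [trace, diag_apply, Matrix.mul_apply (M := W _)]
      exact continuous_finsetSum _ fun i _ => continuous_finsetSum _ fun j _ =>
        (hW i j).mul (cSS j i)
    exact this.aestronglyMeasurable
  exact integral_mono j2' (iW.const_mul _) fun x => weight_mt (hSs x) (hW0 x) h0 h1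

/-- the benefit integrated over the levels -/
theorem ben_int (μ : Measure (E n)) [IsProbabilityMeasure μ] {S : E n → Mt n}
    (hS : ∀ i, CB (famM S i)) (hSs : ∀ x, (S x)ᵀ = S x) {a l0 l1 A : ℝ} (ha : 0 ≤ a)
    (h0 : 0 < l0) (h1 : l0 ≤ l1)
    (hA : ∀ x, (S x * S x * (S x * S x)).trace ≤ A ^ 2 * (S x * S x).trace) :
    IntervalIntegrable (fun l => (l ^ 2)⁻¹ * ∫ x, ben (Ql a l (S x)) ∂μ) volume l0 l1 ∧
    (a ^ 2 - Real.pi * a - a ^ 2 * l0 * A ^ 2) * (∫ x, hs (S x) ∂μ) - n * a ^ 2 / l1 ≤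
      ∫ l in l0..l1, (l ^ 2)⁻¹ * ∫ x, ben (Ql a l (S x)) ∂μ := by
  have hl1 : 0 < l1 := h0.trans_le h1
  -- a common bound for `S` and its derivatives
  choose B hB using fun i => (hS i).2
  set B0 : ℝ := ∑ i, |B i| with hB0
  have hle : ∀ i, B i ≤ B0 := fun i =>
    (le_abs_self _).trans (Finset.single_le_sum (f := fun i => |B i|)
      (fun _ _ => abs_nonneg _) (Finset.mem_univ i))
  have hT : ∀ (k : Fin n) (x : E n) (i j : Fin n), |pdM k S x i j| ≤ B0 := fun k x i j =>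
    ((hB (i, j) x).2 k).trans (hle _)
  have hTS : ∀ (x : E n) (i j : Fin n), |S x i j| ≤ B0 := fun x i j =>
    ((hB (i, j) x).1).trans (hle _)
  have hhT : ∀ (k : Fin n) (x : E n), hs (pdM k S x) ≤ n * (n * B0 ^ 2) := fun k x =>
    hs_bdd (T := fun x => pdM k S x) (fun x i j => hT k x i j) x
  have hhS : ∀ x, hs (S x) ≤ n * (n * B0 ^ 2) := fun x => hs_bdd hTS x
  -- integrability in `x`
  have intc : ∀ {f : E n → ℝ} {C : ℝ}, Continuous f → (∀ x, |f x| ≤ C) → Integrable f μ :=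
    fun hf hC => Integrable.of_bound hf.aestronglyMeasurable _
      (Filter.Eventually.of_forall fun x => hC x)
  have cS : Continuous fun x => hs (S x) := by
    unfold hs
    exact continuous_finsetSum _ fun i _ => continuous_finsetSum _ fun j _ =>
      ((hS (i, j)).1.continuous).pow 2
  have iS : Integrable (fun x => hs (S x)) μ := intc cS fun x => by
    rw [abs_of_nonneg (NB152.hs_nonneg _)]
    exact hhS x
  have iT : ∀ k, Integrable (fun x => hs (pdM k S x)) μ := fun k => by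
    refine intc (C := n * (n * B0 ^ 2)) ?_ fun x => ?_
    · unfold hs
      exact continuous_finsetSum _ fun i _ => continuous_finsetSum _ fun j _ =>
        (Tw807.pd_cont (hS (i, j)).1 k).pow 2
    · rw [abs_of_nonneg (NB152.hs_nonneg _)]
      exact hhT k x
  -- the weight
  have hw : ∀ p ∈ lev (n := n) l0 l1, (p.1 ^ 2)⁻¹ ≤ (l0 ^ 2)⁻¹ ∧ 0 ≤ (p.1 ^ 2)⁻¹ := by
    intro p hp
    obtain ⟨a1, a2, a3⟩ := lev_pos h0 hp
    exact ⟨inv_anti₀ (by positivity) (pow_le_pow_left₀ h0.le a2 2), by positivity⟩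
  have cw : ContinuousOn (fun p : ℝ × E n => (p.1 ^ 2)⁻¹) (lev l0 l1) := by
    intro p hp
    obtain ⟨a1, a2, a3⟩ := lev_pos h0 hp
    exact ContinuousAt.continuousWithinAt (ContinuousAt.inv₀ (by fun_prop) (by positivity))
  -- the two fields
  obtain ⟨j1, j2, j3⟩ := swap μ (C := (l0 ^ 2)⁻¹ * (a ^ 2 * n)) h1 (cw.mul (cont_ben (a := a) hS hSs h0))
    fun p hp => by
      obtain ⟨a1, a2, a3⟩ := lev_pos h0 hp
      have hQs := Ql_symm (a := a) (hSs p.2) a1.le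
      have b1 : 0 ≤ ben (Ql a p.1 (S p.2)) := ben_nonneg hQs
      have b2 : ben (Ql a p.1 (S p.2)) ≤ a ^ 2 * n := by
        have c1 : ben (Ql a p.1 (S p.2)) ≤ (Ql a p.1 (S p.2) * Ql a p.1 (S p.2)).trace := by
          unfold ben
          obtain ⟨U, q, hU, hU', hq⟩ := exists_spec hQs
          have : 0 ≤ Real.log (1 + Ql a p.1 (S p.2) * Ql a p.1 (S p.2)).det := by
            have e2 := one_add_eq_spec hU hU' q 1
            rw [one_smul] at e2
            rw [hq, e2, det_spec hU, Real.log_prod fun i _ => by positivity]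
            exact Finset.sum_nonneg fun i _ => Real.log_nonneg (by nlinarith [sq_nonneg (q i)])
          linarith
        rw [hs_eq_tr_sq hQs] at c1
        exact c1.trans (hs_Ql_le (hSs _) ha a1.le).1
      change |(p.1 ^ 2)⁻¹ * ben (Ql a p.1 (S p.2))| ≤ _
      rw [abs_of_nonneg (mul_nonneg (hw p hp).2 b1)]
      exact mul_le_mul (hw p hp).1 b2 b1 (by positivity)
  have e : ∀ l, ∫ x, (l ^ 2)⁻¹ * ben (Ql a l (S x)) ∂μ =
      (l ^ 2)⁻¹ * ∫ x, ben (Ql a l (S x)) ∂μ := fun l => integral_const_mul _ _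
  have j1' : IntervalIntegrable (fun l => ∫ x, (l ^ 2)⁻¹ * ben (Ql a l (S x)) ∂μ)
    volume l0 l1 := j1
  have j3' : ∫ l in l0..l1, ∫ x, (l ^ 2)⁻¹ * ben (Ql a l (S x)) ∂μ =
      ∫ x, (∫ l in l0..l1, (l ^ 2)⁻¹ * ben (Ql a l (S x))) ∂μ := j3
  have j2' : Integrable (fun x => ∫ l in l0..l1, (l ^ 2)⁻¹ * ben (Ql a l (S x))) μ := j2
  simp only [e] at j1' j3'
  refine ⟨j1', ?_⟩
  rw [j3']
  -- the benefit
  have hben : (a ^ 2 - Real.pi * a - a ^ 2 * l0 * A ^ 2) * (∫ x, hs (S x) ∂μ) - n * a ^ 2 / l1 ≤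
      ∫ x, (∫ l in l0..l1, (l ^ 2)⁻¹ * ben (Ql a l (S x))) ∂μ := by
    have e : (a ^ 2 - Real.pi * a - a ^ 2 * l0 * A ^ 2) * (∫ x, hs (S x) ∂μ) - n * a ^ 2 / l1 =
        ∫ x, ((a ^ 2 - Real.pi * a - a ^ 2 * l0 * A ^ 2) * hs (S x) - n * a ^ 2 / l1) ∂μ := by
      rw [integral_sub (iS.const_mul _) (integrable_const _), integral_const_mul, integral_const]
      simp
    rw [e]
    refine integral_mono ((iS.const_mul _).sub (integrable_const _)) j2' fun x => ?_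
    have h2 := benefit_mt (hSs x) ha h0 h1
    refine le_trans ?_ h2
    have h3 := mul_le_mul_of_nonneg_left (hA x) (by positivity : 0 ≤ a ^ 2 * l0)
    rw [hs_eq_tr_sq (hSs x)] at h3 ⊢
    change (a ^ 2 - Real.pi * a - a ^ 2 * l0 * A ^ 2) * hs (S x) - n * a ^ 2 / l1 ≤ _
    linarith
  exact hben

/-- the cost integrated over the levels -/
theorem cost_int (μ : Measure (E n)) [IsProbabilityMeasure μ] {S : E n → Mt n}
    (hS : ∀ i, CB (famM S i)) (hSs : ∀ x, (S x)ᵀ = S x) {a l0 l1 : ℝ}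
    (h0 : 0 < l0) (h1 : l0 ≤ l1) :
    IntervalIntegrable (fun l => (l ^ 2)⁻¹ * ∫ x, ∑ k, hs (dQ a l (S x) (pdM k S x)) ∂μ)
      volume l0 l1 ∧
    ∫ l in l0..l1, (l ^ 2)⁻¹ * (∫ x, ∑ k, hs (dQ a l (S x) (pdM k S x)) ∂μ) ≤
      3 / 2 * a ^ 2 * ∫ x, ∑ k, hs (pdM k S x) ∂μ := by
  have hl1 : 0 < l1 := h0.trans_le h1
  -- a common bound for `S` and its derivatives
  choose B hB using fun i => (hS i).2
  set B0 : ℝ := ∑ i, |B i| with hB0
  have hle : ∀ i, B i ≤ B0 := fun i =>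
    (le_abs_self _).trans (Finset.single_le_sum (f := fun i => |B i|)
      (fun _ _ => abs_nonneg _) (Finset.mem_univ i))
  have hT : ∀ (k : Fin n) (x : E n) (i j : Fin n), |pdM k S x i j| ≤ B0 := fun k x i j =>
    ((hB (i, j) x).2 k).trans (hle _)
  have hTS : ∀ (x : E n) (i j : Fin n), |S x i j| ≤ B0 := fun x i j =>
    ((hB (i, j) x).1).trans (hle _)
  have hhT : ∀ (k : Fin n) (x : E n), hs (pdM k S x) ≤ n * (n * B0 ^ 2) := fun k x =>
    hs_bdd (T := fun x => pdM k S x) (fun x i j => hT k x i j) x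
  have hhS : ∀ x, hs (S x) ≤ n * (n * B0 ^ 2) := fun x => hs_bdd hTS x
  -- integrability in `x`
  have intc : ∀ {f : E n → ℝ} {C : ℝ}, Continuous f → (∀ x, |f x| ≤ C) → Integrable f μ :=
    fun hf hC => Integrable.of_bound hf.aestronglyMeasurable _
      (Filter.Eventually.of_forall fun x => hC x)
  have cS : Continuous fun x => hs (S x) := by
    unfold hs
    exact continuous_finsetSum _ fun i _ => continuous_finsetSum _ fun j _ =>
      ((hS (i, j)).1.continuous).pow 2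
  have iS : Integrable (fun x => hs (S x)) μ := intc cS fun x => by
    rw [abs_of_nonneg (NB152.hs_nonneg _)]
    exact hhS x
  have iT : ∀ k, Integrable (fun x => hs (pdM k S x)) μ := fun k => by
    refine intc (C := n * (n * B0 ^ 2)) ?_ fun x => ?_
    · unfold hs
      exact continuous_finsetSum _ fun i _ => continuous_finsetSum _ fun j _ =>
        (Tw807.pd_cont (hS (i, j)).1 k).pow 2
    · rw [abs_of_nonneg (NB152.hs_nonneg _)]
      exact hhT k x
  -- the weight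
  have hw : ∀ p ∈ lev (n := n) l0 l1, (p.1 ^ 2)⁻¹ ≤ (l0 ^ 2)⁻¹ ∧ 0 ≤ (p.1 ^ 2)⁻¹ := by
    intro p hp
    obtain ⟨a1, a2, a3⟩ := lev_pos h0 hp
    exact ⟨inv_anti₀ (by positivity) (pow_le_pow_left₀ h0.le a2 2), by positivity⟩
  have cw : ContinuousOn (fun p : ℝ × E n => (p.1 ^ 2)⁻¹) (lev l0 l1) := by
    intro p hp
    obtain ⟨a1, a2, a3⟩ := lev_pos h0 hp
    exact ContinuousAt.continuousWithinAt (ContinuousAt.inv₀ (by fun_prop) (by positivity))
  have cd : ContinuousOn (fun p : ℝ × E n => ∑ k, hs (dQ a p.1 (S p.2) (pdM k S p.2)))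
      (lev l0 l1) :=
    continuousOn_finsetSum _ fun k _ => cont_hs fun i j => cont_dQ hS hSs h0 k i j
  obtain ⟨k1, k2, k3⟩ := swap μ (C := (l0 ^ 2)⁻¹ * (n * (a ^ 2 * l1 * (n * (n * B0 ^ 2))))) h1
    (cw.mul cd) fun p hp => by
      obtain ⟨a1, a2, a3⟩ := lev_pos h0 hp
      have b1 : 0 ≤ ∑ k, hs (dQ a p.1 (S p.2) (pdM k S p.2)) :=
        Finset.sum_nonneg fun k _ => NB152.hs_nonneg _
      have b2 : ∑ k, hs (dQ a p.1 (S p.2) (pdM k S p.2)) ≤
          n * (a ^ 2 * l1 * (n * (n * B0 ^ 2))) := by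
        calc ∑ k, hs (dQ a p.1 (S p.2) (pdM k S p.2)) ≤
            ∑ _k : Fin n, a ^ 2 * l1 * (n * (n * B0 ^ 2)) := by
              refine Finset.sum_le_sum fun k _ => ?_
              refine (hs_dQ_le (hSs _) _ a1.le).trans ?_
              have c1 : a ^ 2 * p.1 ≤ a ^ 2 * l1 := mul_le_mul_of_nonneg_left a3 (sq_nonneg a)
              exact mul_le_mul c1 (hhT k _) (NB152.hs_nonneg _) (by positivity)
          _ = _ := by simp
      change |(p.1 ^ 2)⁻¹ * ∑ k, hs (dQ a p.1 (S p.2) (pdM k S p.2))| ≤ _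
      rw [abs_of_nonneg (mul_nonneg (hw p hp).2 b1)]
      exact mul_le_mul (hw p hp).1 b2 b1 (by positivity)
  have e : ∀ l, ∫ x, (l ^ 2)⁻¹ * ∑ k, hs (dQ a l (S x) (pdM k S x)) ∂μ =
      (l ^ 2)⁻¹ * ∫ x, ∑ k, hs (dQ a l (S x) (pdM k S x)) ∂μ := fun l => integral_const_mul _ _
  have k1' : IntervalIntegrable (fun l => ∫ x, (l ^ 2)⁻¹ *
    ∑ k, hs (dQ a l (S x) (pdM k S x)) ∂μ) volume l0 l1 := k1
  have k3' : ∫ l in l0..l1, ∫ x, (l ^ 2)⁻¹ * ∑ k, hs (dQ a l (S x) (pdM k S x)) ∂μ =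
      ∫ x, (∫ l in l0..l1, (l ^ 2)⁻¹ * ∑ k, hs (dQ a l (S x) (pdM k S x))) ∂μ := k3
  have k2' : Integrable (fun x => ∫ l in l0..l1, (l ^ 2)⁻¹ *
      ∑ k, hs (dQ a l (S x) (pdM k S x))) μ := k2
  simp only [e] at k1' k3'
  refine ⟨k1', ?_⟩
  rw [k3']
  -- the cost
  have hcost : ∫ x, (∫ l in l0..l1, (l ^ 2)⁻¹ * ∑ k, hs (dQ a l (S x) (pdM k S x))) ∂μ ≤
      3 / 2 * a ^ 2 * ∫ x, ∑ k, hs (pdM k S x) ∂μ := by
    rw [← integral_const_mul]
    refine integral_mono k2' ((integrable_finsetSum _ fun k _ => iT k).const_mul _) fun x => ?_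
    change ∫ l in l0..l1, (l ^ 2)⁻¹ * ∑ k, hs (dQ a l (S x) (pdM k S x)) ≤
      3 / 2 * a ^ 2 * ∑ k, hs (pdM k S x)
    have e : ∫ l in l0..l1, (l ^ 2)⁻¹ * ∑ k, hs (dQ a l (S x) (pdM k S x)) =
        ∑ k, ∫ l in l0..l1, (l ^ 2)⁻¹ * hs (dQ a l (S x) (pdM k S x)) := by
      simp only [Finset.mul_sum]
      refine intervalIntegral.integral_finsetSum fun k _ => ?_
      refine ContinuousOn.intervalIntegrable ?_
      rw [uIcc_of_le h1]
      refine ContinuousOn.mul ?_ ?_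
      · intro l hl
        have hl0 : 0 < l := h0.trans_le hl.1
        exact ContinuousAt.continuousWithinAt (ContinuousAt.inv₀ (by fun_prop) (by positivity))
      · have hc : ContinuousOn (fun p : ℝ × E n => hs (dQ a p.1 (S p.2) (pdM k S p.2)))
            (lev (l0 / 2) l1) := cont_hs fun i j => cont_dQ hS hSs (half_pos h0) k i j
        refine hc.comp (f := fun l : ℝ => ((l, x) : ℝ × E n))
          (Continuous.continuousOn (by fun_prop)) fun l hl => ?_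
        exact ⟨⟨by have := hl.1; simp only; linarith, hl.2⟩, mem_univ _⟩
    rw [e, Finset.mul_sum]
    exact Finset.sum_le_sum fun k _ => cost (hSs x) _ h0 h1
  exact hcost

/-- **the end game over the levels**: LSI constant `K`, errors `c0 + c1 E|Q_l|² + c2 E tr (W Q_l²)` -/
theorem endgame (μ : Measure (E n)) [IsProbabilityMeasure μ] {S W : E n → Mt n}
    (hS : ∀ i, CB (famM S i)) (hSs : ∀ x, (S x)ᵀ = S x) (hW : ∀ i j, Continuous fun x => W x i j)
    {BW : ℝ} (hWb : ∀ x i j, |W x i j| ≤ BW) (hW0 : ∀ x, LeQ 0 (W x)) {a l0 l1 A K c0 c1 c2 : ℝ}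
    (ha : 0 ≤ a) (h0 : 0 < l0) (h1 : l0 ≤ l1) (hK : 0 < K) (hc0 : 0 ≤ c0) (hc1 : 0 ≤ c1)
    (hc2 : 0 ≤ c2)
    (hA : ∀ x, (S x * S x * (S x * S x)).trace ≤ A ^ 2 * (S x * S x).trace)
    (h : ∀ l ∈ Icc l0 l1, 2 * ∫ x, ben (Ql a l (S x)) ∂μ ≤
      K * (∫ x, ∑ k, hs (dQ a l (S x) (pdM k S x)) ∂μ) + c0 + c1 * (∫ x, hs (Ql a l (S x)) ∂μ)
        + c2 * ∫ x, (W x * (Ql a l (S x) * Ql a l (S x))).trace ∂μ) :
    2 * (a ^ 2 - Real.pi * a - a ^ 2 * l0 * A ^ 2) * ∫ x, hs (S x) ∂μ ≤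
      K * (3 / 2 * a ^ 2 * (∫ x, ∑ k, hs (pdM k S x) ∂μ)) + c0 / l0
        + c1 * (a ^ 2 * ∫ x, hs (S x) ∂μ) + c2 * (a ^ 2 * ∫ x, (W x * (S x * S x)).trace ∂μ)
        + 2 * (n * a ^ 2 / l1) := by
  obtain ⟨b1, b2⟩ := ben_int μ hS hSs ha h0 h1 hA
  obtain ⟨c3, c4⟩ := cost_int μ hS hSs (a := a) h0 h1
  obtain ⟨w1, w2⟩ := weight_int μ hS hSs hW hWb hW0 ha h0 h1
  have hone : ∀ x, LeQ 0 ((fun _ : E n => (1 : Mt n)) x) := fun x u => by
    simp only [zero_mulVec, dotProduct_zero, one_mulVec]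
    exact Finset.sum_nonneg fun i _ => mul_self_nonneg _
  obtain ⟨v1, v2⟩ := weight_int (W := fun _ => (1 : Mt n)) μ hS hSs (fun i j => continuous_const)
    (BW := 1) (fun x i j => by
      by_cases hij : i = j
      · subst hij; simp
      · simp [Matrix.one_apply_ne hij]) hone ha h0 h1
  have e1 : ∀ l ∈ Icc l0 l1, ∀ x, ((1 : Mt n) * (Ql a l (S x) * Ql a l (S x))).trace =
      hs (Ql a l (S x)) := fun l hl x => by
    rw [Matrix.one_mul, hs_eq_tr_sq (Ql_symm (hSs x) (h0.le.trans hl.1))]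
  have e2 : ∀ x, ((1 : Mt n) * (S x * S x)).trace = hs (S x) := fun x => by
    rw [Matrix.one_mul, hs_eq_tr_sq (hSs x)]
  simp only [e2] at v2
  have cinv := (inv_sq_cont h0 h1).intervalIntegrable (μ := volume)
  have r1 := c3.const_mul K
  have r2 := cinv.const_mul c0
  have r3 := v1.const_mul c1
  have r4 := w1.const_mul c2
  have main : 2 * (∫ l in l0..l1, (l ^ 2)⁻¹ * ∫ x, ben (Ql a l (S x)) ∂μ) ≤
      K * (∫ l in l0..l1, (l ^ 2)⁻¹ * (∫ x, ∑ k, hs (dQ a l (S x) (pdM k S x)) ∂μ))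
      + c0 * (∫ l in l0..l1, (l ^ 2)⁻¹)
      + c1 * (∫ l in l0..l1, (l ^ 2)⁻¹ *
          ∫ x, ((1 : Mt n) * (Ql a l (S x) * Ql a l (S x))).trace ∂μ)
      + c2 * (∫ l in l0..l1, (l ^ 2)⁻¹ *
          ∫ x, (W x * (Ql a l (S x) * Ql a l (S x))).trace ∂μ) := by
    rw [← intervalIntegral.integral_const_mul, ← intervalIntegral.integral_const_mul,
      ← intervalIntegral.integral_const_mul, ← intervalIntegral.integral_const_mul,
      ← intervalIntegral.integral_const_mul, ← intervalIntegral.integral_add r1 r2,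
      ← intervalIntegral.integral_add (r1.add r2) r3,
      ← intervalIntegral.integral_add ((r1.add r2).add r3) r4]
    refine intervalIntegral.integral_mono_on h1 (b1.const_mul 2) (((r1.add r2).add r3).add r4)
      fun l hl => ?_
    have hl0 : 0 < l := h0.trans_le hl.1
    have h3 := mul_le_mul_of_nonneg_left (h l hl) (by positivity : 0 ≤ (l ^ 2)⁻¹)
    have h4 : ∫ x, ((1 : Mt n) * (Ql a l (S x) * Ql a l (S x))).trace ∂μ =
        ∫ x, hs (Ql a l (S x)) ∂μ := by simp only [e1 l hl]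
    change 2 * ((l ^ 2)⁻¹ * ∫ x, ben (Ql a l (S x)) ∂μ) ≤
      K * ((l ^ 2)⁻¹ * (∫ x, ∑ k, hs (dQ a l (S x) (pdM k S x)) ∂μ)) + c0 * (l ^ 2)⁻¹
      + c1 * ((l ^ 2)⁻¹ * ∫ x, ((1 : Mt n) * (Ql a l (S x) * Ql a l (S x))).trace ∂μ)
      + c2 * ((l ^ 2)⁻¹ * ∫ x, (W x * (Ql a l (S x) * Ql a l (S x))).trace ∂μ)
    rw [h4]
    linarith
  have m1 := mul_le_mul_of_nonneg_left c4 hK.le
  have m2 := mul_le_mul_of_nonneg_left (inv_sq_integral_le h0 h1) hc0
  have m3 := mul_le_mul_of_nonneg_left v2 hc1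
  have m4 := mul_le_mul_of_nonneg_left w2 hc2
  have m5 : c0 * (1 / l0) = c0 / l0 := by ring
  rw [m5] at m2
  linarith

end Crest.Agent.R201.Ch150
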