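import Crest.Agent.R201.Defs2_74

/-!
# R201, leaves MX1 (`rt_spec`, `rt_unique`), MX3 (`rt_mono`), MX4 (`lyap`), MX2 (`rt_lip`)
(helper354).  Elementary proofs: eigenvectors of one symmetric matrix and the `2 x 2` dilation.
-/

set_option autoImplicit false
open MeasureTheory Matrix

namespace Crest.Agent.R201.MX354

open Crest.Agent.R201

/-- quadratic form of a symmetric product -/
lemma dot_mulVec_self {m : Type*} [Fintype m] {T : Matrix m m ℝ} (hT : Tᵀ = T) (u : m → ℝ) :
    u ⬝ᵥ ((T * T) *ᵥ u) = (T *ᵥ u) ⬝ᵥ (T *ᵥ u) := by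
  rw [← mulVec_mulVec, dotProduct_mulVec, ← mulVec_transpose, hT]

/-- the basic comparison: `s² ≤ t²` with `t ≥ 0` gives `s ≤ t` (no sign condition on `s`) -/
lemma sub_posSemidef {m : Type*} [Fintype m] [DecidableEq m] {s t : Matrix m m ℝ}
    (ht : t.PosSemidef) (hs : sᵀ = s) (h : LeQ (s * s) (t * t)) : (t - s).PosSemidef := by
  have htt : tᵀ = t := by
    have := ht.isHermitian
    rwa [IsHermitian, conjTranspose_eq_transpose_of_trivial] at this
  have hH : (t - s).IsHermitian := by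
    rw [IsHermitian, conjTranspose_eq_transpose_of_trivial, transpose_sub, htt, hs]
  rw [hH.posSemidef_iff_eigenvalues_nonneg]
  intro i
  by_contra hlt
  simp only [Pi.zero_apply, not_le] at hlt
  set lam := hH.eigenvalues i with hlam
  set v : m → ℝ := ⇑(hH.eigenvectorBasis i) with hv
  have hev : (t - s) *ᵥ v = lam • v := hH.mulVec_eigenvectorBasis i
  have hvv : v ⬝ᵥ v = 1 := by
    have h1 := hH.eigenvectorBasis.orthonormal.1 i
    have h2 : ‖hH.eigenvectorBasis i‖ ^ 2 = 1 := by rw [h1]; norm_num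
    rw [EuclideanSpace.real_norm_sq_eq] at h2
    rw [← h2]
    simp [dotProduct, sq, hv]
  have hsv : s *ᵥ v = t *ᵥ v - lam • v := by
    rw [← hev, sub_mulVec]; abel
  have h1 := h v
  rw [dot_mulVec_self hs, dot_mulVec_self htt, hsv] at h1
  have h2 : 0 ≤ v ⬝ᵥ (t *ᵥ v) := by
    have := ht.dotProduct_mulVec_nonneg v
    simpa using this
  have h3 : (t *ᵥ v - lam • v) ⬝ᵥ (t *ᵥ v - lam • v)
      = (t *ᵥ v) ⬝ᵥ (t *ᵥ v) - 2 * lam * (v ⬝ᵥ (t *ᵥ v)) + lam ^ 2 * (v ⬝ᵥ v) := by
    simp only [sub_dotProduct, dotProduct_sub, smul_dotProduct, dotProduct_smul, smul_eq_mul]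
    rw [dotProduct_comm (t *ᵥ v) v]
    ring
  rw [h3, hvv] at h1
  nlinarith [mul_nonneg (neg_nonneg.mpr hlt.le) h2, mul_pos_of_neg_of_neg hlt hlt]

lemma posSemidef_transpose {m : Type*} [Fintype m] {t : Matrix m m ℝ}
    (ht : t.PosSemidef) : tᵀ = t := by
  have := ht.isHermitian
  rwa [IsHermitian, conjTranspose_eq_transpose_of_trivial] at this

/-- uniqueness of the psd root -/
lemma root_unique {m : Type*} [Fintype m] [DecidableEq m] {s t : Matrix m m ℝ}
    (hs : s.PosSemidef) (ht : t.PosSemidef) (h : s * s = t * t) : s = t := by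
  have h1 := sub_posSemidef ht (posSemidef_transpose hs) (fun u => by rw [h])
  have h2 := sub_posSemidef hs (posSemidef_transpose ht) (fun u => by rw [h])
  have h3 : (t - s).trace = 0 := by
    have a1 := h1.trace_nonneg
    have a2 := h2.trace_nonneg
    have : (s - t).trace = - (t - s).trace := by rw [trace_sub, trace_sub]; ring
    linarith
  have h4 := h1.trace_eq_zero_iff.mp h3
  exact (sub_eq_zero.mp h4).symm

/-- existence of the psd root -/
lemma root_exists {m : Type*} [Fintype m] [DecidableEq m] {S : Matrix m m ℝ}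
    (hS : S.PosSemidef) : ∃ T : Matrix m m ℝ, T.PosSemidef ∧ T * T = S := by
  open scoped MatrixOrder in
  exact ⟨CFC.sqrt S, (CFC.sqrt_nonneg S).posSemidef, CFC.sqrt_mul_sqrt_self S hS.nonneg⟩

/-- MX1 root: existence -/
theorem rt_spec {m : Type} [Fintype m] [DecidableEq m] {S : Matrix m m ℝ} (hS : S.PosSemidef) :
    (rt S).PosSemidef ∧ rt S * rt S = S := by
  classical
  have h := root_exists hS
  have h2 : rt S = h.choose := by
    unfold rt
    rw [dif_pos h]
  rw [h2]
  exact h.choose_spec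

/-- MX1 root: uniqueness -/
theorem rt_unique {m : Type} [Fintype m] [DecidableEq m] {S T : Matrix m m ℝ}
    (hT : T.PosSemidef) (h : T * T = S) : rt S = T := by
  classical
  have hex : ∃ T : Matrix m m ℝ, T.PosSemidef ∧ T * T = S := ⟨T, hT, h⟩
  have h2 : rt S = hex.choose := by
    unfold rt
    rw [dif_pos hex]
  rw [h2]
  exact root_unique hex.choose_spec.1 hT (hex.choose_spec.2.trans h.symm)

lemma PosSemidef.leQ {m : Type*} [Fintype m] {A B : Matrix m m ℝ} (h : (B - A).PosSemidef) :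
    LeQ A B := by
  intro u
  have := h.dotProduct_mulVec_nonneg u
  rw [sub_mulVec, dotProduct_sub] at this
  simpa using this

/-- MX3 root is operator monotone (form version) -/
theorem rt_mono {m : Type} [Fintype m] [DecidableEq m] {S T : Matrix m m ℝ}
    (hS : S.PosSemidef) (hT : T.PosSemidef) (h : LeQ S T) : LeQ (rt S) (rt T) := by
  obtain ⟨h1, h2⟩ := rt_spec hS
  obtain ⟨h3, h4⟩ := rt_spec hT
  exact PosSemidef.leQ (sub_posSemidef h3 (posSemidef_transpose h1) (by rw [h2, h4]; exact h))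

/-! ### Lyapunov equation -/

variable {n : ℕ}

lemma lyap_inj {Z A : Mt n} (hZ : Z.PosDef) (h : A * Z + Z * A = 0) : A = 0 := by
  have h1 : (A * Z * Aᵀ).trace + (Aᵀ * Z * A).trace = 0 := by
    have : (Aᵀ * (A * Z + Z * A)).trace = 0 := by rw [h]; simp
    rw [Matrix.mul_add, trace_add] at this
    rw [← this]
    congr 1
    · rw [trace_mul_comm]
    · rw [Matrix.mul_assoc]
  have h2 : (A * Z * Aᵀ).PosSemidef := by
    have := hZ.posSemidef.mul_mul_conjTranspose_same A
    rwa [conjTranspose_eq_transpose_of_trivial] at this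
  have h3 : (Aᵀ * Z * A).PosSemidef := by
    have := hZ.posSemidef.conjTranspose_mul_mul_same A
    rwa [conjTranspose_eq_transpose_of_trivial] at this
  have h4 : (Aᵀ * Z * A).trace = 0 := by
    have a1 := h2.trace_nonneg
    have a2 := h3.trace_nonneg
    linarith
  have h5 := h3.trace_eq_zero_iff.mp h4
  ext i j
  by_contra hne
  have hcol : (fun i => A i j) ≠ 0 := fun hz => hne (congrFun hz i)
  have h6 := hZ.dotProduct_mulVec_pos hcol
  have h7 : (Aᵀ * Z * A) j j = 0 := by rw [h5]; rfl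
  have h8 : (Aᵀ * Z * A) j j = (fun i => A i j) ⬝ᵥ (Z *ᵥ (fun i => A i j)) := by
    rw [Matrix.mul_assoc, Matrix.mul_apply]
    simp only [dotProduct, transpose_apply]
    refine Finset.sum_congr rfl fun a _ => ?_
    rw [Matrix.mul_apply]
    rfl
  rw [h8] at h7
  simp only [star_trivial] at h6
  linarith

/-- MX4 Lyapunov equation -/
theorem lyap {Z Y : Mt n} (hZ : Z.PosDef) (hY : Yᵀ = Y) :
    ∃ A : Mt n, Aᵀ = A ∧ A * Z + Z * A = Y := by
  have hZt : Zᵀ = Z := posSemidef_transpose hZ.posSemidef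
  let L : Mt n →ₗ[ℝ] Mt n :=
    { toFun := fun A => A * Z + Z * A
      map_add' := fun A B => by simp only [Matrix.add_mul, Matrix.mul_add]; abel
      map_smul' := fun c A => by simp [smul_add] }
  have hinj : Function.Injective L := by
    rw [← LinearMap.ker_eq_bot, LinearMap.ker_eq_bot']
    intro A hA
    exact lyap_inj hZ hA
  obtain ⟨A, hA⟩ := (LinearMap.injective_iff_surjective.mp hinj) Y
  have hA' : A * Z + Z * A = Y := hA
  refine ⟨A, ?_, hA'⟩
  have h1 : (Aᵀ - A) * Z + Z * (Aᵀ - A) = 0 := by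
    have h2 : Aᵀ * Z + Z * Aᵀ = Y := by
      have := congrArg Matrix.transpose hA'
      rw [transpose_add, transpose_mul, transpose_mul, hZt, hY] at this
      rw [← this]; abel
    rw [Matrix.sub_mul, Matrix.mul_sub]
    have : Aᵀ * Z - A * Z + (Z * Aᵀ - Z * A) = (Aᵀ * Z + Z * Aᵀ) - (A * Z + Z * A) := by abel
    rw [this, h2, hA', sub_self]
  exact sub_eq_zero.mp (lyap_inj hZ h1)

/-- uniqueness in the Lyapunov equation -/
lemma lyap_unique {Z A B : Mt n} (hZ : Z.PosDef) (h : A * Z + Z * A = B * Z + Z * B) : A = B := by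
  have h1 : (A - B) * Z + Z * (A - B) = 0 := by
    rw [Matrix.sub_mul, Matrix.mul_sub]
    have : A * Z - B * Z + (Z * A - Z * B) = (A * Z + Z * A) - (B * Z + Z * B) := by abel
    rw [this, h, sub_self]
  exact sub_eq_zero.mp (lyap_inj hZ h1)

/-! ### `|·|` is `1`-Lipschitz on symmetric matrices, and `√2`-Lipschitz in general -/

lemma hs_eq_trace {m m' : Type*} [Fintype m] [Fintype m'] (A : Matrix m m' ℝ) :
    hs A = (A * Aᵀ).trace := by
  simp [hs, trace, Matrix.mul_apply, sq]

lemma trace_mul_nonneg {m : Type*} [Fintype m] [DecidableEq m] {P Q : Matrix m m ℝ}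
    (hP : P.PosSemidef) (hQ : Q.PosSemidef) : 0 ≤ (P * Q).trace := by
  obtain ⟨T, hT, hTT⟩ := root_exists hP
  rw [← hTT, Matrix.mul_assoc, trace_mul_comm]
  have h := hQ.conjTranspose_mul_mul_same T
  rw [conjTranspose_eq_transpose_of_trivial, posSemidef_transpose hT] at h
  exact h.trace_nonneg

/-- `hs (|S| - |T|) ≤ hs (S - T)` for symmetric `S`, `T` -/
lemma hs_abs_sub_le {m : Type*} [Fintype m] [DecidableEq m] {S T P Q : Matrix m m ℝ}
    (hS : Sᵀ = S) (hT : Tᵀ = T) (hP : P.PosSemidef) (hQ : Q.PosSemidef)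
    (hPS : P * P = S * S) (hQT : Q * Q = T * T) : hs (P - Q) ≤ hs (S - T) := by
  have hPt := posSemidef_transpose hP
  have hQt := posSemidef_transpose hQ
  have hp1 : (P - S).PosSemidef := sub_posSemidef hP hS (fun u => by rw [hPS])
  have hp2 : (P - (-S)).PosSemidef :=
    sub_posSemidef hP (by rw [transpose_neg, hS]) (fun u => by rw [neg_mul_neg, hPS])
  have hq1 : (Q - T).PosSemidef := sub_posSemidef hQ hT (fun u => by rw [hQT])
  have hq2 : (Q - (-T)).PosSemidef :=
    sub_posSemidef hQ (by rw [transpose_neg, hT]) (fun u => by rw [neg_mul_neg, hQT])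
  have h1 := trace_mul_nonneg hp1 hq2
  have h2 := trace_mul_nonneg hp2 hq1
  have e1 : ((P - S) * (Q - (-T))).trace
      = (P * Q).trace + (P * T).trace - (S * Q).trace - (S * T).trace := by
    rw [sub_neg_eq_add, Matrix.sub_mul, Matrix.mul_add, Matrix.mul_add, trace_sub, trace_add,
      trace_add]
    ring
  have e2 : ((P - (-S)) * (Q - T)).trace
      = (P * Q).trace - (P * T).trace + (S * Q).trace - (S * T).trace := by
    rw [sub_neg_eq_add, Matrix.add_mul, Matrix.mul_sub, Matrix.mul_sub, trace_add, trace_sub,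
      trace_sub]
    ring
  rw [e1] at h1
  rw [e2] at h2
  have e3 : hs (P - Q) = (P * P).trace + (Q * Q).trace - 2 * (P * Q).trace := by
    rw [hs_eq_trace, transpose_sub, hPt, hQt, Matrix.sub_mul, Matrix.mul_sub, Matrix.mul_sub,
      trace_sub, trace_sub, trace_sub, trace_mul_comm Q P]
    ring
  have e4 : hs (S - T) = (S * S).trace + (T * T).trace - 2 * (S * T).trace := by
    rw [hs_eq_trace, transpose_sub, hS, hT, Matrix.sub_mul, Matrix.mul_sub, Matrix.mul_sub,
      trace_sub, trace_sub, trace_sub, trace_mul_comm T S]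
    ring
  rw [e3, e4, hPS, hQT]
  linarith

lemma posSemidef_mul_transpose {m m' : Type*} [Fintype m] [Fintype m'] (A : Matrix m m' ℝ) :
    (A * Aᵀ).PosSemidef := by
  have := posSemidef_self_mul_conjTranspose A
  rwa [conjTranspose_eq_transpose_of_trivial] at this

lemma posSemidef_blocks {m m' : Type*} [Fintype m] [Fintype m'] {P : Matrix m m ℝ}
    {Q : Matrix m' m' ℝ} (hP : P.PosSemidef) (hQ : Q.PosSemidef) :
    (fromBlocks P 0 0 Q).PosSemidef := by
  refine PosSemidef.of_dotProduct_mulVec_nonneg ?_ ?_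
  · rw [IsHermitian, conjTranspose_eq_transpose_of_trivial, fromBlocks_transpose,
      posSemidef_transpose hP, posSemidef_transpose hQ, transpose_zero, transpose_zero]
  · intro x
    obtain ⟨u, v, rfl⟩ : ∃ u v, x = Sum.elim u v := ⟨x ∘ Sum.inl, x ∘ Sum.inr, by ext (i | i) <;> rfl⟩
    have h1 := hP.dotProduct_mulVec_nonneg u
    have h2 := hQ.dotProduct_mulVec_nonneg v
    rw [fromBlocks_mulVec]
    simp only [star_trivial] at h1 h2 ⊢
    simp only [Sum.elim_comp_inl, Sum.elim_comp_inr, zero_mulVec, add_zero, zero_add,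
      sumElim_dotProduct_sumElim]
    linarith

/-- MX2 roots are `√2`-Lipschitz in HS -/
theorem rt_lip {m m' : Type} [Fintype m] [DecidableEq m] [Fintype m'] (A B : Matrix m m' ℝ) :
    hs (rt (A * Aᵀ) - rt (B * Bᵀ)) ≤ 2 * hs (A - B) := by
  classical
  obtain ⟨hA1, hA2⟩ := rt_spec (posSemidef_mul_transpose A)
  obtain ⟨hB1, hB2⟩ := rt_spec (posSemidef_mul_transpose B)
  obtain ⟨P, hP1, hP2⟩ := root_exists (posSemidef_mul_transpose Aᵀ)
  obtain ⟨Q, hQ1, hQ2⟩ := root_exists (posSemidef_mul_transpose Bᵀ)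
  rw [transpose_transpose] at hP2 hQ2
  have key := hs_abs_sub_le (S := fromBlocks 0 A Aᵀ 0) (T := fromBlocks 0 B Bᵀ 0)
    (P := fromBlocks (rt (A * Aᵀ)) 0 0 P) (Q := fromBlocks (rt (B * Bᵀ)) 0 0 Q)
    (by rw [fromBlocks_transpose, transpose_transpose, transpose_zero, transpose_zero])
    (by rw [fromBlocks_transpose, transpose_transpose, transpose_zero, transpose_zero])
    (posSemidef_blocks hA1 hP1) (posSemidef_blocks hB1 hQ1)
    (by rw [fromBlocks_multiply, fromBlocks_multiply]; simp [hA2, hP2])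
    (by rw [fromBlocks_multiply, fromBlocks_multiply]; simp [hB2, hQ2])
  have e1 : hs (fromBlocks (rt (A * Aᵀ)) 0 0 P - fromBlocks (rt (B * Bᵀ)) 0 0 Q)
      = hs (rt (A * Aᵀ) - rt (B * Bᵀ)) + hs (P - Q) := by
    simp [hs, Fintype.sum_sum_type]
  have e2 : hs (fromBlocks 0 A Aᵀ 0 - fromBlocks 0 B Bᵀ 0) = 2 * hs (A - B) := by
    simp only [hs, Fintype.sum_sum_type, Matrix.sub_apply, fromBlocks_apply₁₁, fromBlocks_apply₁₂,
      fromBlocks_apply₂₁, fromBlocks_apply₂₂, transpose_apply, Matrix.zero_apply, sub_self]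
    simp only [ne_eq, OfNat.ofNat_ne_zero, not_false_eq_true, zero_pow, Finset.sum_const_zero,
      add_zero, zero_add]
    rw [Finset.sum_comm (s := (Finset.univ : Finset m'))]
    ring
  rw [e1, e2] at key
  have h0 : 0 ≤ hs (P - Q) := Finset.sum_nonneg fun _ _ => Finset.sum_nonneg fun _ _ => sq_nonneg _
  linarith

end Crest.Agent.R201.MX354
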