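import Crest.Agent.R201.FD1_807
import Crest.Agent.R201.MX1_354

/-!
# R201, KLS half (helper150): tools for the field leaves (matrix fields and the weight `P`)
-/

set_option autoImplicit false
open MeasureTheory Matrix

namespace Crest.Agent.R201.FA150

open Crest.Agent.R201.Tw807 Crest.Agent.R201.MX354

variable {n : ℕ}

/-! ### trace forms -/

theorem trq {m m' : Type*} [Fintype m] [Fintype m'] (Q : Matrix m m ℝ) (A : Matrix m m' ℝ) :
    (Aᵀ * Q * A).trace = ∑ j, (fun i => A i j) ⬝ᵥ (Q *ᵥ fun i => A i j) := by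
  unfold trace
  refine Finset.sum_congr rfl fun j _ => ?_
  rw [diag_apply, Matrix.mul_assoc, Matrix.mul_apply]
  unfold dotProduct mulVec dotProduct
  refine Finset.sum_congr rfl fun i _ => ?_
  rw [transpose_apply, Matrix.mul_apply]

theorem LeQ.trace_le {m m' : Type*} [Fintype m] [Fintype m'] {Q Q' : Matrix m m ℝ}
    (h : LeQ Q Q') (A : Matrix m m' ℝ) : (Aᵀ * Q * A).trace ≤ (Aᵀ * Q' * A).trace := by
  rw [trq, trq]
  exact Finset.sum_le_sum fun j _ => h _

theorem LeQ.trace_nonneg {m m' : Type*} [Fintype m] [Fintype m'] {Q : Matrix m m ℝ}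
    (h : LeQ 0 Q) (A : Matrix m m' ℝ) : 0 ≤ (Aᵀ * Q * A).trace := by
  have := LeQ.trace_le h A
  simpa using this

theorem hs_nonneg {m m' : Type*} [Fintype m] [Fintype m'] (A : Matrix m m' ℝ) : 0 ≤ hs A :=
  Finset.sum_nonneg fun _ _ => Finset.sum_nonneg fun _ _ => sq_nonneg _

theorem hs_eq_tr {m m' : Type*} [Fintype m] [Fintype m'] (A : Matrix m m' ℝ) :
    hs A = (Aᵀ * A).trace := by
  rw [hs_eq_trace, trace_mul_comm]

theorem hs_smul {m m' : Type*} [Fintype m] [Fintype m'] (c : ℝ) (A : Matrix m m' ℝ) :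
    hs (c • A) = c ^ 2 * hs A := by
  simp only [hs, Matrix.smul_apply, smul_eq_mul, mul_pow, Finset.mul_sum]

/-- `0 ≤ Q ≤ 1` gives `Q² ≤ Q` -/
theorem sq_le_self {m : Type*} [Fintype m] [DecidableEq m] {Q : Matrix m m ℝ} (hs : Qᵀ = Q)
    (h0 : LeQ 0 Q) (h1 : LeQ Q 1) : LeQ (Q * Q) Q := by
  intro u
  have key : ∀ a b : m → ℝ, a ⬝ᵥ (Q *ᵥ b) = (Q *ᵥ a) ⬝ᵥ b := by
    intro a b
    rw [dotProduct_mulVec, ← mulVec_transpose, hs]
  have a0 := h0 (u - Q *ᵥ u)
  have a1 := h1 (Q *ᵥ u)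
  simp only [zero_mulVec, dotProduct_zero, one_mulVec] at a0 a1
  rw [mulVec_sub, sub_dotProduct, dotProduct_sub, dotProduct_sub] at a0
  rw [← mulVec_mulVec, key u (Q *ᵥ u)]
  have e1 : u ⬝ᵥ Q *ᵥ (Q *ᵥ u) = (Q *ᵥ u) ⬝ᵥ (Q *ᵥ u) := key _ _
  linarith

/-- the complement of `P` -/
theorem one_sub_facts (K : KD n) (x : E n) : (1 - K.P x)ᵀ = 1 - K.P x ∧ LeQ 0 (1 - K.P x) ∧
    LeQ (1 - K.P x) 1 := by
  refine ⟨?_, fun u => ?_, fun u => ?_⟩
  · rw [transpose_sub, transpose_one, K.P_symm]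
  · have := K.P_le x u
    rw [sub_mulVec, dotProduct_sub]
    simp only [zero_mulVec, dotProduct_zero]
    linarith
  · have := K.P_nonneg x u
    rw [sub_mulVec, dotProduct_sub]
    simp only [zero_mulVec, dotProduct_zero] at this
    linarith

/-! ### integrals of matrix fields -/

variable (K : KD n)

theorem fam_apply (F : E n → Mt n) (i j : Fin n) : famM F (i, j) = fun x => F x i j := rfl

theorem int_sq_cb {f : E n → ℝ} (hf : CB f) : Integrable (fun x => f x ^ 2) K.μ := by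
  simp only [sq]
  exact int_mul_cb hf hf

theorem int_sq_pd {f : E n → ℝ} (hf : CB f) (k : Fin n) :
    Integrable (fun x => pd k f x ^ 2) K.μ := by
  simp only [sq]
  exact (memLp_pd K hf k 2).integrable_mul (memLp_pd K hf k 2)

theorem int_hs {F : E n → Mt n} (hF : ∀ i, CB (famM F i)) :
    Integrable (fun x => hs (F x)) K.μ := by
  unfold hs
  exact integrable_finsetSum _ fun i _ => integrable_finsetSum _ fun j _ =>
    int_sq_cb K (hF (i, j))

theorem int_hs_pd {F : E n → Mt n} (hF : ∀ i, CB (famM F i)) (k : Fin n) :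
    Integrable (fun x => hs (pdM k F x)) K.μ := by
  unfold hs pdM
  exact integrable_finsetSum _ fun i _ => integrable_finsetSum _ fun j _ =>
    int_sq_pd K (hF (i, j)) k

theorem nsq_fam {F : E n → Mt n} (hF : ∀ i, CB (famM F i)) :
    nsq K.μ (famM F) = ∫ x, hs (F x) ∂K.μ := by
  have e : ∫ x, hs (F x) ∂K.μ = ∑ i, ∑ j, ∫ x, famM F (i, j) x ^ 2 ∂K.μ :=
    (integral_finsetSum _ fun i _ => integrable_finsetSum _ fun j _ =>
      int_sq_cb K (hF (i, j))).trans
      (Finset.sum_congr rfl fun i _ => integral_finsetSum _ fun j _ => int_sq_cb K (hF (i, j)))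
  rw [e]
  unfold nsq
  rw [Fintype.sum_prod_type]

theorem dsq_fam {F : E n → Mt n} (hF : ∀ i, CB (famM F i)) :
    dsq K.μ (famM F) = ∫ x, ∑ k, hs (pdM k F x) ∂K.μ := by
  unfold dsq
  rw [integral_finsetSum _ fun k _ => int_hs_pd K hF k, Finset.sum_comm]
  refine Finset.sum_congr rfl fun k _ => ?_
  have e : ∫ x, hs (pdM k F x) ∂K.μ = ∑ i, ∑ j, ∫ x, pd k (famM F (i, j)) x ^ 2 ∂K.μ :=
    (integral_finsetSum _ fun i _ => integrable_finsetSum _ fun j _ =>
      int_sq_pd K (hF (i, j)) k).trans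
      (Finset.sum_congr rfl fun i _ => integral_finsetSum _ fun j _ => int_sq_pd K (hF (i, j)) k)
  rw [e, Fintype.sum_prod_type]

/-- entries of products with `CB` entries are integrable -/
theorem int_cb2 {f g : E n → ℝ} (hf : CB f) (hg : CB g) : Integrable (fun x => f x * g x) K.μ :=
  int_mul_cb hf hg

theorem cb_mulM {F G : E n → Mt n} (hF : ∀ i, CB (famM F i)) (hG : ∀ i, CB (famM G i)) :
    ∀ i, CB (famM (fun x => F x * G x) i) := by
  rintro ⟨i, j⟩
  have : famM (fun x => F x * G x) (i, j) = fun x => ∑ l, F x i l * G x l j := by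
    funext x
    exact Matrix.mul_apply
  rw [this]
  exact CB.sum _ fun l _ => CB.mul (hF (i, l)) (hG (l, j))

theorem cb_P : ∀ i, CB (famM K.P i) := fun i => K.P_cb i.1 i.2

theorem cb_one_sub_P : ∀ i, CB (famM (fun x => 1 - K.P x) i) := by
  rintro ⟨i, j⟩
  have : famM (fun x => 1 - K.P x) (i, j) = fun x => (1 : Mt n) i j - K.P x i j := by
    funext x
    rfl
  rw [this]
  exact CB.sub (CB.const _) (K.P_cb i j)

theorem cb_transpose {F : E n → Mt n} (hF : ∀ i, CB (famM F i)) :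
    ∀ i, CB (famM (fun x => (F x)ᵀ) i) := by
  rintro ⟨i, j⟩
  exact hF (j, i)

theorem int_trace {F : E n → Mt n} (hF : ∀ i, CB (famM F i)) :
    Integrable (fun x => (F x).trace) K.μ := by
  unfold trace
  exact integrable_finsetSum _ fun i _ => int_cb K (hF (i, i))

/-- Jensen for one entry -/
theorem sq_int_le {f : E n → ℝ} (hf : CB f) : (∫ x, f x ∂K.μ) ^ 2 ≤ ∫ x, f x ^ 2 ∂K.μ := by
  have := K.prob
  have h1 : 0 ≤ ∫ x, (f x - ∫ y, f y ∂K.μ) ^ 2 ∂K.μ := integral_nonneg fun x => sq_nonneg _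
  have h2 : ∫ x, (f x - ∫ y, f y ∂K.μ) ^ 2 ∂K.μ =
      (∫ x, f x ^ 2 ∂K.μ) - (∫ y, f y ∂K.μ) ^ 2 := by
    set c := ∫ y, f y ∂K.μ with hc
    have e : ∀ x, (f x - c) ^ 2 = f x ^ 2 - 2 * c * f x + c ^ 2 := fun x => by ring
    simp only [e]
    have i1 := int_sq_cb K hf
    have i2 : Integrable (fun x => 2 * c * f x) K.μ := (int_cb K hf).const_mul _
    have i3 : Integrable (fun x => f x ^ 2 - 2 * c * f x) K.μ := i1.sub i2
    rw [integral_add i3 (integrable_const _), integral_sub i1 i2, integral_const_mul, ← hc,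
      integral_const]
    simp
    ring
  linarith

/-- the mean of the `(1-P)`-part -/
theorem mean_one_sub {F : E n → Mt n} (hF : ∀ i, CB (famM F i)) :
    ∑ i, ∑ j, (∫ x, ((1 - K.P x) * F x) i j ∂K.μ) ^ 2 ≤
      ∫ x, ((F x)ᵀ * (1 - K.P x) * F x).trace ∂K.μ := by
  have hc := cb_mulM (cb_one_sub_P K) hF
  have h1 : ∑ i, ∑ j, (∫ x, ((1 - K.P x) * F x) i j ∂K.μ) ^ 2 ≤
      ∑ i, ∑ j, ∫ x, ((1 - K.P x) * F x) i j ^ 2 ∂K.μ :=
    Finset.sum_le_sum fun i _ => Finset.sum_le_sum fun j _ => sq_int_le K (hc (i, j))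
  have h2 : ∑ i, ∑ j, ∫ x, ((1 - K.P x) * F x) i j ^ 2 ∂K.μ =
      ∫ x, hs ((1 - K.P x) * F x) ∂K.μ := by
    rw [← nsq_fam K hc]
    unfold nsq
    rw [Fintype.sum_prod_type]
    rfl
  rw [h2] at h1
  refine h1.trans (integral_mono (int_hs K hc) (int_trace K
    (cb_mulM (cb_mulM (cb_transpose hF) (cb_one_sub_P K)) hF)) fun x => ?_)
  obtain ⟨a, b, c⟩ := one_sub_facts K x
  have h3 := LeQ.trace_le (sq_le_self a b c) (F x)
  rw [hs_eq_tr, transpose_mul, a]
  refine le_trans (le_of_eq ?_) h3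
  simp only [Matrix.mul_assoc]

/-- the mean of the `P`-part -/
theorem mean_P {F : E n → Mt n} (hF : ∀ i, CB (famM F i)) :
    ∑ i, ∑ j, (∫ x, (K.P x * F x) i j ∂K.μ) ^ 2 ≤ K.η ^ 2 * nsq K.μ (famM F) := by
  have hprob := K.prob
  set G : Mt n := Matrix.of fun i j => ∫ x, (K.P x * F x) i j ∂K.μ with hG
  have hPF := cb_mulM (cb_P K) hF
  have hGc : ∀ i, CB (famM (fun _ : E n => G) i) := fun i => CB.const _
  have hPG := cb_mulM (cb_P K) hGc
  have h0 : ∑ i, ∑ j, (∫ x, (K.P x * F x) i j ∂K.μ) ^ 2 = hs G := rfl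
  rw [h0]
  -- `hs G = ∫ tr (G^T P F)`
  have h1 : hs G = ∫ x, (Gᵀ * (K.P x * F x)).trace ∂K.μ := by
    have e : ∀ x, (Gᵀ * (K.P x * F x)).trace = ∑ i, ∑ j, G i j * (K.P x * F x) i j := by
      intro x
      unfold trace
      simp only [diag_apply, Matrix.mul_apply (M := Gᵀ), transpose_apply]
      rw [Finset.sum_comm]
    simp only [e]
    have g2 : ∀ i j, ∫ x, G i j * (K.P x * F x) i j ∂K.μ = G i j ^ 2 := by
      intro i j
      refine (integral_const_mul _ _).trans ?_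
      rw [sq]
      rfl
    have g1 : ∫ x, ∑ i, ∑ j, G i j * (K.P x * F x) i j ∂K.μ = ∑ i, ∑ j, G i j ^ 2 := by
      refine (integral_finsetSum _ fun i _ => integrable_finsetSum _ fun j _ =>
        (int_cb K (hPF (i, j))).const_mul (G i j)).trans ?_
      refine Finset.sum_congr rfl fun i _ => ?_
      refine (integral_finsetSum _ fun j _ => (int_cb K (hPF (i, j))).const_mul (G i j)).trans ?_
      exact Finset.sum_congr rfl fun j _ => g2 i j
    exact g1.symm
  -- pointwise bound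
  have h2 : ∀ t : ℝ, 0 < t → hs G ≤ (t / 2) * (K.η ^ 2 * hs G) + (1 / (2 * t)) * nsq K.μ (famM F) := by
    intro t ht
    have hp : ∀ x, (Gᵀ * (K.P x * F x)).trace ≤
        (t / 2) * (Gᵀ * K.P x * G).trace + (1 / (2 * t)) * hs (F x) := by
      intro x
      have hP2 : (Gᵀ * (K.P x * K.P x) * G).trace ≤ (Gᵀ * K.P x * G).trace :=
        LeQ.trace_le (sq_le_self (K.P_symm x) (K.P_nonneg x) (K.P_le x)) G
      have h3 : 0 ≤ hs (t • (K.P x * G) - F x) := hs_nonneg _
      have h4 : hs (t • (K.P x * G) - F x) = t ^ 2 * (Gᵀ * (K.P x * K.P x) * G).trace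
          - 2 * t * (Gᵀ * (K.P x * F x)).trace + hs (F x) := by
        rw [hs_eq_tr (t • (K.P x * G) - F x), hs_eq_tr (F x)]
        have e1 : (t • (K.P x * G) - F x)ᵀ * (t • (K.P x * G) - F x) =
            t ^ 2 • (Gᵀ * (K.P x * K.P x) * G) - t • (Gᵀ * (K.P x * F x))
              - t • ((F x)ᵀ * (K.P x * G)) + (F x)ᵀ * F x := by
          rw [transpose_sub, transpose_smul, transpose_mul, K.P_symm]
          simp only [Matrix.sub_mul, Matrix.mul_sub, Matrix.smul_mul, Matrix.mul_smul,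
            Matrix.mul_assoc, sq]
          module
        rw [e1, trace_add, trace_sub, trace_sub, trace_smul, trace_smul, trace_smul]
        have e2 : ((F x)ᵀ * (K.P x * G)).trace = (Gᵀ * (K.P x * F x)).trace := by
          rw [← trace_transpose, transpose_mul, transpose_mul, transpose_transpose, K.P_symm,
            Matrix.mul_assoc]
        rw [e2]
        simp only [smul_eq_mul]
        ring
      rw [h4] at h3
      have h5 : 2 * t * (Gᵀ * (K.P x * F x)).trace ≤ t ^ 2 * (Gᵀ * K.P x * G).trace + hs (F x) := by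
        have := mul_le_mul_of_nonneg_left hP2 (sq_nonneg t)
        linarith
      have h6 : (t / 2) * (Gᵀ * K.P x * G).trace + (1 / (2 * t)) * hs (F x) =
          (t ^ 2 * (Gᵀ * K.P x * G).trace + hs (F x)) / (2 * t) := by
        field_simp
      rw [h6, le_div_iff₀ (by positivity)]
      linarith
    have hGPG := cb_mulM (cb_mulM (F := fun _ => Gᵀ) (fun i => CB.const _) (cb_P K)) hGc
    have i1 : Integrable (fun x => (Gᵀ * K.P x * G).trace) K.μ := int_trace K hGPG
    have h7 : ∫ x, (Gᵀ * K.P x * G).trace ∂K.μ ≤ K.η ^ 2 * hs G := by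
      have e : ∫ x, (Gᵀ * K.P x * G).trace ∂K.μ =
          (Gᵀ * (Matrix.of fun i j => ∫ x, K.P x i j ∂K.μ) * G).trace := by
        have e1 : ∀ Q : Mt n, (Gᵀ * Q * G).trace = ∑ j, ∑ i, ∑ l, G i j * (Q i l * G l j) := by
          intro Q
          rw [trq]
          unfold dotProduct mulVec dotProduct
          simp only [Finset.mul_sum]
        simp only [e1]
        rw [integral_finsetSum _ fun j _ => integrable_finsetSum _ fun i _ =>
          integrable_finsetSum _ fun l _ => ((int_cb K (K.P_cb i l)).mul_const _).const_mul _]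
        refine Finset.sum_congr rfl fun j _ => ?_
        rw [integral_finsetSum _ fun i _ =>
          integrable_finsetSum _ fun l _ => ((int_cb K (K.P_cb i l)).mul_const _).const_mul _]
        refine Finset.sum_congr rfl fun i _ => ?_
        rw [integral_finsetSum _ fun l _ => ((int_cb K (K.P_cb i l)).mul_const _).const_mul _]
        refine Finset.sum_congr rfl fun l _ => ?_
        rw [integral_const_mul, integral_mul_const]
        rfl
      rw [e]
      refine (LeQ.trace_le K.P_mean G).trans (le_of_eq ?_)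
      rw [Matrix.mul_smul, Matrix.smul_mul, trace_smul, Matrix.mul_one, ← hs_eq_tr, smul_eq_mul]
    calc hs G = ∫ x, (Gᵀ * (K.P x * F x)).trace ∂K.μ := h1
      _ ≤ ∫ x, ((t / 2) * (Gᵀ * K.P x * G).trace + (1 / (2 * t)) * hs (F x)) ∂K.μ :=
          integral_mono (int_trace K (cb_mulM (F := fun _ => Gᵀ) (fun i => CB.const _) hPF))
            ((i1.const_mul _).add ((int_hs K hF).const_mul _)) hp
      _ = (t / 2) * (∫ x, (Gᵀ * K.P x * G).trace ∂K.μ) + (1 / (2 * t)) * nsq K.μ (famM F) := by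
          rw [integral_add (i1.const_mul _) ((int_hs K hF).const_mul _), integral_const_mul,
            integral_const_mul, nsq_fam K hF]
      _ ≤ _ := by
          have := mul_le_mul_of_nonneg_left h7 (by positivity : 0 ≤ t / 2)
          linarith
  have h3 := h2 (1 / K.η ^ 2) (by have := K.η_pos; positivity)
  have hη := K.η_pos
  have e1 : (1 / K.η ^ 2 / 2) * (K.η ^ 2 * hs G) = hs G / 2 := by field_simp
  have e2 : (1 / (2 * (1 / K.η ^ 2))) * nsq K.μ (famM F) = K.η ^ 2 * nsq K.μ (famM F) / 2 := by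
    field_simp
  rw [e1, e2] at h3
  linarith

/-- the mean of a matrix field -/
theorem msq_le {F : E n → Mt n} (hF : ∀ i, CB (famM F i)) :
    msq K.μ (famM F) ≤ 2 * (∫ x, ((F x)ᵀ * (1 - K.P x) * F x).trace ∂K.μ)
      + 2 * (K.η ^ 2 * nsq K.μ (famM F)) := by
  have h1 := mean_one_sub K hF
  have h2 := mean_P K hF
  have h3 : msq K.μ (famM F) ≤ 2 * (∑ i, ∑ j, (∫ x, ((1 - K.P x) * F x) i j ∂K.μ) ^ 2)
      + 2 * ∑ i, ∑ j, (∫ x, (K.P x * F x) i j ∂K.μ) ^ 2 := by
    unfold msq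
    rw [Fintype.sum_prod_type, Finset.mul_sum, Finset.mul_sum, ← Finset.sum_add_distrib]
    refine Finset.sum_le_sum fun i _ => ?_
    rw [Finset.mul_sum, Finset.mul_sum, ← Finset.sum_add_distrib]
    refine Finset.sum_le_sum fun j _ => ?_
    have e : ∫ x, famM F (i, j) x ∂K.μ =
        (∫ x, ((1 - K.P x) * F x) i j ∂K.μ) + ∫ x, (K.P x * F x) i j ∂K.μ := by
      refine Eq.trans ?_ (integral_add (int_cb K (cb_mulM (cb_one_sub_P K) hF (i, j)))
        (int_cb K (cb_mulM (cb_P K) hF (i, j))))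
      refine integral_congr_ae (Filter.Eventually.of_forall fun x => ?_)
      change F x i j = ((1 - K.P x) * F x) i j + (K.P x * F x) i j
      rw [← Matrix.add_apply, ← Matrix.add_mul, sub_add_cancel, Matrix.one_mul]
    rw [e]
    nlinarith [sq_nonneg ((∫ x, ((1 - K.P x) * F x) i j ∂K.μ) - ∫ x, (K.P x * F x) i j ∂K.μ)]
  linarith

end Crest.Agent.R201.FA150
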