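import Crest.Agent.R201.Ch5_150
import Crest.Agent.R201.FA_150

/-!
# R201, LSI half (helper150): end-game assembly, abstract form
-/

set_option autoImplicit false
open MeasureTheory Matrix Set
open scoped Matrix.Norms.Operator

namespace Crest.Agent.R201.Ch150

open Crest.Agent.R201 Crest.Agent.R201.NB152 Crest.Agent.R201.FA150

variable {n : ℕ}

theorem posSemidef_of_leQ {R : Mt n} (hRs : Rᵀ = R) (h0 : LeQ 0 R) : R.PosSemidef := by
  refine PosSemidef.of_dotProduct_mulVec_nonneg ?_ fun u => ?_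
  · rw [IsHermitian, conjTranspose_eq_transpose_of_trivial, hRs]
  · have := h0 u
    simpa using this

/-- `tr (Q² R) ≤ 2 a² tr (P R) + 2 tr ((1 - P) Q²)` for `0 ≤ R, P ≤ 1`, `Q² ≤ a²` -/
theorem tr_QR {Q P R : Mt n} {a : ℝ} (hQ : Qᵀ = Q) (hQa : LeQ (Q * Q) (a ^ 2 • (1 : Mt n)))
    (hP : Pᵀ = P) (hP0 : LeQ 0 P) (hP1 : LeQ P 1) (hR : Rᵀ = R) (hR0 : LeQ 0 R) (hR1 : LeQ R 1) :
    (Q * Q * R).trace ≤ 2 * a ^ 2 * (P * R).trace + 2 * ((1 - P) * (Q * Q)).trace := by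
  obtain ⟨T, hT, hTT⟩ := MX354.root_exists (posSemidef_of_leQ hR hR0)
  have hTt : Tᵀ = T := MX354.posSemidef_transpose hT
  have hP' : (1 - P)ᵀ = 1 - P := by rw [transpose_sub, transpose_one, hP]
  have hP'0 : LeQ 0 (1 - P) := fun u => by
    have := hP1 u
    rw [sub_mulVec, dotProduct_sub]
    simp only [zero_mulVec, dotProduct_zero]
    linarith
  have hP'1 : LeQ (1 - P) 1 := fun u => by
    have := hP0 u
    rw [sub_mulVec, dotProduct_sub]
    simp only [zero_mulVec, dotProduct_zero] at this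
    linarith
  -- `tr (Q² R) = |Q T|²`
  have e1 : (Q * Q * R).trace = hs (Q * T) := by
    rw [hs_eq_trace', transpose_mul, hQ, hTt, ← hTT, ← Matrix.mul_assoc, trace_mul_comm]
    simp only [Matrix.mul_assoc]
  have e2 : Q * T = Q * P * T + Q * (1 - P) * T := by
    rw [← Matrix.add_mul, ← Matrix.mul_add, add_sub_cancel, Matrix.mul_one]
  have h1 : hs (Q * T) ≤ 2 * hs (Q * P * T) + 2 * hs (Q * (1 - P) * T) := by
    rw [e2]
    exact NB152.hs_add_le _ _
  -- first term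
  have h2 : hs (Q * P * T) ≤ a ^ 2 * (P * R).trace := by
    have a1 : hs (Q * P * T) = ((P * T)ᵀ * (Q * Q) * (P * T)).trace := by
      rw [hs_eq_trace', transpose_mul, transpose_mul, hQ, hP, transpose_mul, hP, hTt]
      simp only [Matrix.mul_assoc]
    have a2 : ((P * T)ᵀ * (Q * Q) * (P * T)).trace ≤
        ((P * T)ᵀ * (a ^ 2 • (1 : Mt n)) * (P * T)).trace := LeQ.trace_le hQa _
    have a3 : ((P * T)ᵀ * (a ^ 2 • (1 : Mt n)) * (P * T)).trace = a ^ 2 * (Tᵀ * (P * P) * T).trace := by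
      rw [Matrix.mul_smul, Matrix.smul_mul, trace_smul, Matrix.mul_one, transpose_mul, hP,
        smul_eq_mul]
      simp only [Matrix.mul_assoc]
    have a4 : (Tᵀ * (P * P) * T).trace ≤ (Tᵀ * P * T).trace := LeQ.trace_le (sq_le_self hP hP0 hP1) T
    have a5 : (Tᵀ * P * T).trace = (P * R).trace := by
      rw [hTt, trace_mul_comm, ← Matrix.mul_assoc, hTT, trace_mul_comm]
    rw [a1]
    refine a2.trans ?_
    rw [a3, ← a5]
    exact mul_le_mul_of_nonneg_left a4 (sq_nonneg a)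
  -- second term
  have h3 : hs (Q * (1 - P) * T) ≤ ((1 - P) * (Q * Q)).trace := by
    have b1 : hs (Q * (1 - P) * T) = ((((1 - P) * Q))ᵀ * R * ((1 - P) * Q)).trace := by
      rw [hs_eq_trace, transpose_mul, transpose_mul, hQ, hP', transpose_mul, hQ, hP', hTt, ← hTT]
      simp only [Matrix.mul_assoc]
    have b2 : ((((1 - P) * Q))ᵀ * R * ((1 - P) * Q)).trace ≤
        ((((1 - P) * Q))ᵀ * 1 * ((1 - P) * Q)).trace := LeQ.trace_le hR1 _
    have b3 : ((((1 - P) * Q))ᵀ * 1 * ((1 - P) * Q)).trace =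
        (Qᵀ * ((1 - P) * (1 - P)) * Q).trace := by
      rw [Matrix.mul_one, transpose_mul, hP', hQ]
      simp only [Matrix.mul_assoc]
    have b4 : (Qᵀ * ((1 - P) * (1 - P)) * Q).trace ≤ (Qᵀ * (1 - P) * Q).trace :=
      LeQ.trace_le (sq_le_self hP' hP'0 hP'1) Q
    have b5 : (Qᵀ * (1 - P) * Q).trace = ((1 - P) * (Q * Q)).trace := by
      rw [hQ, trace_mul_comm, ← Matrix.mul_assoc, trace_mul_comm]
    rw [b1]
    refine b2.trans ?_
    rw [b3, ← b5]
    exact b4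
  rw [e1]
  linarith

/-- the information about one channel matrix field `Q`, obtained from the labelled LSI (809), the
static I-MMSE step (844) and the labelled trace bound (146); `nu` = the near-extremal law -/
def LevB (ν : Measure (E n)) (P : E n → Mt n) (K D δ e2 N a : ℝ) (Q : E n → Mt n) : Prop :=
  ∃ Dis u pr i r : ℝ,
    (1 / 2 * ∫ x, ben (Q x) ∂ν ≤ K / 4 * (∫ x, ∑ k, hs (pdM k Q x) ∂ν) + δ + Dis) ∧
    Dis ≤ N * u + a ^ 2 * (∫ x, hs (Q x) ∂ν) / N ∧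
    u ≤ 2 * a ^ 2 * pr + 2 * ∫ x, ((1 - P x) * (Q x * Q x)).trace ∂ν ∧
    pr ≤ e2 * (D + i + r) ∧ i ≤ ∫ x, hs (Q x) ∂ν ∧ r ≤ ∫ x, hs (Q x) ∂ν

/-- **end game, assembled** -/
theorem assembly (ν : Measure (E n)) [IsProbabilityMeasure ν] {S P : E n → Mt n}
    (hS : ∀ i, CB (famM S i)) (hSs : ∀ x, (S x)ᵀ = S x)
    (hPc : ∀ i j, Continuous fun x => P x i j) {BP : ℝ} (hPb : ∀ x i j, |P x i j| ≤ BP)
    (hP1 : ∀ x, LeQ (P x) 1) {K D δ e2 N a l0 l1 A : ℝ}
    (ha : 0 ≤ a) (h0 : 0 < l0) (h1 : l0 ≤ l1) (hK : 0 < K) (hD : 0 ≤ D) (hδ : 0 ≤ δ) (he2 : 0 ≤ e2)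
    (hN : 0 < N)
    (hA : ∀ x, (S x * S x * (S x * S x)).trace ≤ A ^ 2 * (S x * S x).trace)
    (hL : ∀ l ∈ Icc l0 l1, LevB ν P K D δ e2 N a (fun x => Ql a l (S x))) :
    2 * (a ^ 2 - Real.pi * a - a ^ 2 * l0 * A ^ 2) * ∫ x, hs (S x) ∂ν ≤
      3 / 2 * a ^ 2 * K * (∫ x, ∑ k, hs (pdM k S x) ∂ν)
        + (4 * δ + 8 * N * a ^ 2 * e2 * D) / l0
        + (16 * N * a ^ 2 * e2 + 4 * a ^ 2 / N) * (a ^ 2 * ∫ x, hs (S x) ∂ν)
        + 8 * N * (a ^ 2 * ∫ x, ((1 - P x) * (S x * S x)).trace ∂ν)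
        + 2 * (n * a ^ 2 / l1) := by
  have hW : ∀ i j, Continuous fun x => (1 - P x) i j := fun i j => by
    simp only [Matrix.sub_apply]
    exact continuous_const.sub (hPc i j)
  have hWb : ∀ x i j, |(1 - P x) i j| ≤ 1 + BP := fun x i j => by
    rw [Matrix.sub_apply]
    refine (abs_sub _ _).trans (add_le_add ?_ (hPb x i j))
    by_cases hij : i = j
    · subst hij; simp
    · simp [Matrix.one_apply_ne hij]
  have hW0 : ∀ x, LeQ 0 (1 - P x) := fun x u => by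
    have := hP1 x u
    rw [sub_mulVec, dotProduct_sub]
    simp only [zero_mulVec, dotProduct_zero]
    linarith
  have h := endgame ν hS hSs hW hWb hW0 (a := a) (l0 := l0) (l1 := l1) (A := A) (K := K)
    (c0 := 4 * δ + 8 * N * a ^ 2 * e2 * D) (c1 := 16 * N * a ^ 2 * e2 + 4 * a ^ 2 / N)
    (c2 := 8 * N) ha h0 h1 hK (by positivity) (by positivity) (by positivity) hA
    (fun l hl => by
      have hl0 : 0 ≤ l := h0.le.trans hl.1
      obtain ⟨Dis, u, pr, i, r, g1, g2, g3, g4, g5, g6⟩ := hL l hl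
      have e : ∀ x, ∑ k, hs (pdM k (fun x => Ql a l (S x)) x) =
          ∑ k, hs (dQ a l (S x) (pdM k S x)) := fun x =>
        Finset.sum_congr rfl fun k _ => by rw [pdM_Ql hS hSs hl0 k x]
      simp only [e] at g1
      set T := ∫ x, hs (Ql a l (S x)) ∂ν with hT
      set Wt := ∫ x, ((1 - P x) * (Ql a l (S x) * Ql a l (S x))).trace ∂ν with hWt
      have k1 : pr ≤ e2 * (D + T + T) := g4.trans (mul_le_mul_of_nonneg_left (by linarith) he2)
      have k2 : u ≤ 2 * a ^ 2 * (e2 * (D + T + T)) + 2 * Wt := by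
        have := mul_le_mul_of_nonneg_left k1 (by positivity : 0 ≤ 2 * a ^ 2)
        linarith
      have k3 := mul_le_mul_of_nonneg_left k2 hN.le
      have k4 : a ^ 2 * T / N = a ^ 2 / N * T := by ring
      rw [k4] at g2
      have k5 : N * (2 * a ^ 2 * (e2 * (D + T + T)) + 2 * Wt) =
          2 * N * a ^ 2 * e2 * D + 4 * N * a ^ 2 * e2 * T + 2 * N * Wt := by ring
      rw [k5] at k3
      have k6 : (16 * N * a ^ 2 * e2 + 4 * a ^ 2 / N) * T =
        16 * N * a ^ 2 * e2 * T + 4 * (a ^ 2 / N * T) := by ring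
      rw [k6]
      linarith)
  have e1 : K * (3 / 2 * a ^ 2 * (∫ x, ∑ k, hs (pdM k S x) ∂ν)) =
      3 / 2 * a ^ 2 * K * (∫ x, ∑ k, hs (pdM k S x) ∂ν) := by ring
  rw [e1] at h
  exact h

end Crest.Agent.R201.Ch150
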