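import Crest.Agent.R201.Ch6_150
import Crest.Agent.R201.LabLSI_809
import Crest.Agent.R201.An7_293

/-!
# R201, LSI half (helper150): `LevB` from the labelled inequalities (label-averaging part)

`μ` base, `ν = f μ`, label channel `p : L → E n → ℝ` (809's class `Chan`).
-/

set_option autoImplicit false
set_option linter.unusedSectionVars false
open MeasureTheory Matrix Set

namespace Crest.Agent.R201.Ch150

open Crest.Agent.R201 Crest.Agent.R201.NB152 Crest.Agent.R201.FA150 Crest.Agent.R201.LL809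

variable {n : ℕ}

/-- the probability `f μ` -/
noncomputable def fm (μ : Measure (E n)) (f : E n → ℝ) : Measure (E n) :=
  μ.withDensity fun x => ENNReal.ofReal (f x)

theorem int_fm {μ : Measure (E n)} {f : E n → ℝ} (mf : Measurable f) (hf : ∀ x, 0 ≤ f x)
    (g : E n → ℝ) : ∫ x, g x ∂(fm μ f) = ∫ x, f x * g x ∂μ := by
  unfold fm
  rw [integral_withDensity_eq_integral_toReal_smul mf.ennreal_ofReal
    (Filter.Eventually.of_forall fun _ => ENNReal.ofReal_lt_top)]
  refine integral_congr_ae (Filter.Eventually.of_forall fun x => ?_)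
  simp only [ENNReal.toReal_ofReal (hf x), smul_eq_mul]

theorem prob_fm {μ : Measure (E n)} [IsFiniteMeasure μ] {f : E n → ℝ} (hf : CBp f)
    (h1 : ∫ x, f x ∂μ = 1) : IsProbabilityMeasure (fm μ f) := by
  constructor
  unfold fm
  rw [withDensity_apply _ MeasurableSet.univ, Measure.restrict_univ]
  obtain ⟨B, hB0, hB⟩ := hf.bdd
  have fi : Integrable f μ := (integrable_const B).mono' hf.cont.aestronglyMeasurable
    (Filter.Eventually.of_forall fun x => (hB x).1)
  rw [← ofReal_integral_eq_lintegral_ofReal fi (Filter.Eventually.of_forall fun x => (hf.pos x).le),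
    h1, ENNReal.ofReal_one]

/-- bridge with 293's normalised weights -/
theorem fm_nm {ρ f : E n → ℝ} (hρ : An.Ex ρ) (mf : Measurable f)
    (h1 : ∫ x, f x ∂(An.nm ρ) = 1) : fm (An.nm ρ) f = An.nm fun x => f x * ρ x := by
  have e1 : ∫ x, f x * ρ x = ∫ x, ρ x := by
    rw [An.int_nm hρ] at h1
    unfold An.Em at h1
    rwa [div_eq_one_iff_eq hρ.pos.ne'] at h1
  unfold fm An.nm
  rw [e1, ← withDensity_mul _ (An.nm_dens_meas hρ) mf.ennreal_ofReal]
  congr 1
  funext x
  simp only [Pi.mul_apply]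
  rw [← ENNReal.ofReal_mul (div_nonneg (hρ.nonneg x) hρ.pos.le)]
  congr 1
  ring

section Label

variable {μ : Measure (E n)} [IsFiniteMeasure μ] {f : E n → ℝ} {L : Type*} [MeasurableSpace L]
  {l : Measure L} [SFinite l] {p : L → E n → ℝ} {G h : L → ℝ}

/-- `E tr (A(x) R(J))` -/
noncomputable def ET (μ : Measure (E n)) (f : E n → ℝ) (l : Measure L) (p : L → E n → ℝ)
    (A : E n → Mt n) (R : L → Mt n) : ℝ :=
  ∫ j, ∫ x, f x * ((A x * R j).trace * p j x) ∂μ ∂l

theorem lab_int (hp : Chan l p G h) (hf : CBp f) {b : L × E n → ℝ} (mb : Measurable b) {B : ℝ}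
    (hb : ∀ z, |b z| ≤ B) :
    Integrable (fun z : L × E n => f z.2 * (b z * p z.1 z.2)) (l.prod μ) := by
  obtain ⟨C, hC0, hC⟩ := hf.bdd
  have h1 : Integrable (fun z : L × E n => ((1 + h z.1) ^ 2 * G z.1) * (fun _ : E n => C * B) z.2)
      (l.prod μ) := hp.int.mul_prod (integrable_const (C * B))
  refine h1.mono' ((hf.cont.measurable.comp measurable_snd).mul (mb.mul hp.meas)).aestronglyMeasurable
    (Filter.Eventually.of_forall fun z => ?_)
  rw [Real.norm_eq_abs, abs_mul, abs_mul]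
  have e : (1 + h z.1) ^ 2 * G z.1 * (C * B) = C * (B * ((1 + h z.1) ^ 2 * G z.1)) := by ring
  rw [e]
  have hB0 : 0 ≤ B := (abs_nonneg _).trans (hb z)
  exact mul_le_mul (hC z.2).1 (mul_le_mul (hb z) (hp.q1 z.1 z.2) (abs_nonneg _) hB0)
    (mul_nonneg (abs_nonneg _) (abs_nonneg _)) hC0

/-- label-free observable -/
theorem lab_free (hp : Chan l p G h) (hf : CBp f) {c : E n → ℝ} (mc : Measurable c) {B : ℝ}
    (hc : ∀ x, |c x| ≤ B) :
    ∫ j, ∫ x, f x * (c x * p j x) ∂μ ∂l = ∫ x, f x * c x ∂μ := by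
  have hi := lab_int (μ := μ) hp hf (b := fun z => c z.2) (mc.comp measurable_snd) (B := B)
    fun z => hc z.2
  rw [integral_integral_swap (f := fun j x => f x * (c x * p j x)) hi]
  refine integral_congr_ae (Filter.Eventually.of_forall fun x => ?_)
  simp only
  have : ∀ j, f x * (c x * p j x) = (f x * c x) * p j x := fun j => by ring
  simp only [this]
  rw [integral_const_mul, hp.one, mul_one]

theorem meas_tr {A : E n → Mt n} {R : L → Mt n} (mA : ∀ i j, Measurable fun x => A x i j)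
    (mR : ∀ i j, Measurable fun y => R y i j) :
    Measurable fun z : L × E n => (A z.2 * R z.1).trace := by
  simp only [Matrix.trace, Matrix.diag_apply, Matrix.mul_apply]
  exact Finset.measurable_sum _ fun i _ => Finset.measurable_sum _ fun j _ =>
    ((mA i j).comp measurable_snd).mul ((mR j i).comp measurable_fst)

theorem abs_tr_le {A R : Mt n} {a r : ℝ} (hA : ∀ i j, |A i j| ≤ a) (hR : ∀ i j, |R i j| ≤ r)
    (ha : 0 ≤ a) : |(A * R).trace| ≤ n * (n * (a * r)) := by
  simp only [Matrix.trace, Matrix.diag_apply, Matrix.mul_apply]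
  refine (Finset.abs_sum_le_sum_abs _ _).trans ?_
  have : ∀ i ∈ (Finset.univ : Finset (Fin n)), |∑ j, A i j * R j i| ≤ n * (a * r) := by
    intro i _
    refine (Finset.abs_sum_le_sum_abs _ _).trans ?_
    refine (Finset.sum_le_sum fun j _ => (?_ : |A i j * R j i| ≤ a * r)).trans ?_
    · rw [abs_mul]
      exact mul_le_mul (hA i j) (hR j i) (abs_nonneg _) ha
    · simp
  refine (Finset.sum_le_sum this).trans ?_
  simp

theorem hs_le_n {R : Mt n} (hR : Rᵀ = R) (h0 : LeQ 0 R) (h1 : LeQ R 1) : hs R ≤ (n : ℝ) := by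
  have e1 : hs R = (Rᵀ * 1 * R).trace := by rw [hs_eq_trace', Matrix.mul_one]
  have e2 : (Rᵀ * 1 * R).trace = ((1 : Mt n)ᵀ * (R * R) * 1).trace := by
    rw [hR, Matrix.mul_one, transpose_one, Matrix.one_mul, Matrix.mul_one]
  have e3 := LeQ.trace_le (sq_le_self hR h0 h1) (1 : Mt n)
  have e4 := LeQ.trace_le h1 (1 : Mt n)
  have e5 : ((1 : Mt n)ᵀ * 1 * 1).trace = (n : ℝ) := by
    rw [transpose_one, Matrix.one_mul, Matrix.one_mul, trace_one, Fintype.card_fin]
  rw [e1, e2]
  linarith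

theorem entry_le {R : Mt n} (hR : Rᵀ = R) (h0 : LeQ 0 R) (h1 : LeQ R 1) (i j : Fin n) :
    |R i j| ≤ 1 + n := abs_le_of_hs (hs_le_n hR h0 h1) i j

/-- integrability of `tr (A(x) R(J))` -/
theorem ET_int (hp : Chan l p G h) (hf : CBp f) {A : E n → Mt n} {R : L → Mt n}
    (mA : ∀ i j, Measurable fun x => A x i j) {a : ℝ} (hA : ∀ x i j, |A x i j| ≤ a)
    (mR : ∀ i j, Measurable fun y => R y i j) {r : ℝ} (hR : ∀ y i j, |R y i j| ≤ r) :
    Integrable (fun z : L × E n => f z.2 * ((A z.2 * R z.1).trace * p z.1 z.2)) (l.prod μ) := by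
  refine lab_int hp hf (b := fun z : L × E n => (A z.2 * R z.1).trace) (meas_tr mA mR)
    (B := n * (n * (max a 0 * r))) fun z => ?_
  exact abs_tr_le (fun i j => (hA z.2 i j).trans (le_max_left _ _)) (hR z.1) (le_max_right _ _)

/-- **unresolvedness, averaged**: `E tr (Q² R) ≤ 2 a² E tr (P R) + 2 E tr ((1 - P) Q²)` -/
theorem unres (hp : Chan l p G h) (hf : CBp f) {Q P : E n → Mt n} {R : L → Mt n} {a B : ℝ}
    (mQ : ∀ i j, Measurable fun x => Q x i j) (bQ : ∀ x i j, |Q x i j| ≤ B)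
    (hQ : ∀ x, (Q x)ᵀ = Q x) (hQa : ∀ x, LeQ (Q x * Q x) (a ^ 2 • (1 : Mt n)))
    (mP : ∀ i j, Measurable fun x => P x i j)
    (hP : ∀ x, (P x)ᵀ = P x) (hP0 : ∀ x, LeQ 0 (P x)) (hP1 : ∀ x, LeQ (P x) 1)
    (mR : ∀ i j, Measurable fun y => R y i j)
    (hR : ∀ y, (R y)ᵀ = R y) (hR0 : ∀ y, LeQ 0 (R y)) (hR1 : ∀ y, LeQ (R y) 1) :
    ET μ f l p (fun x => Q x * Q x) R ≤ 2 * a ^ 2 * ET μ f l p P R +
      2 * ∫ x, f x * ((1 - P x) * (Q x * Q x)).trace ∂μ := by
  have mQQ : ∀ i j, Measurable fun x => (Q x * Q x) i j := fun i j => by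
    simp only [Matrix.mul_apply]
    exact Finset.measurable_sum _ fun k _ => (mQ i k).mul (mQ k j)
  have bQQ : ∀ x i j, |(Q x * Q x) i j| ≤ n * (B * B) := fun x i j => by
    simp only [Matrix.mul_apply]
    refine (Finset.abs_sum_le_sum_abs _ _).trans ?_
    refine (Finset.sum_le_sum fun k _ => (?_ : |Q x i k * Q x k j| ≤ B * B)).trans ?_
    · rw [abs_mul]
      exact mul_le_mul (bQ x i k) (bQ x k j) (abs_nonneg _) ((abs_nonneg _).trans (bQ x i k))
    · simp
  have bP : ∀ x i j, |P x i j| ≤ 1 + n := fun x => entry_le (hP x) (hP0 x) (hP1 x)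
  have bR : ∀ y i j, |R y i j| ≤ 1 + n := fun y => entry_le (hR y) (hR0 y) (hR1 y)
  have mP1 : ∀ i j, Measurable fun x => (1 - P x) i j := fun i j => by
    simp only [Matrix.sub_apply]
    exact measurable_const.sub (mP i j)
  have bP1 : ∀ x i j, |(1 - P x) i j| ≤ 1 + (1 + n) := fun x i j => by
    rw [Matrix.sub_apply]
    refine (abs_sub _ _).trans (add_le_add ?_ (bP x i j))
    by_cases hij : i = j
    · subst hij; simp
    · simp [Matrix.one_apply_ne hij]
  have i1 := ET_int (μ := μ) hp hf mQQ bQQ mR bR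
  have i2 := ET_int (μ := μ) hp hf mP bP mR bR
  have mW : Measurable fun x => ((1 - P x) * (Q x * Q x)).trace := by
    simp only [Matrix.trace, Matrix.diag_apply, Matrix.mul_apply (M := 1 - P _)]
    exact Finset.measurable_sum _ fun i _ => Finset.measurable_sum _ fun j _ =>
      (mP1 i j).mul (mQQ j i)
  have bW : ∀ x, |((1 - P x) * (Q x * Q x)).trace| ≤ n * (n * ((1 + (1 + n)) * (n * (B * B)))) :=
    fun x => abs_tr_le (bP1 x) (bQQ x) (by positivity)
  have e := lab_free (μ := μ) hp hf mW bW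
  have i3 := lab_int (μ := μ) hp hf (b := fun z : L × E n => ((1 - P z.2) * (Q z.2 * Q z.2)).trace)
    (mW.comp measurable_snd) fun z => bW z.2
  unfold ET
  rw [← e, ← integral_const_mul, ← integral_const_mul, ← integral_add
    (i2.integral_prod_left.const_mul _) (i3.integral_prod_left.const_mul _)]
  refine integral_mono_ae i1.integral_prod_left
    ((i2.integral_prod_left.const_mul _).add (i3.integral_prod_left.const_mul _)) ?_
  filter_upwards [i1.prod_right_ae, i2.prod_right_ae, i3.prod_right_ae] with j k1 k2 k3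
  rw [← integral_const_mul, ← integral_const_mul, ← integral_add (k2.const_mul _) (k3.const_mul _)]
  refine integral_mono k1 ((k2.const_mul _).add (k3.const_mul _)) fun x => ?_
  simp only
  have h1 := tr_QR (hQ x) (hQa x) (hP x) (hP0 x) (hP1 x) (hR j) (hR0 j) (hR1 j)
  have h2 := hp.p_nonneg j x
  have h3 := (hf.pos x).le
  have h4 := mul_le_mul_of_nonneg_left (mul_le_mul_of_nonneg_right h1 h2) h3
  refine h4.trans (le_of_eq ?_)
  ring

end Label

end Crest.Agent.R201.Ch150
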