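import Crest.Agent.R201.Ch7_150
import Crest.Agent.R201.LabG3_809

/-!
# R201, LSI half (helper150): the Gaussian label `J | x ~ N(0, 1 + s Q(x)²)`:
Fisher information and mutual information, first inequality of `LevB`
-/

set_option autoImplicit false
set_option linter.unusedSectionVars false
open MeasureTheory Matrix Set

namespace Crest.Agent.R201.Ch150

open Crest.Agent.R201 Crest.Agent.R201.NB152 Crest.Agent.R201.FA150 Crest.Agent.R201.LL809

variable {n : ℕ} {μ : Measure (E n)} [IsFiniteMeasure μ] {f : E n → ℝ} {Q : E n → Mt n}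

/-- covariance `1 + s Q²` -/
noncomputable def Ms (s : ℝ) (Q : E n → Mt n) (x : E n) : Mt n := 1 + s • (Q x * Q x)

/-- the label density (with respect to `gam n`) of `N(0, 1 + s Q²)` -/
noncomputable def lp (s : ℝ) (Q : E n → Mt n) : E n → E n → ℝ := gp 0 (Ms s Q)

theorem leQ_sq {Q : Mt n} (hQ : Qᵀ = Q) : LeQ 0 (Q * Q) := fun u => by
  simp only [zero_mulVec, dotProduct_zero]
  rw [← mulVec_mulVec, dotProduct_mulVec, ← mulVec_transpose, hQ]
  exact Finset.sum_nonneg fun i _ => mul_self_nonneg _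

theorem MF_Ms (hQ : ∀ i, CB (famM Q i)) (hQs : ∀ x, (Q x)ᵀ = Q x) {s : ℝ} (hs : 0 ≤ s) :
    MF (Ms s Q) where
  cb i j := cb_one_add hQ s (i, j)
  symm x := by
    unfold Ms
    rw [transpose_add, transpose_one, transpose_smul, transpose_mul, hQs]
  ge := ⟨1, one_pos, fun x u => by
    unfold Ms
    rw [one_smul, add_mulVec, dotProduct_add, smul_mulVec, dotProduct_smul, smul_eq_mul]
    have h := leQ_sq (hQs x) u
    simp only [zero_mulVec, dotProduct_zero] at h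
    have := mul_nonneg hs h
    linarith⟩

theorem cb_zero : ∀ i, CB fun x => (0 : E n → Fin n → ℝ) x i := fun _ => Tw807.cb_const 0

theorem pdv_zero (k : Fin n) (x : E n) : pdv k (0 : E n → Fin n → ℝ) x = 0 := by
  funext i
  exact Tw807.pd_const 0 k x

theorem chan_lp (hQ : ∀ i, CB (famM Q i)) (hQs : ∀ x, (Q x)ᵀ = Q x) {s : ℝ} (hs : 0 ≤ s) :
    ∃ G h : E n → ℝ, Chan (gam n) (lp s Q) G h := gchan (MF_Ms hQ hQs hs) cb_zero

theorem pdM_symm {Q : E n → Mt n} (hQs : ∀ x, (Q x)ᵀ = Q x) (k : Fin n) (x : E n) :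
    (pdM k Q x)ᵀ = pdM k Q x := by
  ext i j
  simp only [transpose_apply, pdM, Matrix.of_apply]
  congr 1
  funext y
  have := congrFun (congrFun (hQs y) i) j
  simpa using this

/-- Fisher information of the label is at most `1/2 E |DQ|²` -/
theorem LF_le (hQ : ∀ i, CB (famM Q i)) (hQs : ∀ x, (Q x)ᵀ = Q x) (hf : CBp f) :
    LF μ f (gam n) (lp 1 Q) ≤ 1 / 2 * ∫ x, f x * ∑ k, hs (pdM k Q x) ∂μ := by
  have hM := MF_Ms hQ hQs zero_le_one
  obtain ⟨B, hB0, hB⟩ := hf.bdd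
  unfold lp
  rw [LF_gp hM cb_zero hf, ← integral_const_mul]
  have hh : ∀ k, Continuous fun x => hs (pdM k Q x) := fun k => by
    unfold hs pdM
    exact continuous_finsetSum _ fun i _ => continuous_finsetSum _ fun j _ =>
      (Tw807.pd_cont (hQ (i, j)).1 k).pow 2
  have hb : ∀ k, ∃ C : ℝ, ∀ x, |hs (pdM k Q x)| ≤ C := fun k => by
    have : ∀ i j, ∃ b : ℝ, ∀ x, |pd k (fun y => Q y i j) x| ≤ b := fun i j => by
      obtain ⟨-, b, hb⟩ := hQ (i, j)
      exact ⟨b, fun x => (hb x).2 k⟩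
    choose b hb using this
    refine ⟨∑ i, ∑ j, b i j ^ 2, fun x => ?_⟩
    rw [abs_of_nonneg (NB152.hs_nonneg _)]
    unfold hs pdM
    refine Finset.sum_le_sum fun i _ => Finset.sum_le_sum fun j _ => ?_
    simp only [Matrix.of_apply]
    rw [← sq_abs]
    exact pow_le_pow_left₀ (abs_nonneg _) (hb i j x) 2
  choose C hC using hb
  have i2 : Integrable (fun x => 1 / 2 * (f x * ∑ k, hs (pdM k Q x))) μ := by
    refine Integrable.const_mul ?_ _
    refine (integrable_const (B * ∑ k, C k)).mono'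
      (hf.cont.mul (continuous_finsetSum _ fun k _ => hh k)).aestronglyMeasurable
      (Filter.Eventually.of_forall fun x => ?_)
    rw [Real.norm_eq_abs, abs_mul]
    refine mul_le_mul (hB x).1 ?_ (abs_nonneg _) hB0
    exact (Finset.abs_sum_le_sum_abs _ _).trans (Finset.sum_le_sum fun k _ => hC k x)
  have hpt : ∀ x, 0 ≤ ∑ k, (pdv k (0 : E n → Fin n → ℝ) x ⬝ᵥ
      ((Ms 1 Q x)⁻¹ *ᵥ pdv k (0 : E n → Fin n → ℝ) x) +
      (1 / 2) * ((Ms 1 Q x)⁻¹ * pdM k (Ms 1 Q) x * (Ms 1 Q x)⁻¹ * pdM k (Ms 1 Q) x).trace) ∧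
      ∑ k, (pdv k (0 : E n → Fin n → ℝ) x ⬝ᵥ
      ((Ms 1 Q x)⁻¹ *ᵥ pdv k (0 : E n → Fin n → ℝ) x) +
      (1 / 2) * ((Ms 1 Q x)⁻¹ * pdM k (Ms 1 Q) x * (Ms 1 Q x)⁻¹ * pdM k (Ms 1 Q) x).trace) ≤
      1 / 2 * ∑ k, hs (pdM k Q x) := by
    intro x
    have e : ∀ k, pdM k (Ms 1 Q) x = Q x * pdM k Q x + pdM k Q x * Q x := fun k => by
      have := pdM_one_add hQ 1 k x
      rw [one_smul] at this
      exact this
    have e2 : Ms 1 Q x = 1 + Q x * Q x := by unfold Ms; rw [one_smul]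
    constructor
    · refine Finset.sum_nonneg fun k _ => ?_
      rw [← (gp_moments hM cb_zero x).2.2.1 k]
      exact integral_nonneg fun y => mul_nonneg (sq_nonneg _) (Real.exp_pos _).le
    · simp only [pdv_zero, zero_dotProduct, zero_add, e, e2]
      rw [Finset.mul_sum]
      refine Finset.sum_le_sum fun k _ => mul_le_mul_of_nonneg_left ?_ (by norm_num)
      exact chan_cost (hQs x) (pdM_symm hQs k x)
  refine integral_mono_of_nonneg (Filter.Eventually.of_forall fun x =>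
    mul_nonneg (hf.pos x).le (hpt x).1) i2 (Filter.Eventually.of_forall fun x => ?_)
  simp only
  have := mul_le_mul_of_nonneg_left (hpt x).2 (hf.pos x).le
  linarith

theorem tr_Ms (s : ℝ) (x : E n) : (Ms s Q x).trace = n + s * (Q x * Q x).trace := by
  unfold Ms
  rw [trace_add, trace_one, trace_smul, smul_eq_mul, Fintype.card_fin]

theorem hs_symm {A : Mt n} (hA : Aᵀ = A) : hs A = (A * A).trace := by
  rw [hs_eq_trace, hA]

/-- mutual information of the label -/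
theorem MI_eq (hQ : ∀ i, CB (famM Q i)) (hQs : ∀ x, (Q x)ᵀ = Q x) {s : ℝ} (hs0 : 0 ≤ s)
    (hf : CBp f) (h1 : ∫ x, f x ∂μ = 1) :
    MI μ f (gam n) (lp s Q) = 1 / 2 * (∫ x, f x * (s * hs (Q x) - Real.log (Ms s Q x).det) ∂μ) -
      Dis μ f 0 (Ms s Q) := by
  unfold lp
  rw [MI_gp (MF_Ms hQ hQs hs0) cb_zero hf h1]
  congr 2
  refine integral_congr_ae (Filter.Eventually.of_forall fun x => ?_)
  simp only [Pi.zero_apply, dotProduct_zero, tr_Ms]
  rw [hs_symm (hQs x)]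
  ring

theorem Dis_nonneg (hQ : ∀ i, CB (famM Q i)) (hQs : ∀ x, (Q x)ᵀ = Q x) {s : ℝ} (hs0 : 0 ≤ s)
    (hf : CBp f) (h1 : ∫ x, f x ∂μ = 1) : 0 ≤ Dis μ f 0 (Ms s Q) := by
  obtain ⟨G, h, hp⟩ := chan_lp hQ hQs hs0
  have e0 : ∫ y, pJ μ f (lp s Q) y ∂(gam n) = 1 := by
    have := lab_free (μ := μ) hp hf (c := fun _ => 1) measurable_const (B := 1) (by simp)
    simp only [one_mul, mul_one] at this
    rw [h1] at this
    exact this
  have i0 : Integrable (fun y => pJ μ f (lp s Q) y) (gam n) := by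
    by_contra hc
    rw [integral_undef hc] at e0
    exact zero_ne_one e0
  have i1 := pJlog_int (μ := μ) hp hf h1
  have h2 : ∫ y, (pJ μ f (lp s Q) y - 1) ∂(gam n) ≤ Dis μ f 0 (Ms s Q) := by
    unfold Dis
    refine integral_mono (i0.sub (integrable_const 1)) i1 fun y => ?_
    have hy := (pJ_bd hp hf h1 y).1
    have h3 := Real.one_sub_inv_le_log_of_pos hy
    have h4 := mul_le_mul_of_nonneg_left h3 hy.le
    have h5 : pJ μ f (lp s Q) y * (1 - (pJ μ f (lp s Q) y)⁻¹) = pJ μ f (lp s Q) y - 1 := by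
      field_simp
    rw [h5] at h4
    exact h4
  rw [integral_sub i0 (integrable_const 1), e0] at h2
  simpa using h2

theorem log_det_nonneg (hQs : ∀ x, (Q x)ᵀ = Q x) {s : ℝ} (hs0 : 0 ≤ s) (x : E n) :
    0 ≤ Real.log (Ms s Q x).det := by
  obtain ⟨U, q, h1, h2, hq⟩ := exists_spec (hQs x)
  unfold Ms
  rw [hq, one_add_eq_spec h1 h2, det_spec h1]
  refine Real.log_nonneg (Finset.one_le_prod fun i _ => ?_)
  have := mul_nonneg hs0 (sq_nonneg (q i))
  linarith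

theorem hs_cont (hQ : ∀ i, CB (famM Q i)) : Continuous fun x => hs (Q x) := by
  unfold hs
  exact continuous_finsetSum _ fun i _ => continuous_finsetSum _ fun j _ =>
    (hQ (i, j)).1.continuous.pow 2

theorem hs_bd (hQ : ∀ i, CB (famM Q i)) : ∃ C : ℝ, ∀ x, |hs (Q x)| ≤ C := by
  have : ∀ i j, ∃ b : ℝ, ∀ x, |Q x i j| ≤ b := fun i j => by
    obtain ⟨-, b, hb⟩ := hQ (i, j)
    exact ⟨b, fun x => (hb x).1⟩
  choose b hb using this
  refine ⟨∑ i, ∑ j, b i j ^ 2, fun x => ?_⟩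
  rw [abs_of_nonneg (NB152.hs_nonneg _)]
  unfold hs
  refine Finset.sum_le_sum fun i _ => Finset.sum_le_sum fun j _ => ?_
  rw [← sq_abs]
  exact pow_le_pow_left₀ (abs_nonneg _) (hb i j x) 2

theorem int_f {g : E n → ℝ} (hf : CBp f) (mg : Measurable g) (hg : ∃ C : ℝ, ∀ x, |g x| ≤ C) :
    Integrable (fun x => f x * g x) μ := by
  obtain ⟨B, hB0, hB⟩ := hf.bdd
  obtain ⟨C, hC⟩ := hg
  refine (integrable_const (B * C)).mono' (hf.cont.measurable.mul mg).aestronglyMeasurable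
    (Filter.Eventually.of_forall fun x => ?_)
  rw [Real.norm_eq_abs, abs_mul]
  exact mul_le_mul (hB x).1 (hC x) (abs_nonneg _) hB0

theorem int_logdet (hQ : ∀ i, CB (famM Q i)) (hQs : ∀ x, (Q x)ᵀ = Q x) {s : ℝ} (hs0 : 0 ≤ s)
    (hf : CBp f) : Integrable (fun x => f x * Real.log (Ms s Q x).det) μ := by
  have h := cbp_log (MF_Ms hQ hQs hs0).det_cbp
  obtain ⟨h1, B, hB⟩ := h
  exact int_f hf h1.continuous.measurable ⟨B, fun x => (hB x).1⟩

/-- `I(J_s; x) ≤ (s/2) E |Q|²` -/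
theorem MI_le (hQ : ∀ i, CB (famM Q i)) (hQs : ∀ x, (Q x)ᵀ = Q x) {s : ℝ} (hs0 : 0 ≤ s)
    (hf : CBp f) (h1 : ∫ x, f x ∂μ = 1) :
    MI μ f (gam n) (lp s Q) ≤ s / 2 * ∫ x, f x * hs (Q x) ∂μ := by
  rw [MI_eq hQ hQs hs0 hf h1]
  have hD := Dis_nonneg (μ := μ) hQ hQs hs0 hf h1
  have i1 : Integrable (fun x => f x * hs (Q x)) μ := int_f hf (hs_cont hQ).measurable (hs_bd hQ)
  have i2 := int_logdet (μ := μ) hQ hQs hs0 hf
  have e : ∫ x, f x * (s * hs (Q x) - Real.log (Ms s Q x).det) ∂μ =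
      s * (∫ x, f x * hs (Q x) ∂μ) - ∫ x, f x * Real.log (Ms s Q x).det ∂μ := by
    rw [← integral_const_mul, ← integral_sub (i1.const_mul s) i2]
    refine integral_congr_ae (Filter.Eventually.of_forall fun x => ?_)
    simp only
    ring
  have h3 : 0 ≤ ∫ x, f x * Real.log (Ms s Q x).det ∂μ :=
    integral_nonneg fun x => mul_nonneg (hf.pos x).le (log_det_nonneg hQs hs0 x)
  rw [e]
  linarith

/-- first inequality of `LevB` -/
theorem first {C : ℝ} (hC : 0 ≤ C) (H : LSI C μ) (hQ : ∀ i, CB (famM Q i))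
    (hQs : ∀ x, (Q x)ᵀ = Q x) (hf : CBp f) (h1 : ∫ x, f x ∂μ = 1) :
    1 / 2 * ∫ x, f x * ben (Q x) ∂μ ≤ C / 4 * (∫ x, f x * ∑ k, hs (pdM k Q x) ∂μ) +
      (C / 2 * Fi μ f - Ent μ f) + Dis μ f 0 (Ms 1 Q) := by
  obtain ⟨G, h, hp⟩ := chan_lp hQ hQs zero_le_one
  have h2 := lab H hf h1 hp
  have h3 := LF_le (μ := μ) hQ hQs hf
  have e : MI μ f (gam n) (lp 1 Q) = 1 / 2 * (∫ x, f x * ben (Q x) ∂μ) - Dis μ f 0 (Ms 1 Q) := by
    rw [MI_eq hQ hQs zero_le_one hf h1]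
    congr 2
    refine integral_congr_ae (Filter.Eventually.of_forall fun x => ?_)
    simp only [ben, Ms, one_smul, one_mul]
    rw [hs_symm (hQs x)]
  rw [e] at h2
  have h4 := mul_le_mul_of_nonneg_left h3 (by linarith : 0 ≤ C / 2)
  linarith

end Crest.Agent.R201.Ch150
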