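import Crest.Agent.R201.Ch8_150

/-!
# R201, LSI half (helper150): posterior matrices `E[A | J]` of a channel; `LevB` from the
unpredictability bound (844), the labelled trace inequality (146) and the labelled LSI (809)
-/

set_option autoImplicit false
set_option linter.unusedSectionVars false
open MeasureTheory Matrix Set

namespace Crest.Agent.R201.Ch150

open Crest.Agent.R201 Crest.Agent.R201.NB152 Crest.Agent.R201.FA150 Crest.Agent.R201.LL809

section Post

variable {n : ℕ} {μ : Measure (E n)} [IsFiniteMeasure μ] {f : E n → ℝ} {L : Type*}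
  [MeasurableSpace L] {l : Measure L} [SFinite l] {p : L → E n → ℝ} {G h : L → ℝ} {A : E n → Mt n}

/-- `E[A | J = j] * pJ j`, entrywise -/
noncomputable def Rn (μ : Measure (E n)) (f : E n → ℝ) (p : L → E n → ℝ) (A : E n → Mt n)
    (j : L) : Mt n := Matrix.of fun i k => ∫ x, f x * (A x i k * p j x) ∂μ

/-- `E[A | J = j]` -/
noncomputable def Rc (μ : Measure (E n)) (f : E n → ℝ) (p : L → E n → ℝ) (A : E n → Mt n)
    (j : L) : Mt n := (pJ μ f p j)⁻¹ • Rn μ f p A j

theorem Rn_meas (hp : Chan l p G h) (hf : CBp f) (mA : ∀ i k, Measurable fun x => A x i k)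
    (i k : Fin n) : Measurable fun j => Rn μ f p A j i k := by
  have : StronglyMeasurable fun z : L × E n => f z.2 * (A z.2 i k * p z.1 z.2) :=
    ((hf.cont.measurable.comp measurable_snd).mul
      (((mA i k).comp measurable_snd).mul hp.meas)).stronglyMeasurable
  exact this.integral_prod_right.measurable

theorem Rc_meas (hp : Chan l p G h) (hf : CBp f) (mA : ∀ i k, Measurable fun x => A x i k)
    (i k : Fin n) : Measurable fun j => Rc μ f p A j i k := by
  unfold Rc
  simp only [Matrix.smul_apply, smul_eq_mul]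
  exact (pJ_meas hp hf).inv.mul (Rn_meas hp hf mA i k)

theorem Rc_symm (hA : ∀ x, (A x)ᵀ = A x) (j : L) : (Rc μ f p A j)ᵀ = Rc μ f p A j := by
  unfold Rc Rn
  ext i k
  simp only [transpose_apply, Matrix.smul_apply, Matrix.of_apply]
  congr 2
  funext x
  have := congrFun (congrFun (hA x) i) k
  rw [transpose_apply] at this
  rw [this]

theorem int_x (hp : Chan l p G h) (hf : CBp f) {g : E n → ℝ} (mg : Measurable g)
    (hg : ∃ C : ℝ, ∀ x, |g x| ≤ C) (j : L) : Integrable (fun x => f x * (g x * p j x)) μ := by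
  obtain ⟨C, hC⟩ := hg
  obtain ⟨B, hB0, hB⟩ := (hp.cb j).bdd
  refine int_f hf (mg.mul (hp.cb j).cont.measurable) ⟨C * B, fun x => ?_⟩
  rw [abs_mul]
  exact mul_le_mul (hC x) (hB x).1 (abs_nonneg _) ((abs_nonneg _).trans (hC x))

/-- quadratic form of `Rn` -/
theorem Rn_quad (hp : Chan l p G h) (hf : CBp f) (mA : ∀ i k, Measurable fun x => A x i k)
    {b : ℝ} (hb : ∀ x i k, |A x i k| ≤ b) (j : L) (u : Fin n → ℝ) :
    u ⬝ᵥ (Rn μ f p A j *ᵥ u) = ∫ x, f x * ((u ⬝ᵥ (A x *ᵥ u)) * p j x) ∂μ := by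
  have i0 : ∀ i k, Integrable (fun x => f x * (A x i k * p j x)) μ := fun i k =>
    int_x hp hf (mA i k) ⟨b, fun x => hb x i k⟩ j
  simp only [dotProduct, Matrix.mulVec, Rn, Matrix.of_apply]
  have e : ∀ x, f x * ((∑ i, u i * ∑ k, A x i k * u k) * p j x) =
      ∑ i, ∑ k, (u i * u k) * (f x * (A x i k * p j x)) := by
    intro x
    rw [Finset.sum_mul, Finset.mul_sum]
    refine Finset.sum_congr rfl fun i _ => ?_
    rw [Finset.mul_sum, Finset.sum_mul, Finset.mul_sum]
    exact Finset.sum_congr rfl fun k _ => by ring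
  simp only [e]
  rw [integral_finsetSum _ fun i _ => integrable_finsetSum _ fun k _ => (i0 i k).const_mul _]
  refine Finset.sum_congr rfl fun i _ => ?_
  rw [integral_finsetSum _ fun k _ => (i0 i k).const_mul _, Finset.mul_sum]
  refine Finset.sum_congr rfl fun k _ => ?_
  rw [integral_const_mul]
  ring

theorem Rc_nonneg (hp : Chan l p G h) (hf : CBp f) (h1 : ∫ x, f x ∂μ = 1)
    (mA : ∀ i k, Measurable fun x => A x i k) {b : ℝ} (hb : ∀ x i k, |A x i k| ≤ b)
    (hA0 : ∀ x, LeQ 0 (A x)) (j : L) : LeQ 0 (Rc μ f p A j) := by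
  intro u
  simp only [zero_mulVec, dotProduct_zero]
  unfold Rc
  rw [smul_mulVec, dotProduct_smul, smul_eq_mul, Rn_quad hp hf mA hb]
  refine mul_nonneg (inv_nonneg.2 (pJ_bd hp hf h1 j).1.le) (integral_nonneg fun x => ?_)
  have := hA0 x u
  simp only [zero_mulVec, dotProduct_zero] at this
  exact mul_nonneg (hf.pos x).le (mul_nonneg this (hp.p_nonneg j x))

theorem Rc_le (hp : Chan l p G h) (hf : CBp f) (h1 : ∫ x, f x ∂μ = 1)
    (mA : ∀ i k, Measurable fun x => A x i k) {b : ℝ} (hb : ∀ x i k, |A x i k| ≤ b)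
    {c : ℝ} (hA1 : ∀ x, LeQ (A x) (c • (1 : Mt n))) (j : L) :
    LeQ (Rc μ f p A j) (c • (1 : Mt n)) := by
  intro u
  unfold Rc
  have hj := (pJ_bd hp hf h1 j).1
  rw [smul_mulVec, dotProduct_smul, smul_eq_mul, Rn_quad hp hf mA hb, inv_mul_le_iff₀ hj]
  have e : pJ μ f p j * (u ⬝ᵥ ((c • (1 : Mt n)) *ᵥ u)) =
      ∫ x, f x * ((u ⬝ᵥ ((c • (1 : Mt n)) *ᵥ u)) * p j x) ∂μ := by
    unfold pJ
    rw [← integral_mul_const]
    refine integral_congr_ae (Filter.Eventually.of_forall fun x => ?_)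
    simp only
    ring
  rw [e]
  have hq : Measurable fun x => u ⬝ᵥ (A x *ᵥ u) := by
    simp only [dotProduct, Matrix.mulVec]
    exact Finset.measurable_sum _ fun i _ => measurable_const.mul
      (Finset.measurable_sum _ fun k _ => (mA i k).mul measurable_const)
  have hqb : ∃ C : ℝ, ∀ x, |u ⬝ᵥ (A x *ᵥ u)| ≤ C := by
    refine ⟨∑ i, ∑ k, |u i| * (b * |u k|), fun x => ?_⟩
    simp only [dotProduct, Matrix.mulVec]
    refine (Finset.abs_sum_le_sum_abs _ _).trans (Finset.sum_le_sum fun i _ => ?_)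
    rw [abs_mul, ← Finset.mul_sum]
    refine mul_le_mul_of_nonneg_left ?_ (abs_nonneg _)
    refine (Finset.abs_sum_le_sum_abs _ _).trans (Finset.sum_le_sum fun k _ => ?_)
    rw [abs_mul]
    exact mul_le_mul_of_nonneg_right (hb x i k) (abs_nonneg _)
  refine integral_mono (int_x hp hf hq hqb j) (int_x hp hf measurable_const ⟨_, fun _ => le_rfl⟩ j)
    fun x => ?_
  exact mul_le_mul_of_nonneg_left (mul_le_mul_of_nonneg_right (hA1 x u) (hp.p_nonneg j x))
    (hf.pos x).le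

/-- `E tr E[A|J] = E tr A` -/
theorem tr_Rc (hp : Chan l p G h) (hf : CBp f) (h1 : ∫ x, f x ∂μ = 1)
    (mA : ∀ i k, Measurable fun x => A x i k) {b : ℝ} (hb : ∀ x i k, |A x i k| ≤ b) :
    ∫ j, (Rc μ f p A j).trace * pJ μ f p j ∂l = ∫ x, f x * (A x).trace ∂μ := by
  have mt : Measurable fun x => (A x).trace := by
    unfold Matrix.trace
    exact Finset.measurable_sum _ fun i _ => mA i i
  have bt : ∀ x, |(A x).trace| ≤ n * b := fun x => by
    unfold Matrix.trace
    refine (Finset.abs_sum_le_sum_abs _ _).trans ?_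
    refine (Finset.sum_le_sum fun i _ => hb x i i).trans ?_
    simp
  rw [← lab_free (μ := μ) hp hf mt bt]
  refine integral_congr_ae (Filter.Eventually.of_forall fun j => ?_)
  have hj := (pJ_bd hp hf h1 j).1
  simp only
  unfold Rc
  rw [trace_smul, smul_eq_mul]
  have e1 : (Rn μ f p A j).trace = ∫ x, f x * ((A x).trace * p j x) ∂μ := by
    unfold Matrix.trace Rn
    simp only [diag_apply, Matrix.of_apply]
    rw [← integral_finsetSum _ fun i _ => int_x hp hf (mA i i) ⟨b, fun x => hb x i i⟩ j]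
    refine integral_congr_ae (Filter.Eventually.of_forall fun x => ?_)
    simp only
    rw [Finset.sum_mul, Finset.mul_sum]
  rw [e1]
  field_simp

end Post

section Core

variable {n : ℕ} {μ : Measure (E n)} [IsFiniteMeasure μ] {f : E n → ℝ} {Q P : E n → Mt n}

/-- (P1L) for one channel and one field -/
def P1Lp (μ : Measure (E n)) (f : E n → ℝ) (P : E n → Mt n) (e D : ℝ) : Prop :=
  ∀ (p : E n → E n → ℝ) (G k : E n → ℝ), Chan (gam n) p G k →
    ∀ R : E n → Mt n, (∀ i j, Measurable fun y => R y i j) → (∀ y, (R y)ᵀ = R y) →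
      (∀ y, LeQ 0 (R y)) → (∀ y, LeQ (R y) 1) →
      ET μ f (gam n) p P R ≤ e * (D + MI μ f (gam n) p +
        ∫ y, (R y).trace * pJ μ f p y ∂(gam n))

/-- (UNP), 844's Stein form -/
def UNPp (μ : Measure (E n)) (f : E n → ℝ) (Q : E n → Mt n) : Prop :=
  Dis μ f 0 (Ms 1 Q) ≤ ET μ f (gam n) (lp 2 Q) (fun x => Q x * Q x)
    (Rc μ f (lp 2 Q) fun x => Q x * Q x)

theorem levB_core {C : ℝ} (hC : 0 ≤ C) (H : LSI C μ) (hf : CBp f) (h1 : ∫ x, f x ∂μ = 1)
    (hQ : ∀ i, CB (famM Q i)) (hQs : ∀ x, (Q x)ᵀ = Q x) {a : ℝ} (ha : 1 ≤ a)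
    (hQa : ∀ x, LeQ (Q x * Q x) (a ^ 2 • (1 : Mt n)))
    (mP : ∀ i j, Measurable fun x => P x i j)
    (hP : ∀ x, (P x)ᵀ = P x) (hP0 : ∀ x, LeQ 0 (P x)) (hP1 : ∀ x, LeQ (P x) 1)
    {e D δ N : ℝ} (hδ : C / 2 * Fi μ f - Ent μ f ≤ δ) (hN : a ^ 2 ≤ N)
    (hL : P1Lp μ f P e D) (hU : UNPp μ f Q) : LevB (fm μ f) P C D δ e N a Q := by
  have mf := hf.cont.measurable
  have hf0 : ∀ x, 0 ≤ f x := fun x => (hf.pos x).le
  have ha0 : 0 < a := by linarith
  have ha2 : 0 < a ^ 2 := by positivity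
  have hN0 : 0 < N := ha2.trans_le hN
  obtain ⟨G, h, hp⟩ := chan_lp hQ hQs (by norm_num : (0 : ℝ) ≤ 2)
  set A : E n → Mt n := fun x => Q x * Q x with hA
  have mQ : ∀ i j, Measurable fun x => Q x i j := fun i j => (hQ (i, j)).1.continuous.measurable
  have bQ : ∃ B : ℝ, ∀ x i j, |Q x i j| ≤ B := by
    obtain ⟨c, hc⟩ := hs_bd hQ
    exact ⟨1 + c, fun x => abs_le_of_hs ((le_abs_self _).trans (hc x))⟩
  obtain ⟨B, bQ⟩ := bQ
  have mA : ∀ i j, Measurable fun x => A x i j := fun i j => by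
    simp only [hA, Matrix.mul_apply]
    exact Finset.measurable_sum _ fun k _ => (mQ i k).mul (mQ k j)
  have bA : ∀ x i j, |A x i j| ≤ n * (B * B) := fun x i j => by
    simp only [hA, Matrix.mul_apply]
    refine (Finset.abs_sum_le_sum_abs _ _).trans ?_
    refine (Finset.sum_le_sum fun k _ => (?_ : |Q x i k * Q x k j| ≤ B * B)).trans ?_
    · rw [abs_mul]
      exact mul_le_mul (bQ x i k) (bQ x k j) (abs_nonneg _) ((abs_nonneg _).trans (bQ x i k))
    · simp
  have hAs : ∀ x, (A x)ᵀ = A x := fun x => by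
    simp only [hA]
    rw [transpose_mul, hQs]
  have hA0 : ∀ x, LeQ 0 (A x) := fun x => leQ_sq (hQs x)
  set R : E n → Mt n := fun y => (a ^ 2)⁻¹ • Rc μ f (lp 2 Q) A y with hR
  have mR : ∀ i j, Measurable fun y => R y i j := fun i j => by
    simp only [hR, Matrix.smul_apply, smul_eq_mul]
    exact (Rc_meas hp hf mA i j).const_mul _
  have Rs : ∀ y, (R y)ᵀ = R y := fun y => by
    simp only [hR]
    rw [transpose_smul, Rc_symm hAs]
  have R0 : ∀ y, LeQ 0 (R y) := fun y u => by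
    have := Rc_nonneg hp hf h1 mA bA hA0 y u
    simp only [zero_mulVec, dotProduct_zero] at this ⊢
    simp only [hR]
    rw [smul_mulVec, dotProduct_smul, smul_eq_mul]
    exact mul_nonneg (inv_nonneg.2 ha2.le) this
  have R1 : ∀ y, LeQ (R y) 1 := fun y u => by
    have := Rc_le hp hf h1 mA bA hQa y u
    simp only [hR]
    rw [smul_mulVec, dotProduct_smul, smul_eq_mul, inv_mul_le_iff₀ ha2]
    rw [smul_mulVec, dotProduct_smul, smul_eq_mul] at this
    exact this
  have eU : ET μ f (gam n) (lp 2 Q) A (Rc μ f (lp 2 Q) A) =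
      a ^ 2 * ET μ f (gam n) (lp 2 Q) A R := by
    unfold ET
    rw [← integral_const_mul]
    refine integral_congr_ae (Filter.Eventually.of_forall fun y => ?_)
    simp only
    rw [← integral_const_mul]
    refine integral_congr_ae (Filter.Eventually.of_forall fun x => ?_)
    simp only [hR]
    rw [Matrix.mul_smul, trace_smul, smul_eq_mul]
    field_simp
  have u0 : 0 ≤ ET μ f (gam n) (lp 2 Q) A R := by
    unfold ET
    refine integral_nonneg fun y => integral_nonneg fun x => ?_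
    refine mul_nonneg (hf0 x) (mul_nonneg ?_ (hp.p_nonneg y x))
    have e1 : (A x * R y).trace = ((Q x)ᵀ * R y * Q x).trace := by
      simp only [hA]
      rw [hQs, Matrix.mul_assoc, trace_mul_comm]
    rw [e1]
    exact LeQ.trace_nonneg (R0 y) (Q x)
  have T0 : 0 ≤ ∫ x, f x * hs (Q x) ∂μ :=
    integral_nonneg fun x => mul_nonneg (hf0 x) (NB152.hs_nonneg _)
  refine ⟨Dis μ f 0 (Ms 1 Q), ET μ f (gam n) (lp 2 Q) A R, ET μ f (gam n) (lp 2 Q) P R,
    MI μ f (gam n) (lp 2 Q), ∫ y, (R y).trace * pJ μ f (lp 2 Q) y ∂(gam n), ?_, ?_, ?_, ?_, ?_, ?_⟩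
  · rw [int_fm mf hf0, int_fm mf hf0]
    have := first (μ := μ) hC H hQ hQs hf h1
    linarith
  · rw [int_fm mf hf0]
    have h2 := hU
    unfold UNPp at h2
    rw [eU] at h2
    have h3 := mul_le_mul_of_nonneg_right hN u0
    have h4 : 0 ≤ a ^ 2 * (∫ x, f x * hs (Q x) ∂μ) / N := by positivity
    linarith
  · rw [int_fm mf hf0]
    exact unres hp hf mQ bQ hQs hQa mP hP hP0 hP1 mR Rs R0 R1
  · exact hL _ _ _ hp R mR Rs R0 R1
  · rw [int_fm mf hf0]
    have := MI_le (μ := μ) hQ hQs (by norm_num : (0 : ℝ) ≤ 2) hf h1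
    norm_num at this
    exact this
  · rw [int_fm mf hf0]
    have e1 : ∫ y, (R y).trace * pJ μ f (lp 2 Q) y ∂(gam n) =
        (a ^ 2)⁻¹ * ∫ x, f x * hs (Q x) ∂μ := by
      have h2 := tr_Rc (μ := μ) hp hf h1 mA bA
      have h3 : ∫ x, f x * hs (Q x) ∂μ = ∫ x, f x * (A x).trace ∂μ := by
        refine integral_congr_ae (Filter.Eventually.of_forall fun x => ?_)
        simp only [hA]
        rw [hs_symm (hQs x)]
      rw [h3, ← h2, ← integral_const_mul]
      refine integral_congr_ae (Filter.Eventually.of_forall fun y => ?_)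
      simp only [hR]
      rw [trace_smul, smul_eq_mul, mul_assoc]
    rw [e1]
    have h4 : (a ^ 2)⁻¹ ≤ 1 := inv_le_one_of_one_le₀ (by nlinarith)
    calc (a ^ 2)⁻¹ * ∫ x, f x * hs (Q x) ∂μ ≤ 1 * ∫ x, f x * hs (Q x) ∂μ :=
          mul_le_mul_of_nonneg_right h4 T0
      _ = _ := one_mul _

end Core

end Crest.Agent.R201.Ch150
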