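import Crest.Agent.R201.Spec_152
import Crest.Agent.R201.FD3_354

/-!
# R201, LSI half, CLIP block (helper78), part 1: the smooth clip `F(u) = u / √(1+u²)` at a point

`clZ A = (1 + AᵀA)^{1/2}`, `clF A = A (clZ A)⁻¹`, `clP A = Tr (clZ A) - n`.
Everything about a symmetric `A` is read off in an eigenframe.
-/

set_option autoImplicit false
set_option linter.unusedSectionVars false
open Matrix

namespace Crest.Agent.R201.Clip78

open Crest.Agent.R201

variable {m : Type} [Fintype m] [DecidableEq m]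

/-! ### scalar facts -/

/-- `√(1+a²)` -/
noncomputable def zz (a : ℝ) : ℝ := Real.sqrt (1 + a ^ 2)

/-- `a / √(1+a²)` -/
noncomputable def ff (a : ℝ) : ℝ := a / zz a

theorem zz_sq (a : ℝ) : zz a ^ 2 = 1 + a ^ 2 := Real.sq_sqrt (by positivity)

theorem one_le_zz (a : ℝ) : 1 ≤ zz a := by
  rw [zz, Real.one_le_sqrt]
  nlinarith [sq_nonneg a]

theorem zz_pos (a : ℝ) : 0 < zz a := lt_of_lt_of_le one_pos (one_le_zz a)

theorem zz_ne (a : ℝ) : zz a ≠ 0 := (zz_pos a).ne'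

theorem abs_le_zz (a : ℝ) : |a| ≤ zz a := by
  rw [zz]
  exact Real.le_sqrt_of_sq_le (by rw [sq_abs]; linarith)

theorem ff_mul_zz (a : ℝ) : ff a * zz a = a := by
  rw [ff]; field_simp [zz_ne a]

theorem ff_sq (a : ℝ) : ff a ^ 2 = a ^ 2 / (1 + a ^ 2) := by
  rw [ff, div_pow, zz_sq]

theorem ff_sq_le_one (a : ℝ) : ff a ^ 2 ≤ 1 := by
  rw [ff_sq, div_le_one (by positivity)]; linarith

theorem abs_ff_le_one (a : ℝ) : |ff a| ≤ 1 := by
  rw [← sq_le_one_iff_abs_le_one]; exact ff_sq_le_one a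

/-- `F(a)² ≤ a F(a)` -/
theorem ff_sq_le_mul (a : ℝ) : ff a ^ 2 ≤ a * ff a := by
  have h1 : a * ff a = ff a ^ 2 * zz a := by
    conv_lhs => rw [← ff_mul_zz a]
    simp only [ff_mul_zz]
    rw [show ff a ^ 2 * zz a = ff a * (ff a * zz a) by ring, ff_mul_zz]
    ring
  rw [h1]
  nlinarith [sq_nonneg (ff a), one_le_zz a]

/-- `a F(a) ≤ a²` -/
theorem mul_ff_le_sq (a : ℝ) : a * ff a ≤ a ^ 2 := by
  have h1 : a ^ 2 = a * ff a * zz a := by
    rw [show a * ff a * zz a = a * (ff a * zz a) by ring, ff_mul_zz]; ring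
  have h2 : 0 ≤ a * ff a := (sq_nonneg _).trans (ff_sq_le_mul a)
  nlinarith [one_le_zz a]

/-- `a² - F² = a² F²` -/
theorem sq_sub_ff_sq (a : ℝ) : a ^ 2 - ff a ^ 2 = a ^ 2 * ff a ^ 2 := by
  rw [ff_sq]; field_simp; ring

/-- `0 ≤ Ψ(a)` -/
theorem psi_nonneg (a : ℝ) : 0 ≤ zz a - 1 := by linarith [one_le_zz a]

/-- `2 Ψ(a) ≤ a²` -/
theorem psi_le (a : ℝ) : 2 * (zz a - 1) ≤ a ^ 2 := by
  nlinarith [zz_sq a, sq_nonneg (zz a - 1)]

/-- `F² ≤ 2 Ψ` -/
theorem ff_sq_le_psi (a : ℝ) : ff a ^ 2 ≤ 2 * (zz a - 1) := by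
  rw [ff_sq, div_le_iff₀ (by positivity), ← zz_sq]
  have h := one_le_zz a
  have : a ^ 2 = (zz a - 1) * (zz a + 1) := by nlinarith [zz_sq a]
  rw [this]
  nlinarith [mul_nonneg (sub_nonneg.2 h) (sub_nonneg.2 h), mul_pos (zz_pos a) (zz_pos a),
    mul_nonneg (sub_nonneg.2 h) (by nlinarith : (0:ℝ) ≤ 2 * zz a ^ 2 - (zz a + 1))]

/-- `Ψ ≤ a F` -/
theorem psi_le_mul (a : ℝ) : zz a - 1 ≤ a * ff a := by
  have h1 : a * ff a = (zz a ^ 2 - 1) / zz a := by
    rw [zz_sq, ff]; field_simp; ring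
  rw [h1, le_div_iff₀ (zz_pos a)]
  nlinarith [one_le_zz a]

/-- divided difference of `F` -/
noncomputable def F1 (a b : ℝ) : ℝ := (1 + zz a * zz b - a * b) / (zz a * zz b * (zz a + zz b))

/-- divided difference of `√(1+a²)` -/
noncomputable def Z1 (a b : ℝ) : ℝ := (a + b) / (zz a + zz b)

theorem abs_mul_le (a b : ℝ) : |a * b| ≤ zz a * zz b - 1 := by
  have h1 : 1 ≤ zz a * zz b := by nlinarith [one_le_zz a, one_le_zz b]
  rw [← abs_of_nonneg (sub_nonneg.2 h1), ← sq_le_sq, mul_pow]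
  have h2 := zz_sq a
  have h3 := zz_sq b
  nlinarith [sq_nonneg (zz a - zz b)]

theorem F1_comm (a b : ℝ) : F1 a b = F1 b a := by
  unfold F1; rw [mul_comm (zz a) (zz b), add_comm (zz a) (zz b), mul_comm a b]

theorem F1_pos (a b : ℝ) : 0 < F1 a b := by
  have h := (abs_le.1 (abs_mul_le a b)).2
  have ha := zz_pos a
  have hb := zz_pos b
  unfold F1
  refine div_pos (by linarith) (by positivity)

theorem F1_le_one (a b : ℝ) : F1 a b ≤ 1 := by
  have h := (abs_le.1 (abs_mul_le a b)).1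
  have ha := one_le_zz a
  have hb := one_le_zz b
  have ha' := zz_pos a
  have hb' := zz_pos b
  unfold F1
  rw [div_le_one (by positivity)]
  have h2 : 0 < zz a * zz b := by positivity
  nlinarith [mul_nonneg h2.le (by linarith : (0:ℝ) ≤ zz a + zz b - 2)]

theorem F1_sq_le (a b : ℝ) : F1 a b ^ 2 ≤ F1 a b := by
  nlinarith [F1_pos a b, F1_le_one a b]

theorem abs_Z1_le (a b : ℝ) : |Z1 a b| ≤ 1 := by
  have ha := zz_pos a
  have hb := zz_pos b
  rw [Z1, abs_div, abs_of_pos (by positivity : 0 < zz a + zz b), div_le_one (by positivity)]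
  exact (abs_add_le a b).trans (add_le_add (abs_le_zz a) (abs_le_zz b))

theorem F1_mul (a b : ℝ) : F1 a b * (a - b) = ff a - ff b := by
  have ha := zz_pos a
  have hb := zz_pos b
  have h2 := zz_sq a
  have h3 := zz_sq b
  unfold F1 ff
  have hab : zz a + zz b ≠ 0 := by positivity
  rw [div_mul_eq_mul_div, div_sub_div _ _ ha.ne' hb.ne', div_eq_div_iff (by positivity) (by positivity)]
  have e : (1 + zz a * zz b - a * b) * (a - b) = (a * zz b - zz a * b) * (zz a + zz b) := by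
    have e1 : (a * zz b - zz a * b) * (zz a + zz b)
      = a * zz a * zz b + a * zz b ^ 2 - zz a ^ 2 * b - zz a * zz b * b := by ring
    rw [e1, h2, h3]; ring
  rw [e]; ring

/-! ### the matrix functions -/

/-- `(1 + AᵀA)^{1/2}` -/
noncomputable def clZ (A : Matrix m m ℝ) : Matrix m m ℝ := rt (1 + Aᵀ * A)

/-- `F(A) = A (1 + AᵀA)^{-1/2}` -/
noncomputable def clF (A : Matrix m m ℝ) : Matrix m m ℝ := A * (clZ A)⁻¹

/-- `Ψ(A) = Tr ((1 + AᵀA)^{1/2} - 1)` -/
noncomputable def clP (A : Matrix m m ℝ) : ℝ := (clZ A).trace - Fintype.card m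

theorem psd_arg (A : Matrix m m ℝ) : (1 + Aᵀ * A).PosSemidef := by
  have h := MX354.posSemidef_mul_transpose Aᵀ
  rw [transpose_transpose] at h
  exact PosSemidef.one.add h

theorem clZ_psd (A : Matrix m m ℝ) : (clZ A).PosSemidef := (MX354.rt_spec (psd_arg A)).1

theorem clZ_sq (A : Matrix m m ℝ) : clZ A * clZ A = 1 + Aᵀ * A := (MX354.rt_spec (psd_arg A)).2

theorem clZ_symm (A : Matrix m m ℝ) : (clZ A)ᵀ = clZ A := MX354.posSemidef_transpose (clZ_psd A)

/-- `c² ≤ Z²`, `Z ≥ 0` gives `c ≤ Z` (354, any index type) -/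
theorem leQ_of_sq {c : ℝ} {Z : Matrix m m ℝ} (hZ : Z.PosSemidef)
    (h : LeQ (c ^ 2 • (1 : Matrix m m ℝ)) (Z * Z)) : LeQ (c • (1 : Matrix m m ℝ)) Z := by
  refine MX354.PosSemidef.leQ (MX354.sub_posSemidef hZ (by simp) ?_)
  have : (c • (1 : Matrix m m ℝ)) * (c • (1 : Matrix m m ℝ)) = c ^ 2 • (1 : Matrix m m ℝ) := by
    rw [smul_mul_smul_comm, Matrix.one_mul, sq]
  rw [this]
  exact h

theorem posDef_of_leQ {c : ℝ} (hc : 0 < c) {Z : Matrix m m ℝ} (hZ : Zᵀ = Z)
    (h : LeQ (c • (1 : Matrix m m ℝ)) Z) : Z.PosDef := by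
  refine PosDef.of_dotProduct_mulVec_pos ?_ ?_
  · rw [IsHermitian, conjTranspose_eq_transpose_of_trivial, hZ]
  · intro x hx
    have h1 := h x
    rw [smul_mulVec, one_mulVec, dotProduct_smul, smul_eq_mul] at h1
    have h2 : 0 < x ⬝ᵥ x := by
      rcases (Finset.sum_nonneg fun i _ => mul_self_nonneg (x i) :
        (0 : ℝ) ≤ x ⬝ᵥ x).lt_or_eq with hp | h0
      · exact hp
      · exfalso
        exact hx (dotProduct_self_eq_zero.mp h0.symm)
    rw [star_trivial]
    exact lt_of_lt_of_le (mul_pos hc h2) h1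

theorem clZ_ge (A : Matrix m m ℝ) : LeQ (1 : Matrix m m ℝ) (clZ A) := by
  have h := leQ_of_sq (c := 1) (clZ_psd A) (by
    rw [clZ_sq, one_pow, one_smul]
    refine MX354.PosSemidef.leQ ?_
    rw [add_sub_cancel_left]
    have h := MX354.posSemidef_mul_transpose Aᵀ
    rwa [transpose_transpose] at h)
  rwa [one_smul] at h

theorem clZ_posDef (A : Matrix m m ℝ) : (clZ A).PosDef :=
  posDef_of_leQ one_pos (clZ_symm A) (by rw [one_smul]; exact clZ_ge A)

theorem clZ_isUnit (A : Matrix m m ℝ) : IsUnit (clZ A).det := (clZ_posDef A).det_pos.ne'.isUnit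

theorem clZ_mul_inv (A : Matrix m m ℝ) : clZ A * (clZ A)⁻¹ = 1 := Matrix.mul_nonsing_inv _ (clZ_isUnit A)

theorem clZ_inv_mul (A : Matrix m m ℝ) : (clZ A)⁻¹ * clZ A = 1 := Matrix.nonsing_inv_mul _ (clZ_isUnit A)

theorem clF_mul_clZ (A : Matrix m m ℝ) : clF A * clZ A = A := by
  rw [clF, Matrix.mul_assoc, clZ_inv_mul, Matrix.mul_one]

/-! ### eigenframe -/

open Crest.Agent.R201.NB152 (spec)

theorem trace_spec {O : Matrix m m ℝ} (hO : Oᵀ * O = 1) (f : m → ℝ) : (spec O f).trace = ∑ i, f i := by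
  unfold spec
  rw [Matrix.trace_mul_cycle, hO, Matrix.one_mul, Matrix.trace_diagonal]

theorem spec_psd {O : Matrix m m ℝ} {f : m → ℝ} (hf : ∀ i, 0 ≤ f i) : (spec O f).PosSemidef := by
  refine PosSemidef.of_dotProduct_mulVec_nonneg ?_ ?_
  · rw [IsHermitian, conjTranspose_eq_transpose_of_trivial, NB152.spec_transpose]
  · intro x
    rw [star_trivial, NB152.spec_form]
    exact Finset.sum_nonneg fun i _ => mul_nonneg (hf i) (sq_nonneg _)

/-- data of an eigenframe of `A` -/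
structure Fr (A : Matrix m m ℝ) where
  O : Matrix m m ℝ
  a : m → ℝ
  h1 : Oᵀ * O = 1
  h2 : O * Oᵀ = 1
  hA : A = spec O a

theorem exists_fr {A : Matrix m m ℝ} (hA : Aᵀ = A) : Nonempty (Fr A) := by
  obtain ⟨O, a, h1, h2, h3⟩ := NB152.diagonalize hA
  exact ⟨⟨O, a, h1, h2, h3⟩⟩

namespace Fr

variable {A : Matrix m m ℝ} (r : Fr A)
include r

theorem symm : Aᵀ = A := by rw [r.hA]; exact NB152.spec_transpose _ _

theorem one_eq : (1 : Matrix m m ℝ) = spec r.O (fun _ => 1) := (NB152.spec_one r.h2).symm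

theorem sq_eq : A * A = spec r.O (fun i => r.a i * r.a i) := by
  conv_lhs => rw [r.hA]
  exact NB152.spec_mul r.h1 _ _

theorem clZ_eq : clZ A = spec r.O (fun i => zz (r.a i)) := by
  refine MX354.rt_unique (spec_psd fun i => (zz_pos _).le) ?_
  rw [NB152.spec_mul r.h1, r.symm, r.sq_eq, r.one_eq, NB152.spec_add]
  congr 1
  funext i
  rw [← sq, zz_sq, sq]

theorem inv_eq : (clZ A)⁻¹ = spec r.O (fun i => (zz (r.a i))⁻¹) := by
  refine Matrix.inv_eq_right_inv ?_
  rw [r.clZ_eq, NB152.spec_mul r.h1, r.one_eq]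
  congr 1
  funext i
  exact mul_inv_cancel₀ (zz_ne _)

theorem clF_eq : clF A = spec r.O (fun i => ff (r.a i)) := by
  have h : clF A = spec r.O r.a * spec r.O (fun i => (zz (r.a i))⁻¹) := by
    rw [clF, r.inv_eq, ← r.hA]
  rw [h, NB152.spec_mul r.h1]
  rfl

theorem clP_eq : clP A = ∑ i, (zz (r.a i) - 1) := by
  rw [clP, r.clZ_eq, trace_spec r.h1, Finset.sum_sub_distrib]
  simp

end Fr

/-! ### consequences at a point, `A` symmetric -/

section Point

variable {A : Matrix m m ℝ} (hA : Aᵀ = A)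
include hA

theorem clF_symm : (clF A)ᵀ = clF A := by
  obtain ⟨r⟩ := exists_fr hA
  rw [r.clF_eq]; exact NB152.spec_transpose _ _

theorem clF_comm : clF A * A = A * clF A := by
  obtain ⟨r⟩ := exists_fr hA
  have h : A = spec r.O r.a := r.hA
  calc clF A * A = spec r.O (fun i => ff (r.a i)) * spec r.O r.a := by rw [r.clF_eq, ← h]
    _ = spec r.O r.a * spec r.O (fun i => ff (r.a i)) := by
        rw [NB152.spec_mul r.h1, NB152.spec_mul r.h1]
        congr 1; funext i; ring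
    _ = A * clF A := by rw [r.clF_eq, ← h]

theorem inv_comm : (clZ A)⁻¹ * A = A * (clZ A)⁻¹ := by
  obtain ⟨r⟩ := exists_fr hA
  have h : A = spec r.O r.a := r.hA
  calc (clZ A)⁻¹ * A = spec r.O (fun i => (zz (r.a i))⁻¹) * spec r.O r.a := by rw [r.inv_eq, ← h]
    _ = spec r.O r.a * spec r.O (fun i => (zz (r.a i))⁻¹) := by
        rw [NB152.spec_mul r.h1, NB152.spec_mul r.h1]
        congr 1; funext i; ring
    _ = A * (clZ A)⁻¹ := by rw [r.inv_eq, ← h]

/-- `F(A)² = A² (1 + A²)⁻¹`, in the form `A² - F² = A² F²` -/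
theorem sq_sub_clF_sq : A * A - clF A * clF A = A * A * (clF A * clF A) := by
  obtain ⟨r⟩ := exists_fr hA
  rw [r.clF_eq, r.sq_eq, NB152.spec_mul r.h1, NB152.spec_mul r.h1, NB152.spec_sub]
  congr 1
  funext i
  have := sq_sub_ff_sq (r.a i)
  nlinarith [this]

theorem clF_sq_le_one : LeQ (clF A * clF A) 1 := by
  obtain ⟨r⟩ := exists_fr hA
  rw [r.clF_eq, NB152.spec_mul r.h1, r.one_eq]
  refine NB152.spec_mono _ fun i => ?_
  rw [← sq]; exact ff_sq_le_one _

theorem clF_le_one : LeQ (clF A) 1 := by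
  obtain ⟨r⟩ := exists_fr hA
  rw [r.clF_eq, r.one_eq]
  exact NB152.spec_mono _ fun i => (abs_le.1 (abs_ff_le_one _)).2

theorem neg_one_le_clF : LeQ (-1) (clF A) := by
  obtain ⟨r⟩ := exists_fr hA
  have h : (-1 : Matrix m m ℝ) = spec r.O (fun _ => (-1 : ℝ) * 1) := by
    rw [← NB152.spec_smul, ← r.one_eq]; simp
  rw [r.clF_eq, h]
  exact NB152.spec_mono _ fun i => by
    have := (abs_le.1 (abs_ff_le_one (r.a i))).1
    linarith

/-- `0 ≤ F² ≤ A F ≤ A²` -/
theorem clF_sq_nonneg : LeQ 0 (clF A * clF A) := by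
  intro u
  rw [zero_mulVec, dotProduct_zero, MX354.dot_mulVec_self (clF_symm hA)]
  exact Finset.sum_nonneg fun i _ => mul_self_nonneg _

theorem clF_sq_le_mul : LeQ (clF A * clF A) (A * clF A) := by
  obtain ⟨r⟩ := exists_fr hA
  have h : A * clF A = spec r.O (fun i => r.a i * ff (r.a i)) := by
    conv_lhs => rw [r.clF_eq]
    conv_lhs => enter [1]; rw [r.hA]
    exact NB152.spec_mul r.h1 _ _
  rw [h, r.clF_eq, NB152.spec_mul r.h1]
  exact NB152.spec_mono _ fun i => by rw [← sq]; exact ff_sq_le_mul _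

theorem mul_clF_le_sq : LeQ (A * clF A) (A * A) := by
  obtain ⟨r⟩ := exists_fr hA
  have h : A * clF A = spec r.O (fun i => r.a i * ff (r.a i)) := by
    conv_lhs => rw [r.clF_eq]
    conv_lhs => enter [1]; rw [r.hA]
    exact NB152.spec_mul r.h1 _ _
  rw [h, r.sq_eq]
  exact NB152.spec_mono _ fun i => by rw [← sq]; exact mul_ff_le_sq _

theorem mul_clF_symm : (A * clF A)ᵀ = A * clF A := by
  rw [transpose_mul, clF_symm hA, hA, clF_comm hA]

/-- `F⁴ ≤ F²` in trace -/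
theorem trace_clF_four : (clF A * clF A * (clF A * clF A)).trace ≤ (clF A * clF A).trace := by
  obtain ⟨r⟩ := exists_fr hA
  rw [r.clF_eq, NB152.spec_mul r.h1, NB152.spec_mul r.h1, trace_spec r.h1, trace_spec r.h1]
  refine Finset.sum_le_sum fun i _ => ?_
  have h1 := ff_sq_le_one (r.a i)
  nlinarith [sq_nonneg (ff (r.a i)), mul_nonneg (sq_nonneg (ff (r.a i))) (sub_nonneg.2 h1)]

theorem clP_nonneg : 0 ≤ clP A := by
  obtain ⟨r⟩ := exists_fr hA
  rw [r.clP_eq]
  exact Finset.sum_nonneg fun i _ => psi_nonneg _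

theorem clP_le : 2 * clP A ≤ (A * A).trace := by
  obtain ⟨r⟩ := exists_fr hA
  rw [r.clP_eq, r.sq_eq, trace_spec r.h1, Finset.mul_sum]
  exact Finset.sum_le_sum fun i _ => by rw [← sq]; exact psi_le _

theorem trace_clF_sq_le_clP : (clF A * clF A).trace ≤ 2 * clP A := by
  obtain ⟨r⟩ := exists_fr hA
  rw [r.clP_eq, r.clF_eq, NB152.spec_mul r.h1, trace_spec r.h1, Finset.mul_sum]
  exact Finset.sum_le_sum fun i _ => by rw [← sq]; exact ff_sq_le_psi _

theorem clP_le_trace_mul : clP A ≤ (A * clF A).trace := by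
  obtain ⟨r⟩ := exists_fr hA
  have h : A * clF A = spec r.O (fun i => r.a i * ff (r.a i)) := by
    conv_lhs => rw [r.clF_eq]
    conv_lhs => enter [1]; rw [r.hA]
    exact NB152.spec_mul r.h1 _ _
  rw [r.clP_eq, h, trace_spec r.h1]
  exact Finset.sum_le_sum fun i _ => psi_le_mul _

/-- entries of `F` are bounded by one -/
theorem clF_entry_le (i j : m) : |clF A i j| ≤ 1 := by
  rw [← sq_le_one_iff_abs_le_one]
  have h1 := clF_sq_le_one hA (Pi.single i 1)
  have h2 : (Pi.single i (1:ℝ)) ⬝ᵥ ((clF A * clF A) *ᵥ Pi.single i 1) = ∑ j, clF A i j ^ 2 := by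
    rw [single_one_dotProduct, Matrix.mulVec_single_one, Matrix.col_apply, Matrix.mul_apply]
    refine Finset.sum_congr rfl fun j _ => ?_
    have := congrFun (congrFun (clF_symm hA) i) j
    rw [transpose_apply] at this
    rw [this, sq]
  have h3 : (Pi.single i (1:ℝ)) ⬝ᵥ ((1 : Matrix m m ℝ) *ᵥ Pi.single i 1) = 1 := by
    rw [one_mulVec, single_one_dotProduct, Pi.single_eq_same]
  rw [h2, h3] at h1
  exact (Finset.single_le_sum (f := fun j => clF A i j ^ 2) (fun _ _ => sq_nonneg _)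
    (Finset.mem_univ j)).trans h1

end Point

/-- trace of a product with a form-nonnegative symmetric matrix is monotone -/
theorem trace_mul_mono {V X Y : Matrix m m ℝ} (hV : LeQ 0 V) (hX : Xᵀ = X) (hY : Yᵀ = Y) (h : LeQ X Y) :
    (V * X).trace ≤ (V * Y).trace := by
  have hps : (Y - X).PosSemidef := by
    refine PosSemidef.of_dotProduct_mulVec_nonneg ?_ ?_
    · rw [IsHermitian, conjTranspose_eq_transpose_of_trivial, transpose_sub, hX, hY]
    · intro u
      rw [star_trivial, sub_mulVec, dotProduct_sub]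
      linarith [h u]
  obtain ⟨T, hT, hTT⟩ := MX354.root_exists hps
  have h1 := NB152.trace_sq_nonneg hV T
  rw [MX354.posSemidef_transpose hT, Matrix.mul_assoc, Matrix.trace_mul_comm, Matrix.mul_assoc,
    hTT, Matrix.mul_sub, trace_sub] at h1
  linarith

/-- `0 ≤ Tr V F² ≤ Tr V A F` for `V ≥ 0` -/
theorem trace_V_clF {V A : Matrix m m ℝ} (hV : LeQ 0 V) (hA : Aᵀ = A) :
    0 ≤ (V * (clF A * clF A)).trace ∧
      (V * (clF A * clF A)).trace ≤ (V * (A * clF A)).trace := by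
  have hF := clF_symm hA
  have hs : (clF A * clF A)ᵀ = clF A * clF A := by rw [transpose_mul, hF]
  constructor
  · have := trace_mul_mono hV (X := 0) (by simp) hs (clF_sq_nonneg hA)
    simpa using this
  · exact trace_mul_mono hV hs (mul_clF_symm hA) (clF_sq_le_mul hA)

/-! ### the derivative at a point, in the eigenframe -/

/-- change of frame -/
noncomputable def cj (O M : Matrix m m ℝ) : Matrix m m ℝ := Oᵀ * M * O

theorem cj_mul {O : Matrix m m ℝ} (h2 : O * Oᵀ = 1) (M N : Matrix m m ℝ) : cj O (M * N) = cj O M * cj O N := by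
  unfold cj
  calc Oᵀ * (M * N) * O = Oᵀ * M * (1 * (N * O)) := by simp only [Matrix.one_mul, Matrix.mul_assoc]
    _ = Oᵀ * M * ((O * Oᵀ) * (N * O)) := by rw [h2]
    _ = _ := by simp only [Matrix.mul_assoc]

theorem cj_add (O M N : Matrix m m ℝ) : cj O (M + N) = cj O M + cj O N := by
  simp [cj, Matrix.mul_add, Matrix.add_mul]

theorem cj_transpose (O M : Matrix m m ℝ) : (cj O M)ᵀ = cj O Mᵀ := by
  simp [cj, Matrix.mul_assoc]

theorem cj_spec {O : Matrix m m ℝ} (h1 : Oᵀ * O = 1) (f : m → ℝ) : cj O (spec O f) = diagonal f := by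
  unfold cj spec
  calc Oᵀ * (O * diagonal f * Oᵀ) * O = (Oᵀ * O) * diagonal f * (Oᵀ * O) := by
        simp only [Matrix.mul_assoc]
    _ = _ := by rw [h1, Matrix.one_mul, Matrix.mul_one]

theorem cj_trace {O : Matrix m m ℝ} (h2 : O * Oᵀ = 1) (M : Matrix m m ℝ) : (cj O M).trace = M.trace := by
  unfold cj
  rw [Matrix.mul_assoc, Matrix.trace_mul_comm, Matrix.mul_assoc, h2, Matrix.mul_one]

theorem trace_eq_sum {O : Matrix m m ℝ} (h2 : O * Oᵀ = 1) (M N : Matrix m m ℝ) :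
    (M * Nᵀ).trace = ∑ i, ∑ j, cj O M i j * cj O N i j := by
  rw [← cj_trace h2, cj_mul h2, ← cj_transpose]
  simp only [Matrix.trace, Matrix.diag_apply, Matrix.mul_apply, Matrix.transpose_apply]

theorem hs_eq_sum {O : Matrix m m ℝ} (h2 : O * Oᵀ = 1) (M : Matrix m m ℝ) : hs M = ∑ i, ∑ j, cj O M i j ^ 2 := by
  rw [MX354.hs_eq_trace, trace_eq_sum h2]
  simp only [sq]

/-- The first-order data of the clip at a symmetric `A` in direction `B`. -/
structure Der (A B dZ dF : Matrix m m ℝ) : Prop where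
  eZ : dZ * clZ A + clZ A * dZ = A * B + B * A
  eF : dF * clZ A + clF A * dZ = B

variable {A B dZ dF : Matrix m m ℝ}

/-- divided differences -/
theorem Der.frame (h : Der A B dZ dF) (r : Fr A) :
    (∀ i j, cj r.O dZ i j = Z1 (r.a i) (r.a j) * cj r.O B i j) ∧
    ∀ i j, cj r.O dF i j = F1 (r.a i) (r.a j) * cj r.O B i j := by
  have eA : cj r.O A = diagonal r.a := (congrArg (cj r.O) r.hA).trans (cj_spec r.h1 _)
  have eZ : cj r.O (clZ A) = diagonal (fun i => zz (r.a i)) := by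
    rw [r.clZ_eq]; exact cj_spec r.h1 _
  have eF : cj r.O (clF A) = diagonal (fun i => ff (r.a i)) := by
    rw [r.clF_eq]; exact cj_spec r.h1 _
  have k1 := congrArg (cj r.O) h.eZ
  rw [cj_add, cj_add, cj_mul r.h2, cj_mul r.h2, cj_mul r.h2, cj_mul r.h2, eZ, eA] at k1
  have k2 := congrArg (cj r.O) h.eF
  rw [cj_add, cj_mul r.h2, cj_mul r.h2, eZ, eF] at k2
  have g1 : ∀ i j, cj r.O dZ i j = Z1 (r.a i) (r.a j) * cj r.O B i j := by
    intro i j
    have := congrFun (congrFun k1 i) j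
    simp only [Matrix.add_apply, Matrix.mul_diagonal, Matrix.diagonal_mul] at this
    have h1 := zz_pos (r.a i)
    have h2 := zz_pos (r.a j)
    rw [Z1, div_mul_eq_mul_div, eq_div_iff (by positivity)]
    linarith
  refine ⟨g1, fun i j => ?_⟩
  have := congrFun (congrFun k2 i) j
  simp only [Matrix.add_apply, Matrix.mul_diagonal, Matrix.diagonal_mul] at this
  rw [g1 i j] at this
  have h1 := zz_pos (r.a i)
  have h2 := zz_pos (r.a j)
  have h3 := zz_sq (r.a i)
  have h4 : cj r.O dF i j * zz (r.a j)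
      = (1 - ff (r.a i) * Z1 (r.a i) (r.a j)) * cj r.O B i j := by linarith
  have h5 : (1 - ff (r.a i) * Z1 (r.a i) (r.a j)) = F1 (r.a i) (r.a j) * zz (r.a j) := by
    unfold ff Z1 F1
    field_simp
    nlinarith [h3]
  have h6 : cj r.O dF i j * zz (r.a j) = F1 (r.a i) (r.a j) * cj r.O B i j * zz (r.a j) := by
    rw [h4, h5]; ring
  exact mul_right_cancel₀ h2.ne' h6

/-- `dF` is symmetric -/
theorem Der.symmF (h : Der A B dZ dF) (hA : Aᵀ = A) (hB : Bᵀ = B) : dFᵀ = dF := by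
  obtain ⟨r⟩ := exists_fr hA
  have h1 := (h.frame r).2
  have hB' : ∀ i j, cj r.O B i j = cj r.O B j i := by
    intro i j
    have := congrFun (congrFun (cj_transpose r.O B) j) i
    rw [transpose_apply, hB] at this
    exact this
  have h2 : cj r.O dFᵀ = cj r.O dF := by
    rw [← cj_transpose]
    ext i j
    rw [transpose_apply, h1, h1, F1_comm, hB']
  have h3 : ∀ M : Matrix m m ℝ, r.O * cj r.O M * r.Oᵀ = M := by
    intro M
    unfold cj
    calc r.O * (r.Oᵀ * M * r.O) * r.Oᵀ = (r.O * r.Oᵀ) * M * (r.O * r.Oᵀ) := by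
          simp only [Matrix.mul_assoc]
      _ = M := by rw [r.h2, Matrix.one_mul, Matrix.mul_one]
  rw [← h3 dFᵀ, h2, h3]

/-- **`|dF|² ≤ ⟨dF, B⟩ ≤ |B|²`** -/
theorem Der.hs_le (h : Der A B dZ dF) (hA : Aᵀ = A) :
    hs dF ≤ (dF * Bᵀ).trace ∧ (dF * Bᵀ).trace ≤ hs B := by
  obtain ⟨r⟩ := exists_fr hA
  have h1 := (h.frame r).2
  rw [hs_eq_sum r.h2, hs_eq_sum r.h2 B, trace_eq_sum r.h2]
  constructor
  · refine Finset.sum_le_sum fun i _ => Finset.sum_le_sum fun j _ => ?_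
    rw [h1 i j]
    have := F1_sq_le (r.a i) (r.a j)
    nlinarith [sq_nonneg (cj r.O B i j)]
  · refine Finset.sum_le_sum fun i _ => Finset.sum_le_sum fun j _ => ?_
    rw [h1 i j]
    have := F1_le_one (r.a i) (r.a j)
    nlinarith [sq_nonneg (cj r.O B i j)]

theorem Der.trace_nonneg (h : Der A B dZ dF) (hA : Aᵀ = A) : 0 ≤ (dF * Bᵀ).trace :=
  (MX354.hs_nonneg dF).trans (h.hs_le hA).1

theorem Der.hs_dZ_le (h : Der A B dZ dF) (hA : Aᵀ = A) : hs dZ ≤ hs B := by
  obtain ⟨r⟩ := exists_fr hA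
  have h1 := (h.frame r).1
  rw [hs_eq_sum r.h2, hs_eq_sum r.h2 B]
  refine Finset.sum_le_sum fun i _ => Finset.sum_le_sum fun j _ => ?_
  rw [h1 i j, mul_pow]
  have := abs_Z1_le (r.a i) (r.a j)
  rw [← sq_le_one_iff_abs_le_one] at this
  nlinarith [sq_nonneg (cj r.O B i j)]

/-- `Tr dZ = Tr (F B)` -/
theorem Der.trace_dZ (h : Der A B dZ dF) (hA : Aᵀ = A) : dZ.trace = (clF A * B).trace := by
  have h1 := congrArg (fun M => (M * (clZ A)⁻¹).trace) h.eZ
  simp only [Matrix.add_mul, trace_add] at h1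
  rw [Matrix.mul_assoc dZ, clZ_mul_inv, Matrix.mul_one, Matrix.mul_assoc (clZ A),
    Matrix.trace_mul_comm (clZ A), Matrix.mul_assoc dZ, clZ_inv_mul, Matrix.mul_one,
    Matrix.mul_assoc B, ← clF, Matrix.trace_mul_comm B, Matrix.mul_assoc A, Matrix.trace_mul_comm A,
    Matrix.mul_assoc B, inv_comm hA, ← clF, Matrix.trace_mul_comm B] at h1
  linarith

end Crest.Agent.R201.Clip78
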