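import Crest.Agent.R201.Clip1_78
import Mathlib.Analysis.Calculus.ContDiff.Operations

/-!
# R201, LSI half, CLIP block (helper78), part 2: smoothness and derivatives of the clip

`clZ`, `clF`, `clP` are smooth on the whole space `Mt n`; chain rules along fields, curves.
-/

set_option autoImplicit false
open Matrix
open scoped Matrix.Norms.Operator ContDiff

namespace Crest.Agent.R201.Clip78

open Crest.Agent.R201

variable {n : ℕ}

/-! ### smoothness of the root, any order -/

theorem contDiffAt_of_entries' {X : Type*} [NormedAddCommGroup X] [NormedSpace ℝ X] {F : X → Mt n}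
    {x : X} {k : WithTop ℕ∞} (h : ∀ i j, ContDiffAt ℝ k (fun y => F y i j) x) :
    ContDiffAt ℝ k F x := by
  have e : F = fun y => ∑ i, ∑ j, F y i j • Matrix.single i j (1 : ℝ) := by
    funext y; exact MX354.mt_eq_sum (F y)
  rw [e]
  exact ContDiffAt.sum fun i _ => ContDiffAt.sum fun j _ => (h i j).smul contDiffAt_const

theorem contDiff_of_entries {X : Type*} [NormedAddCommGroup X] [NormedSpace ℝ X] {F : X → Mt n}
    {k : WithTop ℕ∞} (h : ∀ i j, ContDiff ℝ k (fun y => F y i j)) : ContDiff ℝ k F :=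
  contDiff_iff_contDiffAt.2 fun _ => contDiffAt_of_entries' fun i j => (h i j).contDiffAt

theorem entry_contDiff {X : Type*} [NormedAddCommGroup X] [NormedSpace ℝ X] {F : X → Mt n}
    {k : WithTop ℕ∞} (h : ContDiff ℝ k F) (i j : Fin n) : ContDiff ℝ k (fun y => F y i j) :=
  (MX354.entryL i j).contDiff.comp h

theorem entry_contDiffAt {X : Type*} [NormedAddCommGroup X] [NormedSpace ℝ X] {F : X → Mt n}
    {x : X} {k : WithTop ℕ∞} (h : ContDiffAt ℝ k F x) (i j : Fin n) :
    ContDiffAt ℝ k (fun y => F y i j) x :=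
  (MX354.entryL i j).contDiff.contDiffAt.comp x h

theorem root_contDiffAt' {X : Type*} [NormedAddCommGroup X] [NormedSpace ℝ X] {G Z : X → Mt n}
    {x : X} {k : WithTop ℕ∞} (hk : k ≠ 0)
    (hG : ∀ i j, ContDiffAt ℝ k (fun y => G y i j) x) (hZ : ∀ y, (Z y).PosDef)
    (hZG : ∀ y, Z y * Z y = G y) : ContDiffAt ℝ k Z x := by
  have hc : ContinuousAt Z x :=
    MX354.continuousAt_of_entries fun i j =>
      MX354.root_continuousAt (fun i j => (hG i j).continuousAt) hZ hZG i j
  have hf : ContDiffAt ℝ k (fun A : Mt n => A * A) (Z x) :=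
    (contDiff_id.mul contDiff_id).contDiffAt
  have hf' := MX354.hasFDerivAt_sq (hZ x)
  have h1 := hf.to_localInverse hf' hk
  have h2 : ∀ᶠ y in nhds x, hf.localInverse hf' hk (G y) = Z y := by
    have h3 := (hf.hasStrictFDerivAt' hf' hk).eventually_left_inverse
    have h4 := hc.eventually h3
    filter_upwards [h4] with y hy
    rw [← hZG y]
    exact hy
  have h5 : ContDiffAt ℝ k (fun y => hf.localInverse hf' hk (G y)) x := by
    refine ContDiffAt.comp x ?_ (contDiffAt_of_entries' hG)
    rw [← hZG x]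
    exact h1
  exact h5.congr_of_eventuallyEq (h2.mono fun _ h => h.symm)

theorem entry_id_contDiff {k : WithTop ℕ∞} (i j : Fin n) : ContDiff ℝ k (fun A : Mt n => A i j) :=
  (MX354.entryL i j).contDiff

theorem contDiff_clZ {k : WithTop ℕ∞} : ContDiff ℝ k (clZ : Mt n → Mt n) := by
  have h : ContDiff ℝ ω (clZ : Mt n → Mt n) := by
    rw [contDiff_iff_contDiffAt]
    intro x
    refine root_contDiffAt' (G := fun A => 1 + Aᵀ * A) (by simp) (fun i j => ?_) clZ_posDef clZ_sq
    refine ContDiff.contDiffAt ?_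
    have e : (fun A : Mt n => (1 + Aᵀ * A) i j) = fun A => (1 : Mt n) i j + ∑ l, A l i * A l j := by
      funext A
      rw [Matrix.add_apply, Matrix.mul_apply]
      simp only [transpose_apply]
    rw [e]
    exact contDiff_const.add (ContDiff.sum fun l _ =>
      (entry_id_contDiff l i).mul (entry_id_contDiff l j))
  exact h.of_le le_top

theorem contDiff_clZ_inv {k : WithTop ℕ∞} : ContDiff ℝ k (fun A : Mt n => (clZ A)⁻¹) := by
  rw [contDiff_iff_contDiffAt]
  intro A
  have hu : IsUnit (clZ A) := (Matrix.isUnit_iff_isUnit_det _).2 (clZ_isUnit A)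
  obtain ⟨u, hu⟩ := hu
  have h1 : ContDiffAt ℝ k (Ring.inverse : Mt n → Mt n) (clZ A) := by
    rw [← hu]; exact contDiffAt_ringInverse ℝ u
  have h2 : ContDiffAt ℝ k (fun A : Mt n => Ring.inverse (clZ A)) A :=
    h1.comp A contDiff_clZ.contDiffAt
  refine h2.congr_of_eventuallyEq (Filter.Eventually.of_forall fun B => ?_)
  exact Matrix.nonsing_inv_eq_ringInverse (clZ B)

theorem contDiff_clF {k : WithTop ℕ∞} : ContDiff ℝ k (clF : Mt n → Mt n) :=
  contDiff_id.mul contDiff_clZ_inv

theorem contDiff_clP {k : WithTop ℕ∞} : ContDiff ℝ k (clP : Mt n → ℝ) := by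
  have : (clP : Mt n → ℝ) = fun A => (∑ i, clZ A i i) - (Fintype.card (Fin n) : ℝ) := by
    funext A; rfl
  rw [this]
  exact (ContDiff.sum fun i _ => entry_contDiff contDiff_clZ i i).sub contDiff_const

/-! ### derivative of the maps -/

/-- derivative of `clZ` -/
noncomputable def dZ (A B : Mt n) : Mt n := fderiv ℝ (clZ : Mt n → Mt n) A B

/-- derivative of `clF` -/
noncomputable def dF (A B : Mt n) : Mt n := fderiv ℝ (clF : Mt n → Mt n) A B

theorem diff_clZ : Differentiable ℝ (clZ : Mt n → Mt n) :=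
  (contDiff_clZ (k := 1)).differentiable (by simp)

theorem diff_clF : Differentiable ℝ (clF : Mt n → Mt n) :=
  (contDiff_clF (k := 1)).differentiable (by simp)

theorem diff_clP : Differentiable ℝ (clP : Mt n → ℝ) :=
  (contDiff_clP (k := 1)).differentiable (by simp)

/-- transposition as a continuous linear map -/
noncomputable def trL : Mt n →L[ℝ] Mt n :=
  LinearMap.toContinuousLinearMap
    { toFun := fun A => Aᵀ, map_add' := fun _ _ => rfl, map_smul' := fun _ _ => rfl }

theorem trL_apply (A : Mt n) : trL A = Aᵀ := rfl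

/-- the Lyapunov equations for the derivatives, any `A`, `B` -/
theorem der_eq (A B : Mt n) :
    dZ A B * clZ A + clZ A * dZ A B = Aᵀ * B + Bᵀ * A ∧
      dF A B * clZ A + clF A * dZ A B = B := by
  have hZ := (diff_clZ (n := n) A).hasFDerivAt
  have hF := (diff_clF (n := n) A).hasFDerivAt
  constructor
  · have h1 := hZ.mul' hZ
    have h3 := (trL (n := n)).hasFDerivAt (x := A)
    have h2 := (h3.mul' (hasFDerivAt_id A)).const_add (1 : Mt n)
    have h4 : (clZ * clZ : Mt n → Mt n)
        = fun A : Mt n => (1 : Mt n) + ((fun A : Mt n => trL A) * (id : Mt n → Mt n)) A := by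
      funext A; exact clZ_sq A
    rw [h4] at h1
    have h5 := h1.unique h2
    have h6 := congrArg (fun L : Mt n →L[ℝ] Mt n => L B) h5
    change clZ A * dZ A B + dZ A B * clZ A = Aᵀ * B + Bᵀ * A at h6
    rw [add_comm]
    exact h6
  · have h1 := hF.mul' hZ
    have h4 : (clF * clZ : Mt n → Mt n) = id := by
      funext A; exact clF_mul_clZ A
    rw [h4] at h1
    have h5 := h1.unique (hasFDerivAt_id A)
    have h6 := congrArg (fun L : Mt n →L[ℝ] Mt n => L B) h5
    change clF A * dZ A B + dF A B * clZ A = B at h6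
    rw [add_comm]
    exact h6

/-- the Lyapunov equations for the derivatives; `A`, `B` symmetric -/
theorem der {A B : Mt n} (hA : Aᵀ = A) (hB : Bᵀ = B) : Der A B (dZ A B) (dF A B) := by
  obtain ⟨h1, h2⟩ := der_eq A B
  rw [hA, hB] at h1
  exact ⟨h1, h2⟩

theorem fderiv_clP {A B : Mt n} (hA : Aᵀ = A) (hB : Bᵀ = B) :
    fderiv ℝ (clP : Mt n → ℝ) A B = (clF A * B).trace := by
  rw [← (der hA hB).trace_dZ hA]
  have h1 : HasFDerivAt (clP : Mt n → ℝ)
      (∑ i, (MX354.entryL i i).comp (fderiv ℝ (clZ : Mt n → Mt n) A)) A := by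
    have e : (clP : Mt n → ℝ) = fun A => (∑ i, clZ A i i) - (Fintype.card (Fin n) : ℝ) := by
      funext A; rfl
    rw [e]
    refine HasFDerivAt.sub_const _ (HasFDerivAt.fun_sum fun i _ => ?_)
    exact (MX354.entryL i i).hasFDerivAt.comp A (diff_clZ A).hasFDerivAt
  rw [h1.fderiv]
  simp only [_root_.sum_apply, ContinuousLinearMap.comp_apply, MX354.entryL_apply]
  rfl

/-! ### fields -/

section Field

variable {X : Type*} [NormedAddCommGroup X] [NormedSpace ℝ X] {U : X → Mt n} {x : X}

/-- derivative of a matrix field through its entries -/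
theorem fderiv_entry (hU : DifferentiableAt ℝ U x) (v : X) (i j : Fin n) :
    fderiv ℝ (fun y => U y i j) x v = fderiv ℝ U x v i j := by
  have := (MX354.entryL i j).hasFDerivAt.comp x hU.hasFDerivAt
  have h2 : HasFDerivAt (fun y => U y i j) ((MX354.entryL i j).comp (fderiv ℝ U x)) x := this
  rw [h2.fderiv]
  rfl

theorem diffAt_of_entries (h : ∀ i j, DifferentiableAt ℝ (fun y => U y i j) x) :
    DifferentiableAt ℝ U x := by
  have e : U = fun y => ∑ i, ∑ j, U y i j • Matrix.single i j (1 : ℝ) := by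
    funext y; exact MX354.mt_eq_sum (U y)
  rw [e]
  exact DifferentiableAt.fun_sum fun i _ => DifferentiableAt.fun_sum fun j _ =>
    (h i j).smul_const _

theorem fderiv_symm (hU : DifferentiableAt ℝ U x) (hs : ∀ y, (U y)ᵀ = U y) (v : X) :
    (fderiv ℝ U x v)ᵀ = fderiv ℝ U x v := by
  ext i j
  rw [transpose_apply, ← fderiv_entry hU, ← fderiv_entry hU]
  congr 2
  funext y
  exact congrFun (congrFun (hs y) i) j

/-- chain rule for `clF` -/
theorem fderiv_clF_field (hU : DifferentiableAt ℝ U x) (v : X) :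
    fderiv ℝ (fun y => clF (U y)) x v = dF (U x) (fderiv ℝ U x v) := by
  have h := (diff_clF (n := n) (U x)).hasFDerivAt.comp x hU.hasFDerivAt
  have h2 : HasFDerivAt (fun y => clF (U y)) ((fderiv ℝ (clF : Mt n → Mt n) (U x)).comp
    (fderiv ℝ U x)) x := h
  rw [h2.fderiv]
  rfl

/-- chain rule for `clP` along symmetric fields -/
theorem hasFDerivAt_clP_field (hU : DifferentiableAt ℝ U x) (hs : ∀ y, (U y)ᵀ = U y) :
    HasFDerivAt (fun y => clP (U y)) (fderiv ℝ (fun y => clP (U y)) x) x ∧
    ∀ v, fderiv ℝ (fun y => clP (U y)) x v = (clF (U x) * fderiv ℝ U x v).trace := by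
  have h := (diff_clP (n := n) (U x)).hasFDerivAt.comp x hU.hasFDerivAt
  have h2 : HasFDerivAt (fun y => clP (U y)) ((fderiv ℝ (clP : Mt n → ℝ) (U x)).comp
    (fderiv ℝ U x)) x := h
  refine ⟨h2.differentiableAt.hasFDerivAt, fun v => ?_⟩
  rw [h2.fderiv, ContinuousLinearMap.comp_apply]
  exact fderiv_clP (hs x) (fderiv_symm hU hs v)

end Field

/-- derivative of `Ψ` along a curve of symmetric matrices -/
theorem hasDerivAt_clP {U : ℝ → Mt n} {U' : Mt n} {t : ℝ}
    (hU : ∀ i j, HasDerivAt (fun s => U s i j) (U' i j) t) (hs : ∀ s, (U s)ᵀ = U s) :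
    HasDerivAt (fun s => clP (U s)) ((clF (U t) * U').trace) t := by
  have hd : DifferentiableAt ℝ U t := diffAt_of_entries fun i j => (hU i j).differentiableAt
  obtain ⟨h1, h2⟩ := hasFDerivAt_clP_field hd hs
  have h3 := h1.hasDerivAt
  rw [h2 1] at h3
  have h4 : fderiv ℝ U t 1 = U' := by
    ext i j
    rw [← fderiv_entry hd]
    exact (hU i j).deriv
  rwa [h4] at h3

/-- derivative of `F` along a curve of symmetric matrices -/
theorem hasDerivAt_clF {U : ℝ → Mt n} {U' : Mt n} {t : ℝ}
    (hU : ∀ i j, HasDerivAt (fun s => U s i j) (U' i j) t) (i j : Fin n) :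
    HasDerivAt (fun s => clF (U s) i j) (dF (U t) U' i j) t := by
  have hd : DifferentiableAt ℝ U t := diffAt_of_entries fun i j => (hU i j).differentiableAt
  have h4 : fderiv ℝ U t 1 = U' := by
    ext i j
    rw [← fderiv_entry hd]
    exact (hU i j).deriv
  have h : DifferentiableAt ℝ (fun s => clF (U s)) t := (diff_clF (n := n) (U t)).comp t hd
  have h2 := fderiv_clF_field hd 1
  rw [h4] at h2
  rw [← h2, ← fderiv_entry h]
  have h5 : DifferentiableAt ℝ (fun s => clF (U s) i j) t :=
    (MX354.entryL i j).differentiableAt.comp t h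
  exact h5.hasDerivAt

end Crest.Agent.R201.Clip78
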