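import Crest.Agent.R201.Clip2_78

/-!
# R201, LSI half, CLIP block (helper78), part 3: the scaled clip `cF e A = e F(A/e)` and fields on `E n`
-/

set_option autoImplicit false
set_option linter.unusedSectionVars false
open Matrix
open scoped ContDiff

namespace Crest.Agent.R201.Clip78

open Crest.Agent.R201

variable {n : ℕ}

/-- scaled clip -/
noncomputable def cF (e : ℝ) (A : Mt n) : Mt n := e • clF (e⁻¹ • A)

/-- scaled potential, `d cP e A = Tr (cF e A dA)` -/
noncomputable def cP (e : ℝ) (A : Mt n) : ℝ := e ^ 2 * clP (e⁻¹ • A)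

theorem leQ_smul {c : ℝ} (hc : 0 ≤ c) {X Y : Mt n} (h : LeQ X Y) : LeQ (c • X) (c • Y) := by
  intro u
  rw [smul_mulVec, smul_mulVec, dotProduct_smul, dotProduct_smul, smul_eq_mul, smul_eq_mul]
  exact mul_le_mul_of_nonneg_left (h u) hc

section Scaled

variable {e : ℝ} (he : 0 < e) {A : Mt n}
include he

theorem smul_inv_smul (A : Mt n) : e • (e⁻¹ • A) = A := by
  rw [smul_smul, mul_inv_cancel₀ he.ne', one_smul]

variable (hA : Aᵀ = A)
include hA

omit he in
theorem inv_symm (e : ℝ) : (e⁻¹ • A)ᵀ = e⁻¹ • A := by rw [transpose_smul, hA]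

omit he in
theorem cF_symm : (cF e A)ᵀ = cF e A := by
  rw [cF, transpose_smul, clF_symm (inv_symm hA e)]

theorem cF_comm : cF e A * A = A * cF e A := by
  have h := clF_comm (inv_symm hA e)
  have h1 : A = e • (e⁻¹ • A) := (smul_inv_smul he A).symm
  calc cF e A * A = (e • clF (e⁻¹ • A)) * (e • (e⁻¹ • A)) := by rw [← h1]; rfl
    _ = (e • (e⁻¹ • A)) * (e • clF (e⁻¹ • A)) := by
        rw [smul_mul_smul_comm, smul_mul_smul_comm, h]
    _ = A * cF e A := by rw [← h1]; rfl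

theorem cF_mul_eq : cF e A * cF e A = e ^ 2 • (clF (e⁻¹ • A) * clF (e⁻¹ • A)) := by
  rw [cF, smul_mul_smul_comm, ← sq]

theorem A_mul_cF_eq : A * cF e A = e ^ 2 • ((e⁻¹ • A) * clF (e⁻¹ • A)) := by
  have h1 : A = e • (e⁻¹ • A) := (smul_inv_smul he A).symm
  calc A * cF e A = (e • (e⁻¹ • A)) * (e • clF (e⁻¹ • A)) := by rw [← h1]; rfl
    _ = _ := by rw [smul_mul_smul_comm, ← sq]

theorem A_mul_A_eq : A * A = e ^ 2 • ((e⁻¹ • A) * (e⁻¹ • A)) := by
  have h1 : A = e • (e⁻¹ • A) := (smul_inv_smul he A).symm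
  calc A * A = (e • (e⁻¹ • A)) * (e • (e⁻¹ • A)) := by rw [← h1]
    _ = _ := by rw [smul_mul_smul_comm, ← sq]

/-- `F² ≤ e²` -/
theorem cF_sq_le : LeQ (cF e A * cF e A) (e ^ 2 • (1 : Mt n)) := by
  rw [cF_mul_eq he hA]
  exact leQ_smul (sq_nonneg e) (clF_sq_le_one (inv_symm hA e))

theorem cF_le : LeQ (cF e A) (e • (1 : Mt n)) :=
  leQ_smul he.le (clF_le_one (inv_symm hA e))

theorem neg_le_cF : LeQ (-(e • (1 : Mt n))) (cF e A) := by
  have h := leQ_smul he.le (neg_one_le_clF (inv_symm hA e))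
  rw [smul_neg] at h
  exact h

theorem cF_sq_nonneg : LeQ 0 (cF e A * cF e A) := by
  intro u
  rw [zero_mulVec, dotProduct_zero, MX354.dot_mulVec_self (cF_symm hA)]
  exact Finset.sum_nonneg fun i _ => mul_self_nonneg _

/-- `F² ≤ A F` -/
theorem cF_sq_le_mul : LeQ (cF e A * cF e A) (A * cF e A) := by
  rw [cF_mul_eq he hA, A_mul_cF_eq he hA]
  exact leQ_smul (sq_nonneg e) (clF_sq_le_mul (inv_symm hA e))

/-- `A F ≤ A²` -/
theorem mul_cF_le_sq : LeQ (A * cF e A) (A * A) := by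
  rw [A_mul_cF_eq he hA, A_mul_A_eq he hA]
  exact leQ_smul (sq_nonneg e) (mul_clF_le_sq (inv_symm hA e))

theorem mul_cF_symm : (A * cF e A)ᵀ = A * cF e A := by
  rw [transpose_mul, cF_symm hA, hA, cF_comm he hA]

/-- `A² - F² = e⁻² A² F²` -/
theorem sq_sub_cF_sq : A * A - cF e A * cF e A = (e ^ 2)⁻¹ • (A * A * (cF e A * cF e A)) := by
  have h := sq_sub_clF_sq (inv_symm hA e)
  have he2 : (e ^ 2)⁻¹ * (e ^ 2 * e ^ 2) = e ^ 2 := by
    have := he.ne'
    field_simp
  have h3 : A * A - cF e A * cF e A = e ^ 2 • ((e⁻¹ • A) * (e⁻¹ • A)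
      - clF (e⁻¹ • A) * clF (e⁻¹ • A)) := by
    rw [smul_sub, ← A_mul_A_eq he hA, ← cF_mul_eq he hA]
  have h4 : A * A * (cF e A * cF e A) = (e ^ 2 * e ^ 2) • ((e⁻¹ • A) * (e⁻¹ • A)
      * (clF (e⁻¹ • A) * clF (e⁻¹ • A))) := by
    rw [← smul_mul_smul_comm, ← A_mul_A_eq he hA, ← cF_mul_eq he hA]
  rw [h3, h4, h, smul_smul, he2]

theorem trace_cF_four :
    (cF e A * cF e A * (cF e A * cF e A)).trace ≤ e ^ 2 * (cF e A * cF e A).trace := by
  rw [cF_mul_eq he hA, smul_mul_smul_comm, trace_smul, trace_smul, smul_eq_mul, smul_eq_mul]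
  have h := mul_le_mul_of_nonneg_left (trace_clF_four (inv_symm hA e))
    (by positivity : 0 ≤ e ^ 2 * e ^ 2)
  linarith

theorem trace_cF_sq_le_mul : (cF e A * cF e A).trace ≤ (A * cF e A).trace := by
  have hs : (cF e A * cF e A)ᵀ = cF e A * cF e A := by rw [transpose_mul, cF_symm hA]
  have h := trace_mul_mono (V := (1 : Mt n)) (by
    intro u; rw [zero_mulVec, dotProduct_zero, one_mulVec]
    exact Finset.sum_nonneg fun i _ => mul_self_nonneg _) hs (mul_cF_symm he hA)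
    (cF_sq_le_mul he hA)
  simpa using h

theorem trace_mul_cF_le_sq : (A * cF e A).trace ≤ (A * A).trace := by
  have hs : (A * A)ᵀ = A * A := by rw [transpose_mul, hA]
  have h := trace_mul_mono (V := (1 : Mt n)) (by
    intro u; rw [zero_mulVec, dotProduct_zero, one_mulVec]
    exact Finset.sum_nonneg fun i _ => mul_self_nonneg _) (mul_cF_symm he hA) hs
    (mul_cF_le_sq he hA)
  simpa using h

/-- cubic term: `Tr A² F ≤ e Tr A²` -/
theorem trace_sq_mul_cF_le : (A * A * cF e A).trace ≤ e * (A * A).trace := by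
  have hV : LeQ 0 (A * A) := by
    intro u
    rw [zero_mulVec, dotProduct_zero, MX354.dot_mulVec_self hA]
    exact Finset.sum_nonneg fun i _ => mul_self_nonneg _
  have h := trace_mul_mono hV (cF_symm hA) (by rw [transpose_smul, transpose_one]) (cF_le he hA)
  rw [mul_smul_comm, Matrix.mul_one, trace_smul, smul_eq_mul] at h
  exact h

theorem neg_le_trace_sq_mul_cF : -(e * (A * A).trace) ≤ (A * A * cF e A).trace := by
  have hV : LeQ 0 (A * A) := by
    intro u
    rw [zero_mulVec, dotProduct_zero, MX354.dot_mulVec_self hA]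
    exact Finset.sum_nonneg fun i _ => mul_self_nonneg _
  have h := trace_mul_mono hV (by rw [transpose_neg, transpose_smul, transpose_one]) (cF_symm hA)
    (neg_le_cF he hA)
  rw [Matrix.mul_neg, mul_smul_comm, Matrix.mul_one, trace_neg, trace_smul, smul_eq_mul] at h
  exact h

theorem trace_V_cF {V : Mt n} (hV : LeQ 0 V) :
    0 ≤ (V * (cF e A * cF e A)).trace ∧
      (V * (cF e A * cF e A)).trace ≤ (V * (A * cF e A)).trace := by
  rw [cF_mul_eq he hA, A_mul_cF_eq he hA, mul_smul_comm, mul_smul_comm, trace_smul, trace_smul,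
    smul_eq_mul, smul_eq_mul]
  have h := trace_V_clF hV (inv_symm hA e)
  exact ⟨mul_nonneg (sq_nonneg e) h.1, mul_le_mul_of_nonneg_left h.2 (sq_nonneg e)⟩

theorem cP_nonneg : 0 ≤ cP e A := mul_nonneg (sq_nonneg e) (clP_nonneg (inv_symm hA e))

theorem cP_le : 2 * cP e A ≤ (A * A).trace := by
  rw [A_mul_A_eq he hA, trace_smul, smul_eq_mul, cP]
  nlinarith [clP_le (inv_symm hA e), sq_nonneg e,
    mul_le_mul_of_nonneg_left (clP_le (inv_symm hA e)) (sq_nonneg e)]

theorem trace_cF_sq_le_cP : (cF e A * cF e A).trace ≤ 2 * cP e A := by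
  rw [cF_mul_eq he hA, trace_smul, smul_eq_mul, cP]
  nlinarith [mul_le_mul_of_nonneg_left (trace_clF_sq_le_clP (inv_symm hA e)) (sq_nonneg e)]

theorem cP_le_trace_mul : cP e A ≤ (A * cF e A).trace := by
  rw [A_mul_cF_eq he hA, trace_smul, smul_eq_mul, cP]
  exact mul_le_mul_of_nonneg_left (clP_le_trace_mul (inv_symm hA e)) (sq_nonneg e)

theorem cF_entry_le (i j : Fin n) : |cF e A i j| ≤ e := by
  rw [cF, Matrix.smul_apply, smul_eq_mul, abs_mul, abs_of_pos he]
  exact mul_le_of_le_one_right he.le (clF_entry_le (inv_symm hA e) i j)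

end Scaled

/-! ### smoothness -/

section Smooth

open scoped Matrix.Norms.Operator

theorem contDiff_cF {k : WithTop ℕ∞} (e : ℝ) : ContDiff ℝ k (cF e : Mt n → Mt n) :=
  (contDiff_clF.comp (contDiff_id.const_smul e⁻¹)).const_smul e

theorem contDiff_cP {k : WithTop ℕ∞} (e : ℝ) : ContDiff ℝ k (cP e : Mt n → ℝ) :=
  contDiff_const.mul (contDiff_clP.comp (contDiff_id.const_smul e⁻¹))

/-- entries of `cF e ∘ U` are as smooth as the entries of `U` -/
theorem cF_field_contDiff {X : Type*} [NormedAddCommGroup X] [NormedSpace ℝ X] {U : X → Mt n}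
    {k : WithTop ℕ∞} (e : ℝ) (hU : ∀ i j, ContDiff ℝ k (fun y => U y i j)) (i j : Fin n) :
    ContDiff ℝ k (fun y => cF e (U y) i j) :=
  entry_contDiff ((contDiff_cF e).comp (contDiff_of_entries hU)) i j

theorem cP_field_contDiff {X : Type*} [NormedAddCommGroup X] [NormedSpace ℝ X] {U : X → Mt n}
    {k : WithTop ℕ∞} (e : ℝ) (hU : ∀ i j, ContDiff ℝ k (fun y => U y i j)) :
    ContDiff ℝ k (fun y => cP e (U y)) :=
  (contDiff_cP e).comp (contDiff_of_entries hU)

/-- derivative of the scaled clip -/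
noncomputable def dcF (e : ℝ) (A B : Mt n) : Mt n := dF (e⁻¹ • A) B

/-- **first-order facts of the scaled clip**: `A`, `B` symmetric -/
theorem dcF_facts (e : ℝ) {A B : Mt n} (hA : Aᵀ = A) (hB : Bᵀ = B) :
    (dcF e A B)ᵀ = dcF e A B ∧ hs (dcF e A B) ≤ (dcF e A B * B).trace ∧
      (dcF e A B * B).trace ≤ hs B := by
  have h := der (inv_symm hA e) hB
  have h2 := h.hs_le (inv_symm hA e)
  rw [hB] at h2
  exact ⟨h.symmF (inv_symm hA e) hB, h2.1, h2.2⟩

theorem hasFDerivAt_cF {e : ℝ} (he : 0 < e) (A B : Mt n) :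
    fderiv ℝ (cF e : Mt n → Mt n) A B = dcF e A B := by
  have h1 : HasFDerivAt (fun A : Mt n => e⁻¹ • A) (e⁻¹ • ContinuousLinearMap.id ℝ (Mt n)) A :=
    (hasFDerivAt_id A).const_smul e⁻¹
  have h2 := ((diff_clF (n := n) (e⁻¹ • A)).hasFDerivAt.comp A h1).const_smul e
  have h3 : HasFDerivAt (cF e : Mt n → Mt n) (e • ((fderiv ℝ (clF : Mt n → Mt n) (e⁻¹ • A)).comp
    (e⁻¹ • ContinuousLinearMap.id ℝ (Mt n)))) A := h2
  rw [h3.fderiv]
  change e • (fderiv ℝ (clF : Mt n → Mt n) (e⁻¹ • A)) (e⁻¹ • B) = _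
  rw [map_smul, smul_smul, mul_inv_cancel₀ he.ne', one_smul]
  rfl

theorem fderiv_cP {e : ℝ} (he : 0 < e) {A B : Mt n} (hA : Aᵀ = A) (hB : Bᵀ = B) :
    fderiv ℝ (cP e : Mt n → ℝ) A B = (cF e A * B).trace := by
  have h1 : HasFDerivAt (fun A : Mt n => e⁻¹ • A) (e⁻¹ • ContinuousLinearMap.id ℝ (Mt n)) A :=
    (hasFDerivAt_id A).const_smul e⁻¹
  have h2 := ((diff_clP (n := n) (e⁻¹ • A)).hasFDerivAt.comp A h1).const_mul (e ^ 2)
  have h3 : HasFDerivAt (cP e : Mt n → ℝ) (e ^ 2 • ((fderiv ℝ (clP : Mt n → ℝ) (e⁻¹ • A)).comp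
    (e⁻¹ • ContinuousLinearMap.id ℝ (Mt n)))) A := h2
  rw [h3.fderiv]
  change e ^ 2 • (fderiv ℝ (clP : Mt n → ℝ) (e⁻¹ • A)) (e⁻¹ • B) = _
  rw [fderiv_clP (inv_symm hA e) (inv_symm hB e), cF, smul_mul_assoc, trace_smul, mul_smul_comm,
    trace_smul, smul_eq_mul, smul_eq_mul, smul_eq_mul]
  have := he.ne'
  field_simp

theorem diff_cF (e : ℝ) : Differentiable ℝ (cF e : Mt n → Mt n) :=
  (contDiff_cF (k := 1) e).differentiable (by simp)

theorem diff_cP (e : ℝ) : Differentiable ℝ (cP e : Mt n → ℝ) :=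
  (contDiff_cP (k := 1) e).differentiable (by simp)

/-! ### curves (time derivative) -/

theorem curve_fderiv {U : ℝ → Mt n} {U' : Mt n} {t : ℝ}
    (hU : ∀ i j, HasDerivAt (fun s => U s i j) (U' i j) t) :
    DifferentiableAt ℝ U t ∧ fderiv ℝ U t 1 = U' := by
  have hd : DifferentiableAt ℝ U t := diffAt_of_entries fun i j => (hU i j).differentiableAt
  refine ⟨hd, ?_⟩
  ext i j
  rw [← fderiv_entry hd]
  exact (hU i j).deriv

theorem symm_of_curve {U : ℝ → Mt n} {U' : Mt n} {t : ℝ}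
    (hU : ∀ i j, HasDerivAt (fun s => U s i j) (U' i j) t) (hs : ∀ s, (U s)ᵀ = U s) : U'ᵀ = U' := by
  obtain ⟨h1, h2⟩ := curve_fderiv hU
  rw [← h2]
  exact fderiv_symm h1 hs 1

theorem hasDerivAt_cP {e : ℝ} (he : 0 < e) {U : ℝ → Mt n} {U' : Mt n} {t : ℝ}
    (hU : ∀ i j, HasDerivAt (fun s => U s i j) (U' i j) t) (hs : ∀ s, (U s)ᵀ = U s) :
    HasDerivAt (fun s => cP e (U s)) ((cF e (U t) * U').trace) t := by
  obtain ⟨h1, h2⟩ := curve_fderiv hU
  have h3 := (diff_cP (n := n) e (U t)).hasFDerivAt.comp t h1.hasFDerivAt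
  have h4 := h3.hasDerivAt
  have h5 : ((fderiv ℝ (cP e : Mt n → ℝ) (U t)).comp (fderiv ℝ U t)) 1
      = (cF e (U t) * U').trace := by
    change fderiv ℝ (cP e : Mt n → ℝ) (U t) (fderiv ℝ U t 1) = _
    rw [h2, fderiv_cP he (hs t) (symm_of_curve hU hs)]
  exact h4.congr_deriv h5

theorem hasDerivAt_cF {e : ℝ} (he : 0 < e) {U : ℝ → Mt n} {U' : Mt n} {t : ℝ}
    (hU : ∀ i j, HasDerivAt (fun s => U s i j) (U' i j) t) (i j : Fin n) :
    HasDerivAt (fun s => cF e (U s) i j) (dcF e (U t) U' i j) t := by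
  obtain ⟨h1, h2⟩ := curve_fderiv hU
  have h3 := (MX354.entryL i j).hasFDerivAt.comp t
    ((diff_cF (n := n) e (U t)).hasFDerivAt.comp t h1.hasFDerivAt)
  have h4 := h3.hasDerivAt
  have h5 : ((MX354.entryL i j).comp ((fderiv ℝ (cF e : Mt n → Mt n) (U t)).comp
      (fderiv ℝ U t))) 1 = dcF e (U t) U' i j := by
    change (fderiv ℝ (cF e : Mt n → Mt n) (U t) (fderiv ℝ U t 1)) i j = _
    rw [h2, hasFDerivAt_cF he]
  exact h4.congr_deriv h5

/-! ### fields on `E n` -/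

section Field

variable {U : E n → Mt n}

theorem pdM_eq (hU : ∀ i j, Differentiable ℝ (fun y => U y i j)) (k : Fin n) (x : E n) :
    pdM k U x = fderiv ℝ U x (EuclideanSpace.single k (1 : ℝ)) := by
  have hd : DifferentiableAt ℝ U x := diffAt_of_entries fun i j => hU i j x
  ext i j
  rw [← fderiv_entry hd]
  rfl

theorem pdM_symm (hs : ∀ y, (U y)ᵀ = U y) (k : Fin n) (x : E n) : (pdM k U x)ᵀ = pdM k U x := by
  ext i j
  simp only [transpose_apply, pdM, Matrix.of_apply]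
  congr 1
  funext y
  exact congrFun (congrFun (hs y) i) j

theorem pdM_cF {e : ℝ} (he : 0 < e) (hU : ∀ i j, Differentiable ℝ (fun y => U y i j))
    (k : Fin n) (x : E n) : pdM k (fun y => cF e (U y)) x = dcF e (U x) (pdM k U x) := by
  have hd : DifferentiableAt ℝ U x := diffAt_of_entries fun i j => hU i j x
  have h3 := (diff_cF (n := n) e (U x)).hasFDerivAt.comp x hd.hasFDerivAt
  have h4 : HasFDerivAt (fun y => cF e (U y)) ((fderiv ℝ (cF e : Mt n → Mt n) (U x)).comp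
    (fderiv ℝ U x)) x := h3
  ext i j
  have h5 := fderiv_entry h4.differentiableAt (EuclideanSpace.single k (1 : ℝ)) i j
  rw [h4.fderiv, ContinuousLinearMap.comp_apply, hasFDerivAt_cF he, ← pdM_eq hU] at h5
  exact h5

/-- **the pointwise comparison** `|D_k S|² ≤ ⟨D_k S, D_k U⟩ ≤ |D_k U|²`, `S = cF e U` -/
theorem pdM_cF_facts {e : ℝ} (he : 0 < e) (hU : ∀ i j, Differentiable ℝ (fun y => U y i j))
    (hs' : ∀ y, (U y)ᵀ = U y) (k : Fin n) (x : E n) :
    hs (pdM k (fun y => cF e (U y)) x) ≤ (pdM k (fun y => cF e (U y)) x * pdM k U x).trace ∧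
    (pdM k (fun y => cF e (U y)) x * pdM k U x).trace ≤ hs (pdM k U x) := by
  rw [pdM_cF he hU]
  exact (dcF_facts e (hs' x) (pdM_symm hs' k x)).2

theorem pd_cP {e : ℝ} (he : 0 < e) (hU : ∀ i j, Differentiable ℝ (fun y => U y i j))
    (hs' : ∀ y, (U y)ᵀ = U y) (k : Fin n) (x : E n) :
    pd k (fun y => cP e (U y)) x = (cF e (U x) * pdM k U x).trace := by
  have hd : DifferentiableAt ℝ U x := diffAt_of_entries fun i j => hU i j x
  have h3 := (diff_cP (n := n) e (U x)).hasFDerivAt.comp x hd.hasFDerivAt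
  have h4 : HasFDerivAt (fun y => cP e (U y)) ((fderiv ℝ (cP e : Mt n → ℝ) (U x)).comp
    (fderiv ℝ U x)) x := h3
  rw [pd, h4.fderiv, ContinuousLinearMap.comp_apply, ← pdM_eq hU,
    fderiv_cP he (hs' x) (pdM_symm hs' k x)]

/-- second derivative of the potential -/
theorem pd_pd_cP {e : ℝ} (he : 0 < e) (hU : ∀ i j, ContDiff ℝ 2 (fun y => U y i j))
    (hs' : ∀ y, (U y)ᵀ = U y) (k l : Fin n) (x : E n) :
    pd l (fun z => pd k (fun y => cP e (U y)) z) x
      = (pdM l (fun y => cF e (U y)) x * pdM k U x).trace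
        + (cF e (U x) * pdM l (pdM k U) x).trace := by
  have hU1 : ∀ i j, Differentiable ℝ (fun y => U y i j) := fun i j =>
    (hU i j).differentiable (by simp)
  have hF : ∀ i j, Differentiable ℝ (fun y => cF e (U y) i j) := fun i j =>
    (cF_field_contDiff e (fun i j => (hU i j).of_le (by simp)) i j :
      ContDiff ℝ 1 _).differentiable (by simp)
  have hP : ∀ i j, Differentiable ℝ (fun y => pdM k U y i j) := by
    intro i j
    have h1 : ContDiff ℝ 1 (fun y => fderiv ℝ (fun y => U y i j) y) :=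
      (hU i j).fderiv_right (by norm_num)
    have h2 : ContDiff ℝ 1 (fun y => pdM k U y i j) := h1.clm_apply contDiff_const
    exact h2.differentiable (by simp)
  have e1 : (fun z => pd k (fun y => cP e (U y)) z)
      = fun z => ∑ i, ∑ j, cF e (U z) i j * pdM k U z j i := by
    funext z
    rw [pd_cP he hU1 hs']
    simp only [Matrix.trace, Matrix.diag_apply, Matrix.mul_apply]
  rw [e1, Tw807.pd_sum _ l fun i _ => DifferentiableAt.fun_sum fun j _ =>
    (hF i j x).fun_mul (hP j i x)]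
  simp only [Matrix.trace, Matrix.diag_apply, Matrix.mul_apply]
  rw [← Finset.sum_add_distrib]
  refine Finset.sum_congr rfl fun i _ => ?_
  rw [Tw807.pd_sum _ l fun j _ => (hF i j x).fun_mul (hP j i x), ← Finset.sum_add_distrib]
  refine Finset.sum_congr rfl fun j _ => ?_
  rw [Tw807.pd_mul l (hF i j x) (hP j i x)]
  simp only [pdM, Matrix.of_apply]
  exact add_comm _ _

/-- `cF e ∘ U` is `CB` as soon as `U` is symmetric, `C¹` with bounded derivative
(`U` itself may be unbounded) -/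
theorem cF_CB {e : ℝ} (he : 0 < e) (hU : ∀ i j, ContDiff ℝ 1 (fun y => U y i j))
    (hs' : ∀ y, (U y)ᵀ = U y) {B : ℝ} (hB : ∀ x k i j, |pd k (fun y => U y i j) x| ≤ B)
    (p : Fin n × Fin n) : CB (famM (fun x => cF e (U x)) p) := by
  have hU1 : ∀ i j, Differentiable ℝ (fun y => U y i j) := fun i j =>
    (hU i j).differentiable (by simp)
  obtain ⟨i, j⟩ := p
  rw [Tw807.cb_iff]
  refine ⟨cF_field_contDiff e hU i j, ⟨e, fun x => cF_entry_le he (hs' x) i j⟩, fun k => ?_⟩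
  refine ⟨1 + ∑ a : Fin n, ∑ b : Fin n, B ^ 2, fun x => ?_⟩
  have h1 := pdM_cF_facts he hU1 hs' k x
  have h2 : (pd k (fun y => cF e (U y) i j) x) ^ 2 ≤ hs (pdM k (fun y => cF e (U y)) x) :=
    MX354.sq_le_hs (pdM k (fun y => cF e (U y)) x) i j
  have h3 : hs (pdM k U x) ≤ ∑ a : Fin n, ∑ b : Fin n, B ^ 2 := by
    refine Finset.sum_le_sum fun a _ => Finset.sum_le_sum fun b _ => ?_
    rw [← sq_abs]
    exact pow_le_pow_left₀ (abs_nonneg _) (hB x k a b) 2
  show |pd k (fun y => cF e (U y) i j) x| ≤ _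
  have h5 : |pd k (fun y => cF e (U y) i j) x| ≤ 1 + (pd k (fun y => cF e (U y) i j) x) ^ 2 := by
    rw [← sq_abs]
    nlinarith [sq_nonneg (|pd k (fun y => cF e (U y) i j) x| - 1),
      abs_nonneg (pd k (fun y => cF e (U y) i j) x)]
  linarith [h1.1, h1.2]

end Field

/-! ### the field `b(U) = F²` -/

theorem hs_mul_le_of_sq {c : ℝ} {D S : Mt n} (hS : Sᵀ = S) (h : LeQ (S * S) (c • (1 : Mt n))) :
    hs (D * S) ≤ c * hs D := by
  have h1 : (D * (S * S) * Dᵀ).trace ≤ (D * (c • (1 : Mt n)) * Dᵀ).trace := by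
    have h2 := NB152.trace_sq_nonneg (NB152.leq_sub.1 h) Dᵀ
    rw [transpose_transpose, Matrix.mul_sub, Matrix.sub_mul, trace_sub] at h2
    linarith
  have h3 : hs (D * S) = (D * (S * S) * Dᵀ).trace := by
    rw [MX354.hs_eq_trace, transpose_mul, hS]
    simp only [Matrix.mul_assoc]
  have h4 : (D * (c • (1 : Mt n)) * Dᵀ).trace = c * hs D := by
    rw [MX354.hs_eq_trace, mul_smul_comm, smul_mul_assoc, trace_smul, Matrix.mul_one, smul_eq_mul]
  rw [h3, ← h4]
  exact h1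

/-- `|D(S²)|² ≤ 4 c |DS|²` if `S² ≤ c` -/
theorem hs_anti_le {c : ℝ} {D S : Mt n} (hS : Sᵀ = S) (hD : Dᵀ = D)
    (h : LeQ (S * S) (c • (1 : Mt n))) : hs (D * S + S * D) ≤ 4 * c * hs D := by
  have h1 := NB152.hs_add_le (D * S) (S * D)
  have h2 := hs_mul_le_of_sq (D := D) hS h
  have h3 : hs (S * D) = hs (D * S) := by
    rw [← MX354.hs_transpose, transpose_mul, hS, hD]
  rw [h3] at h1
  linarith

end Smooth

end Crest.Agent.R201.Clip78
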