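import Crest.Agent.R201.Clip3_78

/-!
# R201, LSI half, CLIP block (helper78), part 4: the NON-SYMMETRIC clip
`cF e M = M (1 + e⁻² MᵀM)^{-1/2}`, all facts on `Mt n`, through the dilation `[[0, M], [Mᵀ, 0]]`.
-/

set_option autoImplicit false
set_option linter.unusedSectionVars false
open Matrix

namespace Crest.Agent.R201.Clip78

open Crest.Agent.R201

variable {n : ℕ}

/-! ### the dilation -/

/-- the Hermitian dilation -/
def dl (M : Mt n) : Matrix (Fin n ⊕ Fin n) (Fin n ⊕ Fin n) ℝ := fromBlocks 0 M Mᵀ 0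

theorem dl_symm (M : Mt n) : (dl M)ᵀ = dl M := by
  simp [dl, fromBlocks_transpose]

theorem dl_mul (M N : Mt n) : dl M * dl N = fromBlocks (M * Nᵀ) 0 0 (Mᵀ * N) := by
  simp [dl, fromBlocks_multiply]

theorem sum_sum_eq (f : Fin n ⊕ Fin n → ℝ) : ∑ i, f i = ∑ i, f (Sum.inl i) + ∑ i, f (Sum.inr i) :=
  Fintype.sum_sum_type f

theorem trace_blocks (A B C D : Mt n) : (fromBlocks A B C D).trace = A.trace + D.trace := by
  simp [Matrix.trace, Fintype.sum_sum_type]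

theorem hs_blocks (A B C D : Mt n) : hs (fromBlocks A B C D) = hs A + hs B + (hs C + hs D) := by
  simp only [hs, Fintype.sum_sum_type, fromBlocks_apply₁₁, fromBlocks_apply₁₂, fromBlocks_apply₂₁,
    fromBlocks_apply₂₂, Finset.sum_add_distrib]
  ring

theorem hs_zero : hs (0 : Mt n) = 0 := by simp [hs]

theorem hs_dl (M : Mt n) : hs (dl M) = 2 * hs M := by
  rw [dl, hs_blocks, hs_zero, MX354.hs_transpose]; ring

theorem trace_dl (M N : Mt n) : (dl M * (dl N)ᵀ).trace = 2 * (M * Nᵀ).trace := by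
  rw [dl_symm, dl_mul, trace_blocks]
  have : (Mᵀ * N).trace = (M * Nᵀ).trace := by
    rw [← trace_transpose, transpose_mul, transpose_transpose, Matrix.trace_mul_comm]
  rw [this]; ring

/-- quadratic forms of block diagonal matrices -/
theorem form_blocks (A D : Mt n) (u v : Fin n → ℝ) :
    (Sum.elim u v) ⬝ᵥ ((fromBlocks A 0 0 D) *ᵥ (Sum.elim u v)) = u ⬝ᵥ (A *ᵥ u) + v ⬝ᵥ (D *ᵥ v) := by
  rw [fromBlocks_mulVec]
  simp only [Sum.elim_comp_inl, Sum.elim_comp_inr, zero_mulVec, add_zero, zero_add, dotProduct,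
    Fintype.sum_sum_type, Sum.elim_inl, Sum.elim_inr]

theorem leQ_blocks {A D A' D' : Mt n}
    (h : LeQ (fromBlocks A 0 0 D) (fromBlocks A' 0 0 D')) : LeQ A A' ∧ LeQ D D' := by
  constructor
  · intro u
    have := h (Sum.elim u 0)
    rw [form_blocks, form_blocks] at this
    simpa using this
  · intro u
    have := h (Sum.elim 0 u)
    rw [form_blocks, form_blocks] at this
    simpa using this

theorem psd_blocks {A D : Mt n} (hA : A.PosSemidef) (hD : D.PosSemidef) :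
    (fromBlocks A 0 0 D).PosSemidef := by
  refine PosSemidef.of_dotProduct_mulVec_nonneg ?_ ?_
  · rw [IsHermitian, conjTranspose_eq_transpose_of_trivial, fromBlocks_transpose,
      MX354.posSemidef_transpose hA, MX354.posSemidef_transpose hD, transpose_zero]
  · intro x
    have e : x = Sum.elim (fun i => x (Sum.inl i)) (fun i => x (Sum.inr i)) := by
      funext i; cases i <;> rfl
    rw [star_trivial, e, form_blocks]
    have h1 := hA.dotProduct_mulVec_nonneg (fun i => x (Sum.inl i))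
    have h2 := hD.dotProduct_mulVec_nonneg (fun i => x (Sum.inr i))
    rw [star_trivial] at h1 h2
    linarith

theorem one_blocks : (1 : Matrix (Fin n ⊕ Fin n) (Fin n ⊕ Fin n) ℝ) = fromBlocks 1 0 0 1 :=
  fromBlocks_one.symm

theorem clZ_dl (M : Mt n) : clZ (dl M) = fromBlocks (clZ Mᵀ) 0 0 (clZ M) := by
  refine MX354.rt_unique (psd_blocks (clZ_psd _) (clZ_psd _)) ?_
  rw [dl_symm, dl_mul, one_blocks, fromBlocks_add, fromBlocks_multiply]
  simp only [Matrix.mul_zero, Matrix.zero_mul, add_zero, zero_add, clZ_sq, transpose_transpose]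

theorem clF_dl_aux (M : Mt n) : clF (dl M) = fromBlocks 0 (clF M) (clF Mᵀ) 0 := by
  have h : (clZ (dl M))⁻¹ = fromBlocks (clZ Mᵀ)⁻¹ 0 0 (clZ M)⁻¹ := by
    refine Matrix.inv_eq_right_inv ?_
    rw [clZ_dl, fromBlocks_multiply, one_blocks]
    simp only [Matrix.mul_zero, Matrix.zero_mul, add_zero, zero_add, clZ_mul_inv]
  rw [clF, h, dl, fromBlocks_multiply]
  simp only [Matrix.mul_zero, Matrix.zero_mul, add_zero, zero_add]
  rfl

/-- (N0) the clip commutes with transposition -/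
theorem clF_transpose (M : Mt n) : clF Mᵀ = (clF M)ᵀ := by
  have h := clF_symm (dl_symm M)
  rw [clF_dl_aux, fromBlocks_transpose, fromBlocks_inj] at h
  exact h.2.2.1.symm

theorem clF_dl (M : Mt n) : clF (dl M) = dl (clF M) := by
  rw [clF_dl_aux, clF_transpose]; rfl

theorem clF_zero : clF (0 : Mt n) = 0 := by rw [clF, Matrix.zero_mul]

/-! ### unscaled bounds -/

theorem FFt_le_one (M : Mt n) : LeQ (clF M * (clF M)ᵀ) 1 ∧ LeQ ((clF M)ᵀ * clF M) 1 := by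
  have h := clF_sq_le_one (dl_symm M)
  rw [clF_dl, dl_mul, one_blocks] at h
  exact leQ_blocks h

theorem FFt_le_MFt (M : Mt n) :
    LeQ (clF M * (clF M)ᵀ) (M * (clF M)ᵀ) ∧ LeQ ((clF M)ᵀ * clF M) (Mᵀ * clF M) := by
  have h := clF_sq_le_mul (dl_symm M)
  rw [clF_dl, dl_mul, dl_mul] at h
  exact leQ_blocks h

theorem MFt_le_MMt (M : Mt n) :
    LeQ (M * (clF M)ᵀ) (M * Mᵀ) ∧ LeQ (Mᵀ * clF M) (Mᵀ * M) := by
  have h := mul_clF_le_sq (dl_symm M)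
  rw [clF_dl, dl_mul, dl_mul] at h
  exact leQ_blocks h

theorem MFt_symm (M : Mt n) : (M * (clF M)ᵀ)ᵀ = M * (clF M)ᵀ ∧ (Mᵀ * clF M)ᵀ = Mᵀ * clF M := by
  have h := mul_clF_symm (dl_symm M)
  rw [clF_dl, dl_mul, fromBlocks_transpose, fromBlocks_inj] at h
  exact ⟨h.1, h.2.2.2⟩

theorem MMt_sub_FFt (M : Mt n) :
    M * Mᵀ - clF M * (clF M)ᵀ = M * Mᵀ * (clF M * (clF M)ᵀ) ∧
      Mᵀ * M - (clF M)ᵀ * clF M = Mᵀ * M * ((clF M)ᵀ * clF M) := by
  have h := sq_sub_clF_sq (dl_symm M)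
  rw [clF_dl, dl_mul, dl_mul, fromBlocks_multiply] at h
  have e : fromBlocks (M * Mᵀ) 0 0 (Mᵀ * M) - fromBlocks (clF M * (clF M)ᵀ) 0 0 ((clF M)ᵀ * clF M)
      = fromBlocks (M * Mᵀ - clF M * (clF M)ᵀ) 0 0 (Mᵀ * M - (clF M)ᵀ * clF M) := by
    rw [sub_eq_add_neg, fromBlocks_neg, fromBlocks_add]
    simp [sub_eq_add_neg]
  rw [e, fromBlocks_inj] at h
  simp only [Matrix.mul_zero, add_zero, zero_add] at h
  exact ⟨h.1, h.2.2.2⟩

theorem trace_FFt_four (M : Mt n) :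
    (clF M * (clF M)ᵀ * (clF M * (clF M)ᵀ)).trace ≤ (clF M * (clF M)ᵀ).trace := by
  have h := trace_clF_four (dl_symm M)
  rw [clF_dl, dl_mul, fromBlocks_multiply, trace_blocks, trace_blocks] at h
  simp only [Matrix.mul_zero, add_zero, zero_add] at h
  have e1 : ((clF M)ᵀ * clF M).trace = (clF M * (clF M)ᵀ).trace := Matrix.trace_mul_comm _ _
  have e2 : ((clF M)ᵀ * clF M * ((clF M)ᵀ * clF M)).trace
      = (clF M * (clF M)ᵀ * (clF M * (clF M)ᵀ)).trace := by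
    rw [Matrix.mul_assoc, Matrix.trace_mul_comm, Matrix.mul_assoc, Matrix.mul_assoc]
    simp only [Matrix.mul_assoc]
  rw [e1, e2] at h
  linarith

/-! ### the scaled clip -/

/-- (N0) -/
theorem cF_transpose (e : ℝ) (M : Mt n) : cF e Mᵀ = (cF e M)ᵀ := by
  rw [cF, cF, transpose_smul, ← clF_transpose, transpose_smul]

theorem cF_zero (e : ℝ) : cF e (0 : Mt n) = 0 := by
  rw [cF, smul_zero, clF_zero, smul_zero]

section Scaled

variable {e : ℝ} (he : 0 < e) (M : Mt n)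
include he

theorem cFt_mul : cF e M * (cF e M)ᵀ = e ^ 2 • (clF (e⁻¹ • M) * (clF (e⁻¹ • M))ᵀ) := by
  rw [cF, transpose_smul, smul_mul_smul_comm, ← sq]

theorem cFt_mul' : (cF e M)ᵀ * cF e M = e ^ 2 • ((clF (e⁻¹ • M))ᵀ * clF (e⁻¹ • M)) := by
  rw [cF, transpose_smul, smul_mul_smul_comm, ← sq]

theorem M_mul_cFt : M * (cF e M)ᵀ = e ^ 2 • ((e⁻¹ • M) * (clF (e⁻¹ • M))ᵀ) := by
  have h1 : M = e • (e⁻¹ • M) := (smul_inv_smul he M).symm
  calc M * (cF e M)ᵀ = (e • (e⁻¹ • M)) * (e • (clF (e⁻¹ • M))ᵀ) := by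
        rw [← h1, cF, transpose_smul]
    _ = _ := by rw [smul_mul_smul_comm, ← sq]

theorem Mt_mul_cF : Mᵀ * cF e M = e ^ 2 • ((e⁻¹ • M)ᵀ * clF (e⁻¹ • M)) := by
  have h1 : M = e • (e⁻¹ • M) := (smul_inv_smul he M).symm
  calc Mᵀ * cF e M = (e • (e⁻¹ • M))ᵀ * (e • clF (e⁻¹ • M)) := by
        rw [← h1]; rfl
    _ = _ := by rw [transpose_smul, smul_mul_smul_comm, ← sq]

theorem MMt_eq : M * Mᵀ = e ^ 2 • ((e⁻¹ • M) * (e⁻¹ • M)ᵀ) := by
  have h1 : M = e • (e⁻¹ • M) := (smul_inv_smul he M).symm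
  calc M * Mᵀ = (e • (e⁻¹ • M)) * (e • (e⁻¹ • M))ᵀ := by rw [← h1]
    _ = _ := by rw [transpose_smul, smul_mul_smul_comm, ← sq]

theorem MtM_eq : Mᵀ * M = e ^ 2 • ((e⁻¹ • M)ᵀ * (e⁻¹ • M)) := by
  have h1 : M = e • (e⁻¹ • M) := (smul_inv_smul he M).symm
  calc Mᵀ * M = (e • (e⁻¹ • M))ᵀ * (e • (e⁻¹ • M)) := by rw [← h1]
    _ = _ := by rw [transpose_smul, smul_mul_smul_comm, ← sq]

/-- (N3) `F Fᵀ ≤ e²` -/
theorem cFt_le : LeQ (cF e M * (cF e M)ᵀ) (e ^ 2 • (1 : Mt n)) := by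
  rw [cFt_mul he]; exact leQ_smul (sq_nonneg e) (FFt_le_one _).1

/-- (N3) `Fᵀ F ≤ e²` -/
theorem cFt_le' : LeQ ((cF e M)ᵀ * cF e M) (e ^ 2 • (1 : Mt n)) := by
  rw [cFt_mul' he]; exact leQ_smul (sq_nonneg e) (FFt_le_one _).2

/-- (N3) `F Fᵀ ≤ M Fᵀ` -/
theorem cFt_le_MFt : LeQ (cF e M * (cF e M)ᵀ) (M * (cF e M)ᵀ) := by
  rw [cFt_mul he, M_mul_cFt he]; exact leQ_smul (sq_nonneg e) (FFt_le_MFt _).1

theorem cFt_le_MFt' : LeQ ((cF e M)ᵀ * cF e M) (Mᵀ * cF e M) := by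
  rw [cFt_mul' he, Mt_mul_cF he]; exact leQ_smul (sq_nonneg e) (FFt_le_MFt _).2

/-- (N3) `M Fᵀ ≤ M Mᵀ` -/
theorem MFt_le : LeQ (M * (cF e M)ᵀ) (M * Mᵀ) := by
  rw [M_mul_cFt he, MMt_eq he]; exact leQ_smul (sq_nonneg e) (MFt_le_MMt _).1

theorem MFt_le' : LeQ (Mᵀ * cF e M) (Mᵀ * M) := by
  rw [Mt_mul_cF he, MtM_eq he]; exact leQ_smul (sq_nonneg e) (MFt_le_MMt _).2

theorem MFt_tr : (M * (cF e M)ᵀ)ᵀ = M * (cF e M)ᵀ := by
  rw [M_mul_cFt he, transpose_smul, (MFt_symm _).1]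

theorem MtF_tr : (Mᵀ * cF e M)ᵀ = Mᵀ * cF e M := by
  rw [Mt_mul_cF he, transpose_smul, (MFt_symm _).2]

/-- `F Mᵀ = M Fᵀ` -/
theorem cF_mul_Mt : cF e M * Mᵀ = M * (cF e M)ᵀ := by
  have h := MFt_tr he M
  rwa [transpose_mul, transpose_transpose] at h

omit he in
theorem FFt_tr (F : Mt n) : (F * Fᵀ)ᵀ = F * Fᵀ := by
  rw [transpose_mul, transpose_transpose]

omit he in
theorem FtF_tr (F : Mt n) : (Fᵀ * F)ᵀ = Fᵀ * F := by
  rw [transpose_mul, transpose_transpose]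

omit he in
theorem FFt_nonneg (F : Mt n) : LeQ 0 (F * Fᵀ) := by
  have h := MX354.posSemidef_mul_transpose F
  refine MX354.PosSemidef.leQ ?_
  rwa [sub_zero]

omit he in
theorem FtF_nonneg (F : Mt n) : LeQ 0 (Fᵀ * F) := by
  have := FFt_nonneg Fᵀ
  rwa [transpose_transpose] at this

/-- (N3) traces against a form-nonnegative `V` -/
theorem trace_V_FFt {V : Mt n} (hV : LeQ 0 V) :
    0 ≤ (V * (cF e M * (cF e M)ᵀ)).trace ∧
    (V * (cF e M * (cF e M)ᵀ)).trace ≤ (V * (M * (cF e M)ᵀ)).trace := by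
  constructor
  · have := trace_mul_mono hV (X := 0) (by simp) (FFt_tr (cF e M)) (FFt_nonneg (cF e M))
    simpa using this
  · exact trace_mul_mono hV (FFt_tr _) (MFt_tr he M) (cFt_le_MFt he M)

/-- (N4) `M Mᵀ - F Fᵀ = e⁻² M Mᵀ F Fᵀ` -/
theorem MMt_sub : M * Mᵀ - cF e M * (cF e M)ᵀ
    = (e ^ 2)⁻¹ • (M * Mᵀ * (cF e M * (cF e M)ᵀ)) := by
  have he2 : (e ^ 2)⁻¹ * (e ^ 2 * e ^ 2) = e ^ 2 := by
    have := he.ne'
    field_simp
  have h3 : M * Mᵀ - cF e M * (cF e M)ᵀ = e ^ 2 • ((e⁻¹ • M) * (e⁻¹ • M)ᵀ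
      - clF (e⁻¹ • M) * (clF (e⁻¹ • M))ᵀ) := by
    rw [smul_sub, ← MMt_eq he, ← cFt_mul he]
  have h4 : M * Mᵀ * (cF e M * (cF e M)ᵀ) = (e ^ 2 * e ^ 2) • ((e⁻¹ • M) * (e⁻¹ • M)ᵀ
      * (clF (e⁻¹ • M) * (clF (e⁻¹ • M))ᵀ)) := by
    rw [← smul_mul_smul_comm, ← MMt_eq he, ← cFt_mul he]
  rw [h3, h4, (MMt_sub_FFt _).1, smul_smul, he2]

/-- (N4) in Hilbert–Schmidt norms -/
theorem hs_sub_hs : hs M - hs (cF e M) = (e ^ 2)⁻¹ * (M * Mᵀ * (cF e M * (cF e M)ᵀ)).trace := by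
  rw [MX354.hs_eq_trace, MX354.hs_eq_trace, ← trace_sub, MMt_sub he, trace_smul, smul_eq_mul]

/-- (N5) -/
theorem trace_cFt_four :
    (cF e M * (cF e M)ᵀ * (cF e M * (cF e M)ᵀ)).trace ≤ e ^ 2 * (cF e M * (cF e M)ᵀ).trace := by
  rw [cFt_mul he, smul_mul_smul_comm, trace_smul, trace_smul, smul_eq_mul, smul_eq_mul]
  have h := mul_le_mul_of_nonneg_left (trace_FFt_four (e⁻¹ • M)) (by positivity : 0 ≤ e ^ 2 * e ^ 2)
  linarith

end Scaled

/-- `|D S|² ≤ c |D|²` if `S Sᵀ ≤ c` -/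
theorem hs_mul_le_of {c : ℝ} {D S : Mt n} (h : LeQ (S * Sᵀ) (c • (1 : Mt n))) :
    hs (D * S) ≤ c * hs D := by
  have h1 : (D * (S * Sᵀ) * Dᵀ).trace ≤ (D * (c • (1 : Mt n)) * Dᵀ).trace := by
    have h2 := NB152.trace_sq_nonneg (NB152.leq_sub.1 h) Dᵀ
    rw [transpose_transpose, Matrix.mul_sub, Matrix.sub_mul, trace_sub] at h2
    linarith
  have h3 : hs (D * S) = (D * (S * Sᵀ) * Dᵀ).trace := by
    rw [MX354.hs_eq_trace, transpose_mul]
    simp only [Matrix.mul_assoc]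
  have h4 : (D * (c • (1 : Mt n)) * Dᵀ).trace = c * hs D := by
    rw [MX354.hs_eq_trace, mul_smul_comm, smul_mul_assoc, trace_smul, Matrix.mul_one, smul_eq_mul]
  rw [h3, ← h4]
  exact h1

/-- `|S D|² ≤ c |D|²` if `SᵀS ≤ c` -/
theorem hs_mul_le_of' {c : ℝ} {D S : Mt n} (h : LeQ (Sᵀ * S) (c • (1 : Mt n))) :
    hs (S * D) ≤ c * hs D := by
  rw [← MX354.hs_transpose, transpose_mul, ← MX354.hs_transpose D]
  refine hs_mul_le_of ?_
  rwa [transpose_transpose]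

section Products

variable {e : ℝ} (he : 0 < e) (M : Mt n)
include he

/-- (N5) `|X Fᵀ| ≤ e |X|` -/
theorem hs_mul_cFt (X : Mt n) : hs (X * (cF e M)ᵀ) ≤ e ^ 2 * hs X :=
  hs_mul_le_of (by rw [transpose_transpose]; exact cFt_le' he M)

theorem hs_mul_cF (X : Mt n) : hs (X * cF e M) ≤ e ^ 2 * hs X :=
  hs_mul_le_of (cFt_le he M)

theorem hs_cF_mul (X : Mt n) : hs (cF e M * X) ≤ e ^ 2 * hs X :=
  hs_mul_le_of' (cFt_le' he M)

/-- (N5) `(Tr H X Fᵀ)² ≤ e² |H|² |X|²` -/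
theorem trace_H_sq_le (H X : Mt n) :
    (H * (X * (cF e M)ᵀ)).trace ^ 2 ≤ e ^ 2 * (hs H * hs X) := by
  have h1 := MX354.trace_mul_sq_le H (X * (cF e M)ᵀ)ᵀ
  rw [transpose_transpose, MX354.hs_transpose] at h1
  have h2 := hs_mul_cFt he M X
  calc _ ≤ _ := h1
    _ ≤ hs H * (e ^ 2 * hs X) := mul_le_mul_of_nonneg_left h2 (MX354.hs_nonneg H)
    _ = _ := by ring

theorem hs_cF_le : hs (cF e M) ≤ hs M := by
  have h := trace_V_FFt he M (V := (1 : Mt n)) (by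
    intro u; rw [zero_mulVec, dotProduct_zero, one_mulVec]
    exact Finset.sum_nonneg fun i _ => mul_self_nonneg _)
  have h2 := trace_mul_mono (V := (1 : Mt n)) (by
    intro u; rw [zero_mulVec, dotProduct_zero, one_mulVec]
    exact Finset.sum_nonneg fun i _ => mul_self_nonneg _) (MFt_tr he M) (FFt_tr M) (MFt_le he M)
  rw [MX354.hs_eq_trace, MX354.hs_eq_trace]
  simp only [Matrix.one_mul] at h h2
  linarith [h.2]

/-- `|F|² ≤ ⟨M, F⟩ ≤ |M|²` -/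
theorem hs_cF_le_trace : hs (cF e M) ≤ (M * (cF e M)ᵀ).trace ∧ (M * (cF e M)ᵀ).trace ≤ hs M := by
  have h := trace_V_FFt he M (V := (1 : Mt n)) (by
    intro u; rw [zero_mulVec, dotProduct_zero, one_mulVec]
    exact Finset.sum_nonneg fun i _ => mul_self_nonneg _)
  have h2 := trace_mul_mono (V := (1 : Mt n)) (by
    intro u; rw [zero_mulVec, dotProduct_zero, one_mulVec]
    exact Finset.sum_nonneg fun i _ => mul_self_nonneg _) (MFt_tr he M) (FFt_tr M) (MFt_le he M)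
  rw [MX354.hs_eq_trace, MX354.hs_eq_trace]
  simp only [Matrix.one_mul] at h h2
  exact ⟨h.2, h2⟩

/-- entries are bounded by `e` -/
theorem cF_entry_le' (i j : Fin n) : |cF e M i j| ≤ e := by
  have h1 := cFt_le he M (Pi.single i 1)
  have h2 : (Pi.single i (1:ℝ)) ⬝ᵥ ((cF e M * (cF e M)ᵀ) *ᵥ Pi.single i 1)
      = ∑ j, cF e M i j ^ 2 := by
    rw [single_one_dotProduct, Matrix.mulVec_single_one, Matrix.col_apply, Matrix.mul_apply]
    refine Finset.sum_congr rfl fun j _ => ?_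
    rw [transpose_apply, sq]
  have h3 : (Pi.single i (1:ℝ)) ⬝ᵥ ((e ^ 2 • (1 : Mt n)) *ᵥ Pi.single i 1) = e ^ 2 := by
    rw [smul_mulVec, one_mulVec, dotProduct_smul, single_one_dotProduct, Pi.single_eq_same,
      smul_eq_mul, mul_one]
  rw [h2, h3] at h1
  have h4 : cF e M i j ^ 2 ≤ e ^ 2 :=
    (Finset.single_le_sum (f := fun j => cF e M i j ^ 2) (fun _ _ => sq_nonneg _)
      (Finset.mem_univ j)).trans h1
  exact abs_le_of_sq_le_sq h4 he.le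

end Products

/-! ### symmetrisation -/

/-- the symmetrised clip -/
noncomputable def sF (e : ℝ) (M : Mt n) : Mt n := (1 / 2 : ℝ) • (cF e M + (cF e M)ᵀ)

theorem sF_symm (e : ℝ) (M : Mt n) : (sF e M)ᵀ = sF e M := by
  rw [sF, transpose_smul, transpose_add, transpose_transpose, add_comm]

/-- `|(X + Xᵀ)/2| ≤ |X|` -/
theorem hs_symm_le (X : Mt n) : hs ((1 / 2 : ℝ) • (X + Xᵀ)) ≤ hs X := by
  rw [NB152.hs_smul]
  have := NB152.hs_add_le X Xᵀ
  rw [MX354.hs_transpose] at this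
  nlinarith

theorem hs_sF_le (e : ℝ) (M : Mt n) : hs (sF e M) ≤ hs (cF e M) := hs_symm_le _

theorem hs_sF_sub (e : ℝ) (M : Mt n) :
    hs (sF e M - cF e M) = 1 / 4 * hs (cF e M - (cF e M)ᵀ) := by
  have h : sF e M - cF e M = (-(1 / 2) : ℝ) • (cF e M - (cF e M)ᵀ) := by
    rw [sF]; module
  rw [h, NB152.hs_smul]; norm_num

theorem form_sq (X : Mt n) (u : Fin n → ℝ) :
    u ⬝ᵥ ((Xᵀ * X) *ᵥ u) = (X *ᵥ u) ⬝ᵥ (X *ᵥ u) := by
  rw [← mulVec_mulVec, dotProduct_mulVec, vecMul_transpose]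

/-- `S² ≤ e²` -/
theorem sF_sq_le {e : ℝ} (he : 0 < e) (M : Mt n) :
    LeQ (sF e M * sF e M) (e ^ 2 • (1 : Mt n)) := by
  intro u
  have h1 := cFt_le he M u
  have h2 := cFt_le' he M u
  have e1 : u ⬝ᵥ ((cF e M * (cF e M)ᵀ) *ᵥ u) = ((cF e M)ᵀ *ᵥ u) ⬝ᵥ ((cF e M)ᵀ *ᵥ u) := by
    have := form_sq (cF e M)ᵀ u
    rwa [transpose_transpose] at this
  have e2 := form_sq (cF e M) u
  have e3 : u ⬝ᵥ ((sF e M * sF e M) *ᵥ u) = (sF e M *ᵥ u) ⬝ᵥ (sF e M *ᵥ u) := by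
    have := form_sq (sF e M) u
    rwa [sF_symm] at this
  rw [e1] at h1
  rw [e2] at h2
  rw [e3]
  have e4 : sF e M *ᵥ u = (1 / 2 : ℝ) • (cF e M *ᵥ u + (cF e M)ᵀ *ᵥ u) := by
    rw [sF, smul_mulVec, add_mulVec]
  rw [e4]
  set a := cF e M *ᵥ u
  set b := (cF e M)ᵀ *ᵥ u
  have h5 : ((1 / 2 : ℝ) • (a + b)) ⬝ᵥ ((1 / 2 : ℝ) • (a + b)) ≤ (1 / 2) * (a ⬝ᵥ a + b ⬝ᵥ b) := by
    simp only [dotProduct, Pi.smul_apply, Pi.add_apply, smul_eq_mul]
    rw [← Finset.sum_add_distrib, Finset.mul_sum]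
    refine Finset.sum_le_sum fun i _ => ?_
    nlinarith [sq_nonneg (a i - b i)]
  linarith

theorem trace_sF_four {e : ℝ} (he : 0 < e) (M : Mt n) :
    (sF e M * sF e M * (sF e M * sF e M)).trace ≤ e ^ 2 * (sF e M * sF e M).trace := by
  have h := hs_mul_le_of' (D := sF e M) (S := sF e M) (c := e ^ 2) (by
    rw [sF_symm]; exact sF_sq_le he M)
  rw [MX354.hs_eq_trace, MX354.hs_eq_trace, transpose_mul, sF_symm] at h
  exact h

end Crest.Agent.R201.Clip78
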