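import Crest.Agent.R201.Clip4_78

/-!
# R201, LSI half, CLIP block (helper78), part 5: derivative of the NON-SYMMETRIC clip, fields

`|D_k F|² ≤ ⟨D_k F, D_k M⟩ ≤ |D_k M|²`, firm nonexpansiveness, symmetrised fields, `CB`,
compact support.
-/

set_option autoImplicit false
set_option linter.unusedSectionVars false
open Matrix
open scoped ContDiff

namespace Crest.Agent.R201.Clip78

open Crest.Agent.R201

variable {n : ℕ}

section Der

open scoped Matrix.Norms.Operator

theorem dF_transpose (A B : Mt n) : dF Aᵀ Bᵀ = (dF A B)ᵀ := by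
  have h1 : HasFDerivAt (fun X : Mt n => clF (trL X)) ((fderiv ℝ (clF : Mt n → Mt n) Aᵀ).comp trL) A :=
    (diff_clF (n := n) Aᵀ).hasFDerivAt.comp A (trL (n := n)).hasFDerivAt
  have h2 : HasFDerivAt (fun X : Mt n => trL (clF X)) (trL.comp (fderiv ℝ (clF : Mt n → Mt n) A)) A :=
    (trL (n := n)).hasFDerivAt.comp A (diff_clF (n := n) A).hasFDerivAt
  have h3 : (fun X : Mt n => clF (trL X)) = fun X : Mt n => trL (clF X) := by
    funext X; exact clF_transpose X
  rw [h3] at h1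
  have h4 := h1.unique h2
  have h5 := congrArg (fun L : Mt n →L[ℝ] Mt n => L B) h4
  exact h5

/-- dilated derivative data -/
theorem der_dl (A B : Mt n) :
    Der (dl A) (dl B) (fromBlocks (dZ Aᵀ Bᵀ) 0 0 (dZ A B)) (dl (dF A B)) := by
  obtain ⟨h1, h2⟩ := der_eq A B
  obtain ⟨h3, h4⟩ := der_eq Aᵀ Bᵀ
  rw [transpose_transpose, transpose_transpose] at h3
  rw [dF_transpose, clF_transpose] at h4
  constructor
  · rw [clZ_dl, fromBlocks_multiply, fromBlocks_multiply, fromBlocks_add, dl_mul, dl_mul,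
      fromBlocks_add]
    simp only [Matrix.mul_zero, Matrix.zero_mul, add_zero, zero_add]
    rw [h1, h3]
  · rw [clZ_dl, clF_dl, dl, dl, dl, fromBlocks_multiply, fromBlocks_multiply, fromBlocks_add]
    simp only [Matrix.mul_zero, Matrix.zero_mul, add_zero, zero_add]
    rw [h2, h4]

/-- **(N2) at a point**: `|dF|² ≤ ⟨dF, B⟩ ≤ |B|²`, any `A`, `B` -/
theorem dF_hs (A B : Mt n) : hs (dF A B) ≤ (dF A B * Bᵀ).trace ∧ (dF A B * Bᵀ).trace ≤ hs B := by
  have h := (der_dl A B).hs_le (dl_symm A)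
  rw [hs_dl, hs_dl, trace_dl] at h
  constructor <;> linarith [h.1, h.2]

theorem dcF_hs (e : ℝ) (A B : Mt n) :
    hs (dcF e A B) ≤ (dcF e A B * Bᵀ).trace ∧ (dcF e A B * Bᵀ).trace ≤ hs B := dF_hs _ B

/-! ### firm nonexpansiveness -/

theorem hasDerivAt_cF_line {e : ℝ} (he : 0 < e) (N B : Mt n) (t : ℝ) (i j : Fin n) :
    HasDerivAt (fun s : ℝ => cF e (N + s • B) i j) (dcF e (N + t • B) B i j) t := by
  refine hasDerivAt_cF he (U := fun s => N + s • B) (fun i j => ?_) i j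
  have h : HasDerivAt (fun s : ℝ => N i j + s * B i j) (1 * B i j) t :=
    ((hasDerivAt_id t).mul_const (B i j)).const_add (N i j)
  rw [one_mul] at h
  exact h

/-- `2F - id` is nonexpansive -/
theorem reflect_le {e : ℝ} (he : 0 < e) (M N : Mt n) :
    hs ((2 : ℝ) • (cF e M - cF e N) - (M - N)) ≤ hs (M - N) := by
  set B := M - N with hB
  set K := (2 : ℝ) • (cF e M - cF e N) - B with hK
  have hMN : M = N + (1 : ℝ) • B := by rw [hB]; simp
  have hNN : N = N + (0 : ℝ) • B := by simp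
  -- scalar function
  have hder : ∀ t : ℝ, HasDerivAt
      (fun s : ℝ => ∑ i, ∑ j, (2 * cF e (N + s • B) i j - s * B i j) * K i j)
      (((2 : ℝ) • dcF e (N + t • B) B - B) * Kᵀ).trace t := by
    intro t
    have h1 : HasDerivAt (fun s : ℝ => ∑ i, ∑ j, (2 * cF e (N + s • B) i j - s * B i j) * K i j)
        (∑ i, ∑ j, (2 * dcF e (N + t • B) B i j - 1 * B i j) * K i j) t :=
      HasDerivAt.fun_sum fun i _ => HasDerivAt.fun_sum fun j _ =>
        (((hasDerivAt_cF_line he N B t i j).const_mul 2).sub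
          ((hasDerivAt_id t).mul_const (B i j))).mul_const (K i j)
    have h2 : (((2 : ℝ) • dcF e (N + t • B) B - B) * Kᵀ).trace
        = ∑ i, ∑ j, (2 * dcF e (N + t • B) B i j - 1 * B i j) * K i j := by
      simp only [Matrix.trace, Matrix.diag_apply, Matrix.mul_apply, Matrix.transpose_apply,
        Matrix.sub_apply, Matrix.smul_apply, smul_eq_mul, one_mul]
    rw [h2]
    exact h1
  obtain ⟨c, _, hc⟩ := exists_hasDerivAt_eq_slope
    (fun s : ℝ => ∑ i, ∑ j, (2 * cF e (N + s • B) i j - s * B i j) * K i j) _ one_pos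
    (fun t _ => (hder t).continuousAt.continuousWithinAt) (fun t _ => hder t)
  have h3 : (∑ i, ∑ j, (2 * cF e (N + (1:ℝ) • B) i j - 1 * B i j) * K i j)
      - (∑ i, ∑ j, (2 * cF e (N + (0:ℝ) • B) i j - 0 * B i j) * K i j) = hs K := by
    rw [← hMN, ← hNN]
    simp only [hs, ← Finset.sum_sub_distrib]
    refine Finset.sum_congr rfl fun i _ => Finset.sum_congr rfl fun j _ => ?_
    have : K i j = 2 * (cF e M i j - cF e N i j) - B i j := by
      rw [hK]
      simp only [Matrix.sub_apply, Matrix.smul_apply, smul_eq_mul]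
    rw [sq]
    nth_rewrite 3 [this]
    ring
  rw [h3] at hc
  have h4 : hs K = (((2 : ℝ) • dcF e (N + c • B) B - B) * Kᵀ).trace := by
    rw [hc]; ring
  have h5 : hs ((2 : ℝ) • dcF e (N + c • B) B - B) ≤ hs B := by
    have h6 := (dcF_hs e (N + c • B) B).1
    have h7 : hs ((2 : ℝ) • dcF e (N + c • B) B - B)
        = 4 * hs (dcF e (N + c • B) B) - 4 * (dcF e (N + c • B) B * Bᵀ).trace + hs B := by
      simp only [hs, Matrix.trace, Matrix.diag_apply, Matrix.mul_apply, Matrix.transpose_apply,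
        Matrix.sub_apply, Matrix.smul_apply, smul_eq_mul, Finset.mul_sum, ← Finset.sum_sub_distrib,
        ← Finset.sum_add_distrib]
      refine Finset.sum_congr rfl fun i _ => Finset.sum_congr rfl fun j _ => ?_
      ring
    rw [h7]; linarith
  have h8 := MX354.trace_mul_sq_le ((2 : ℝ) • dcF e (N + c • B) B - B) K
  rw [← h4] at h8
  rcases (MX354.hs_nonneg K).lt_or_eq with hp | h0
  · have h9 : hs K * hs K ≤ hs B * hs K := by
      calc hs K * hs K = hs K ^ 2 := by ring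
        _ ≤ _ := h8
        _ ≤ _ := mul_le_mul_of_nonneg_right h5 hp.le
    exact le_of_mul_le_mul_right h9 hp
  · rw [← h0]; exact MX354.hs_nonneg _

/-- **(N1) firmly nonexpansive** -/
theorem cF_firm {e : ℝ} (he : 0 < e) (M N : Mt n) :
    hs (cF e M - cF e N) ≤ ((cF e M - cF e N) * (M - N)ᵀ).trace := by
  have h := reflect_le he M N
  have h7 : hs ((2 : ℝ) • (cF e M - cF e N) - (M - N))
      = 4 * hs (cF e M - cF e N) - 4 * ((cF e M - cF e N) * (M - N)ᵀ).trace + hs (M - N) := by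
    simp only [hs, Matrix.trace, Matrix.diag_apply, Matrix.mul_apply, Matrix.transpose_apply,
      Matrix.sub_apply, Matrix.smul_apply, smul_eq_mul, Finset.mul_sum, ← Finset.sum_sub_distrib,
      ← Finset.sum_add_distrib]
    refine Finset.sum_congr rfl fun i _ => Finset.sum_congr rfl fun j _ => ?_
    ring
  rw [h7] at h
  linarith

/-- **(N1) nonexpansive** -/
theorem cF_lip {e : ℝ} (he : 0 < e) (M N : Mt n) : hs (cF e M - cF e N) ≤ hs (M - N) := by
  have h1 := cF_firm he M N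
  have h2 := MX354.trace_mul_sq_le (cF e M - cF e N) (M - N)
  rcases (MX354.hs_nonneg (cF e M - cF e N)).lt_or_eq with hp | h0
  · have h3 : hs (cF e M - cF e N) * hs (cF e M - cF e N)
        ≤ hs (M - N) * hs (cF e M - cF e N) := by
      calc _ = hs (cF e M - cF e N) ^ 2 := by ring
        _ ≤ ((cF e M - cF e N) * (M - N)ᵀ).trace ^ 2 := pow_le_pow_left₀ hp.le h1 2
        _ ≤ _ := h2
        _ = _ := by ring
    exact le_of_mul_le_mul_right h3 hp
  · rw [← h0]; exact MX354.hs_nonneg _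

/-- (N6) `|F - Fᵀ| ≤ |M - Mᵀ|` -/
theorem cF_sub_transpose {e : ℝ} (he : 0 < e) (M : Mt n) :
    hs (cF e M - (cF e M)ᵀ) ≤ hs (M - Mᵀ) := by
  rw [← cF_transpose]; exact cF_lip he M Mᵀ

/-- (N6) `|S - F|² ≤ (1/4) |M - Mᵀ|²` -/
theorem sF_sub_le {e : ℝ} (he : 0 < e) (M : Mt n) :
    hs (sF e M - cF e M) ≤ 1 / 4 * hs (M - Mᵀ) := by
  rw [hs_sF_sub]
  linarith [cF_sub_transpose he M]

end Der

/-! ### fields on `E n` -/

section Field

variable {M : E n → Mt n}

theorem cF_field_C1 (e : ℝ) (hM : ∀ i j, ContDiff ℝ 1 (fun y => M y i j)) (i j : Fin n) :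
    ContDiff ℝ 1 (fun y => cF e (M y) i j) := cF_field_contDiff e hM i j

/-- **(N2)** `|D_k F|² ≤ ⟨D_k F, D_k M⟩ ≤ |D_k M|²` -/
theorem pdM_cF_le {e : ℝ} (he : 0 < e) (hM : ∀ i j, Differentiable ℝ (fun y => M y i j))
    (k : Fin n) (x : E n) :
    hs (pdM k (fun y => cF e (M y)) x) ≤ (pdM k (fun y => cF e (M y)) x * (pdM k M x)ᵀ).trace ∧
    (pdM k (fun y => cF e (M y)) x * (pdM k M x)ᵀ).trace ≤ hs (pdM k M x) := by
  rw [pdM_cF he hM]
  exact dcF_hs e (M x) (pdM k M x)

theorem sF_field_contDiff {k : WithTop ℕ∞} (e : ℝ) (hM : ∀ i j, ContDiff ℝ k (fun y => M y i j))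
    (i j : Fin n) : ContDiff ℝ k (fun y => sF e (M y) i j) := by
  have e1 : (fun y => sF e (M y) i j) = fun y => (1 / 2 : ℝ) * (cF e (M y) i j + cF e (M y) j i) := by
    funext y
    simp only [sF, Matrix.smul_apply, Matrix.add_apply, transpose_apply, smul_eq_mul]
  rw [e1]
  exact contDiff_const.mul ((cF_field_contDiff e hM i j).add (cF_field_contDiff e hM j i))

/-- derivative of the symmetrised field -/
theorem pdM_sF (e : ℝ) (hM : ∀ i j, ContDiff ℝ 1 (fun y => M y i j)) (k : Fin n) (x : E n) :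
    pdM k (fun y => sF e (M y)) x
      = (1 / 2 : ℝ) • (pdM k (fun y => cF e (M y)) x + (pdM k (fun y => cF e (M y)) x)ᵀ) := by
  have hd : ∀ i j, Differentiable ℝ (fun y => cF e (M y) i j) := fun i j =>
    (cF_field_C1 e hM i j).differentiable (by simp)
  ext i j
  have e1 : (fun y => sF e (M y) i j) = fun y => (1 / 2 : ℝ) * (cF e (M y) i j + cF e (M y) j i) := by
    funext y
    simp only [sF, Matrix.smul_apply, Matrix.add_apply, transpose_apply, smul_eq_mul]
  simp only [pdM, Matrix.of_apply, Matrix.smul_apply, Matrix.add_apply, transpose_apply,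
    smul_eq_mul]
  rw [e1, Tw807.pd_const_mul _ k ((hd i j x).fun_add (hd j i x)), Tw807.pd_add k (hd i j x) (hd j i x)]

theorem hs_pdM_sF_le (e : ℝ) (hM : ∀ i j, ContDiff ℝ 1 (fun y => M y i j)) (k : Fin n) (x : E n) :
    hs (pdM k (fun y => sF e (M y)) x) ≤ hs (pdM k (fun y => cF e (M y)) x) := by
  rw [pdM_sF e hM]; exact hs_symm_le _

/-- `CB` -/
theorem cF_CB' {e : ℝ} (he : 0 < e) (hM : ∀ i j, ContDiff ℝ 1 (fun y => M y i j))
    {B : ℝ} (hB : ∀ x k i j, |pd k (fun y => M y i j) x| ≤ B)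
    (p : Fin n × Fin n) : CB (famM (fun x => cF e (M x)) p) := by
  have hM1 : ∀ i j, Differentiable ℝ (fun y => M y i j) := fun i j =>
    (hM i j).differentiable (by simp)
  obtain ⟨i, j⟩ := p
  rw [Tw807.cb_iff]
  refine ⟨cF_field_contDiff e hM i j, ⟨e, fun x => cF_entry_le' he (M x) i j⟩, fun k => ?_⟩
  refine ⟨1 + ∑ a : Fin n, ∑ b : Fin n, B ^ 2, fun x => ?_⟩
  have h1 := pdM_cF_le he hM1 k x
  have h2 : (pd k (fun y => cF e (M y) i j) x) ^ 2 ≤ hs (pdM k (fun y => cF e (M y)) x) :=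
    MX354.sq_le_hs (pdM k (fun y => cF e (M y)) x) i j
  have h3 : hs (pdM k M x) ≤ ∑ a : Fin n, ∑ b : Fin n, B ^ 2 := by
    refine Finset.sum_le_sum fun a _ => Finset.sum_le_sum fun b _ => ?_
    rw [← sq_abs]
    exact pow_le_pow_left₀ (abs_nonneg _) (hB x k a b) 2
  show |pd k (fun y => cF e (M y) i j) x| ≤ _
  have h5 : |pd k (fun y => cF e (M y) i j) x| ≤ 1 + (pd k (fun y => cF e (M y) i j) x) ^ 2 := by
    rw [← sq_abs]
    nlinarith [sq_nonneg (|pd k (fun y => cF e (M y) i j) x| - 1),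
      abs_nonneg (pd k (fun y => cF e (M y) i j) x)]
  linarith [h1.1, h1.2]

theorem sF_CB {e : ℝ} (he : 0 < e) (hM : ∀ i j, ContDiff ℝ 1 (fun y => M y i j))
    {B : ℝ} (hB : ∀ x k i j, |pd k (fun y => M y i j) x| ≤ B)
    (p : Fin n × Fin n) : CB (famM (fun x => sF e (M x)) p) := by
  have e1 : famM (fun x => sF e (M x)) p
      = fun x => (1 / 2 : ℝ) * (famM (fun x => cF e (M x)) p x
        + famM (fun x => cF e (M x)) (p.2, p.1) x) := by
    funext x
    simp only [famM, sF, Matrix.smul_apply, Matrix.add_apply, transpose_apply, smul_eq_mul]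
  rw [e1]
  exact Tw807.cb_const_mul _ (Tw807.cb_add (cF_CB' he hM hB p) (cF_CB' he hM hB (p.2, p.1)))

/-- compact support is preserved -/
theorem cF_cs (e : ℝ) (hM : ∀ i j, HasCompactSupport (fun y => M y i j)) (i j : Fin n) :
    HasCompactSupport (fun y => cF e (M y) i j) := by
  have h1 : HasCompactSupport (fun y => ∑ a, ∑ b, M y a b ^ 2) := by
    have : ∀ s : Finset (Fin n), ∀ g : Fin n → E n → ℝ, (∀ a, HasCompactSupport (g a)) →
        HasCompactSupport (fun y => ∑ a ∈ s, g a y) := by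
      intro s g hg
      classical
      induction s using Finset.induction_on with
      | empty =>
        simp only [Finset.sum_empty]
        exact HasCompactSupport.zero
      | insert a s ha ih =>
        simp only [Finset.sum_insert ha]
        exact (hg a).add ih
    refine this _ _ fun a => this _ _ fun b => ?_
    exact (hM a b).comp_left (g := fun t : ℝ => t ^ 2) (by simp)
  refine h1.mono fun y hy => ?_
  rw [Function.mem_support] at hy ⊢
  intro h0
  apply hy
  have h2 : M y = 0 := by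
    ext a b
    have h3 : M y a b ^ 2 ≤ hs (M y) := MX354.sq_le_hs (M y) a b
    have h4 : hs (M y) = 0 := h0
    rw [h4] at h3
    simpa using pow_eq_zero_iff (two_ne_zero) |>.1 (le_antisymm h3 (sq_nonneg _))
  rw [h2, cF_zero]
  rfl

theorem sF_cs (e : ℝ) (hM : ∀ i j, HasCompactSupport (fun y => M y i j)) (i j : Fin n) :
    HasCompactSupport (fun y => sF e (M y) i j) := by
  have e1 : (fun y => sF e (M y) i j) = fun y => (1 / 2 : ℝ) * (cF e (M y) i j + cF e (M y) j i) := by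
    funext y
    simp only [sF, Matrix.smul_apply, Matrix.add_apply, transpose_apply, smul_eq_mul]
  rw [e1]
  exact ((cF_cs e hM i j).add (cF_cs e hM j i)).mul_left

/-! ### the field `A = e⁻² F Fᵀ` -/

/-- `A = e⁻² F Fᵀ`, `0 ≤ A ≤ 1` -/
noncomputable def bF (e : ℝ) (M : Mt n) : Mt n := (e ^ 2)⁻¹ • (cF e M * (cF e M)ᵀ)

theorem bF_symm (e : ℝ) (M : Mt n) : (bF e M)ᵀ = bF e M := by
  rw [bF, transpose_smul, FFt_tr]

theorem bF_nonneg (e : ℝ) (M : Mt n) : LeQ 0 (bF e M) := by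
  have := leQ_smul (inv_nonneg.2 (sq_nonneg e)) (FFt_nonneg (cF e M))
  rwa [smul_zero] at this

theorem bF_le_one {e : ℝ} (he : 0 < e) (M : Mt n) : LeQ (bF e M) 1 := by
  have := leQ_smul (inv_nonneg.2 (sq_nonneg e)) (cFt_le he M)
  rwa [smul_smul, inv_mul_cancel₀ (by positivity), one_smul] at this

/-- `|M|² - |F|² = Tr M Mᵀ A` -/
theorem hs_sub_hs_bF {e : ℝ} (he : 0 < e) (M : Mt n) :
    hs M - hs (cF e M) = (M * Mᵀ * bF e M).trace := by
  rw [hs_sub_hs he, bF, mul_smul_comm, trace_smul, smul_eq_mul]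

theorem pdM_bF (e : ℝ) (hM : ∀ i j, ContDiff ℝ 1 (fun y => M y i j)) (k : Fin n) (x : E n) :
    pdM k (fun y => bF e (M y)) x
      = (e ^ 2)⁻¹ • (pdM k (fun y => cF e (M y)) x * (cF e (M x))ᵀ
        + cF e (M x) * (pdM k (fun y => cF e (M y)) x)ᵀ) := by
  have hd : ∀ i j, Differentiable ℝ (fun y => cF e (M y) i j) := fun i j =>
    (cF_field_C1 e hM i j).differentiable (by simp)
  ext i j
  have e1 : (fun y => bF e (M y) i j)
      = fun y => (e ^ 2)⁻¹ * ∑ l, cF e (M y) i l * cF e (M y) j l := by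
    funext y
    simp only [bF, Matrix.smul_apply, Matrix.mul_apply, transpose_apply, smul_eq_mul]
  simp only [pdM, Matrix.of_apply, Matrix.smul_apply, Matrix.add_apply, Matrix.mul_apply,
    transpose_apply, smul_eq_mul]
  rw [e1, Tw807.pd_const_mul _ k (DifferentiableAt.fun_sum fun l _ =>
    (hd i l x).fun_mul (hd j l x)), Tw807.pd_sum _ k fun l _ => (hd i l x).fun_mul (hd j l x),
    ← Finset.sum_add_distrib]
  congr 1
  refine Finset.sum_congr rfl fun l _ => ?_
  rw [Tw807.pd_mul k (hd i l x) (hd j l x)]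
  ring

/-- `|D_k A|² ≤ 4 e⁻² |D_k F|²` -/
theorem hs_pdM_bF_le {e : ℝ} (he : 0 < e) (hM : ∀ i j, ContDiff ℝ 1 (fun y => M y i j))
    (k : Fin n) (x : E n) :
    hs (pdM k (fun y => bF e (M y)) x) ≤ 4 / e ^ 2 * hs (pdM k (fun y => cF e (M y)) x) := by
  rw [pdM_bF e hM, NB152.hs_smul]
  set D := pdM k (fun y => cF e (M y)) x
  have h1 := NB152.hs_add_le (D * (cF e (M x))ᵀ) (cF e (M x) * Dᵀ)
  have h2 := hs_mul_cFt he (M x) D
  have h3 := hs_cF_mul he (M x) Dᵀ
  rw [MX354.hs_transpose] at h3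
  have h4 : hs (D * (cF e (M x))ᵀ + cF e (M x) * Dᵀ) ≤ 4 * e ^ 2 * hs D := by linarith
  calc ((e ^ 2)⁻¹) ^ 2 * hs (D * (cF e (M x))ᵀ + cF e (M x) * Dᵀ)
      ≤ ((e ^ 2)⁻¹) ^ 2 * (4 * e ^ 2 * hs D) := mul_le_mul_of_nonneg_left h4 (sq_nonneg _)
    _ = 4 / e ^ 2 * hs D := by field_simp

end Field

end Crest.Agent.R201.Clip78
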