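import Crest.Agent.R201.El3_593

/-!
# R201 (S0308), level 2, static block: the level-2 inequality for a clipped field (helper593)

`M_ik = D_k φ_i`, `T` a `C¹_c` (non-symmetric) matrix field, a "clip" of `M`.
-/

set_option autoImplicit false
open MeasureTheory Matrix
open scoped ContDiff

namespace Crest.Agent.R201.El593

open Crest.Agent.R201 Crest.Agent.R201.Tw807

variable {n : ℕ} (S : St n)

/-- `E ⟨DT, DM⟩` -/
noncomputable def XX (φ : Fin n → E n → ℝ) (T : Fin n → Fin n → E n → ℝ) : ℝ :=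
  ∑ i, ∑ k, ∑ l, ∫ x, pd l (T i k) x * pd l (pd k (φ i)) x ∂S.ν

/-- `E tr (V'' Mᵀ T)` -/
noncomputable def YY (φ : Fin n → E n → ℝ) (T : Fin n → Fin n → E n → ℝ) : ℝ :=
  ∑ i, ∑ k, ∑ l, ∫ x, S.V2 x k l * (T i k x * pd l (φ i) x) ∂S.ν

/-- `E ⟨T, M⟩` -/
noncomputable def TM (φ : Fin n → E n → ℝ) (T : Fin n → Fin n → E n → ℝ) : ℝ :=
  ∑ i, ∑ k, ∫ x, T i k x * pd k (φ i) x ∂S.ν

/-- `E |T|²` -/
noncomputable def tt (T : Fin n → Fin n → E n → ℝ) : ℝ := ∑ i, ∑ k, ∫ x, T i k x ^ 2 ∂S.ν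

/-- `E |Aφ - φ|²` -/
noncomputable def r2 (φ : Fin n → E n → ℝ) : ℝ :=
  ∑ i, ∫ x, (AW S.toSm (φ i) x - φ i x) ^ 2 ∂S.ν

variable {S}

theorem pdw_cont (k l : Fin n) : Continuous (pd l (S.w k)) := pd_cont (S.w_C1 k) l

section

variable {φ : Fin n → E n → ℝ} {T : Fin n → Fin n → E n → ℝ} {e1 : ℝ}

/-- `E ⟨T H, G⟩ ≤ e1 |H| |G|` for a bounded matrix field `T` -/
theorem op_bound (hT : ∀ i k, ContDiff ℝ 1 (T i k)) (hs : ∀ i k, HasCompactSupport (T i k))
    (he1 : 0 ≤ e1)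
    (ha : ∀ x (u : Fin n → ℝ), ∑ i, (∑ k, T i k x * u k) ^ 2 ≤ e1 ^ 2 * ∑ k, u k ^ 2)
    {G : Fin n → Fin n → E n → ℝ} (hG : ∀ i k, Continuous (G i k))
    (hGs : ∀ i k, HasCompactSupport (G i k)) :
    |∑ i, ∑ k, ∑ l, ∫ x, pd l (S.w k) x * (T i k x * G i l x) ∂S.ν| ≤
      e1 * √(dsq S.ν S.w) * √(∑ i, ∑ l, ∫ x, G i l x ^ 2 ∂S.ν) := by
  have cT : ∀ i l, Continuous fun x => ∑ k, T i k x * pd l (S.w k) x := fun i l =>
    continuous_finsetSum _ fun k _ => (hT i k).continuous.mul (pdw_cont k l)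
  have sT : ∀ i l, HasCompactSupport fun x => ∑ k, T i k x * pd l (S.w k) x := fun i l =>
    cs_sum _ fun k _ => (hs i k).mul_right (f' := pd l (S.w k))
  have mT : ∀ i l, MemLp (fun x => ∑ k, T i k x * pd l (S.w k) x) 2 S.ν := fun i l =>
    mcc (cT i l) (sT i l)
  have mG : ∀ i l, MemLp (G i l) 2 S.ν := fun i l => mcc (hG i l) (hGs i l)
  have e0 : ∑ i, ∑ k, ∑ l, ∫ x, pd l (S.w k) x * (T i k x * G i l x) ∂S.ν =
      ∑ p : Fin n × Fin n, ∫ x, (∑ k, T p.1 k x * pd p.2 (S.w k) x) * G p.1 p.2 x ∂S.ν := by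
    rw [Fintype.sum_prod_type]
    refine Finset.sum_congr rfl fun i _ => ?_
    rw [Finset.sum_comm]
    refine Finset.sum_congr rfl fun l _ => ?_
    simp only [Finset.sum_mul]
    rw [integral_finsetSum]
    · exact Finset.sum_congr rfl fun k _ => integral_congr_ae (Filter.Eventually.of_forall fun x =>
        by simp only; ring)
    · intro k _
      exact cci (((hT i k).continuous.mul (pdw_cont k l)).mul (hG i l))
        ((hGs i l).mul_left (f := fun x => T i k x * pd l (S.w k) x))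
  rw [e0]
  refine (cs_fam (ν := S.ν) (ι := Fin n × Fin n)
    (f := fun p x => ∑ k, T p.1 k x * pd p.2 (S.w k) x) (g := fun p => G p.1 p.2)
    (fun p => mT p.1 p.2) (fun p => mG p.1 p.2)).trans ?_
  rw [Fintype.sum_prod_type, Fintype.sum_prod_type]
  refine mul_le_mul_of_nonneg_right ?_ (Real.sqrt_nonneg _)
  rw [show e1 * √(dsq S.ν S.w) = √(e1 ^ 2 * dsq S.ν S.w) by
    rw [Real.sqrt_mul (sq_nonneg _), Real.sqrt_sq he1]]
  apply Real.sqrt_le_sqrt
  -- `∑_il ∫ (∑_k T_ik H_kl)² ≤ e1² ∑_kl ∫ H_kl²`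
  have h1 : ∀ l, ∑ i, ∫ x, (∑ k, T i k x * pd l (S.w k) x) ^ 2 ∂S.ν ≤
      e1 ^ 2 * ∑ k, ∫ x, pd l (S.w k) x ^ 2 ∂S.ν := by
    intro l
    rw [← integral_finsetSum _ fun i _ => isq (mT i l),
      ← integral_finsetSum _ fun k _ => isq (S.H_L2 k l), ← integral_const_mul]
    exact integral_mono (integrable_finsetSum _ fun i _ => isq (mT i l))
      ((integrable_finsetSum _ fun k _ => isq (S.H_L2 k l)).const_mul _)
      fun x => ha x fun k => pd l (S.w k) x
  have h2 := Finset.sum_le_sum (s := (Finset.univ : Finset (Fin n))) fun l _ => h1 l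
  rw [← Finset.mul_sum] at h2
  rw [Finset.sum_comm]
  refine h2.trans (le_of_eq ?_)
  unfold dsq
  rw [Finset.sum_comm]

/-- **the level-2 inequality** -/
theorem lev2 (hφ : ∀ i, ContDiff ℝ ∞ (φ i)) (hφs : ∀ i, HasCompactSupport (φ i))
    (hT : ∀ i k, ContDiff ℝ 1 (T i k)) (hs : ∀ i k, HasCompactSupport (T i k))
    (he1 : 0 ≤ e1) {t : ℝ} (ht : 0 < t)
    (ha : ∀ x (u : Fin n → ℝ), ∑ i, (∑ k, T i k x * u k) ^ 2 ≤ e1 ^ 2 * ∑ k, u k ^ 2)
    (hb : ∀ x, ∑ i, ∑ k, ∑ l, pd l (T i k) x ^ 2 ≤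
      ∑ i, ∑ k, ∑ l, pd l (T i k) x * pd l (pd k (φ i)) x)
    (hc : ∀ x, ∑ i, ∑ k, ∑ l, S.V2 x k l * (T i k x * T i l x) ≤
      ∑ i, ∑ k, ∑ l, S.V2 x k l * (T i k x * pd l (φ i) x))
    (hd : ∀ x, ∑ i, ∑ k, T i k x ^ 2 ≤ ∑ i, ∑ k, T i k x * pd k (φ i) x) :
    (1 - t / 2) * (XX S φ T + YY S φ T) ≤
      TM S φ T + (1 + t / 2) * (e1 * √(dsq S.ν S.w) * √(dsq S.ν φ)) + r2 S φ / (2 * t) := by
  have cM : ∀ i k, Continuous (pd k (φ i)) := fun i k => (pd_smooth (hφ i) k).continuous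
  have sM : ∀ i k, HasCompactSupport (pd k (φ i)) := fun i k => pd_cs (hφs i) k
  have cT : ∀ i k, Continuous (T i k) := fun i k => (hT i k).continuous
  have mT : ∀ i k, MemLp (T i k) 2 S.ν := fun i k => mcc (cT i k) (hs i k)
  have mM : ∀ i k, MemLp (pd k (φ i)) 2 S.ν := fun i k => mcc (cM i k) (sM i k)
  -- integrability
  have iV : ∀ {G : Fin n → Fin n → E n → ℝ}, (∀ i k, Continuous (G i k)) → ∀ i k l,
      Integrable (fun x => S.V2 x k l * (T i k x * G i l x)) S.ν := fun hG i k l =>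
    cci ((S.V2_cont k l).mul ((cT i k).mul (hG i l)))
      (((hs i k).mul_right (f' := _)).mul_left (f := fun x => S.V2 x k l))
  have iH : ∀ {G : Fin n → Fin n → E n → ℝ}, (∀ i k, Continuous (G i k)) → ∀ i k l,
      Integrable (fun x => pd l (S.w k) x * (T i k x * G i l x)) S.ν := fun hG i k l =>
    cci ((pdw_cont k l).mul ((cT i k).mul (hG i l)))
      (((hs i k).mul_right (f' := _)).mul_left (f := pd l (S.w k)))
  have W : ∀ {G : Fin n → Fin n → E n → ℝ}, (∀ i k, Continuous (G i k)) →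
      ∑ i, ∑ k, ∑ l, ∫ x, S.W2 x k l * (T i k x * G i l x) ∂S.ν =
      (∑ i, ∑ k, ∑ l, ∫ x, S.V2 x k l * (T i k x * G i l x) ∂S.ν) -
      ∑ i, ∑ k, ∑ l, ∫ x, pd l (S.w k) x * (T i k x * G i l x) ∂S.ν := by
    intro G hG
    rw [← Finset.sum_sub_distrib]
    refine Finset.sum_congr rfl fun i _ => ?_
    rw [← Finset.sum_sub_distrib]
    refine Finset.sum_congr rfl fun k _ => ?_
    rw [← Finset.sum_sub_distrib]
    refine Finset.sum_congr rfl fun l _ => ?_
    rw [← integral_sub (iV hG i k l) (iH hG i k l)]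
    refine integral_congr_ae (Filter.Eventually.of_forall fun x => ?_)
    simp only [S.W2_V]
    ring
  -- Bochner, summed
  have hB := Finset.sum_congr rfl fun i (_ : i ∈ Finset.univ) => boch (S := S.toSm) hT hs hφ hφs i
  rw [Finset.sum_add_distrib, W (G := fun i k => pd k (φ i)) cM] at hB
  -- the right-hand side
  have mdv : ∀ i, MemLp (dv S.toSm T i) 2 S.ν := fun i => mcc (dv_cont hT i) (dv_cs hs i)
  have mr : ∀ i, MemLp (fun x => AW S.toSm (φ i) x - φ i x) 2 S.ν := fun i =>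
    (mcc (AW_smooth (hφ i)).continuous (AW_cs (hφs i))).sub (mcc (hφ i).continuous (hφs i))
  have hR : ∑ i, ∫ x, dv S.toSm T i x * AW S.toSm (φ i) x ∂S.ν =
      TM S φ T + ∑ i, ∫ x, dv S.toSm T i x * (AW S.toSm (φ i) x - φ i x) ∂S.ν := by
    unfold TM
    rw [← Finset.sum_add_distrib]
    refine Finset.sum_congr rfl fun i _ => ?_
    rw [← ibp_dv (S := S.toSm) hT hs i ((hφ i).of_le (by norm_cast) : ContDiff ℝ 1 (φ i)),
      ← integral_add (im (mdv i) (mcc (hφ i).continuous (hφs i))) (im (mdv i) (mr i))]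
    exact integral_congr_ae (Filter.Eventually.of_forall fun x => by simp only; ring)
  have hcs := (le_abs_self _).trans (cs_fam (ν := S.ν) mdv mr)
  -- Weitzenböck
  have hW := dv_sq_le (S := S.toSm) hT hs
  rw [W (G := T) cT] at hW
  have h1 : ∑ i, ∑ k, ∑ l, ∫ x, pd l (T i k) x ^ 2 ∂S.ν ≤ XX S φ T := by
    have j1 : ∀ i k l, Integrable (fun x => pd l (T i k) x ^ 2) S.ν := fun i k l =>
      isq (mcc (pd_cont (hT i k) l) (pd_cs (hs i k) l))
    have j2 : ∀ i k l, Integrable (fun x => pd l (T i k) x * pd l (pd k (φ i)) x) S.ν :=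
      fun i k l => cci ((pd_cont (hT i k) l).mul (pd_smooth (pd_smooth (hφ i) k) l).continuous)
        ((pd_cs (hs i k) l).mul_right (f' := pd l (pd k (φ i))))
    have e1' : ∑ i, ∑ k, ∑ l, ∫ x, pd l (T i k) x ^ 2 ∂S.ν =
        ∫ x, ∑ i, ∑ k, ∑ l, pd l (T i k) x ^ 2 ∂S.ν := by
      rw [integral_finsetSum _ fun i _ => integrable_finsetSum _ fun k _ =>
        integrable_finsetSum _ fun l _ => j1 i k l]
      refine Finset.sum_congr rfl fun i _ => ?_
      rw [integral_finsetSum _ fun k _ => integrable_finsetSum _ fun l _ => j1 i k l]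
      exact Finset.sum_congr rfl fun k _ => (integral_finsetSum _ fun l _ => j1 i k l).symm
    have e2' : XX S φ T = ∫ x, ∑ i, ∑ k, ∑ l, pd l (T i k) x * pd l (pd k (φ i)) x ∂S.ν := by
      unfold XX
      rw [integral_finsetSum _ fun i _ => integrable_finsetSum _ fun k _ =>
        integrable_finsetSum _ fun l _ => j2 i k l]
      refine Finset.sum_congr rfl fun i _ => ?_
      rw [integral_finsetSum _ fun k _ => integrable_finsetSum _ fun l _ => j2 i k l]
      exact Finset.sum_congr rfl fun k _ => (integral_finsetSum _ fun l _ => j2 i k l).symm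
    rw [e1', e2']
    exact integral_mono
      (integrable_finsetSum _ fun i _ => integrable_finsetSum _ fun k _ =>
        integrable_finsetSum _ fun l _ => j1 i k l)
      (integrable_finsetSum _ fun i _ => integrable_finsetSum _ fun k _ =>
        integrable_finsetSum _ fun l _ => j2 i k l) hb
  have h2 : ∑ i, ∑ k, ∑ l, ∫ x, S.V2 x k l * (T i k x * T i l x) ∂S.ν ≤ YY S φ T := by
    have j1 := iV (G := T) cT
    have j2 := iV (G := fun i k => pd k (φ i)) cM
    have e1' : ∑ i, ∑ k, ∑ l, ∫ x, S.V2 x k l * (T i k x * T i l x) ∂S.ν =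
        ∫ x, ∑ i, ∑ k, ∑ l, S.V2 x k l * (T i k x * T i l x) ∂S.ν := by
      rw [integral_finsetSum _ fun i _ => integrable_finsetSum _ fun k _ =>
        integrable_finsetSum _ fun l _ => j1 i k l]
      refine Finset.sum_congr rfl fun i _ => ?_
      rw [integral_finsetSum _ fun k _ => integrable_finsetSum _ fun l _ => j1 i k l]
      exact Finset.sum_congr rfl fun k _ => (integral_finsetSum _ fun l _ => j1 i k l).symm
    have e2' : YY S φ T = ∫ x, ∑ i, ∑ k, ∑ l, S.V2 x k l * (T i k x * pd l (φ i) x) ∂S.ν := by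
      unfold YY
      rw [integral_finsetSum _ fun i _ => integrable_finsetSum _ fun k _ =>
        integrable_finsetSum _ fun l _ => j2 i k l]
      refine Finset.sum_congr rfl fun i _ => ?_
      rw [integral_finsetSum _ fun k _ => integrable_finsetSum _ fun l _ => j2 i k l]
      exact Finset.sum_congr rfl fun k _ => (integral_finsetSum _ fun l _ => j2 i k l).symm
    rw [e1', e2']
    exact integral_mono
      (integrable_finsetSum _ fun i _ => integrable_finsetSum _ fun k _ =>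
        integrable_finsetSum _ fun l _ => j1 i k l)
      (integrable_finsetSum _ fun i _ => integrable_finsetSum _ fun k _ =>
        integrable_finsetSum _ fun l _ => j2 i k l) hc
  -- `|T| ≤ |M|`
  have h3 : tt S T ≤ TM S φ T := by
    have j1 : ∀ i k, Integrable (fun x => T i k x ^ 2) S.ν := fun i k => isq (mT i k)
    have j2 : ∀ i k, Integrable (fun x => T i k x * pd k (φ i) x) S.ν := fun i k =>
      im (mT i k) (mM i k)
    have e1' : tt S T = ∫ x, ∑ i, ∑ k, T i k x ^ 2 ∂S.ν := by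
      unfold tt
      rw [integral_finsetSum _ fun i _ => integrable_finsetSum _ fun k _ => j1 i k]
      exact Finset.sum_congr rfl fun i _ => (integral_finsetSum _ fun k _ => j1 i k).symm
    have e2' : TM S φ T = ∫ x, ∑ i, ∑ k, T i k x * pd k (φ i) x ∂S.ν := by
      unfold TM
      rw [integral_finsetSum _ fun i _ => integrable_finsetSum _ fun k _ => j2 i k]
      exact Finset.sum_congr rfl fun i _ => (integral_finsetSum _ fun k _ => j2 i k).symm
    rw [e1', e2']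
    exact integral_mono (integrable_finsetSum _ fun i _ => integrable_finsetSum _ fun k _ => j1 i k)
      (integrable_finsetSum _ fun i _ => integrable_finsetSum _ fun k _ => j2 i k) hd
  have htt0 : 0 ≤ tt S T := Finset.sum_nonneg fun i _ => Finset.sum_nonneg fun k _ =>
    integral_nonneg fun x => sq_nonneg _
  have hmm0 : 0 ≤ dsq S.ν φ := Finset.sum_nonneg fun i _ => Finset.sum_nonneg fun k _ =>
    integral_nonneg fun x => sq_nonneg _
  have h4 : √(tt S T) ≤ √(dsq S.ν φ) := by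
    have h5 := (le_abs_self _).trans (cs_fam (ν := S.ν) (ι := Fin n × Fin n)
      (fun p => mT p.1 p.2) (fun p => mM p.1 p.2))
    rw [Fintype.sum_prod_type, Fintype.sum_prod_type, Fintype.sum_prod_type] at h5
    have h6 : tt S T ≤ √(tt S T) * √(dsq S.ν φ) := h3.trans h5
    by_contra hcon
    push Not at hcon
    have h7 : 0 < √(tt S T) := (Real.sqrt_nonneg _).trans_lt hcon
    have h8 := Real.mul_self_sqrt htt0
    nlinarith
  have hZ := op_bound (S := S) hT hs he1 ha (G := fun i k => pd k (φ i)) cM sM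
  have hZ' := op_bound (S := S) hT hs he1 ha (G := T) cT hs
  have hZ1 := (le_abs_self _).trans hZ
  have hZ2 := (neg_le_abs _).trans hZ'
  have hh0 : 0 ≤ e1 * √(dsq S.ν S.w) := mul_nonneg he1 (Real.sqrt_nonneg _)
  have hZ3 : e1 * √(dsq S.ν S.w) * √(∑ i, ∑ l, ∫ x, T i l x ^ 2 ∂S.ν) ≤
      e1 * √(dsq S.ν S.w) * √(dsq S.ν φ) := mul_le_mul_of_nonneg_left h4 hh0
  change _ ≤ e1 * √(dsq S.ν S.w) * √(dsq S.ν φ) at hZ1
  change XX S φ T + (YY S φ T - _) = _ at hB
  rw [hR] at hB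
  set D2 := ∑ i, ∫ x, dv S.toSm T i x ^ 2 ∂S.ν with hD2
  have hD0 : 0 ≤ D2 := Finset.sum_nonneg fun i _ => integral_nonneg fun x => sq_nonneg _
  have hr0 : 0 ≤ r2 S φ := Finset.sum_nonneg fun i _ => integral_nonneg fun x => sq_nonneg _
  have h9 : √D2 * √(r2 S φ) ≤ t / 2 * D2 + r2 S φ / (2 * t) := by
    have h10 := Real.mul_self_sqrt hD0
    have h11 := Real.mul_self_sqrt hr0
    have h12 : 0 ≤ (t * √D2 - √(r2 S φ)) ^ 2 / (2 * t) := by positivity
    have h13 : (t * √D2 - √(r2 S φ)) ^ 2 / (2 * t) = t / 2 * (√D2 * √D2) +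
        (√(r2 S φ) * √(r2 S φ)) / (2 * t) - √D2 * √(r2 S φ) := by
      field_simp
      ring
    rw [h13, h10, h11] at h12
    linarith
  have hcs' : ∑ i, ∫ x, dv S.toSm T i x * (AW S.toSm (φ i) x - φ i x) ∂S.ν ≤
      √D2 * √(r2 S φ) := hcs
  have h14 : D2 ≤ XX S φ T + YY S φ T + e1 * √(dsq S.ν S.w) * √(dsq S.ν φ) := by linarith
  have h15 : t / 2 * D2 ≤ t / 2 * (XX S φ T + YY S φ T + e1 * √(dsq S.ν S.w) * √(dsq S.ν φ)) :=
    mul_le_mul_of_nonneg_left h14 (by positivity)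
  linarith

/-- the error term -/
theorem r2_le (hφ : ∀ i, ContDiff ℝ ∞ (φ i)) (hφs : ∀ i, HasCompactSupport (φ i)) :
    r2 S φ ≤ 2 * (∑ i, ∫ x, (φ i x + AW S.toSm (φ i) x - 2 * S.w i x) ^ 2 ∂S.ν) +
      8 * ∑ i, ∫ x, (S.w i x - φ i x) ^ 2 ∂S.ν := by
  unfold r2
  rw [Finset.mul_sum, Finset.mul_sum, ← Finset.sum_add_distrib]
  refine Finset.sum_le_sum fun i _ => ?_
  have mφ : MemLp (φ i) 2 S.ν := mcc (hφ i).continuous (hφs i)
  have mA : MemLp (AW S.toSm (φ i)) 2 S.ν := mcc (AW_smooth (hφ i)).continuous (AW_cs (hφs i))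
  have j1 : Integrable (fun x => (φ i x + AW S.toSm (φ i) x - 2 * S.w i x) ^ 2) S.ν :=
    isq ((mφ.add mA).sub ((S.w_L2 i).const_mul 2))
  have j2 : Integrable (fun x => (S.w i x - φ i x) ^ 2) S.ν := isq ((S.w_L2 i).sub mφ)
  have j3 : Integrable (fun x => (AW S.toSm (φ i) x - φ i x) ^ 2) S.ν := isq (mA.sub mφ)
  rw [← integral_const_mul, ← integral_const_mul, ← integral_add (j1.const_mul 2) (j2.const_mul 8)]
  refine integral_mono j3 ((j1.const_mul 2).add (j2.const_mul 8)) fun x => ?_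
  simp only
  nlinarith [sq_nonneg ((φ i x + AW S.toSm (φ i) x - 2 * S.w i x) - 2 * (S.w i x - φ i x))]

end

end Crest.Agent.R201.El593
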