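import Crest.Agent.R201.Clip5_78
import Crest.Agent.R201.El4_593

/-!
# R201, LSI half, CLIP block (helper78), part 6: the clip `T = cF e (D φ)` plugged into `lev2` (593)
-/

set_option autoImplicit false
set_option linter.unusedSectionVars false
open MeasureTheory Matrix
open scoped ContDiff

namespace Crest.Agent.R201.Clip78

open Crest.Agent.R201 Crest.Agent.R201.Tw807 Crest.Agent.R201.El593

variable {n : ℕ}

/-- Jacobian `B_ik = D_k φ_i` -/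
noncomputable def Bm (φ : Fin n → E n → ℝ) (x : E n) : Mt n := Matrix.of fun i k => pd k (φ i) x

/-- the clipped Jacobian, as a matrix field -/
noncomputable def Tc (e : ℝ) (φ : Fin n → E n → ℝ) (x : E n) : Mt n := cF e (Bm φ x)

/-- the clipped Jacobian, as a family of functions -/
noncomputable def Tf (e : ℝ) (φ : Fin n → E n → ℝ) (i k : Fin n) (x : E n) : ℝ := Tc e φ x i k

variable {φ : Fin n → E n → ℝ}

section

variable (hφ : ∀ i, ContDiff ℝ ∞ (φ i)) (hφs : ∀ i, HasCompactSupport (φ i))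

include hφ in
theorem Bm_smooth (i k : Fin n) : ContDiff ℝ ∞ (fun y => Bm φ y i k) := pd_smooth (hφ i) k

include hφs in
theorem Bm_cs (i k : Fin n) : HasCompactSupport (fun y => Bm φ y i k) := pd_cs (hφs i) k

include hφ in
theorem Tf_smooth (e : ℝ) (i k : Fin n) : ContDiff ℝ ∞ (Tf e φ i k) :=
  cF_field_contDiff e (fun i k => Bm_smooth hφ i k) i k

include hφ in
theorem Tf_C1 (e : ℝ) (i k : Fin n) : ContDiff ℝ 1 (Tf e φ i k) :=
  (Tf_smooth hφ e i k).of_le (by norm_cast)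

include hφs in
theorem Tf_cs (e : ℝ) (i k : Fin n) : HasCompactSupport (Tf e φ i k) :=
  cF_cs e (fun i k => Bm_cs hφs i k) i k

/-- (a) operator bound -/
theorem Tf_a {e : ℝ} (he : 0 < e) (x : E n) (u : Fin n → ℝ) :
    ∑ i, (∑ k, Tf e φ i k x * u k) ^ 2 ≤ e ^ 2 * ∑ k, u k ^ 2 := by
  have h := cFt_le' he (Bm φ x) u
  rw [form_sq] at h
  have e1 : (cF e (Bm φ x) *ᵥ u) ⬝ᵥ (cF e (Bm φ x) *ᵥ u) = ∑ i, (∑ k, Tf e φ i k x * u k) ^ 2 := by
    simp only [dotProduct, mulVec, sq]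
    rfl
  have e2 : u ⬝ᵥ ((e ^ 2 • (1 : Mt n)) *ᵥ u) = e ^ 2 * ∑ k, u k ^ 2 := by
    rw [smul_mulVec, one_mulVec, dotProduct_smul, smul_eq_mul]
    simp only [dotProduct, sq]
  rw [e1, e2] at h
  exact h

/-- (a') transposed operator bound -/
theorem Tf_a' {e : ℝ} (he : 0 < e) (x : E n) (u : Fin n → ℝ) :
    ∑ k, (∑ i, Tf e φ i k x * u i) ^ 2 ≤ e ^ 2 * ∑ i, u i ^ 2 := by
  have h := cFt_le he (Bm φ x) u
  have h0 := form_sq (cF e (Bm φ x))ᵀ u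
  rw [transpose_transpose] at h0
  rw [h0] at h
  have e1 : ((cF e (Bm φ x))ᵀ *ᵥ u) ⬝ᵥ ((cF e (Bm φ x))ᵀ *ᵥ u)
      = ∑ k, (∑ i, Tf e φ i k x * u i) ^ 2 := by
    simp only [dotProduct, mulVec, sq, transpose_apply]
    rfl
  have e2 : u ⬝ᵥ ((e ^ 2 • (1 : Mt n)) *ᵥ u) = e ^ 2 * ∑ k, u k ^ 2 := by
    rw [smul_mulVec, one_mulVec, dotProduct_smul, smul_eq_mul]
    simp only [dotProduct, sq]
  rw [e1, e2] at h
  exact h

include hφ in
theorem Bm_diff (i k : Fin n) : Differentiable ℝ (fun y => Bm φ y i k) :=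
  (Bm_smooth hφ i k).differentiable (by simp)

include hφ in
theorem Bm_C1 (i k : Fin n) : ContDiff ℝ 1 (fun y => Bm φ y i k) :=
  (Bm_smooth hφ i k).of_le (by norm_cast)

/-- (b) the comparison of derivatives -/
theorem Tf_b (hφ : ∀ i, ContDiff ℝ ∞ (φ i)) {e : ℝ} (he : 0 < e) (x : E n) :
    ∑ i, ∑ k, ∑ l, pd l (Tf e φ i k) x ^ 2 ≤
      ∑ i, ∑ k, ∑ l, pd l (Tf e φ i k) x * pd l (pd k (φ i)) x := by
  have h : ∀ l, ∑ i, ∑ k, pd l (Tf e φ i k) x ^ 2 ≤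
      ∑ i, ∑ k, pd l (Tf e φ i k) x * pd l (pd k (φ i)) x := by
    intro l
    have h1 := (pdM_cF_le he (fun i j => Bm_diff hφ i j) l x).1
    simp only [hs, Matrix.trace, Matrix.diag_apply, Matrix.mul_apply, transpose_apply, pdM,
      Matrix.of_apply] at h1
    exact h1
  have e1 : ∀ g : Fin n → Fin n → Fin n → ℝ,
      ∑ i, ∑ k, ∑ l, g i k l = ∑ l, ∑ i, ∑ k, g i k l := by
    intro g
    have : ∀ i, ∑ k, ∑ l, g i k l = ∑ l, ∑ k, g i k l := fun i => Finset.sum_comm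
    simp only [this]
    exact Finset.sum_comm
  rw [e1 (fun i k l => pd l (Tf e φ i k) x ^ 2),
    e1 (fun i k l => pd l (Tf e φ i k) x * pd l (pd k (φ i)) x)]
  exact Finset.sum_le_sum fun l _ => h l

/-- (c) the curvature term -/
theorem Tf_c {V : Mt n} (hV : LeQ 0 V) {e : ℝ} (he : 0 < e) (x : E n) :
    ∑ i, ∑ k, ∑ l, V k l * (Tf e φ i k x * Tf e φ i l x) ≤
      ∑ i, ∑ k, ∑ l, V k l * (Tf e φ i k x * pd l (φ i) x) := by
  set F := cF e (Bm φ x) with hF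
  set M := Bm φ x with hM
  have h := trace_mul_mono hV (FtF_tr F) (MtF_tr he M) (cFt_le_MFt' he M)
  have e1 : (V * (Fᵀ * F)).trace = ∑ i, ∑ k, ∑ l, V k l * (Tf e φ i k x * Tf e φ i l x) := by
    simp only [Matrix.trace, Matrix.diag_apply, Matrix.mul_apply, transpose_apply, Finset.mul_sum]
    have : ∀ k : Fin n, ∑ l, ∑ i, V k l * (F i l * F i k) = ∑ i, ∑ l, V k l * (F i l * F i k) :=
      fun k => Finset.sum_comm
    simp only [this]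
    rw [Finset.sum_comm]
    refine Finset.sum_congr rfl fun i _ => Finset.sum_congr rfl fun k _ =>
      Finset.sum_congr rfl fun l _ => ?_
    simp only [Tf, Tc, ← hM, ← hF]
    ring
  have e2 : (V * (Mᵀ * F)).trace = ∑ i, ∑ k, ∑ l, V k l * (Tf e φ i k x * pd l (φ i) x) := by
    simp only [Matrix.trace, Matrix.diag_apply, Matrix.mul_apply, transpose_apply, Finset.mul_sum]
    have : ∀ k : Fin n, ∑ l, ∑ i, V k l * (M i l * F i k) = ∑ i, ∑ l, V k l * (M i l * F i k) :=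
      fun k => Finset.sum_comm
    simp only [this]
    rw [Finset.sum_comm]
    refine Finset.sum_congr rfl fun i _ => Finset.sum_congr rfl fun k _ =>
      Finset.sum_congr rfl fun l _ => ?_
    simp only [Tf, Tc, ← hM, ← hF]
    have : M i l = pd l (φ i) x := rfl
    rw [this]
    ring
  rw [e1, e2] at h
  exact h

/-- (d) `|T|² ≤ ⟨T, M⟩` -/
theorem Tf_d {e : ℝ} (he : 0 < e) (x : E n) :
    ∑ i, ∑ k, Tf e φ i k x ^ 2 ≤ ∑ i, ∑ k, Tf e φ i k x * pd k (φ i) x := by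
  have h := (hs_cF_le_trace he (Bm φ x)).1
  simp only [hs, Matrix.trace, Matrix.diag_apply, Matrix.mul_apply, transpose_apply] at h
  refine h.trans (le_of_eq ?_)
  refine Finset.sum_congr rfl fun i _ => Finset.sum_congr rfl fun k _ => ?_
  simp only [Tf, Tc]
  have : Bm φ x i k = pd k (φ i) x := rfl
  rw [this]
  ring

end

/-- **593's level-2 inequality for the clip** -/
theorem lev2_clip {S : St n} (hV : ∀ x, LeQ 0 (S.V2 x)) (hφ : ∀ i, ContDiff ℝ ∞ (φ i))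
    (hφs : ∀ i, HasCompactSupport (φ i)) {e : ℝ} (he : 0 < e) {t : ℝ} (ht : 0 < t) :
    (1 - t / 2) * (XX S φ (Tf e φ) + YY S φ (Tf e φ)) ≤
      TM S φ (Tf e φ) + (1 + t / 2) * (e * √(dsq S.ν S.w) * √(dsq S.ν φ)) + r2 S φ / (2 * t) :=
  lev2 hφ hφs (Tf_C1 hφ e) (Tf_cs hφs e) he.le ht (fun x u => Tf_a he x u)
    (fun x => Tf_b hφ he x) (fun x => Tf_c (hV x) he x) (fun x => Tf_d he x)

/-! ### the pointwise facts of EL, in the vocabulary of `Tc`, `Bm` -/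

theorem Tc_le {e : ℝ} (he : 0 < e) (x : E n) :
    LeQ (Tc e φ x * (Tc e φ x)ᵀ) (e ^ 2 • (1 : Mt n)) ∧
      LeQ ((Tc e φ x)ᵀ * Tc e φ x) (e ^ 2 • (1 : Mt n)) :=
  ⟨cFt_le he _, cFt_le' he _⟩

/-- `|B|² - |T|² = e⁻² Tr Bᵀ T Tᵀ B` -/
theorem Tc_sub {e : ℝ} (he : 0 < e) (x : E n) :
    hs (Bm φ x) - hs (Tc e φ x)
      = (e ^ 2)⁻¹ * ((Bm φ x)ᵀ * (Tc e φ x * (Tc e φ x)ᵀ) * Bm φ x).trace := by
  rw [Tc, hs_sub_hs he, Matrix.trace_mul_comm, Matrix.mul_assoc ((Bm φ x)ᵀ),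
    Matrix.trace_mul_comm ((Bm φ x)ᵀ)]
  simp only [Matrix.mul_assoc]

theorem Tc_hs_le {e : ℝ} (he : 0 < e) (x : E n) : hs (Tc e φ x) ≤ hs (Bm φ x) := hs_cF_le he _

theorem Tc_skew {e : ℝ} (he : 0 < e) (x : E n) :
    hs (Tc e φ x - (Tc e φ x)ᵀ) ≤ hs (Bm φ x - (Bm φ x)ᵀ) := cF_sub_transpose he _

/-- `∑_l |D_l T|²` as `hs` -/
theorem sum_hs_pdM (e : ℝ) (x : E n) :
    ∑ l, hs (pdM l (Tc e φ) x) = ∑ i, ∑ k, ∑ l, pd l (Tf e φ i k) x ^ 2 := by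
  have e1 : ∀ g : Fin n → Fin n → Fin n → ℝ,
      ∑ i, ∑ k, ∑ l, g i k l = ∑ l, ∑ i, ∑ k, g i k l := by
    intro g
    have : ∀ i, ∑ k, ∑ l, g i k l = ∑ l, ∑ k, g i k l := fun i => Finset.sum_comm
    simp only [this]
    exact Finset.sum_comm
  rw [e1]
  rfl

/-- `Tr V TᵀT` in coordinates -/
theorem trace_V_Tc (V : Mt n) (e : ℝ) (x : E n) :
    (V * ((Tc e φ x)ᵀ * Tc e φ x)).trace
      = ∑ i, ∑ k, ∑ l, V k l * (Tf e φ i k x * Tf e φ i l x) := by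
  simp only [Matrix.trace, Matrix.diag_apply, Matrix.mul_apply, transpose_apply, Finset.mul_sum]
  have : ∀ k : Fin n, ∑ l, ∑ i, V k l * (Tc e φ x i l * Tc e φ x i k)
      = ∑ i, ∑ l, V k l * (Tc e φ x i l * Tc e φ x i k) :=
    fun k => Finset.sum_comm
  simp only [this]
  rw [Finset.sum_comm]
  refine Finset.sum_congr rfl fun i _ => Finset.sum_congr rfl fun k _ =>
    Finset.sum_congr rfl fun l _ => ?_
  simp only [Tf]
  ring

/-- the symmetrised clip of the Jacobian -/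
noncomputable def Sc (e : ℝ) (φ : Fin n → E n → ℝ) (x : E n) : Mt n := sF e (Bm φ x)

theorem Bm_bdd (hφ : ∀ i, ContDiff ℝ ∞ (φ i)) (hφs : ∀ i, HasCompactSupport (φ i)) :
    ∃ B : ℝ, ∀ x k i j, |pd k (fun y => Bm φ y i j) x| ≤ B := by
  have h : ∀ k i j, ∃ B : ℝ, ∀ x, |pd k (fun y => Bm φ y i j) x| ≤ B := fun k i j =>
    bdd_of_cc (pd_cont (Bm_C1 hφ i j) k) (pd_cs (Bm_cs hφs i j) k)
  choose B hB using h
  refine ⟨∑ k, ∑ i, ∑ j, |B k i j|, fun x k i j => ?_⟩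
  refine (hB k i j x).trans ((le_abs_self _).trans ?_)
  refine le_trans ?_ (Finset.single_le_sum (f := fun k => ∑ i, ∑ j, |B k i j|)
    (fun _ _ => Finset.sum_nonneg fun _ _ => Finset.sum_nonneg fun _ _ => abs_nonneg _)
    (Finset.mem_univ k))
  refine le_trans ?_ (Finset.single_le_sum (f := fun i => ∑ j, |B k i j|)
    (fun _ _ => Finset.sum_nonneg fun _ _ => abs_nonneg _) (Finset.mem_univ i))
  exact Finset.single_le_sum (f := fun j => |B k i j|) (fun _ _ => abs_nonneg _)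
    (Finset.mem_univ j)

theorem Sc_CB (hφ : ∀ i, ContDiff ℝ ∞ (φ i)) (hφs : ∀ i, HasCompactSupport (φ i)) {e : ℝ}
    (he : 0 < e) (p : Fin n × Fin n) : CB (famM (Sc e φ) p) := by
  obtain ⟨B, hB⟩ := Bm_bdd hφ hφs
  exact sF_CB he (fun i j => Bm_C1 hφ i j) hB p

theorem Tc_CB (hφ : ∀ i, ContDiff ℝ ∞ (φ i)) (hφs : ∀ i, HasCompactSupport (φ i)) {e : ℝ}
    (he : 0 < e) (p : Fin n × Fin n) : CB (famM (Tc e φ) p) := by
  obtain ⟨B, hB⟩ := Bm_bdd hφ hφs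
  exact cF_CB' he (fun i j => Bm_C1 hφ i j) hB p

theorem Sc_facts (hφ : ∀ i, ContDiff ℝ ∞ (φ i)) {e : ℝ} (he : 0 < e) (x : E n) :
    (Sc e φ x)ᵀ = Sc e φ x ∧ LeQ (Sc e φ x * Sc e φ x) (e ^ 2 • (1 : Mt n)) ∧
    (Sc e φ x * Sc e φ x * (Sc e φ x * Sc e φ x)).trace ≤ e ^ 2 * (Sc e φ x * Sc e φ x).trace ∧
    hs (Sc e φ x) ≤ hs (Tc e φ x) ∧ hs (Sc e φ x - Tc e φ x) ≤ 1 / 4 * hs (Bm φ x - (Bm φ x)ᵀ) ∧
    ∀ k, hs (pdM k (Sc e φ) x) ≤ hs (pdM k (Tc e φ) x) :=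
  ⟨sF_symm e _, sF_sq_le he _, trace_sF_four he _, hs_sF_le e _, sF_sub_le he _, fun k =>
    hs_pdM_sF_le e (fun i j => Bm_C1 hφ i j) k x⟩

/-- the rigidity field -/
noncomputable def Ac (e : ℝ) (φ : Fin n → E n → ℝ) (x : E n) : Mt n := bF e (Bm φ x)

theorem Ac_facts (hφ : ∀ i, ContDiff ℝ ∞ (φ i)) {e : ℝ} (he : 0 < e) (x : E n) :
    (Ac e φ x)ᵀ = Ac e φ x ∧ LeQ 0 (Ac e φ x) ∧ LeQ (Ac e φ x) 1 ∧
    (Ac e φ x).trace = (e ^ 2)⁻¹ * hs (Tc e φ x) ∧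
    hs (Bm φ x) - hs (Tc e φ x) = ((Bm φ x)ᵀ * Ac e φ x * Bm φ x).trace ∧
    ∀ k, hs (pdM k (Ac e φ) x) ≤ 4 / e ^ 2 * hs (pdM k (Tc e φ) x) := by
  refine ⟨bF_symm e _, bF_nonneg e _, bF_le_one he _, ?_, ?_, fun k =>
    hs_pdM_bF_le he (fun i j => Bm_C1 hφ i j) k x⟩
  · rw [Ac, bF, trace_smul, smul_eq_mul, Tc, MX354.hs_eq_trace]
  · rw [Tc_sub he, Ac, bF, mul_smul_comm, smul_mul_assoc, trace_smul, smul_eq_mul]
    rfl

theorem Ac_cs (hφs : ∀ i, HasCompactSupport (φ i)) (e : ℝ) (i j : Fin n) :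
    HasCompactSupport (fun x => Ac e φ x i j) := by
  have e1 : (fun x => Ac e φ x i j) = fun x => (e ^ 2)⁻¹ * ∑ l, Tf e φ i l x * Tf e φ j l x := by
    funext x
    simp only [Ac, bF, Matrix.smul_apply, Matrix.mul_apply, transpose_apply, smul_eq_mul]
    rfl
  rw [e1]
  exact (cs_sum _ fun l _ => (Tf_cs hφs e i l).mul_right (f' := Tf e φ j l)).mul_left
    (f := fun _ => (e ^ 2)⁻¹)

theorem Ac_smooth (hφ : ∀ i, ContDiff ℝ ∞ (φ i)) (e : ℝ) (i j : Fin n) :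
    ContDiff ℝ ∞ (fun x => Ac e φ x i j) := by
  have e1 : (fun x => Ac e φ x i j) = fun x => (e ^ 2)⁻¹ * ∑ l, Tf e φ i l x * Tf e φ j l x := by
    funext x
    simp only [Ac, bF, Matrix.smul_apply, Matrix.mul_apply, transpose_apply, smul_eq_mul]
    rfl
  rw [e1]
  exact contDiff_const.mul (ContDiff.sum fun l _ => (Tf_smooth hφ e i l).mul (Tf_smooth hφ e j l))

end Crest.Agent.R201.Clip78
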