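import Crest.Agent.R201.FD8e_947

/-!
# R201, KLS half (helper947): FD8 (`covZ`), the linear statistics; the literal leaf
-/

set_option autoImplicit false
open MeasureTheory Matrix

namespace Crest.Agent.R201.N947

set_option maxHeartbeats 400000

variable {n : ℕ} {K : KD n}

section Lin

variable {ι : Type} [Fintype ι] {F : ι → E n → ℝ}

/-- the coefficients `∫ r_k F_i` -/
noncomputable def Bc (K : KD n) (F : ι → E n → ℝ) (k : Fin n) (i : ι) : ℝ :=
  ∫ x, K.r k x * F i x ∂K.μ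

/-- the test family `Σ_k B_ki r_k` -/
noncomputable def Ph (K : KD n) (F : ι → E n → ℝ) (i : ι) (x : E n) : ℝ :=
  ∑ k, Bc K F k i * K.r k x

omit [Fintype ι] in
theorem Ph_cb (i : ι) : CB (Ph K F i) :=
  Tw807.cb_sum _ fun k _ => Tw807.cb_const_mul _ (K.r_cb k)

omit [Fintype ι] in
theorem Ph_mean (i : ι) : ∫ x, Ph K F i x ∂K.μ = 0 := by
  unfold Ph
  rw [integral_finsetSum _ fun k _ => (Tw807.int_cb K (K.r_cb k)).const_mul _]
  refine Finset.sum_eq_zero fun k _ => ?_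
  rw [integral_const_mul, K.r_mean, mul_zero]

omit [Fintype ι] in
theorem Ph_pd (i : ι) (j : Fin n) (x : E n) :
    pd j (Ph K F i) x = ∑ k, (1 - K.h • K.V2 x) j k * Bc K F k i := by
  unfold Ph
  rw [Tw807.pd_sum _ j fun k _ => (Tw807.cb_diff (Tw807.cb_const_mul _ (K.r_cb k)) x)]
  refine Finset.sum_congr rfl fun k _ => ?_
  rw [Tw807.pd_const_mul _ j (Tw807.cb_diff (K.r_cb k) x), K.r_pd]
  simp only [Matrix.sub_apply, Matrix.one_apply, Matrix.smul_apply, smul_eq_mul]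
  ring

omit [Fintype ι] in
theorem Ph_F (hF : ∀ i, CB (F i)) (i : ι) :
    ∫ x, Ph K F i x * F i x ∂K.μ = ∑ k, Bc K F k i ^ 2 := by
  have e : ∀ x, Ph K F i x * F i x = ∑ k, Bc K F k i * (K.r k x * F i x) := by
    intro x
    unfold Ph
    rw [Finset.sum_mul]
    exact Finset.sum_congr rfl fun k _ => by ring
  simp only [e]
  rw [integral_finsetSum _ fun k _ => (Tw807.int_mul_cb (K.r_cb k) (hF i)).const_mul _]
  refine Finset.sum_congr rfl fun k _ => ?_
  rw [integral_const_mul, sq]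
  rfl

/-- `E |DΦ|² ≤ η² S` -/
theorem Ph_dsq : dsq K.μ (Ph K F) ≤ K.η ^ 2 * ∑ k, ∑ i, Bc K F k i ^ 2 := by
  have hQ : ∀ j k, BC (fun x => ((1 - K.h • K.V2 x) * (1 - K.h • K.V2 x)) j k) := by
    intro j k
    have h1 : ∀ i j, BC (fun x => (1 - K.h • K.V2 x) i j) := by
      intro i j
      simp only [Matrix.sub_apply, Matrix.smul_apply, smul_eq_mul]
      exact (BC.const _).sub ((BC_V2 K i j).const_mul _)
    simp only [Matrix.mul_apply]
    exact BC.sum _ fun l _ => (h1 j l).mul (h1 l k)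
  have h := int_sl_const hQ K.r_sq (Bc K F)
  refine le_trans (le_of_eq ?_) h
  have hs : ∀ x, (1 - K.h • K.V2 x)ᵀ = 1 - K.h • K.V2 x := by
    intro x
    rw [transpose_sub, transpose_one, transpose_smul, K.V2_symm]
  have e : ∀ x, sl ((1 - K.h • K.V2 x) * (1 - K.h • K.V2 x)) (Bc K F) =
      ∑ i, ∑ j, pd j (Ph K F i) x ^ 2 := by
    intro x
    rw [sl_sq (hs x), Finset.sum_comm]
    refine Finset.sum_congr rfl fun i _ => Finset.sum_congr rfl fun j _ => ?_
    rw [Ph_pd]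
  simp only [e]
  unfold dsq
  rw [integral_finsetSum _ fun i _ => integrable_finsetSum _ fun j _ => int_sq_pd (Ph_cb i) j]
  refine Finset.sum_congr rfl fun i _ => ?_
  rw [integral_finsetSum _ fun j _ => int_sq_pd (Ph_cb i) j]

theorem Ph_tsq : tsq K.μ K.ω (Ph K F) ≤ K.ν * nsq K.μ (Ph K F) := by
  unfold tsq nsq
  rw [Finset.mul_sum]
  exact Finset.sum_le_sum fun i _ => K.ω_le _ (Tw807.memLp_cb K (Ph_cb i) 2)

theorem Ph_msq : msq K.μ (Ph K F) = 0 := by
  unfold msq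
  refine Finset.sum_eq_zero fun i _ => ?_
  rw [Ph_mean]
  ring

theorem nsq_nonneg {ι : Type*} [Fintype ι] (f : ι → E n → ℝ) : 0 ≤ nsq K.μ f :=
  Finset.sum_nonneg fun _ _ => integral_nonneg fun _ => sq_nonneg _

/-- `tsq Φ ≤ η² S / 96`, `q Φ ≤ (25/24) η² S` -/
theorem Ph_bounds : tsq K.μ K.ω (Ph K F) ≤ (1 / 96) * (K.η ^ 2 * ∑ k, ∑ i, Bc K F k i ^ 2) ∧
    K.q (Ph K F) ≤ (25 / 24) * (K.η ^ 2 * ∑ k, ∑ i, Bc K F k i ^ 2) := by
  have h1 := Ph_dsq (K := K) (F := F)
  have h2 := Ph_tsq (K := K) (F := F)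
  have h3 := Ph_msq (K := K) (F := F)
  have h4 := q_nonneg K (Ph K F) Ph_cb
  have h5 : 0 ≤ nsq K.μ (Ph K F) := nsq_nonneg _
  have h6 : 0 ≤ tsq K.μ K.ω (Ph K F) := tsq_nonneg _
  have k1 := K.ν_nonneg
  have k2 := K.ν_le
  have k3 := K.ε_nonneg
  have k4 := K.kp_pos
  have k5 := K.kp_le
  unfold KD.q at h4 ⊢
  rw [h3] at h4 ⊢
  set N := nsq K.μ (Ph K F)
  set T := tsq K.μ K.ω (Ph K F)
  set Dd := dsq K.μ (Ph K F)
  set W := K.η ^ 2 * ∑ k, ∑ i, Bc K F k i ^ 2
  have h7 : T ≤ (1 / 100) * N := h2.trans (mul_le_mul_of_nonneg_right k2 h5)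
  have h8 : K.kp * T ≤ 4 * T := mul_le_mul_of_nonneg_right k5 h6
  have h9 : 0 ≤ K.ε * N := mul_nonneg k3 h5
  constructor <;> nlinarith

/-- **the linear statistics of `F`** -/
theorem tsq_le_mean (hF : ∀ i, CB (F i)) {D a : ℝ} (hD : 0 ≤ D) (hq : K.q F ≤ 7 * D)
    (ht : tsq K.μ K.ω F ≤ D)
    (he : K.h * en K.μ K.V2 (fun k i x => pd k (F i) x) ≤ a) :
    tsq K.μ K.ω F ≤ 10 * (∑ k, ∑ i, (∫ x, pd k (F i) x ∂K.μ) ^ 2) + 8 * a
      + 120 * (K.η ^ 2 * D) := by
  set S := ∑ k, ∑ i, Bc K F k i ^ 2 with hS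
  set A := ∑ k, ∑ i, (∫ x, pd k (F i) x ∂K.μ) ^ 2 with hA
  have hη := K.η_pos
  have hη2 : 0 < K.η ^ 2 := by positivity
  have hS0 : 0 ≤ S := Finset.sum_nonneg fun _ _ => Finset.sum_nonneg fun _ _ => sq_nonneg _
  have hA0 : 0 ≤ A := Finset.sum_nonneg fun _ _ => Finset.sum_nonneg fun _ _ => sq_nonneg _
  have hb := Ph_bounds (K := K) (F := F)
  -- the gradient term
  have g1 : ∑ i, ∑ j, ∫ x, pd j (Ph K F i) x * pd j (F i) x ∂K.μ ≤
      (1 / 4) * S + A + ((1 / 4) * S + a) := by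
    have hpt : ∀ x, ∑ i, ∑ j, pd j (Ph K F i) x * pd j (F i) x ≤
        (∑ i, ∑ j, Bc K F j i * pd j (F i) x) + ((1 / 4) * S
          + K.h * sl (K.V2 x) (fun k i => pd k (F i) x)) := by
      intro x
      have e : ∑ i, ∑ j, pd j (Ph K F i) x * pd j (F i) x =
          (∑ i, ∑ j, Bc K F j i * pd j (F i) x)
            + K.h * ∑ i, ∑ p, ∑ p', K.V2 x p p' * (- Bc K F p i) * pd p' (F i) x := by
        rw [Finset.mul_sum, ← Finset.sum_add_distrib]
        refine Finset.sum_congr rfl fun i _ => ?_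
        rw [Finset.sum_comm (f := fun p p' => K.V2 x p p' * (- Bc K F p i) * pd p' (F i) x),
          Finset.mul_sum, ← Finset.sum_add_distrib]
        refine Finset.sum_congr rfl fun j _ => ?_
        rw [Ph_pd, Finset.sum_mul, Finset.mul_sum]
        have e1 : ∀ k, (1 - K.h • K.V2 x) j k * Bc K F k i * pd j (F i) x =
            (if j = k then Bc K F k i * pd j (F i) x else 0)
              + K.h * (K.V2 x k j * (- Bc K F k i) * pd j (F i) x) := by
          intro k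
          have hsym : K.V2 x k j = K.V2 x j k := by
            have := congrFun (congrFun (K.V2_symm x) j) k
            simpa using this
          rw [hsym]
          simp only [Matrix.sub_apply, Matrix.one_apply, Matrix.smul_apply, smul_eq_mul]
          split_ifs <;> ring
        rw [Finset.sum_congr rfl fun k _ => e1 k, Finset.sum_add_distrib]
        simp only [Finset.sum_ite_eq, Finset.mem_univ, if_true]
      rw [e]
      have h1 := sl_young (K.V2_symm x) (K.V2_nonneg x) (fun p i => - Bc K F p i)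
        (fun p i => pd p (F i) x) (t := 1 / 2) (by norm_num)
      have h2 : sl (K.V2 x) (fun p i => - Bc K F p i) = sl (K.V2 x) (Bc K F) := by
        unfold sl
        refine Finset.sum_congr rfl fun i _ => Finset.sum_congr rfl fun p _ =>
          Finset.sum_congr rfl fun p' _ => ?_
        ring
      have h3 : K.h * sl (K.V2 x) (Bc K F) ≤ S := by
        have := sl_mono (K.V2_le x) (Bc K F)
        rw [sl_one] at this
        refine le_trans (le_of_eq ?_) this
        unfold sl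
        simp only [Matrix.smul_apply, smul_eq_mul, Finset.mul_sum]
        refine Finset.sum_congr rfl fun i _ => Finset.sum_congr rfl fun p _ =>
          Finset.sum_congr rfl fun p' _ => ?_
        ring
      rw [show (1 : ℝ) / 2 / 2 = 1 / 4 by norm_num, show (1 : ℝ) / (2 * (1 / 2)) = 1 by norm_num,
        one_mul, h2] at h1
      have h4 := mul_le_mul_of_nonneg_left h1 K.h_pos.le
      have h5 : K.h * (1 / 4 * sl (K.V2 x) (Bc K F) + sl (K.V2 x) fun p i => pd p (F i) x) =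
          (1 / 4) * (K.h * sl (K.V2 x) (Bc K F)) + K.h * sl (K.V2 x) fun p i => pd p (F i) x := by
        ring
      rw [h5] at h4
      linarith
    have b1 : ∀ i j, BC (fun x => pd j (Ph K F i) x * pd j (F i) x) := fun i j =>
      (BC.pd (Ph_cb i) j).mul (BC.pd (hF i) j)
    have b2 : ∀ i j, BC (fun x => Bc K F j i * pd j (F i) x) := fun i j =>
      (BC.pd (hF i) j).const_mul _
    have b3 : BC (fun x => sl (K.V2 x) (fun k i => pd k (F i) x)) :=
      BC_sl (Q := K.V2) (f := fun k i x => pd k (F i) x) (BC_V2 K) fun p i => BC.pd (hF i) p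
    have b4 : BC (fun x => ∑ i, ∑ j, Bc K F j i * pd j (F i) x) :=
      BC.sum _ fun i _ => BC.sum _ fun j _ => b2 i j
    have hint := integral_mono (μ := K.μ)
      (BC.sum Finset.univ fun i _ => BC.sum Finset.univ fun j _ => b1 i j).int
      (b4.add ((BC.const ((1 / 4) * S)).add (b3.const_mul K.h))).int hpt
    rw [integral_finsetSum _ fun i _ => (BC.sum Finset.univ fun j _ => b1 i j).int,
      integral_add b4.int ((BC.const ((1 / 4) * S)).add (b3.const_mul K.h)).int,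
      integral_add (BC.const ((1 / 4) * S)).int (b3.const_mul K.h).int, integral_const_mul,
      integral_const_mul,
      integral_finsetSum _ fun i _ => (BC.sum Finset.univ fun j _ => b2 i j).int] at hint
    have := K.prob
    have c1 : ∫ _x : E n, S ∂K.μ = S := by simp
    rw [c1] at hint
    have c2 : ∑ i, ∫ x, ∑ j, pd j (Ph K F i) x * pd j (F i) x ∂K.μ =
        ∑ i, ∑ j, ∫ x, pd j (Ph K F i) x * pd j (F i) x ∂K.μ :=
      Finset.sum_congr rfl fun i _ => integral_finsetSum _ fun j _ => (b1 i j).int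
    have c3 : ∑ i, ∫ x, ∑ j, Bc K F j i * pd j (F i) x ∂K.μ ≤ (1 / 4) * S + A := by
      have e : ∑ i, ∫ x, ∑ j, Bc K F j i * pd j (F i) x ∂K.μ =
          ∑ j, ∑ i, Bc K F j i * ∫ x, pd j (F i) x ∂K.μ := by
        rw [Finset.sum_comm]
        refine Finset.sum_congr rfl fun i _ => ?_
        rw [integral_finsetSum _ fun j _ => (b2 i j).int]
        exact Finset.sum_congr rfl fun j _ => integral_const_mul _ _
      rw [e, hS, hA, Finset.mul_sum, ← Finset.sum_add_distrib]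
      refine Finset.sum_le_sum fun j _ => ?_
      rw [Finset.mul_sum, ← Finset.sum_add_distrib]
      refine Finset.sum_le_sum fun i _ => ?_
      nlinarith [sq_nonneg (Bc K F j i / 2 - ∫ x, pd j (F i) x ∂K.μ)]
    rw [c2] at hint
    rw [en_eq] at he
    linarith
  -- the penalty term
  have g2 : K.kp * ∑ i, ∑ k, (∫ x, K.ω k x * Ph K F i x ∂K.μ) * (∫ x, K.ω k x * F i x ∂K.μ) ≤
      (1 / 8) * S + (1 / 3) * (K.η ^ 2 * D) := by
    have h1 : ∑ i, ∑ k, (∫ x, K.ω k x * Ph K F i x ∂K.μ) * (∫ x, K.ω k x * F i x ∂K.μ) ≤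
        (3 / K.η ^ 2) * tsq K.μ K.ω (Ph K F) + (K.η ^ 2 / 12) * tsq K.μ K.ω F := by
      unfold tsq
      rw [Finset.mul_sum, Finset.mul_sum, ← Finset.sum_add_distrib]
      refine Finset.sum_le_sum fun i _ => ?_
      rw [Finset.mul_sum, Finset.mul_sum, ← Finset.sum_add_distrib]
      refine Finset.sum_le_sum fun k _ => ?_
      set u := ∫ x, K.ω k x * Ph K F i x ∂K.μ
      set v := ∫ x, K.ω k x * F i x ∂K.μ
      have h2 : 0 ≤ (3 / K.η ^ 2) * (u - (K.η ^ 2 / 6) * v) ^ 2 := by positivity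
      have e : (3 / K.η ^ 2) * (u - (K.η ^ 2 / 6) * v) ^ 2 =
          (3 / K.η ^ 2) * u ^ 2 - u * v + (K.η ^ 2 / 12) * v ^ 2 := by
        field_simp
        ring
      linarith
    have h2 : (3 / K.η ^ 2) * tsq K.μ K.ω (Ph K F) ≤ (1 / 32) * S := by
      calc (3 / K.η ^ 2) * tsq K.μ K.ω (Ph K F) ≤
          (3 / K.η ^ 2) * ((1 / 96) * (K.η ^ 2 * S)) :=
            mul_le_mul_of_nonneg_left hb.1 (by positivity)
        _ = (1 / 32) * S := by field_simp; ring
    have h3 : (K.η ^ 2 / 12) * tsq K.μ K.ω F ≤ (K.η ^ 2 / 12) * D :=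
      mul_le_mul_of_nonneg_left ht (by positivity)
    have h4 : ∑ i, ∑ k, (∫ x, K.ω k x * Ph K F i x ∂K.μ) * (∫ x, K.ω k x * F i x ∂K.μ) ≤
        (1 / 32) * S + (K.η ^ 2 / 12) * D := by linarith
    have h5 : 0 ≤ (1 / 32) * S + (K.η ^ 2 / 12) * D := by positivity
    calc _ ≤ K.kp * ((1 / 32) * S + (K.η ^ 2 / 12) * D) :=
          mul_le_mul_of_nonneg_left h4 K.kp_pos
      _ ≤ 4 * ((1 / 32) * S + (K.η ^ 2 / 12) * D) := mul_le_mul_of_nonneg_right K.kp_le h5
      _ = _ := by ring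
  -- Cauchy–Schwarz for `q`
  have g3 : - K.qb (Ph K F) F ≤ (1 / 8) * S + (175 / 12) * (K.η ^ 2 * D) := by
    have h1 := qb_sq_le K (Ph K F) F Ph_cb hF
    have h2 : 0 ≤ K.q (Ph K F) := q_nonneg K _ Ph_cb
    have h3 : 0 ≤ K.q F := q_nonneg K _ hF
    have h4 : K.q (Ph K F) * K.q F ≤ ((25 / 24) * (K.η ^ 2 * S)) * (7 * D) :=
      mul_le_mul hb.2 hq h3 (by positivity)
    have h5 : K.qb (Ph K F) F ^ 2 ≤ ((1 / 8) * S + (175 / 12) * (K.η ^ 2 * D)) ^ 2 := by
      refine h1.trans (h4.trans ?_)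
      nlinarith [sq_nonneg ((1 / 8) * S - (175 / 12) * (K.η ^ 2 * D))]
    have h6 : 0 ≤ (1 / 8) * S + (175 / 12) * (K.η ^ 2 * D) := by positivity
    have h7 := abs_le_of_sq_le_sq h5 h6
    rcases abs_le.1 h7 with ⟨h8, h9⟩
    linarith
  -- the identity
  have g4 : K.qb (Ph K F) F = (∑ i, ∑ j, ∫ x, pd j (Ph K F i) x * pd j (F i) x ∂K.μ)
      + K.kp * (∑ i, ∑ k, (∫ x, K.ω k x * Ph K F i x ∂K.μ) * (∫ x, K.ω k x * F i x ∂K.μ))
      - (1 + K.ε) * S := by
    have e1 : ∑ i, ∫ x, Ph K F i x * F i x ∂K.μ = S := by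
      rw [hS, Finset.sum_comm]
      exact Finset.sum_congr rfl fun i _ => Ph_F hF i
    unfold KD.qb
    rw [Finset.sum_sub_distrib, Finset.sum_add_distrib, ← Finset.mul_sum, ← Finset.mul_sum]
    simp only [Ph_mean, zero_mul, sub_zero]
    rw [e1]
  have g5 : S ≤ 4 * A + 4 * a + 60 * (K.η ^ 2 * D) := by
    have h1 : S ≤ (1 + K.ε) * S := by nlinarith [K.ε_nonneg]
    have h2 : 0 ≤ K.η ^ 2 * D := by positivity
    linarith
  -- the last step
  have g6 : tsq K.μ K.ω F ≤ 2 * S + 2 * A := by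
    have h1 : ∀ i k, (∫ x, K.ω k x * F i x ∂K.μ) ^ 2 ≤
        2 * Bc K F k i ^ 2 + 2 * (∫ x, pd k (F i) x ∂K.μ) ^ 2 := by
      intro i k
      have i1 : Integrable (fun x => K.r k x * F i x) K.μ := Tw807.int_mul_cb (K.r_cb k) (hF i)
      have i2 : Integrable (fun x => K.Vg k x * F i x) K.μ :=
        (K.Vg_L2 k).integrable_mul (Tw807.memLp_cb K (hF i) 2)
      have e : ∫ x, K.ω k x * F i x ∂K.μ = Bc K F k i + K.h * ∫ x, pd k (F i) x ∂K.μ := by
        have e1 : ∀ x, K.ω k x * F i x = K.r k x * F i x + K.h * (K.Vg k x * F i x) := by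
          intro x
          rw [K.ω_eq]
          ring
        simp only [e1]
        rw [integral_add i1 (i2.const_mul _), integral_const_mul, K.ibp k _ (hF i)]
        rfl
      rw [e]
      set u := Bc K F k i
      set v := ∫ x, pd k (F i) x ∂K.μ
      have h2 : (K.h * v) ^ 2 ≤ v ^ 2 := by
        rw [mul_pow]
        have : K.h ^ 2 ≤ 1 := by
          have := K.h_le
          have := K.h_pos
          nlinarith
        nlinarith [sq_nonneg v]
      nlinarith [sq_nonneg (u - K.h * v)]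
    have h2 : tsq K.μ K.ω F ≤ ∑ i, ∑ k, (2 * Bc K F k i ^ 2
        + 2 * (∫ x, pd k (F i) x ∂K.μ) ^ 2) :=
      Finset.sum_le_sum fun i _ => Finset.sum_le_sum fun k _ => h1 i k
    refine h2.trans (le_of_eq ?_)
    rw [hS, hA, Finset.mul_sum, Finset.mul_sum, ← Finset.sum_add_distrib, Finset.sum_comm]
    refine Finset.sum_congr rfl fun k _ => ?_
    rw [Finset.sum_add_distrib, Finset.mul_sum, Finset.mul_sum]
  linarith

end Lin

/-- `h · en V'' (DZ) ≤ a` -/
theorem en_V2_DZ {R : Type} [Fintype R] {a : ℝ} {M : E n → T3 n R} {Z : E n → Mt n}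
    (hp : Pack K R a M Z) :
    K.h * en K.μ K.V2 (fun k (i : Fin n × Fin n) x => pd k (famM Z i) x) ≤ a := by
  have hrf := MX354.root_field K hp
  have b1 : BC (fun x => sl (K.V2 x) (fun k (i : Fin n × Fin n) => pd k (famM Z i) x)) :=
    BC_sl (Q := K.V2) (f := fun k (i : Fin n × Fin n) x => pd k (famM Z i) x)
      (BC_V2 K) fun p i => BC.pd (hrf.1 i) p
  have b2 : BC (fun x => sl (K.V2 x)
      (fun k (i : Fin n × Fin n × Fin n × R) => pd k (fam3 M i) x)) :=
    BC_sl (Q := K.V2) (f := fun k (i : Fin n × Fin n × Fin n × R) x => pd k (fam3 M i) x)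
      (BC_V2 K) fun p i => BC.pd (hp.cb i) p
  have hpt : ∀ x, sl (K.V2 x) (fun k (i : Fin n × Fin n) => pd k (famM Z i) x) ≤
      sl (K.V2 x) (fun k (i : Fin n × Fin n × Fin n × R) => pd k (fam3 M i) x) := by
    intro x
    have h0 := sl_le_of_comb (K.V2_symm x) (K.V2_nonneg x)
      (f := fun k (i : Fin n × Fin n) => pd k (famM Z i) x)
      (g := fun k (i : Fin n × Fin n × Fin n × R) => pd k (fam3 M i) x) (c := 1) fun ξ => by
        have h := hs_comb_Y_le (hp.sym x) (fun k => sym3_pdT hp.sym k x) (hp.Zpos x) (hp.Zsq x)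
          (fun k => hrf.2.1 x k) (fun k => hrf.2.2 x k) ξ
        rw [ip_comb_apply, hs_comb_apply] at h
        rw [one_mul]
        exact h
    rwa [one_mul] at h0
  have h2 : en K.μ K.V2 (fun k (i : Fin n × Fin n) x => pd k (famM Z i) x) ≤
      en K.μ K.V2 (fun k (i : Fin n × Fin n × Fin n × R) x => pd k (fam3 M i) x) := by
    rw [en_eq, en_eq]
    exact integral_mono b1.int b2.int hpt
  exact (mul_le_mul_of_nonneg_left h2 K.h_pos.le).trans hp.enD

/-- FD8 section 9 : `c_Z = |Cov(x, Z)|²` for a pack with extension -/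
theorem covZ : ∀ h1 : ℝ, 0 < h1 → ∃ C : ℝ, 0 < C ∧ ∀ (n : ℕ) (K : KD n) (R : Type) [Fintype R]
    (a D : ℝ) (M : E n → T3 n R) (Mp : Fin n → E n → T3 n R) (Z : E n → Mt n),
    Pack K R a M Z → Ext K R a M Mp Z → 0 ≤ a → 0 < D → a ≤ D →
    msq K.μ (famM Z) ≤ D → tsq K.μ K.ω (famM Z) ≤ D → h1 ≤ K.h → K.η ≤ 1 / 100 →
    tsq K.μ K.ω (famM Z) ≤ C * (a + msq K.μ (famM Z) + K.η ^ 2 * D) := by
  intro h1 _
  obtain ⟨C', C, _, hC0, hC⟩ := NB152.conn_exists
  refine ⟨4000 + 1280 * C, by positivity, ?_⟩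
  intro n K R _ a D M Mp Z hp hx ha hD haD hm ht _ _
  have hrf := MX354.root_field K hp
  have e1 := mean_DZ hC0 hp hx haD hm ht (hC n R)
  have e2 := tsq_le_mean hrf.1 hD.le (budget hp haD hm ht).1 ht (en_V2_DZ hp)
  have hm0 : 0 ≤ msq K.μ (famM Z) := msq_nonneg _
  have hη : 0 ≤ K.η ^ 2 * D := by positivity
  have hCa : 0 ≤ C * a := by positivity
  have hCm : 0 ≤ C * msq K.μ (famM Z) := by positivity
  nlinarith

end Crest.Agent.R201.N947
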