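import Crest.Agent.R201.Defs2_74

/-!
# R201 FIN: the tensor side closes (section 10).  Owner helper74.
The six leaves used are hypotheses here, literally as in `Leaves_74.lean`.
-/

set_option autoImplicit false
open MeasureTheory Matrix

namespace Crest.Agent.R201.Fin74

open Crest.Agent.R201

/-- literal statement of the leaf `meanZ` -/
def MeanZ : Prop := ∀ h1 : ℝ, 0 < h1 → ∃ C : ℝ, 0 < C ∧ ∀ (n : ℕ) (K : KD n) (R : Type) [Fintype R]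
    (a D : ℝ) (M : E n → T3 n R) (Mp : Fin n → E n → T3 n R) (Z Z' : E n → Mt n),
    Ctx K R a D M Mp Z Z' → h1 ≤ K.h → K.η ≤ 1 / 100 →
    ∀ X : ℝ, 1 ≤ X → msq K.μ (famM Z) ≤
      C * (a + (K.η * Real.sqrt X + 1 / X + K.η) ^ 2 * D)

/-- literal statement of the leaf `meanZ'` -/
def MeanZ' : Prop := ∀ (n : ℕ) (K : KD n) (R : Type) [Fintype R] (a : ℝ) (M : E n → T3 n R)
    (Mp : Fin n → E n → T3 n R) (Z Z' : E n → Mt n) (_ : Pack K R a M Z)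
    (_ : Pack K (R ⊕ (R × Fin n)) a (fun x => bigM (M x) (fun k => Mp k x)) Z')
    (_ : Ext K R a M Mp Z), msq K.μ (famM Z') ≤ 121 * msq K.μ (famM Z)

/-- literal statement of the leaf `covZ` -/
def CovZ : Prop := ∀ h1 : ℝ, 0 < h1 → ∃ C : ℝ, 0 < C ∧ ∀ (n : ℕ) (K : KD n) (R : Type) [Fintype R]
    (a D : ℝ) (M : E n → T3 n R) (Mp : Fin n → E n → T3 n R) (Z : E n → Mt n),
    Pack K R a M Z → Ext K R a M Mp Z → 0 ≤ a → 0 < D → a ≤ D →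
    msq K.μ (famM Z) ≤ D → tsq K.μ K.ω (famM Z) ≤ D → h1 ≤ K.h → K.η ≤ 1 / 100 →
    tsq K.μ K.ω (famM Z) ≤ C * (a + msq K.μ (famM Z) + K.η ^ 2 * D)

/-- literal statement of the leaf `ctx_of_tower` -/
def CtxOfTower : Prop := ∃ C : ℝ, 0 < C ∧ ∀ (n : ℕ) (κ₁ : ℝ), 0 < κ₁ → ∃ (J : ℕ) (δ κ₀ : ℝ),
    0 < δ ∧ 0 < κ₀ ∧ ∀ (K : KD n) (κ : ℝ) (T : Tower K κ), κ ≤ κ₀ →
    Ctx K (RJ n J) (C * (alphaT T J + κ₁)) (DT T J δ (C * (alphaT T J + κ₁)))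
      (MT T.Ψ J δ) (MpT T.Ψ J) (ZT T.Ψ J δ) (ZT' T.Ψ J δ) ∧
    (en K.μ K.V2 (fun p (w : Fin 1 → Fin n) => T.Ψ 2 (Fin.snoc w p))
      + ∑ j ∈ Finset.range (J + 1), (1 / 100) ^ j *
          en K.μ K.V2 (fun p (w : Fin (j + 2) → Fin n) => T.Ψ (j + 3) (Fin.snoc w p))
      ≤ C * (alphaT T J + κ₁)) ∧
    (∑ j ∈ Finset.range (J + 1), (1 / 100) ^ j *
        (dsq K.μ (fun v => fun x => T.Ψ (j + 3) v x - symW T.Ψ j v x)
          + nsq K.μ (fun v => fun x => T.Ψ (j + 3) v x - symW T.Ψ j v x)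
          + K.q (T.Ψ (j + 3)) + tsq K.μ K.ω (T.Ψ (j + 3)))
      ≤ C * (alphaT T J + κ₁)) ∧
    (∑ v : Fin 2 → Fin n, ∑ k, ∫ x, (pd k (T.Ψ 2 v) x
        - symW T.Ψ 0 (Fin.snoc v k : Fin 3 → Fin n) x) ^ 2 ∂K.μ ≤ C * (alphaT T J + κ₁)) ∧
    (K.q (T.Ψ 2) + tsq K.μ K.ω (T.Ψ 2) ≤ C * (alphaT T J + κ₁)) ∧
    (∑ v : Fin 2 → Fin n, ∑ k, ∑ l, ∫ x, (pd l (symW T.Ψ 0 (Fin.cons k v : Fin 3 → Fin n)) x
        - pd k (symW T.Ψ 0 (Fin.cons l v : Fin 3 → Fin n)) x) ^ 2 ∂K.μ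
      ≤ C * (alphaT T J + κ₁))

/-- literal statement of the leaf `alpha_high` -/
def AlphaHigh : Prop := ∀ h1 C0 : ℝ, 0 < h1 → 0 < C0 → ∃ C : ℝ, 0 < C ∧
    ∀ (n : ℕ) (K : KD n) (κ : ℝ)
    (T : Tower K κ) (J : ℕ) (δ a D X : ℝ), h1 ≤ K.h → K.η ≤ 1 / 100 → 1 ≤ X →
    Ctx K (RJ n J) a D (MT T.Ψ J δ) (MpT T.Ψ J) (ZT T.Ψ J δ) (ZT' T.Ψ J δ) →
    (∑ j ∈ Finset.range (J + 1), (1 / 100) ^ j *
        (dsq K.μ (fun v => fun x => T.Ψ (j + 3) v x - symW T.Ψ j v x)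
          + nsq K.μ (fun v => fun x => T.Ψ (j + 3) v x - symW T.Ψ j v x)
          + K.q (T.Ψ (j + 3)) + tsq K.μ K.ω (T.Ψ (j + 3))) ≤ C0 * D) →
    (∑ j ∈ Finset.range (J + 1), (1 / 100) ^ j * msq K.μ (T.Ψ (j + 3)) ≤ C0 * D) →
    ∑ j ∈ Finset.range (J + 1), (1 / 100) ^ j * msq K.μ (T.Ψ (j + 3)) ≤
      4 * K.h * (∑ j ∈ Finset.range (J + 1), (1 / 100) ^ j *
          en K.μ K.V2 (fun p (w : Fin (j + 2) → Fin n) => T.Ψ (j + 3) (Fin.snoc w p)))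
      + C * (K.η * Real.sqrt X + 1 / X + K.η) ^ 2 * D

/-- literal statement of the leaf `alpha_two` -/
def AlphaTwo : Prop := ∀ h1 C0 : ℝ, 0 < h1 → 0 < C0 → ∃ C : ℝ, 0 < C ∧
    ∀ (n : ℕ) (K : KD n) (κ : ℝ)
    (T : Tower K κ) (J : ℕ) (δ a D X : ℝ), h1 ≤ K.h → K.η ≤ 1 / 100 → 1 ≤ X →
    Ctx K (RJ n J) a D (MT T.Ψ J δ) (MpT T.Ψ J) (ZT T.Ψ J δ) (ZT' T.Ψ J δ) →
    (∑ v : Fin 2 → Fin n, ∑ k, ∫ x, (pd k (T.Ψ 2 v) x
        - symW T.Ψ 0 (Fin.snoc v k : Fin 3 → Fin n) x) ^ 2 ∂K.μ ≤ C0 * D) →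
    (K.q (T.Ψ 2) + tsq K.μ K.ω (T.Ψ 2) ≤ C0 * D) → msq K.μ (T.Ψ 2) ≤ C0 * D →
    (∑ v : Fin 2 → Fin n, ∑ k, ∑ l, ∫ x, (pd l (symW T.Ψ 0 (Fin.cons k v : Fin 3 → Fin n)) x
        - pd k (symW T.Ψ 0 (Fin.cons l v : Fin 3 → Fin n)) x) ^ 2 ∂K.μ ≤ C0 * D) →
    msq K.μ (T.Ψ 2) ≤
      4 * K.h * en K.μ K.V2 (fun p (w : Fin 1 → Fin n) => T.Ψ 2 (Fin.snoc w p))
      + C * (K.η * Real.sqrt X + 1 / X + K.η) ^ 2 * D

variable {n : ℕ}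

theorem msq_nonneg (μ : Measure (E n)) {ι : Type*} [Fintype ι] (f : ι → E n → ℝ) :
    0 ≤ msq μ f := Finset.sum_nonneg fun _ _ => sq_nonneg _

theorem tsq_nonneg (μ : Measure (E n)) (ω : Fin n → E n → ℝ) {ι : Type*} [Fintype ι]
    (f : ι → E n → ℝ) : 0 ≤ tsq μ ω f :=
  Finset.sum_nonneg fun _ _ => Finset.sum_nonneg fun _ _ => sq_nonneg _

/-- the numerical closing: pure reals.
`al = α`, `a2`, `S` the two parts, `v` total energy, `m = |EZ|²`, `t, t'` the covariances. -/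
theorem closing {C1 C2 C3 C5 C6 h ρ η k1 al a2 S v2 vS m m' t t' D a : ℝ}
    (hC1 : 0 < C1) (hC2 : 0 < C2) (hC3 : 0 < C3) (hC5 : 0 < C5) (hC6 : 0 < C6)
    (hh : 0 < h) (hh0 : 800 * C1 * h ≤ 1) (hη : 0 < η) (hηρ : η ≤ ρ) (hk : 0 < k1)
    (ha2 : 0 ≤ a2) (hS : 0 ≤ S) (hal : al = 100 * a2 + S) (ha : a = C1 * (al + k1))
    (hv : v2 + vS ≤ a) (hvS : 0 ≤ vS)
    (h2 : a2 ≤ 4 * h * v2 + C2 * ρ ^ 2 * D)
    (h3 : S ≤ 4 * h * vS + C3 * ρ ^ 2 * D)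
    (hm : m ≤ C5 * (a + ρ ^ 2 * D)) (hm' : m' ≤ 121 * m)
    (ht : t ≤ C6 * (a + m + η ^ 2 * D)) (ht' : t' ≤ C6 * (a + m' + η ^ 2 * (121 * D)))
    (hD : D ≤ a + m + t + t') (hD0 : 0 < D)
    (hρ : 2 * ((1 + 244 * C6) * (1 + C5) * (1 + 2 * C1 * (100 * C2 + C3))) * ρ ^ 2 ≤ 1) :
    a2 ≤ (1 + 2 * ((1 + 244 * C6) * (1 + C5))) * k1 := by
  obtain ⟨B, hB⟩ : ∃ B, B = (1 + 244 * C6) * (1 + C5) := ⟨_, rfl⟩
  obtain ⟨r, hr⟩ : ∃ r, r = ρ ^ 2 * D := ⟨_, rfl⟩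
  obtain ⟨G, hG⟩ : ∃ G, G = 100 * C2 + C3 := ⟨_, rfl⟩
  have hBpos : 0 < B := by rw [hB]; positivity
  have hGpos : 0 < G := by rw [hG]; positivity
  rw [← hB] at hρ ⊢
  rw [← hG] at hρ
  have hρ0 : 0 < ρ := lt_of_lt_of_le hη hηρ
  have hr0 : 0 ≤ r := by rw [hr]; positivity
  have hρ2 : η ^ 2 ≤ ρ ^ 2 := pow_le_pow_left₀ hη.le hηρ 2
  have hρD : η ^ 2 * D ≤ r := by rw [hr]; exact mul_le_mul_of_nonneg_right hρ2 hD0.le
  have hal0 : 0 ≤ al := by rw [hal]; linarith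
  have ha0 : 0 ≤ a := by rw [ha]; positivity
  rw [← hr] at hm
  have h2' : a2 ≤ 4 * h * v2 + C2 * r := by rw [hr, ← mul_assoc]; exact h2
  have h3' : S ≤ 4 * h * vS + C3 * r := by rw [hr, ← mul_assoc]; exact h3
  have hα : al ≤ k1 + 2 * G * r := by
    have e1 : al ≤ 400 * h * (v2 + vS) + G * r := by
      have : 0 ≤ h * vS := mul_nonneg hh.le hvS
      rw [hal, hG]
      linarith
    have e2 : 400 * h * (v2 + vS) ≤ 400 * h * a :=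
      mul_le_mul_of_nonneg_left hv (by positivity)
    have e3 : 800 * C1 * h * (al + k1) ≤ 1 * (al + k1) :=
      mul_le_mul_of_nonneg_right hh0 (by linarith)
    have e4 : 400 * h * a = 800 * C1 * h * (al + k1) / 2 := by rw [ha]; ring
    linarith
  have ha' : a ≤ 2 * C1 * k1 + 2 * C1 * G * r := by
    have := mul_le_mul_of_nonneg_left hα hC1.le
    rw [ha]; linarith
  have hDle : D ≤ B * (a + r) := by
    have g1 : t ≤ C6 * (a + m + r) :=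
      ht.trans (mul_le_mul_of_nonneg_left (by linarith) hC6.le)
    have g2 : t' ≤ C6 * (a + 121 * m + 121 * r) :=
      ht'.trans (mul_le_mul_of_nonneg_left (by linarith) hC6.le)
    have g3 : m + C6 * (122 * m) ≤ (1 + 122 * C6) * (C5 * (a + r)) := by
      have := mul_le_mul_of_nonneg_left hm (show (0 : ℝ) ≤ 1 + 122 * C6 by positivity)
      linarith
    have f2 : D ≤ a + C6 * (2 * a + 122 * r) + (1 + 122 * C6) * (C5 * (a + r)) := by linarith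
    have f4 : 0 ≤ C6 * a := by positivity
    have f5 : 0 ≤ C6 * r := by positivity
    have f6 : 0 ≤ C6 * (C5 * (a + r)) := by positivity
    have f7 : B * (a + r) = a + r + 244 * (C6 * a) + 244 * (C6 * r) + C5 * (a + r)
      + 244 * (C6 * (C5 * (a + r))) := by rw [hB]; ring
    rw [f7]
    linarith
  have hD2 : D ≤ 2 * B * C1 * k1 + B * (1 + 2 * C1 * G) * r := by
    have : B * (a + r) ≤ B * (2 * C1 * k1 + 2 * C1 * G * r + r) :=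
      mul_le_mul_of_nonneg_left (by linarith) hBpos.le
    linarith
  have hD3 : B * (1 + 2 * C1 * G) * r ≤ D / 2 := by
    have : (2 * (B * (1 + 2 * C1 * G)) * ρ ^ 2) * D ≤ 1 * D :=
      mul_le_mul_of_nonneg_right hρ hD0.le
    rw [hr]; linarith
  have hD4 : D ≤ 4 * B * C1 * k1 := by linarith
  have hB1 : 1 ≤ B := by
    have h1 : 0 ≤ C6 := hC6.le
    have h2 : 0 ≤ C6 * C5 := by positivity
    have : B = 1 + 244 * C6 + C5 + 244 * (C6 * C5) := by rw [hB]; ring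
    linarith
  have hG2 : C1 * (2 * G * r) ≤ C1 * (2 * B * k1) := by
    have q1 : 2 * C1 * G * r ≤ B * (2 * C1 * G * r) :=
      le_mul_of_one_le_left (by positivity) hB1
    have q2 : 0 ≤ B * r := by positivity
    linarith
  have hG3 : 2 * G * r ≤ 2 * B * k1 := le_of_mul_le_mul_left hG2 hC1
  linarith

/-- FIN, from the six leaves -/
theorem tensor_main_of (H1 : CtxOfTower) (H2 : AlphaHigh) (H3 : AlphaTwo) (H4 : MeanZ)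
    (H5 : MeanZ') (H6 : CovZ) : ∃ h0 : ℝ, 0 < h0 ∧ ∀ h1 : ℝ, 0 < h1 → ∃ η0 : ℝ, 0 < η0 ∧
    ∀ (n : ℕ) (κ' : ℝ), 0 < κ' → ∃ κ₀ : ℝ, 0 < κ₀ ∧
    ∀ K : KD n, h1 ≤ K.h → K.h ≤ h0 → K.η ≤ η0 → ∀ (κ : ℝ) (T : Tower K κ), κ ≤ κ₀ →
      msq K.μ (T.Ψ 2) ≤ κ' := by
  obtain ⟨C1, hC1, T1⟩ := H1
  refine ⟨1 / (800 * C1), by positivity, fun h1 hh1 => ?_⟩
  obtain ⟨C3, hC3, A3⟩ := H2 h1 (max 1 (1 / C1)) hh1 (by positivity)
  obtain ⟨C2, hC2, A2⟩ := H3 h1 (max 1 (1 / C1)) hh1 (by positivity)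
  obtain ⟨C5, hC5, A5⟩ := H4 h1 hh1
  obtain ⟨C6, hC6, A6⟩ := H6 h1 hh1
  obtain ⟨G, hG⟩ : ∃ G, G = (1 + 244 * C6) * (1 + C5) * (1 + 2 * C1 * (100 * C2 + C3)) :=
    ⟨_, rfl⟩
  have hGpos : 0 < G := by rw [hG]; positivity
  -- choose X, η0 with `2 G ρ² ≤ 1`
  obtain ⟨s, hs0, hs⟩ : ∃ s : ℝ, 0 < s ∧ 2 * G * s ^ 2 ≤ 1 := by
    refine ⟨1 / Real.sqrt (2 * G), by positivity, ?_⟩
    rw [div_pow, one_pow, Real.sq_sqrt (by positivity)]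
    rw [mul_one_div, div_self (by positivity)]
  obtain ⟨X, hX1, hXs⟩ : ∃ X : ℝ, 1 ≤ X ∧ 1 / X ≤ s / 2 := by
    refine ⟨max 1 (2 / s), le_max_left _ _, ?_⟩
    have : 2 / s ≤ max 1 (2 / s) := le_max_right _ _
    rw [div_le_div_iff₀ (by positivity) (by norm_num)]
    rw [div_le_iff₀ hs0] at this
    linarith
  refine ⟨min (1 / 100) (s / (2 * (Real.sqrt X + 1))), by positivity, fun n κ' hκ' => ?_⟩
  obtain ⟨k1, hk1, hk1'⟩ : ∃ k1 : ℝ, 0 < k1 ∧ (1 + 2 * ((1 + 244 * C6) * (1 + C5))) * k1 ≤ κ' := by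
    refine ⟨κ' / (1 + 2 * ((1 + 244 * C6) * (1 + C5))), by positivity, ?_⟩
    rw [mul_div_cancel₀ _ (by positivity)]
  obtain ⟨J, δ, κ₀, hδ, hκ₀, T2⟩ := T1 n k1 hk1
  refine ⟨κ₀, hκ₀, fun K hKh hKh0 hKη κ T hκ => ?_⟩
  obtain ⟨hctx, hen, huns, hl2, hq2, hsw⟩ := T2 K κ T hκ
  obtain ⟨al, hal⟩ : ∃ al, al = alphaT T J := ⟨_, rfl⟩
  rw [← hal] at hctx hen huns hl2 hq2 hsw
  obtain ⟨a, ha⟩ : ∃ a, a = C1 * (al + k1) := ⟨_, rfl⟩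
  rw [← ha] at hctx hen huns hl2 hq2 hsw
  obtain ⟨D, hD⟩ : ∃ D, D = DT T J δ a := ⟨_, rfl⟩
  rw [← hD] at hctx
  have hη1 : K.η ≤ 1 / 100 := hKη.trans (min_le_left _ _)
  have hη2 : K.η * (Real.sqrt X + 1) ≤ s / 2 := by
    have := hKη.trans (min_le_right _ _)
    rw [le_div_iff₀ (by positivity)] at this
    linarith
  set S := ∑ j ∈ Finset.range (J + 1), (1 / 100 : ℝ) ^ j * msq K.μ (T.Ψ (j + 3)) with hSdef
  set vS := ∑ j ∈ Finset.range (J + 1), (1 / 100 : ℝ) ^ j *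
          en K.μ K.V2 (fun p (w : Fin (j + 2) → Fin n) => T.Ψ (j + 3) (Fin.snoc w p)) with hvSdef
  have hsplit : al = 100 * msq K.μ (T.Ψ 2) + S := by rw [hal]; rfl
  have hS0 : 0 ≤ S := Finset.sum_nonneg fun j _ => mul_nonneg (by positivity) (msq_nonneg _ _)
  have ha20 : 0 ≤ msq K.μ (T.Ψ 2) := msq_nonneg _ _
  have hvS0 : 0 ≤ vS := by
    refine Finset.sum_nonneg fun j _ => mul_nonneg (by positivity) ?_
    unfold en
    refine integral_nonneg fun x => Finset.sum_nonneg fun i _ => ?_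
    have := K.V2_nonneg x (fun p => T.Ψ (j + 3) (Fin.snoc i p) x)
    simp only [Matrix.zero_mulVec, dotProduct_zero] at this
    simp only [dotProduct, Matrix.mulVec, Finset.mul_sum] at this
    refine this.trans (le_of_eq ?_)
    refine Finset.sum_congr rfl fun p _ => Finset.sum_congr rfl fun p' _ => ?_
    ring
  have hal0 : 0 ≤ al := by rw [hsplit]; linarith
  have haD : a ≤ D := hctx.a_le
  have hD0 : 0 < D := hctx.D_pos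
  have hal_le : al ≤ (1 / C1) * D := by
    have h5 : C1 * al ≤ D := by
      have : C1 * al ≤ C1 * (al + k1) := mul_le_mul_of_nonneg_left (by linarith) hC1.le
      rw [← ha] at this
      linarith
    rw [one_div, ← div_eq_inv_mul, le_div_iff₀ hC1]
    linarith
  have hC0 : (1 / C1) * D ≤ max 1 (1 / C1) * D :=
    mul_le_mul_of_nonneg_right (le_max_right _ _) hD0.le
  have hC0' : D ≤ max 1 (1 / C1) * D := by
    have := mul_le_mul_of_nonneg_right (le_max_left 1 (1 / C1)) hD0.le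
    linarith
  set ρ := K.η * Real.sqrt X + 1 / X + K.η with hρdef
  have hηpos := K.η_pos
  have hηρ : K.η ≤ ρ := by
    have : 0 ≤ K.η * Real.sqrt X := by positivity
    have : 0 ≤ 1 / X := by positivity
    linarith
  have hρs : ρ ≤ s := by
    rw [hρdef]; linarith
  have hρ2 : 2 * G * ρ ^ 2 ≤ 1 := by
    have : ρ ^ 2 ≤ s ^ 2 := pow_le_pow_left₀ (hηpos.le.trans hηρ) hρs 2
    have : 2 * G * ρ ^ 2 ≤ 2 * G * s ^ 2 := mul_le_mul_of_nonneg_left this (by positivity)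
    linarith
  have hh0 : 800 * C1 * K.h ≤ 1 := by
    rw [le_div_iff₀ (by positivity)] at hKh0
    linarith
  have b3 := A3 n K κ T J δ a D X hKh hη1 hX1 hctx (huns.trans (haD.trans hC0'))
    ((show S ≤ (1 / C1) * D by linarith).trans hC0)
  have b2 := A2 n K κ T J δ a D X hKh hη1 hX1 hctx (hl2.trans (haD.trans hC0'))
    (hq2.trans (haD.trans hC0')) ((show msq K.μ (T.Ψ 2) ≤ (1 / C1) * D by linarith).trans hC0)
    (hsw.trans (haD.trans hC0'))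
  have b4 := A5 n K (RJ n J) a D _ _ _ _ hctx hKh hη1 X hX1
  have b5 := H5 n K (RJ n J) a _ _ _ _ hctx.pk hctx.pk' hctx.ex
  have b6 := A6 n K (RJ n J) a D _ _ _ hctx.pk hctx.ex hctx.a_nonneg hD0 haD hctx.mZ hctx.tZ
    hKh hη1
  obtain ⟨Mp', hex'⟩ := hctx.ex'
  have hDD : D ≤ 121 * D := by linarith
  have b7 := A6 n K _ a (121 * D) _ _ _ hctx.pk' hex' hctx.a_nonneg (by positivity)
    (haD.trans hDD) (b5.trans (by linarith [hctx.mZ])) (hctx.tZ'.trans hDD) hKh hη1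
  have hDsum : D ≤ a + msq K.μ (famM (ZT T.Ψ J δ)) + tsq K.μ K.ω (famM (ZT T.Ψ J δ))
      + tsq K.μ K.ω (famM (ZT' T.Ψ J δ)) := by rw [hD]; rfl
  refine le_trans (closing hC1 hC2 hC3 hC5 hC6 K.h_pos hh0 hηpos hηρ hk1 ha20 hS0 hsplit ha hen
    hvS0 b2 b3 b4 b5 b6 b7 hDsum hD0 ?_) hk1'
  rw [hG] at hρ2
  exact hρ2

end Crest.Agent.R201.Fin74
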