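import Crest.Agent.R201.Close_947
import Crest.Agent.R201.FD8f_947
import Crest.Agent.R201.Fin_74

/-!
# R201, KLS half (helper947): the leaves FD7', FD8 in the form consumed by `Fin_74`
-/

set_option autoImplicit false

namespace Crest.Agent.R201.N947

theorem fin_MeanZ' : Fin74.MeanZ' := fun _ K R _ a M Mp Z Z' hp hp' hx =>
  meanZ' K R a M Mp Z Z' hp hp' hx

theorem fin_CovZ : Fin74.CovZ := covZ

end Crest.Agent.R201.N947
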