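import Crest.Agent.R201.FD7p_947
import Crest.Agent.R201.FD3_354

/-!
# R201, KLS half (helper947): the literal leaves FD4 (`defect_le`) and FD7' (`meanZ'`)
-/

set_option autoImplicit false
open MeasureTheory Matrix

namespace Crest.Agent.R201.N947

variable {n : ℕ}

/-- FD4 integrated no-broadcasting (section 3): total defect -/
theorem defect_le (K : KD n) {R : Type} [Fintype R] {a : ℝ} {M : E n → T3 n R} {Z : E n → Mt n}
    (hp : Pack K R a M Z) :
    (∫ x, (∑ k, (ip (pdT k M x) (pdT k M x) - hs (pdM k Z x))) ∂K.μ) + K.q (famM Z) ≤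
      a + 4 * tsq K.μ K.ω (famM Z) + 2 * msq K.μ (famM Z) :=
  defect_le' hp (MX354.root_field K hp).1

/-- FD7' `Z' ≤ 11 Z` as matrices, hence the means -/
theorem meanZ' (K : KD n) (R : Type) [Fintype R] (a : ℝ) (M : E n → T3 n R)
    (Mp : Fin n → E n → T3 n R) (Z Z' : E n → Mt n) (hp : Pack K R a M Z)
    (hp' : Pack K (R ⊕ (R × Fin n)) a (fun x => bigM (M x) (fun k => Mp k x)) Z')
    (hx : Ext K R a M Mp Z) : msq K.μ (famM Z') ≤ 121 * msq K.μ (famM Z) :=
  meanZ'' hp hp' hx (MX354.root_field K hp).1 (MX354.root_field K hp').1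

end Crest.Agent.R201.N947
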