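import Crest.Agent.R201.Spec_152

/-!
# R201, leaf MX7 (`conn_exists`): sections 3 + 4 at a point (helper152)
-/

set_option autoImplicit false
set_option linter.unusedSectionVars false
open Matrix

namespace Crest.Agent.R201.NB152

open Crest.Agent.R201

variable {n : ℕ}

theorem posDef_symm {Z : Mt n} (hZ : Z.PosDef) : Zᵀ = Z := by
  have := hZ.1
  rwa [Matrix.IsHermitian, Matrix.conjTranspose_eq_transpose_of_trivial] at this

theorem form_sq {B : Mt n} (hB : Bᵀ = B) (u : Fin n → ℝ) :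
    u ⬝ᵥ ((B * B) *ᵥ u) = (B *ᵥ u) ⬝ᵥ (B *ᵥ u) := by
  rw [← Matrix.mulVec_mulVec, Matrix.dotProduct_mulVec, ← Matrix.mulVec_transpose, hB]

theorem form_adj (X : Mt n) (u v : Fin n → ℝ) : u ⬝ᵥ (X *ᵥ v) = (Xᵀ *ᵥ u) ⬝ᵥ v := by
  rw [Matrix.dotProduct_mulVec, ← Matrix.mulVec_transpose]

theorem form_proj {θ : Mt n} (hθ : θᵀ = θ) (hθ2 : θ * θ = θ) (N : Mt n) (u : Fin n → ℝ) :
    (θ *ᵥ u) ⬝ᵥ (N *ᵥ (θ *ᵥ u)) = (θ *ᵥ u) ⬝ᵥ ((θ * N) *ᵥ (θ *ᵥ u)) := by
  have h1 : (θ * N) *ᵥ (θ *ᵥ u) = θ *ᵥ (N *ᵥ (θ *ᵥ u)) := (Matrix.mulVec_mulVec _ _ _).symm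
  have h2 : θ *ᵥ (θ *ᵥ u) = θ *ᵥ u := by rw [Matrix.mulVec_mulVec, hθ2]
  rw [h1, form_adj θ (θ *ᵥ u), hθ, h2]

/-- `Tr X = Tr QXQ + Tr (1-Q)X(1-Q)` for a projection -/
theorem trace_proj_split {Q : Mt n} (hQ2 : Q * Q = Q) (X : Mt n) :
    X.trace = (Q * X * Q).trace + ((1 - Q) * X * (1 - Q)).trace := by
  have h1 : (Q * X * Q).trace = (Q * X).trace := by
    rw [Matrix.trace_mul_comm, ← Matrix.mul_assoc, hQ2]
  have h2 : ((1 - Q) * X * (1 - Q)).trace = ((1 - Q) * X).trace := by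
    rw [Matrix.trace_mul_comm, ← Matrix.mul_assoc]
    congr 2
    simp only [Matrix.sub_mul, Matrix.mul_sub, Matrix.one_mul, Matrix.mul_one, hQ2]
    abel
  rw [h1, h2, ← Matrix.trace_add, ← Matrix.add_mul]
  congr 1
  rw [add_sub_cancel, Matrix.one_mul]

theorem trace_proj_le {Q X : Mt n} (hQ : Qᵀ = Q) (hQ2 : Q * Q = Q) (hX : LeQ 0 X) :
    (Q * X * Q).trace ≤ X.trace := by
  have h := trace_proj_split hQ2 X
  have h2 : 0 ≤ ((1 - Q) * X * (1 - Q)).trace := by
    have := trace_sq_nonneg hX (1 - Q)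
    rwa [Matrix.transpose_sub, Matrix.transpose_one, hQ] at this
  linarith

theorem leq_zero_gram {R : Type*} [Fintype R] (M : T3 n R) : LeQ 0 (gram M M) := by
  intro u
  simp only [Matrix.zero_mulVec, dotProduct_zero]
  have e : u ⬝ᵥ (gram M M *ᵥ u) = ∑ b, ∑ c, ∑ r, (∑ a, u a * M a b c r) ^ 2 := by
    have e1 : ∀ b c r, (∑ a, u a * M a b c r) ^ 2 =
        ∑ a, ∑ a', u a * (M a b c r * M a' b c r) * u a' := by
      intro b c r
      rw [pow_two, Finset.sum_mul_sum]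
      exact Finset.sum_congr rfl fun a _ => Finset.sum_congr rfl fun a' _ => by ring
    simp only [e1]
    simp only [dotProduct, Matrix.mulVec, gram, Matrix.of_apply, Finset.mul_sum, Finset.sum_mul]
    rw [Finset.sum_congr rfl fun a _ => Finset.sum_comm]
    rw [Finset.sum_comm]
    refine Finset.sum_congr rfl fun b _ => ?_
    rw [Finset.sum_congr rfl fun a _ => Finset.sum_congr rfl fun a' _ => rfl]
    rw [Finset.sum_congr rfl fun a _ => Finset.sum_comm]
    rw [Finset.sum_comm]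
    refine Finset.sum_congr rfl fun c _ => ?_
    rw [Finset.sum_congr rfl fun a _ => Finset.sum_comm]
    rw [Finset.sum_comm]
    refine Finset.sum_congr rfl fun r _ => ?_
    refine Finset.sum_congr rfl fun a _ => Finset.sum_congr rfl fun a' _ => ?_
    ring
  rw [e]
  exact Finset.sum_nonneg fun _ _ => Finset.sum_nonneg fun _ _ => Finset.sum_nonneg fun _ _ =>
    sq_nonneg _

/-- projections contract -/
theorem ip_proj_le {R : Type*} [Fintype R] {Q : Mt n} (hQ : Qᵀ = Q) (hQ2 : Q * Q = Q)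
    (X : T3 n R) : ip (act1 Q X) (act1 Q X) ≤ ip X X := by
  rw [ip_act1_self, hQ, ip_eq_trace]
  exact trace_proj_le hQ hQ2 (leq_zero_gram X)

theorem sub_act2_symm {R : Type} [Fintype R] {M N : T3 n R} (hM : Sym3 M) (hN : Sym3 N)
    (B : Mt n) : ip (N - 2 • act2 B M) (N - 2 • act2 B M) =
      ip (N - 2 • act1 B M) (N - 2 • act1 B M) := by
  simp only [two_smul_T3, ip_sub_left, ip_sub_right, ip_smul_left, ip_smul_right]
  rw [ip_comm (act2 B M) N, ip_comm (act1 B M) N, ip_act2_self hM, ip_act2_sym hM hN]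

theorem sub_act3_symm {R : Type} [Fintype R] {M N : T3 n R} (hM : Sym3 M) (hN : Sym3 N)
    (B : Mt n) : ip (N - 2 • act3 B M) (N - 2 • act3 B M) =
      ip (N - 2 • act1 B M) (N - 2 • act1 B M) := by
  simp only [two_smul_T3, ip_sub_left, ip_sub_right, ip_smul_left, ip_smul_right]
  rw [ip_comm (act3 B M) N, ip_comm (act1 B M) N, ip_act3_self hM, ip_act3_sym hM hN]

/-- `|B^{(1)} M|² = |B Z|²` -/
theorem ip_act1_hs {R : Type*} [Fintype R] {M : T3 n R} {Z : Mt n} (hZs : Zᵀ = Z)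
    (hZM : Z * Z = gram M M) (B : Mt n) : ip (act1 B M) (act1 B M) = hs (B * Z) := by
  rw [ip_act1_self, ← hZM, hs_eq_trace, Matrix.transpose_mul, hZs]
  simp only [Matrix.mul_assoc]

set_option maxHeartbeats 1000000 in
/-- explicit constants -/
theorem conn_explicit {R : Type} [Fintype R] (p : PtD n R) :
    ∃ B, Conn p 1600 (10000 * p.err) B := by
  have hZs := posDef_symm p.Zpos
  have hZM := p.Zsq
  choose A hA hAY using fun k => lyap p.Zpos (p.Ysymm k)
  have hnb := fun k => nb_point p.symM (p.symN k) p.Zpos p.Zsq (p.Ysymm k) (p.Ysq k) (hA k) (hAY k)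
  have hd : ∀ k, 0 ≤ ip (p.N k) (p.N k) - hs (p.Y k) := fun k =>
    sub_nonneg.2 (hs_Y_le p.symM (p.symN k) p.Zpos p.Zsq (p.Ysymm k) (p.Ysq k))
  set dN : ℝ := ∑ k, (ip (p.N k) (p.N k) - hs (p.Y k)) with hdN
  have hdN0 : 0 ≤ dN := Finset.sum_nonneg fun k _ => hd k
  set t : ℝ := p.Err.trace with ht
  have ht0 : 0 ≤ t := by
    have := trace_sq_nonneg p.Errpos (1 : Mt n)
    rwa [Matrix.transpose_one, Matrix.one_mul, Matrix.mul_one] at this
  have herr : p.err = dN + t := rfl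
  -- the three basic errors
  have S1 : ∑ k, ip (p.N k - 2 • act1 (A k) p.M) (p.N k - 2 • act1 (A k) p.M) ≤ 20 * dN := by
    rw [hdN, Finset.mul_sum]
    refine Finset.sum_le_sum fun k _ => ?_
    have h1 := hnb k
    have h2 := ip_self_nonneg (act1 (A k) p.M - act2 (A k) p.M)
    have h3 := hs_nonneg (A k * p.Z - p.Z * A k)
    linarith
  have S2 : ∑ k, ip (act1 (A k) p.M - act2 (A k) p.M) (act1 (A k) p.M - act2 (A k) p.M)
      ≤ 20 * dN := by
    rw [hdN, Finset.mul_sum]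
    refine Finset.sum_le_sum fun k _ => ?_
    have h1 := hnb k
    have h2 := ip_self_nonneg (p.N k - 2 • act1 (A k) p.M)
    have h3 := hs_nonneg (A k * p.Z - p.Z * A k)
    linarith
  have S3 : ∑ k, hs (A k * p.Z - p.Z * A k) ≤ 20 * dN := by
    rw [hdN, Finset.mul_sum]
    refine Finset.sum_le_sum fun k _ => ?_
    have h1 := hnb k
    have h2 := ip_self_nonneg (p.N k - 2 • act1 (A k) p.M)
    have h3 := ip_self_nonneg (act1 (A k) p.M - act2 (A k) p.M)
    linarith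
  -- the spectral projection
  set Nn : Mt n := (4 : ℝ) • ∑ k, A k * A k with hNn
  have hNns : Nnᵀ = Nn := by
    rw [hNn, Matrix.transpose_smul, Matrix.transpose_sum]
    congr 1
    exact Finset.sum_congr rfl fun k _ => by rw [Matrix.transpose_mul, hA k]
  obtain ⟨Q, hQ, hQ2, hQN, hQ3, hQ4⟩ := exists_proj hNns 1600
  set na : ℝ := ∑ k, 4 * hs (A k * (Q * p.Z)) with hna
  set nb : ℝ := ∑ k, 4 * ip (act1 Q (act2 (A k) p.M)) (act1 Q (act2 (A k) p.M)) with hnbdef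
  have hQNQ : Q * Nn * Q = Q * Nn := by
    rw [Matrix.mul_assoc, ← hQN, ← Matrix.mul_assoc, hQ2]
  -- `na = Tr (Z Q Nn Z)`
  have hsum : ∀ X Y : Mt n, ∑ k, 4 * (X * (A k * (A k * Y))).trace = (X * (Nn * Y)).trace := by
    intro X Y
    rw [hNn, Matrix.smul_mul, Matrix.mul_smul, Matrix.trace_smul, smul_eq_mul, ← Finset.mul_sum]
    congr 1
    rw [← Matrix.trace_sum, Matrix.sum_mul, Matrix.mul_sum]
    simp only [Matrix.mul_assoc]
  have na1 : na = (p.Z * (Q * Nn) * p.Z).trace := by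
    have e1 : ∀ k, 4 * hs (A k * (Q * p.Z)) = 4 * ((p.Z * Q) * (A k * (A k * (Q * p.Z)))).trace := by
      intro k
      rw [hs_eq_trace', Matrix.transpose_mul, Matrix.transpose_mul, hZs, hQ, hA k]
      simp only [Matrix.mul_assoc]
    rw [hna, Finset.sum_congr rfl fun k _ => e1 k, hsum]
    have e2 : p.Z * Q * (Nn * (Q * p.Z)) = p.Z * (Q * Nn * Q) * p.Z := by
      simp only [Matrix.mul_assoc]
    rw [e2, hQNQ]
  have na2 : ∑ k, 4 * ip (act1 (A k) (act1 Q p.M)) (act1 (A k) p.M) = na := by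
    have e1 : ∀ k, 4 * ip (act1 (A k) (act1 Q p.M)) (act1 (A k) p.M) =
        4 * ((p.Z * (1 : Mt n)) * (A k * (A k * (Q * p.Z)))).trace := by
      intro k
      rw [ip_eq_trace, gram_act1_left, gram_act1_left, gram_act1_right, ← hZM, hA k, Matrix.mul_one]
      congr 1
      rw [Matrix.trace_mul_comm]
      simp only [Matrix.mul_assoc]
      rw [Matrix.trace_mul_comm]
      simp only [Matrix.mul_assoc]
      rw [Matrix.trace_mul_comm]
      try simp only [Matrix.mul_assoc]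
    rw [Finset.sum_congr rfl fun k _ => e1 k, hsum, na1, Matrix.mul_one]
    congr 1
    rw [← Matrix.mul_assoc Nn, ← hQN]
    simp only [Matrix.mul_assoc]
  have na3 : 1600 * (p.Z * Q * p.Z).trace ≤ na := by
    rw [na1]
    have := trace_sq_mono hQ3 p.Z
    rw [hZs, Matrix.mul_smul, Matrix.smul_mul, Matrix.trace_smul, smul_eq_mul] at this
    exact this
  have na0 : 0 ≤ na := Finset.sum_nonneg fun k _ => mul_nonneg (by norm_num) (hs_nonneg _)
  have nb0 : 0 ≤ nb := Finset.sum_nonneg fun k _ => mul_nonneg (by norm_num) (ip_self_nonneg _)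
  -- one direction
  have key1 : ∀ k, 4 * ip (act1 (A k) (act1 Q p.M)) (act1 (A k) p.M) ≤
      4 * ip (act1 Q (act2 (A k) p.M)) (act1 Q (act2 (A k) p.M)) +
      (hs (A k * (Q * p.Z)) +
        4 * ip (act1 (A k) p.M - act2 (A k) p.M) (act1 (A k) p.M - act2 (A k) p.M)) +
      (ip (act1 Q (act2 (A k) p.M)) (act1 Q (act2 (A k) p.M)) +
        4 * ip (act1 (A k) p.M - act2 (A k) p.M) (act1 (A k) p.M - act2 (A k) p.M)) := by
    intro k
    set d := act1 (A k) p.M - act2 (A k) p.M with hdd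
    have i1 : ip (act1 (A k) (act1 Q p.M)) (act1 (A k) p.M) =
        ip (act1 (A k) (act1 Q p.M)) (act2 (A k) p.M) + ip (act1 (A k) (act1 Q p.M)) d := by
      rw [hdd, ip_sub_right]; ring
    have i2 : ip (act1 (A k) (act1 Q p.M)) (act2 (A k) p.M) =
        ip (act2 (A k) (act1 Q p.M)) (act1 (A k) p.M) := by
      rw [ip_act1_left, act12_comm, hA k, ip_act2_left (A k) (act1 Q p.M), hA k]
    have i3 : ip (act2 (A k) (act1 Q p.M)) (act1 (A k) p.M) =
        ip (act2 (A k) (act1 Q p.M)) (act2 (A k) p.M) + ip (act2 (A k) (act1 Q p.M)) d := by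
      rw [hdd, ip_sub_right]; ring
    have i4 : ip (act2 (A k) (act1 Q p.M)) (act2 (A k) p.M) =
        ip (act1 Q (act2 (A k) p.M)) (act1 Q (act2 (A k) p.M)) := by
      rw [← act12_comm, ip_act1_left Q (act2 (A k) p.M) (act1 Q (act2 (A k) p.M)), act1_mul, hQ,
        hQ2, ip_act1_left, hQ, ip_comm]
    have i5 := two_ip_le (s := 1 / 2) (by norm_num) (act1 (A k) (act1 Q p.M)) d
    have i6 := two_ip_le (s := 1 / 2) (by norm_num) (act2 (A k) (act1 Q p.M)) d
    have i7 : ip (act1 (A k) (act1 Q p.M)) (act1 (A k) (act1 Q p.M)) = hs (A k * (Q * p.Z)) := by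
      rw [act1_mul, ip_act1_hs hZs hZM, Matrix.mul_assoc]
    rw [i7] at i5
    rw [← act12_comm] at i6
    rw [i1, i2, i3, i4, ← act12_comm]
    norm_num at i5 i6
    linarith
  have hsum1 := Finset.sum_le_sum fun k (_ : k ∈ Finset.univ) => key1 k
  simp only [Finset.sum_add_distrib] at hsum1
  rw [na2, ← hnbdef] at hsum1
  have hna4 : ∑ k, hs (A k * (Q * p.Z)) = na / 4 := by
    rw [hna, ← Finset.mul_sum]; ring
  have hnb4 : ∑ k, ip (act1 Q (act2 (A k) p.M)) (act1 Q (act2 (A k) p.M)) = nb / 4 := by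
    rw [hnbdef, ← Finset.mul_sum]; ring
  rw [hna4, hnb4, ← Finset.mul_sum] at hsum1
  -- the growth bound
  have key2 : ∀ k, 4 * ip (act1 Q (act2 (A k) p.M)) (act1 Q (act2 (A k) p.M)) ≤
      2 * (Q * gram (p.N k) (p.N k) * Q).trace +
      2 * ip (p.N k - 2 • act2 (A k) p.M) (p.N k - 2 • act2 (A k) p.M) := by
    intro k
    have j1 := ip_sub_le (act1 Q (p.N k)) (act1 Q (p.N k - 2 • act2 (A k) p.M))
    have j2 : act1 Q (p.N k) - act1 Q (p.N k - 2 • act2 (A k) p.M) =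
        (2 : ℝ) • act1 Q (act2 (A k) p.M) := by
      rw [act1_sub, sub_sub_cancel, two_smul_T3, act1_smul]
    rw [j2, ip_smul_left, ip_smul_right] at j1
    have j3 := ip_proj_le hQ hQ2 (p.N k - 2 • act2 (A k) p.M)
    have j4 : ip (act1 Q (p.N k)) (act1 Q (p.N k)) = (Q * gram (p.N k) (p.N k) * Q).trace := by
      rw [ip_act1_self, hQ]
    rw [j4] at j1
    linarith
  have S1' : ∑ k, ip (p.N k - 2 • act2 (A k) p.M) (p.N k - 2 • act2 (A k) p.M) ≤ 20 * dN := by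
    rw [Finset.sum_congr rfl fun k _ => sub_act2_symm p.symM (p.symN k) (A k)]
    exact S1
  have hgr : ∑ k, (Q * gram (p.N k) (p.N k) * Q).trace ≤ 200 * (p.Z * Q * p.Z).trace + t := by
    have g1 : ∑ k, (Q * gram (p.N k) (p.N k) * Q).trace =
        (Q * (∑ k, gram (p.N k) (p.N k)) * Q).trace := by
      rw [← Matrix.trace_sum, Matrix.mul_sum, Matrix.sum_mul]
    have g2 := trace_sq_mono p.growth Q
    rw [hQ] at g2
    rw [g1]
    refine g2.trans ?_
    rw [Matrix.mul_add, Matrix.add_mul, Matrix.trace_add]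
    have g3 : (Q * ((200 : ℝ) • (p.Z * p.Z)) * Q).trace = 200 * (p.Z * Q * p.Z).trace := by
      rw [Matrix.mul_smul, Matrix.smul_mul, Matrix.trace_smul, smul_eq_mul]
      congr 1
      rw [Matrix.trace_mul_comm, ← Matrix.mul_assoc, hQ2, ← Matrix.mul_assoc,
        Matrix.trace_mul_comm, ← Matrix.mul_assoc]
    rw [g3]
    have g4 := trace_proj_le hQ hQ2 p.Errpos
    linarith
  have hsum2 := Finset.sum_le_sum fun k (_ : k ∈ Finset.univ) => key2 k
  simp only [Finset.sum_add_distrib, ← Finset.mul_sum] at hsum2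
  rw [hnb4] at hsum2
  have hnaB : na ≤ 480 * p.err := by
    rw [herr]; linarith
  have hnbB : nb ≤ 160 * p.err := by
    rw [herr] at hnaB ⊢; linarith
  -- the truncated connection
  set θ : Mt n := 1 - Q with hθ
  have hθs : θᵀ = θ := by rw [hθ, Matrix.transpose_sub, Matrix.transpose_one, hQ]
  have hθ2 : θ * θ = θ := by
    rw [hθ]
    simp only [Matrix.sub_mul, Matrix.mul_sub, Matrix.one_mul, Matrix.mul_one, hQ2]
    abel
  set B : Fin n → Mt n := fun k => θ * A k * θ with hB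
  have hBs : ∀ k, (B k)ᵀ = B k := by
    intro k
    rw [hB]
    simp only [Matrix.transpose_mul, hθs, hA k, Matrix.mul_assoc]
  have hdiff : ∀ k, A k - B k = A k * Q + Q * A k - Q * A k * Q := by
    intro k
    rw [hB, hθ]
    simp only [Matrix.sub_mul, Matrix.mul_sub, Matrix.one_mul, Matrix.mul_one]
    abel
  -- `Σ |(A-B) Z|²`
  have hE : ∀ k, hs ((A k - B k) * p.Z) ≤ 6 * hs (A k * (Q * p.Z)) +
      8 * ip (act1 Q (act2 (A k) p.M)) (act1 Q (act2 (A k) p.M)) +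
      8 * ip (act1 (A k) p.M - act2 (A k) p.M) (act1 (A k) p.M - act2 (A k) p.M) := by
    intro k
    have l1 : (A k - B k) * p.Z =
        A k * (Q * p.Z) + (Q * (A k * p.Z) - Q * (A k * (Q * p.Z))) := by
      rw [hdiff]
      simp only [Matrix.sub_mul, Matrix.add_mul, Matrix.mul_assoc]
      abel
    have hsQ : ∀ X : Mt n, hs (Q * X) ≤ hs X := by
      intro X
      have h1 := trace_proj_le (X := X * Xᵀ) hQ hQ2 (by
        intro u
        simp only [Matrix.zero_mulVec, dotProduct_zero]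
        rw [← Matrix.mulVec_mulVec, Matrix.dotProduct_mulVec, ← Matrix.mulVec_transpose]
        exact Finset.sum_nonneg fun _ _ => mul_self_nonneg _)
      rw [hs_eq_trace, hs_eq_trace, Matrix.transpose_mul, hQ]
      simp only [Matrix.mul_assoc] at h1 ⊢
      exact h1
    have l2 := hs_add_le (A k * (Q * p.Z)) (Q * (A k * p.Z) - Q * (A k * (Q * p.Z)))
    have l3 := hs_sub_le (Q * (A k * p.Z)) (Q * (A k * (Q * p.Z)))
    have l4 := hsQ (A k * (Q * p.Z))
    have l5 : hs (Q * (A k * p.Z)) = ip (act1 Q (act1 (A k) p.M)) (act1 Q (act1 (A k) p.M)) := by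
      rw [act1_mul, ip_act1_hs hZs hZM, Matrix.mul_assoc]
    have l6 : act1 Q (act1 (A k) p.M) =
        act1 Q (act2 (A k) p.M) + act1 Q (act1 (A k) p.M - act2 (A k) p.M) := by
      rw [act1_sub]; abel
    have l7 := ip_add_le (act1 Q (act2 (A k) p.M)) (act1 Q (act1 (A k) p.M - act2 (A k) p.M))
    rw [← l6] at l7
    have l8 := ip_proj_le hQ hQ2 (act1 (A k) p.M - act2 (A k) p.M)
    rw [l1]
    rw [l5] at l3
    linarith
  have hEs : ∑ k, hs ((A k - B k) * p.Z) ≤ 1200 * p.err := by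
    have h1 := Finset.sum_le_sum fun k (_ : k ∈ Finset.univ) => hE k
    simp only [Finset.sum_add_distrib, ← Finset.mul_sum] at h1
    rw [hna4, hnb4] at h1
    rw [herr] at hnaB hnbB ⊢
    linarith
  have hEs' : ∑ k, hs (p.Z * (A k - B k)) ≤ 1200 * p.err := by
    refine le_trans (le_of_eq ?_) hEs
    refine Finset.sum_congr rfl fun k _ => ?_
    rw [← hs_transpose, Matrix.transpose_mul, hZs, Matrix.transpose_sub, hA k, hBs k]
  have he0 : 0 ≤ p.err := by rw [herr]; linarith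
  have hdNe : dN ≤ p.err := by rw [herr]; linarith
  have E1 : ∑ k, ip (p.N k - 2 • act1 (B k) p.M) (p.N k - 2 • act1 (B k) p.M) ≤
      10000 * p.err := by
    have h1 : ∀ k, ip (p.N k - 2 • act1 (B k) p.M) (p.N k - 2 • act1 (B k) p.M) ≤
        2 * ip (p.N k - 2 • act1 (A k) p.M) (p.N k - 2 • act1 (A k) p.M) +
        8 * hs ((A k - B k) * p.Z) := by
      intro k
      have e1 : p.N k - 2 • act1 (B k) p.M =
          (p.N k - 2 • act1 (A k) p.M) + (2 : ℝ) • act1 (A k - B k) p.M := by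
        rw [act1_sub_left, two_smul_T3, two_smul_T3, smul_sub]
        abel
      have e2 := ip_add_le (p.N k - 2 • act1 (A k) p.M) ((2 : ℝ) • act1 (A k - B k) p.M)
      rw [← e1] at e2
      have e3 : ip ((2 : ℝ) • act1 (A k - B k) p.M) ((2 : ℝ) • act1 (A k - B k) p.M) =
          4 * hs ((A k - B k) * p.Z) := by
        rw [ip_smul_left, ip_smul_right, ip_act1_hs hZs hZM]; ring
      rw [e3] at e2
      linarith
    have h2 := Finset.sum_le_sum fun k (_ : k ∈ Finset.univ) => h1 k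
    simp only [Finset.sum_add_distrib, ← Finset.mul_sum] at h2
    linarith
  have hcomm : ∀ k, hs (p.Z * A k - A k * p.Z) = hs (A k * p.Z - p.Z * A k) := by
    intro k
    rw [← hs_neg, neg_sub]
  refine ⟨B, ?_⟩
  constructor
  · exact hBs
  · -- bounded
    intro u
    have b1 : u ⬝ᵥ ((∑ k, B k * B k) *ᵥ u) = ∑ k, (B k *ᵥ u) ⬝ᵥ (B k *ᵥ u) := by
      rw [Matrix.sum_mulVec, dotProduct_sum]
      exact Finset.sum_congr rfl fun k _ => form_sq (hBs k) u
    have hproj : ∀ v : Fin n → ℝ, (θ *ᵥ v) ⬝ᵥ (θ *ᵥ v) ≤ v ⬝ᵥ v := by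
      intro v
      have c1 : (θ *ᵥ v) ⬝ᵥ (θ *ᵥ v) = v ⬝ᵥ (θ *ᵥ v) := by
        rw [← form_sq hθs, hθ2]
      have c2 : (Q *ᵥ v) ⬝ᵥ (Q *ᵥ v) = v ⬝ᵥ (Q *ᵥ v) := by
        rw [← form_sq hQ, hQ2]
      have c3 : v ⬝ᵥ v = v ⬝ᵥ (θ *ᵥ v) + v ⬝ᵥ (Q *ᵥ v) := by
        rw [← dotProduct_add, ← Matrix.add_mulVec, hθ, sub_add_cancel, Matrix.one_mulVec]
      have c4 : 0 ≤ (Q *ᵥ v) ⬝ᵥ (Q *ᵥ v) :=
        Finset.sum_nonneg fun _ _ => mul_self_nonneg _
      rw [c1, c3]
      linarith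
    have b2 : ∀ k, (B k *ᵥ u) ⬝ᵥ (B k *ᵥ u) ≤
        (A k *ᵥ (θ *ᵥ u)) ⬝ᵥ (A k *ᵥ (θ *ᵥ u)) := by
      intro k
      have : B k *ᵥ u = θ *ᵥ (A k *ᵥ (θ *ᵥ u)) := by
        rw [hB, ← Matrix.mulVec_mulVec, ← Matrix.mulVec_mulVec]
      rw [this]
      exact hproj _
    have b3 : 4 * ∑ k, (A k *ᵥ (θ *ᵥ u)) ⬝ᵥ (A k *ᵥ (θ *ᵥ u)) =
        (θ *ᵥ u) ⬝ᵥ (Nn *ᵥ (θ *ᵥ u)) := by
      rw [hNn, Matrix.smul_mulVec, dotProduct_smul, smul_eq_mul, Matrix.sum_mulVec,
        dotProduct_sum]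
      congr 1
      exact Finset.sum_congr rfl fun k _ => (form_sq (hA k) _).symm
    have b4 : (θ *ᵥ u) ⬝ᵥ (Nn *ᵥ (θ *ᵥ u)) = (θ *ᵥ u) ⬝ᵥ ((θ * Nn) *ᵥ (θ *ᵥ u)) := by
      exact form_proj hθs hθ2 Nn u
    have b5 := hQ4 (θ *ᵥ u)
    have b6 : (θ *ᵥ u) ⬝ᵥ (((1600 : ℝ) • θ) *ᵥ (θ *ᵥ u)) ≤ 1600 * (u ⬝ᵥ u) := by
      rw [Matrix.smul_mulVec, dotProduct_smul, smul_eq_mul, Matrix.mulVec_mulVec, hθ2]
      exact mul_le_mul_of_nonneg_left (hproj u) (by norm_num)
    have b7 : u ⬝ᵥ (((1600 : ℝ) • (1 : Mt n)) *ᵥ u) = 1600 * (u ⬝ᵥ u) := by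
      rw [Matrix.smul_mulVec, dotProduct_smul, smul_eq_mul, Matrix.one_mulVec]
    have b8 : 0 ≤ u ⬝ᵥ u := Finset.sum_nonneg fun _ _ => mul_self_nonneg _
    rw [b1, b7]
    have b9 := Finset.sum_le_sum fun k (_ : k ∈ Finset.univ) => b2 k
    rw [b4] at b3
    linarith
  · exact E1
  · rw [Finset.sum_congr rfl fun k _ => sub_act2_symm p.symM (p.symN k) (B k)]
    exact E1
  · rw [Finset.sum_congr rfl fun k _ => sub_act3_symm p.symM (p.symN k) (B k)]
    exact E1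
  · have h1 : ∀ k, hs (p.Z * B k - B k * p.Z) ≤ 2 * hs (A k * p.Z - p.Z * A k) +
        (4 * hs ((A k - B k) * p.Z) + 4 * hs (p.Z * (A k - B k))) := by
      intro k
      have e1 : p.Z * B k - B k * p.Z =
          (p.Z * A k - A k * p.Z) + ((A k - B k) * p.Z - p.Z * (A k - B k)) := by
        simp only [Matrix.sub_mul, Matrix.mul_sub]; abel
      have e2 := hs_add_le (p.Z * A k - A k * p.Z) ((A k - B k) * p.Z - p.Z * (A k - B k))
      have e3 := hs_sub_le ((A k - B k) * p.Z) (p.Z * (A k - B k))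
      rw [e1]
      rw [hcomm k] at e2
      linarith
    have h2 := Finset.sum_le_sum fun k (_ : k ∈ Finset.univ) => h1 k
    simp only [Finset.sum_add_distrib, ← Finset.mul_sum] at h2
    linarith
  · have h1 : ∀ k, hs (p.Y k - 2 • (B k * p.Z)) ≤ 2 * hs (A k * p.Z - p.Z * A k) +
        8 * hs ((A k - B k) * p.Z) := by
      intro k
      have e1 : p.Y k - 2 • (B k * p.Z) =
          (p.Z * A k - A k * p.Z) + (2 : ℝ) • ((A k - B k) * p.Z) := by
        rw [← hAY k, Matrix.sub_mul, two_nsmul, two_smul]; abel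
      have e2 := hs_add_le (p.Z * A k - A k * p.Z) ((2 : ℝ) • ((A k - B k) * p.Z))
      rw [hs_smul] at e2
      rw [e1]
      rw [hcomm k] at e2
      linarith
    have h2 := Finset.sum_le_sum fun k (_ : k ∈ Finset.univ) => h1 k
    simp only [Finset.sum_add_distrib, ← Finset.mul_sum] at h2
    linarith
  · have h1 : ∀ k, hs (p.Y k - 2 • (p.Z * B k)) ≤ 2 * hs (A k * p.Z - p.Z * A k) +
        8 * hs (p.Z * (A k - B k)) := by
      intro k
      have e1 : p.Y k - 2 • (p.Z * B k) =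
          (A k * p.Z - p.Z * A k) + (2 : ℝ) • (p.Z * (A k - B k)) := by
        rw [← hAY k, Matrix.mul_sub, two_nsmul, two_smul]; abel
      have e2 := hs_add_le (A k * p.Z - p.Z * A k) ((2 : ℝ) • (p.Z * (A k - B k)))
      rw [hs_smul] at e2
      rw [e1]
      linarith
    have h2 := Finset.sum_le_sum fun k (_ : k ∈ Finset.univ) => h1 k
    simp only [Finset.sum_add_distrib, ← Finset.mul_sum] at h2
    linarith

theorem conn_exists : ∃ C' C : ℝ, 0 < C' ∧ 0 < C ∧ ∀ (n : ℕ) (R : Type) [Fintype R] (p : PtD n R),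
    ∃ B, Conn p C' (C * p.err) B :=
  ⟨1600, 10000, by norm_num, by norm_num, fun _ _ _ p => conn_explicit p⟩

end Crest.Agent.R201.NB152
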