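import Mathlib

/-!
# R201: the forward-backward cycle with cut small times, by ONE mean value theorem (helper293)

Only `s ∈ [s₀, η]`; the small times are replaced by the static inequalities
`H(s₀) ≥ H₀ - s₀/2 I₀`, `I(s₀) ≤ I₀` (posterior LSI, `post_grad`) and
`Hb(s₀) ≤ Hb(0) + s₀/2 Ib(s₀)`, `Ib(0) ≤ Ib(s₀)` (Gaussian LSI, Cauchy–Schwarz).
Hence the good time is `≥ s₀` (the Tweedie form of the labelled `ψ₂` has the constant `κ / s₀²`).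
-/

set_option autoImplicit false
open Set

namespace Crest.Agent.R201.Cyc293

/-- the data of a cut cycle -/
structure Cut (s₀ η e₀ H₀ I₀ Hb₀ Ib₀ : ℝ) (H I A Hb Ib Ab : ℝ → ℝ) : Prop where
  lt : s₀ < η
  s_nonneg : 0 ≤ s₀
  dH : ∀ s ∈ Ioo s₀ η, HasDerivAt H (-(I s) / 2) s
  dI : ∀ s ∈ Ioo s₀ η, HasDerivAt I (-(A s)) s
  dHb : ∀ s ∈ Ioo s₀ η, HasDerivAt Hb (Ib s / 2) s
  dIb : ∀ s ∈ Ioo s₀ η, HasDerivAt Ib (Ab s) s
  cH : ContinuousOn H (Icc s₀ η)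
  cI : ContinuousOn I (Icc s₀ η)
  cHb : ContinuousOn Hb (Icc s₀ η)
  cIb : ContinuousOn Ib (Icc s₀ η)
  A_nonneg : ∀ s ∈ Ioo s₀ η, 0 ≤ A s
  Ab_nonneg : ∀ s ∈ Ioo s₀ η, 0 ≤ Ab s
  jH : H η = Hb η
  jI : I η = Ib η
  /-- start -/
  start : I₀ / 2 ≤ (1 + e₀) * H₀
  hH : H₀ - s₀ / 2 * I₀ ≤ H s₀
  hI : I s₀ ≤ I₀
  /-- end, back at the base -/
  hHb : Hb s₀ ≤ Hb₀ + s₀ / 2 * Ib s₀
  hIb : Ib₀ ≤ Ib s₀
  fin : Hb₀ ≤ Ib₀ / 2

variable {s₀ η e₀ H₀ I₀ Hb₀ Ib₀ : ℝ} {H I A Hb Ib Ab : ℝ → ℝ}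

namespace Cut

theorem I_le (c : Cut s₀ η e₀ H₀ I₀ Hb₀ Ib₀ H I A Hb Ib Ab) {s : ℝ} (hs : s ∈ Icc s₀ η) :
    I s ≤ I₀ := by
  have anti : AntitoneOn I (Icc s₀ η) := by
    refine antitoneOn_of_hasDerivWithinAt_nonpos (f' := fun s => -(A s)) (convex_Icc s₀ η) c.cI
      ?_ ?_
    · intro x hx
      rw [interior_Icc] at hx ⊢
      exact (c.dI x hx).hasDerivWithinAt
    · intro x hx
      rw [interior_Icc] at hx
      have := c.A_nonneg x hx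
      linarith
  exact (anti ⟨le_rfl, c.lt.le⟩ hs hs.1).trans c.hI

theorem Ib_le (c : Cut s₀ η e₀ H₀ I₀ Hb₀ Ib₀ H I A Hb Ib Ab) {s : ℝ} (hs : s ∈ Icc s₀ η) :
    Ib s ≤ I₀ := by
  have mono : MonotoneOn Ib (Icc s₀ η) := by
    refine monotoneOn_of_hasDerivWithinAt_nonneg (f' := Ab) (convex_Icc s₀ η) c.cIb ?_ ?_
    · intro x hx
      rw [interior_Icc] at hx ⊢
      exact (c.dIb x hx).hasDerivWithinAt
    · intro x hx
      rw [interior_Icc] at hx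
      exact c.Ab_nonneg x hx
  have h1 : Ib s ≤ Ib η := mono hs ⟨c.lt.le, le_rfl⟩ hs.2
  have h2 : I η ≤ I₀ := c.I_le ⟨c.lt.le, le_rfl⟩
  rw [c.jI] at h2
  exact h1.trans h2

/-- lower bound for the entropy on the forward leg -/
theorem H_ge (c : Cut s₀ η e₀ H₀ I₀ Hb₀ Ib₀ H I A Hb Ib Ab) {s : ℝ} (hs : s ∈ Icc s₀ η) :
    H₀ - s / 2 * I₀ ≤ H s := by
  have h : AntitoneOn (fun t => -(H t) - t / 2 * I₀) (Icc s₀ η) := by
    refine antitoneOn_of_hasDerivWithinAt_nonpos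
      (f' := fun t => -(-(I t) / 2) - 1 / 2 * I₀) (convex_Icc s₀ η) ?_ ?_ ?_
    · exact (c.cH.neg).sub ((continuous_id.div_const 2).mul continuous_const).continuousOn
    · intro x hx
      rw [interior_Icc] at hx ⊢
      have h1 := (c.dH x hx).neg
      have h2 : HasDerivAt (fun t : ℝ => t / 2 * I₀) (1 / 2 * I₀) x :=
        ((hasDerivAt_id x).div_const 2).mul_const I₀
      exact (h1.sub h2).hasDerivWithinAt
    · intro x hx
      rw [interior_Icc] at hx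
      have := c.I_le (Ioo_subset_Icc_self hx)
      show -(-(I x) / 2) - 1 / 2 * I₀ ≤ 0
      linarith
  have := h ⟨le_rfl, c.lt.le⟩ hs hs.1
  simp only at this
  linarith [c.hH]

/-- lower bound for the entropy on the backward leg -/
theorem Hb_ge (c : Cut s₀ η e₀ H₀ I₀ Hb₀ Ib₀ H I A Hb Ib Ab) {s : ℝ} (hs : s ∈ Icc s₀ η) :
    H₀ - (η - s / 2) * I₀ ≤ Hb s := by
  have h : MonotoneOn (fun t => t / 2 * I₀ - Hb t) (Icc s₀ η) := by
    refine monotoneOn_of_hasDerivWithinAt_nonneg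
      (f' := fun t => 1 / 2 * I₀ - Ib t / 2) (convex_Icc s₀ η) ?_ ?_ ?_
    · exact (((continuous_id.div_const 2).mul continuous_const).continuousOn).sub c.cHb
    · intro x hx
      rw [interior_Icc] at hx ⊢
      have h2 : HasDerivAt (fun t : ℝ => t / 2 * I₀) (1 / 2 * I₀) x :=
        ((hasDerivAt_id x).div_const 2).mul_const I₀
      exact (h2.sub (c.dHb x hx)).hasDerivWithinAt
    · intro x hx
      rw [interior_Icc] at hx
      have := c.Ib_le (Ioo_subset_Icc_self hx)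
      show 0 ≤ 1 / 2 * I₀ - Ib x / 2
      linarith
  have h1 := h hs ⟨c.lt.le, le_rfl⟩ hs.2
  simp only at h1
  have h2 := c.H_ge (s := η) ⟨c.lt.le, le_rfl⟩
  rw [c.jH] at h2
  linarith

/-- **good time `≥ s₀` on one of the legs**, sharp -/
theorem good (c : Cut s₀ η e₀ H₀ I₀ Hb₀ Ib₀ H I A Hb Ib Ab) :
    ∃ s ∈ Ioo s₀ η, A s ≤ I s + (e₀ * H₀ + s₀ * I₀) / (η - s₀) ∨
      Ab s ≤ Ib s + (e₀ * H₀ + s₀ * I₀) / (η - s₀) := by
  have hpos : 0 < η - s₀ := sub_pos.2 c.lt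
  obtain ⟨s, hs, h1⟩ := exists_hasDerivAt_eq_slope
    (fun t => -(I t) + Ib t + 2 * H t - 2 * Hb t)
    (fun t => -(-(A t)) + Ab t + 2 * (-(I t) / 2) - 2 * (Ib t / 2)) c.lt
    ((((c.cI.neg).add c.cIb).add (c.cH.const_mul 2)).sub (c.cHb.const_mul 2))
    (fun t ht => ((((c.dI t ht).neg).add (c.dIb t ht)).add ((c.dH t ht).const_mul 2)).sub
      ((c.dHb t ht).const_mul 2))
  have h2 : (-(I η) + Ib η + 2 * H η - 2 * Hb η) -
      (-(I s₀) + Ib s₀ + 2 * H s₀ - 2 * Hb s₀) ≤ 2 * (e₀ * H₀ + s₀ * I₀) := by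
    have a1 := c.jH
    have a2 := c.jI
    have a3 := c.start
    have a4 := c.hH
    have a5 := c.hI
    have a6 := c.hHb
    have a7 := c.hIb
    have a8 := c.fin
    have a9 := c.Ib_le (s := s₀) ⟨le_rfl, c.lt.le⟩
    have a10 : s₀ / 2 * Ib s₀ ≤ s₀ / 2 * I₀ :=
      mul_le_mul_of_nonneg_left a9 (by linarith [c.s_nonneg])
    rw [a1, a2]
    nlinarith
  have h3 : -(-(A s)) + Ab s + 2 * (-(I s) / 2) - 2 * (Ib s / 2) ≤
      2 * ((e₀ * H₀ + s₀ * I₀) / (η - s₀)) := by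
    rw [h1, mul_div_assoc']
    exact div_le_div_of_nonneg_right h2 hpos.le
  refine ⟨s, hs, ?_⟩
  by_contra hcon
  push Not at hcon
  obtain ⟨h4, h5⟩ := hcon
  linarith

end Cut

end Crest.Agent.R201.Cyc293
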