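import Mathlib

/-!
# R201: the forward-backward cycle (pure real analysis)  (helper528, doc 2083)

Forward leg `s : 0 → η`: `H' = -I/2`, `I' = -A`.
Backward leg (parametrised by the same `s`): `Hb' = Ib/2`, `Ib' = Ab`.
The two legs meet at `s = η`; at `s = 0` of the backward leg the base is `μ₀` again.
-/

set_option autoImplicit false
open MeasureTheory Set

namespace Crest.Agent.R201.Cyc528

/-- the data of one forward-backward cycle -/
structure Cycle (η : ℝ) (H I A Hb Ib Ab : ℝ → ℝ) : Prop where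
  pos : 0 < η
  cH : ContinuousOn H (Icc 0 η)
  cI : ContinuousOn I (Icc 0 η)
  cHb : ContinuousOn Hb (Icc 0 η)
  cIb : ContinuousOn Ib (Icc 0 η)
  dH : ∀ s ∈ Ioo 0 η, HasDerivAt H (-(I s) / 2) s
  dI : ∀ s ∈ Ioo 0 η, HasDerivAt I (-(A s)) s
  dHb : ∀ s ∈ Ioo 0 η, HasDerivAt Hb (Ib s / 2) s
  dIb : ∀ s ∈ Ioo 0 η, HasDerivAt Ib (Ab s) s
  I_nonneg : ∀ s ∈ Icc 0 η, 0 ≤ I s
  Ib_nonneg : ∀ s ∈ Icc 0 η, 0 ≤ Ib s
  A_nonneg : ∀ s ∈ Ioo 0 η, 0 ≤ A s
  Ab_nonneg : ∀ s ∈ Ioo 0 η, 0 ≤ Ab s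
  jH : H η = Hb η
  jI : I η = Ib η

variable {η e0 : ℝ} {H I A Hb Ib Ab : ℝ → ℝ}

namespace Cycle

theorem intI (c : Cycle η H I A Hb Ib Ab) : IntervalIntegrable I volume 0 η :=
  c.cI.intervalIntegrable_of_Icc c.pos.le

theorem intIb (c : Cycle η H I A Hb Ib Ab) : IntervalIntegrable Ib volume 0 η :=
  c.cIb.intervalIntegrable_of_Icc c.pos.le

theorem intA (c : Cycle η H I A Hb Ib Ab) : IntervalIntegrable A volume 0 η := by
  have h : IntervalIntegrable (fun s => -(-(A s))) volume 0 η := by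
    have := intervalIntegral.intervalIntegrable_deriv_of_nonneg (g := fun s => -I s)
      (g' := A) (a := 0) (b := η) ?_ ?_ ?_
    · simpa using this
    · rw [uIcc_of_le c.pos.le]; exact c.cI.neg
    · intro x hx
      rw [min_eq_left c.pos.le, max_eq_right c.pos.le] at hx
      exact (c.dI x hx).neg.congr_deriv (neg_neg _)
    · intro x hx
      rw [min_eq_left c.pos.le, max_eq_right c.pos.le] at hx
      exact c.A_nonneg x hx
  simpa using h

theorem intAb (c : Cycle η H I A Hb Ib Ab) : IntervalIntegrable Ab volume 0 η := by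
  refine intervalIntegral.intervalIntegrable_deriv_of_nonneg (g := Ib)
      (g' := Ab) (a := 0) (b := η) ?_ ?_ ?_
  · rw [uIcc_of_le c.pos.le]; exact c.cIb
  · intro x hx
    rw [min_eq_left c.pos.le, max_eq_right c.pos.le] at hx
    exact c.dIb x hx
  · intro x hx
    rw [min_eq_left c.pos.le, max_eq_right c.pos.le] at hx
    exact c.Ab_nonneg x hx

theorem fwdH (c : Cycle η H I A Hb Ib Ab) : ∫ s in (0 : ℝ)..η, I s = 2 * (H 0 - H η) := by
  have h := intervalIntegral.integral_eq_sub_of_hasDerivAt_of_le (f := H)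
    (f' := fun s => -(I s) / 2) c.pos.le c.cH (fun s hs => c.dH s hs)
    ((c.intI.neg).div_const 2)
  have e : ∫ s in (0 : ℝ)..η, -(I s) / 2 = -(∫ s in (0 : ℝ)..η, I s) / 2 := by
    rw [intervalIntegral.integral_div, intervalIntegral.integral_neg]
  rw [e] at h
  linarith

theorem bwdH (c : Cycle η H I A Hb Ib Ab) : ∫ s in (0 : ℝ)..η, Ib s = 2 * (Hb η - Hb 0) := by
  have h := intervalIntegral.integral_eq_sub_of_hasDerivAt_of_le (f := Hb)
    (f' := fun s => Ib s / 2) c.pos.le c.cHb (fun s hs => c.dHb s hs)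
    (c.intIb.div_const 2)
  have e : ∫ s in (0 : ℝ)..η, Ib s / 2 = (∫ s in (0 : ℝ)..η, Ib s) / 2 := by
    rw [intervalIntegral.integral_div]
  rw [e] at h
  linarith

theorem fwdI (c : Cycle η H I A Hb Ib Ab) : ∫ s in (0 : ℝ)..η, A s = I 0 - I η := by
  have h := intervalIntegral.integral_eq_sub_of_hasDerivAt_of_le (f := I)
    (f' := fun s => -(A s)) c.pos.le c.cI (fun s hs => c.dI s hs) c.intA.neg
  rw [intervalIntegral.integral_neg] at h
  linarith

theorem bwdI (c : Cycle η H I A Hb Ib Ab) : ∫ s in (0 : ℝ)..η, Ab s = Ib η - Ib 0 :=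
  intervalIntegral.integral_eq_sub_of_hasDerivAt_of_le (f := Ib)
    (f' := Ab) c.pos.le c.cIb (fun s hs => c.dIb s hs) c.intAb

/-- **(★)** the sharp cycle inequality -/
theorem star (c : Cycle η H I A Hb Ib Ab) (start : I 0 / 2 ≤ (1 + e0) * H 0)
    (fin : Hb 0 ≤ Ib 0 / 2) :
    (∫ s in (0 : ℝ)..η, A s) + ∫ s in (0 : ℝ)..η, Ab s ≤
      (∫ s in (0 : ℝ)..η, I s) + (∫ s in (0 : ℝ)..η, Ib s) + 2 * e0 * H 0 := by
  rw [c.fwdI, c.bwdI, c.fwdH, c.bwdH, c.jI, c.jH]
  nlinarith

theorem I_le (c : Cycle η H I A Hb Ib Ab) {s : ℝ} (hs : s ∈ Icc 0 η) : I s ≤ I 0 := by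
  have anti : AntitoneOn I (Icc 0 η) := by
    refine antitoneOn_of_hasDerivWithinAt_nonpos (f' := fun s => -(A s)) (convex_Icc 0 η) c.cI ?_ ?_
    · intro x hx
      rw [interior_Icc] at hx ⊢
      exact (c.dI x hx).hasDerivWithinAt
    · intro x hx
      rw [interior_Icc] at hx
      have := c.A_nonneg x hx
      linarith
  exact anti ⟨le_rfl, c.pos.le⟩ hs hs.1

theorem Ib_le (c : Cycle η H I A Hb Ib Ab) {s : ℝ} (hs : s ∈ Icc 0 η) : Ib s ≤ I 0 := by
  have mono : MonotoneOn Ib (Icc 0 η) := by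
    refine monotoneOn_of_hasDerivWithinAt_nonneg (f' := Ab) (convex_Icc 0 η) c.cIb ?_ ?_
    · intro x hx
      rw [interior_Icc] at hx ⊢
      exact (c.dIb x hx).hasDerivWithinAt
    · intro x hx
      rw [interior_Icc] at hx
      exact c.Ab_nonneg x hx
  have h1 : Ib s ≤ Ib η := mono hs ⟨c.pos.le, le_rfl⟩ hs.2
  have h2 : I η ≤ I 0 := c.I_le ⟨c.pos.le, le_rfl⟩
  rw [c.jI] at h2
  exact h1.trans h2

/-- lower bound for the entropy on the forward leg -/
theorem H_ge (c : Cycle η H I A Hb Ib Ab) {s : ℝ} (hs : s ∈ Icc 0 η) :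
    H 0 - s / 2 * I 0 ≤ H s := by
  have h : AntitoneOn (fun t => -(H t) - t / 2 * I 0) (Icc 0 η) := by
    refine antitoneOn_of_hasDerivWithinAt_nonpos
      (f' := fun t => -(-(I t) / 2) - 1 / 2 * I 0) (convex_Icc 0 η) ?_ ?_ ?_
    · exact (c.cH.neg).sub ((continuous_id.div_const 2).mul continuous_const).continuousOn
    · intro x hx
      rw [interior_Icc] at hx ⊢
      have h1 := (c.dH x hx).neg
      have h2 : HasDerivAt (fun t : ℝ => t / 2 * I 0) (1 / 2 * I 0) x :=
        ((hasDerivAt_id x).div_const 2).mul_const (I 0)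
      exact (h1.sub h2).hasDerivWithinAt
    · intro x hx
      rw [interior_Icc] at hx
      have := c.I_le (Ioo_subset_Icc_self hx)
      show -(-(I x) / 2) - 1 / 2 * I 0 ≤ 0
      linarith
  have := h ⟨le_rfl, c.pos.le⟩ hs hs.1
  simp only at this
  linarith

/-- lower bound for the entropy on the backward leg -/
theorem Hb_ge (c : Cycle η H I A Hb Ib Ab) {s : ℝ} (hs : s ∈ Icc 0 η) :
    H 0 - (η - s / 2) * I 0 ≤ Hb s := by
  have h : MonotoneOn (fun t => t / 2 * I 0 - Hb t) (Icc 0 η) := by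
    refine monotoneOn_of_hasDerivWithinAt_nonneg
      (f' := fun t => 1 / 2 * I 0 - Ib t / 2) (convex_Icc 0 η) ?_ ?_ ?_
    · exact (((continuous_id.div_const 2).mul continuous_const).continuousOn).sub c.cHb
    · intro x hx
      rw [interior_Icc] at hx ⊢
      have h2 : HasDerivAt (fun t : ℝ => t / 2 * I 0) (1 / 2 * I 0) x :=
        ((hasDerivAt_id x).div_const 2).mul_const (I 0)
      exact (h2.sub (c.dHb x hx)).hasDerivWithinAt
    · intro x hx
      rw [interior_Icc] at hx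
      have := c.Ib_le (Ioo_subset_Icc_self hx)
      show 0 ≤ 1 / 2 * I 0 - Ib x / 2
      linarith
  have h1 := h hs ⟨c.pos.le, le_rfl⟩ hs.2
  simp only at h1
  have h2 := c.H_ge (s := η) ⟨c.pos.le, le_rfl⟩
  rw [c.jH] at h2
  linarith

/-- the defect of log-Sobolev `(1+s)` stays small on the forward leg -/
theorem defect_fwd (c : Cycle η H I A Hb Ib Ab) (start : I 0 / 2 ≤ (1 + e0) * H 0)
    {s : ℝ} (hs : s ∈ Icc 0 η) :
    (1 + s) / 2 * I s - H s ≤ e0 * H 0 + η * I 0 := by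
  have h1 := c.I_le hs
  have h2 := c.H_ge hs
  have h3 := c.I_nonneg s hs
  have h0 := c.I_nonneg 0 ⟨le_rfl, c.pos.le⟩
  have h4 : (1 + s) / 2 * I s ≤ (1 + s) / 2 * I 0 :=
    mul_le_mul_of_nonneg_left h1 (by linarith [hs.1])
  nlinarith [mul_le_mul_of_nonneg_right hs.2 h0]

/-- the defect of log-Sobolev `(1+s)` stays small on the backward leg -/
theorem defect_bwd (c : Cycle η H I A Hb Ib Ab) (start : I 0 / 2 ≤ (1 + e0) * H 0)
    {s : ℝ} (hs : s ∈ Icc 0 η) :
    (1 + s) / 2 * Ib s - Hb s ≤ e0 * H 0 + 2 * η * I 0 := by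
  have h1 := c.Ib_le hs
  have h2 := c.Hb_ge hs
  have h0 := c.I_nonneg 0 ⟨le_rfl, c.pos.le⟩
  have h4 : (1 + s) / 2 * Ib s ≤ (1 + s) / 2 * I 0 :=
    mul_le_mul_of_nonneg_left h1 (by linarith [hs.1])
  nlinarith [mul_nonneg c.pos.le h0]

/-- **(★★)** if on the backward leg `(1 - θ) Ib ≤ Ab + b`, the forward leg alone is sharp -/
theorem starstar (c : Cycle η H I A Hb Ib Ab) (start : I 0 / 2 ≤ (1 + e0) * H 0)
    (fin : Hb 0 ≤ Ib 0 / 2) {b : ℝ}
    (low : ∀ s ∈ Ioo 0 η, Ib s ≤ Ab s + b) :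
    (∫ s in (0 : ℝ)..η, A s) ≤ (∫ s in (0 : ℝ)..η, I s) + η * b + 2 * e0 * H 0 := by
  have h := c.star start fin
  have h1 : ∫ s in (0 : ℝ)..η, Ib s ≤ ∫ s in (0 : ℝ)..η, (Ab s + b) := by
    refine intervalIntegral.integral_mono_on_of_le_Ioo c.pos.le c.intIb
      (c.intAb.add intervalIntegrable_const) ?_
    intro s hs
    exact low s hs
  rw [intervalIntegral.integral_add c.intAb intervalIntegrable_const,
    intervalIntegral.integral_const] at h1
  simp only [sub_zero, smul_eq_mul] at h1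
  linarith

/-- the same with the roles exchanged: the backward leg alone is sharp -/
theorem starstar' (c : Cycle η H I A Hb Ib Ab) (start : I 0 / 2 ≤ (1 + e0) * H 0)
    (fin : Hb 0 ≤ Ib 0 / 2) {b : ℝ}
    (low : ∀ s ∈ Ioo 0 η, I s ≤ A s + b) :
    (∫ s in (0 : ℝ)..η, Ab s) ≤ (∫ s in (0 : ℝ)..η, Ib s) + η * b + 2 * e0 * H 0 := by
  have h := c.star start fin
  have h1 : ∫ s in (0 : ℝ)..η, I s ≤ ∫ s in (0 : ℝ)..η, (A s + b) := by
    refine intervalIntegral.integral_mono_on_of_le_Ioo c.pos.le c.intI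
      (c.intA.add intervalIntegrable_const) ?_
    intro s hs
    exact low s hs
  rw [intervalIntegral.integral_add c.intA intervalIntegrable_const,
    intervalIntegral.integral_const] at h1
  simp only [sub_zero, smul_eq_mul] at h1
  linarith

/-- **good time on some leg** -/
theorem good (c : Cycle η H I A Hb Ib Ab) (start : I 0 / 2 ≤ (1 + e0) * H 0)
    (fin : Hb 0 ≤ Ib 0 / 2) :
    (∃ s ∈ Ioo 0 η, A s ≤ I s + e0 * H 0 / η) ∨
      ∃ s ∈ Ioo 0 η, Ab s ≤ Ib s + e0 * H 0 / η := by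
  by_contra hcon
  push Not at hcon
  obtain ⟨h1, h2⟩ := hcon
  have h := c.star start fin
  have e1 : (∫ s in (0 : ℝ)..η, (I s + e0 * H 0 / η)) < ∫ s in (0 : ℝ)..η, A s := by
    refine intervalIntegral.integral_lt_integral_of_ae_le_of_measure_setOfPred_lt_ne_zero c.pos.le
      (c.intI.add intervalIntegrable_const) c.intA ?_ ?_
    · have hne : ∀ᵐ s ∂volume, s ≠ η := by
        have := (measure_singleton η : volume ({η} : Set ℝ) = 0)
        exact compl_mem_ae_iff.mpr this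
      filter_upwards [ae_restrict_mem measurableSet_Ioc, ae_restrict_of_ae hne] with s hs hn
      exact (h1 s ⟨hs.1, lt_of_le_of_ne hs.2 hn⟩).le
    · intro h0
      have hsub : Ioo 0 η ⊆ {x | I x + e0 * H 0 / η < A x} := fun s hs => h1 s hs
      have : (volume.restrict (Ioc 0 η)) (Ioo 0 η) = 0 := measure_mono_null hsub h0
      rw [Measure.restrict_apply measurableSet_Ioo, inter_eq_left.mpr Ioo_subset_Ioc_self,
        Real.volume_Ioo] at this
      simp only [sub_zero, ENNReal.ofReal_eq_zero] at this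
      exact absurd this (not_le.mpr c.pos)
  have e2 : (∫ s in (0 : ℝ)..η, (Ib s + e0 * H 0 / η)) < ∫ s in (0 : ℝ)..η, Ab s := by
    refine intervalIntegral.integral_lt_integral_of_ae_le_of_measure_setOfPred_lt_ne_zero c.pos.le
      (c.intIb.add intervalIntegrable_const) c.intAb ?_ ?_
    · have hne : ∀ᵐ s ∂volume, s ≠ η := by
        have := (measure_singleton η : volume ({η} : Set ℝ) = 0)
        exact compl_mem_ae_iff.mpr this
      filter_upwards [ae_restrict_mem measurableSet_Ioc, ae_restrict_of_ae hne] with s hs hn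
      exact (h2 s ⟨hs.1, lt_of_le_of_ne hs.2 hn⟩).le
    · intro h0
      have hsub : Ioo 0 η ⊆ {x | Ib x + e0 * H 0 / η < Ab x} := fun s hs => h2 s hs
      have : (volume.restrict (Ioc 0 η)) (Ioo 0 η) = 0 := measure_mono_null hsub h0
      rw [Measure.restrict_apply measurableSet_Ioo, inter_eq_left.mpr Ioo_subset_Ioc_self,
        Real.volume_Ioo] at this
      simp only [sub_zero, ENNReal.ofReal_eq_zero] at this
      exact absurd this (not_le.mpr c.pos)
  rw [intervalIntegral.integral_add c.intI intervalIntegrable_const,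
    intervalIntegral.integral_const] at e1
  rw [intervalIntegral.integral_add c.intIb intervalIntegrable_const,
    intervalIntegral.integral_const] at e2
  have hη : η * (e0 * H 0 / η) = e0 * H 0 := mul_div_cancel₀ _ c.pos.ne'
  simp only [sub_zero, smul_eq_mul, hη] at e1 e2
  linarith

end Cycle

end Crest.Agent.R201.Cyc528
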