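import Crest.Agent.R201.Defs_74

/-!
# R201 (S0308), LSI half: sub-Gaussian measures, quadratic and linear Donsker–Varadhan
(owner: helper402)

`SG κ μ` : the Laplace transform of `μ` is at most `exp (κ |t|²)`.

* `SG.quad`   : `∫ exp (l ⟨Rx,x⟩) dμ ≤ exp (4 l κ tr R)` for `0 ≤ R ≤ 1`, `8 l κ ≤ 1`.
* `SG.dv_quad`: `l ∫ ⟨Rx,x⟩ ρ dμ ≤ ∫ ρ log ρ dμ + 4 l κ tr R` for densities `ρ`.
* `SG.dv_lin` : `|∫ x ρ dμ|² ≤ 4 κ ∫ ρ log ρ dμ`.
-/

set_option autoImplicit false
open MeasureTheory ProbabilityTheory Matrix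
open scoped BigOperators ENNReal RealInnerProductSpace

namespace Crest.Agent.R201.DVQ402

variable {n : ℕ}

/-! ### The Gaussian integral of `exp (c g²)` -/

theorem gauss_exp_sq {c : ℝ} (hc : c < 1 / 2) :
    Integrable (fun g : ℝ => Real.exp (c * g ^ 2)) (gaussianReal 0 1) ∧
      ∫ g, Real.exp (c * g ^ 2) ∂(gaussianReal 0 1) = (√(1 - 2 * c))⁻¹ := by
  have hb : 0 < 1 / 2 - c := by linarith
  have e1 : ∀ g : ℝ, gaussianPDFReal 0 1 g * Real.exp (c * g ^ 2) =
      (√(2 * Real.pi))⁻¹ * Real.exp (-(1 / 2 - c) * g ^ 2) := by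
    intro g
    rw [gaussianPDFReal_def]
    simp only [NNReal.coe_one, mul_one, sub_zero]
    rw [mul_assoc, ← Real.exp_add]
    congr 2
    ring
  constructor
  · rw [gaussianReal_of_var_ne_zero 0 one_ne_zero, gaussianPDF_def]
    rw [integrable_withDensity_iff_integrable_smul' (by fun_prop) (by simp)]
    have : (fun x : ℝ => (ENNReal.ofReal (gaussianPDFReal 0 1 x)).toReal • Real.exp (c * x ^ 2)) =
        fun x => (√(2 * Real.pi))⁻¹ * Real.exp (-(1 / 2 - c) * x ^ 2) := by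
      funext x
      rw [ENNReal.toReal_ofReal (gaussianPDFReal_nonneg _ _ _), smul_eq_mul, e1]
    rw [this]
    exact (integrable_exp_neg_mul_sq hb).const_mul _
  · rw [integral_gaussianReal_eq_integral_smul one_ne_zero]
    simp only [smul_eq_mul, e1]
    rw [integral_const_mul, integral_gaussian]
    rw [← Real.sqrt_inv, ← Real.sqrt_inv, ← Real.sqrt_mul (by positivity)]
    congr 1
    have hpi := Real.pi_pos
    have h2 : 1 - 2 * c ≠ 0 := by linarith
    have h3 : 1 / 2 - c ≠ 0 := by linarith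
    field_simp

theorem gauss_exp_sq_le {c : ℝ} (h0 : 0 ≤ c) (hc : c ≤ 1 / 4) :
    ∫ g, Real.exp (c * g ^ 2) ∂(gaussianReal 0 1) ≤ Real.exp (2 * c) := by
  rw [(gauss_exp_sq (by linarith)).2]
  have hs : (0 : ℝ) < 1 - 2 * c := by linarith
  rw [inv_le_comm₀ (Real.sqrt_pos.2 hs) (Real.exp_pos _), ← Real.exp_neg]
  apply Real.le_sqrt_of_sq_le
  rw [← Real.exp_nat_mul]
  have h1 : (0 : ℝ) < 1 + 4 * c := by linarith
  have h2 : Real.exp (((2 : ℕ) : ℝ) * -(2 * c)) ≤ (1 + 4 * c)⁻¹ := by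
    have : Real.exp (((2 : ℕ) : ℝ) * -(2 * c)) = (Real.exp (4 * c))⁻¹ := by
      rw [← Real.exp_neg]; congr 1; push_cast; ring
    rw [this]
    apply inv_anti₀ h1
    have := Real.add_one_le_exp (4 * c)
    linarith
  refine h2.trans ?_
  rw [inv_le_iff_one_le_mul₀ h1]
  nlinarith

/-- the moment generating function as an integral -/
theorem gauss_mgf (t : ℝ) :
    Integrable (fun g : ℝ => Real.exp (t * g)) (gaussianReal 0 1) ∧
      ∫ g, Real.exp (t * g) ∂(gaussianReal 0 1) = Real.exp (t ^ 2 / 2) := by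
  constructor
  · exact integrable_exp_mul_gaussianReal t
  · have h := congrFun (mgf_id_gaussianReal (μ := 0) (v := 1)) t
    simp only [mgf, id, zero_mul, zero_add, NNReal.coe_one, one_mul] at h
    exact h

/-! ### Sub-Gaussian measures -/

/-- the Laplace transform is at most `exp (κ |t|²)` -/
def SG (κ : ℝ) (μ : Measure (E n)) : Prop :=
  ∀ t : E n, Integrable (fun x => Real.exp ⟪t, x⟫) μ ∧
    ∫ x, Real.exp ⟪t, x⟫ ∂μ ≤ Real.exp (κ * ‖t‖ ^ 2)

theorem SG.lint {κ : ℝ} {μ : Measure (E n)} (h : SG κ μ) (t : E n) :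
    ∫⁻ x, ENNReal.ofReal (Real.exp ⟪t, x⟫) ∂μ ≤ ENNReal.ofReal (Real.exp (κ * ‖t‖ ^ 2)) := by
  rw [← ofReal_integral_eq_lintegral_ofReal (h t).1 (Filter.Eventually.of_forall fun x =>
    (Real.exp_pos _).le)]
  exact ENNReal.ofReal_le_ofReal (h t).2

theorem SG.of_lint {κ : ℝ} {μ : Measure (E n)}
    (h : ∀ t : E n, ∫⁻ x, ENNReal.ofReal (Real.exp ⟪t, x⟫) ∂μ ≤
      ENNReal.ofReal (Real.exp (κ * ‖t‖ ^ 2))) : SG κ μ := by
  intro t
  have hm : AEStronglyMeasurable (fun x : E n => Real.exp ⟪t, x⟫) μ :=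
    (by fun_prop : Continuous fun x : E n => Real.exp ⟪t, x⟫).aestronglyMeasurable
  have hi : Integrable (fun x : E n => Real.exp ⟪t, x⟫) μ := by
    refine ⟨hm, ?_⟩
    rw [hasFiniteIntegral_iff_ofReal (Filter.Eventually.of_forall fun x => (Real.exp_pos _).le)]
    exact (h t).trans_lt ENNReal.ofReal_lt_top
  refine ⟨hi, ?_⟩
  have := h t
  rw [← ofReal_integral_eq_lintegral_ofReal hi (Filter.Eventually.of_forall fun x =>
    (Real.exp_pos _).le)] at this
  exact (ENNReal.ofReal_le_ofReal_iff (Real.exp_pos _).le).1 this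

theorem SG.mono {κ κ' : ℝ} {μ : Measure (E n)} (h : SG κ μ) (hk : κ ≤ κ') : SG κ' μ := fun t =>
  ⟨(h t).1, (h t).2.trans (Real.exp_le_exp.2 (by gcongr))⟩

/-- the product standard Gaussian on `Fin n → ℝ` -/
noncomputable abbrev gp (n : ℕ) : Measure (Fin n → ℝ) := Measure.pi fun _ => gaussianReal 0 1

/-- quadratic exponential moments in an orthonormal frame, `lintegral` form -/
theorem SG.quad_frame_lint {κ : ℝ} {μ : Measure (E n)} [SFinite μ] (h : SG κ μ)
    {u : Fin n → E n} (hu : Orthonormal ℝ u) {r : Fin n → ℝ} (hr0 : ∀ i, 0 ≤ r i)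
    (hr1 : ∀ i, r i ≤ 1) (hκ : 0 ≤ κ) {l : ℝ} (hl : 0 ≤ l) (hlk : 8 * l * κ ≤ 1) :
    ∫⁻ x, ENNReal.ofReal (Real.exp (l * ∑ i, r i * ⟪u i, x⟫ ^ 2)) ∂μ ≤
      ENNReal.ofReal (Real.exp (4 * l * κ * ∑ i, r i)) := by
  classical
  set s : Fin n → ℝ := fun i => √(2 * l * r i) with hs
  have hs2 : ∀ i, s i ^ 2 = 2 * l * r i := fun i => Real.sq_sqrt (by have := hr0 i; positivity)
  -- linearisation
  have lin : ∀ x : E n, ENNReal.ofReal (Real.exp (l * ∑ i, r i * ⟪u i, x⟫ ^ 2)) =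
      ∫⁻ g, ENNReal.ofReal (Real.exp ⟪∑ i, (s i * g i) • u i, x⟫) ∂(gp n) := by
    intro x
    have e : (fun g : Fin n → ℝ => Real.exp ⟪∑ i, (s i * g i) • u i, x⟫) =
        fun g => ∏ i, Real.exp ((s i * ⟪u i, x⟫) * g i) := by
      funext g
      rw [← Real.exp_sum, sum_inner]
      congr 1
      refine Finset.sum_congr rfl fun i _ => ?_
      rw [real_inner_smul_left]; ring
    have hi : Integrable (fun g : Fin n → ℝ => ∏ i, Real.exp ((s i * ⟪u i, x⟫) * g i)) (gp n) :=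
      Integrable.fintype_prod (f := fun i (y : ℝ) => Real.exp ((s i * ⟪u i, x⟫) * y))
        fun i => (gauss_mgf _).1
    rw [← ofReal_integral_eq_lintegral_ofReal (by rw [e]; exact hi)
      (Filter.Eventually.of_forall fun x => (Real.exp_pos _).le), e]
    rw [integral_fintype_prod_eq_prod (fun i (y : ℝ) => Real.exp ((s i * ⟪u i, x⟫) * y))]
    congr 1
    rw [Finset.prod_congr rfl fun i _ => (gauss_mgf (s i * ⟪u i, x⟫)).2, ← Real.exp_sum,
      Finset.mul_sum]
    congr 1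
    refine Finset.sum_congr rfl fun i _ => ?_
    rw [mul_pow, hs2]; ring
  simp_rw [lin]
  have hmeas : Measurable (fun p : E n × (Fin n → ℝ) =>
      ENNReal.ofReal (Real.exp ⟪∑ i, (s i * p.2 i) • u i, p.1⟫)) := by
    apply Measurable.ennreal_ofReal
    apply Continuous.measurable
    fun_prop
  rw [lintegral_lintegral_swap hmeas.aemeasurable]
  calc ∫⁻ g, ∫⁻ x, ENNReal.ofReal (Real.exp ⟪∑ i, (s i * g i) • u i, x⟫) ∂μ ∂(gp n)
      ≤ ∫⁻ g, ENNReal.ofReal (∏ i, Real.exp ((κ * (2 * l * r i)) * g i ^ 2)) ∂(gp n) := by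
        refine lintegral_mono fun g => (h.lint _).trans (le_of_eq ?_)
        congr 1
        rw [← Real.exp_sum]
        congr 1
        have : ‖∑ i, (s i * g i) • u i‖ ^ 2 = ∑ i, (s i * g i) ^ 2 := by
          rw [← real_inner_self_eq_norm_sq, hu.inner_sum]
          refine Finset.sum_congr rfl fun i _ => ?_
          simp [sq]
        rw [this, Finset.mul_sum]
        refine Finset.sum_congr rfl fun i _ => ?_
        rw [mul_pow, hs2]; ring
    _ = ENNReal.ofReal (∏ i, ∫ y, Real.exp ((κ * (2 * l * r i)) * y ^ 2) ∂(gaussianReal 0 1)) := by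
        have hlt : ∀ i, κ * (2 * l * r i) < 1 / 2 := by
          intro i
          have h1 := hr1 i
          have h0 := hr0 i
          have : 0 ≤ l * κ := by positivity
          nlinarith
        have hi : Integrable (fun g : Fin n → ℝ =>
            ∏ i, Real.exp ((κ * (2 * l * r i)) * g i ^ 2)) (gp n) :=
          Integrable.fintype_prod (f := fun i (y : ℝ) => Real.exp ((κ * (2 * l * r i)) * y ^ 2))
            fun i => (gauss_exp_sq (hlt i)).1
        rw [← ofReal_integral_eq_lintegral_ofReal hi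
          (Filter.Eventually.of_forall fun x => Finset.prod_nonneg fun i _ => (Real.exp_pos _).le)]
        rw [integral_fintype_prod_eq_prod
          (fun i (y : ℝ) => Real.exp ((κ * (2 * l * r i)) * y ^ 2))]
    _ ≤ ENNReal.ofReal (Real.exp (4 * l * κ * ∑ i, r i)) := by
        apply ENNReal.ofReal_le_ofReal
        calc ∏ i, ∫ y, Real.exp ((κ * (2 * l * r i)) * y ^ 2) ∂(gaussianReal 0 1)
            ≤ ∏ i, Real.exp (2 * (κ * (2 * l * r i))) := by
              refine Finset.prod_le_prod (fun i _ => integral_nonneg fun y => (Real.exp_pos _).le)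
                fun i _ => gauss_exp_sq_le ?_ ?_
              · have := hr0 i; positivity
              · have h1 := hr1 i
                have h0 := hr0 i
                have : 0 ≤ l * κ := by positivity
                nlinarith
          _ = Real.exp (4 * l * κ * ∑ i, r i) := by
              rw [← Real.exp_sum, Finset.mul_sum]
              congr 1
              refine Finset.sum_congr rfl fun i _ => ?_
              ring

/-! ### Matrix form -/

/-- quadratic form of a matrix at a point -/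
noncomputable def qf (R : Mt n) (x : E n) : ℝ := ∑ i, ∑ j, R i j * x i * x j

theorem qf_eq (R : Mt n) (x : E n) : qf R x = (x : Fin n → ℝ) ⬝ᵥ (R *ᵥ (x : Fin n → ℝ)) := by
  simp only [qf, dotProduct, Matrix.mulVec, Finset.mul_sum]
  refine Finset.sum_congr rfl fun i _ => Finset.sum_congr rfl fun j _ => ?_
  ring

theorem qf_cont (R : Mt n) : Continuous (qf R) := by
  unfold qf
  fun_prop

/-- spectral decomposition of a quadratic form `0 ≤ R ≤ 1` -/
theorem spec {R : Mt n} (hs : Rᵀ = R) (h0 : LeQ 0 R) (h1 : LeQ R 1) :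
    ∃ (u : Fin n → E n) (r : Fin n → ℝ), Orthonormal ℝ u ∧ (∀ i, 0 ≤ r i) ∧ (∀ i, r i ≤ 1) ∧
      (∑ i, r i = R.trace) ∧ ∀ x, qf R x = ∑ i, r i * ⟪u i, x⟫ ^ 2 := by
  classical
  have hH : R.IsHermitian := by
    rw [Matrix.IsHermitian, Matrix.conjTranspose]
    ext i j
    simpa using congrFun (congrFun hs i) j
  have hev : ∀ i, R *ᵥ (hH.eigenvectorBasis i : Fin n → ℝ) =
      hH.eigenvalues i • (hH.eigenvectorBasis i : Fin n → ℝ) := hH.mulVec_eigenvectorBasis
  have hnorm : ∀ i, (hH.eigenvectorBasis i : Fin n → ℝ) ⬝ᵥ (hH.eigenvectorBasis i : Fin n → ℝ) = 1 := by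
    intro i
    have h := hH.eigenvectorBasis.orthonormal.1 i
    have h2 : ⟪hH.eigenvectorBasis i, hH.eigenvectorBasis i⟫ = 1 := by
      rw [real_inner_self_eq_norm_sq, h]; norm_num
    rw [PiLp.inner_apply] at h2
    simpa [dotProduct, ← sq] using h2
  have hquad : ∀ i, (hH.eigenvectorBasis i : Fin n → ℝ) ⬝ᵥ
      (R *ᵥ (hH.eigenvectorBasis i : Fin n → ℝ)) = hH.eigenvalues i := by
    intro i
    rw [hev, dotProduct_smul, hnorm, smul_eq_mul, mul_one]
  refine ⟨fun i => hH.eigenvectorBasis i, hH.eigenvalues, hH.eigenvectorBasis.orthonormal,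
    fun i => ?_, fun i => ?_, ?_, fun x => ?_⟩
  · have := h0 (hH.eigenvectorBasis i : Fin n → ℝ)
    rw [hquad] at this
    simpa using this
  · have := h1 (hH.eigenvectorBasis i : Fin n → ℝ)
    rw [hquad, Matrix.one_mulVec, hnorm] at this
    exact this
  · rw [hH.trace_eq_sum_eigenvalues]
    simp
  · rw [qf_eq]
    -- expand x in the eigenbasis
    have hx : (x : Fin n → ℝ) = ∑ i, ⟪hH.eigenvectorBasis i, x⟫ • (hH.eigenvectorBasis i : Fin n → ℝ) := by
      have h := hH.eigenvectorBasis.sum_repr' x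
      have h' := congrArg (fun z : E n => (z : Fin n → ℝ)) h
      simp only at h'
      rw [← h']
      ext j
      simp
    have hR : R *ᵥ (x : Fin n → ℝ) =
        ∑ i, (hH.eigenvalues i * ⟪hH.eigenvectorBasis i, x⟫) • (hH.eigenvectorBasis i : Fin n → ℝ) := by
      conv_lhs => rw [hx]
      rw [Matrix.mulVec_sum]
      refine Finset.sum_congr rfl fun i _ => ?_
      rw [Matrix.mulVec_smul, hev, smul_smul, mul_comm]
    rw [hR, dotProduct_sum]
    refine Finset.sum_congr rfl fun i _ => ?_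
    rw [dotProduct_smul]
    have : (x : Fin n → ℝ) ⬝ᵥ (hH.eigenvectorBasis i : Fin n → ℝ) = ⟪hH.eigenvectorBasis i, x⟫ := by
      rw [PiLp.inner_apply]
      simp [dotProduct]
    rw [this, smul_eq_mul]
    ring

/-- **quadratic exponential moments** of a sub-Gaussian measure -/
theorem SG.quad {κ : ℝ} {μ : Measure (E n)} [SFinite μ] (h : SG κ μ) {R : Mt n}
    (hs : Rᵀ = R) (h0 : LeQ 0 R) (h1 : LeQ R 1) (hκ : 0 ≤ κ) {l : ℝ} (hl : 0 ≤ l)
    (hlk : 8 * l * κ ≤ 1) :
    Integrable (fun x => Real.exp (l * qf R x)) μ ∧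
      ∫ x, Real.exp (l * qf R x) ∂μ ≤ Real.exp (4 * l * κ * R.trace) := by
  obtain ⟨u, r, hu, hr0, hr1, htr, hq⟩ := spec hs h0 h1
  have key := h.quad_frame_lint hu hr0 hr1 hκ hl hlk
  simp_rw [← hq, htr] at key
  have hm : AEStronglyMeasurable (fun x : E n => Real.exp (l * qf R x)) μ :=
    (Real.continuous_exp.comp (continuous_const.mul (qf_cont R))).aestronglyMeasurable
  have hi : Integrable (fun x : E n => Real.exp (l * qf R x)) μ := by
    refine ⟨hm, ?_⟩
    rw [hasFiniteIntegral_iff_ofReal (Filter.Eventually.of_forall fun x => (Real.exp_pos _).le)]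
    exact key.trans_lt ENNReal.ofReal_lt_top
  refine ⟨hi, ?_⟩
  rw [← ofReal_integral_eq_lintegral_ofReal hi (Filter.Eventually.of_forall fun x =>
    (Real.exp_pos _).le)] at key
  exact (ENNReal.ofReal_le_ofReal_iff (Real.exp_pos _).le).1 key

/-! ### Donsker–Varadhan for densities -/

section DV

variable {α : Type*} [MeasurableSpace α] {μ : Measure α}

/-- Young's inequality `a ρ ≤ ρ log ρ - ρ + e^a` -/
theorem young (a : ℝ) {ρ : ℝ} (hρ : 0 ≤ ρ) : a * ρ ≤ ρ * Real.log ρ - ρ + Real.exp a := by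
  rcases hρ.eq_or_lt with h | h
  · rw [← h]; simp [(Real.exp_pos a).le]
  · have h1 := Real.add_one_le_exp (a - Real.log ρ)
    rw [Real.exp_sub, Real.exp_log h, le_div_iff₀ h] at h1
    nlinarith

/-- Donsker–Varadhan inequality, Bochner form -/
theorem dv [IsProbabilityMeasure μ] {ρ f : α → ℝ} (hρ : ∀ x, 0 ≤ ρ x) (hi : Integrable ρ μ)
    (h1 : ∫ x, ρ x ∂μ = 1) (hent : Integrable (fun x => ρ x * Real.log (ρ x)) μ)
    (hf : Integrable (fun x => Real.exp (f x)) μ) (hfρ : Integrable (fun x => f x * ρ x) μ)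
    {c : ℝ} (hc : ∫ x, Real.exp (f x) ∂μ ≤ Real.exp c) :
    ∫ x, f x * ρ x ∂μ ≤ ∫ x, ρ x * Real.log (ρ x) ∂μ + c := by
  have key : ∫ x, (f x * ρ x - c * ρ x) ∂μ ≤
      ∫ x, (ρ x * Real.log (ρ x) - ρ x + Real.exp (-c) * Real.exp (f x)) ∂μ := by
    have i1 : Integrable (fun x => f x * ρ x - c * ρ x) μ := hfρ.sub (hi.const_mul c)
    have i2 : Integrable (fun x => ρ x * Real.log (ρ x) - ρ x + Real.exp (-c) * Real.exp (f x)) μ :=
      (hent.sub hi).add (hf.const_mul _)
    refine integral_mono i1 i2 fun x => ?_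
    have := young (f x - c) (hρ x)
    simp only
    rw [← Real.exp_add]
    have e : -c + f x = f x - c := by ring
    rw [e]
    linarith
  have i3 : Integrable (fun x => ρ x * Real.log (ρ x) - ρ x) μ := hent.sub hi
  rw [integral_sub hfρ (hi.const_mul c), integral_const_mul, h1,
    integral_add i3 (hf.const_mul _), integral_sub hent hi, h1,
    integral_const_mul] at key
  have h2 : Real.exp (-c) * ∫ x, Real.exp (f x) ∂μ ≤ 1 := by
    calc Real.exp (-c) * ∫ x, Real.exp (f x) ∂μ ≤ Real.exp (-c) * Real.exp c := by gcongr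
      _ = 1 := by rw [← Real.exp_add]; simp
  linarith

/-- `f ρ` is integrable as soon as `f ≥ 0` and `exp f` is integrable -/
theorem dv_int_nonneg {ρ f : α → ℝ} (hρ : ∀ x, 0 ≤ ρ x) (hi : Integrable ρ μ)
    (hent : Integrable (fun x => ρ x * Real.log (ρ x)) μ)
    (hf : Integrable (fun x => Real.exp (f x)) μ) (hf0 : ∀ x, 0 ≤ f x)
    (hfm : AEStronglyMeasurable f μ) : Integrable (fun x => f x * ρ x) μ := by
  refine Integrable.mono' (((hent.sub hi).add hf)) (hfm.mul hi.aestronglyMeasurable)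
    (Filter.Eventually.of_forall fun x => ?_)
  have h := young (f x) (hρ x)
  rw [Real.norm_of_nonneg (mul_nonneg (hf0 x) (hρ x))]
  exact h

/-- `f ρ` is integrable as soon as `exp f` and `exp (-f)` are integrable -/
theorem dv_int_abs {ρ f : α → ℝ} (hρ : ∀ x, 0 ≤ ρ x) (hi : Integrable ρ μ)
    (hent : Integrable (fun x => ρ x * Real.log (ρ x)) μ)
    (hf : Integrable (fun x => Real.exp (f x)) μ)
    (hf' : Integrable (fun x => Real.exp (-f x)) μ)
    (hfm : AEStronglyMeasurable f μ) : Integrable (fun x => f x * ρ x) μ := by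
  refine Integrable.mono' (((hent.sub hi).add (hf.add hf'))) (hfm.mul hi.aestronglyMeasurable)
    (Filter.Eventually.of_forall fun x => ?_)
  have h := young (f x) (hρ x)
  have h' := young (-f x) (hρ x)
  have e1 := (Real.exp_pos (f x)).le
  have e2 := (Real.exp_pos (-f x)).le
  rw [Real.norm_eq_abs, abs_le]
  simp only [Pi.add_apply, Pi.sub_apply]
  constructor <;> linarith

end DV

/-- quadratic Donsker–Varadhan with integrability -/
theorem SG.dv_quad {κ : ℝ} {μ : Measure (E n)} [IsProbabilityMeasure μ] (h : SG κ μ) {R : Mt n}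
    (hs : Rᵀ = R) (h0 : LeQ 0 R) (h1 : LeQ R 1) (hκ : 0 ≤ κ) {l : ℝ} (hl : 0 < l)
    (hlk : 8 * l * κ ≤ 1) {ρ : E n → ℝ} (hρ : ∀ x, 0 ≤ ρ x) (hi : Integrable ρ μ)
    (hone : ∫ x, ρ x ∂μ = 1) (hent : Integrable (fun x => ρ x * Real.log (ρ x)) μ) :
    Integrable (fun x => qf R x * ρ x) μ ∧
      l * ∫ x, qf R x * ρ x ∂μ ≤ ∫ x, ρ x * Real.log (ρ x) ∂μ + 4 * l * κ * R.trace := by
  obtain ⟨hI, hle⟩ := h.quad hs h0 h1 hκ hl.le hlk
  have hq0 : ∀ x, 0 ≤ l * qf R x := by
    intro x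
    have := h0 (x : Fin n → ℝ)
    rw [← qf_eq R] at this
    simp only [Matrix.zero_mulVec, dotProduct_zero] at this
    exact mul_nonneg hl.le this
  have hint := dv_int_nonneg hρ hi hent hI hq0 (continuous_const.mul (qf_cont R)).aestronglyMeasurable
  have e : ∀ x, l * qf R x * ρ x = l * (qf R x * ρ x) := fun x => by ring
  have hint' : Integrable (fun x => qf R x * ρ x) μ := by
    have h2 := hint.const_mul l⁻¹
    refine h2.congr (Filter.Eventually.of_forall fun x => ?_)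
    simp only
    rw [e, ← mul_assoc, inv_mul_cancel₀ hl.ne', one_mul]
  refine ⟨hint', ?_⟩
  have := dv hρ hi hone hent hI hint hle
  simp only [e] at this
  rwa [integral_const_mul] at this

/-- linear functionals: integrability -/
theorem SG.lin_int {κ : ℝ} {μ : Measure (E n)} (h : SG κ μ) {ρ : E n → ℝ}
    (hρ : ∀ x, 0 ≤ ρ x) (hi : Integrable ρ μ)
    (hent : Integrable (fun x => ρ x * Real.log (ρ x)) μ) (t : E n) :
    Integrable (fun x => ⟪t, x⟫ * ρ x) μ := by
  refine dv_int_abs hρ hi hent (h t).1 ?_ (by fun_prop : Continuous fun x : E n => ⟪t, x⟫).aestronglyMeasurable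
  have := (h (-t)).1
  simpa using this

/-- linear Donsker–Varadhan -/
theorem SG.dv_inner {κ : ℝ} {μ : Measure (E n)} [IsProbabilityMeasure μ] (h : SG κ μ) {ρ : E n → ℝ}
    (hρ : ∀ x, 0 ≤ ρ x) (hi : Integrable ρ μ)
    (hone : ∫ x, ρ x ∂μ = 1) (hent : Integrable (fun x => ρ x * Real.log (ρ x)) μ) (t : E n) :
    ∫ x, ⟪t, x⟫ * ρ x ∂μ ≤ ∫ x, ρ x * Real.log (ρ x) ∂μ + κ * ‖t‖ ^ 2 :=
  dv hρ hi hone hent (h t).1 (h.lin_int hρ hi hent t) (h t).2

/-- the mean of `ρ μ`: coordinates -/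
theorem SG.coord_int {κ : ℝ} {μ : Measure (E n)} (h : SG κ μ) {ρ : E n → ℝ}
    (hρ : ∀ x, 0 ≤ ρ x) (hi : Integrable ρ μ)
    (hent : Integrable (fun x => ρ x * Real.log (ρ x)) μ) (k : Fin n) :
    Integrable (fun x => x k * ρ x) μ := by
  have := h.lin_int hρ hi hent (EuclideanSpace.single k (1 : ℝ))
  refine this.congr (Filter.Eventually.of_forall fun x => ?_)
  simp [EuclideanSpace.inner_single_left]

/-- **linear Donsker–Varadhan**, squared form `|∫ x ρ dμ|² ≤ 4 κ ∫ ρ log ρ dμ` -/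
theorem SG.dv_lin {κ : ℝ} {μ : Measure (E n)} [IsProbabilityMeasure μ] (h : SG κ μ) (hκ : 0 < κ)
    {ρ : E n → ℝ} (hρ : ∀ x, 0 ≤ ρ x) (hi : Integrable ρ μ)
    (hone : ∫ x, ρ x ∂μ = 1) (hent : Integrable (fun x => ρ x * Real.log (ρ x)) μ) :
    ∑ k, (∫ x, x k * ρ x ∂μ) ^ 2 ≤ 4 * κ * ∫ x, ρ x * Real.log (ρ x) ∂μ := by
  set m : Fin n → ℝ := fun k => ∫ x, x k * ρ x ∂μ with hm
  set t : E n := WithLp.toLp 2 fun k => (2 * κ)⁻¹ * m k with ht
  have h1 := h.dv_inner hρ hi hone hent t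
  have e1 : ∫ x, ⟪t, x⟫ * ρ x ∂μ = (2 * κ)⁻¹ * ∑ k, m k ^ 2 := by
    have e : ∀ x : E n, ⟪t, x⟫ * ρ x = ∑ k, (2 * κ)⁻¹ * m k * (x k * ρ x) := by
      intro x
      rw [PiLp.inner_apply, Finset.sum_mul]
      refine Finset.sum_congr rfl fun k _ => ?_
      simp only [ht, RCLike.inner_apply, conj_trivial]
      ring
    simp only [e]
    rw [integral_finsetSum _ fun k _ => (h.coord_int hρ hi hent k).const_mul _, Finset.mul_sum]
    refine Finset.sum_congr rfl fun k _ => ?_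
    rw [integral_const_mul]
    simp only [hm]
    ring
  have e2 : ‖t‖ ^ 2 = ((2 * κ)⁻¹) ^ 2 * ∑ k, m k ^ 2 := by
    rw [EuclideanSpace.norm_sq_eq, Finset.mul_sum]
    refine Finset.sum_congr rfl fun k _ => ?_
    simp only [ht, Real.norm_eq_abs, sq_abs]
    ring
  rw [e1, e2] at h1
  have hk : (2 * κ)⁻¹ * ∑ k, m k ^ 2 - κ * (((2 * κ)⁻¹) ^ 2 * ∑ k, m k ^ 2) =
      (4 * κ)⁻¹ * ∑ k, m k ^ 2 := by
    field_simp
    ring
  have h3 : (4 * κ)⁻¹ * ∑ k, m k ^ 2 ≤ ∫ x, ρ x * Real.log (ρ x) ∂μ := by linarith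
  rw [inv_mul_le_iff₀ (by positivity)] at h3
  exact h3

end Crest.Agent.R201.DVQ402
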