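import Crest.Agent.R201.Defs_74

/-!
# R201: more definitions (owner: helper74): 2-slot tensors, pointwise data, context of sections 5–9
-/

set_option autoImplicit false
open MeasureTheory Matrix

namespace Crest.Agent.R201

variable {n : ℕ}

/-- tensors with two distinguished slots `a` (on which `B_k` acts) and `p` (on which `P` acts) -/
abbrev T2 (n : ℕ) (ι : Type*) := Fin n → Fin n → ι → ℝ

section T2

variable {ι : Type*}

def actA (A : Mt n) (X : T2 n ι) : T2 n ι := fun a p i => ∑ a', A a a' * X a' p i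
def actP (A : Mt n) (X : T2 n ι) : T2 n ι := fun a p i => ∑ p', A p p' * X a p' i

variable [Fintype ι]

def ip2 (X Y : T2 n ι) : ℝ := ∑ a, ∑ p, ∑ i, X a p i * Y a p i

/-- Gram matrix of the slot `a` -/
def gramA (X Y : T2 n ι) : Mt n := Matrix.of fun a a' => ∑ p, ∑ i, X a p i * Y a' p i

end T2

/-- the family of all entries of a `T2`-field -/
def fam2 {ι : Type*} (G : E n → T2 n ι) : Fin n × Fin n × ι → E n → ℝ :=
  fun i x => G x i.1 i.2.1 i.2.2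

/-- derivative of a `T2`-field -/
noncomputable def pd2 {ι : Type*} (k : Fin n) (G : E n → T2 n ι) (x : E n) : T2 n ι :=
  fun a p i => pd k (fun y => G y a p i) x

/-- Pointwise data of a pack: `N k = D_k M`, `Y k = D_k Z`. -/
structure PtD (n : ℕ) (R : Type) [Fintype R] where
  M : T3 n R
  N : Fin n → T3 n R
  Z : Mt n
  Y : Fin n → Mt n
  Err : Mt n
  symM : Sym3 M
  symN : ∀ k, Sym3 (N k)
  Zpos : Z.PosDef
  Zsq : Z * Z = gram M M
  Ysymm : ∀ k, (Y k)ᵀ = Y k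
  Ysq : ∀ k, Y k * Z + Z * Y k = gram (N k) M + gram M (N k)
  Errpos : LeQ 0 Err
  growth : LeQ (∑ k, gram (N k) (N k)) ((200 : ℝ) • (Z * Z) + Err)

/-- the pointwise error budget -/
def PtD.err {R : Type} [Fintype R] (p : PtD n R) : ℝ :=
  (∑ k, (ip (p.N k) (p.N k) - hs (p.Y k))) + p.Err.trace

/-- `B` is a bounded connection for the point data, all errors `≤ e`. -/
structure Conn {R : Type} [Fintype R] (p : PtD n R) (C' e : ℝ) (B : Fin n → Mt n) : Prop where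
  symm : ∀ k, (B k)ᵀ = B k
  bdd : LeQ (∑ k, B k * B k) (C' • (1 : Mt n))
  e1 : ∑ k, ip (p.N k - 2 • act1 (B k) p.M) (p.N k - 2 • act1 (B k) p.M) ≤ e
  e2 : ∑ k, ip (p.N k - 2 • act2 (B k) p.M) (p.N k - 2 • act2 (B k) p.M) ≤ e
  e3 : ∑ k, ip (p.N k - 2 • act3 (B k) p.M) (p.N k - 2 • act3 (B k) p.M) ≤ e
  comm : ∑ k, hs (p.Z * B k - B k * p.Z) ≤ e
  eZ : ∑ k, hs (p.Y k - 2 • (B k * p.Z)) ≤ e
  eZ' : ∑ k, hs (p.Y k - 2 • (p.Z * B k)) ≤ e

/-- root of a positive semidefinite matrix (junk value `0` otherwise) -/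
noncomputable def rt {m : Type*} [Fintype m] [DecidableEq m] (S : Matrix m m ℝ) : Matrix m m ℝ :=
  open scoped Classical in
  if h : ∃ T : Matrix m m ℝ, T.PosSemidef ∧ T * T = S then h.choose else 0

/-- smooth positive part `(W + (W² + d²)^{1/2})/2` -/
noncomputable def ppd (d : ℝ) (W : Mt n) : Mt n :=
  (1 / 2 : ℝ) • (W + rt (W * W + d ^ 2 • (1 : Mt n)))

/-- the enlarged tensor `M' = (M/4) ⊕ M⁺` -/
noncomputable def bigM {R : Type} (M : T3 n R) (Mp : Fin n → T3 n R) : T3 n (R ⊕ (R × Fin n)) :=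
  fun a b c s => Sum.elim (fun r => M a b c r / 4) (fun rk => Mp rk.2 a b c rk.1) s

/-- `Mp k` approximates `D_k M`; growth `100 Z²`, swap of `k` with the first slot. -/
structure Ext (K : KD n) (R : Type) [Fintype R] (a : ℝ)
    (M : E n → T3 n R) (Mp : Fin n → E n → T3 n R) (Z : E n → Mt n) : Prop where
  cb : ∀ k i, CB (fam3 (Mp k) i)
  sym : ∀ k x, Sym3 (Mp k x)
  near : ∑ k, ∫ x, ip (pdT k M x - Mp k x) (pdT k M x - Mp k x) ∂K.μ ≤ a
  gramle : ∀ x, LeQ (∑ k, gram (Mp k x) (Mp k x)) ((100 : ℝ) • (Z x * Z x))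
  swap : ∫ x, ∑ k, ∑ a, ∑ b, ∑ c, ∑ r, (Mp k x a b c r - Mp a x k b c r) ^ 2 ∂K.μ ≤ a

/-- The context of sections 5–9: the two packs, `M⁺`, and all global defects `≤ D`. -/
structure Ctx (K : KD n) (R : Type) [Fintype R] (a D : ℝ)
    (M : E n → T3 n R) (Mp : Fin n → E n → T3 n R) (Z Z' : E n → Mt n) : Prop where
  pk : Pack K R a M Z
  pk' : Pack K (R ⊕ (R × Fin n)) a (fun x => bigM (M x) (fun k => Mp k x)) Z'
  ex : Ext K R a M Mp Z
  ex' : ∃ Mp' : Fin n → E n → T3 n (R ⊕ (R × Fin n)),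
    Ext K (R ⊕ (R × Fin n)) a (fun x => bigM (M x) (fun k => Mp k x)) Mp' Z'
  a_nonneg : 0 ≤ a
  D_pos : 0 < D
  a_le : a ≤ D
  mZ : msq K.μ (famM Z) ≤ D
  tZ : tsq K.μ K.ω (famM Z) ≤ D
  tZ' : tsq K.μ K.ω (famM Z') ≤ D

/-! ### Objects built from the tower -/

/-- permute the first three letters of a word -/
def perm3 {j : ℕ} (σ : Equiv.Perm (Fin 3)) (v : Fin (j + 3) → Fin n) : Fin (j + 3) → Fin n :=
  fun i => if h : (i : ℕ) < 3 then v ⟨(σ ⟨i, h⟩ : ℕ), by have := (σ ⟨i, h⟩).2; omega⟩ else v i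

/-- symmetrisation over the three oldest slots -/
noncomputable def symW (F : (j : ℕ) → (Fin j → Fin n) → E n → ℝ) (j : ℕ)
    (v : Fin (j + 3) → Fin n) (x : E n) : ℝ :=
  (1 / 6) * ∑ σ : Equiv.Perm (Fin 3), F (j + 3) (perm3 σ v) x

/-- rest index of the truncated tower: levels `3 + j`, `j ≤ J`, plus the regulariser block -/
abbrev RJ (n J : ℕ) : Type := (Σ j : Fin (J + 1), (Fin (j : ℕ) → Fin n)) ⊕ Fin n

/-- the word `a b c w` -/
def word3 {j : ℕ} (a b c : Fin n) (w : Fin j → Fin n) : Fin (j + 3) → Fin n :=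
  (Fin.cons a (Fin.cons b (Fin.cons c w : Fin (j + 1) → Fin n) : Fin (j + 2) → Fin n) :
    Fin (j + 3) → Fin n)

/-- `M` -/
noncomputable def MT (F : (j : ℕ) → (Fin j → Fin n) → E n → ℝ) (J : ℕ) (δ : ℝ) (x : E n) :
    T3 n (RJ n J) :=
  fun a b c r => Sum.elim
    (fun jw => (1 / 10) ^ (jw.1 : ℕ) * symW F jw.1 (word3 a b c jw.2) x)
    (fun i => if a = i ∧ b = i ∧ c = i then δ else 0) r

/-- `M⁺` -/
noncomputable def MpT (F : (j : ℕ) → (Fin j → Fin n) → E n → ℝ) (J : ℕ) (k : Fin n) (x : E n) :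
    T3 n (RJ n J) :=
  fun a b c r => Sum.elim
    (fun jw => if (jw.1 : ℕ) < J then
      (1 / 10) ^ (jw.1 : ℕ) * symW F ((jw.1 : ℕ) + 1)
        (word3 a b c (Fin.snoc jw.2 k : Fin ((jw.1 : ℕ) + 1) → Fin n)) x
      else 0)
    (fun _ => 0) r

/-- `Z` -/
noncomputable def ZT (F : (j : ℕ) → (Fin j → Fin n) → E n → ℝ) (J : ℕ) (δ : ℝ) (x : E n) : Mt n :=
  rt (gram (MT F J δ x) (MT F J δ x))

/-- `Z'` -/
noncomputable def ZT' (F : (j : ℕ) → (Fin j → Fin n) → E n → ℝ) (J : ℕ) (δ : ℝ) (x : E n) : Mt n :=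
  rt (gram (bigM (MT F J δ x) (fun k => MpT F J k x)) (bigM (MT F J δ x) (fun k => MpT F J k x)))

/-- `α = 100 a₂ + Σ_{j ≤ J} 100^{-j} a_{j+3}` -/
noncomputable def alphaT {K : KD n} {κ : ℝ} (T : Tower K κ) (J : ℕ) : ℝ :=
  100 * msq K.μ (T.Ψ 2) + ∑ j ∈ Finset.range (J + 1), (1 / 100) ^ j * msq K.μ (T.Ψ (j + 3))

/-- the total defect -/
noncomputable def DT {K : KD n} {κ : ℝ} (T : Tower K κ) (J : ℕ) (δ a : ℝ) : ℝ :=
  a + msq K.μ (famM (ZT T.Ψ J δ)) + tsq K.μ K.ω (famM (ZT T.Ψ J δ))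
    + tsq K.μ K.ω (famM (ZT' T.Ψ J δ))

end Crest.Agent.R201
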