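import Mathlib

/-!
# R201 (S0308), KLS half: common definitions  (owner: helper74)

Resolvent form of doc 1859.  Everything is finite arrays of bounded `C¹` functions.
-/

set_option autoImplicit false
open MeasureTheory Matrix

namespace Crest.Agent.R201

/-- base space -/
abbrev E (n : ℕ) := EuclideanSpace ℝ (Fin n)

/-- square matrices -/
abbrev Mt (n : ℕ) := Matrix (Fin n) (Fin n) ℝ

variable {n : ℕ}

/-- partial derivative in direction `k` -/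
noncomputable def pd (k : Fin n) (f : E n → ℝ) (x : E n) : ℝ :=
  fderiv ℝ f x (EuclideanSpace.single k (1 : ℝ))

/-- bounded `C¹` function with bounded derivative -/
def CB (f : E n → ℝ) : Prop :=
  ContDiff ℝ 1 f ∧ ∃ B : ℝ, ∀ x, |f x| ≤ B ∧ ∀ k, |pd k f x| ≤ B

/-- partial derivative of a matrix field, entrywise -/
noncomputable def pdM (k : Fin n) (F : E n → Mt n) (x : E n) : Mt n :=
  Matrix.of fun i j => pd k (fun y => F y i j) x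

/-- Loewner order `A ≤ B` through quadratic forms (no symmetry demanded) -/
def LeQ {m : Type*} [Fintype m] (A B : Matrix m m ℝ) : Prop :=
  ∀ u : m → ℝ, u ⬝ᵥ (A *ᵥ u) ≤ u ⬝ᵥ (B *ᵥ u)

/-- Hilbert–Schmidt norm squared -/
def hs {m m' : Type*} [Fintype m] [Fintype m'] (A : Matrix m m' ℝ) : ℝ := ∑ i, ∑ j, A i j ^ 2

section Energies

variable (μ : Measure (E n)) {ι : Type*} [Fintype ι]

/-- `E |f|²` -/
noncomputable def nsq (f : ι → E n → ℝ) : ℝ := ∑ i, ∫ x, f i x ^ 2 ∂μ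
/-- `|E f|²` -/
noncomputable def msq (f : ι → E n → ℝ) : ℝ := ∑ i, (∫ x, f i x ∂μ) ^ 2
/-- `E |Df|²` -/
noncomputable def dsq (f : ι → E n → ℝ) : ℝ := ∑ i, ∑ k, ∫ x, pd k (f i) x ^ 2 ∂μ
/-- `|T₁ f|²`, `T₁ f = E ω f`, later `ω = x - E x` -/
noncomputable def tsq (ω : Fin n → E n → ℝ) (f : ι → E n → ℝ) : ℝ :=
  ∑ i, ∑ k, (∫ x, ω k x * f i x ∂μ) ^ 2
/-- `E ⟨Q f, f⟩` for a matrix field `Q` acting on the slot `p` of the family `f p i` -/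
noncomputable def en (Q : E n → Mt n) (f : Fin n → ι → E n → ℝ) : ℝ :=
  ∫ x, ∑ i, ∑ p, ∑ p', Q x p p' * f p i x * f p' i x ∂μ

end Energies

/-- The measure-side data.  `kp` is the penalty constant, `ω` represents `T₁`.
`ρ = x - E x - h V'`. All fields that the tensor side (sections 3–10) may use. -/
structure KD (n : ℕ) where
  μ : Measure (E n)
  prob : IsProbabilityMeasure μ
  /-- Hessian of the potential -/
  V2 : E n → Mt n
  /-- gradient of the potential -/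
  Vg : Fin n → E n → ℝ
  P : E n → Mt n
  r : Fin n → E n → ℝ
  ω : Fin n → E n → ℝ
  h : ℝ
  η : ℝ
  ν : ℝ
  ε : ℝ
  kp : ℝ
  h_pos : 0 < h
  h_le : h ≤ 1
  η_pos : 0 < η
  ν_nonneg : 0 ≤ ν
  ν_le : ν ≤ 1 / 100
  ε_nonneg : 0 ≤ ε
  ε_le : ε ≤ 1 / 100
  kp_pos : 0 ≤ kp
  kp_le : kp ≤ 4
  -- V
  V2_cont : ∀ i j, Continuous fun x => V2 x i j
  V2_symm : ∀ x, (V2 x)ᵀ = V2 x
  V2_nonneg : ∀ x, LeQ 0 (V2 x)
  V2_le : ∀ x, LeQ (h • V2 x) 1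
  Vg_L2 : ∀ k, MemLp (Vg k) 2 μ
  ibp : ∀ k (f : E n → ℝ), CB f → ∫ x, Vg k x * f x ∂μ = ∫ x, pd k f x ∂μ
  -- P
  P_cb : ∀ i j, CB fun x => P x i j
  P_symm : ∀ x, (P x)ᵀ = P x
  P_nonneg : ∀ x, LeQ 0 (P x)
  P_le : ∀ x, LeQ (P x) 1
  /-- (P1) -/
  P_mean : LeQ (Matrix.of fun i j => ∫ x, P x i j ∂μ) (η ^ 2 • (1 : Mt n))
  /-- (P2) -/
  P_grad : ∀ x, LeQ (∑ k, pdM k P x * pdM k P x) ((4 / h) • (P x * (1 - P x)))
  /-- (P3) -/
  P_hess : ∀ x, LeQ (1 - P x) ((2 * h) • V2 x)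
  -- r
  r_cb : ∀ k, CB (r k)
  r_mean : ∀ k, ∫ x, r k x ∂μ = 0
  r_pd : ∀ k j x, pd j (r k) x = (if j = k then 1 else 0) - h * V2 x j k
  /-- `E |(1 - h V'') u|² ≤ η² |u|²` -/
  r_sq : LeQ (Matrix.of fun i j => ∫ x, ((1 - h • V2 x) * (1 - h • V2 x)) i j ∂μ)
    (η ^ 2 • (1 : Mt n))
  -- T₁
  ω_L2 : ∀ k, MemLp (ω k) 2 μ
  ω_le : ∀ f : E n → ℝ, MemLp f 2 μ → ∑ k, (∫ x, ω k x * f x ∂μ) ^ 2 ≤ ν * ∫ x, f x ^ 2 ∂μ
  /-- (MP), scalar form -/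
  MP : ∀ f : E n → ℝ, CB f →
    (1 + ε) * ((∫ x, f x ^ 2 ∂μ) - (∫ x, f x ∂μ) ^ 2) ≤
      (∑ k, ∫ x, pd k f x ^ 2 ∂μ) + kp * ∑ k, (∫ x, ω k x * f x ∂μ) ^ 2
  /-- `ω k = x_k - E x_k = r k + h V'_k`, i.e. `T₁ f = Cov(x, f)` -/
  ω_eq : ∀ k x, ω k x = r k x + h * Vg k x

namespace KD

variable (K : KD n) {ι : Type*} [Fintype ι]

/-- the form `q` of a family -/
noncomputable def q (f : ι → E n → ℝ) : ℝ :=
  dsq K.μ f + K.kp * tsq K.μ K.ω f - (1 + K.ε) * (nsq K.μ f - msq K.μ f)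

end KD

/-- The tower.  Slots of level `j` are `w : Fin j → Fin n`, newest slot last (`Fin.snoc w k`).
`Ψ (j+1) (Fin.snoc w k) = pd k (φ j w)`. -/
structure Tower (K : KD n) (κ : ℝ) where
  Ψ : (j : ℕ) → (Fin j → Fin n) → E n → ℝ
  cb : ∀ j w, CB (Ψ j w)
  κ_pos : 0 < κ
  /-- exact symmetry of the derivative in the newest slot -/
  dsymm : ∀ j (w : Fin j → Fin n) (k l : Fin n) (x : E n),
    pd l (Ψ (j + 1) (Fin.snoc w k)) x = pd k (Ψ (j + 1) (Fin.snoc w l)) x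
  /-- (t0) -/
  start_norm : nsq K.μ (Ψ 0) = 1
  start_mean : msq K.μ (Ψ 0) = 0
  /-- (t1) -/
  start_q : K.q (Ψ 0) ≤ κ
  /-- (t2) recursion: `D_{j+1} + v_{j+1} + a_{j+1}/2 ≤ 2 D_j + 3 a_{j+2} + κ` -/
  recur : ∀ j, K.q (Ψ (j + 1)) + en K.μ K.V2 (fun p (w : Fin j → Fin n) => Ψ (j + 1) (Fin.snoc w p))
      + msq K.μ (Ψ (j + 1)) / 2 ≤ 2 * K.q (Ψ j) + 3 * msq K.μ (Ψ (j + 2)) + κ
  /-- (t3) `|D Ψ_j - Ψ_{j+1}|² ≤ 8 (D_j + a_{j+1}) + κ` -/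
  near : ∀ j, ∑ w : Fin j → Fin n, ∑ k, ∫ x, (pd k (Ψ j w) x - Ψ (j + 1) (Fin.snoc w k) x) ^ 2 ∂K.μ
      ≤ 8 * (K.q (Ψ j) + msq K.μ (Ψ (j + 1))) + κ
  /-- (t5) contraction: the map `Ψ_j ↦ Ψ_{j+1}` acts on linear combinations of the old slots -/
  contr : ∀ j (L : (Fin j → Fin n) → ℝ),
    ∑ k, ∫ x, (∑ w, L w * Ψ (j + 1) (Fin.snoc w k) x) ^ 2 ∂K.μ ≤
      (11 / 10) * (∫ x, (∑ w, L w * Ψ j w x) ^ 2 ∂K.μ) + κ * ∑ w, L w ^ 2
  /-- (t6) `|T₁ Ψ_j|² ≤ 2 (D_j + a_{j+1}) + κ` -/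
  t1 : ∀ j, tsq K.μ K.ω (Ψ j) ≤ 2 * (K.q (Ψ j) + msq K.μ (Ψ (j + 1))) + κ

/-! ### Measure-free tensor algebra: three symmetric slots and a rest index -/

/-- tensors with three slots `a b c` and a rest index -/
abbrev T3 (n : ℕ) (R : Type*) := Fin n → Fin n → Fin n → R → ℝ

section T3

variable {R : Type*}

/-- symmetric in the three slots -/
def Sym3 (M : T3 n R) : Prop :=
  (∀ a b c r, M a b c r = M b a c r) ∧ (∀ a b c r, M a b c r = M a c b r)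

def act1 (A : Mt n) (M : T3 n R) : T3 n R := fun a b c r => ∑ a', A a a' * M a' b c r
def act2 (A : Mt n) (M : T3 n R) : T3 n R := fun a b c r => ∑ b', A b b' * M a b' c r
def act3 (A : Mt n) (M : T3 n R) : T3 n R := fun a b c r => ∑ c', A c c' * M a b c' r

variable [Fintype R]

/-- inner product -/
def ip (M N : T3 n R) : ℝ := ∑ a, ∑ b, ∑ c, ∑ r, M a b c r * N a b c r

/-- polarised Gram matrix of the first slot -/
def gram (M N : T3 n R) : Mt n :=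
  Matrix.of fun a a' => ∑ b, ∑ c, ∑ r, M a b c r * N a' b c r

end T3

/-! ### Tensor fields -/

section Fields

variable {R : Type*}

/-- derivative of a tensor field, entrywise -/
noncomputable def pdT (k : Fin n) (M : E n → T3 n R) (x : E n) : T3 n R :=
  fun a b c r => pd k (fun y => M y a b c r) x

/-- the family of all entries of a tensor field -/
def fam3 (M : E n → T3 n R) : Fin n × Fin n × Fin n × R → E n → ℝ :=
  fun i x => M x i.1 i.2.1 i.2.2.1 i.2.2.2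

/-- the family of all entries of a matrix field -/
def famM (Z : E n → Mt n) : Fin n × Fin n → E n → ℝ := fun i x => Z x i.1 i.2

/-- A symmetric tensor field with its root `Z`, and the defect bounds of section 2 (all `≤ a`). -/
structure Pack (K : KD n) (R : Type) [Fintype R] (a : ℝ) (M : E n → T3 n R) (Z : E n → Mt n) :
    Prop where
  cb : ∀ i, CB (fam3 M i)
  sym : ∀ x, Sym3 (M x)
  /-- regularised -/
  pos : ∃ δ : ℝ, 0 < δ ∧ ∀ x, LeQ (δ • (1 : Mt n)) (gram (M x) (M x))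
  Zpos : ∀ x, (Z x).PosDef
  Zsq : ∀ x, Z x * Z x = gram (M x) (M x)
  qM : K.q (fam3 M) ≤ a
  mM : msq K.μ (fam3 M) ≤ a
  tM : tsq K.μ K.ω (fam3 M) ≤ a
  /-- `(1-P)`-energy of the slot `a` -/
  enM : en K.μ (fun x => 1 - K.P x)
    (fun p (i : Fin n × Fin n × R) x => M x p i.1 i.2.1 i.2.2) ≤ a
  /-- `V''`-energy of the slot `k` of `D_k M`, times `h` -/
  enD : K.h * en K.μ K.V2 (fun k (i : Fin n × Fin n × Fin n × R) x =>
    pd k (fam3 M i) x) ≤ a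
  /-- growth -/
  growth : ∃ Err : E n → Mt n, (∀ i j, Integrable (fun x => Err x i j) K.μ) ∧
    (∀ x, LeQ 0 (Err x)) ∧ (∫ x, (Err x).trace ∂K.μ ≤ a) ∧
    ∀ x, LeQ (∑ k, gram (pdT k M x) (pdT k M x)) ((200 : ℝ) • (Z x * Z x) + Err x)

end Fields

end Crest.Agent.R201
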