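import Crest.Agent.R201.Clip6_78

/-!
# R201 (S0308), level 2, block EL, part 1: integrated facts of 78's non-symmetric clip
of the Jacobian (helper676)
-/

set_option autoImplicit false
open MeasureTheory Matrix
open scoped ContDiff

namespace Crest.Agent.R201.EL676

open Crest.Agent.R201 Crest.Agent.R201.Tw807 Crest.Agent.R201.El593 Crest.Agent.R201.Clip78

variable {n : ℕ} {φ : Fin n → E n → ℝ} {e1 : ℝ} {S : St n}

/-- `⟨T, M⟩ ≤ |M|²` -/
theorem Tf_d' (he : 0 < e1) (x : E n) :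
    ∑ i, ∑ k, Tf e1 φ i k x * pd k (φ i) x ≤ ∑ i, ∑ k, pd k (φ i) x ^ 2 := by
  have h := (hs_cF_le_trace he (Bm φ x)).2
  simp only [hs, Matrix.trace, Matrix.diag_apply, Matrix.mul_apply, transpose_apply] at h
  refine le_trans (le_of_eq ?_) h
  refine Finset.sum_congr rfl fun i _ => Finset.sum_congr rfl fun k _ => ?_
  simp only [Tf, Tc]
  have : Bm φ x i k = pd k (φ i) x := rfl
  rw [this]
  ring

theorem mTf (hφ : ∀ i, ContDiff ℝ ∞ (φ i)) (hφs : ∀ i, HasCompactSupport (φ i)) (i k : Fin n) :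
    MemLp (Tf e1 φ i k) 2 S.ν := mcc (Tf_C1 hφ e1 i k).continuous (Tf_cs hφs e1 i k)

theorem mBm (hφ : ∀ i, ContDiff ℝ ∞ (φ i)) (hφs : ∀ i, HasCompactSupport (φ i)) (i k : Fin n) :
    MemLp (pd k (φ i)) 2 S.ν := mcc (pd_smooth (hφ i) k).continuous (pd_cs (hφs i) k)

theorem TM_le (he : 0 < e1) (hφ : ∀ i, ContDiff ℝ ∞ (φ i)) (hφs : ∀ i, HasCompactSupport (φ i)) :
    TM S φ (Tf e1 φ) ≤ dsq S.ν φ := by
  have mT : ∀ i k, MemLp (Tf e1 φ i k) 2 S.ν := mTf hφ hφs
  have mM : ∀ i k, MemLp (pd k (φ i)) 2 S.ν := mBm hφ hφs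
  have e1' : TM S φ (Tf e1 φ) = ∫ x, ∑ i, ∑ k, Tf e1 φ i k x * pd k (φ i) x ∂S.ν := by
    unfold TM
    rw [integral_finsetSum _ fun i _ => integrable_finsetSum _ fun k _ => im (mT i k) (mM i k)]
    exact Finset.sum_congr rfl fun i _ =>
      (integral_finsetSum _ fun k _ => im (mT i k) (mM i k)).symm
  have e2' : dsq S.ν φ = ∫ x, ∑ i, ∑ k, pd k (φ i) x ^ 2 ∂S.ν := by
    unfold dsq
    rw [integral_finsetSum _ fun i _ => integrable_finsetSum _ fun k _ => isq (mM i k)]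
    exact Finset.sum_congr rfl fun i _ =>
      (integral_finsetSum _ fun k _ => isq (mM i k)).symm
  rw [e1', e2']
  exact integral_mono
    (integrable_finsetSum _ fun i _ => integrable_finsetSum _ fun k _ => im (mT i k) (mM i k))
    (integrable_finsetSum _ fun i _ => integrable_finsetSum _ fun k _ => isq (mM i k))
    fun x => Tf_d' he x

/-- level-2 inequality for the clip -/
theorem lev2_T (he : 0 < e1) (hV : ∀ x, LeQ 0 (S.V2 x)) (hφ : ∀ i, ContDiff ℝ ∞ (φ i))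
    (hφs : ∀ i, HasCompactSupport (φ i)) {t : ℝ} (ht : 0 < t) :
    (1 - t / 2) * (XX S φ (Tf e1 φ) + YY S φ (Tf e1 φ)) ≤
      dsq S.ν φ + (1 + t / 2) * (e1 * √(dsq S.ν S.w) * √(dsq S.ν φ)) + r2 S φ / (2 * t) := by
  have h := lev2_clip (S := S) hV hφ hφs he ht
  have h2 := TM_le (S := S) he hφ hφs
  linarith

/-- `E ∑_k |D_k T|² ≤ X` -/
theorem hs_le_XX (he : 0 < e1) (hφ : ∀ i, ContDiff ℝ ∞ (φ i))
    (hφs : ∀ i, HasCompactSupport (φ i)) :
    ∫ x, ∑ k, hs (pdM k (Tc e1 φ) x) ∂S.ν ≤ XX S φ (Tf e1 φ) := by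
  have cD : ∀ i k l, Continuous (pd l (Tf e1 φ i k)) := fun i k l => pd_cont (Tf_C1 hφ e1 i k) l
  have sD : ∀ i k l, HasCompactSupport (pd l (Tf e1 φ i k)) := fun i k l =>
    pd_cs (Tf_cs hφs e1 i k) l
  have j1 : ∀ i k l, Integrable (fun x => pd l (Tf e1 φ i k) x ^ 2) S.ν :=
    fun i k l => isq (mcc (cD i k l) (sD i k l))
  have j2 : ∀ i k l, Integrable (fun x => pd l (Tf e1 φ i k) x * pd l (pd k (φ i)) x) S.ν :=
    fun i k l => cci ((cD i k l).mul (pd_smooth (pd_smooth (hφ i) k) l).continuous)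
      ((sD i k l).mul_right (f' := pd l (pd k (φ i))))
  have e2' : XX S φ (Tf e1 φ) =
      ∫ x, ∑ i, ∑ k, ∑ l, pd l (Tf e1 φ i k) x * pd l (pd k (φ i)) x ∂S.ν := by
    unfold XX
    rw [integral_finsetSum _ fun i _ => integrable_finsetSum _ fun k _ =>
      integrable_finsetSum _ fun l _ => j2 i k l]
    refine Finset.sum_congr rfl fun i _ => ?_
    rw [integral_finsetSum _ fun k _ => integrable_finsetSum _ fun l _ => j2 i k l]
    exact Finset.sum_congr rfl fun k _ => (integral_finsetSum _ fun l _ => j2 i k l).symm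
  simp only [sum_hs_pdM]
  rw [e2']
  exact integral_mono
    (integrable_finsetSum _ fun i _ => integrable_finsetSum _ fun k _ =>
      integrable_finsetSum _ fun l _ => j1 i k l)
    (integrable_finsetSum _ fun i _ => integrable_finsetSum _ fun k _ =>
      integrable_finsetSum _ fun l _ => j2 i k l) (fun x => Tf_b hφ he x)

/-- `E Tr V'' TᵀT ≤ Y` -/
theorem tr_le_YY (he : 0 < e1) (hV : ∀ x, LeQ 0 (S.V2 x)) (hφ : ∀ i, ContDiff ℝ ∞ (φ i))
    (hφs : ∀ i, HasCompactSupport (φ i)) :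
    ∫ x, (S.V2 x * ((Tc e1 φ x)ᵀ * Tc e1 φ x)).trace ∂S.ν ≤ YY S φ (Tf e1 φ) := by
  have cT : ∀ i k, Continuous (Tf e1 φ i k) := fun i k => (Tf_C1 hφ e1 i k).continuous
  have iV : ∀ {G : Fin n → Fin n → E n → ℝ}, (∀ i k, Continuous (G i k)) → ∀ i k l,
      Integrable (fun x => S.V2 x k l * (Tf e1 φ i k x * G i l x)) S.ν := fun hG i k l =>
    cci ((S.V2_cont k l).mul ((cT i k).mul (hG i l)))
      (((Tf_cs hφs e1 i k).mul_right (f' := _)).mul_left (f := fun x => S.V2 x k l))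
  have j1 := iV (G := Tf e1 φ) cT
  have j2 := iV (G := fun i k => pd k (φ i)) (fun i k => (pd_smooth (hφ i) k).continuous)
  have e2' : YY S φ (Tf e1 φ) =
      ∫ x, ∑ i, ∑ k, ∑ l, S.V2 x k l * (Tf e1 φ i k x * pd l (φ i) x) ∂S.ν := by
    unfold YY
    rw [integral_finsetSum _ fun i _ => integrable_finsetSum _ fun k _ =>
      integrable_finsetSum _ fun l _ => j2 i k l]
    refine Finset.sum_congr rfl fun i _ => ?_
    rw [integral_finsetSum _ fun k _ => integrable_finsetSum _ fun l _ => j2 i k l]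
    exact Finset.sum_congr rfl fun k _ => (integral_finsetSum _ fun l _ => j2 i k l).symm
  simp only [trace_V_Tc]
  rw [e2']
  exact integral_mono
    (integrable_finsetSum _ fun i _ => integrable_finsetSum _ fun k _ =>
      integrable_finsetSum _ fun l _ => j1 i k l)
    (integrable_finsetSum _ fun i _ => integrable_finsetSum _ fun k _ =>
      integrable_finsetSum _ fun l _ => j2 i k l) (fun x => Tf_c (hV x) he x)

/-- `E Tr V'' TᵀT ≥ 0` pointwise -/
theorem tr_nonneg {V : Mt n} (hV : LeQ 0 V) (T : Mt n) : 0 ≤ (V * (Tᵀ * T)).trace := by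
  have h := trace_mul_mono hV (X := 0) (by simp) (FtF_tr T) (FtF_nonneg T)
  simpa using h

end Crest.Agent.R201.EL676
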