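import Crest.Agent.R201.EL1_676

/-!
# R201 (S0308), level 2, block EL, part 2: closeness and the final inequality (helper676)
-/

set_option autoImplicit false
open MeasureTheory Matrix
open scoped ContDiff

namespace Crest.Agent.R201.EL676

open Crest.Agent.R201 Crest.Agent.R201.Tw807 Crest.Agent.R201.El593 Crest.Agent.R201.Clip78

variable {n : ℕ} {S : St n} {φ : Fin n → E n → ℝ} {ε e1 e : ℝ}

theorem nsq_nn {ι : Type*} [Fintype ι] (ν : Measure (E n)) (f : ι → E n → ℝ) : 0 ≤ nsq ν f :=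
  Finset.sum_nonneg fun _ _ => integral_nonneg fun _ => sq_nonneg _

theorem dsq_nn {ι : Type*} [Fintype ι] (ν : Measure (E n)) (f : ι → E n → ℝ) : 0 ≤ dsq ν f :=
  Finset.sum_nonneg fun _ _ => Finset.sum_nonneg fun _ _ => integral_nonneg fun _ => sq_nonneg _

/-- `|a + b|² ≤ 2|a|² + 2|b|²` -/
theorem two_two {f g h : E n → ℝ} (hf : MemLp f 2 S.ν) (hg : MemLp g 2 S.ν)
    (hh : MemLp h 2 S.ν) {a b : ℝ} (h0 : ∀ x, h x ^ 2 ≤ a * f x ^ 2 + b * g x ^ 2) :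
    ∫ x, h x ^ 2 ∂S.ν ≤ a * (∫ x, f x ^ 2 ∂S.ν) + b * ∫ x, g x ^ 2 ∂S.ν := by
  rw [← integral_const_mul, ← integral_const_mul,
    ← integral_add ((isq hf).const_mul a) ((isq hg).const_mul b)]
  exact integral_mono (isq hh) (((isq hf).const_mul a).add ((isq hg).const_mul b)) h0

/-- a priori bound -/
theorem apriori (hφ : ∀ i, ContDiff ℝ ∞ (φ i)) (hφs : ∀ i, HasCompactSupport (φ i))
    (he : ∑ i, ∫ x, (φ i x + AW S.toSm (φ i) x - 2 * S.w i x) ^ 2 ∂S.ν ≤ e) :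
    nsq S.ν φ + dsq S.ν φ ≤ 8 * nsq S.ν S.w + 2 * e := by
  have mw := S.w_L2
  have mφ : ∀ i, MemLp (φ i) 2 S.ν := fun i => mcc (hφ i).continuous (hφs i)
  have mA : ∀ i, MemLp (AW S.toSm (φ i)) 2 S.ν := fun i =>
    mcc (AW_smooth (hφ i)).continuous (AW_cs (hφs i))
  have mg : ∀ i, MemLp (fun x => φ i x + AW S.toSm (φ i) x) 2 S.ν := fun i => (mφ i).add (mA i)
  have me : ∀ i, MemLp (fun x => φ i x + AW S.toSm (φ i) x - 2 * S.w i x) 2 S.ν := fun i =>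
    ((mφ i).add (mA i)).sub ((mw i).const_mul 2)
  have h1 : ∑ i, ∫ x, (φ i x + AW S.toSm (φ i) x) * φ i x ∂S.ν = nsq S.ν φ + dsq S.ν φ := by
    unfold nsq dsq
    rw [← Finset.sum_add_distrib]
    refine Finset.sum_congr rfl fun i _ => ?_
    have e0 : ∀ x, (φ i x + AW S.toSm (φ i) x) * φ i x = φ i x ^ 2 +
        AW S.toSm (φ i) x * φ i x := fun x => by ring
    simp only [e0]
    rw [integral_add (isq (mφ i)) (im (mA i) (mφ i)),
      ibp_A (hφ i) (hφs i) ((hφ i).of_le (by norm_cast))]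
    simp only [sq]
  have h2 : ∑ i, ∫ x, (φ i x + AW S.toSm (φ i) x) ^ 2 ∂S.ν ≤ 8 * nsq S.ν S.w + 2 * e := by
    have h3 : ∀ i, ∫ x, (φ i x + AW S.toSm (φ i) x) ^ 2 ∂S.ν ≤ 8 * (∫ x, S.w i x ^ 2 ∂S.ν) +
        2 * ∫ x, (φ i x + AW S.toSm (φ i) x - 2 * S.w i x) ^ 2 ∂S.ν := fun i =>
      two_two (mw i) (me i) (mg i) fun x => by
        nlinarith [sq_nonneg ((φ i x + AW S.toSm (φ i) x - 2 * S.w i x) - 2 * S.w i x)]
    have h4 := Finset.sum_le_sum (s := (Finset.univ : Finset (Fin n))) fun i _ => h3 i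
    rw [Finset.sum_add_distrib, ← Finset.mul_sum, ← Finset.mul_sum] at h4
    have h5 : ∑ i, ∫ x, S.w i x ^ 2 ∂S.ν = nsq S.ν S.w := rfl
    rw [h5] at h4
    linarith
  have h3 := (le_abs_self _).trans (cs_fam (ν := S.ν) mg mφ)
  rw [h1] at h3
  have h5 : ∑ i, ∫ x, φ i x ^ 2 ∂S.ν = nsq S.ν φ := rfl
  rw [h5] at h3
  set G := ∑ i, ∫ x, (φ i x + AW S.toSm (φ i) x) ^ 2 ∂S.ν with hG
  have hG0 : 0 ≤ G := Finset.sum_nonneg fun i _ => integral_nonneg fun x => sq_nonneg _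
  have hn0 := nsq_nn S.ν φ
  have hd0 := dsq_nn S.ν φ
  have h6 := Real.sq_sqrt hG0
  have h7 := Real.sq_sqrt hn0
  have h8 : nsq S.ν φ + dsq S.ν φ ≤ (G + nsq S.ν φ) / 2 := by
    nlinarith [sq_nonneg (√G - √(nsq S.ν φ))]
  have h9 : nsq S.ν φ + dsq S.ν φ ≤ G := by linarith
  linarith

/-- `|Dφ|² ≤ (1+s)|Dw|² + (1+1/s)|Dw-Dφ|²` -/
theorem dsq_le (hφ : ∀ i, ContDiff ℝ ∞ (φ i)) (hφs : ∀ i, HasCompactSupport (φ i)) {s : ℝ}
    (hs : 0 < s) : dsq S.ν φ ≤ (1 + s) * dsq S.ν S.w +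
      (1 + 1 / s) * ∑ i, ∑ k, ∫ x, (pd k (S.w i) x - pd k (φ i) x) ^ 2 ∂S.ν := by
  unfold dsq
  rw [Finset.mul_sum, Finset.mul_sum, ← Finset.sum_add_distrib]
  refine Finset.sum_le_sum fun i _ => ?_
  rw [Finset.mul_sum, Finset.mul_sum, ← Finset.sum_add_distrib]
  refine Finset.sum_le_sum fun k _ => ?_
  have mH := S.H_L2 i k
  have mD : MemLp (pd k (φ i)) 2 S.ν := mcc (pd_smooth (hφ i) k).continuous (pd_cs (hφs i) k)
  refine two_two mH (mH.sub mD) mD fun x => ?_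
  simp only [Pi.sub_apply]
  set a := pd k (S.w i) x
  set b := pd k (φ i) x
  have h1 : 0 ≤ (s * a + (a - b)) ^ 2 / s := by positivity
  have h2 : (s * a + (a - b)) ^ 2 / s = s * a ^ 2 + 2 * a * (a - b) + 1 / s * (a - b) ^ 2 := by
    field_simp
    ring
  rw [h2] at h1
  nlinarith

/-- **block EL, general form** -/
theorem EL_gen (hε : 0 < ε) (hε1 : ε ≤ 1) (he1 : 0 < e1) (he1' : e1 ≤ 1 / 10)
    (hI : 0 < nsq S.ν S.w) (hS2 : dsq S.ν S.w ≤ (1 + ε) * nsq S.ν S.w)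
    (hV : ∀ x, LeQ 0 (S.V2 x))
    (CH : ∀ φ : Fin n → E n → ℝ, (∀ i, ContDiff ℝ ∞ (φ i)) → (∀ i, HasCompactSupport (φ i)) →
      nsq S.ν φ - dsq S.ν φ ≤ ε * (dsq S.ν φ + nsq S.ν φ + 4 * nsq S.ν S.w) +
        2 * ∑ i, ∫ x, (S.w i x - φ i x) ^ 2 ∂S.ν) :
    ∃ φ : Fin n → E n → ℝ, (∀ i, ContDiff ℝ ∞ (φ i)) ∧ (∀ i, HasCompactSupport (φ i)) ∧
      nsq S.ν φ + dsq S.ν φ ≤ 9 * nsq S.ν S.w ∧
      (∑ i, ∑ k, ∫ x, (pd k (S.w i) x - pd k (φ i) x) ^ 2 ∂S.ν) +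
        (∑ i, ∫ x, (S.w i x - φ i x) ^ 2 ∂S.ν) ≤ 30 * ε * nsq S.ν S.w ∧
      (∫ x, ∑ k, hs (pdM k (Tc e1 φ) x) ∂S.ν) +
        (∫ x, (S.V2 x * ((Tc e1 φ x)ᵀ * Tc e1 φ x)).trace ∂S.ν) ≤
        (1 + 310 * (√ε + e1)) * nsq S.ν S.w := by
  set I := nsq S.ν S.w with hIdef
  obtain ⟨φ, h1, h2, h3⟩ := exists_phi S (e := ε * I / 2) (by positivity)
  have h4 := apriori h1 h2 h3
  rw [← hIdef] at h4
  have hεI : ε * I ≤ I := by nlinarith
  have h5 : nsq S.ν φ + dsq S.ν φ ≤ 9 * I := by linarith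
  have h6 : ε * (dsq S.ν φ + nsq S.ν φ + 4 * I) ≤ 13 * (ε * I) := by nlinarith
  have h7 := close S (d := ε * I) (κ := 13 * (ε * I)) h1 h2 h3 (by rw [← hIdef]; linarith)
    (by have := CH φ h1 h2; linarith)
  set X := ∑ i, ∑ k, ∫ x, (pd k (S.w i) x - pd k (φ i) x) ^ 2 ∂S.ν with hX
  set Y := ∑ i, ∫ x, (S.w i x - φ i x) ^ 2 ∂S.ν with hY
  have hX0 : 0 ≤ X := Finset.sum_nonneg fun _ _ => Finset.sum_nonneg fun _ _ =>
    integral_nonneg fun _ => sq_nonneg _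
  have hY0 : 0 ≤ Y := Finset.sum_nonneg fun _ _ => integral_nonneg fun _ => sq_nonneg _
  have h8 : X + Y / 2 ≤ 15 * (ε * I) := by linarith
  refine ⟨φ, h1, h2, h5, by linarith, ?_⟩
  -- level 2
  set s := √ε with hs
  have hs0 : 0 < s := Real.sqrt_pos.2 hε
  have hss : s ^ 2 = ε := Real.sq_sqrt hε.le
  have hs1 : s ≤ 1 := by
    rw [hs]; exact Real.sqrt_le_one.2 hε1
  have h9 := lev2_T (S := S) he1 hV h1 h2 hs0
  have h10 := hs_le_XX (S := S) he1 h1 h2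
  have h11 := tr_le_YY (S := S) he1 hV h1 h2
  have h12 := r2_le (S := S) h1 h2
  rw [← hY] at h12
  have h13 := dsq_le (S := S) h1 h2 hs0
  rw [← hX] at h13
  set XY := XX S φ (Tf e1 φ) + YY S φ (Tf e1 φ) with hXY
  have hdw0 := dsq_nn S.ν S.w
  have hdf0 := dsq_nn S.ν φ
  have hnf0 := nsq_nn S.ν φ
  have h14 : dsq S.ν φ ≤ (1 + 33 * s) * I := by
    have a1 : (1 + s) * dsq S.ν S.w ≤ (1 + 3 * s) * I := by
      have b1 : (1 + s) * dsq S.ν S.w ≤ (1 + s) * ((1 + ε) * I) :=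
        mul_le_mul_of_nonneg_left hS2 (by linarith)
      have b2 : (1 + s) * (1 + ε) ≤ 1 + 3 * s := by rw [← hss]; nlinarith
      have b3 : (1 + s) * (1 + ε) * I ≤ (1 + 3 * s) * I := mul_le_mul_of_nonneg_right b2 hI.le
      linarith
    have a2 : (1 + 1 / s) * X ≤ 30 * s * I := by
      have b1 : (1 + 1 / s) * X ≤ (1 + 1 / s) * (15 * (ε * I)) :=
        mul_le_mul_of_nonneg_left (by linarith) (by positivity)
      have b2 : (1 + 1 / s) * (15 * (ε * I)) = 15 * (s ^ 2 + s) * I := by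
        rw [← hss]; field_simp
      have b3 : 15 * (s ^ 2 + s) * I ≤ 30 * s * I :=
        mul_le_mul_of_nonneg_right (by nlinarith) hI.le
      linarith
    linarith
  have h15 : √(dsq S.ν S.w) * √(dsq S.ν φ) ≤ 11 / 2 * I := by
    have a1 := Real.sq_sqrt hdw0
    have a2 := Real.sq_sqrt hdf0
    have a3 : dsq S.ν S.w ≤ 2 * I := by nlinarith
    have a4 := sq_nonneg (√(dsq S.ν S.w) - √(dsq S.ν φ))
    have a5 : (√(dsq S.ν S.w) - √(dsq S.ν φ)) ^ 2 = √(dsq S.ν S.w) ^ 2 -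
        2 * (√(dsq S.ν S.w) * √(dsq S.ν φ)) + √(dsq S.ν φ) ^ 2 := by ring
    rw [a5, a1, a2] at a4
    linarith
  have h16 : (1 + s / 2) * (e1 * √(dsq S.ν S.w) * √(dsq S.ν φ)) ≤ 9 * e1 * I := by
    have a1 : e1 * √(dsq S.ν S.w) * √(dsq S.ν φ) ≤ e1 * (11 / 2 * I) := by
      rw [mul_assoc]; exact mul_le_mul_of_nonneg_left h15 he1.le
    have a2 : 0 ≤ e1 * √(dsq S.ν S.w) * √(dsq S.ν φ) := by positivity
    have a3 : 0 < e1 * I := by positivity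
    have a4 : (1 + s / 2) * (e1 * √(dsq S.ν S.w) * √(dsq S.ν φ)) ≤
        (1 + 1 / 2) * (e1 * √(dsq S.ν S.w) * √(dsq S.ν φ)) :=
      mul_le_mul_of_nonneg_right (by linarith) a2
    linarith
  have h17 : r2 S φ / (2 * s) ≤ 121 * s * I := by
    rw [div_le_iff₀ (by positivity)]
    have a1 : Y ≤ 30 * (ε * I) := by linarith
    have a2 : r2 S φ ≤ 241 * (ε * I) := by linarith
    have a3 : 121 * s * I * (2 * s) = 242 * (ε * I) := by rw [← hss]; ring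
    rw [a3]
    have : 0 ≤ ε * I := by positivity
    linarith
  have h18 : (1 - s / 2) * XY ≤ (1 + 154 * s + 9 * e1) * I := by linarith
  have h19 : XY ≤ (1 + s) * ((1 + 154 * s + 9 * e1) * I) := by
    have a1 : 0 ≤ (1 + 154 * s + 9 * e1) * I := by positivity
    by_contra hcon
    push Not at hcon
    have a2 : (1 - s / 2) * ((1 + s) * ((1 + 154 * s + 9 * e1) * I)) < (1 - s / 2) * XY :=
      mul_lt_mul_of_pos_left hcon (by linarith)
    have a3 : (1 : ℝ) ≤ (1 - s / 2) * (1 + s) := by nlinarith [mul_nonneg hs0.le (sub_nonneg.2 hs1)]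
    have a4 : (1 + 154 * s + 9 * e1) * I ≤ (1 - s / 2) * (1 + s) * ((1 + 154 * s + 9 * e1) * I) :=
      le_mul_of_one_le_left a1 a3
    linarith
  have h20 : (1 + s) * ((1 + 154 * s + 9 * e1) * I) ≤ (1 + 310 * (s + e1)) * I := by
    have b1 : s * s ≤ s := by nlinarith
    have b2 : s * e1 ≤ e1 := mul_le_of_le_one_left he1.le hs1
    have a1 : (1 + s) * (1 + 154 * s + 9 * e1) ≤ 1 + 310 * (s + e1) := by linarith
    have a2 := mul_le_mul_of_nonneg_right a1 hI.le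
    linarith
  linarith

end Crest.Agent.R201.EL676
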