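import Crest.Agent.R201.NsDefs_674
import Crest.Agent.R201.EL2_676

/-!
# R201 (S0308), level 2, block EL, part 3: the literal statement `ELc` (helper676)
-/

set_option autoImplicit false
open MeasureTheory Matrix
open scoped ContDiff

namespace Crest.Agent.R201.EL676

open Crest.Agent.R201 Crest.Agent.R201.L74

variable {n : ℕ} {ε e1 : ℝ}

theorem eps_pos (S : State n ε) : 0 < ε := S.h_pos.trans_le S.h_le

/-- `EL_gen` for a `State` -/
theorem EL_state (hCH : CH) (S : State n ε) (hε : ε ≤ 1) (hI : 0 < S.I) (he : 0 < e1)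
    (he' : e1 ≤ 1 / 10) : ∃ φ : Fin n → E n → ℝ, (∀ i, ContDiff ℝ ∞ (φ i)) ∧
    (∀ i, HasCompactSupport (φ i)) ∧ nsq S.ν φ + dsq S.ν φ ≤ 9 * S.I ∧
    S.dist1 φ + S.dist0 φ ≤ 30 * ε * S.I ∧
    (∫ x, ∑ k, hs (pdM k (Top674.Tc e1 φ) x) ∂S.ν) +
      (∫ x, (S.V2 x * ((Top674.Tc e1 φ x)ᵀ * Top674.Tc e1 φ x)).trace ∂S.ν) ≤
      (1 + 310 * (√ε + e1)) * S.I :=
  EL_gen (S := S.toSt) (eps_pos S) hε he he' hI S.S2 S.V2_nonneg fun φ h1 h2 => by
    have h := hCH n ε S hε φ h1 h2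
    have e0 : S.I = nsq S.ν S.w := rfl
    rw [e0] at h
    linarith

/-- **block EL** -/
theorem el676 (hCH : CH) : Top674.ELc := by
  refine ⟨310, by norm_num, fun n ε S hε hI e1 he he' => ?_⟩
  obtain ⟨φ, h1, h2, -, h4, h5⟩ := EL_state hCH S hε hI he he'
  have h6 : 0 ≤ S.dist1 φ := Finset.sum_nonneg fun _ _ => Finset.sum_nonneg fun _ _ =>
    integral_nonneg fun _ => sq_nonneg _
  have h7 : 0 ≤ S.dist0 φ := Finset.sum_nonneg fun _ _ => integral_nonneg fun _ => sq_nonneg _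
  have h8 : 0 ≤ ε * S.I := mul_nonneg (eps_pos S).le hI.le
  exact ⟨φ, h1, h2, by linarith, by linarith, h5⟩

end Crest.Agent.R201.EL676
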