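import Crest.Agent.R201.Tw1_807

/-!
# R201 (S0308), level 2, static block: measures with smooth log-gradient (helper593)

`ν` a probability measure with density `exp (-W)`, `Wg = ∇W`, `W2 = D²W`;
`AW φ = -Δφ + ∇W·∇φ`; divergence of a matrix field; the matrix Bochner identity.
-/

set_option autoImplicit false
open MeasureTheory Matrix
open scoped ContDiff

namespace Crest.Agent.R201.El593

open Crest.Agent.R201 Crest.Agent.R201.Tw807

variable {n : ℕ}

/-- a probability measure with smooth log-gradient -/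
structure Sm (n : ℕ) where
  ν : Measure (E n)
  prob : IsProbabilityMeasure ν
  Wg : Fin n → E n → ℝ
  W2 : E n → Mt n
  Wg_smooth : ∀ k, ContDiff ℝ ∞ (Wg k)
  W2_eq : ∀ k l x, W2 x k l = pd l (Wg k) x
  W2_symm : ∀ k l x, W2 x k l = W2 x l k
  ibp : ∀ k (f : E n → ℝ), ContDiff ℝ 1 f → HasCompactSupport f →
    ∫ x, Wg k x * f x ∂ν = ∫ x, pd k f x ∂ν

variable (S : Sm n)

instance : IsProbabilityMeasure S.ν := S.prob

/-- `A φ = -Δφ + W'·Dφ` -/
noncomputable def AW (φ : E n → ℝ) (x : E n) : ℝ :=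
  ∑ k, (S.Wg k x * pd k φ x - pd k (pd k φ) x)

variable {S}

theorem cci {f : E n → ℝ} (hc : Continuous f) (hs : HasCompactSupport f) : Integrable f S.ν := by
  obtain ⟨B, hB⟩ := bdd_of_cc hc hs
  exact Integrable.of_bound hc.aestronglyMeasurable B
    (Filter.Eventually.of_forall fun x => by simpa using hB x)

theorem Wg_cont (k : Fin n) : Continuous (S.Wg k) := (S.Wg_smooth k).continuous

theorem W2_cont (k l : Fin n) : Continuous fun x => S.W2 x k l := by
  have : (fun x => S.W2 x k l) = pd l (S.Wg k) := funext fun x => S.W2_eq k l x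
  rw [this]
  exact (pd_smooth (S.Wg_smooth k) l).continuous

theorem cs_sum {ι : Type*} (s : Finset ι) {f : ι → E n → ℝ}
    (hf : ∀ i ∈ s, HasCompactSupport (f i)) : HasCompactSupport (fun x => ∑ i ∈ s, f i x) := by
  classical
  induction s using Finset.induction_on with
  | empty =>
    simp only [Finset.sum_empty]
    exact HasCompactSupport.zero
  | insert a s ha ih =>
    have h1 := hf a (Finset.mem_insert_self a s)
    have h2 := ih fun i hi => hf i (Finset.mem_insert_of_mem hi)
    have e : (fun x => ∑ i ∈ insert a s, f i x) = f a + fun x => ∑ i ∈ s, f i x := by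
      funext x
      rw [Finset.sum_insert ha]
      rfl
    rw [e]
    exact h1.add h2

theorem cs_sub {f g : E n → ℝ} (hf : HasCompactSupport f) (hg : HasCompactSupport g) :
    HasCompactSupport (fun x => f x - g x) := by
  have e : (fun x => f x - g x) = f + -g := by
    funext x; simp [sub_eq_add_neg]
  rw [e]
  exact hf.add hg.neg

theorem AW_cs {φ : E n → ℝ} (hs : HasCompactSupport φ) : HasCompactSupport (AW S φ) := by
  unfold AW
  exact cs_sum _ fun k _ => cs_sub ((pd_cs hs k).mul_left (f := S.Wg k)) (pd_cs (pd_cs hs k) k)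

theorem AW_smooth {φ : E n → ℝ} (hφ : ContDiff ℝ ∞ φ) : ContDiff ℝ ∞ (AW S φ) := by
  unfold AW
  exact ContDiff.sum fun k _ => ((S.Wg_smooth k).mul (pd_smooth hφ k)).sub
    (pd_smooth (pd_smooth hφ k) k)

/-- integration by parts with a product, the compact support being on the first factor -/
theorem ibp2 (k : Fin n) {a f : E n → ℝ} (ha : ContDiff ℝ 1 a) (hs : HasCompactSupport a)
    (hf : ContDiff ℝ 1 f) :
    ∫ x, (S.Wg k x * a x - pd k a x) * f x ∂S.ν = ∫ x, a x * pd k f x ∂S.ν := by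
  have hp : ContDiff ℝ 1 (fun x => a x * f x) := ha.mul hf
  have hps : HasCompactSupport (fun x => a x * f x) := hs.mul_right (f' := f)
  have h0 := S.ibp k _ hp hps
  have e1 : ∀ x, pd k (fun x => a x * f x) x = a x * pd k f x + pd k a x * f x := fun x =>
    pd_mul k (ha.differentiable (by simp) x) (hf.differentiable (by simp) x)
  simp only [e1] at h0
  have i1 : Integrable (fun x => a x * pd k f x) S.ν :=
    cci (ha.continuous.mul (pd_cont hf k)) (hs.mul_right (f' := pd k f))
  have i2 : Integrable (fun x => pd k a x * f x) S.ν :=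
    cci ((pd_cont ha k).mul hf.continuous) ((pd_cs hs k).mul_right (f' := f))
  have i3 : Integrable (fun x => S.Wg k x * (a x * f x)) S.ν :=
    cci ((Wg_cont k).mul hp.continuous) (hps.mul_left (f := S.Wg k))
  rw [integral_add i1 i2] at h0
  have e2 : ∀ x, (S.Wg k x * a x - pd k a x) * f x = S.Wg k x * (a x * f x) - pd k a x * f x :=
    fun x => by ring
  simp only [e2]
  rw [integral_sub i3 i2, h0]
  ring

/-- `∫ (Aφ) f = ∑ ∫ D_kφ D_k f` -/
theorem ibp_A {φ f : E n → ℝ} (hφ : ContDiff ℝ ∞ φ) (hs : HasCompactSupport φ)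
    (hf : ContDiff ℝ 1 f) :
    ∫ x, AW S φ x * f x ∂S.ν = ∑ k, ∫ x, pd k φ x * pd k f x ∂S.ν := by
  unfold AW
  simp only [Finset.sum_mul]
  rw [integral_finsetSum]
  · exact Finset.sum_congr rfl fun k _ =>
      ibp2 k ((pd_smooth hφ k).of_le (by norm_cast)) (pd_cs hs k) hf
  · intro k _
    refine cci ((((Wg_cont k).mul (pd_smooth hφ k).continuous).sub
      (pd_smooth (pd_smooth hφ k) k).continuous).mul hf.continuous) ?_
    exact (cs_sub ((pd_cs hs k).mul_left (f := S.Wg k)) (pd_cs (pd_cs hs k) k)).mul_right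
      (f' := f)

/-- `D_k (A φ) = A (D_k φ) + (W'' Dφ)_k` -/
theorem pd_AW {φ : E n → ℝ} (hφ : ContDiff ℝ ∞ φ) (k : Fin n) (x : E n) :
    pd k (AW S φ) x = AW S (pd k φ) x + ∑ l, S.W2 x k l * pd l φ x := by
  have d1 : ∀ l, Differentiable ℝ (S.Wg l) := fun l => (S.Wg_smooth l).differentiable (by simp)
  have d2 : ∀ l, Differentiable ℝ (pd l φ) := fun l =>
    (pd_smooth hφ l).differentiable (by simp)
  have d3 : ∀ l, Differentiable ℝ (pd l (pd l φ)) := fun l =>
    (pd_smooth (pd_smooth hφ l) l).differentiable (by simp)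
  have h1 : pd k (AW S φ) x =
      ∑ l, pd k (fun y => S.Wg l y * pd l φ y - pd l (pd l φ) y) x := by
    unfold AW
    exact pd_sum Finset.univ k fun l _ => ((d1 l x).mul (d2 l x)).sub (d3 l x)
  have h2 : ∀ l, pd k (fun y => S.Wg l y * pd l φ y - pd l (pd l φ) y) x =
      (S.Wg l x * pd l (pd k φ) x - pd l (pd l (pd k φ)) x) + S.W2 x k l * pd l φ x := by
    intro l
    have dm : DifferentiableAt ℝ (fun y => S.Wg l y * pd l φ y) x := (d1 l x).mul (d2 l x)
    rw [pd_sub k dm (d3 l x), pd_mul k (d1 l x) (d2 l x), pd_comm hφ k l x]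
    have e1 : pd k (pd l (pd l φ)) x = pd l (pd l (pd k φ)) x := by
      rw [pd_comm (pd_smooth hφ l) k l x]
      have : pd k (pd l φ) = pd l (pd k φ) := funext fun y => pd_comm hφ k l y
      rw [this]
    rw [e1, S.W2_symm k l x, S.W2_eq l k x]
    ring
  rw [h1]
  unfold AW
  rw [← Finset.sum_add_distrib]
  exact Finset.sum_congr rfl fun l _ => h2 l

/-! ### matrix fields -/

variable (S)

/-- divergence (adjoint of `D`) of a matrix field -/
noncomputable def dv (T : Fin n → Fin n → E n → ℝ) (i : Fin n) (x : E n) : ℝ :=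
  ∑ k, (S.Wg k x * T i k x - pd k (T i k) x)

variable {S}

theorem dv_cs {T : Fin n → Fin n → E n → ℝ} (hs : ∀ i k, HasCompactSupport (T i k)) (i : Fin n) :
    HasCompactSupport (dv S T i) := by
  unfold dv
  exact cs_sum _ fun k _ => cs_sub ((hs i k).mul_left (f := S.Wg k)) (pd_cs (hs i k) k)

theorem dv_cont {T : Fin n → Fin n → E n → ℝ} (hT : ∀ i k, ContDiff ℝ 1 (T i k)) (i : Fin n) :
    Continuous (dv S T i) := by
  unfold dv
  exact continuous_finsetSum _ fun k _ => ((Wg_cont k).mul (hT i k).continuous).sub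
    (pd_cont (hT i k) k)

/-- `∫ (δT)_i f = ∑_k ∫ T_ik D_k f` -/
theorem ibp_dv {T : Fin n → Fin n → E n → ℝ} (hT : ∀ i k, ContDiff ℝ 1 (T i k))
    (hs : ∀ i k, HasCompactSupport (T i k)) (i : Fin n) {f : E n → ℝ} (hf : ContDiff ℝ 1 f) :
    ∫ x, dv S T i x * f x ∂S.ν = ∑ k, ∫ x, T i k x * pd k f x ∂S.ν := by
  unfold dv
  simp only [Finset.sum_mul]
  rw [integral_finsetSum]
  · exact Finset.sum_congr rfl fun k _ => ibp2 k (hT i k) (hs i k) hf
  · intro k _
    refine cci ((((Wg_cont k).mul (hT i k).continuous).sub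
      (pd_cont (hT i k) k)).mul hf.continuous) ?_
    exact (cs_sub ((hs i k).mul_left (f := S.Wg k)) (pd_cs (hs i k) k)).mul_right (f' := f)

/-- matrix Bochner identity -/
theorem boch {T : Fin n → Fin n → E n → ℝ} (hT : ∀ i k, ContDiff ℝ 1 (T i k))
    (hs : ∀ i k, HasCompactSupport (T i k)) {φ : Fin n → E n → ℝ} (hφ : ∀ i, ContDiff ℝ ∞ (φ i))
    (hφs : ∀ i, HasCompactSupport (φ i)) (i : Fin n) :
    (∑ k, ∑ l, ∫ x, pd l (T i k) x * pd l (pd k (φ i)) x ∂S.ν) +
      (∑ k, ∑ l, ∫ x, S.W2 x k l * (T i k x * pd l (φ i) x) ∂S.ν) =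
      ∫ x, dv S T i x * AW S (φ i) x ∂S.ν := by
  rw [ibp_dv hT hs i ((AW_smooth (hφ i)).of_le (by norm_cast)), ← Finset.sum_add_distrib]
  refine Finset.sum_congr rfl fun k _ => ?_
  have e1 : ∀ x, T i k x * pd k (AW S (φ i)) x = AW S (pd k (φ i)) x * T i k x +
      ∑ l, S.W2 x k l * (T i k x * pd l (φ i) x) := by
    intro x
    rw [pd_AW (hφ i) k x, mul_add, Finset.mul_sum]
    congr 1
    · ring
    · exact Finset.sum_congr rfl fun l _ => by ring
  simp only [e1]
  have iV : ∀ l, Integrable (fun x => S.W2 x k l * (T i k x * pd l (φ i) x)) S.ν := fun l =>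
    cci ((W2_cont k l).mul ((hT i k).continuous.mul (pd_smooth (hφ i) l).continuous))
      (((hs i k).mul_right (f' := pd l (φ i))).mul_left (f := fun x => S.W2 x k l))
  have iA : Integrable (fun x => AW S (pd k (φ i)) x * T i k x) S.ν :=
    cci ((AW_smooth (pd_smooth (hφ i) k)).continuous.mul (hT i k).continuous)
      ((hs i k).mul_left (f := AW S (pd k (φ i))))
  rw [integral_add iA (integrable_finsetSum _ fun l _ => iV l),
    integral_finsetSum _ fun l _ => iV l, ibp_A (pd_smooth (hφ i) k) (pd_cs (hφs i) k) (hT i k)]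
  congr 1
  exact Finset.sum_congr rfl fun l _ => integral_congr_ae (Filter.Eventually.of_forall fun x => by
    simp only; ring)

/-- second moment of the divergence of a smooth matrix field -/
theorem dv_sq {T : Fin n → Fin n → E n → ℝ} (hT : ∀ i k, ContDiff ℝ ∞ (T i k))
    (hs : ∀ i k, HasCompactSupport (T i k)) (i : Fin n) :
    ∫ x, dv S T i x ^ 2 ∂S.ν = (∑ k, ∑ l, ∫ x, pd l (T i k) x * pd k (T i l) x ∂S.ν) +
      ∑ k, ∑ l, ∫ x, S.W2 x k l * (T i k x * T i l x) ∂S.ν := by
  have hT1 : ∀ i k, ContDiff ℝ 1 (T i k) := fun i k => (hT i k).of_le (by norm_cast)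
  have hdv : ContDiff ℝ ∞ (dv S T i) := by
    unfold dv
    exact ContDiff.sum fun k _ => ((S.Wg_smooth k).mul (hT i k)).sub (pd_smooth (hT i k) k)
  have h0 := ibp_dv (S := S) hT1 hs i (hdv.of_le (by norm_cast) : ContDiff ℝ 1 _)
  have e0 : ∫ x, dv S T i x ^ 2 ∂S.ν = ∫ x, dv S T i x * dv S T i x ∂S.ν := by simp only [sq]
  rw [e0, h0, ← Finset.sum_add_distrib]
  refine Finset.sum_congr rfl fun k _ => ?_
  -- `D_k (δT)_i = ∑_l (W2_{lk} T_il + Wg_l D_k T_il - D_l D_k T_il)`
  have e1 : ∀ x, pd k (dv S T i) x = ∑ l, (S.W2 x k l * T i l x +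
      (S.Wg l x * pd k (T i l) x - pd l (pd k (T i l)) x)) := by
    intro x
    have d1 : ∀ l, Differentiable ℝ (S.Wg l) := fun l => (S.Wg_smooth l).differentiable (by simp)
    have d2 : ∀ l, Differentiable ℝ (T i l) := fun l => (hT i l).differentiable (by simp)
    have d3 : ∀ l, Differentiable ℝ (pd l (T i l)) := fun l =>
      (pd_smooth (hT i l) l).differentiable (by simp)
    have h1 : pd k (dv S T i) x = ∑ l, pd k (fun y => S.Wg l y * T i l y - pd l (T i l) y) x := by
      unfold dv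
      exact pd_sum Finset.univ k fun l _ => ((d1 l x).mul (d2 l x)).sub (d3 l x)
    rw [h1]
    refine Finset.sum_congr rfl fun l _ => ?_
    have dm : DifferentiableAt ℝ (fun y => S.Wg l y * T i l y) x := (d1 l x).mul (d2 l x)
    rw [pd_sub k dm (d3 l x), pd_mul k (d1 l x) (d2 l x), pd_comm (hT i l) k l x,
      S.W2_symm k l x, S.W2_eq l k x]
    ring
  have e2 : ∀ x, T i k x * pd k (dv S T i) x = ∑ l, (S.W2 x k l * (T i k x * T i l x) +
      (S.Wg l x * pd k (T i l) x - pd l (pd k (T i l)) x) * T i k x) := by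
    intro x
    rw [e1, Finset.mul_sum]
    exact Finset.sum_congr rfl fun l _ => by ring
  simp only [e2]
  have i1 : ∀ l, Integrable (fun x => S.W2 x k l * (T i k x * T i l x)) S.ν := fun l =>
    cci ((W2_cont k l).mul ((hT i k).continuous.mul (hT i l).continuous))
      (((hs i k).mul_right (f' := T i l)).mul_left (f := fun x => S.W2 x k l))
  have i2 : ∀ l, Integrable (fun x => (S.Wg l x * pd k (T i l) x - pd l (pd k (T i l)) x) *
      T i k x) S.ν := fun l =>
    cci ((((Wg_cont l).mul (pd_smooth (hT i l) k).continuous).sub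
      (pd_smooth (pd_smooth (hT i l) k) l).continuous).mul (hT i k).continuous)
      ((hs i k).mul_left (f := fun x => S.Wg l x * pd k (T i l) x - pd l (pd k (T i l)) x))
  have i3 : ∀ l, Integrable (fun x => S.W2 x k l * (T i k x * T i l x) +
      (S.Wg l x * pd k (T i l) x - pd l (pd k (T i l)) x) * T i k x) S.ν := fun l =>
    (i1 l).add (i2 l)
  rw [integral_finsetSum _ fun l _ => i3 l, ← Finset.sum_add_distrib]
  refine Finset.sum_congr rfl fun l _ => ?_
  rw [integral_add (i1 l) (i2 l),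
    ibp2 l ((pd_smooth (hT i l) k).of_le (by norm_cast)) (pd_cs (hs i l) k) (hT1 i k), add_comm]
  congr 1
  exact integral_congr_ae (Filter.Eventually.of_forall fun x => by simp only; ring)

end Crest.Agent.R201.El593
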