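import Crest.Agent.R201.El1_593

/-!
# R201 (S0308), level 2, static block: the resolvent field `φ ≈ 2 (1+A)⁻¹ w` is close to `w`
(helper593; identity of helpers 406 / 676)
-/

set_option autoImplicit false
open MeasureTheory Matrix
open scoped ContDiff

namespace Crest.Agent.R201.El593

open Crest.Agent.R201 Crest.Agent.R201.Tw807

variable {n : ℕ}

/-- a state: `w = D log (dν/dm)`, `V2` the Hessian of the potential of `m` -/
structure St (n : ℕ) extends Sm n where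
  V2 : E n → Mt n
  V2_cont : ∀ i j, Continuous fun x => V2 x i j
  V2_symm : ∀ i j x, V2 x i j = V2 x j i
  w : Fin n → E n → ℝ
  w_C1 : ∀ i, ContDiff ℝ 1 (w i)
  w_L2 : ∀ i, MemLp (w i) 2 ν
  H_L2 : ∀ i k, MemLp (pd k (w i)) 2 ν
  H_symm : ∀ i k x, pd k (w i) x = pd i (w k) x
  W2_V : ∀ k l x, W2 x k l = V2 x k l - pd l (w k) x
  dens : ∀ F : E n → ℝ, MemLp F 2 ν → ∀ δ : ℝ, 0 < δ → ∃ φ : E n → ℝ,
    ContDiff ℝ ∞ φ ∧ HasCompactSupport φ ∧ ∫ x, (φ x + AW toSm φ x - F x) ^ 2 ∂ν ≤ δ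

section L2

variable {ν : Measure (E n)} [IsProbabilityMeasure ν]

theorem mcc {f : E n → ℝ} (hc : Continuous f) (hs : HasCompactSupport f) : MemLp f 2 ν := by
  obtain ⟨B, hB⟩ := bdd_of_cc hc hs
  exact MemLp.of_bound hc.aestronglyMeasurable B
    (Filter.Eventually.of_forall fun x => by simpa using hB x)

omit [IsProbabilityMeasure ν] in
theorem im {f g : E n → ℝ} (hf : MemLp f 2 ν) (hg : MemLp g 2 ν) :
    Integrable (fun x => f x * g x) ν := hf.integrable_mul hg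

omit [IsProbabilityMeasure ν] in
theorem isq {f : E n → ℝ} (hf : MemLp f 2 ν) : Integrable (fun x => f x ^ 2) ν := by
  simpa [sq] using im hf hf

omit [IsProbabilityMeasure ν] in
theorem sq_sub_int {f g : E n → ℝ} (hf : MemLp f 2 ν) (hg : MemLp g 2 ν) :
    ∫ x, (f x - g x) ^ 2 ∂ν = ∫ x, f x ^ 2 ∂ν - 2 * ∫ x, f x * g x ∂ν + ∫ x, g x ^ 2 ∂ν := by
  have e : ∀ x, (f x - g x) ^ 2 = f x ^ 2 - 2 * (f x * g x) + g x ^ 2 := fun x => by ring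
  simp only [e]
  have i1 : Integrable (fun x => 2 * (f x * g x)) ν := (im hf hg).const_mul 2
  have i2 : Integrable (fun x => f x ^ 2 - 2 * (f x * g x)) ν := (isq hf).sub i1
  rw [integral_add i2 (isq hg), integral_sub (isq hf) i1, integral_const_mul]

omit [IsProbabilityMeasure ν] in
/-- weighted Cauchy–Schwarz for families -/
theorem cs_fam {ι : Type*} [Fintype ι] {f g : ι → E n → ℝ} (hf : ∀ i, MemLp (f i) 2 ν)
    (hg : ∀ i, MemLp (g i) 2 ν) :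
    |∑ i, ∫ x, f i x * g i x ∂ν| ≤ √(∑ i, ∫ x, f i x ^ 2 ∂ν) * √(∑ i, ∫ x, g i x ^ 2 ∂ν) := by
  set a := ∑ i, ∫ x, f i x ^ 2 ∂ν with ha
  set b := ∑ i, ∫ x, g i x ^ 2 ∂ν with hb
  set c := ∑ i, ∫ x, f i x * g i x ∂ν with hc
  have ha0 : 0 ≤ a := Finset.sum_nonneg fun i _ => integral_nonneg fun x => sq_nonneg _
  have hb0 : 0 ≤ b := Finset.sum_nonneg fun i _ => integral_nonneg fun x => sq_nonneg _
  have key : ∀ s : ℝ, 0 ≤ b * (s * s) + (2 * c) * s + a := by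
    intro s
    have h0 : 0 ≤ ∑ i, ∫ x, (f i x - (-s) * g i x) ^ 2 ∂ν :=
      Finset.sum_nonneg fun i _ => integral_nonneg fun x => sq_nonneg _
    have e : ∀ i, ∫ x, (f i x - (-s) * g i x) ^ 2 ∂ν = ∫ x, f i x ^ 2 ∂ν +
        2 * s * ∫ x, f i x * g i x ∂ν + s ^ 2 * ∫ x, g i x ^ 2 ∂ν := by
      intro i
      rw [sq_sub_int (hf i) ((hg i).const_mul (-s))]
      have e1 : ∀ x, f i x * (-s * g i x) = -s * (f i x * g i x) := fun x => by ring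
      have e2 : ∀ x, (-s * g i x) ^ 2 = s ^ 2 * g i x ^ 2 := fun x => by ring
      simp only [e1, e2, integral_const_mul]
      ring
    simp only [e] at h0
    rw [Finset.sum_add_distrib, Finset.sum_add_distrib, ← Finset.mul_sum, ← Finset.mul_sum,
      ← ha, ← hb, ← hc] at h0
    linarith
  have hd := discrim_le_zero key
  unfold discrim at hd
  have h2 : c ^ 2 ≤ a * b := by nlinarith
  rw [← Real.sqrt_mul ha0]
  exact Real.abs_le_sqrt h2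

end L2

variable (S : St n)

instance : IsProbabilityMeasure S.toSm.ν := S.prob

/-- `φ ≈ 2 (1+A)⁻¹ w` is close to `w` in `H¹(ν)` -/
theorem close {φ : Fin n → E n → ℝ} (hφ : ∀ i, ContDiff ℝ ∞ (φ i))
    (hφs : ∀ i, HasCompactSupport (φ i)) {d κ e : ℝ}
    (he : ∑ i, ∫ x, (φ i x + AW S.toSm (φ i) x - 2 * S.w i x) ^ 2 ∂S.ν ≤ e)
    (hS2 : dsq S.ν S.w ≤ nsq S.ν S.w + d)
    (CH : nsq S.ν φ - dsq S.ν φ ≤ κ + 2 * ∑ i, ∫ x, (S.w i x - φ i x) ^ 2 ∂S.ν) :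
    (∑ i, ∑ k, ∫ x, (pd k (S.w i) x - pd k (φ i) x) ^ 2 ∂S.ν) +
      (1 / 2) * ∑ i, ∫ x, (S.w i x - φ i x) ^ 2 ∂S.ν ≤ d + κ + 2 * e := by
  have mw := S.w_L2
  have mφ : ∀ i, MemLp (φ i) 2 S.ν := fun i => mcc (hφ i).continuous (hφs i)
  have mH := S.H_L2
  have mD : ∀ i k, MemLp (pd k (φ i)) 2 S.ν := fun i k =>
    mcc (pd_smooth (hφ i) k).continuous (pd_cs (hφs i) k)
  have mA : ∀ i, MemLp (AW S.toSm (φ i)) 2 S.ν := fun i =>
    mcc (AW_smooth (hφ i)).continuous (AW_cs (hφs i))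
  have me : ∀ i, MemLp (fun x => φ i x + AW S.toSm (φ i) x - 2 * S.w i x) 2 S.ν := fun i =>
    ((mφ i).add (mA i)).sub ((mw i).const_mul 2)
  -- expansions
  have X : ∀ i, ∑ k, ∫ x, (pd k (S.w i) x - pd k (φ i) x) ^ 2 ∂S.ν =
      (∑ k, ∫ x, pd k (S.w i) x ^ 2 ∂S.ν) - 2 * (∑ k, ∫ x, pd k (φ i) x * pd k (S.w i) x ∂S.ν) +
      ∑ k, ∫ x, pd k (φ i) x ^ 2 ∂S.ν := by
    intro i
    rw [Finset.mul_sum, ← Finset.sum_sub_distrib, ← Finset.sum_add_distrib]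
    refine Finset.sum_congr rfl fun k _ => ?_
    rw [sq_sub_int (mH i k) (mD i k)]
    simp only [mul_comm]
  have Y : ∀ i, ∫ x, (S.w i x - φ i x) ^ 2 ∂S.ν = ∫ x, S.w i x ^ 2 ∂S.ν -
      2 * ∫ x, S.w i x * φ i x ∂S.ν + ∫ x, φ i x ^ 2 ∂S.ν := fun i => sq_sub_int (mw i) (mφ i)
  have bw : ∀ i, ∫ x, AW S.toSm (φ i) x * S.w i x ∂S.ν =
      ∑ k, ∫ x, pd k (φ i) x * pd k (S.w i) x ∂S.ν := fun i => ibp_A (hφ i) (hφs i) (S.w_C1 i)
  have bφ : ∀ i, ∫ x, AW S.toSm (φ i) x * φ i x ∂S.ν = ∑ k, ∫ x, pd k (φ i) x ^ 2 ∂S.ν := by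
    intro i
    rw [ibp_A (hφ i) (hφs i) ((hφ i).of_le (by norm_cast))]
    simp only [sq]
  have E1 : ∀ i, ∫ x, (φ i x + AW S.toSm (φ i) x - 2 * S.w i x) * (S.w i x - φ i x) ∂S.ν =
      3 * (∫ x, S.w i x * φ i x ∂S.ν) + (∑ k, ∫ x, pd k (φ i) x * pd k (S.w i) x ∂S.ν)
      - 2 * (∫ x, S.w i x ^ 2 ∂S.ν) - (∫ x, φ i x ^ 2 ∂S.ν) -
        ∑ k, ∫ x, pd k (φ i) x ^ 2 ∂S.ν := by
    intro i
    rw [← bw, ← bφ]
    have e : ∀ x, (φ i x + AW S.toSm (φ i) x - 2 * S.w i x) * (S.w i x - φ i x) =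
        3 * (S.w i x * φ i x) + AW S.toSm (φ i) x * S.w i x - 2 * S.w i x ^ 2 - φ i x ^ 2 -
        AW S.toSm (φ i) x * φ i x := fun x => by ring
    simp only [e]
    have i1 := (im (mw i) (mφ i)).const_mul 3
    have i2 := im (mA i) (mw i)
    have i3 := (isq (mw i)).const_mul 2
    have i4 := isq (mφ i)
    have i5 := im (mA i) (mφ i)
    have j1 : Integrable (fun x => 3 * (S.w i x * φ i x) + AW S.toSm (φ i) x * S.w i x) S.ν :=
      i1.add i2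
    have j2 : Integrable (fun x => 3 * (S.w i x * φ i x) + AW S.toSm (φ i) x * S.w i x -
        2 * S.w i x ^ 2) S.ν := j1.sub i3
    have j3 : Integrable (fun x => 3 * (S.w i x * φ i x) + AW S.toSm (φ i) x * S.w i x -
        2 * S.w i x ^ 2 - φ i x ^ 2) S.ν := j2.sub i4
    rw [integral_sub j3 i5, integral_sub j2 i4, integral_sub j1 i3, integral_add i1 i2,
      integral_const_mul, integral_const_mul]
  set y := ∑ i, ∫ x, (S.w i x - φ i x) ^ 2 ∂S.ν with hy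
  set ee := ∑ i, ∫ x, (φ i x + AW S.toSm (φ i) x - 2 * S.w i x) ^ 2 ∂S.ν with hee
  have hcs := cs_fam (ν := S.ν) me (fun i => (mw i).sub (mφ i))
  simp only [Pi.sub_apply] at hcs
  have hy0 : 0 ≤ y := Finset.sum_nonneg fun i _ => integral_nonneg fun x => sq_nonneg _
  have hee0 : 0 ≤ ee := Finset.sum_nonneg fun i _ => integral_nonneg fun x => sq_nonneg _
  have h1 : -(2 * ∑ i, ∫ x, (φ i x + AW S.toSm (φ i) x - 2 * S.w i x) * (S.w i x - φ i x) ∂S.ν)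
      ≤ y / 2 + 2 * ee := by
    have h2 := (neg_le_abs _).trans hcs
    have h3 := Real.sq_sqrt hy0
    have h4 := Real.sq_sqrt hee0
    nlinarith [sq_nonneg (√y - 2 * √ee)]
  simp only [E1] at h1
  have hX : ∑ i, ∑ k, ∫ x, (pd k (S.w i) x - pd k (φ i) x) ^ 2 ∂S.ν =
      dsq S.ν S.w - 2 * (∑ i, ∑ k, ∫ x, pd k (φ i) x * pd k (S.w i) x ∂S.ν) + dsq S.ν φ := by
    simp only [X]
    rw [Finset.sum_add_distrib, Finset.sum_sub_distrib, ← Finset.mul_sum]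
    rfl
  have hY : y = nsq S.ν S.w - 2 * (∑ i, ∫ x, S.w i x * φ i x ∂S.ν) + nsq S.ν φ := by
    rw [hy]
    simp only [Y]
    rw [Finset.sum_add_distrib, Finset.sum_sub_distrib, ← Finset.mul_sum]
    rfl
  have hE : ∑ i, (3 * (∫ x, S.w i x * φ i x ∂S.ν) +
      (∑ k, ∫ x, pd k (φ i) x * pd k (S.w i) x ∂S.ν)
      - 2 * (∫ x, S.w i x ^ 2 ∂S.ν) - (∫ x, φ i x ^ 2 ∂S.ν) -
        ∑ k, ∫ x, pd k (φ i) x ^ 2 ∂S.ν) =
      3 * (∑ i, ∫ x, S.w i x * φ i x ∂S.ν) +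
      (∑ i, ∑ k, ∫ x, pd k (φ i) x * pd k (S.w i) x ∂S.ν) - 2 * nsq S.ν S.w - nsq S.ν φ -
      dsq S.ν φ := by
    rw [Finset.sum_sub_distrib, Finset.sum_sub_distrib, Finset.sum_sub_distrib,
      Finset.sum_add_distrib, ← Finset.mul_sum, ← Finset.mul_sum]
    rfl
  rw [hE] at h1
  rw [hX]
  linarith

/-- existence of `φ` -/
theorem exists_phi {e : ℝ} (he : 0 < e) : ∃ φ : Fin n → E n → ℝ, (∀ i, ContDiff ℝ ∞ (φ i)) ∧
    (∀ i, HasCompactSupport (φ i)) ∧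
    ∑ i, ∫ x, (φ i x + AW S.toSm (φ i) x - 2 * S.w i x) ^ 2 ∂S.ν ≤ e := by
  have h : ∀ i, ∃ φ : E n → ℝ, ContDiff ℝ ∞ φ ∧ HasCompactSupport φ ∧
      ∫ x, (φ x + AW S.toSm φ x - 2 * S.w i x) ^ 2 ∂S.ν ≤ e / (n + 1) := fun i =>
    S.dens (fun x => 2 * S.w i x) ((S.w_L2 i).const_mul 2) _ (by positivity)
  choose φ h1 h2 h3 using h
  refine ⟨φ, h1, h2, (Finset.sum_le_sum fun i _ => h3 i).trans ?_⟩
  rw [Finset.sum_const, Finset.card_univ, Fintype.card_fin, nsmul_eq_mul, mul_div_assoc',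
    div_le_iff₀ (by positivity)]
  nlinarith

end Crest.Agent.R201.El593
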