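import Crest.Agent.R201.El2_593
import Crest.Agent.R201.An9_293

/-!
# R201 (S0308), level 2, static block: second moment of the divergence of a `C¹_c` matrix field
(helper593)
-/

set_option autoImplicit false
open MeasureTheory Matrix Filter Topology Metric
open scoped ContDiff

namespace Crest.Agent.R201.El593

open Crest.Agent.R201 Crest.Agent.R201.Tw807 Crest.Agent.R201.An

variable {n : ℕ} {η θ : E n → ℝ} {ε : ℝ}

lemma cv_bd (M : Mol η ε) {B : ℝ} (hB : ∀ x, |θ x| ≤ B) (x : E n) : |cv η θ x| ≤ B := by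
  have hB0 : 0 ≤ B := (abs_nonneg _).trans (hB 0)
  have h1 : ∀ y, ‖η (x - y) * θ y‖ ≤ B * η (x - y) := fun y => by
    rw [Real.norm_eq_abs, abs_mul, abs_of_nonneg (M.nonneg _), mul_comm]
    exact mul_le_mul_of_nonneg_right (hB y) (M.nonneg _)
  have h2 := norm_integral_le_of_norm_le ((M.int_eta_at x).const_mul B)
    (Eventually.of_forall h1)
  rw [integral_const_mul, M.int_one_at, mul_one] at h2
  exact h2

lemma cv_near (M : Mol η ε) (hθ : Integrable θ) {δ : ℝ} {x : E n}
    (h : ∀ y, ‖x - y‖ < ε → |θ y - θ x| ≤ δ) : |cv η θ x - θ x| ≤ δ := by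
  have e : cv η θ x - θ x = ∫ y, η (x - y) * (θ y - θ x) := by
    have e1 : ∀ y, η (x - y) * (θ y - θ x) = η (x - y) * θ y - θ x * η (x - y) := fun y => by ring
    simp only [e1]
    rw [integral_sub (M.int_at hθ x) ((M.int_eta_at x).const_mul _), integral_const_mul,
      M.int_one_at, mul_one]
    rfl
  rw [e]
  have h1 : ∀ y, ‖η (x - y) * (θ y - θ x)‖ ≤ δ * η (x - y) := fun y => by
    rw [Real.norm_eq_abs, abs_mul, abs_of_nonneg (M.nonneg _), mul_comm]
    rcases lt_or_ge ‖x - y‖ ε with h2 | h2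
    · exact mul_le_mul_of_nonneg_right (h y h2) (M.nonneg _)
    · rw [M.supp _ h2]; simp
  have h2 := norm_integral_le_of_norm_le ((M.int_eta_at x).const_mul δ)
    (Eventually.of_forall h1)
  rw [integral_const_mul, M.int_one_at, mul_one] at h2
  exact h2

lemma cv_zero (M : Mol η ε) {R : ℝ} (h : ∀ y, R ≤ ‖y‖ → θ y = 0) {x : E n}
    (hx : R + ε ≤ ‖x‖) : cv η θ x = 0 := by
  unfold cv
  have : ∀ y, η (x - y) * θ y = 0 := fun y => by
    rcases lt_or_ge ‖x - y‖ ε with h2 | h2
    · have h3 : ‖x‖ ≤ ‖x - y‖ + ‖y‖ := by simpa using norm_add_le (x - y) y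
      rw [h y (by linarith), mul_zero]
    · rw [M.supp _ h2, zero_mul]
  simp [this]

/-- bump of radius `1/(m+1)` -/
noncomputable def bm (n m : ℕ) : ContDiffBump (0 : E n) :=
  ⟨1 / (2 * (m + 1 : ℝ)), 1 / (m + 1 : ℝ), by positivity, by
    apply one_div_lt_one_div_of_lt <;> [positivity; skip]
    have : (0 : ℝ) < m + 1 := by positivity
    linarith⟩

noncomputable def et (n m : ℕ) : E n → ℝ := (bm n m).normed volume

lemma et_mol (n m : ℕ) : Mol (et n m) (1 / (m + 1 : ℝ)) := mol_of_bump (bm n m)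

lemma cv_tendsto (hθ : Continuous θ) (hs : HasCompactSupport θ) (x : E n) :
    Tendsto (fun m => cv (et n m) θ x) atTop (𝓝 (θ x)) := by
  rw [Metric.tendsto_atTop]
  intro δ hδ
  obtain ⟨r, hr, h⟩ := Metric.continuousAt_iff.1 hθ.continuousAt (δ / 2) (half_pos hδ)
  obtain ⟨N, hN⟩ := exists_nat_one_div_lt hr
  refine ⟨N, fun m hm => ?_⟩
  rw [Real.dist_eq]
  refine lt_of_le_of_lt (cv_near (et_mol n m) (hθ.integrable_of_hasCompactSupport hs)
    fun y hy => ?_) (half_lt_self hδ)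
  have h1 : (1 : ℝ) / (m + 1) ≤ 1 / (N + 1) := by
    apply one_div_le_one_div_of_le (by positivity)
    have : (N : ℝ) ≤ m := by exact_mod_cast hm
    linarith
  have h2 : dist y x < r := by
    rw [dist_comm, dist_eq_norm]
    linarith
  have h3 := h h2
  rw [Real.dist_eq] at h3
  exact h3.le

lemma zero_out {f : E n → ℝ} (hs : HasCompactSupport f) : ∃ R : ℝ, ∀ x, R ≤ ‖x‖ → f x = 0 := by
  obtain ⟨R, hR⟩ := hs.isCompact.isBounded.subset_closedBall (0 : E n)
  refine ⟨R + 1, fun x hx => ?_⟩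
  by_contra h
  have h1 : x ∈ tsupport f := subset_tsupport f h
  have h2 := hR h1
  rw [mem_closedBall_zero_iff] at h2
  linarith

variable (S : Sm n)

/-- the integrand -/
noncomputable def GG (p : E n × (Fin n → Fin n → ℝ) × (Fin n → Fin n → Fin n → ℝ)) : ℝ :=
  (∑ i, (∑ k, (S.Wg k p.1 * p.2.1 i k - p.2.2 i k k)) ^ 2) - (∑ i, ∑ k, ∑ l, p.2.2 i k l ^ 2) -
    ∑ i, ∑ k, ∑ l, S.W2 p.1 k l * (p.2.1 i k * p.2.1 i l)

lemma GG_cont : Continuous (GG S) := by
  have h1 : ∀ k, Continuous fun p : E n × (Fin n → Fin n → ℝ) × (Fin n → Fin n → Fin n → ℝ) =>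
      S.Wg k p.1 := fun k => (Wg_cont k).comp continuous_fst
  have h2 : ∀ k l, Continuous fun p : E n × (Fin n → Fin n → ℝ) × (Fin n → Fin n → Fin n → ℝ) =>
      S.W2 p.1 k l := fun k l => (W2_cont k l).comp continuous_fst
  have h3 : ∀ i k, Continuous fun p : E n × (Fin n → Fin n → ℝ) × (Fin n → Fin n → Fin n → ℝ) =>
      p.2.1 i k := fun i k => by fun_prop
  have h4 : ∀ i k l, Continuous fun p : E n × (Fin n → Fin n → ℝ) ×
      (Fin n → Fin n → Fin n → ℝ) => p.2.2 i k l := fun i k l => by fun_prop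
  unfold GG
  refine ((continuous_finsetSum _ fun i _ => (continuous_finsetSum _ fun k _ =>
    ((h1 k).mul (h3 i k)).sub (h4 i k k)).pow 2).sub
    (continuous_finsetSum _ fun i _ => continuous_finsetSum _ fun k _ =>
      continuous_finsetSum _ fun l _ => (h4 i k l).pow 2)).sub
    (continuous_finsetSum _ fun i _ => continuous_finsetSum _ fun k _ =>
      continuous_finsetSum _ fun l _ => (h2 k l).mul ((h3 i k).mul (h3 i l)))

variable {S}

lemma GG_eq (T : Fin n → Fin n → E n → ℝ) (hT : ∀ i k, ContDiff ℝ 1 (T i k))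
    (hs : ∀ i k, HasCompactSupport (T i k)) :
    ∫ x, GG S (x, (fun i k => T i k x), fun i k l => pd l (T i k) x) ∂S.ν =
      (∑ i, ∫ x, dv S T i x ^ 2 ∂S.ν) - (∑ i, ∑ k, ∑ l, ∫ x, pd l (T i k) x ^ 2 ∂S.ν) -
      ∑ i, ∑ k, ∑ l, ∫ x, S.W2 x k l * (T i k x * T i l x) ∂S.ν := by
  have i1 : ∀ i, Integrable (fun x => dv S T i x ^ 2) S.ν := fun i =>
    isq (mcc (dv_cont hT i) (dv_cs hs i))
  have i2 : ∀ i k l, Integrable (fun x => pd l (T i k) x ^ 2) S.ν := fun i k l =>
    isq (mcc (pd_cont (hT i k) l) (pd_cs (hs i k) l))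
  have i3 : ∀ i k l, Integrable (fun x => S.W2 x k l * (T i k x * T i l x)) S.ν := fun i k l =>
    cci ((W2_cont k l).mul ((hT i k).continuous.mul (hT i l).continuous))
      (((hs i k).mul_right (f' := T i l)).mul_left (f := fun x => S.W2 x k l))
  have j1 : Integrable (fun x => ∑ i, dv S T i x ^ 2) S.ν := integrable_finsetSum _ fun i _ => i1 i
  have j2 : Integrable (fun x => ∑ i, ∑ k, ∑ l, pd l (T i k) x ^ 2) S.ν :=
    integrable_finsetSum _ fun i _ => integrable_finsetSum _ fun k _ =>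
      integrable_finsetSum _ fun l _ => i2 i k l
  have j3 : Integrable (fun x => ∑ i, ∑ k, ∑ l, S.W2 x k l * (T i k x * T i l x)) S.ν :=
    integrable_finsetSum _ fun i _ => integrable_finsetSum _ fun k _ =>
      integrable_finsetSum _ fun l _ => i3 i k l
  have j4 : Integrable (fun x => (∑ i, dv S T i x ^ 2) - ∑ i, ∑ k, ∑ l, pd l (T i k) x ^ 2) S.ν :=
    j1.sub j2
  have e : ∀ x, GG S (x, (fun i k => T i k x), fun i k l => pd l (T i k) x) =
      (∑ i, dv S T i x ^ 2) - (∑ i, ∑ k, ∑ l, pd l (T i k) x ^ 2) -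
      ∑ i, ∑ k, ∑ l, S.W2 x k l * (T i k x * T i l x) := fun x => rfl
  simp only [e]
  rw [integral_sub j4 j3, integral_sub j1 j2, integral_finsetSum _ fun i _ => i1 i,
    integral_finsetSum _ fun i _ => integrable_finsetSum _ fun k _ =>
      integrable_finsetSum _ fun l _ => i2 i k l,
    integral_finsetSum _ fun i _ => integrable_finsetSum _ fun k _ =>
      integrable_finsetSum _ fun l _ => i3 i k l]
  congr 1
  · congr 1
    refine Finset.sum_congr rfl fun i _ => ?_
    rw [integral_finsetSum _ fun k _ => integrable_finsetSum _ fun l _ => i2 i k l]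
    exact Finset.sum_congr rfl fun k _ => integral_finsetSum _ fun l _ => i2 i k l
  · refine Finset.sum_congr rfl fun i _ => ?_
    rw [integral_finsetSum _ fun k _ => integrable_finsetSum _ fun l _ => i3 i k l]
    exact Finset.sum_congr rfl fun k _ => integral_finsetSum _ fun l _ => i3 i k l

/-- smooth case -/
lemma GG_smooth (T : Fin n → Fin n → E n → ℝ) (hT : ∀ i k, ContDiff ℝ ∞ (T i k))
    (hs : ∀ i k, HasCompactSupport (T i k)) :
    ∫ x, GG S (x, (fun i k => T i k x), fun i k l => pd l (T i k) x) ∂S.ν ≤ 0 := by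
  have hT1 : ∀ i k, ContDiff ℝ 1 (T i k) := fun i k => (hT i k).of_le (by norm_cast)
  rw [GG_eq T hT1 hs]
  have i2 : ∀ i k l, Integrable (fun x => pd l (T i k) x ^ 2) S.ν := fun i k l =>
    isq (mcc (pd_cont (hT1 i k) l) (pd_cs (hs i k) l))
  have h1 : ∀ i, ∑ k, ∑ l, ∫ x, pd l (T i k) x * pd k (T i l) x ∂S.ν ≤
      ∑ k, ∑ l, ∫ x, pd l (T i k) x ^ 2 ∂S.ν := by
    intro i
    have h2 : ∀ k l, ∫ x, pd l (T i k) x * pd k (T i l) x ∂S.ν ≤
        (1 / 2) * (∫ x, pd l (T i k) x ^ 2 ∂S.ν) + (1 / 2) * ∫ x, pd k (T i l) x ^ 2 ∂S.ν := by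
      intro k l
      have j1 : Integrable (fun x => pd l (T i k) x * pd k (T i l) x) S.ν :=
        cci (S := S) ((pd_cont (hT1 i k) l).mul (pd_cont (hT1 i l) k))
          ((pd_cs (hs i l) k).mul_left (f := pd l (T i k)))
      have j2 : Integrable (fun x => (1 / 2) * pd l (T i k) x ^ 2) S.ν := (i2 i k l).const_mul _
      have j3 : Integrable (fun x => (1 / 2) * pd k (T i l) x ^ 2) S.ν := (i2 i l k).const_mul _
      rw [← integral_const_mul, ← integral_const_mul, ← integral_add j2 j3]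
      refine integral_mono j1 (j2.add j3) fun x => ?_
      have := sq_nonneg (pd l (T i k) x - pd k (T i l) x)
      nlinarith
    refine (Finset.sum_le_sum fun k _ => Finset.sum_le_sum fun l _ => h2 k l).trans (le_of_eq ?_)
    simp only [Finset.sum_add_distrib, ← Finset.mul_sum]
    rw [Finset.sum_comm (f := fun k l => ∫ x, pd k (T i l) x ^ 2 ∂S.ν)]
    ring
  have h3 := Finset.sum_le_sum (s := Finset.univ) fun i _ => h1 i
  have h4 : ∑ i, ∫ x, dv S T i x ^ 2 ∂S.ν = (∑ i, ∑ k, ∑ l, ∫ x, pd l (T i k) x *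
      pd k (T i l) x ∂S.ν) + ∑ i, ∑ k, ∑ l, ∫ x, S.W2 x k l * (T i k x * T i l x) ∂S.ν := by
    rw [← Finset.sum_add_distrib]
    exact Finset.sum_congr rfl fun i _ => dv_sq hT hs i
  linarith

/-- second moment of the divergence of a `C¹_c` matrix field -/
theorem dv_sq_le {T : Fin n → Fin n → E n → ℝ} (hT : ∀ i k, ContDiff ℝ 1 (T i k))
    (hs : ∀ i k, HasCompactSupport (T i k)) :
    ∑ i, ∫ x, dv S T i x ^ 2 ∂S.ν ≤ (∑ i, ∑ k, ∑ l, ∫ x, pd l (T i k) x ^ 2 ∂S.ν) +
      ∑ i, ∑ k, ∑ l, ∫ x, S.W2 x k l * (T i k x * T i l x) ∂S.ν := by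
  have h0 := GG_eq (S := S) T hT hs
  suffices h : ∫ x, GG S (x, (fun i k => T i k x), fun i k l => pd l (T i k) x) ∂S.ν ≤ 0 by
    linarith
  set Tm : ℕ → Fin n → Fin n → E n → ℝ := fun m i k => cv (et n m) (T i k) with hTm
  have sm : ∀ m i k, ContDiff ℝ ∞ (Tm m i k) := fun m i k =>
    (et_mol n m).cv_smooth' (hT i k).continuous (hs i k)
  have cm : ∀ m i k, HasCompactSupport (Tm m i k) := fun m i k => (et_mol n m).cv_cs (hs i k)
  have pm : ∀ m i k l, pd l (Tm m i k) = cv (et n m) (pd l (T i k)) := fun m i k l =>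
    (et_mol n m).pd_cv (hT i k) (hs i k) l
  have hneg := fun m => GG_smooth (S := S) (Tm m) (sm m) (cm m)
  -- bounds
  have hR : ∀ i k, ∃ R : ℝ, ∀ x, R ≤ ‖x‖ → T i k x = 0 := fun i k => zero_out (hs i k)
  choose R0 hR0 using hR
  set R := ∑ i, ∑ k, |R0 i k| with hRdef
  have hRR : ∀ i k x, R ≤ ‖x‖ → T i k x = 0 := fun i k x hx => hR0 i k x <| by
    have h1 : |R0 i k| ≤ ∑ k, |R0 i k| :=
      Finset.single_le_sum (f := fun k => |R0 i k|) (fun _ _ => abs_nonneg _) (Finset.mem_univ k)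
    have h2 : ∑ k, |R0 i k| ≤ R :=
      Finset.single_le_sum (f := fun i => ∑ k, |R0 i k|)
        (fun _ _ => Finset.sum_nonneg fun _ _ => abs_nonneg _) (Finset.mem_univ i)
    exact (le_abs_self _).trans (h1.trans (h2.trans hx))
  have hRp : ∀ i k l x, R + 1 ≤ ‖x‖ → pd l (T i k) x = 0 := by
    intro i k l x hx
    have h1 : (T i k) =ᶠ[𝓝 x] fun _ => 0 := by
      have h2 : ∀ᶠ y in 𝓝 x, R < ‖y‖ :=
        continuous_norm.continuousAt.eventually (lt_mem_nhds (by linarith))
      filter_upwards [h2] with y hy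
      exact hRR i k y hy.le
    unfold pd
    rw [h1.fderiv_eq]
    simp
  have hB1 : ∀ i k, ∃ B : ℝ, ∀ x, |T i k x| ≤ B := fun i k => bdd_of_cc (hT i k).continuous (hs i k)
  have hB2 : ∀ i k l, ∃ B : ℝ, ∀ x, |pd l (T i k) x| ≤ B := fun i k l =>
    bdd_of_cc (pd_cont (hT i k) l) (pd_cs (hs i k) l)
  choose B1 hB1 using hB1
  choose B2 hB2 using hB2
  set C1 := ∑ i, ∑ k, |B1 i k| with hC1
  set C2 := ∑ i, ∑ k, ∑ l, |B2 i k l| with hC2
  have hC1' : ∀ i k, |B1 i k| ≤ C1 := fun i k =>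
    (Finset.single_le_sum (f := fun k => |B1 i k|) (fun _ _ => abs_nonneg _)
      (Finset.mem_univ k)).trans
    (Finset.single_le_sum (f := fun i => ∑ k, |B1 i k|)
        (fun _ _ => Finset.sum_nonneg fun _ _ => abs_nonneg _) (Finset.mem_univ i))
  have hC2' : ∀ i k l, |B2 i k l| ≤ C2 := fun i k l =>
    ((Finset.single_le_sum (f := fun l => |B2 i k l|) (fun _ _ => abs_nonneg _)
      (Finset.mem_univ l)).trans
    (Finset.single_le_sum (f := fun k => ∑ l, |B2 i k l|)
        (fun _ _ => Finset.sum_nonneg fun _ _ => abs_nonneg _) (Finset.mem_univ k))).trans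
    (Finset.single_le_sum (f := fun i => ∑ k, ∑ l, |B2 i k l|)
        (fun _ _ => Finset.sum_nonneg fun _ _ => Finset.sum_nonneg fun _ _ => abs_nonneg _)
        (Finset.mem_univ i))
  have hC1n : 0 ≤ C1 := Finset.sum_nonneg fun _ _ => Finset.sum_nonneg fun _ _ => abs_nonneg _
  have hC2n : 0 ≤ C2 := Finset.sum_nonneg fun _ _ => Finset.sum_nonneg fun _ _ =>
    Finset.sum_nonneg fun _ _ => abs_nonneg _
  -- compact set
  set K : Set (E n × (Fin n → Fin n → ℝ) × (Fin n → Fin n → Fin n → ℝ)) :=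
    closedBall 0 (R + 2) ×ˢ (closedBall 0 C1 ×ˢ closedBall 0 C2) with hK
  have cK : IsCompact K := (isCompact_closedBall _ _).prod
    ((isCompact_closedBall _ _).prod (isCompact_closedBall _ _))
  obtain ⟨C, hC⟩ := cK.exists_bound_of_continuousOn (GG_cont S).continuousOn
  have memK : ∀ m x, ‖x‖ ≤ R + 2 →
      (x, (fun i k => Tm m i k x), fun i k l => pd l (Tm m i k) x) ∈ K := by
    intro m x hx
    refine ⟨mem_closedBall_zero_iff.2 hx, mem_closedBall_zero_iff.2 ?_,
      mem_closedBall_zero_iff.2 ?_⟩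
    · refine (pi_norm_le_iff_of_nonneg hC1n).2 fun i => (pi_norm_le_iff_of_nonneg hC1n).2 fun k => ?_
      rw [Real.norm_eq_abs]
      exact cv_bd (et_mol n m) (fun y => (hB1 i k y).trans ((le_abs_self _).trans (hC1' i k))) x
    · refine (pi_norm_le_iff_of_nonneg hC2n).2 fun i => (pi_norm_le_iff_of_nonneg hC2n).2 fun k =>
        (pi_norm_le_iff_of_nonneg hC2n).2 fun l => ?_
      rw [Real.norm_eq_abs]
      change |pd l (Tm m i k) x| ≤ C2
      rw [pm]
      exact cv_bd (et_mol n m) (fun y => (hB2 i k l y).trans ((le_abs_self _).trans (hC2' i k l))) x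
  have hout : ∀ m x, R + 2 < ‖x‖ →
      GG S (x, (fun i k => Tm m i k x), fun i k l => pd l (Tm m i k) x) = 0 := by
    intro m x hx
    have hm : (1 : ℝ) / (m + 1) ≤ 1 := by
      rw [div_le_one (by positivity)]
      have : (0 : ℝ) ≤ m := Nat.cast_nonneg m
      linarith
    have h1 : ∀ i k, Tm m i k x = 0 := fun i k =>
      cv_zero (et_mol n m) (hRR i k) (by linarith)
    have h2 : ∀ i k l, pd l (Tm m i k) x = 0 := fun i k l => by
      rw [pm]
      exact cv_zero (et_mol n m) (hRp i k l) (by linarith)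
    unfold GG
    simp [h1, h2]
  have hC0 : 0 ≤ |C| := abs_nonneg _
  have hlim : Tendsto (fun m => ∫ x, GG S (x, (fun i k => Tm m i k x),
      fun i k l => pd l (Tm m i k) x) ∂S.ν) atTop
      (𝓝 (∫ x, GG S (x, (fun i k => T i k x), fun i k l => pd l (T i k) x) ∂S.ν)) := by
    refine tendsto_integral_of_dominated_convergence (fun _ => |C|) (fun m => ?_)
      (integrable_const _) (fun m => Eventually.of_forall fun x => ?_)
      (Eventually.of_forall fun x => ?_)
    · refine Continuous.aestronglyMeasurable ((GG_cont S).comp (continuous_id.prodMk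
        (Continuous.prodMk (continuous_pi fun i => continuous_pi fun k => (sm m i k).continuous)
        (continuous_pi fun i => continuous_pi fun k => continuous_pi fun l =>
          (pd_smooth (sm m i k) l).continuous))))
    · rcases le_or_gt ‖x‖ (R + 2) with hx | hx
      · exact (hC _ (memK m x hx)).trans (le_abs_self _)
      · rw [hout m x hx]; simp
    · refine ((GG_cont S).tendsto _).comp (tendsto_const_nhds.prodMk_nhds
        (Tendsto.prodMk_nhds ?_ ?_))
      · exact tendsto_pi_nhds.2 fun i => tendsto_pi_nhds.2 fun k =>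
          cv_tendsto (hT i k).continuous (hs i k) x
      · refine tendsto_pi_nhds.2 fun i => tendsto_pi_nhds.2 fun k => tendsto_pi_nhds.2 fun l => ?_
        simp only [pm]
        exact cv_tendsto (pd_cont (hT i k) l) (pd_cs (hs i k) l) x
  exact le_of_tendsto hlim (Eventually.of_forall hneg)

end Crest.Agent.R201.El593
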