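import Crest.Agent.R201.El4_593
import Crest.Agent.R201.An12_293

/-!
# R201 (S0308): a state `St` from a base weight `ρ` and a smooth positive density `f`
with bounded `w = D log f` and bounded `D w` (helper593)
-/

set_option autoImplicit false
open MeasureTheory Matrix Filter Topology
open scoped ContDiff NNReal

namespace Crest.Agent.R201.El593

open Crest.Agent.R201 Crest.Agent.R201.Tw807 Crest.Agent.R201.An

variable {n : ℕ} {ρ f : E n → ℝ} {Vg : Fin n → E n → ℝ} {L B : ℝ}

/-- the Hessian of the potential is symmetric -/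
lemma pot_symm (P : Pot ρ Vg L) (k l : Fin n) (x : E n) :
    pd l (Vg k) x = pd k (Vg l) x := by
  have hV : ContDiff ℝ ∞ (fun x => Real.log (ρ x)) := P.smooth.log fun x => (P.pos x).ne'
  have h1 : ∀ k, Vg k = fun x => -(pd k (fun x => Real.log (ρ x)) x) := by
    intro k
    funext x
    have d : DifferentiableAt ℝ ρ x := P.smooth.differentiable (by simp) x
    have : pd k (fun x => Real.log (ρ x)) x = pd k ρ x / ρ x := by
      unfold pd
      rw [fderiv.log d (P.pos x).ne']
      simp [div_eq_inv_mul]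
    rw [this, P.pd_eq k x]
    have := (P.pos x).ne'
    field_simp
  have h2 : ∀ k l x, pd l (Vg k) x = -(pd l (pd k (fun x => Real.log (ρ x))) x) := by
    intro k l x
    rw [h1 k]
    have e : (fun x => -(pd k (fun x => Real.log (ρ x)) x)) =
        fun x => (-1) * pd k (fun x => Real.log (ρ x)) x := by funext x; ring
    rw [e, pd_const_mul (-1) l ((pd_smooth hV k).differentiable (by simp) x)]
    ring
  rw [h2, h2, pd_comm hV l k x]

/-- a `C¹` function with bounded partial derivatives is Lipschitz -/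
lemma lip_of_pd {g : E n → ℝ} (hg : Differentiable ℝ g) {B : ℝ} (hB : ∀ l x, |pd l g x| ≤ B)
    (x y : E n) : |g x - g y| ≤ √(n * B ^ 2) * ‖x - y‖ := by
  have h2 : ∀ x, ‖fderiv ℝ g x‖ ≤ √(n * B ^ 2) := by
    intro x
    apply Real.le_sqrt_of_sq_le
    rw [norm_fderiv_sq]
    calc ∑ k, pd k g x ^ 2 ≤ ∑ _k : Fin n, B ^ 2 := Finset.sum_le_sum fun k _ => by
          rw [← sq_abs]; exact pow_le_pow_left₀ (abs_nonneg _) (hB k x) 2
      _ = n * B ^ 2 := by simp
  have h3 := Convex.norm_image_sub_le_of_norm_fderiv_le (𝕜 := ℝ) (f := g) (s := Set.univ)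
    (fun x _ => hg x) (fun x _ => h2 x) convex_univ (Set.mem_univ y) (Set.mem_univ x)
  simpa [Real.norm_eq_abs] using h3

/-- linear growth -/
lemma EG_of_lip {g : E n → ℝ} (hg : Continuous g) {L : ℝ} (hL : 0 ≤ L)
    (h : ∀ x y, |g x - g y| ≤ L * ‖x - y‖) : EG g := by
  refine ⟨hg.measurable, |g 0| + L, 1, by positivity, zero_le_one, fun x => ?_⟩
  have h1 := h x 0
  rw [sub_zero] at h1
  have h2 : |g x| ≤ |g 0| + L * ‖x‖ := by
    have := abs_sub_abs_le_abs_sub (g x) (g 0)
    linarith
  have h3 := le_exp_norm x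
  have h4 : (1 : ℝ) ≤ Real.exp (1 * ‖x‖) := Real.one_le_exp (by positivity)
  have h5 : |g 0| ≤ |g 0| * Real.exp (1 * ‖x‖) := le_mul_of_one_le_right (abs_nonneg _) h4
  nlinarith

/-- the product weight -/
lemma pot_mul (P : Pot ρ Vg L) (hf : ContDiff ℝ ∞ f) (hpos : ∀ x, 0 < f x)
    {w : Fin n → E n → ℝ} (hws : ∀ k, ContDiff ℝ ∞ (w k)) (hw : ∀ k x, pd k f x = w k x * f x)
    (hB : ∀ k l x, |pd l (w k) x| ≤ B) :
    Pot (fun x => f x * ρ x) (fun k x => Vg k x - w k x) (L + √(n * B ^ 2)) where
  smooth := hf.mul P.smooth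
  pos x := mul_pos (hpos x) (P.pos x)
  gsmooth k := (P.gsmooth k).sub (hws k)
  pd_eq k x := by
    rw [pd_mul k (hf.differentiable (by simp) x) (P.smooth.differentiable (by simp) x), P.pd_eq,
      hw]
    ring
  lip k x y := by
    have h1 := P.lip k x y
    have h2 := lip_of_pd ((hws k).differentiable (by simp)) (hB k) x y
    have e : Vg k x - w k x - (Vg k y - w k y) = (Vg k x - Vg k y) - (w k x - w k y) := by ring
    rw [e]
    refine (abs_sub _ _).trans ?_
    rw [add_mul]
    exact add_le_add h1 h2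
  L_nonneg := add_nonneg P.L_nonneg (Real.sqrt_nonneg _)

/-- integration by parts for the normalised measure of a smooth weight -/
lemma ibp_nm {σ : E n → ℝ} {g : Fin n → E n → ℝ} (hσ : Ex σ) (P : Pot σ g L) (k : Fin n)
    {h : E n → ℝ} (hh : ContDiff ℝ 1 h) (hs : HasCompactSupport h) :
    ∫ x, g k x * h x ∂(nm σ) = ∫ x, pd k h x ∂(nm σ) := by
  rw [int_nm hσ, int_nm hσ]
  unfold Em
  congr 1
  have h1 := ibp_cs (P.smooth.of_le (by norm_cast) : ContDiff ℝ 1 σ) hh hs k
  have e1 : ∫ x, pd k h x * σ x = ∫ x, σ x * pd k h x := by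
    refine integral_congr_ae (ae_of_all _ fun x => ?_); simp only; ring
  rw [e1, h1, ← integral_neg]
  refine integral_congr_ae (ae_of_all _ fun x => ?_)
  simp only [P.pd_eq]
  ring

/-- **a state from a base weight and a density** -/
noncomputable def mkSt (P : Pot ρ Vg L) (hf : ContDiff ℝ ∞ f) (hpos : ∀ x, 0 < f x)
    (w : Fin n → E n → ℝ) (hws : ∀ k, ContDiff ℝ ∞ (w k)) (hw : ∀ k x, pd k f x = w k x * f x)
    (hwB : ∀ k x, |w k x| ≤ B) (hB : ∀ k l x, |pd l (w k) x| ≤ B)
    (hx : Ex (fun x => f x * ρ x)) : St n where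
  ν := nm (fun x => f x * ρ x)
  prob := nm_prob hx
  Wg := fun k x => Vg k x - w k x
  W2 := fun x => Matrix.of fun k l => pd l (Vg k) x - pd l (w k) x
  Wg_smooth k := (P.gsmooth k).sub (hws k)
  W2_eq k l x := by
    rw [Matrix.of_apply, pd_sub l ((P.gsmooth k).differentiable (by simp) x)
      ((hws k).differentiable (by simp) x)]
  W2_symm k l x := by
    have PP := pot_mul P hf hpos hws hw hB
    have h := pot_symm PP k l x
    rw [pd_sub l ((P.gsmooth k).differentiable (by simp) x)
      ((hws k).differentiable (by simp) x), pd_sub k ((P.gsmooth l).differentiable (by simp) x)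
      ((hws l).differentiable (by simp) x)] at h
    exact h
  ibp k h hh hs := ibp_nm hx (pot_mul P hf hpos hws hw hB) k hh hs
  V2 := fun x => Matrix.of fun k l => pd l (Vg k) x
  V2_cont i j := (pd_smooth (P.gsmooth i) j).continuous
  V2_symm i j x := pot_symm P i j x
  w := w
  w_C1 i := (hws i).of_le (by norm_cast)
  w_L2 i := memLp_nm hx (EG.of_bdd (hws i).continuous.measurable (hwB i))
  H_L2 i k := memLp_nm hx (EG.of_bdd (pd_smooth (hws i) k).continuous.measurable (hB i k))
  H_symm i k x := by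
    have PP := pot_mul P hf hpos hws hw hB
    have h := pot_symm PP i k x
    rw [pd_sub k ((P.gsmooth i).differentiable (by simp) x)
      ((hws i).differentiable (by simp) x), pd_sub i ((P.gsmooth k).differentiable (by simp) x)
      ((hws k).differentiable (by simp) x), pot_symm P i k x] at h
    linarith
  W2_V k l x := rfl
  dens F hF δ hδ := by
    have PP := pot_mul P hf hpos hws hw hB
    exact dens_gen hx PP (fun k => EG_of_lip (PP.gsmooth k).continuous PP.L_nonneg (PP.lip k)) hF hδ

end Crest.Agent.R201.El593
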