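import Crest.Agent.R201.El5_593

/-!
# R201 (S0308): concrete states (helper593)

`stOf`: base weight `ρ` (`Pot`, `Ex`), ratio `f ≥ c > 0` smooth with bounded derivatives of order
`≤ 2`.  `stF`: forward leg, `ρ = Lp w q 1`, ratio `pE w q f`.
-/

set_option autoImplicit false
open MeasureTheory Matrix Filter Topology
open scoped ContDiff NNReal

namespace Crest.Agent.R201.El593

open Crest.Agent.R201 Crest.Agent.R201.Tw807 Crest.Agent.R201.An

variable {n : ℕ} {ρ f F w : E n → ℝ} {Vg : Fin n → E n → ℝ} {L B c R s : ℝ}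

/-- `f ≥ c > 0` smooth with bounded derivatives of order `≤ 2` -/
structure B2 (f : E n → ℝ) (c B : ℝ) : Prop where
  smooth : ContDiff ℝ ∞ f
  pos : 0 < c
  ge : ∀ x, c ≤ f x
  le : ∀ x, |f x| ≤ B
  le1 : ∀ k x, |pd k f x| ≤ B
  le2 : ∀ k l x, |pd l (pd k f) x| ≤ B

/-- `D log f` -/
noncomputable def wd (f : E n → ℝ) (k : Fin n) (x : E n) : ℝ := pd k f x / f x

namespace B2

lemma fpos (h : B2 f c B) (x : E n) : 0 < f x := h.pos.trans_le (h.ge x)

lemma Bnn (h : B2 f c B) : 0 ≤ B := (abs_nonneg _).trans (h.le 0)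

lemma wd_smooth (h : B2 f c B) (k : Fin n) : ContDiff ℝ ∞ (wd f k) :=
  (pd_smooth h.smooth k).div h.smooth fun x => (h.fpos x).ne'

lemma wd_eq (h : B2 f c B) (k : Fin n) (x : E n) : pd k f x = wd f k x * f x := by
  unfold wd
  rw [div_mul_cancel₀ _ (h.fpos x).ne']

lemma wd_le (h : B2 f c B) (k : Fin n) (x : E n) : |wd f k x| ≤ B / c := by
  unfold wd
  rw [abs_div, abs_of_pos (h.fpos x)]
  exact div_le_div₀ h.Bnn (h.le1 k x) h.pos (h.ge x)

lemma pd_wd (h : B2 f c B) (k l : Fin n) (x : E n) :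
    pd l (wd f k) x = pd l (pd k f) x / f x - wd f k x * wd f l x := by
  have d1 : DifferentiableAt ℝ (wd f k) x := (h.wd_smooth k).differentiable (by simp) x
  have d2 : DifferentiableAt ℝ f x := h.smooth.differentiable (by simp) x
  have e : pd l (pd k f) x = wd f k x * pd l f x + pd l (wd f k) x * f x := by
    have e1 : pd k f = fun y => wd f k y * f y := funext fun y => h.wd_eq k y
    rw [e1, pd_mul l d1 d2]
  have h0 := (h.fpos x).ne'
  rw [e, h.wd_eq l x]
  field_simp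
  ring

lemma pd_wd_le (h : B2 f c B) (k l : Fin n) (x : E n) :
    |pd l (wd f k) x| ≤ B / c + (B / c) * (B / c) := by
  rw [h.pd_wd]
  refine (abs_sub _ _).trans (add_le_add ?_ ?_)
  · rw [abs_div, abs_of_pos (h.fpos x)]
    exact div_le_div₀ h.Bnn (h.le2 k l x) h.pos (h.ge x)
  · rw [abs_mul]
    exact mul_le_mul (h.wd_le k x) (h.wd_le l x) (abs_nonneg _)
      (div_nonneg h.Bnn h.pos.le)

end B2

lemma Ex_mul (hρ : Ex ρ) (h : B2 f c B) : Ex (fun x => f x * ρ x) where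
  nonneg x := mul_nonneg (h.fpos x).le (hρ.nonneg x)
  meas := h.smooth.continuous.measurable.mul hρ.meas
  int a := by
    have h1 : EG fun x : E n => Real.exp (a * ‖x‖) * f x :=
      (EG.exp a).mul (EG.of_bdd h.smooth.continuous.measurable h.le)
    have h2 := hρ.int_mul h1
    simpa [mul_assoc] using h2
  pos := by
    have i1 : Integrable fun x => f x * ρ x :=
      hρ.int_mul (EG.of_bdd h.smooth.continuous.measurable h.le)
    have h1 : ∫ x, c * ρ x ≤ ∫ x, f x * ρ x := integral_mono (hρ.integrable.const_mul c) i1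
      fun x => mul_le_mul_of_nonneg_right (h.ge x) (hρ.nonneg x)
    rw [integral_const_mul] at h1
    exact (mul_pos h.pos hρ.pos).trans_le h1

/-- **state from a base weight and a ratio with bounded derivatives** -/
noncomputable def stOf (P : Pot ρ Vg L) (hρ : Ex ρ) (h : B2 f c B) : St n :=
  mkSt (B := max (B / c) (B / c + (B / c) * (B / c))) P h.smooth h.fpos (wd f) h.wd_smooth h.wd_eq
    (fun k x => (h.wd_le k x).trans (le_max_left _ _))
    (fun k l x => (h.pd_wd_le k l x).trans (le_max_right _ _)) (Ex_mul hρ h)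

lemma stOf_ν (P : Pot ρ Vg L) (hρ : Ex ρ) (h : B2 f c B) :
    (stOf P hρ h).ν = nm (fun x => f x * ρ x) := rfl

lemma stOf_w (P : Pot ρ Vg L) (hρ : Ex ρ) (h : B2 f c B) : (stOf P hρ h).w = wd f := rfl

lemma stOf_V2 (P : Pot ρ Vg L) (hρ : Ex ρ) (h : B2 f c B) (x : E n) :
    (stOf P hρ h).V2 x = Matrix.of fun k l => pd l (Vg k) x := rfl

/-! ### posterior means -/

lemma CB_pE_wt (hw : Wt c R w) (hs : 0 < s) (hF : EG F) : CB (pE w s F) := by
  refine cb_iff.2 ⟨(contDiff_pE hw.ex hs hF).of_le (by norm_cast), pE_bdd' hw hs hF, fun k => ?_⟩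
  obtain ⟨B1, h1⟩ := pE_bdd' hw hs (hF.mul (EG.coord k))
  obtain ⟨B2, h2⟩ := pE_bdd' hw hs hF
  obtain ⟨B3, h3⟩ := pE_bdd' hw hs (EG.coord (n := n) k)
  refine ⟨(B1 + B2 * B3) / s, fun y => ?_⟩
  rw [pd_pE hw.ex hs hF, abs_div, abs_of_pos hs]
  refine div_le_div_of_nonneg_right ?_ hs.le
  refine (abs_sub _ _).trans (add_le_add (h1 y) ?_)
  rw [abs_mul]
  exact mul_le_mul (h2 y) (h3 y) (abs_nonneg _) ((abs_nonneg _).trans (h2 y))

lemma CB_pd_pE (hw : Wt c R w) (hs : 0 < s) (hF : EG F) (k : Fin n) : CB (pd k (pE w s F)) := by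
  have e : pd k (pE w s F) = fun y => s⁻¹ *
      (pE w s (fun x => F x * x k) y - pE w s F y * pE w s (fun x => x k) y) := by
    funext y
    rw [pd_pE hw.ex hs hF, div_eq_inv_mul]
  rw [e]
  exact cb_const_mul _ (cb_sub (CB_pE_wt hw hs (hF.mul (EG.coord k)))
    (cb_mul (CB_pE_wt hw hs hF) (CB_pE_wt hw hs (EG.coord k))))

lemma B2_pE (hw : Wt c R w) (hs : 0 < s) (hF : EG F) {a : ℝ} (ha : 0 < a) (h : ∀ x, a ≤ F x) :
    ∃ B : ℝ, B2 (pE w s F) a B := by
  obtain ⟨_, B0, h0⟩ := CB_pE_wt hw hs hF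
  have h1 : ∀ k, ∃ B, ∀ x, |pd k (pE w s F) x| ≤ B ∧ ∀ l, |pd l (pd k (pE w s F)) x| ≤ B :=
    fun k => (CB_pd_pE hw hs hF k).2
  choose B1 h1 using h1
  refine ⟨|B0| + ∑ k, |B1 k|, contDiff_pE hw.ex hs hF, ha, fun x => ?_, fun x => ?_, fun k x => ?_,
    fun k l x => ?_⟩
  · have := pE_mono hw.ex hs (EG.const a) hF h x
    rwa [pE_const hw.ex hs] at this
  · exact ((h0 x).1.trans (le_abs_self _)).trans
      (le_add_of_nonneg_right (Finset.sum_nonneg fun _ _ => abs_nonneg _))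
  · have h2 : |B1 k| ≤ ∑ k, |B1 k| :=
      Finset.single_le_sum (f := fun k => |B1 k|) (fun _ _ => abs_nonneg _) (Finset.mem_univ k)
    have := (h1 k x).1
    have := le_abs_self (B1 k)
    have := abs_nonneg B0
    linarith
  · have h2 : |B1 k| ≤ ∑ k, |B1 k| :=
      Finset.single_le_sum (f := fun k => |B1 k|) (fun _ _ => abs_nonneg _) (Finset.mem_univ k)
    have := (h1 k x).2 l
    have := le_abs_self (B1 k)
    have := abs_nonneg B0
    linarith

/-- `f ρ` on the forward leg -/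
lemma pE_mul_Lp (hw : Ex w) (hs : 0 < s) (F : E n → ℝ) :
    (fun y => pE w s F y * An.Lp w s (fun _ => 1) y) = An.Lp w s F :=
  funext fun y => pE_mul_one hw hs F y

/-- **base weight `Lp w s 1` (level `s`), any ratio with bounded derivatives** -/
noncomputable def stN (hw : Wt c R w) (hs : 0 < s) {a : ℝ} (h : B2 f a B) : St n :=
  stOf (pot_noisy hw hs).choose_spec (hw.ex.noisy hs) h

lemma stN_ν (hw : Wt c R w) (hs : 0 < s) {a : ℝ} (h : B2 f a B) :
    (stN hw hs h).ν = nm (fun x => f x * An.Lp w s (fun _ => 1) x) := rfl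

lemma stN_w (hw : Wt c R w) (hs : 0 < s) {a : ℝ} (h : B2 f a B) : (stN hw hs h).w = wd f := rfl

lemma stN_V2 (hw : Wt c R w) (hs : 0 < s) {a : ℝ} (h : B2 f a B) (x : E n) :
    (stN hw hs h).V2 x = Vh w s x := by
  have : (stN hw hs h).V2 x = Matrix.of fun k l => pd l (An.Vg w s k) x := rfl
  rw [this]
  ext k l
  rw [Matrix.of_apply, pd_Vg hw.ex hs]
  have := congrFun (congrFun (Vh_symm w s x) k) l
  simpa [Matrix.transpose_apply] using this

end Crest.Agent.R201.El593
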