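import Crest.Agent.R201.El6_593
import Crest.Agent.R201.An14_293

/-!
# R201 (S0308): functions with bounded derivatives; posterior means and Gaussian averages;
the state on the backward leg (helper593)
-/

set_option autoImplicit false
open MeasureTheory Matrix Filter Topology
open scoped ContDiff NNReal

namespace Crest.Agent.R201.El593

open Crest.Agent.R201 Crest.Agent.R201.Tw807 Crest.Agent.R201.An

variable {n : ℕ} {f g F w : E n → ℝ} {c R s t : ℝ}

/-- `C^{m+1}` with bounded derivatives of order `≤ m + 1` -/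
def BD : ℕ → (E n → ℝ) → Prop
  | 0, f => CB f
  | m + 1, f => CB f ∧ ∀ k, BD m (pd k f)

namespace BD

lemma cb {m : ℕ} (h : BD m f) : CB f := by
  cases m with
  | zero => exact h
  | succ m => exact h.1

lemma pred : ∀ {m : ℕ} {f : E n → ℝ}, BD (m + 1) f → BD m f
  | 0, _, h => h.1
  | _ + 1, _, h => ⟨h.1, fun k => pred (h.2 k)⟩

lemma const (a : ℝ) : ∀ m : ℕ, BD m (fun _ : E n => a)
  | 0 => cb_const a
  | m + 1 => ⟨cb_const a, fun k => by
      have : pd k (fun _ : E n => a) = fun _ => 0 := funext fun x => pd_const a k x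
      rw [this]
      exact const 0 m⟩

lemma add : ∀ {m : ℕ} {f g : E n → ℝ}, BD m f → BD m g → BD m fun x => f x + g x
  | 0, _, _, hf, hg => cb_add hf hg
  | m + 1, f, g, hf, hg => ⟨cb_add hf.1 hg.1, fun k => by
      have : pd k (fun x => f x + g x) = fun x => pd k f x + pd k g x :=
        funext fun x => pd_add k (cb_diff hf.1 x) (cb_diff hg.1 x)
      rw [this]
      exact add (hf.2 k) (hg.2 k)⟩

lemma mul : ∀ {m : ℕ} {f g : E n → ℝ}, BD m f → BD m g → BD m fun x => f x * g x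
  | 0, _, _, hf, hg => cb_mul hf hg
  | m + 1, f, g, hf, hg => ⟨cb_mul hf.1 hg.1, fun k => by
      have : pd k (fun x => f x * g x) = fun x => f x * pd k g x + pd k f x * g x :=
        funext fun x => pd_mul k (cb_diff hf.1 x) (cb_diff hg.1 x)
      rw [this]
      exact add (mul hf.pred (hg.2 k)) (mul (hf.2 k) hg.pred)⟩

lemma smul {m : ℕ} (a : ℝ) (hf : BD m f) : BD m fun x => a * f x := (const a m).mul hf

lemma neg {m : ℕ} (hf : BD m f) : BD m fun x => -f x := by simpa using hf.smul (-1)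

lemma sub {m : ℕ} (hf : BD m f) (hg : BD m g) : BD m fun x => f x - g x := by
  simpa [sub_eq_add_neg] using hf.add hg.neg

/-- posterior means -/
lemma pE (hw : Wt c R w) (hs : 0 < s) : ∀ (m : ℕ) {F : E n → ℝ}, EG F → BD m (An.pE w s F)
  | 0, _, hF => CB_pE_wt hw hs hF
  | m + 1, F, hF => ⟨CB_pE_wt hw hs hF, fun k => by
      have e : pd k (An.pE w s F) = fun y => s⁻¹ *
          (An.pE w s (fun x => F x * x k) y - An.pE w s F y * An.pE w s (fun x => x k) y) := by
        funext y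
        rw [pd_pE hw.ex hs hF, div_eq_inv_mul]
      rw [e]
      exact smul _ (sub (pE hw hs m (hF.mul (EG.coord k)))
        (mul (pE hw hs m hF) (pE hw hs m (EG.coord k))))⟩

/-- Gaussian averages -/
lemma NN (ht : 0 < t) : ∀ {m : ℕ} {f : E n → ℝ}, BD m f → BD m (An.NN t f)
  | 0, _, hf => (NN_CB ht hf).1
  | m + 1, f, hf => ⟨(NN_CB ht hf.1).1, fun k => by
      rw [(NN_CB ht hf.1).2 k]
      exact NN ht (hf.2 k)⟩

lemma contDiff : ∀ {m : ℕ} {f : E n → ℝ}, BD m f → ContDiff ℝ (m + 1 : ℕ) f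
  | 0, _, hf => by simpa using hf.1
  | m + 1, f, hf => by
      have h1 : ∀ k, ContDiff ℝ (m + 1 : ℕ) (pd k f) := fun k => contDiff (hf.2 k)
      have hd : Differentiable ℝ f := cb_diff hf.1
      have e : fderiv ℝ f = fun x => ∑ k, pd k f x • (EuclideanSpace.proj k : E n →L[ℝ] ℝ) := by
        funext x
        ext v
        rw [fderiv_eq_sum]
        simp [mul_comm]
      have h2 : ContDiff ℝ (m + 1 : ℕ) (fderiv ℝ f) := by
        rw [e]
        exact ContDiff.sum fun k _ => (h1 k).smul contDiff_const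
      have h3 : ContDiff ℝ ((m + 1 : ℕ) + 1) f := by
        rw [contDiff_succ_iff_fderiv]
        exact ⟨hd, by simp, h2⟩
      exact_mod_cast h3

lemma smooth (h : ∀ m, BD m f) : ContDiff ℝ ∞ f := by
  rw [contDiff_infty]
  intro m
  exact ((h m).contDiff).of_le (by exact_mod_cast Nat.le_succ m)

/-- derivatives of order `≤ 2` -/
lemma b2 (h : ∀ m, BD m f) {a : ℝ} (ha : 0 < a) (hge : ∀ x, a ≤ f x) : ∃ B : ℝ, B2 f a B := by
  obtain ⟨_, B0, h0⟩ := (h 0).cb
  have h1 : ∀ k, ∃ B, ∀ x, |pd k f x| ≤ B ∧ ∀ l, |pd l (pd k f) x| ≤ B := fun k => ((h 1).2 k).2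
  choose B1 h1 using h1
  refine ⟨|B0| + ∑ k, |B1 k|, smooth h, ha, hge, fun x => ?_, fun k x => ?_, fun k l x => ?_⟩
  · exact ((h0 x).1.trans (le_abs_self _)).trans
      (le_add_of_nonneg_right (Finset.sum_nonneg fun _ _ => abs_nonneg _))
  · have h2 : |B1 k| ≤ ∑ k, |B1 k| :=
      Finset.single_le_sum (f := fun k => |B1 k|) (fun _ _ => abs_nonneg _) (Finset.mem_univ k)
    have := (h1 k x).1
    have := le_abs_self (B1 k)
    have := abs_nonneg B0
    linarith
  · have h2 : |B1 k| ≤ ∑ k, |B1 k| :=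
      Finset.single_le_sum (f := fun k => |B1 k|) (fun _ _ => abs_nonneg _) (Finset.mem_univ k)
    have := (h1 k x).2 l
    have := le_abs_self (B1 k)
    have := abs_nonneg B0
    linarith

end BD

lemma CBp_ge {a : ℝ} (hf : CB f) (hge : ∀ x, a ≤ f x) (ht : 0 < t) (x : E n) :
    a ≤ An.NN t f x := by
  have := NN_mono ht (EG.const a) (CB.eg hf).1 hge x
  rwa [NN_const ht] at this

/-- **backward leg**: the ratio `NN t (pE w s F)` -/
theorem B2_NN_pE (hw : Wt c R w) (hs : 0 < s) (ht : 0 < t) (hF : EG F) {a : ℝ} (ha : 0 < a)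
    (hge : ∀ x, a ≤ F x) : ∃ B : ℝ, B2 (An.NN t (An.pE w s F)) a B := by
  refine BD.b2 (fun m => BD.NN ht (BD.pE hw hs m hF)) ha fun x => ?_
  refine CBp_ge (CB_pE_wt hw hs hF) (fun y => ?_) ht x
  have := pE_mono hw.ex hs (EG.const a) hF hge y
  rwa [pE_const hw.ex hs] at this

end Crest.Agent.R201.El593
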