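import Crest.Agent.R201.El7_593

/-!
# R201 (S0308): the measure `f μ` for `μ = nm ρ`, `Em ρ f = 1` (helper593)
-/

set_option autoImplicit false
open MeasureTheory Matrix Filter Topology
open scoped ContDiff NNReal ENNReal

namespace Crest.Agent.R201.El593

open Crest.Agent.R201 Crest.Agent.R201.Tw807 Crest.Agent.R201.An

variable {n : ℕ} {ρ f F w : E n → ℝ} {c B : ℝ}

/-- mass one -/
lemma mass_eq (hρ : Ex ρ) (h1 : Em ρ f = 1) : ∫ y, f y * ρ y = ∫ z, ρ z := by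
  unfold Em at h1
  rwa [div_eq_one_iff_eq hρ.pos.ne'] at h1

/-- `∫ F d(nm (fρ)) = ∫ f F d(nm ρ)` -/
lemma int_nm_mul (hρ : Ex ρ) (hx : Ex (fun x => f x * ρ x)) (h1 : Em ρ f = 1) (F : E n → ℝ) :
    ∫ x, F x ∂(nm (fun x => f x * ρ x)) = ∫ x, f x * F x ∂(nm ρ) := by
  rw [int_nm hx, int_nm hρ]
  unfold Em
  rw [mass_eq hρ h1]
  congr 1
  refine integral_congr_ae (ae_of_all _ fun x => ?_)
  simp only
  ring

/-- `nm (fρ) = f · nm ρ` -/
lemma nm_mul (hρ : Ex ρ) (hf : Measurable f) (h1 : Em ρ f = 1) :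
    nm (fun x => f x * ρ x) = (nm ρ).withDensity fun x => ENNReal.ofReal (f x) := by
  unfold nm
  rw [← withDensity_mul _ (nm_dens_meas hρ) hf.ennreal_ofReal, mass_eq hρ h1]
  congr 1
  funext x
  simp only [Pi.mul_apply]
  rw [← ENNReal.ofReal_mul (div_nonneg (hρ.nonneg x) hρ.pos.le)]
  congr 1
  ring

end Crest.Agent.R201.El593
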