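import Crest.Agent.R201.Noi2_402
import Crest.Agent.R201.Cyc2_293

/-!
# R201: the static inequalities at the ends of the forward and of the backward leg (helper293)

* `fwd_ent` : `En w f - En (Lp w s 1) (pE w s f) ≤ s/2 Fi w f`
* `fwd_fi`  : `Fi (Lp w s 1) (pE w s f) ≤ Fi w f`
* `bwd_ent` : `En (Lp w t 1) f - En w (NN t f) ≤ t/2 Fi (Lp w t 1) f`
* `bwd_fi`  : `Fi w (NN t f) ≤ Fi (Lp w t 1) f`
-/

set_option autoImplicit false
open MeasureTheory Matrix Filter Topology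
open scoped ContDiff RealInnerProductSpace NNReal

namespace Crest.Agent.R201.Ends293

open Crest.Agent.R201 Crest.Agent.R144.Fi865 Crest.Agent.R201.An Crest.Agent.R201.Noi402

variable {n : ℕ} {w f : E n → ℝ} {s t c : ℝ}

lemma cbp_pos (hf : LL809.CBp f) : ∃ c B, Pos f c B := exists_pos hf.1 hf.2

/-- forward leg stays in the class -/
lemma cbp_pE (hw : Ex w) (hc : 0 ≤ c) (h : SLC c w) (hs : 0 < s) (hf : LL809.CBp f) :
    LL809.CBp (pE w s f) := by
  obtain ⟨c', B, hp⟩ := cbp_pos hf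
  obtain ⟨h1, h2⟩ := hp.pE hw hc h hs
  exact ⟨h1, c', hp.c_pos, h2⟩

/-- backward leg stays in the class -/
lemma cbp_NN (ht : 0 < t) (hf : LL809.CBp f) : LL809.CBp (NN t f) := by
  obtain ⟨c', B, hp⟩ := cbp_pos hf
  refine ⟨(NN_CB ht hf.1).1, c', hp.c_pos, fun x => ?_⟩
  have := NN_mono ht (EG.const c') hp.eg hp.ge x
  rwa [NN_const ht] at this

/-- mass is preserved, forward -/
lemma mass_pE (hw : Ex w) (hs : 0 < s) (hf : LL809.CBp f) :
    Em (Lp w s fun _ => 1) (pE w s f) = Em w f := by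
  obtain ⟨c', B, hp⟩ := cbp_pos hf
  exact Em_pE hw hs hp.eg

/-- mass is preserved, backward -/
lemma mass_NN (hw : Ex w) (ht : 0 < t) (hf : LL809.CBp f) :
    Em w (NN t f) = Em (Lp w t fun _ => 1) f := by
  obtain ⟨c', B, hp⟩ := cbp_pos hf
  exact (Em_NN hw ht hp.eg).symm

/-- entropy loss along the forward leg -/
theorem fwd_ent (hw : Ex w) (hc : 0 ≤ c) (h : SLC c w) (hs : 0 < s) (hf : LL809.CBp f) :
    En w f - s / 2 * Fi w f ≤ En (Lp w s fun _ => 1) (pE w s f) := by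
  obtain ⟨c', B, hp⟩ := cbp_pos hf
  have hρ := hw.noisy hs
  obtain ⟨c'', B'', hg⟩ := cbp_pos (cbp_pE hw hc h hs hf)
  have egpfi : EG (pE w s fun x => ‖fderiv ℝ f x‖ ^ 2 / f x) :=
    (CB.eg (CB_pE hw hc h hs hp.fi_cont.measurable hp.fi_bdd)).1
  have egpfl : EG (pE w s fun x => f x * Real.log (f x)) :=
    (CB.eg (CB_pE hw hc h hs hp.flogf_cont.measurable hp.flogf_bdd)).1
  have k3 : Em w (fun x => f x * Real.log (f x)) -
      Em (Lp w s fun _ => 1) (fun y => pE w s f y * Real.log (pE w s f y)) ≤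
      s / 2 * Em w (fun x => ‖fderiv ℝ f x‖ ^ 2 / f x) := by
    rw [← Em_pE hw hs hp.eg_flogf, ← Em_pE hw hs hp.eg_fi, ← Em_sub hρ egpfl hg.eg_flogf,
      ← Em_smul]
    exact Em_mono hρ (egpfl.sub hg.eg_flogf) (egpfi.smul _) fun y =>
      post_ent hw hc h hs hp y
  unfold En Fi
  rw [Em_pE hw hs hp.eg]
  linarith

/-- Fisher information decreases along the forward leg -/
theorem fwd_fi (hw : Ex w) (hc : 0 ≤ c) (h : SLC c w) (hs : 0 < s) (hf : LL809.CBp f) :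
    Fi (Lp w s fun _ => 1) (pE w s f) ≤ Fi w f := by
  obtain ⟨c', B, hp⟩ := cbp_pos hf
  have hρ := hw.noisy hs
  obtain ⟨c'', B'', hg⟩ := cbp_pos (cbp_pE hw hc h hs hf)
  have egpfi : EG (pE w s fun x => ‖fderiv ℝ f x‖ ^ 2 / f x) :=
    (CB.eg (CB_pE hw hc h hs hp.fi_cont.measurable hp.fi_bdd)).1
  unfold Fi
  rw [← Em_pE hw hs hp.eg_fi]
  refine Em_mono hρ hg.eg_fi egpfi fun y => ?_
  rw [div_le_iff₀ (hg.pos y), norm_fderiv_sq, mul_comm]
  exact post_grad hw hc h hs hp y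

/-- Gaussian log-Sobolev, density form -/
lemma NN_ent (ht : 0 < t) (hf : LL809.CBp f) (x : E n) :
    NN t (fun y => f y * Real.log (f y)) x - NN t f x * Real.log (NN t f x) ≤
      t / 2 * NN t (fun y => ‖fderiv ℝ f y‖ ^ 2 / f y) x := by
  obtain ⟨hg, hpd⟩ := CB_log hf
  have hp := hf.pos
  have key := LSn77.NN_lsi ht hg x
  simp only [hpd, Real.exp_log (hp _)] at key
  have e1 : (fun x => f x * Real.log (f x)) = fun x => Real.log (f x) * f x := by
    funext x; ring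
  have e2 : (fun x => ‖fderiv ℝ f x‖ ^ 2 / f x) =
      fun x => (∑ k, (pd k f x / f x) ^ 2) * f x := by
    funext x
    rw [norm_fderiv_sq, Finset.sum_mul, Finset.sum_div]
    refine Finset.sum_congr rfl fun k _ => ?_
    have := (hp x).ne'
    field_simp
  rw [e1, e2]
  exact key

/-- `|D NN f|² ≤ NN f · NN (|Df|²/f)` -/
lemma NN_grad (ht : 0 < t) (hf : LL809.CBp f) (x : E n) :
    ‖fderiv ℝ (NN t f) x‖ ^ 2 ≤ NN t f x * NN t (fun y => ‖fderiv ℝ f y‖ ^ 2 / f y) x := by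
  obtain ⟨c', B, hp⟩ := cbp_pos hf
  obtain ⟨hN, hNpd⟩ := NN_CB ht hf.1
  obtain ⟨hg, hpd⟩ := CB_log hf
  have hgE := CB.eg hg
  have hpos := hf.pos
  set g : E n → ℝ := fun x => Real.log (f x) with hgd
  have e1 : ∀ k, NN t (fun y => pd k g y * f y) x = NN t (pd k f) x := fun k => by
    congr 1
    funext y
    rw [hpd]
    exact div_mul_cancel₀ _ (hpos y).ne'
  have e2 : (fun y => ‖fderiv ℝ f y‖ ^ 2 / f y) = fun y => ∑ k, pd k g y ^ 2 * f y := by
    funext y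
    rw [norm_fderiv_sq, Finset.sum_div]
    refine Finset.sum_congr rfl fun k _ => ?_
    rw [hpd]
    have := (hpos y).ne'
    field_simp
  have hk : ∀ k, EG fun y => pd k g y ^ 2 * f y := fun k => by
    have : EG fun x => pd k g x ^ 2 := by simpa [sq] using (hgE.2 k).mul (hgE.2 k)
    exact this.mul hp.eg
  rw [norm_fderiv_sq, e2, NN_sum _ ht fun k _ => hk k, Finset.mul_sum]
  refine Finset.sum_le_sum fun k _ => ?_
  have h3 := LSn77.NN_cs ht hp.eg (hgE.2 k) (fun y => (hpos y).le) x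
  rw [e1] at h3
  rw [hNpd k]
  exact h3

lemma eg_NN {F : E n → ℝ} {C : ℝ} (ht : 0 < t) (hF : Continuous F) (hC : ∀ x, |F x| ≤ C) :
    EG (NN t F) :=
  EG.NN ht (LSn77.NN_cont ht hF hC).measurable (EG.of_bdd hF.measurable hC) hC

/-- entropy gain along the backward leg -/
theorem bwd_ent (hw : Ex w) (ht : 0 < t) (hf : LL809.CBp f) :
    En (Lp w t fun _ => 1) f ≤ En w (NN t f) + t / 2 * Fi (Lp w t fun _ => 1) f := by
  obtain ⟨c', B, hp⟩ := cbp_pos hf
  obtain ⟨c'', B'', hg⟩ := cbp_pos (cbp_NN ht hf)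
  have h1 := eg_NN ht hp.flogf_cont hp.flogf_bdd
  have h2 := eg_NN ht hp.fi_cont hp.fi_bdd
  have k : Em w (NN t fun x => f x * Real.log (f x)) -
      Em w (fun y => NN t f y * Real.log (NN t f y)) ≤
      t / 2 * Em w (NN t fun x => ‖fderiv ℝ f x‖ ^ 2 / f x) := by
    rw [← Em_sub hw h1 hg.eg_flogf, ← Em_smul]
    exact Em_mono hw (h1.sub hg.eg_flogf) (h2.smul _) fun y => NN_ent ht hf y
  unfold En Fi
  rw [Em_NN hw ht hp.eg, Em_NN hw ht hp.eg_flogf, Em_NN hw ht hp.eg_fi]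
  linarith

/-- Fisher information along the backward leg -/
theorem bwd_fi (hw : Ex w) (ht : 0 < t) (hf : LL809.CBp f) :
    Fi w (NN t f) ≤ Fi (Lp w t fun _ => 1) f := by
  obtain ⟨c', B, hp⟩ := cbp_pos hf
  obtain ⟨c'', B'', hg⟩ := cbp_pos (cbp_NN ht hf)
  have h2 := eg_NN ht hp.fi_cont hp.fi_bdd
  unfold Fi
  rw [Em_NN hw ht hp.eg_fi]
  refine Em_mono hw hg.eg_fi h2 fun y => ?_
  rw [div_le_iff₀ (hg.pos y), mul_comm]
  exact NN_grad ht hf y

end Crest.Agent.R201.Ends293
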