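import Mathlib

/-!
R201 LA2 (helper446): the middle bracket of the no-broadcasting identity is nonnegative.

`∑ r, Tr (A M_r A M_r) ≤ Tr (A Z A Z)` for symmetric real matrices `M_r`, `A`, and positive
semidefinite `Z` with `Z * Z = ∑ r, M_r * M_r`.
-/

set_option autoImplicit false
set_option linter.unusedSectionVars false

open Matrix
open scoped MatrixOrder ComplexOrder

namespace Crest.Agent.R201.LA2446

variable {n ι : Type*} [Fintype n] [DecidableEq n] [Fintype ι]

/-- Every real positive semidefinite matrix is `Rᵀ R`. -/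
lemma exists_factor {Z : Matrix n n ℝ} (hZ : Z.PosSemidef) :
    ∃ R : Matrix n n ℝ, Z = Rᵀ * R := by
  obtain ⟨R, hR⟩ := CStarAlgebra.nonneg_iff_eq_star_mul_self.mp hZ.nonneg
  refine ⟨R, ?_⟩
  rw [hR, star_eq_conjTranspose, conjTranspose_eq_transpose_of_trivial]

/-- Trace of a product of two psd matrices is nonnegative. -/
lemma trace_mul_nonneg {P Q : Matrix n n ℝ} (hP : P.PosSemidef) (hQ : Q.PosSemidef) :
    0 ≤ trace (P * Q) := by
  obtain ⟨R, rfl⟩ := exists_factor hP
  have h1 : trace (Rᵀ * R * Q) = trace (R * Q * Rᵀ) := by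
    rw [Matrix.mul_assoc, trace_mul_comm]
  rw [h1]
  have h2 : (R * Q * Rᵀ).PosSemidef := by
    have := hQ.mul_mul_conjTranspose_same R
    rwa [conjTranspose_eq_transpose_of_trivial] at this
  exact h2.trace_nonneg

/-- the KMS-type bilinear form `Tr (A Z B Z)` -/
noncomputable def kf (Z A B : Matrix n n ℝ) : ℝ := trace (A * Z * B * Z)

/-- Cauchy–Schwarz for the form `kf` on symmetric matrices. -/
lemma kf_eq {R A B : Matrix n n ℝ} :
    kf (Rᵀ * R) A B = ∑ i, ∑ j, (R * A * Rᵀ) i j * (R * B * Rᵀ) j i := by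
  have h : kf (Rᵀ * R) A B = trace ((R * A * Rᵀ) * (R * B * Rᵀ)) := by
    unfold kf
    have e1 : A * (Rᵀ * R) * B * (Rᵀ * R) = (A * Rᵀ * R * B * Rᵀ) * R := by
      simp only [Matrix.mul_assoc]
    rw [e1, trace_mul_comm]
    simp only [Matrix.mul_assoc]
  rw [h]
  simp [trace, Matrix.mul_apply]

lemma kf_self_nonneg {Z A : Matrix n n ℝ} (hZ : Z.PosSemidef) (hA : Aᵀ = A) :
    0 ≤ kf Z A A := by
  obtain ⟨R, rfl⟩ := exists_factor hZ
  rw [kf_eq]
  have hs : (R * A * Rᵀ)ᵀ = R * A * Rᵀ := by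
    simp [transpose_mul, hA, Matrix.mul_assoc]
  refine Finset.sum_nonneg fun i _ => Finset.sum_nonneg fun j _ => ?_
  have : (R * A * Rᵀ) j i = (R * A * Rᵀ) i j := by
    conv_rhs => rw [← hs]
    rfl
  rw [this]
  exact mul_self_nonneg _

lemma kf_cs {Z A B : Matrix n n ℝ} (hZ : Z.PosSemidef) (hA : Aᵀ = A) (hB : Bᵀ = B) :
    (kf Z A B) ^ 2 ≤ kf Z A A * kf Z B B := by
  obtain ⟨R, rfl⟩ := exists_factor hZ
  have hsA : (R * A * Rᵀ)ᵀ = R * A * Rᵀ := by
    simp [transpose_mul, hA, Matrix.mul_assoc]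
  have hsB : (R * B * Rᵀ)ᵀ = R * B * Rᵀ := by
    simp [transpose_mul, hB, Matrix.mul_assoc]
  have eA : ∀ i j, (R * A * Rᵀ) j i = (R * A * Rᵀ) i j := by
    intro i j
    conv_rhs => rw [← hsA]
    rfl
  have eB : ∀ i j, (R * B * Rᵀ) j i = (R * B * Rᵀ) i j := by
    intro i j
    conv_rhs => rw [← hsB]
    rfl
  rw [kf_eq, kf_eq, kf_eq]
  simp only [eA, eB]
  have key := Finset.sum_mul_sq_le_sq_mul_sq (Finset.univ : Finset (n × n))
    (fun p => (R * A * Rᵀ) p.1 p.2) (fun p => (R * B * Rᵀ) p.1 p.2)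
  simp only [← Finset.univ_product_univ, Finset.sum_product] at key
  have e2 : ∀ X : Matrix n n ℝ, (∑ i, ∑ j, X i j * X i j) = ∑ i, ∑ j, X i j ^ 2 := by
    intro X; simp [sq]
  rw [e2, e2]
  exact key

/-- A nonnegative bounded log-convex sequence has `a 1 ≤ a 0`. -/
lemma logconvex_bdd {a : ℕ → ℝ} {C : ℝ} (h0 : ∀ k, 0 ≤ a k)
    (hlc : ∀ k, a (k + 1) ^ 2 ≤ a k * a (k + 2)) (hC : ∀ k, a k ≤ C) : a 1 ≤ a 0 := by
  by_contra hlt
  push Not at hlt
  have ha1 : 0 < a 1 := lt_of_le_of_lt (h0 0) hlt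
  have ha0 : 0 < a 0 := by
    rcases (h0 0).lt_or_eq with h | h
    · exact h
    · exfalso
      have := hlc 0
      rw [← h] at this
      simp at this
      exact absurd this (by positivity)
  set ρ : ℝ := a 1 / a 0 with hρ
  have hρ1 : 1 < ρ := by
    rw [hρ, lt_div_iff₀ ha0]; linarith
  have hstep : ∀ k, 0 < a k ∧ ρ * a k ≤ a (k + 1) := by
    intro k
    induction k with
    | zero =>
      refine ⟨ha0, ?_⟩
      rw [hρ]
      have : a 1 / a 0 * a 0 = a 1 := by field_simp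
      simpa using this.le
    | succ k ih =>
      obtain ⟨hk, hk1⟩ := ih
      have hk1' : 0 < a (k + 1) := lt_of_lt_of_le (by positivity) hk1
      refine ⟨hk1', ?_⟩
      have h2 := hlc k
      -- a(k+1)^2 ≤ a k * a (k+2), ρ a k ≤ a (k+1)
      have h3 : ρ * a k * a (k + 1) ≤ a k * a (k + 2) := by
        calc ρ * a k * a (k + 1) ≤ a (k + 1) * a (k + 1) :=
              mul_le_mul_of_nonneg_right hk1 hk1'.le
          _ = a (k + 1) ^ 2 := by ring
          _ ≤ a k * a (k + 2) := h2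
      have h4 : a k * (ρ * a (k + 1)) ≤ a k * a (k + 1 + 1) := by
        calc a k * (ρ * a (k + 1)) = ρ * a k * a (k + 1) := by ring
          _ ≤ a k * a (k + 2) := h3
          _ = a k * a (k + 1 + 1) := by ring_nf
      exact le_of_mul_le_mul_left h4 hk
  have hpow : ∀ k, ρ ^ k * a 0 ≤ a k := by
    intro k
    induction k with
    | zero => simp
    | succ k ih =>
      calc ρ ^ (k + 1) * a 0 = ρ * (ρ ^ k * a 0) := by ring
        _ ≤ ρ * a k := mul_le_mul_of_nonneg_left ih (by linarith)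
        _ ≤ a (k + 1) := (hstep k).2
  obtain ⟨k, hk⟩ := pow_unbounded_of_one_lt (C / a 0) hρ1
  have : C < ρ ^ k * a 0 := by
    rw [div_lt_iff₀ ha0] at hk
    exact hk
  linarith [hpow k, hC k]

/-- `S(A) = ∑ r, M_r A M_r` -/
noncomputable def S (M : ι → Matrix n n ℝ) (A : Matrix n n ℝ) : Matrix n n ℝ :=
  ∑ r, M r * A * M r

/-- `Φ(A) = Z⁻¹ S(A) Z⁻¹` -/
noncomputable def Phi (M : ι → Matrix n n ℝ) (Z A : Matrix n n ℝ) : Matrix n n ℝ :=
  Z⁻¹ * S M A * Z⁻¹

lemma S_transpose {M : ι → Matrix n n ℝ} (hM : ∀ r, (M r)ᵀ = M r) {A : Matrix n n ℝ}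
    (hA : Aᵀ = A) : (S M A)ᵀ = S M A := by
  unfold S
  rw [transpose_sum]
  refine Finset.sum_congr rfl fun r _ => ?_
  simp [transpose_mul, hM, hA, Matrix.mul_assoc]

lemma trace_S_symm (M : ι → Matrix n n ℝ) (A B : Matrix n n ℝ) :
    trace (A * S M B) = trace (S M A * B) := by
  unfold S
  rw [Finset.mul_sum, Finset.sum_mul, trace_sum, trace_sum]
  refine Finset.sum_congr rfl fun r _ => ?_
  have e1 : A * (M r * B * M r) = (A * M r * B) * M r := by simp only [Matrix.mul_assoc]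
  rw [e1, trace_mul_comm]
  simp only [Matrix.mul_assoc]

variable {M : ι → Matrix n n ℝ} {Z : Matrix n n ℝ}

lemma Zt (hZ : Z.PosDef) : Zᵀ = Z := by
  have := hZ.isHermitian
  rwa [IsHermitian, conjTranspose_eq_transpose_of_trivial] at this

lemma Zinv_t (hZ : Z.PosDef) : (Z⁻¹)ᵀ = Z⁻¹ := by
  rw [transpose_nonsing_inv, Zt hZ]

lemma Z_det (hZ : Z.PosDef) : IsUnit Z.det := (Matrix.isUnit_iff_isUnit_det Z).mp hZ.isUnit

lemma kf_Phi (hZ : Z.PosDef) (A B : Matrix n n ℝ) :
    kf Z A (Phi M Z B) = trace (A * S M B) := by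
  unfold kf Phi
  have hd := Z_det hZ
  have e : A * Z * (Z⁻¹ * S M B * Z⁻¹) * Z = A * (Z * Z⁻¹) * S M B * (Z⁻¹ * Z) := by
    simp only [Matrix.mul_assoc]
  rw [e, Matrix.mul_nonsing_inv _ hd, Matrix.nonsing_inv_mul _ hd]
  simp

lemma kf_symm (Z A B : Matrix n n ℝ) : kf Z A B = kf Z B A := by
  unfold kf
  have e : A * Z * B * Z = (A * Z) * (B * Z) := by simp only [Matrix.mul_assoc]
  rw [e, trace_mul_comm]
  simp only [Matrix.mul_assoc]

lemma kf_Phi_left (hZ : Z.PosDef) (A B : Matrix n n ℝ) :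
    kf Z (Phi M Z A) B = kf Z A (Phi M Z B) := by
  rw [kf_symm, kf_Phi hZ, kf_Phi hZ, trace_S_symm, trace_mul_comm]

lemma Phi_t (hM : ∀ r, (M r)ᵀ = M r) (hZ : Z.PosDef) {A : Matrix n n ℝ} (hA : Aᵀ = A) :
    (Phi M Z A)ᵀ = Phi M Z A := by
  unfold Phi
  simp [transpose_mul, S_transpose hM hA, Zinv_t hZ, Matrix.mul_assoc]

lemma S_psd (hM : ∀ r, (M r)ᵀ = M r) {A : Matrix n n ℝ} (hA : A.PosSemidef) :
    (S M A).PosSemidef := by
  unfold S
  refine posSemidef_sum _ fun r _ => ?_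
  have := hA.mul_mul_conjTranspose_same (M r)
  rwa [conjTranspose_eq_transpose_of_trivial, hM r] at this

lemma Phi_psd (hM : ∀ r, (M r)ᵀ = M r) (hZ : Z.PosDef) {A : Matrix n n ℝ}
    (hA : A.PosSemidef) : (Phi M Z A).PosSemidef := by
  unfold Phi
  have := (S_psd hM hA).mul_mul_conjTranspose_same (Z⁻¹)
  rwa [conjTranspose_eq_transpose_of_trivial, Zinv_t hZ] at this

lemma Phi_one (hZ : Z.PosDef) (hZ2 : Z * Z = ∑ r, M r * M r) : Phi M Z 1 = 1 := by
  unfold Phi S
  have hd := Z_det hZ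
  simp only [Matrix.mul_one]
  rw [← hZ2]
  have e : Z⁻¹ * (Z * Z) * Z⁻¹ = (Z⁻¹ * Z) * (Z * Z⁻¹) := by simp only [Matrix.mul_assoc]
  rw [e, Matrix.mul_nonsing_inv _ hd, Matrix.nonsing_inv_mul _ hd]
  simp

lemma Phi_sub (A B : Matrix n n ℝ) : Phi M Z (A - B) = Phi M Z A - Phi M Z B := by
  unfold Phi S
  simp [Matrix.mul_sub, Matrix.sub_mul]

lemma Phi_add (A B : Matrix n n ℝ) : Phi M Z (A + B) = Phi M Z A + Phi M Z B := by
  unfold Phi S
  simp [Matrix.mul_add, Matrix.add_mul, Finset.sum_add_distrib]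

lemma Phi_smul (c : ℝ) (A : Matrix n n ℝ) : Phi M Z (c • A) = c • Phi M Z A := by
  unfold Phi S
  simp [← Finset.smul_sum]

/-- `-c ≤ A ≤ c` in the Loewner order -/
def Bdd (c : ℝ) (A : Matrix n n ℝ) : Prop :=
  (c • (1 : Matrix n n ℝ) - A).PosSemidef ∧ (c • (1 : Matrix n n ℝ) + A).PosSemidef

lemma Bdd_Phi (hM : ∀ r, (M r)ᵀ = M r) (hZ : Z.PosDef) (hZ2 : Z * Z = ∑ r, M r * M r)
    {c : ℝ} {A : Matrix n n ℝ} (hA : Bdd c A) : Bdd c (Phi M Z A) := by
  constructor
  · have := Phi_psd hM hZ hA.1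
    rwa [Phi_sub, Phi_smul, Phi_one hZ hZ2] at this
  · have := Phi_psd hM hZ hA.2
    rwa [Phi_add, Phi_smul, Phi_one hZ hZ2] at this

lemma kf_le_of_Bdd (hZ : Z.PosSemidef) {c : ℝ} {B : Matrix n n ℝ} (hB : Bdd c B) :
    kf Z B B ≤ c ^ 2 * trace (Z * Z) := by
  have hZt : Zᵀ = Z := by
    have := hZ.isHermitian
    rwa [IsHermitian, conjTranspose_eq_transpose_of_trivial] at this
  have h2 : (Z * (c • (1 : Matrix n n ℝ) + B) * Z).PosSemidef := by
    have := hB.2.mul_mul_conjTranspose_same Z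
    rwa [conjTranspose_eq_transpose_of_trivial, hZt] at this
  have h3 := trace_mul_nonneg hB.1 h2
  have h4 : trace ((c • (1 : Matrix n n ℝ) - B) * (Z * (c • (1 : Matrix n n ℝ) + B) * Z)) =
      c ^ 2 * trace (Z * Z) - kf Z B B := by
    unfold kf
    have e1 : (c • (1 : Matrix n n ℝ) - B) * (Z * (c • (1 : Matrix n n ℝ) + B) * Z) =
        (c ^ 2) • (Z * Z) + c • (Z * B * Z) - c • (B * (Z * Z)) - B * Z * B * Z := by
      simp only [Matrix.mul_add, Matrix.add_mul, Matrix.sub_mul, smul_mul_assoc, mul_smul_comm,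
        Matrix.one_mul, Matrix.mul_one, Matrix.mul_assoc]
      module
    rw [e1]
    have e2 : trace (Z * B * Z) = trace (B * (Z * Z)) := by
      rw [Matrix.mul_assoc, trace_mul_comm]
      simp only [Matrix.mul_assoc]
    simp only [trace_sub, trace_add, trace_smul, smul_eq_mul, e2]
    ring
  rw [h4] at h3
  linarith

/-- every symmetric real matrix is `Bdd c` for some `c` -/
lemma exists_Bdd {A : Matrix n n ℝ} (hA : Aᵀ = A) : ∃ c : ℝ, Bdd c A := by
  have key : ∀ x : n → ℝ, |x ⬝ᵥ (A *ᵥ x)| ≤ (∑ i, ∑ j, |A i j|) * (x ⬝ᵥ x) := by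
    intro x
    have h1 : x ⬝ᵥ (A *ᵥ x) = ∑ i, ∑ j, x i * (A i j * x j) := by
      simp [dotProduct, mulVec, Finset.mul_sum]
    rw [h1]
    calc |∑ i, ∑ j, x i * (A i j * x j)| ≤ ∑ i, |∑ j, x i * (A i j * x j)| :=
          Finset.abs_sum_le_sum_abs _ _
      _ ≤ ∑ i, ∑ j, |x i * (A i j * x j)| :=
          Finset.sum_le_sum fun i _ => Finset.abs_sum_le_sum_abs _ _
      _ ≤ ∑ i, ∑ j, |A i j| * (x ⬝ᵥ x) := by
          refine Finset.sum_le_sum fun i _ => Finset.sum_le_sum fun j _ => ?_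
          have hi : x i ^ 2 ≤ x ⬝ᵥ x := by
            have : x i * x i ≤ ∑ k, x k * x k :=
              Finset.single_le_sum (f := fun k => x k * x k) (fun k _ => mul_self_nonneg _)
                (Finset.mem_univ i)
            simpa [dotProduct, sq] using this
          have hj : x j ^ 2 ≤ x ⬝ᵥ x := by
            have : x j * x j ≤ ∑ k, x k * x k :=
              Finset.single_le_sum (f := fun k => x k * x k) (fun k _ => mul_self_nonneg _)
                (Finset.mem_univ j)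
            simpa [dotProduct, sq] using this
          have hxy : |x i * x j| ≤ x ⬝ᵥ x := by
            rw [abs_mul]
            nlinarith [sq_nonneg (|x i| - |x j|), sq_abs (x i), sq_abs (x j)]
          have e : |x i * (A i j * x j)| = |A i j| * |x i * x j| := by
            rw [← abs_mul]; congr 1; ring
          rw [e]
          exact mul_le_mul_of_nonneg_left hxy (abs_nonneg _)
      _ = (∑ i, ∑ j, |A i j|) * (x ⬝ᵥ x) := by
          simp [Finset.sum_mul]
  refine ⟨∑ i, ∑ j, |A i j|, ?_, ?_⟩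
  · refine posSemidef_iff_dotProduct_mulVec.mpr ⟨?_, fun x => ?_⟩
    · rw [IsHermitian, conjTranspose_eq_transpose_of_trivial]
      simp [transpose_sub, transpose_smul, hA]
    · have := key x
      have h2 := (abs_le.mp this).2
      simp only [star_trivial, sub_mulVec, dotProduct_sub, smul_mulVec, one_mulVec,
        dotProduct_smul, smul_eq_mul]
      linarith
  · refine posSemidef_iff_dotProduct_mulVec.mpr ⟨?_, fun x => ?_⟩
    · rw [IsHermitian, conjTranspose_eq_transpose_of_trivial]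
      simp [transpose_add, transpose_smul, hA]
    · have := key x
      have h2 := (abs_le.mp this).1
      simp only [star_trivial, add_mulVec, dotProduct_add, smul_mulVec, one_mulVec,
        dotProduct_smul, smul_eq_mul]
      linarith

/-- iterates of `Φ` -/
noncomputable def it (M : ι → Matrix n n ℝ) (Z A : Matrix n n ℝ) : ℕ → Matrix n n ℝ
  | 0 => A
  | (k + 1) => Phi M Z (it M Z A k)

/-- `Φ` is a contraction for the KMS form. -/
lemma kf_Phi_le (hM : ∀ r, (M r)ᵀ = M r) (hZ : Z.PosDef) (hZ2 : Z * Z = ∑ r, M r * M r)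
    {A : Matrix n n ℝ} (hA : Aᵀ = A) : kf Z (Phi M Z A) (Phi M Z A) ≤ kf Z A A := by
  obtain ⟨c, hc⟩ := exists_Bdd hA
  have hsym : ∀ k, (it M Z A k)ᵀ = it M Z A k := by
    intro k
    induction k with
    | zero => exact hA
    | succ k ih => exact Phi_t hM hZ ih
  have hbdd : ∀ k, Bdd c (it M Z A k) := by
    intro k
    induction k with
    | zero => exact hc
    | succ k ih => exact Bdd_Phi hM hZ hZ2 ih
  have := logconvex_bdd (a := fun k => kf Z (it M Z A k) (it M Z A k))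
    (C := c ^ 2 * trace (Z * Z))
    (fun k => kf_self_nonneg hZ.posSemidef (hsym k))
    (fun k => by
      have e : kf Z (it M Z A (k + 1)) (it M Z A (k + 1)) =
          kf Z (it M Z A k) (it M Z A (k + 2)) := by
        show kf Z (Phi M Z (it M Z A k)) (it M Z A (k + 1)) = _
        rw [kf_Phi_left hZ]
        rfl
      show kf Z (it M Z A (k + 1)) (it M Z A (k + 1)) ^ 2 ≤ _
      rw [e]
      exact kf_cs hZ.posSemidef (hsym k) (hsym (k + 2)))
    (fun k => kf_le_of_Bdd hZ.posSemidef (hbdd k))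
  exact this

/-- **LA2, two sided, positive definite `Z`.** -/
theorem abs_bracket_le (hM : ∀ r, (M r)ᵀ = M r) (hZ : Z.PosDef)
    (hZ2 : Z * Z = ∑ r, M r * M r) {A : Matrix n n ℝ} (hA : Aᵀ = A) :
    |∑ r, trace (A * M r * A * M r)| ≤ trace (A * Z * A * Z) := by
  have e1 : ∑ r, trace (A * M r * A * M r) = kf Z A (Phi M Z A) := by
    rw [kf_Phi hZ]
    unfold S
    rw [Finset.mul_sum, trace_sum]
    refine Finset.sum_congr rfl fun r _ => ?_
    simp only [Matrix.mul_assoc]
  have h0 := kf_self_nonneg hZ.posSemidef hA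
  have hcs := kf_cs hZ.posSemidef hA (Phi_t hM hZ hA)
  have hle := kf_Phi_le hM hZ hZ2 hA
  have h1 : (kf Z A (Phi M Z A)) ^ 2 ≤ (kf Z A A) ^ 2 := by
    calc (kf Z A (Phi M Z A)) ^ 2 ≤ kf Z A A * kf Z (Phi M Z A) (Phi M Z A) := hcs
      _ ≤ kf Z A A * kf Z A A := mul_le_mul_of_nonneg_left hle h0
      _ = (kf Z A A) ^ 2 := by ring
  rw [e1]
  have h2 : |kf Z A (Phi M Z A)| ≤ |kf Z A A| := sq_le_sq.mp h1
  rw [abs_of_nonneg h0] at h2
  exact h2

/-- **LA2, positive definite `Z`.** -/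
theorem bracket_le (hM : ∀ r, (M r)ᵀ = M r) (hZ : Z.PosDef)
    (hZ2 : Z * Z = ∑ r, M r * M r) {A : Matrix n n ℝ} (hA : Aᵀ = A) :
    ∑ r, trace (A * M r * A * M r) ≤ trace (A * Z * A * Z) :=
  (le_abs_self _).trans (abs_bracket_le hM hZ hZ2 hA)

lemma trace_mul4_le {A N : Matrix n n ℝ} (hA : Aᵀ = A) (hN : Nᵀ = N) :
    trace (A * N * A * N) ≤ trace (A * A * (N * N)) := by
  have h : 0 ≤ trace ((A * N - N * A) * (A * N - N * A)ᵀ) := by
    have := (posSemidef_self_mul_conjTranspose (A * N - N * A)).trace_nonneg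
    rwa [conjTranspose_eq_transpose_of_trivial] at this
  have e0 : (A * N - N * A)ᵀ = N * A - A * N := by
    simp [transpose_sub, transpose_mul, hA, hN]
  rw [e0] at h
  have e1 : (A * N - N * A) * (N * A - A * N) =
      A * (N * N) * A - A * N * A * N - N * A * N * A + N * (A * A) * N := by
    simp only [Matrix.mul_sub, Matrix.sub_mul, Matrix.mul_assoc]
    abel
  rw [e1] at h
  have e2 : trace (A * (N * N) * A) = trace (A * A * (N * N)) := by
    rw [trace_mul_comm]; simp only [Matrix.mul_assoc]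
  have e3 : trace (N * A * N * A) = trace (A * N * A * N) := by
    rw [trace_mul_comm]; simp only [Matrix.mul_assoc]
  have e4 : trace (N * (A * A) * N) = trace (A * A * (N * N)) := by
    rw [trace_mul_comm]
    have : N * (N * (A * A)) = (N * N) * (A * A) := by simp only [Matrix.mul_assoc]
    rw [this, trace_mul_comm]
  simp only [trace_add, trace_sub, e2, e3, e4] at h
  linarith

/-- The same for merely positive semidefinite `Z` (add one more symmetric component). -/
theorem abs_bracket_le_psd (hM : ∀ r, (M r)ᵀ = M r) (hZ : Z.PosSemidef)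
    (hZ2 : Z * Z = ∑ r, M r * M r) {A : Matrix n n ℝ} (hA : Aᵀ = A) :
    |∑ r, trace (A * M r * A * M r)| ≤ trace (A * Z * A * Z) := by
  classical
  have hZt : Zᵀ = Z := by
    have := hZ.isHermitian
    rwa [IsHermitian, conjTranspose_eq_transpose_of_trivial] at this
  set T : ℝ := ∑ r, trace (A * M r * A * M r) with hT
  have key : ∀ δ : ℝ, 0 < δ → |T| ≤
      trace (A * Z * A * Z) + δ * (4 * trace (A * A * Z)) + δ ^ 2 * (2 * trace (A * A)) := by
    intro δ hδ
    -- the extra component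
    set Q : Matrix n n ℝ := (2 * δ) • Z + (δ ^ 2) • (1 : Matrix n n ℝ) with hQ
    have hQp : Q.PosSemidef :=
      (hZ.smul (by positivity)).add (PosSemidef.one.smul (by positivity))
    obtain ⟨N, hN1, hN2⟩ : ∃ N : Matrix n n ℝ, N.PosSemidef ∧ N * N = Q :=
      ⟨CFC.sqrt Q, (CFC.sqrt_nonneg Q).posSemidef, CFC.sqrt_mul_sqrt_self Q hQp.nonneg⟩
    have hNt : Nᵀ = N := by
      have := hN1.isHermitian
      rwa [IsHermitian, conjTranspose_eq_transpose_of_trivial] at this
    have hZδ : (Z + δ • (1 : Matrix n n ℝ)).PosDef :=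
      Matrix.PosDef.posSemidef_add hZ (PosDef.one.smul hδ)
    let M' : Option ι → Matrix n n ℝ := fun o => o.elim N M
    have hM' : ∀ o, (M' o)ᵀ = M' o := by
      intro o
      cases o with
      | none => exact hNt
      | some r => exact hM r
    have hsum : (Z + δ • (1 : Matrix n n ℝ)) * (Z + δ • (1 : Matrix n n ℝ)) =
        ∑ o, M' o * M' o := by
      rw [Fintype.sum_option]
      show _ = N * N + ∑ r, M r * M r
      rw [hN2, ← hZ2, hQ]
      simp only [Matrix.mul_add, Matrix.add_mul, smul_mul_assoc, mul_smul_comm,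
        Matrix.one_mul, Matrix.mul_one]
      module
    have h1 := abs_bracket_le hM' hZδ hsum hA
    rw [Fintype.sum_option] at h1
    have h1' : |trace (A * N * A * N) + T| ≤
        trace (A * (Z + δ • (1 : Matrix n n ℝ)) * A * (Z + δ • (1 : Matrix n n ℝ))) := h1
    have hR : trace (A * (Z + δ • (1 : Matrix n n ℝ)) * A * (Z + δ • (1 : Matrix n n ℝ))) =
        trace (A * Z * A * Z) + 2 * δ * trace (A * A * Z) + δ ^ 2 * trace (A * A) := by
      have e1 : A * (Z + δ • (1 : Matrix n n ℝ)) * A * (Z + δ • (1 : Matrix n n ℝ)) =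
          A * Z * A * Z + δ • (A * Z * A) + δ • (A * A * Z) + (δ ^ 2) • (A * A) := by
        simp only [Matrix.mul_add, Matrix.add_mul, smul_mul_assoc, mul_smul_comm,
          Matrix.one_mul, Matrix.mul_one]
        module
      have e2 : trace (A * Z * A) = trace (A * A * Z) := by
        rw [trace_mul_comm]; simp only [Matrix.mul_assoc]
      rw [e1]
      simp only [trace_add, trace_smul, smul_eq_mul, e2]
      ring
    have hN0 : 0 ≤ trace (A * N * A * N) := kf_self_nonneg hN1 hA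
    have hN3 : trace (A * N * A * N) ≤ 2 * δ * trace (A * A * Z) + δ ^ 2 * trace (A * A) := by
      have := trace_mul4_le hA hNt
      rw [hN2, hQ] at this
      have e : trace (A * A * ((2 * δ) • Z + (δ ^ 2) • (1 : Matrix n n ℝ))) =
          2 * δ * trace (A * A * Z) + δ ^ 2 * trace (A * A) := by
        simp [Matrix.mul_add, trace_add, trace_smul]
      rwa [e] at this
    rw [hR] at h1'
    rw [abs_le] at h1' ⊢
    constructor
    · nlinarith [h1'.1, hN0, hN3]
    · nlinarith [h1'.2, hN0, hN3]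
  -- let δ → 0
  have hAA : 0 ≤ trace (A * A) := by
    have := (posSemidef_self_mul_conjTranspose A).trace_nonneg
    rwa [conjTranspose_eq_transpose_of_trivial, hA] at this
  have hAAp : (A * A).PosSemidef := by
    have := posSemidef_self_mul_conjTranspose A
    rwa [conjTranspose_eq_transpose_of_trivial, hA] at this
  have hAAZ : 0 ≤ trace (A * A * Z) := trace_mul_nonneg hAAp hZ
  refine le_of_forall_pos_le_add fun ε hε => ?_
  set K : ℝ := 4 * trace (A * A * Z) + 2 * trace (A * A) + 1 with hK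
  have hK0 : 0 < K := by positivity
  set δ : ℝ := min 1 (ε / K) with hδ
  have hδ0 : 0 < δ := lt_min one_pos (div_pos hε hK0)
  have hδ1 : δ ≤ 1 := min_le_left _ _
  have hδ2 : δ * K ≤ ε := by
    have : δ ≤ ε / K := min_le_right _ _
    calc δ * K ≤ ε / K * K := mul_le_mul_of_nonneg_right this hK0.le
      _ = ε := by field_simp
  have h := key δ hδ0
  have h2 : δ ^ 2 ≤ δ := by nlinarith
  nlinarith [mul_nonneg hδ0.le hAA, mul_nonneg hδ0.le hAAZ]

theorem bracket_le_psd (hM : ∀ r, (M r)ᵀ = M r) (hZ : Z.PosSemidef)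
    (hZ2 : Z * Z = ∑ r, M r * M r) {A : Matrix n n ℝ} (hA : Aᵀ = A) :
    ∑ r, trace (A * M r * A * M r) ≤ trace (A * Z * A * Z) :=
  (le_abs_self _).trans (abs_bracket_le_psd hM hZ hZ2 hA)

/-- **Slot form.** `T a b r` symmetric in its first two slots, `(Z²)_{a a'} = ∑ T a b r T a' b r`.
Then `⟪A^{(a)} T, A^{(b)} T⟫ ≤ Tr (A Z A Z)` (and the same for the absolute value). -/
theorem abs_slot_bracket_le (T : n → n → ι → ℝ) (hT : ∀ a b r, T a b r = T b a r)
    (hZ : Z.PosSemidef) (hZ2 : ∀ a a', (Z * Z) a a' = ∑ b, ∑ r, T a b r * T a' b r)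
    {A : Matrix n n ℝ} (hA : Aᵀ = A) :
    |∑ a, ∑ b, ∑ r, (∑ a', A a a' * T a' b r) * (∑ b', A b b' * T a b' r)| ≤
      trace (A * Z * A * Z) := by
  let M : ι → Matrix n n ℝ := fun r => Matrix.of fun a b => T a b r
  have hM : ∀ r, (M r)ᵀ = M r := by
    intro r; ext a b; simp [M, hT a b r]
  have hZ2' : Z * Z = ∑ r, M r * M r := by
    ext a a'
    rw [hZ2 a a', Matrix.sum_apply]
    simp only [Matrix.mul_apply, M, Matrix.of_apply]
    rw [Finset.sum_comm]
    refine Finset.sum_congr rfl fun r _ => Finset.sum_congr rfl fun b _ => ?_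
    rw [hT a' b r]
  have key := abs_bracket_le_psd hM hZ hZ2' hA
  have e : ∑ r, trace (A * M r * A * M r) =
      ∑ a, ∑ b, ∑ r, (∑ a', A a a' * T a' b r) * (∑ b', A b b' * T a b' r) := by
    have e1 : ∀ r, trace (A * M r * A * M r) =
        ∑ a, ∑ b, (∑ a', A a a' * T a' b r) * (∑ b', A b b' * T a b' r) := by
      intro r
      have : A * M r * A * M r = (A * M r) * (A * M r) := by simp only [Matrix.mul_assoc]
      rw [this]
      simp only [trace, diag_apply, Matrix.mul_apply, M, Matrix.of_apply]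
      refine Finset.sum_congr rfl fun a _ => Finset.sum_congr rfl fun b _ => ?_
      congr 1
      refine Finset.sum_congr rfl fun b' _ => ?_
      rw [hT b' a r]
    simp_rw [e1]
    rw [Finset.sum_comm]
    refine Finset.sum_congr rfl fun a _ => ?_
    rw [Finset.sum_comm]
  rw [← e]
  exact key

theorem slot_bracket_le (T : n → n → ι → ℝ) (hT : ∀ a b r, T a b r = T b a r)
    (hZ : Z.PosSemidef) (hZ2 : ∀ a a', (Z * Z) a a' = ∑ b, ∑ r, T a b r * T a' b r)
    {A : Matrix n n ℝ} (hA : Aᵀ = A) :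
    ∑ a, ∑ b, ∑ r, (∑ a', A a a' * T a' b r) * (∑ b', A b b' * T a b' r) ≤
      trace (A * Z * A * Z) :=
  (le_abs_self _).trans (abs_slot_bracket_le T hT hZ hZ2 hA)

end Crest.Agent.R201.LA2446
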