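import Crest.Agent.R201.Defs2_74
import Crest.Agent.R201.LA2_446

/-!
# R201: algebra of three-slot tensors, leaf MX6 (`nb_point`, `hs_Y_le`), Lyapunov equation (helper152)
-/

set_option autoImplicit false
set_option linter.unusedSectionVars false
open Matrix

namespace Crest.Agent.R201.NB152

open Crest.Agent.R201

variable {n : ℕ}

/-! ## quadratic forms and traces -/

section Forms

variable {m m' : Type*} [Fintype m] [Fintype m']

theorem hs_eq_trace (A : Matrix m m' ℝ) : hs A = (A * Aᵀ).trace := by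
  simp only [hs, Matrix.trace, Matrix.diag_apply, Matrix.mul_apply, Matrix.transpose_apply, pow_two]

theorem hs_eq_trace' (A : Matrix m m' ℝ) : hs A = (Aᵀ * A).trace := by
  rw [hs_eq_trace, Matrix.trace_mul_comm]

theorem hs_nonneg (A : Matrix m m' ℝ) : 0 ≤ hs A :=
  Finset.sum_nonneg fun _ _ => Finset.sum_nonneg fun _ _ => sq_nonneg _

theorem hs_transpose (A : Matrix m m' ℝ) : hs Aᵀ = hs A := by
  rw [hs_eq_trace, hs_eq_trace', Matrix.transpose_transpose]

theorem hs_neg (A : Matrix m m' ℝ) : hs (-A) = hs A := by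
  simp [hs]

theorem hs_smul (t : ℝ) (A : Matrix m m' ℝ) : hs (t • A) = t ^ 2 * hs A := by
  simp only [hs, Matrix.smul_apply, smul_eq_mul, mul_pow, Finset.mul_sum]

theorem hs_add_le (A B : Matrix m m' ℝ) : hs (A + B) ≤ 2 * hs A + 2 * hs B := by
  simp only [hs, Finset.mul_sum]
  rw [← Finset.sum_add_distrib]
  refine Finset.sum_le_sum fun i _ => ?_
  rw [← Finset.sum_add_distrib]
  refine Finset.sum_le_sum fun j _ => ?_
  rw [Matrix.add_apply]
  nlinarith [sq_nonneg (A i j - B i j)]

theorem hs_sub_le (A B : Matrix m m' ℝ) : hs (A - B) ≤ 2 * hs A + 2 * hs B := by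
  rw [sub_eq_add_neg, ← hs_neg B]
  exact hs_add_le A (-B)

/-- trace of `V Vᵀ X` for a form-nonnegative `X` -/
theorem trace_sq_nonneg {X : Matrix m m ℝ} (hX : LeQ 0 X) (V : Matrix m m' ℝ) :
    0 ≤ (Vᵀ * X * V).trace := by
  refine Finset.sum_nonneg fun j _ => ?_
  have h := hX (fun i => V i j)
  simp only [Matrix.zero_mulVec, dotProduct_zero] at h
  have e : (Vᵀ * X * V).diag j = (fun i => V i j) ⬝ᵥ (X *ᵥ fun i => V i j) := by
    rw [Matrix.diag_apply, Matrix.mul_assoc, Matrix.mul_apply]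
    simp only [dotProduct, Matrix.transpose_apply, Matrix.mulVec, Matrix.mul_apply]
  rw [e]
  exact h

theorem leq_sub {X Y : Matrix m m ℝ} : LeQ X Y ↔ LeQ 0 (Y - X) := by
  unfold LeQ
  refine forall_congr' fun u => ?_
  simp only [Matrix.zero_mulVec, dotProduct_zero, Matrix.sub_mulVec, dotProduct_sub]
  constructor <;> intro h <;> linarith

/-- `Tr (V Vᵀ X)` is monotone in the form order -/
theorem trace_sq_mono {X Y : Matrix m m ℝ} (h : LeQ X Y) (V : Matrix m m' ℝ) :
    (Vᵀ * X * V).trace ≤ (Vᵀ * Y * V).trace := by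
  have h1 := trace_sq_nonneg (leq_sub.1 h) V
  rw [Matrix.mul_sub, Matrix.sub_mul, Matrix.trace_sub] at h1
  linarith

end Forms

/-! ## the bilinear form `ip` -/

section Ip

variable {R : Type*} [Fintype R]

theorem ip_comm (M N : T3 n R) : ip M N = ip N M := by
  simp only [ip, mul_comm]

theorem ip_add_left (M M' N : T3 n R) : ip (M + M') N = ip M N + ip M' N := by
  simp only [ip, Pi.add_apply, add_mul, Finset.sum_add_distrib]

theorem ip_sub_left (M M' N : T3 n R) : ip (M - M') N = ip M N - ip M' N := by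
  simp only [ip, Pi.sub_apply, sub_mul, Finset.sum_sub_distrib]

theorem ip_smul_left (t : ℝ) (M N : T3 n R) : ip (t • M) N = t * ip M N := by
  simp only [ip, Pi.smul_apply, smul_eq_mul, mul_assoc, Finset.mul_sum]

theorem ip_add_right (M N N' : T3 n R) : ip M (N + N') = ip M N + ip M N' := by
  rw [ip_comm, ip_add_left, ip_comm N, ip_comm N']

theorem ip_sub_right (M N N' : T3 n R) : ip M (N - N') = ip M N - ip M N' := by
  rw [ip_comm, ip_sub_left, ip_comm N, ip_comm N']

theorem ip_smul_right (t : ℝ) (M N : T3 n R) : ip M (t • N) = t * ip M N := by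
  rw [ip_comm, ip_smul_left, ip_comm N]

theorem ip_self_nonneg (M : T3 n R) : 0 ≤ ip M M :=
  Finset.sum_nonneg fun _ _ => Finset.sum_nonneg fun _ _ => Finset.sum_nonneg fun _ _ =>
    Finset.sum_nonneg fun _ _ => mul_self_nonneg _

theorem two_smul_T3 (M : T3 n R) : (2 : ℕ) • M = (2 : ℝ) • M := by
  rw [two_nsmul, two_smul]

/-- weighted Cauchy–Schwarz -/
theorem two_ip_le {s : ℝ} (hs : 0 < s) (M N : T3 n R) :
    2 * ip M N ≤ s * ip M M + s⁻¹ * ip N N := by
  have h := ip_self_nonneg (s • M - N)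
  simp only [ip_sub_left, ip_sub_right, ip_smul_left, ip_smul_right] at h
  rw [ip_comm N M] at h
  have e : s * (s * ip M M - ip M N) - (s * ip M N - ip N N) =
      s * (s * ip M M + s⁻¹ * ip N N - 2 * ip M N) := by
    field_simp; ring
  rw [e] at h
  have := (mul_nonneg_iff_of_pos_left hs).1 h
  linarith

theorem ip_add_le (M N : T3 n R) : ip (M + N) (M + N) ≤ 2 * ip M M + 2 * ip N N := by
  have h := ip_self_nonneg (M - N)
  simp only [ip_sub_left, ip_sub_right] at h
  simp only [ip_add_left, ip_add_right]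
  rw [ip_comm N M] at h ⊢
  linarith

theorem ip_sub_le (M N : T3 n R) : ip (M - N) (M - N) ≤ 2 * ip M M + 2 * ip N N := by
  have h := ip_self_nonneg (M + N)
  simp only [ip_add_left, ip_add_right] at h
  simp only [ip_sub_left, ip_sub_right]
  rw [ip_comm N M] at h ⊢
  linarith

theorem ip_eq_trace (M N : T3 n R) : ip M N = (gram M N).trace := rfl

theorem gram_act1_left (A : Mt n) (M N : T3 n R) : gram (act1 A M) N = A * gram M N := by
  ext a a'
  simp only [gram, act1, Matrix.mul_apply, Matrix.of_apply, Finset.mul_sum, Finset.sum_mul,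
    mul_assoc]
  have e : ∀ b, ∑ c, ∑ r, ∑ x, A a x * (M x b c r * N a' b c r) =
      ∑ x, ∑ c, ∑ r, A a x * (M x b c r * N a' b c r) := by
    intro b
    rw [Finset.sum_comm]
    rw [Finset.sum_congr rfl fun r _ => Finset.sum_comm]
    rw [Finset.sum_comm]
    refine Finset.sum_congr rfl fun x _ => ?_
    rw [Finset.sum_comm]
  rw [Finset.sum_congr rfl fun b _ => e b, Finset.sum_comm]

theorem gram_transpose (M N : T3 n R) : (gram M N)ᵀ = gram N M := by
  ext a a'
  simp only [gram, Matrix.transpose_apply, Matrix.of_apply, mul_comm]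

theorem gram_act1_right (A : Mt n) (M N : T3 n R) : gram M (act1 A N) = gram M N * Aᵀ := by
  rw [← gram_transpose, gram_act1_left, Matrix.transpose_mul, gram_transpose]

/-- swap of the first two slots -/
def sw12 {R : Type*} (M : T3 n R) : T3 n R := fun a b c r => M b a c r
/-- swap of the slots 1 and 3 -/
def sw13 {R : Type*} (M : T3 n R) : T3 n R := fun a b c r => M c b a r

theorem ip_sw12 (M N : T3 n R) : ip (sw12 M) (sw12 N) = ip M N := by
  simp only [ip, sw12]
  rw [Finset.sum_comm]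

theorem ip_sw13 (M N : T3 n R) : ip (sw13 M) (sw13 N) = ip M N := by
  simp only [ip, sw13]
  rw [Finset.sum_congr rfl fun a _ => Finset.sum_comm, Finset.sum_comm]
  refine Finset.sum_congr rfl fun c _ => ?_
  rw [Finset.sum_comm]

theorem sw12_act1 (A : Mt n) (M : T3 n R) : sw12 (act1 A M) = act2 A (sw12 M) := rfl
theorem sw13_act1 (A : Mt n) (M : T3 n R) : sw13 (act1 A M) = act3 A (sw13 M) := rfl

theorem sw12_of_sym {M : T3 n R} (h : Sym3 M) : sw12 M = M := by
  funext a b c r
  exact (h.1 a b c r).symm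

theorem sw13_of_sym {M : T3 n R} (h : Sym3 M) : sw13 M = M := by
  funext a b c r
  change M c b a r = M a b c r
  rw [h.1 c b a r, h.2 b c a r, h.1 b a c r]

theorem act12_comm (A B : Mt n) (M : T3 n R) : act1 A (act2 B M) = act2 B (act1 A M) := by
  funext a b c r
  simp only [act1, act2, Finset.mul_sum]
  rw [Finset.sum_comm]
  refine Finset.sum_congr rfl fun b' _ => Finset.sum_congr rfl fun a' _ => ?_
  ring

theorem act1_mul (A B : Mt n) (M : T3 n R) : act1 A (act1 B M) = act1 (A * B) M := by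
  funext a b c r
  simp only [act1, Finset.mul_sum, Matrix.mul_apply, Finset.sum_mul]
  rw [Finset.sum_comm]
  refine Finset.sum_congr rfl fun b' _ => Finset.sum_congr rfl fun a' _ => ?_
  ring

theorem act1_sub_left (A B : Mt n) (M : T3 n R) : act1 (A - B) M = act1 A M - act1 B M := by
  funext a b c r
  simp only [act1, Matrix.sub_apply, sub_mul, Finset.sum_sub_distrib, Pi.sub_apply]

theorem act1_sub (A : Mt n) (M N : T3 n R) : act1 A (M - N) = act1 A M - act1 A N := by
  funext a b c r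
  simp only [act1, mul_sub, Finset.sum_sub_distrib, Pi.sub_apply]

theorem act1_smul (A : Mt n) (t : ℝ) (M : T3 n R) : act1 A (t • M) = t • act1 A M := by
  funext a b c r
  simp only [act1, Pi.smul_apply, smul_eq_mul, Finset.mul_sum]
  exact Finset.sum_congr rfl fun _ _ => by ring

theorem ip_act1_left (A : Mt n) (M N : T3 n R) : ip (act1 A M) N = ip M (act1 Aᵀ N) := by
  rw [ip_eq_trace, ip_eq_trace, gram_act1_left, gram_act1_right, Matrix.transpose_transpose,
    Matrix.trace_mul_comm]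

theorem act2_eq (A : Mt n) (M : T3 n R) : act2 A M = sw12 (act1 A (sw12 M)) := rfl

theorem ip_act2_left (A : Mt n) (M N : T3 n R) : ip (act2 A M) N = ip M (act2 Aᵀ N) := by
  have h1 : N = sw12 (sw12 N) := rfl
  have h2 : M = sw12 (sw12 M) := rfl
  rw [act2_eq, h1, ip_sw12, ip_act1_left]
  conv_rhs => rw [h2, act2_eq, ip_sw12]
  rfl

/-- `|A^{(1)} M|² = Tr (A Z² Aᵀ)` -/
theorem ip_act1_self (A : Mt n) (M : T3 n R) :
    ip (act1 A M) (act1 A M) = (A * gram M M * Aᵀ).trace := by
  rw [ip_eq_trace, gram_act1_left, gram_act1_right, Matrix.mul_assoc]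

theorem ip_act2_self {M : T3 n R} (h : Sym3 M) (A : Mt n) :
    ip (act2 A M) (act2 A M) = ip (act1 A M) (act1 A M) := by
  rw [← ip_sw12 (act1 A M), sw12_act1, sw12_of_sym h]

theorem ip_act3_self {M : T3 n R} (h : Sym3 M) (A : Mt n) :
    ip (act3 A M) (act3 A M) = ip (act1 A M) (act1 A M) := by
  rw [← ip_sw13 (act1 A M), sw13_act1, sw13_of_sym h]

theorem ip_act2_sym {M N : T3 n R} (hM : Sym3 M) (hN : Sym3 N) (A : Mt n) :
    ip N (act2 A M) = ip N (act1 A M) := by
  rw [← ip_sw12 N (act1 A M), sw12_act1, sw12_of_sym hM, sw12_of_sym hN]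

theorem ip_act3_sym {M N : T3 n R} (hM : Sym3 M) (hN : Sym3 N) (A : Mt n) :
    ip N (act3 A M) = ip N (act1 A M) := by
  rw [← ip_sw13 N (act1 A M), sw13_act1, sw13_of_sym hM, sw13_of_sym hN]

theorem sw12_sw13_23 (M : T3 n R) :
    sw12 (sw13 (sw12 M)) = fun a b c r => M a c b r := rfl

/-- all cross products `⟨A^{(s)} M, A^{(t)} M⟩`, `s ≠ t`, are equal -/
theorem ip_13_eq_12 {M : T3 n R} (h : Sym3 M) (A : Mt n) :
    ip (act1 A M) (act3 A M) = ip (act1 A M) (act2 A M) := by
  have e1 : sw12 (sw13 (sw12 (act1 A M))) = act1 A M := by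
    funext a b c r
    simp only [sw12, sw13, act1]
    exact Finset.sum_congr rfl fun x _ => by rw [h.2 x c b r]
  have e2 : sw12 (sw13 (sw12 (act3 A M))) = act2 A M := by
    funext a b c r
    simp only [sw12, sw13, act3, act2]
    exact Finset.sum_congr rfl fun x _ => by rw [h.2 a c x r]
  calc ip (act1 A M) (act3 A M)
      = ip (sw12 (sw13 (sw12 (act1 A M)))) (sw12 (sw13 (sw12 (act3 A M)))) := by
        rw [ip_sw12, ip_sw13, ip_sw12]
    _ = _ := by rw [e1, e2]

theorem ip_23_eq_12 {M : T3 n R} (h : Sym3 M) (A : Mt n) :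
    ip (act2 A M) (act3 A M) = ip (act1 A M) (act2 A M) := by
  have e1 : sw12 (act2 A M) = act1 A M := by
    funext a b c r
    simp only [sw12, act2, act1]
    exact Finset.sum_congr rfl fun x _ => by rw [h.1 b x c r]
  have e2 : sw12 (act3 A M) = act3 A M := by
    funext a b c r
    simp only [sw12, act3]
    exact Finset.sum_congr rfl fun x _ => by rw [h.1 b a x r]
  calc ip (act2 A M) (act3 A M) = ip (sw12 (act2 A M)) (sw12 (act3 A M)) := (ip_sw12 _ _).symm
    _ = ip (act1 A M) (act3 A M) := by rw [e1, e2]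
    _ = _ := ip_13_eq_12 h A

end Ip

/-! ## the Lyapunov equation -/

theorem lyap_inj {Z A : Mt n} (hZ : Z.PosDef) (h : A * Z + Z * A = 0) : A = 0 := by
  have h1 : (Aᵀ * (A * Z + Z * A)).trace = 0 := by rw [h]; simp
  have hZq : LeQ 0 Z := by
    intro u
    have := hZ.posSemidef.dotProduct_mulVec_nonneg u
    simpa using this
  have hZs : Zᵀ = Z := by
    have := hZ.1
    rwa [Matrix.IsHermitian, Matrix.conjTranspose_eq_transpose_of_trivial] at this
  have h2 : (Aᵀ * (A * Z + Z * A)).trace = (A * Z * Aᵀ).trace + (Aᵀ * Z * A).trace := by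
    rw [Matrix.mul_add, Matrix.trace_add, ← Matrix.mul_assoc, ← Matrix.mul_assoc]
    congr 1
    rw [Matrix.mul_assoc, Matrix.trace_mul_comm]
  have h3 : 0 ≤ (A * Z * Aᵀ).trace := by
    have := trace_sq_nonneg hZq Aᵀ
    rwa [Matrix.transpose_transpose] at this
  have h4 : 0 ≤ (Aᵀ * Z * A).trace := trace_sq_nonneg hZq A
  have h5 : (Aᵀ * Z * A).trace = 0 := by linarith
  -- each diagonal entry vanishes
  have h6 : ∀ j, (Aᵀ * Z * A).diag j = (fun i => A i j) ⬝ᵥ (Z *ᵥ fun i => A i j) := by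
    intro j
    rw [Matrix.diag_apply, Matrix.mul_assoc, Matrix.mul_apply]
    simp only [dotProduct, Matrix.transpose_apply, Matrix.mulVec, Matrix.mul_apply]
  have h7 : ∀ j, (fun i => A i j) ⬝ᵥ (Z *ᵥ fun i => A i j) = 0 := by
    have h8 : ∑ j, (fun i => A i j) ⬝ᵥ (Z *ᵥ fun i => A i j) = 0 := by
      rw [← h5, Matrix.trace]
      exact Finset.sum_congr rfl fun j _ => (h6 j).symm
    intro j
    have h9 : ∀ j ∈ Finset.univ, 0 ≤ (fun i => A i j) ⬝ᵥ (Z *ᵥ fun i => A i j) := by
      intro j _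
      have := hZq (fun i => A i j)
      simpa using this
    exact (Finset.sum_eq_zero_iff_of_nonneg h9).1 h8 j (Finset.mem_univ j)
  ext i j
  by_contra hne
  have hv : (fun i => A i j) ≠ 0 := fun h0 => hne (congrFun h0 i)
  have := hZ.dotProduct_mulVec_pos hv
  simp only [star_trivial] at this
  rw [h7 j] at this
  exact lt_irrefl _ this

theorem lyap {Z Y : Mt n} (hZ : Z.PosDef) (hY : Yᵀ = Y) :
    ∃ A : Mt n, Aᵀ = A ∧ A * Z + Z * A = Y := by
  let L : Mt n →ₗ[ℝ] Mt n :=
    { toFun := fun A => A * Z + Z * A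
      map_add' := fun A B => by rw [Matrix.add_mul, Matrix.mul_add]; abel
      map_smul' := fun t A => by
        rw [RingHom.id_apply, smul_add, Matrix.smul_mul, Matrix.mul_smul] }
  have hinj : Function.Injective L := by
    rw [injective_iff_map_eq_zero]
    exact fun A h => lyap_inj hZ h
  obtain ⟨A, hA⟩ := (LinearMap.injective_iff_surjective.1 hinj) Y
  have hA' : A * Z + Z * A = Y := hA
  have hZs : Zᵀ = Z := by
    have := hZ.1
    rwa [Matrix.IsHermitian, Matrix.conjTranspose_eq_transpose_of_trivial] at this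
  have hT : L Aᵀ = L A := by
    change Aᵀ * Z + Z * Aᵀ = A * Z + Z * A
    have h2 := congrArg Matrix.transpose hA'
    rw [Matrix.transpose_add, Matrix.transpose_mul, Matrix.transpose_mul, hZs, hY] at h2
    rw [add_comm, h2, hA']
  exact ⟨A, hinj hT, hA'⟩

/-! ## MX6 -/

theorem nb_point {R : Type} [Fintype R] {M N : T3 n R} (hM : Sym3 M) (hN : Sym3 N) {Z Y A : Mt n}
    (hZ : Z.PosDef) (hZM : Z * Z = gram M M) (_hY : Yᵀ = Y)
    (hYN : Y * Z + Z * Y = gram N M + gram M N) (hA : Aᵀ = A) (hAY : A * Z + Z * A = Y) :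
    ip (N - 2 • act1 A M) (N - 2 • act1 A M) + ip (act1 A M - act2 A M) (act1 A M - act2 A M)
      + hs (A * Z - Z * A) ≤ 20 * (ip N N - hs Y) := by
  have hZs : Zᵀ = Z := by
    have := hZ.1
    rwa [Matrix.IsHermitian, Matrix.conjTranspose_eq_transpose_of_trivial] at this
  set a11 := ip (act1 A M) (act1 A M) with ha11
  set a12 := ip (act1 A M) (act2 A M) with ha12
  set u := ip N (act1 A M) with hu
  set tZ := (A * Z * A * Z).trace with htZ
  -- `a11 = Tr A² Z²`
  have e11 : a11 = (A * (Z * (Z * A))).trace := by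
    rw [ha11, ip_act1_self, ← hZM, hA]
    simp only [Matrix.mul_assoc]
  have e11' : (Z * (A * (A * Z))).trace = a11 := by
    rw [e11, Matrix.trace_mul_comm, Matrix.mul_assoc, Matrix.mul_assoc]
    rw [← Matrix.mul_assoc A Z, Matrix.trace_mul_comm]
    simp only [Matrix.mul_assoc]
  have eAZ : (A * (Z * (A * Z))).trace = tZ := by
    rw [htZ]; simp only [Matrix.mul_assoc]
  have eZA : (Z * (A * (Z * A))).trace = tZ := by
    rw [htZ, Matrix.mul_assoc, Matrix.mul_assoc, Matrix.trace_mul_comm]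
    simp only [Matrix.mul_assoc]
  have hYt : Yᵀ = A * Z + Z * A := by
    rw [_hY, hAY]
  have F2 : hs Y = 2 * a11 + 2 * tZ := by
    rw [hs_eq_trace, hYt, ← hAY]
    simp only [Matrix.add_mul, Matrix.mul_add, Matrix.trace_add, Matrix.mul_assoc]
    rw [e11', eZA, eAZ, ← e11]
    ring
  have F4 : hs (A * Z - Z * A) = 2 * a11 - 2 * tZ := by
    rw [hs_eq_trace, Matrix.transpose_sub, Matrix.transpose_mul, Matrix.transpose_mul, hA, hZs]
    simp only [Matrix.sub_mul, Matrix.mul_sub, Matrix.trace_sub, Matrix.mul_assoc]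
    rw [e11', eZA, eAZ, ← e11]
    ring
  have F1 : 2 * u = hs Y := by
    have h1 : (A * (Y * Z + Z * Y)).trace = 2 * u := by
      rw [hYN, Matrix.mul_add, Matrix.trace_add, Matrix.trace_mul_comm A (gram N M),
        ← gram_act1_left, ← ip_eq_trace]
      have : gram N M * A = gram N (act1 A M) := by rw [gram_act1_right, hA]
      rw [this, ← ip_eq_trace, ip_comm (act1 A M) N]
      ring
    rw [← h1, F2, ← hAY]
    simp only [Matrix.add_mul, Matrix.mul_add, Matrix.trace_add, Matrix.mul_assoc]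
    have t1 : (A * (A * (Z * Z))).trace = a11 := by
      rw [e11, Matrix.trace_mul_comm]
      simp only [Matrix.mul_assoc]
    rw [t1, eAZ, ← e11]
    ring
  have F3 : a12 ≤ tZ := by
    let T : Fin n → Fin n → (Fin n × R) → ℝ := fun a b i => M a b i.1 i.2
    have hT : ∀ a b i, T a b i = T b a i := fun a b i => hM.1 a b i.1 i.2
    have hZ2 : ∀ a a', (Z * Z) a a' = ∑ b, ∑ i, T a b i * T a' b i := by
      intro a a'
      rw [hZM]
      simp only [gram, Matrix.of_apply, T, Fintype.sum_prod_type]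
    have key := LA2446.slot_bracket_le T hT hZ.posSemidef hZ2 hA
    have e : a12 = ∑ a, ∑ b, ∑ i, (∑ a', A a a' * T a' b i) * (∑ b', A b b' * T a b' i) := by
      simp only [ha12, ip, act1, act2, T, Fintype.sum_prod_type]
    rw [e]
    exact key
  have F5 : ip (act1 A M - act2 A M) (act1 A M - act2 A M) = 2 * a11 - 2 * a12 := by
    simp only [ip_sub_left, ip_sub_right]
    rw [ip_comm (act2 A M) (act1 A M), ip_act2_self hM, ← ha11, ← ha12]
    ring
  have F5' : 0 ≤ 2 * a11 - 2 * a12 := by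
    rw [← F5]; exact ip_self_nonneg _
  have F6 : 0 ≤ ip N N - 4 * u + 4 / 3 * a11 + 8 / 3 * a12 := by
    have h := ip_self_nonneg (N - (2 / 3 : ℝ) • (act1 A M + act2 A M + act3 A M))
    simp only [ip_sub_left, ip_sub_right, ip_smul_left, ip_smul_right, ip_add_left,
      ip_add_right] at h
    rw [ip_comm (act1 A M) N, ip_comm (act2 A M) N, ip_comm (act3 A M) N,
      ip_comm (act2 A M) (act1 A M), ip_comm (act3 A M) (act1 A M),
      ip_comm (act3 A M) (act2 A M), ip_act2_sym hM hN, ip_act3_sym hM hN,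
      ip_act2_self hM, ip_act3_self hM, ip_13_eq_12 hM, ip_23_eq_12 hM, ← ha11, ← ha12,
      ← hu] at h
    linarith
  have F7 : ip (N - 2 • act1 A M) (N - 2 • act1 A M) = ip N N - 4 * u + 4 * a11 := by
    rw [two_smul_T3]
    simp only [ip_sub_left, ip_sub_right, ip_smul_left, ip_smul_right]
    rw [ip_comm (act1 A M) N, ← ha11, ← hu]
    ring
  rw [F7, F5, F4]
  linarith

theorem hs_Y_le {R : Type} [Fintype R] {M N : T3 n R} (hM : Sym3 M) (hN : Sym3 N) {Z Y : Mt n}
    (hZ : Z.PosDef) (hZM : Z * Z = gram M M) (hY : Yᵀ = Y)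
    (hYN : Y * Z + Z * Y = gram N M + gram M N) : hs Y ≤ ip N N := by
  obtain ⟨A, hA, hAY⟩ := lyap hZ hY
  have h := nb_point hM hN hZ hZM hY hYN hA hAY
  have h1 := ip_self_nonneg (N - 2 • act1 A M)
  have h2 := ip_self_nonneg (act1 A M - act2 A M)
  have h3 := hs_nonneg (A * Z - Z * A)
  linarith

end Crest.Agent.R201.NB152
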