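import Crest.Agent.R201.FD1_807
import Crest.Agent.R201.NB_152

/-!
# R201, KLS half (helper947): FD4 (integrated no-broadcasting, total defect)
-/

set_option autoImplicit false
open MeasureTheory Matrix

namespace Crest.Agent.R201.N947

variable {n : ℕ} {K : KD n}

/-- products of `CB` functions are integrable (also squares) -/
theorem int_sq_cb {f : E n → ℝ} (hf : CB f) : Integrable (fun x => f x ^ 2) K.μ := by
  simp only [sq]; exact Tw807.int_mul_cb hf hf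

theorem int_sq_pd {f : E n → ℝ} (hf : CB f) (k : Fin n) :
    Integrable (fun x => pd k f x ^ 2) K.μ := by
  simp only [sq]
  exact (Tw807.memLp_pd K hf k 2).integrable_mul (Tw807.memLp_pd K hf k 2)

/-- `∫ |M|² = nsq` -/
theorem int_ip {R : Type*} [Fintype R] {M : E n → T3 n R} (hM : ∀ i, CB (fam3 M i)) :
    ∫ x, ip (M x) (M x) ∂K.μ = nsq K.μ (fam3 M) := by
  unfold nsq
  rw [← integral_finsetSum _ fun i _ => int_sq_cb (hM i)]
  refine integral_congr_ae (Filter.Eventually.of_forall fun x => ?_)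
  simp only [ip, fam3, Fintype.sum_prod_type, sq]

theorem int_ip_pd {R : Type*} [Fintype R] {M : E n → T3 n R} (hM : ∀ i, CB (fam3 M i))
    (k : Fin n) :
    Integrable (fun x => ip (pdT k M x) (pdT k M x)) K.μ ∧
    ∫ x, ip (pdT k M x) (pdT k M x) ∂K.μ = ∑ i, ∫ x, pd k (fam3 M i) x ^ 2 ∂K.μ := by
  have e : ∀ x, ip (pdT k M x) (pdT k M x) = ∑ i, pd k (fam3 M i) x ^ 2 := by
    intro x
    simp only [ip, pdT, Fintype.sum_prod_type, sq]
    rfl
  simp only [e]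
  exact ⟨integrable_finsetSum _ fun i _ => int_sq_pd (hM i) k,
    integral_finsetSum _ fun i _ => int_sq_pd (hM i) k⟩

theorem int_hs_pd {Z : E n → Mt n} (hZ : ∀ i, CB (famM Z i)) (k : Fin n) :
    Integrable (fun x => hs (pdM k Z x)) K.μ ∧
    ∫ x, hs (pdM k Z x) ∂K.μ = ∑ i, ∫ x, pd k (famM Z i) x ^ 2 ∂K.μ := by
  have e : ∀ x, hs (pdM k Z x) = ∑ i, pd k (famM Z i) x ^ 2 := by
    intro x
    simp only [hs, pdM, Fintype.sum_prod_type, sq]
    rfl
  simp only [e]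
  exact ⟨integrable_finsetSum _ fun i _ => int_sq_pd (hZ i) k,
    integral_finsetSum _ fun i _ => int_sq_pd (hZ i) k⟩

theorem int_hs {Z : E n → Mt n} (hZ : ∀ i, CB (famM Z i)) :
    Integrable (fun x => hs (Z x)) K.μ ∧ ∫ x, hs (Z x) ∂K.μ = nsq K.μ (famM Z) := by
  have e : ∀ x, hs (Z x) = ∑ i, famM Z i x ^ 2 := by
    intro x
    simp only [hs, famM, Fintype.sum_prod_type, sq]
  simp only [e]
  exact ⟨integrable_finsetSum _ fun i _ => int_sq_cb (hZ i),
    integral_finsetSum _ fun i _ => int_sq_cb (hZ i)⟩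

/-- the norm of `Z` is the norm of `M` -/
theorem hs_Z {R : Type*} [Fintype R] {M : T3 n R} {Z : Mt n} (hZ : Zᵀ = Z)
    (h : Z * Z = gram M M) : hs Z = ip M M := by
  have : hs Z = (Z * Z).trace := by
    rw [NB152.hs_eq_trace, hZ]
  rw [this, h]; rfl

theorem transpose_of_posDef {Z : Mt n} (h : Z.PosDef) : Zᵀ = Z := by
  have := h.isHermitian
  rwa [IsHermitian, conjTranspose_eq_transpose_of_trivial] at this

/-- the exact defect identity -/
theorem defect_eq {R : Type} [Fintype R] {a : ℝ} {M : E n → T3 n R} {Z : E n → Mt n}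
    (hp : Pack K R a M Z) (hZ : ∀ i, CB (famM Z i)) :
    (∫ x, (∑ k, (ip (pdT k M x) (pdT k M x) - hs (pdM k Z x))) ∂K.μ) + K.q (famM Z) =
      K.q (fam3 M) + K.kp * (tsq K.μ K.ω (famM Z) - tsq K.μ K.ω (fam3 M))
        + (1 + K.ε) * (msq K.μ (famM Z) - msq K.μ (fam3 M)) := by
  have h1 : ∫ x, (∑ k, (ip (pdT k M x) (pdT k M x) - hs (pdM k Z x))) ∂K.μ =
      dsq K.μ (fam3 M) - dsq K.μ (famM Z) := by
    have hi : ∀ k, Integrable (fun x => ip (pdT k M x) (pdT k M x) - hs (pdM k Z x)) K.μ :=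
      fun k => (int_ip_pd hp.cb k).1.sub (int_hs_pd hZ k).1
    rw [integral_finsetSum _ fun k _ => hi k]
    have : ∀ k, ∫ x, (ip (pdT k M x) (pdT k M x) - hs (pdM k Z x)) ∂K.μ =
        (∑ i, ∫ x, pd k (fam3 M i) x ^ 2 ∂K.μ) - ∑ i, ∫ x, pd k (famM Z i) x ^ 2 ∂K.μ := by
      intro k
      rw [integral_sub (int_ip_pd hp.cb k).1 (int_hs_pd hZ k).1, (int_ip_pd hp.cb k).2,
        (int_hs_pd hZ k).2]
    simp only [this]
    rw [Finset.sum_sub_distrib]
    unfold dsq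
    rw [Finset.sum_comm, Finset.sum_comm (s := (Finset.univ : Finset (Fin n)))
      (t := (Finset.univ : Finset (Fin n × Fin n)))]
  have h2 : nsq K.μ (fam3 M) = nsq K.μ (famM Z) := by
    rw [← int_ip hp.cb, ← (int_hs hZ).2]
    refine integral_congr_ae (Filter.Eventually.of_forall fun x => ?_)
    exact (hs_Z (transpose_of_posDef (hp.Zpos x)) (hp.Zsq x)).symm
  rw [h1]
  unfold KD.q
  rw [h2]
  ring

theorem tsq_nonneg {ι : Type*} [Fintype ι] (f : ι → E n → ℝ) : 0 ≤ tsq K.μ K.ω f :=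
  Finset.sum_nonneg fun _ _ => Finset.sum_nonneg fun _ _ => sq_nonneg _

theorem msq_nonneg {ι : Type*} [Fintype ι] (f : ι → E n → ℝ) : 0 ≤ msq K.μ f :=
  Finset.sum_nonneg fun _ _ => sq_nonneg _

/-- FD4 with the `CB` property of `Z` as a hypothesis -/
theorem defect_le' {R : Type} [Fintype R] {a : ℝ} {M : E n → T3 n R} {Z : E n → Mt n}
    (hp : Pack K R a M Z) (hZ : ∀ i, CB (famM Z i)) :
    (∫ x, (∑ k, (ip (pdT k M x) (pdT k M x) - hs (pdM k Z x))) ∂K.μ) + K.q (famM Z) ≤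
      a + 4 * tsq K.μ K.ω (famM Z) + 2 * msq K.μ (famM Z) := by
  rw [defect_eq hp hZ]
  have h1 := hp.qM
  have h2 : 0 ≤ tsq K.μ K.ω (fam3 M) := tsq_nonneg _
  have h3 : 0 ≤ msq K.μ (fam3 M) := msq_nonneg _
  have h4 : 0 ≤ tsq K.μ K.ω (famM Z) := tsq_nonneg _
  have h5 : 0 ≤ msq K.μ (famM Z) := msq_nonneg _
  have h6 := K.kp_pos
  have h7 := K.kp_le
  have h8 := K.ε_nonneg
  have h9 := K.ε_le
  nlinarith [mul_nonneg h6 h2, mul_nonneg (sub_nonneg.mpr h7) h4,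
    mul_nonneg (by linarith : (0:ℝ) ≤ 1 + K.ε) h3,
    mul_nonneg (by linarith : (0:ℝ) ≤ 1 - K.ε) h5]

end Crest.Agent.R201.N947
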