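import Crest.Agent.R201.FD5b_839

/-!
# R201, leaf FD5 (`fsl`, section 5 integrated)   (helper839)
-/

set_option autoImplicit false
open MeasureTheory Matrix

namespace Crest.Agent.R201

namespace FD5839

open Crest.Agent.R201.MX9839 Crest.Agent.R201.Tw807

variable {n : ℕ} {K : KD n} {ι : Type} [Fintype ι]

/-- the main term of section 5 -/
theorem main_term {C' Cm C0 h1 : ℝ} (hC0 : 0 < C0) (hh1 : 0 < h1) (hCm : 0 < Cm)
    (hT : ∀ (n : ℕ) (ι : Type) [Fintype ι]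
    (Z P β : Mt n) (B Pk : Fin n → Mt n) (Bc H : T2 n ι) (Gk : Fin n → T2 n ι) (X s : ℝ)
    (hX : 1 ≤ X) (hs0 : 0 < s) (hZ : Z.PosDef) (hPs : Pᵀ = P) (hP0 : LeQ 0 P) (hP1 : LeQ P 1)
    (hβ : β.PosSemidef) (hβ2 : β * β = gramA Bc Bc)
    (hB : ∀ k, (B k)ᵀ = B k) (hBb : LeQ (∑ k, B k * B k) (C' • (1 : Mt n)))
    (hPk : ∀ k, (Pk k)ᵀ = Pk k) (hH : LeQ (gramA H H) (Z * Z)) (e : ℝ)
    (he1 : ∑ k, hs (Z * B k - B k * Z) ≤ e)
    (he2 : ∑ k, ip2 (Gk k - 2 • actA (B k) H) (Gk k - 2 • actA (B k) H) ≤ e),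
    |∑ k, ip2 (actP (Pk k) Bc) (Gk k)| ≤
      Cm * (Real.sqrt (∑ k, ip2 (actP (Pk k) Bc) (actP (Pk k) Bc))
            * Real.sqrt (e + X * s * (β * Z).trace)
        + Real.sqrt (∑ k, ip2 (actP (Pk k) H) (actP (Pk k) H))
            * Real.sqrt (e / (X ^ 2 * s ^ 2) + hs (P * β) + hs ((1 - P) * Z) / (X ^ 2 * s ^ 2))))
    (Z : E n → Mt n) (G H : E n → T2 n ι)
    (Bc : T2 n ι) (e : E n → ℝ) (D X : ℝ)
    (hh : h1 ≤ K.h) (hX : 1 ≤ X) (hD : 0 < D) (hZ : ∀ x, (Z x).PosDef)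
    (hZc : ∀ i, CB (famM Z i)) (hGc : ∀ i, CB (fam2 G i)) (hHc : ∀ i, CB (fam2 H i))
    (hBc : ip2 Bc Bc ≤ 1) (hHZ : ∀ x, LeQ (gramA (H x) (H x)) (Z x * Z x))
    (hei : Integrable e K.μ) (heb : ∫ x, e x ∂K.μ ≤ C0 * D)
    (hconn : ∀ x, ∃ B : Fin n → Mt n, (∀ k, (B k)ᵀ = B k) ∧
      LeQ (∑ k, B k * B k) (C' • (1 : Mt n)) ∧
      (∑ k, hs (Z x * B k - B k * Z x) ≤ e x) ∧
      (∑ k, ip2 (pd2 k G x - 2 • actA (B k) (H x)) (pd2 k G x - 2 • actA (B k) (H x)) ≤ e x))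
    (hmZ : msq K.μ (famM Z) ≤ D)
    (hQZ : ∫ x, (Z x * (1 - K.P x) * Z x).trace ∂K.μ ≤ C0 * D)
    (hQH : en K.μ (fun x => 1 - K.P x) (fun p (i : Fin n × ι) x => H x i.1 p i.2) ≤ C0 * D) :
    |∫ x, ∑ k, ip2 (pd2 k (Phi K Bc) x) (pd2 k G x) ∂K.μ| ≤
      Cm * (2 / Real.sqrt h1) * (K.η * Real.sqrt D * Real.sqrt (C0 + 1) * Real.sqrt X
        + Real.sqrt C0 * Real.sqrt D * (Real.sqrt (2 * C0) / X + K.η)) := by
  classical
  have hηp := K.η_pos
  have hhp : 0 < K.h := K.h_pos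
  obtain ⟨β, hβ, hβ2⟩ : ∃ β : Mt n, β.PosSemidef ∧ β * β = gramA Bc Bc := by
    refine MX354.root_exists ?_
    rw [gramA_eq]
    exact MX354.posSemidef_mul_transpose _
  have hβs : βᵀ = β := by
    have := hβ.isHermitian
    rwa [IsHermitian, conjTranspose_eq_transpose_of_trivial] at this
  have hβ1 : hs β ≤ 1 := by
    rw [MX9839.hs_eq_trace, hβs, hβ2, trace_gramA]; exact hBc
  have hZs : ∀ x, (Z x)ᵀ = Z x := by
    intro x
    have := (hZ x).isHermitian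
    rwa [IsHermitian, conjTranspose_eq_transpose_of_trivial] at this
  -- the four budget functions
  set s := Real.sqrt D with hsdef
  have hs0 : 0 < s := Real.sqrt_pos.2 hD
  have hs2 : s ^ 2 = D := Real.sq_sqrt hD.le
  have hX0 : 0 < X := by linarith
  set a1 : E n → ℝ := fun x => ∑ k, ip2 (pd2 k (Phi K Bc) x) (pd2 k (Phi K Bc) x) with ha1
  set b1 : E n → ℝ := fun x => e x + X * s * (β * Z x).trace with hb1
  set a2 : E n → ℝ := fun x => 4 / K.h * ((mP (H x))ᵀ * (1 - K.P x) * mP (H x)).trace with ha2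
  set b2 : E n → ℝ := fun x => e x / (X ^ 2 * s ^ 2) + hs (K.P x * β)
    + hs ((1 - K.P x) * Z x) / (X ^ 2 * s ^ 2) with hb2
  have he0 : ∀ x, 0 ≤ e x := by
    intro x
    obtain ⟨B, -, -, hB, -⟩ := hconn x
    exact le_trans (Finset.sum_nonneg fun k _ => MX9839.hs_nonneg _) hB
  have htr0 : ∀ x, 0 ≤ (β * Z x).trace := fun x => MX354.trace_mul_nonneg hβ (hZ x).posSemidef
  -- pointwise bound
  have hpt : ∀ x, |∑ k, ip2 (pd2 k (Phi K Bc) x) (pd2 k G x)| ≤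
      Cm * (Real.sqrt (a1 x) * Real.sqrt (b1 x) + Real.sqrt (a2 x) * Real.sqrt (b2 x)) := by
    intro x
    obtain ⟨B, hB1, hB2, hB3, hB4⟩ := hconn x
    have h := hT n ι (Z x) (K.P x) β B (fun k => pdM k K.P x) Bc (H x) (fun k => pd2 k G x) X s
      hX hs0 (hZ x) (K.P_symm x) (K.P_nonneg x) (K.P_le x) hβ hβ2 hB1 hB2
      (fun k => pdM_P_symm K k x) (hHZ x) (e x) hB3 hB4
    have hA : a1 x = ∑ k, ip2 (actP (pdM k K.P x) Bc) (actP (pdM k K.P x) Bc) := by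
      simp only [ha1, pd2_Phi]
    rw [hA]
    simp only [pd2_Phi]
    refine h.trans (mul_le_mul_of_nonneg_left (add_le_add le_rfl ?_) hCm.le)
    exact mul_le_mul_of_nonneg_right (Real.sqrt_le_sqrt (sum_dP_le_Q K x (H x)))
      (Real.sqrt_nonneg _)
  -- nonnegativity
  have ha1n : ∀ x, 0 ≤ a1 x := fun x => Finset.sum_nonneg fun k _ => ip2_nonneg _
  have hb1n : ∀ x, 0 ≤ b1 x := fun x =>
    add_nonneg (he0 x) (mul_nonneg (mul_nonneg hX0.le hs0.le) (htr0 x))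
  have ha2n : ∀ x, 0 ≤ a2 x := fun x =>
    mul_nonneg (four_h_pos K).le (FA150.LeQ.trace_nonneg (FA150.one_sub_facts K x).2.1 _)
  have hb2n : ∀ x, 0 ≤ b2 x := fun x => by
    have h1 := he0 x
    have h2 := MX9839.hs_nonneg (K.P x * β)
    have h3 := MX9839.hs_nonneg ((1 - K.P x) * Z x)
    simp only [hb2]
    positivity
  -- integrability and integrals
  have ha1i : Integrable a1 K.μ := (int_ip2_pd (cb_Phi K Bc) (cb_Phi K Bc)).1
  have ha1v : ∫ x, a1 x ∂K.μ ≤ 4 / h1 * K.η ^ 2 := by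
    have := dsq_Phi K Bc hBc
    rw [dsq_eq (cb_Phi K Bc)] at this
    refine this.trans (mul_le_mul_of_nonneg_right ?_ (sq_nonneg _))
    exact div_le_div_of_nonneg_left (by norm_num) hh1 hh
  have hβZ : ∀ x, (β * Z x).trace = ∑ i : Fin n × Fin n, β i.2 i.1 * famM Z i x := by
    intro x
    simp only [Matrix.trace, Matrix.diag_apply, Matrix.mul_apply, Fintype.sum_prod_type, famM]
    rw [Finset.sum_comm]
  have htri : Integrable (fun x => (β * Z x).trace) K.μ := by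
    simp only [hβZ]
    exact integrable_finsetSum _ fun i _ => (int_cb K (hZc i)).const_mul _
  have htrv : ∫ x, (β * Z x).trace ∂K.μ ≤ s := by
    simp only [hβZ]
    rw [integral_finsetSum _ fun i _ => (int_cb K (hZc i)).const_mul _]
    simp only [integral_const_mul]
    refine (le_abs_self _).trans ((cs_fin (fun i : Fin n × Fin n => β i.2 i.1)
      (fun i => ∫ x, famM Z i x ∂K.μ)).trans ?_)
    have h1 : ∑ i : Fin n × Fin n, β i.2 i.1 ^ 2 = hs β := by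
      rw [Fintype.sum_prod_type, Finset.sum_comm]; rfl
    rw [h1]
    have h2 : Real.sqrt (hs β) ≤ 1 := Real.sqrt_le_one.2 hβ1
    have h3 : Real.sqrt (∑ i, (∫ x, famM Z i x ∂K.μ) ^ 2) ≤ s := Real.sqrt_le_sqrt hmZ
    calc _ ≤ 1 * s := mul_le_mul h2 h3 (Real.sqrt_nonneg _) (by norm_num)
      _ = s := one_mul s
  have hb1i : Integrable b1 K.μ := hei.add (htri.const_mul _)
  have hb1v : ∫ x, b1 x ∂K.μ ≤ (C0 + 1) * (X * D) := by
    have e1 : ∫ x, b1 x ∂K.μ = (∫ x, e x ∂K.μ) + X * s * ∫ x, (β * Z x).trace ∂K.μ := by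
      simp only [hb1]
      rw [integral_add hei (htri.const_mul _), integral_const_mul]
    rw [e1]
    have h2 : X * s * ∫ x, (β * Z x).trace ∂K.μ ≤ X * D := by
      rw [← hs2]
      calc X * s * ∫ x, (β * Z x).trace ∂K.μ ≤ X * s * s :=
            mul_le_mul_of_nonneg_left htrv (by positivity)
        _ = X * s ^ 2 := by ring
    have h3 : C0 * D ≤ C0 * (X * D) := by
      refine mul_le_mul_of_nonneg_left ?_ hC0.le
      nlinarith
    linarith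
  have hen : ∀ x, ((mP (H x))ᵀ * (1 - K.P x) * mP (H x)).trace
      = ∑ i : Fin n × ι, ∑ p, ∑ p', (1 - K.P x) p p' * H x i.1 p i.2 * H x i.1 p' i.2 := by
    intro x
    rw [FA150.trq]
    simp only [dotProduct, mulVec, Finset.mul_sum, mP, Matrix.of_apply]
    exact Finset.sum_congr rfl fun j _ => Finset.sum_congr rfl fun i _ =>
      Finset.sum_congr rfl fun i' _ => by ring
  have heni : Integrable (fun x => ((mP (H x))ᵀ * (1 - K.P x) * mP (H x)).trace) K.μ := by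
    simp only [hen]
    refine integrable_finsetSum _ fun i _ => integrable_finsetSum _ fun p _ =>
      integrable_finsetSum _ fun p' _ => int_cb K ?_
    exact CB.mul (CB.mul (FA150.cb_one_sub_P K (p, p')) (hHc (i.1, p, i.2))) (hHc (i.1, p', i.2))
  have ha2i : Integrable a2 K.μ := heni.const_mul _
  have ha2v : ∫ x, a2 x ∂K.μ ≤ 4 / h1 * (C0 * D) := by
    simp only [ha2]
    rw [integral_const_mul]
    have h2 : ∫ x, ((mP (H x))ᵀ * (1 - K.P x) * mP (H x)).trace ∂K.μ ≤ C0 * D := by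
      refine le_trans (le_of_eq ?_) hQH
      simp only [hen]
      rfl
    have h3 : 4 / K.h ≤ 4 / h1 := div_le_div_of_nonneg_left (by norm_num) hh1 hh
    exact mul_le_mul h3 h2 (integral_nonneg fun x =>
      FA150.LeQ.trace_nonneg (FA150.one_sub_facts K x).2.1 _) (by positivity)
  have hPβc : ∀ i, CB (famM (fun x => K.P x * β) i) :=
    FA150.cb_mulM (FA150.cb_P K) fun i => CB.const _
  have hPβi : Integrable (fun x => hs (K.P x * β)) K.μ := FA150.int_hs K hPβc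
  have hPβv : ∫ x, hs (K.P x * β) ∂K.μ ≤ K.η ^ 2 := by
    have h2 : ∀ x, hs (K.P x * β) ≤ (βᵀ * K.P x * β).trace := by
      intro x
      rw [FA150.hs_eq_tr, Matrix.transpose_mul, K.P_symm]
      have := FA150.LeQ.trace_le (P_sq_le K x) β
      simpa only [Matrix.mul_assoc] using this
    refine (integral_mono hPβi (int_P K β).1 h2).trans ((int_P K β).2.trans ?_)
    rw [← FA150.hs_eq_tr]
    nlinarith [sq_nonneg K.η]
  have hQZc : ∀ i, CB (famM (fun x => (1 - K.P x) * Z x) i) :=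
    FA150.cb_mulM (FA150.cb_one_sub_P K) hZc
  have hQZi : Integrable (fun x => hs ((1 - K.P x) * Z x)) K.μ := FA150.int_hs K hQZc
  have hQZv : ∫ x, hs ((1 - K.P x) * Z x) ∂K.μ ≤ C0 * D := by
    refine le_trans (integral_mono hQZi ?_ fun x => ?_) hQZ
    · exact FA150.int_trace K (FA150.cb_mulM (FA150.cb_mulM hZc (FA150.cb_one_sub_P K)) hZc)
    · show hs ((1 - K.P x) * Z x) ≤ (Z x * (1 - K.P x) * Z x).trace
      rw [FA150.hs_eq_tr, Matrix.transpose_mul, (FA150.one_sub_facts K x).1]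
      have := FA150.LeQ.trace_le (Q_sq_le K x) (Z x)
      rw [hZs x] at this ⊢
      simpa only [Matrix.mul_assoc] using this
  have hei' : Integrable (fun x => e x / (X ^ 2 * s ^ 2)) K.μ := hei.div_const _
  have hb2i : Integrable b2 K.μ := (hei'.add hPβi).add (hQZi.div_const _)
  have hb2v : ∫ x, b2 x ∂K.μ ≤ 2 * C0 / X ^ 2 + K.η ^ 2 := by
    have e1 : ∫ x, b2 x ∂K.μ = (∫ x, e x ∂K.μ) / (X ^ 2 * s ^ 2) + (∫ x, hs (K.P x * β) ∂K.μ)
        + (∫ x, hs ((1 - K.P x) * Z x) ∂K.μ) / (X ^ 2 * s ^ 2) := by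
      have i1 : Integrable (fun x => e x / (X ^ 2 * s ^ 2) + hs (K.P x * β)) K.μ := hei'.add hPβi
      simp only [hb2]
      rw [integral_add i1 (hQZi.div_const _), integral_add hei' hPβi, integral_div, integral_div]
    rw [e1, hs2]
    have h2 : (∫ x, e x ∂K.μ) / (X ^ 2 * D) ≤ C0 / X ^ 2 := by
      rw [div_le_div_iff₀ (by positivity) (by positivity)]
      have := mul_le_mul_of_nonneg_right heb (sq_nonneg X)
      calc _ ≤ C0 * D * X ^ 2 := this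
        _ = _ := by ring
    have h3 : (∫ x, hs ((1 - K.P x) * Z x) ∂K.μ) / (X ^ 2 * D) ≤ C0 / X ^ 2 := by
      rw [div_le_div_iff₀ (by positivity) (by positivity)]
      have := mul_le_mul_of_nonneg_right hQZv (sq_nonneg X)
      calc _ ≤ C0 * D * X ^ 2 := this
        _ = _ := by ring
    have e2 : 2 * C0 / X ^ 2 = C0 / X ^ 2 + C0 / X ^ 2 := by ring
    rw [e2]
    linarith
  -- combine
  obtain ⟨c1i, c1v⟩ := cs_int ha1i hb1i ha1n hb1n
  obtain ⟨c2i, c2v⟩ := cs_int ha2i hb2i ha2n hb2n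
  have hI : |∫ x, ∑ k, ip2 (pd2 k (Phi K Bc) x) (pd2 k G x) ∂K.μ| ≤
      Cm * (Real.sqrt (∫ x, a1 x ∂K.μ) * Real.sqrt (∫ x, b1 x ∂K.μ)
        + Real.sqrt (∫ x, a2 x ∂K.μ) * Real.sqrt (∫ x, b2 x ∂K.μ)) := by
    refine (abs_integral_le_integral_abs).trans ?_
    have i12 : Integrable (fun x => Real.sqrt (a1 x) * Real.sqrt (b1 x)
        + Real.sqrt (a2 x) * Real.sqrt (b2 x)) K.μ := c1i.add c2i
    refine (integral_mono (int_ip2_pd (cb_Phi K Bc) hGc).1.abs (i12.const_mul Cm) hpt).trans ?_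
    rw [integral_const_mul, integral_add c1i c2i]
    exact mul_le_mul_of_nonneg_left (add_le_add c1v c2v) hCm.le
  refine hI.trans ?_
  rw [mul_assoc]
  refine mul_le_mul_of_nonneg_left ?_ hCm.le
  have r1 : Real.sqrt (∫ x, a1 x ∂K.μ) ≤ 2 / Real.sqrt h1 * K.η := by
    refine (Real.sqrt_le_sqrt ha1v).trans (le_of_eq ?_)
    rw [Real.sqrt_mul (by positivity), Real.sqrt_sq hηp.le, Real.sqrt_div (by norm_num),
      show (4:ℝ) = 2 ^ 2 by norm_num, Real.sqrt_sq (by norm_num)]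
  have r2 : Real.sqrt (∫ x, b1 x ∂K.μ) ≤ Real.sqrt (C0 + 1) * (Real.sqrt X * s) := by
    refine (Real.sqrt_le_sqrt hb1v).trans (le_of_eq ?_)
    rw [Real.sqrt_mul (by positivity), Real.sqrt_mul hX0.le]
  have r3 : Real.sqrt (∫ x, a2 x ∂K.μ) ≤ 2 / Real.sqrt h1 * (Real.sqrt C0 * s) := by
    refine (Real.sqrt_le_sqrt ha2v).trans (le_of_eq ?_)
    rw [Real.sqrt_mul (by positivity), Real.sqrt_mul hC0.le, Real.sqrt_div (by norm_num),
      show (4:ℝ) = 2 ^ 2 by norm_num, Real.sqrt_sq (by norm_num)]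
  have r4 : Real.sqrt (∫ x, b2 x ∂K.μ) ≤ Real.sqrt (2 * C0) / X + K.η := by
    refine (Real.sqrt_le_sqrt hb2v).trans ?_
    rw [Real.sqrt_le_left (by positivity)]
    have h2 : (Real.sqrt (2 * C0) / X) ^ 2 = 2 * C0 / X ^ 2 := by
      rw [div_pow, Real.sq_sqrt (by positivity)]
    have h3 : 0 ≤ Real.sqrt (2 * C0) / X * K.η := by positivity
    nlinarith
  have t1 : Real.sqrt (∫ x, a1 x ∂K.μ) * Real.sqrt (∫ x, b1 x ∂K.μ) ≤
      (2 / Real.sqrt h1 * K.η) * (Real.sqrt (C0 + 1) * (Real.sqrt X * s)) :=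
    mul_le_mul r1 r2 (Real.sqrt_nonneg _) (by positivity)
  have t2 : Real.sqrt (∫ x, a2 x ∂K.μ) * Real.sqrt (∫ x, b2 x ∂K.μ) ≤
      (2 / Real.sqrt h1 * (Real.sqrt C0 * s)) * (Real.sqrt (2 * C0) / X + K.η) :=
    mul_le_mul r3 r4 (Real.sqrt_nonneg _) (by positivity)
  refine (add_le_add t1 t2).trans (le_of_eq ?_)
  ring

theorem final_arith {η X s c1 sX s1 s0 s2 s6 T S1 S2 Q I : ℝ} (hη : 0 < η) (hX : 0 < X)
    (hs : 0 < s) (hc1 : 0 < c1) (hsX : 0 ≤ sX) (hs1 : 0 ≤ s1) (hs0 : 0 ≤ s0) (hs2 : 0 ≤ s2)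
    (hs6 : 0 ≤ s6)
    (hT : T ≤ c1 * (η * s * s1 * sX + s0 * s * (s2 / X + η)))
    (hS1 : S1 ≤ η * (s0 * s)) (hS2 : S2 ≤ η * (s0 * s)) (hQ : Q ≤ (s6 * η) * (s0 * s))
    (hI : I ≤ T + 4 * S1 + 2 * S2 + Q) :
    I ≤ (c1 * (s1 + s0 * s2 + s0) + 6 * s0 + s6 * s0) * (η * sX + 1 / X + η) * s := by
  set u := η * sX + 1 / X + η with hu
  have hX1 : 0 < 1 / X := by positivity
  have hηX : 0 ≤ η * sX := by positivity
  have hu1 : η * sX ≤ u := by rw [hu]; linarith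
  have hu2 : 1 / X ≤ u := by rw [hu]; linarith
  have hu3 : η ≤ u := by rw [hu]; linarith
  have m1 : T ≤ c1 * (s1 + s0 * s2 + s0) * (u * s) := by
    refine hT.trans ?_
    rw [mul_assoc c1]
    refine mul_le_mul_of_nonneg_left ?_ hc1.le
    have e1 : η * s * s1 * sX + s0 * s * (s2 / X + η)
        = s1 * s * (η * sX) + s0 * s2 * s * (1 / X) + s0 * s * η := by ring
    rw [e1]
    have p1 : s1 * s * (η * sX) ≤ s1 * s * u := mul_le_mul_of_nonneg_left hu1 (by positivity)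
    have p2 : s0 * s2 * s * (1 / X) ≤ s0 * s2 * s * u :=
      mul_le_mul_of_nonneg_left hu2 (by positivity)
    have p3 : s0 * s * η ≤ s0 * s * u := mul_le_mul_of_nonneg_left hu3 (by positivity)
    refine (add_le_add (add_le_add p1 p2) p3).trans (le_of_eq ?_)
    ring
  have m2 : η * (s0 * s) ≤ s0 * (u * s) :=
    (mul_le_mul_of_nonneg_right hu3 (by positivity : 0 ≤ s0 * s)).trans (le_of_eq (by ring))
  have m3 : (s6 * η) * (s0 * s) ≤ s6 * s0 * (u * s) := by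
    have := mul_le_mul_of_nonneg_right hu3 (by positivity : 0 ≤ s6 * (s0 * s))
    refine le_trans (le_of_eq ?_) (this.trans (le_of_eq ?_)) <;> ring
  have hfin : (c1 * (s1 + s0 * s2 + s0) + 6 * s0 + s6 * s0) * u * s
    = c1 * (s1 + s0 * s2 + s0) * (u * s) + 6 * (s0 * (u * s)) + s6 * s0 * (u * s) := by ring
  rw [hfin]
  linarith

end FD5839

/-- FD5 = FSL (section 5), integrated -/
theorem fsl : ∀ h1 C0 C' : ℝ, 0 < h1 → 0 < C0 → 0 < C' → ∃ C : ℝ, 0 < C ∧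
    ∀ (n : ℕ) (K : KD n) (ι : Type) [Fintype ι] (Z : E n → Mt n) (G H : E n → T2 n ι)
    (Bc : T2 n ι) (e : E n → ℝ) (D X : ℝ),
    h1 ≤ K.h → 1 ≤ X → 0 < D → (∀ x, (Z x).PosDef) → (∀ i, CB (famM Z i)) →
    (∀ i, CB (fam2 G i)) → (∀ i, CB (fam2 H i)) → ip2 Bc Bc ≤ 1 →
    (∀ x, LeQ (gramA (H x) (H x)) (Z x * Z x)) →
    Integrable e K.μ → (∫ x, e x ∂K.μ ≤ C0 * D) →
    (∀ x, ∃ B : Fin n → Mt n, (∀ k, (B k)ᵀ = B k) ∧ LeQ (∑ k, B k * B k) (C' • (1 : Mt n)) ∧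
      (∑ k, hs (Z x * B k - B k * Z x) ≤ e x) ∧
      (∑ k, ip2 (pd2 k G x - 2 • actA (B k) (H x)) (pd2 k G x - 2 • actA (B k) (H x)) ≤ e x)) →
    msq K.μ (famM Z) ≤ D →
    (∫ x, (Z x * (1 - K.P x) * Z x).trace ∂K.μ ≤ C0 * D) →
    en K.μ (fun x => 1 - K.P x) (fun p (i : Fin n × ι) x => H x i.1 p i.2) ≤ C0 * D →
    K.q (fam2 G) ≤ C0 * D → msq K.μ (fam2 G) ≤ C0 * D → tsq K.μ K.ω (fam2 G) ≤ C0 * D →
    |∫ x, ip2 (actP (K.P x) Bc) (G x) ∂K.μ| ≤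
      C * (K.η * Real.sqrt X + 1 / X + K.η) * Real.sqrt D := by
  intro h1 C0 C' hh1 hC0 hC'
  obtain ⟨Cm, hCm, hT⟩ := tterm_point C' hC'
  set c1 := Cm * (2 / Real.sqrt h1) with hc1
  have hc1p : 0 < c1 := mul_pos hCm (div_pos (by norm_num) (Real.sqrt_pos.2 hh1))
  refine ⟨c1 * (Real.sqrt (C0 + 1) + Real.sqrt C0 * Real.sqrt (2 * C0) + Real.sqrt C0)
    + 6 * Real.sqrt C0 + Real.sqrt (4 / h1 + 6) * Real.sqrt C0, by positivity, ?_⟩
  intro n K ι _ Z G H Bc e D X hh hX hD hZ hZc hGc hHc hBc hHZ hei heb hconn hmZ hQZ hQH hqG hmG htG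
  have hmain := FD5839.main_term (K := K) hC0 hh1 hCm hT Z G H Bc e D X hh hX hD hZ hZc hGc hHc
    hBc hHZ hei heb hconn hmZ hQZ hQH
  have hηp := K.η_pos
  have hX0 : 0 < X := by linarith
  have hΦc := FD5839.cb_Phi K Bc
  have hqb := FD5839.qb_eq (K := K) hΦc hGc
  set s := Real.sqrt D with hsdef
  have hs0 : 0 < s := Real.sqrt_pos.2 hD
  set I := ∫ x, ip2 (actP (K.P x) Bc) (G x) ∂K.μ with hI
  have hI' : ∫ x, ip2 (FD5839.Phi K Bc x) (G x) ∂K.μ = I := rfl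
  rw [hI'] at hqb
  set T := ∫ x, ∑ k, ip2 (pd2 k (FD5839.Phi K Bc) x) (pd2 k G x) ∂K.μ with hTd
  set S1 := ∑ i, ∑ k, (∫ x, K.ω k x * fam2 (FD5839.Phi K Bc) i x ∂K.μ)
    * (∫ x, K.ω k x * fam2 G i x ∂K.μ) with hS1
  set S2 := ∑ i, (∫ x, fam2 (FD5839.Phi K Bc) i x ∂K.μ) * (∫ x, fam2 G i x ∂K.μ) with hS2
  have hsC : Real.sqrt (C0 * D) = Real.sqrt C0 * s := Real.sqrt_mul hC0.le D
  -- T₁ term
  have b1 : |S1| ≤ K.η * (Real.sqrt C0 * s) := by
    have h := FD5839.cs_fin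
      (fun ik : (Fin n × Fin n × ι) × Fin n => ∫ x, K.ω ik.2 x * fam2 (FD5839.Phi K Bc) ik.1 x ∂K.μ)
      (fun ik => ∫ x, K.ω ik.2 x * fam2 G ik.1 x ∂K.μ)
    have e1 : ∑ ik : (Fin n × Fin n × ι) × Fin n,
        (∫ x, K.ω ik.2 x * fam2 (FD5839.Phi K Bc) ik.1 x ∂K.μ)
          * (∫ x, K.ω ik.2 x * fam2 G ik.1 x ∂K.μ) = S1 := Fintype.sum_prod_type _
    have e2 : ∑ ik : (Fin n × Fin n × ι) × Fin n,
        (∫ x, K.ω ik.2 x * fam2 (FD5839.Phi K Bc) ik.1 x ∂K.μ) ^ 2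
          = tsq K.μ K.ω (fam2 (FD5839.Phi K Bc)) := Fintype.sum_prod_type _
    have e3 : ∑ ik : (Fin n × Fin n × ι) × Fin n,
        (∫ x, K.ω ik.2 x * fam2 G ik.1 x ∂K.μ) ^ 2
          = tsq K.μ K.ω (fam2 G) := Fintype.sum_prod_type _
    rw [e1, e2, e3] at h
    refine h.trans (mul_le_mul ?_ ?_ (Real.sqrt_nonneg _) hηp.le)
    · rw [Real.sqrt_le_left hηp.le]
      exact FD5839.tsq_Phi K Bc hBc
    · rw [← hsC]
      exact Real.sqrt_le_sqrt htG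
  have b2 : |S2| ≤ K.η * (Real.sqrt C0 * s) := by
    refine (FD5839.cs_fin _ _).trans (mul_le_mul ?_ ?_ (Real.sqrt_nonneg _) hηp.le)
    · rw [Real.sqrt_le_left hηp.le]
      exact FD5839.msq_Phi K Bc hBc
    · rw [← hsC]
      exact Real.sqrt_le_sqrt hmG
  have b3 : |K.qb (fam2 (FD5839.Phi K Bc)) (fam2 G)| ≤
      (Real.sqrt (4 / h1 + 6) * K.η) * (Real.sqrt C0 * s) := by
    have h := qb_sq_le K _ _ hΦc hGc
    have h2 := FD5839.q_Phi K Bc hBc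
    have h3 : K.q (fam2 (FD5839.Phi K Bc)) ≤ (4 / h1 + 6) * K.η ^ 2 := by
      refine h2.trans (mul_le_mul_of_nonneg_right ?_ (sq_nonneg _))
      have : 4 / K.h ≤ 4 / h1 := div_le_div_of_nonneg_left (by norm_num) hh1 hh
      linarith
    have h4 : K.qb (fam2 (FD5839.Phi K Bc)) (fam2 G) ^ 2 ≤ ((4 / h1 + 6) * K.η ^ 2) * (C0 * D) :=
      h.trans (mul_le_mul h3 hqG (q_nonneg K _ hGc) (by positivity))
    refine (Real.abs_le_sqrt h4).trans (le_of_eq ?_)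
    rw [Real.sqrt_mul (by positivity), hsC, Real.sqrt_mul (by positivity), Real.sqrt_sq hηp.le]
  -- solve for `I`
  have hε := K.ε_nonneg
  have hε2 := K.ε_le
  have hk := K.kp_pos
  have hk2 := K.kp_le
  have hIeq : (1 + K.ε) * I = T + K.kp * S1 + (1 + K.ε) * S2
      - K.qb (fam2 (FD5839.Phi K Bc)) (fam2 G) := by
    rw [hqb]; ring
  have hIb : |I| ≤ |T| + 4 * |S1| + 2 * |S2| + |K.qb (fam2 (FD5839.Phi K Bc)) (fam2 G)| := by
    have h1 : |I| ≤ |(1 + K.ε) * I| := by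
      rw [abs_mul, abs_of_nonneg (by linarith : 0 ≤ 1 + K.ε)]
      nlinarith [abs_nonneg I]
    rw [hIeq] at h1
    have h2 : |T + K.kp * S1 + (1 + K.ε) * S2 - K.qb (fam2 (FD5839.Phi K Bc)) (fam2 G)| ≤
        |T| + |K.kp * S1| + |(1 + K.ε) * S2| + |K.qb (fam2 (FD5839.Phi K Bc)) (fam2 G)| := by
      refine (abs_sub _ _).trans ?_
      refine add_le_add ((abs_add_le _ _).trans (add_le_add (abs_add_le _ _) le_rfl)) le_rfl
    rw [abs_mul, abs_mul, abs_of_nonneg hk, abs_of_nonneg (by linarith : 0 ≤ 1 + K.ε)] at h2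
    have h3 : K.kp * |S1| ≤ 4 * |S1| := mul_le_mul_of_nonneg_right hk2 (abs_nonneg _)
    have h4 : (1 + K.ε) * |S2| ≤ 2 * |S2| :=
      mul_le_mul_of_nonneg_right (by linarith) (abs_nonneg _)
    linarith
  exact FD5839.final_arith hηp hX0 hs0 hc1p (Real.sqrt_nonneg _) (Real.sqrt_nonneg _)
    (Real.sqrt_nonneg _) (Real.sqrt_nonneg _) (Real.sqrt_nonneg _) hmain b1 b2 b3 hIb

end Crest.Agent.R201
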