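import Crest.Agent.R201.MX9d_839

/-!
# R201, leaf MX9: the `T`-term at a point (section 5 of doc 1859)   (helper839)
-/

set_option autoImplicit false
open MeasureTheory Matrix

namespace Crest.Agent.R201

variable {n : ℕ}

namespace MX9839

theorem row_bound {B : Fin n → Mt n} {V : Mt n} {C' : ℝ} (hV : Vᵀ * V = 1)
    (hB : ∀ k, (B k)ᵀ = B k) (hBb : LeQ (∑ k, B k * B k) (C' • (1 : Mt n))) (y : Fin n → ℝ) :
    ∑ k, ∑ j, (∑ l, y l * (Vᵀ * B k * V) l j) ^ 2 ≤ C' * ∑ l, y l ^ 2 := by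
  have hV2 : V * Vᵀ = 1 := by rw [mul_eq_one_comm]; exact hV
  have e1 : ∀ k, ∑ j, (∑ l, y l * (Vᵀ * B k * V) l j) ^ 2
      = (V *ᵥ y) ⬝ᵥ ((B k * B k) *ᵥ (V *ᵥ y)) := by
    intro k
    have e2 : ∀ j, ∑ l, y l * (Vᵀ * B k * V) l j = ((Vᵀ * B k * V) *ᵥ y) j := by
      intro j
      have hs : (Vᵀ * B k * V)ᵀ = Vᵀ * B k * V := by
        simp [Matrix.transpose_mul, hB k, Matrix.mul_assoc]
      rw [Matrix.mulVec, dotProduct]
      refine Finset.sum_congr rfl fun l _ => ?_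
      rw [mul_comm, ← congrFun (congrFun hs j) l]
      rfl
    have e3 : ∑ j, (∑ l, y l * (Vᵀ * B k * V) l j) ^ 2
        = ((Vᵀ * B k * V) *ᵥ y) ⬝ᵥ ((Vᵀ * B k * V) *ᵥ y) := by
      simp only [e2, dotProduct, pow_two]
    rw [e3, Matrix.mul_assoc, ← Matrix.mulVec_mulVec, Matrix.dotProduct_mulVec,
      ← Matrix.mulVec_transpose, Matrix.transpose_transpose, Matrix.mulVec_mulVec,
      hV2, Matrix.one_mulVec, ← Matrix.mulVec_mulVec y (B k) V,
      ← Matrix.mulVec_mulVec _ (B k) (B k),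
      Matrix.dotProduct_mulVec (V *ᵥ y) (B k), ← Matrix.mulVec_transpose, hB k]
  have e4 : ∑ k, ∑ j, (∑ l, y l * (Vᵀ * B k * V) l j) ^ 2
      = (V *ᵥ y) ⬝ᵥ ((∑ k, B k * B k) *ᵥ (V *ᵥ y)) := by
    rw [Matrix.sum_mulVec, dotProduct_sum]
    exact Finset.sum_congr rfl fun k _ => e1 k
  rw [e4]
  refine (hBb _).trans (le_of_eq ?_)
  rw [Matrix.smul_mulVec, Matrix.one_mulVec, dotProduct_smul, Matrix.dotProduct_mulVec,
    ← Matrix.mulVec_transpose, Matrix.mulVec_mulVec, hV, Matrix.one_mulVec]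
  simp [dotProduct, pow_two]

theorem comm_hs {Z B V : Mt n} {z : Fin n → ℝ} (hV : Vᵀ * V = 1)
    (hZ : Z = V * Matrix.diagonal z * Vᵀ) :
    ∑ l, ∑ j, ((z l - z j) * (Vᵀ * B * V) l j) ^ 2 = hs (Z * B - B * Z) := by
  have hV2 : V * Vᵀ = 1 := by rw [mul_eq_one_comm]; exact hV
  have e1 : hs (Z * B - B * Z) = hs (Vᵀ * (Z * B - B * Z) * V) := by
    rw [hs_mul_orth _ _ hV2, hs_orth_mul _ _ (by simpa using hV2)]
  have e2 : Vᵀ * (Z * B - B * Z) * V
      = Matrix.diagonal z * (Vᵀ * B * V) - (Vᵀ * B * V) * Matrix.diagonal z := by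
    rw [hZ, Matrix.mul_sub, Matrix.sub_mul]
    congr 1
    · simp only [← Matrix.mul_assoc, hV, Matrix.one_mul]
    · simp only [Matrix.mul_assoc, hV, Matrix.mul_one]
  rw [e1, e2]
  unfold hs
  refine Finset.sum_congr rfl fun l _ => Finset.sum_congr rfl fun j _ => ?_
  rw [Matrix.sub_apply, Matrix.diagonal_mul, Matrix.mul_diagonal]
  ring

/-- The core: `⟨P_k Bc, B_k H⟩`. -/
theorem core {ι : Type} [Fintype ι] {C' : ℝ} (hC' : 0 < C')
    (Z P β : Mt n) (B Pk : Fin n → Mt n) (Bc H : T2 n ι) (X s : ℝ)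
    (hX : 1 ≤ X) (hs0 : 0 < s) (hZ : Z.PosDef) (hPs : Pᵀ = P)
    (hβ : β.PosSemidef) (hβ2 : β * β = gramA Bc Bc)
    (hB : ∀ k, (B k)ᵀ = B k) (hBb : LeQ (∑ k, B k * B k) (C' • (1 : Mt n)))
    (hPk : ∀ k, (Pk k)ᵀ = Pk k) (hH : LeQ (gramA H H) (Z * Z)) (e : ℝ)
    (he1 : ∑ k, hs (Z * B k - B k * Z) ≤ e) :
    |∑ k, ip2 (actP (Pk k) Bc) (actA (B k) H)| ≤
      Real.sqrt (∑ k, ip2 (actP (Pk k) Bc) (actP (Pk k) Bc))
          * Real.sqrt (8 * e + 192 * C' * (X * s * (β * Z).trace))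
        + Real.sqrt (∑ k, ip2 (actP (Pk k) H) (actP (Pk k) H))
          * Real.sqrt (8 * e / (X * s) ^ 2
            + 6 * C' * (2 * hs (P * β) + 32 * hs ((1 - P) * Z) / (X * s) ^ 2)) := by
  classical
  obtain ⟨V, z, hV, hV2, hz, hZd⟩ := specPos hZ
  obtain ⟨U, b, hU, hU2, hb, hβd⟩ := spec hβ
  have hXs : 0 < X * s := mul_pos (by linarith) hs0
  set t : Fin n → ℝ := fun i => X * s * b i with ht
  set O : Mt n := Uᵀ * V with hOdef
  have hO : Oᵀ * O = 1 := by
    rw [hOdef, Matrix.transpose_mul, Matrix.transpose_transpose, Matrix.mul_assoc,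
      ← Matrix.mul_assoc U, hU2, Matrix.one_mul, hV]
  set Bt : Fin n → Mt n := fun k => Vᵀ * B k * V with hBt
  set M : Fin n → Mt n := fun k => O * Bt k with hM
  have hMeq : ∀ k, B k = U * M k * Vᵀ := by
    intro k
    simp only [hM, hBt, hOdef]
    simp only [← Matrix.mul_assoc, hU2, Matrix.one_mul, hV2]
    simp only [Matrix.mul_assoc, hV2, Matrix.mul_one]
  set L : Fin n → Mt n := fun k => Matrix.of fun i j => if z j < t i then M k i j else 0 with hL
  set Rr : Fin n → Mt n := fun k => Matrix.of fun i j => if z j < t i then 0 else M k i j with hR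
  have hLR : ∀ k, M k = L k + Rr k := by
    intro k; ext i j
    simp only [hL, hR, Matrix.add_apply, Matrix.of_apply]
    split_ifs <;> simp
  set WL : Fin n → Mt n := fun k => U * L k * Vᵀ with hWL
  set WR : Fin n → Mt n := fun k => U * Rr k * Vᵀ with hWR
  have hBW : ∀ k, B k = WL k + WR k := by
    intro k
    rw [hMeq k, hLR k]
    simp only [hWL, hWR, Matrix.mul_add, Matrix.add_mul]
  have hZZ : Z * Z = V * Matrix.diagonal (fun j => z j ^ 2) * Vᵀ := by
    rw [hZd]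
    simp only [← Matrix.mul_assoc]
    rw [Matrix.mul_assoc (V * Matrix.diagonal z) Vᵀ V, hV, Matrix.mul_one,
      Matrix.mul_assoc V (Matrix.diagonal z) (Matrix.diagonal z), Matrix.diagonal_mul_diagonal]
    simp only [pow_two]
  have hββ : β * β = U * Matrix.diagonal (fun j => b j ^ 2) * Uᵀ := by
    rw [hβd]
    simp only [← Matrix.mul_assoc]
    rw [Matrix.mul_assoc (U * Matrix.diagonal b) Uᵀ U, hU, Matrix.mul_one,
      Matrix.mul_assoc U (Matrix.diagonal b) (Matrix.diagonal b), Matrix.diagonal_mul_diagonal]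
    simp only [pow_two]
  -- the split
  have hsplit : ∑ k, ip2 (actP (Pk k) Bc) (actA (B k) H)
      = ∑ k, ip2 (actP (Pk k) Bc) (actA (WL k) H)
        + ∑ k, ip2 (actP (Pk k) H) (actA (WR k)ᵀ Bc) := by
    rw [← Finset.sum_add_distrib]
    refine Finset.sum_congr rfl fun k _ => ?_
    rw [hBW k, actA_add, ip2_add_right]
    congr 1
    rw [ip2_actA, actA_actP, ip2_actP, hPk k]
    simp only [ip2]
    exact Finset.sum_congr rfl fun a _ => Finset.sum_congr rfl fun p _ =>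
      Finset.sum_congr rfl fun i _ => by ring
  -- row bound
  have hrow : ∀ y : Fin n → ℝ, ∑ k, ∑ j, (∑ l, y l * Bt k l j) ^ 2 ≤ C' * ∑ l, y l ^ 2 :=
    fun y => row_bound hV hB hBb y
  have hcomm : ∑ k, ∑ l, ∑ j, ((z l - z j) * Bt k l j) ^ 2 ≤ e := by
    refine le_trans (le_of_eq ?_) he1
    exact Finset.sum_congr rfl fun k _ => comm_hs hV hZd
  -- LOW
  have hlow : ∑ k, ip2 (actA (WL k) H) (actA (WL k) H) ≤
      8 * e + 192 * C' * (X * s * (β * Z).trace) := by
    have a1 : ∀ k, ip2 (actA (WL k) H) (actA (WL k) H) ≤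
        ∑ i, ∑ j, (if z j < t i then z j ^ 2 else 0) * ((O * Bt k) i j) ^ 2 := by
      intro k
      rw [ip2_actA_self]
      refine (trace_conj_mono hH _).trans (le_of_eq ?_)
      have a2 : WL k * (Z * Z) * (WL k)ᵀ
          = U * (L k * Matrix.diagonal (fun j => z j ^ 2) * (L k)ᵀ) * Uᵀ := by
        rw [hZZ]
        simp only [hWL, Matrix.transpose_mul, Matrix.transpose_transpose, ← Matrix.mul_assoc]
        rw [Matrix.mul_assoc (U * L k) Vᵀ V, hV, Matrix.mul_one]
        rw [Matrix.mul_assoc (U * L k * Matrix.diagonal (fun j => z j ^ 2)) Vᵀ V, hV,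
          Matrix.mul_one]
      rw [a2, Matrix.trace_mul_comm, ← Matrix.mul_assoc, hU, Matrix.one_mul]
      unfold Matrix.trace
      refine Finset.sum_congr rfl fun i _ => ?_
      rw [Matrix.diag_apply, Matrix.mul_apply]
      refine Finset.sum_congr rfl fun j _ => ?_
      rw [Matrix.mul_diagonal, Matrix.transpose_apply]
      simp only [hL, Matrix.of_apply, hM]
      split_ifs <;> ring
    refine (Finset.sum_le_sum fun k _ => a1 k).trans ?_
    refine (low_sum z hz O hO Bt C' hC'.le hrow t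
      (fun i => mul_nonneg hXs.le (hb i))).trans ?_
    have a3 : ∑ i, t i * ∑ l, O i l ^ 2 * z l = X * s * (β * Z).trace := by
      have a4 : (β * Z).trace = ∑ i, b i * ∑ l, O i l ^ 2 * z l := by
        have a5 : (β * Z).trace
            = (Matrix.diagonal b * (O * Matrix.diagonal z * Oᵀ)).trace := by
          rw [hβd, hZd, hOdef]
          rw [Matrix.transpose_mul, Matrix.transpose_transpose]
          simp only [Matrix.mul_assoc]
          rw [Matrix.trace_mul_comm]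
          simp only [Matrix.mul_assoc]
        rw [a5]
        unfold Matrix.trace
        refine Finset.sum_congr rfl fun i _ => ?_
        rw [Matrix.diag_apply, Matrix.diagonal_mul, Matrix.mul_apply]
        congr 1
        refine Finset.sum_congr rfl fun l _ => ?_
        rw [Matrix.mul_diagonal, Matrix.transpose_apply]
        ring
      rw [a4, Finset.mul_sum]
      exact Finset.sum_congr rfl fun i _ => by simp only [ht]; ring
    rw [a3]
    linarith
  -- HIGH
  have hhigh : ∑ k, ip2 (actA (WR k)ᵀ Bc) (actA (WR k)ᵀ Bc) ≤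
      8 * e / (X * s) ^ 2
            + 6 * C' * (2 * hs (P * β) + 32 * hs ((1 - P) * Z) / (X * s) ^ 2) := by
    have a1 : ∀ k, ip2 (actA (WR k)ᵀ Bc) (actA (WR k)ᵀ Bc) =
        ∑ i, ∑ j, (if z j < t i then 0 else b i ^ 2) * ((O * Bt k) i j) ^ 2 := by
      intro k
      rw [ip2_actA_self, ← hβ2, Matrix.transpose_transpose]
      have a2 : (WR k)ᵀ * (β * β) * WR k
          = V * ((Rr k)ᵀ * Matrix.diagonal (fun j => b j ^ 2) * Rr k) * Vᵀ := by
        rw [hββ]
        simp only [hWR, Matrix.transpose_mul, Matrix.transpose_transpose, ← Matrix.mul_assoc]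
        rw [Matrix.mul_assoc (V * (Rr k)ᵀ) Uᵀ U, hU, Matrix.mul_one]
        rw [Matrix.mul_assoc (V * (Rr k)ᵀ * Matrix.diagonal (fun j => b j ^ 2)) Uᵀ U, hU,
          Matrix.mul_one]
      rw [a2, Matrix.trace_mul_comm, ← Matrix.mul_assoc, hV, Matrix.one_mul]
      unfold Matrix.trace
      rw [Finset.sum_comm]
      refine Finset.sum_congr rfl fun j _ => ?_
      rw [Matrix.diag_apply, Matrix.mul_apply]
      refine Finset.sum_congr rfl fun i _ => ?_
      rw [Matrix.mul_diagonal, Matrix.transpose_apply]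
      simp only [hR, Matrix.of_apply, hM]
      split_ifs <;> ring
    rw [Finset.sum_congr rfl fun k _ => a1 k]
    refine (high_sum z hz O hO Bt C' hC'.le hrow t b (X * s) hXs hb (fun i => rfl)).trans ?_
    have a3 : ∑ i, b i ^ 2 * ∑ l, (if t i < 4 * z l then O i l ^ 2 else 0) ≤
        2 * hs (P * β) + 32 * hs ((1 - P) * Z) / (X * s) ^ 2 := by
      -- columns of `U`
      set u : Fin n → Fin n → ℝ := fun i j => U j i with hu
      have hOu : ∀ i l, O i l = (Vᵀ *ᵥ u i) l := by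
        intro i l
        simp only [hOdef, Matrix.mul_apply, Matrix.mulVec, dotProduct, Matrix.transpose_apply, hu]
        exact Finset.sum_congr rfl fun j _ => by ring
      have hβu : ∀ i, β *ᵥ u i = b i • u i := by
        intro i
        have h1 : β * U = U * Matrix.diagonal b := by
          rw [hβd, Matrix.mul_assoc, hU, Matrix.mul_one]
        funext j
        have h2 := congrFun (congrFun h1 j) i
        rw [Matrix.mul_diagonal] at h2
        simp only [Matrix.mulVec, dotProduct, hu, Pi.smul_apply, smul_eq_mul]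
        rw [Matrix.mul_apply] at h2
        rw [h2]; ring
      have hcol : ∀ A : Mt n, ∑ i, (A *ᵥ u i) ⬝ᵥ (A *ᵥ u i) = hs A := by
        intro A
        rw [← hs_mul_orth A U hU2, hs_eq_rows]
        refine Finset.sum_congr rfl fun i _ => ?_
        rfl
      have h1 : ∀ i, b i ^ 2 * ∑ l, (if t i < 4 * z l then O i l ^ 2 else 0) ≤
          2 * (((P * β) *ᵥ u i) ⬝ᵥ ((P * β) *ᵥ u i))
          + 32 / (X * s) ^ 2 * (((Z * (1 - P)) *ᵥ u i) ⬝ᵥ ((Z * (1 - P)) *ᵥ u i)) := by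
        intro i
        have hnn : ∀ v : Fin n → ℝ, 0 ≤ v ⬝ᵥ v := fun v => by
          simp only [dotProduct]; exact Finset.sum_nonneg fun i _ => mul_self_nonneg _
        rcases (hb i).eq_or_lt with h0 | h0
        · rw [← h0]
          have := hnn ((P * β) *ᵥ u i)
          have := hnn ((Z * (1 - P)) *ᵥ u i)
          have : 0 ≤ 32 / (X * s) ^ 2 * (((Z * (1 - P)) *ᵥ u i) ⬝ᵥ ((Z * (1 - P)) *ᵥ u i)) := by
            positivity
          simp only [ne_eq, OfNat.ofNat_ne_zero, not_false_eq_true, zero_pow, zero_mul]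
          positivity
        · have hti : 0 < t i := mul_pos hXs h0
          have h2 := occ V hV2 z hz Z P hZd (u i) (t i) hti
          have h3 : ∑ l, (if t i < 4 * z l then O i l ^ 2 else 0)
              = ∑ l, (if t i < 4 * z l then (Vᵀ *ᵥ u i) l ^ 2 else 0) := by
            refine Finset.sum_congr rfl fun l _ => ?_
            rw [hOu]
          rw [h3]
          refine (mul_le_mul_of_nonneg_left h2 (sq_nonneg (b i))).trans (le_of_eq ?_)
          rw [← Matrix.mulVec_mulVec, hβu i, Matrix.mulVec_smul, ← Matrix.mulVec_mulVec]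
          simp only [smul_dotProduct, dotProduct_smul, smul_eq_mul, ht]
          field_simp
      refine (Finset.sum_le_sum fun i _ => h1 i).trans (le_of_eq ?_)
      rw [Finset.sum_add_distrib, ← Finset.mul_sum, ← Finset.mul_sum, hcol, hcol]
      have hZs : Zᵀ = Z := by
        rw [hZd]; simp [Matrix.transpose_mul, Matrix.mul_assoc]
      rw [← hs_transpose (Z * (1 - P)), Matrix.transpose_mul, hZs, Matrix.transpose_sub, hPs,
        Matrix.transpose_one]
      ring
    have a4 : 8 / (X * s) ^ 2 * (∑ k, ∑ l, ∑ j, ((z l - z j) * Bt k l j) ^ 2)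
        ≤ 8 * e / (X * s) ^ 2 := by
      rw [div_mul_eq_mul_div]
      exact div_le_div_of_nonneg_right (by linarith) (by positivity)
    have a5 := mul_le_mul_of_nonneg_left a3 (by positivity : 0 ≤ 6 * C')
    linarith
  rw [hsplit]
  refine (abs_add_le _ _).trans (add_le_add ?_ ?_)
  · exact (cs_fam _ _).trans
      (mul_le_mul_of_nonneg_left (Real.sqrt_le_sqrt hlow) (Real.sqrt_nonneg _))
  · exact (cs_fam _ _).trans
      (mul_le_mul_of_nonneg_left (Real.sqrt_le_sqrt hhigh) (Real.sqrt_nonneg _))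

end MX9839

/-- MX9 the `T`-term at a point (section 5) -/
theorem tterm_point : ∀ C' : ℝ, 0 < C' → ∃ C : ℝ, 0 < C ∧ ∀ (n : ℕ) (ι : Type) [Fintype ι]
    (Z P β : Mt n) (B Pk : Fin n → Mt n) (Bc H : T2 n ι) (Gk : Fin n → T2 n ι) (X s : ℝ)
    (hX : 1 ≤ X) (hs0 : 0 < s) (hZ : Z.PosDef) (hPs : Pᵀ = P) (hP0 : LeQ 0 P) (hP1 : LeQ P 1)
    (hβ : β.PosSemidef) (hβ2 : β * β = gramA Bc Bc)
    (hB : ∀ k, (B k)ᵀ = B k) (hBb : LeQ (∑ k, B k * B k) (C' • (1 : Mt n)))
    (hPk : ∀ k, (Pk k)ᵀ = Pk k) (hH : LeQ (gramA H H) (Z * Z)) (e : ℝ)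
    (he1 : ∑ k, hs (Z * B k - B k * Z) ≤ e)
    (he2 : ∑ k, ip2 (Gk k - 2 • actA (B k) H) (Gk k - 2 • actA (B k) H) ≤ e),
    |∑ k, ip2 (actP (Pk k) Bc) (Gk k)| ≤
      C * (Real.sqrt (∑ k, ip2 (actP (Pk k) Bc) (actP (Pk k) Bc))
            * Real.sqrt (e + X * s * (β * Z).trace)
        + Real.sqrt (∑ k, ip2 (actP (Pk k) H) (actP (Pk k) H))
            * Real.sqrt (e / (X ^ 2 * s ^ 2) + hs (P * β) + hs ((1 - P) * Z) / (X ^ 2 * s ^ 2))) := by
  intro C' hC'
  refine ⟨1 + 2 * Real.sqrt (8 + 192 * C'), by positivity, ?_⟩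
  intro n ι _ Z P β B Pk Bc H Gk X s hX hs0 hZ hPs hP0 hP1 hβ hβ2 hB hBb hPk hH e he1 he2
  have hcore := MX9839.core hC' Z P β B Pk Bc H X s hX hs0 hZ hPs hβ hβ2 hB hBb hPk hH e he1
  have he : 0 ≤ e := le_trans (Finset.sum_nonneg fun k _ => MX9839.hs_nonneg _) he1
  have htr : 0 ≤ (β * Z).trace := by
    obtain ⟨U, b, hU, hU2, hb, hβd⟩ := MX9839.spec hβ
    have e1 : (β * Z).trace = (Matrix.diagonal b * (Uᵀ * Z * U)).trace := by
      rw [hβd, Matrix.mul_assoc, Matrix.mul_assoc, Matrix.trace_mul_comm]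
      simp only [Matrix.mul_assoc]
    rw [e1]
    unfold Matrix.trace
    refine Finset.sum_nonneg fun i _ => ?_
    rw [Matrix.diag_apply, Matrix.diagonal_mul]
    refine mul_nonneg (hb i) ?_
    have e2 : (Uᵀ * Z * U) i i = (fun j => U j i) ⬝ᵥ (Z *ᵥ (fun j => U j i)) := by
      simp only [Matrix.mul_apply, dotProduct, Matrix.mulVec, Matrix.transpose_apply,
        Finset.sum_mul, Finset.mul_sum]
      rw [Finset.sum_comm]
      exact Finset.sum_congr rfl fun a _ => Finset.sum_congr rfl fun c _ => by ring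
    rw [e2]
    have := hZ.posSemidef.dotProduct_mulVec_nonneg (fun j => U j i)
    simpa using this
  have hXs : 0 < X * s := mul_pos (by linarith) hs0
  set A := ∑ k, ip2 (actP (Pk k) Bc) (actP (Pk k) Bc) with hA
  set A' := ∑ k, ip2 (actP (Pk k) H) (actP (Pk k) H) with hA'
  set Q := 8 + 192 * C' with hQ
  have hQ0 : 0 < Q := by positivity
  have hhs1 := MX9839.hs_nonneg (P * β)
  have hhs2 := MX9839.hs_nonneg ((1 - P) * Z)
  have hsum : ∑ k, ip2 (actP (Pk k) Bc) (Gk k)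
      = ∑ k, ip2 (actP (Pk k) Bc) (Gk k - 2 • actA (B k) H)
        + 2 * ∑ k, ip2 (actP (Pk k) Bc) (actA (B k) H) := by
    rw [Finset.mul_sum, ← Finset.sum_add_distrib]
    refine Finset.sum_congr rfl fun k _ => ?_
    have e1 : Gk k = (Gk k - 2 • actA (B k) H) + (actA (B k) H + actA (B k) H) := by
      rw [two_smul]; abel
    conv_lhs => rw [e1]
    rw [MX9839.ip2_add_right, MX9839.ip2_add_right]
    ring
  have h1 : |∑ k, ip2 (actP (Pk k) Bc) (Gk k - 2 • actA (B k) H)| ≤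
      Real.sqrt A * Real.sqrt (e + X * s * (β * Z).trace) := by
    refine (MX9839.cs_fam _ _).trans
      (mul_le_mul_of_nonneg_left (Real.sqrt_le_sqrt ?_) (Real.sqrt_nonneg _))
    have := mul_nonneg hXs.le htr
    linarith
  have h2 : Real.sqrt (8 * e + 192 * C' * (X * s * (β * Z).trace)) ≤
      Real.sqrt Q * Real.sqrt (e + X * s * (β * Z).trace) := by
    rw [← Real.sqrt_mul hQ0.le]
    refine Real.sqrt_le_sqrt ?_
    have := mul_nonneg hXs.le htr
    rw [hQ]
    nlinarith [mul_nonneg hC'.le he, mul_nonneg hXs.le htr]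
  have h3 : Real.sqrt (8 * e / (X * s) ^ 2
            + 6 * C' * (2 * hs (P * β) + 32 * hs ((1 - P) * Z) / (X * s) ^ 2)) ≤
      Real.sqrt Q * Real.sqrt (e / (X ^ 2 * s ^ 2) + hs (P * β)
        + hs ((1 - P) * Z) / (X ^ 2 * s ^ 2)) := by
    rw [← Real.sqrt_mul hQ0.le]
    refine Real.sqrt_le_sqrt ?_
    rw [hQ, mul_pow]
    have a1 : 0 ≤ e / (X ^ 2 * s ^ 2) := by positivity
    have a2 : 0 ≤ hs ((1 - P) * Z) / (X ^ 2 * s ^ 2) := by positivity
    have e1 : 8 * e / (X ^ 2 * s ^ 2) = 8 * (e / (X ^ 2 * s ^ 2)) := by ring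
    have e2 : 32 * hs ((1 - P) * Z) / (X ^ 2 * s ^ 2) = 32 * (hs ((1 - P) * Z) / (X ^ 2 * s ^ 2)) := by
      ring
    rw [e1, e2]
    nlinarith [mul_nonneg hC'.le a1, mul_nonneg hC'.le a2, mul_nonneg hC'.le hhs1]
  have hA1 := Real.sqrt_nonneg A
  have hA2 := Real.sqrt_nonneg A'
  rw [hsum]
  refine (abs_add_le _ _).trans ?_
  rw [abs_mul, abs_of_pos (by norm_num : (0:ℝ) < 2)]
  set S1 := Real.sqrt (e + X * s * (β * Z).trace) with hS1
  set S2 := Real.sqrt (e / (X ^ 2 * s ^ 2) + hs (P * β)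
        + hs ((1 - P) * Z) / (X ^ 2 * s ^ 2)) with hS2
  have h4 : Real.sqrt A * Real.sqrt (8 * e + 192 * C' * (X * s * (β * Z).trace)) ≤
      Real.sqrt Q * (Real.sqrt A * S1) :=
    (mul_le_mul_of_nonneg_left h2 hA1).trans (le_of_eq (by ring))
  have h5 : Real.sqrt A' * Real.sqrt (8 * e / (X * s) ^ 2
            + 6 * C' * (2 * hs (P * β) + 32 * hs ((1 - P) * Z) / (X * s) ^ 2)) ≤
      Real.sqrt Q * (Real.sqrt A' * S2) :=
    (mul_le_mul_of_nonneg_left h3 hA2).trans (le_of_eq (by ring))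
  have h6 : 0 ≤ Real.sqrt A' * S2 := mul_nonneg hA2 (Real.sqrt_nonneg _)
  have h7 : (1 + 2 * Real.sqrt Q) * (Real.sqrt A * S1 + Real.sqrt A' * S2)
      = Real.sqrt A * S1 + Real.sqrt A' * S2 + 2 * (Real.sqrt Q * (Real.sqrt A * S1))
        + 2 * (Real.sqrt Q * (Real.sqrt A' * S2)) := by ring
  rw [h7]
  linarith

end Crest.Agent.R201
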