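import Crest.Agent.R201.FA_150
import Crest.Agent.R201.MX9_839

/-!
# R201, leaf FD5 (`fsl`, section 5 integrated), part a: tools (helper839)
-/

set_option autoImplicit false
open MeasureTheory Matrix

namespace Crest.Agent.R201.FD5839

open Crest.Agent.R201.MX9839 Crest.Agent.R201.Tw807

variable {n : ℕ}

section alg

variable {ι : Type*} [Fintype ι]

theorem ip2_actP_self (X : T2 n ι) (W : Mt n) :
    ip2 (actP W X) (actP W X) = ((mP X)ᵀ * (Wᵀ * W) * mP X).trace := by
  rw [ip2_eq_mP, mP_actP, Matrix.trace_mul_comm, Matrix.transpose_mul]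
  simp only [Matrix.mul_assoc]

theorem ip2_self_mP (X : T2 n ι) : ip2 X X = ((mP X)ᵀ * (1 : Mt n) * mP X).trace := by
  rw [ip2_eq_mP, Matrix.trace_mul_comm, Matrix.mul_one]

theorem trace_gramA (X : T2 n ι) : (gramA X X).trace = ip2 X X := by
  rw [gramA_eq, ip2_eq_mA]

theorem sum_trace {m m' κ : Type*} [Fintype m] [Fintype m'] [Fintype κ] (A : Matrix m m' ℝ)
    (Q : κ → Matrix m m ℝ) : ∑ k, (Aᵀ * Q k * A).trace = (Aᵀ * (∑ k, Q k) * A).trace := by
  rw [Matrix.mul_sum, Matrix.sum_mul, Matrix.trace_sum]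

end alg

variable (K : KD n)

theorem P_sq_le (x : E n) : LeQ (K.P x * K.P x) (K.P x) :=
  FA150.sq_le_self (K.P_symm x) (K.P_nonneg x) (K.P_le x)

theorem Q_sq_le (x : E n) : LeQ ((1 - K.P x) * (1 - K.P x)) (1 - K.P x) := by
  obtain ⟨h1, h2, h3⟩ := FA150.one_sub_facts K x
  exact FA150.sq_le_self h1 h2 h3

theorem sq_nonneg' {A : Mt n} (hA : Aᵀ = A) : LeQ 0 (A * A) := by
  intro u
  rw [zero_mulVec, dotProduct_zero, ← mulVec_mulVec, dotProduct_mulVec, ← mulVec_transpose, hA]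
  simp only [dotProduct]
  exact Finset.sum_nonneg fun i _ => mul_self_nonneg _

theorem PQ_le_P (x : E n) : LeQ (K.P x * (1 - K.P x)) (K.P x) := by
  intro u
  have h := sq_nonneg' (K.P_symm x) u
  rw [zero_mulVec, dotProduct_zero] at h
  rw [Matrix.mul_sub, Matrix.mul_one, sub_mulVec, dotProduct_sub]
  linarith

theorem PQ_le_Q (x : E n) : LeQ (K.P x * (1 - K.P x)) (1 - K.P x) := by
  intro u
  have h := sq_nonneg' (FA150.one_sub_facts K x).1 u
  rw [zero_mulVec, dotProduct_zero] at h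
  have e : K.P x * (1 - K.P x) = (1 - K.P x) - (1 - K.P x) * (1 - K.P x) := by
    noncomm_ring
  rw [e, sub_mulVec, dotProduct_sub]
  linarith

theorem pdM_P_symm (k : Fin n) (x : E n) : (pdM k K.P x)ᵀ = pdM k K.P x := by
  ext i j
  simp only [pdM, Matrix.transpose_apply, Matrix.of_apply]
  congr 1
  funext y
  exact congrFun (congrFun (K.P_symm y) i) j

variable {ι : Type*} [Fintype ι]

/-- `Σ_k |(D_k P) X|² ≤ (4/h) ⟨P(1-P) X, X⟩` -/
theorem sum_dP (x : E n) (X : T2 n ι) :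
    ∑ k, ip2 (actP (pdM k K.P x) X) (actP (pdM k K.P x) X) ≤
      (4 / K.h) * ((mP X)ᵀ * (K.P x * (1 - K.P x)) * mP X).trace := by
  have e : ∀ k, ip2 (actP (pdM k K.P x) X) (actP (pdM k K.P x) X)
      = ((mP X)ᵀ * (pdM k K.P x * pdM k K.P x) * mP X).trace := by
    intro k; rw [ip2_actP_self, pdM_P_symm]
  rw [Finset.sum_congr rfl fun k _ => e k, sum_trace]
  refine (FA150.LeQ.trace_le (K.P_grad x) _).trans (le_of_eq ?_)
  rw [Matrix.mul_smul, Matrix.smul_mul, Matrix.trace_smul, smul_eq_mul]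

theorem four_h_pos : 0 < 4 / K.h := by have := K.h_pos; positivity

theorem sum_dP_le_P (x : E n) (X : T2 n ι) :
    ∑ k, ip2 (actP (pdM k K.P x) X) (actP (pdM k K.P x) X) ≤
      (4 / K.h) * ((mP X)ᵀ * K.P x * mP X).trace :=
  (sum_dP K x X).trans (mul_le_mul_of_nonneg_left (FA150.LeQ.trace_le (PQ_le_P K x) _)
    (four_h_pos K).le)

theorem sum_dP_le_Q (x : E n) (X : T2 n ι) :
    ∑ k, ip2 (actP (pdM k K.P x) X) (actP (pdM k K.P x) X) ≤
      (4 / K.h) * ((mP X)ᵀ * (1 - K.P x) * mP X).trace :=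
  (sum_dP K x X).trans (mul_le_mul_of_nonneg_left (FA150.LeQ.trace_le (PQ_le_Q K x) _)
    (four_h_pos K).le)

/-- `∫ ⟨P A, A⟩ ≤ η² |A|²` for a constant matrix `A` -/
theorem int_P {m' : Type*} [Fintype m'] (A : Matrix (Fin n) m' ℝ) :
    Integrable (fun x => (Aᵀ * K.P x * A).trace) K.μ ∧
      ∫ x, (Aᵀ * K.P x * A).trace ∂K.μ ≤ K.η ^ 2 * (Aᵀ * A).trace := by
  have e : ∀ x, (Aᵀ * K.P x * A).trace = ∑ j, ∑ i, ∑ i', A i j * A i' j * K.P x i i' := by
    intro x
    rw [FA150.trq]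
    simp only [dotProduct, mulVec, Finset.mul_sum]
    exact Finset.sum_congr rfl fun j _ => Finset.sum_congr rfl fun i _ =>
      Finset.sum_congr rfl fun i' _ => by ring
  have hint : ∀ j i i', Integrable (fun x => A i j * A i' j * K.P x i i') K.μ :=
    fun j i i' => (int_cb K (K.P_cb i i')).const_mul _
  simp only [e]
  refine ⟨integrable_finsetSum _ fun j _ => integrable_finsetSum _ fun i _ =>
    integrable_finsetSum _ fun i' _ => hint j i i', ?_⟩
  have e2 : ∫ x, ∑ j, ∑ i, ∑ i', A i j * A i' j * K.P x i i' ∂K.μ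
      = (Aᵀ * (Matrix.of fun i j => ∫ x, K.P x i j ∂K.μ) * A).trace := by
    rw [integral_finsetSum _ fun j _ => integrable_finsetSum _ fun i _ =>
      integrable_finsetSum _ fun i' _ => hint j i i', FA150.trq]
    refine Finset.sum_congr rfl fun j _ => ?_
    rw [integral_finsetSum _ fun i _ => integrable_finsetSum _ fun i' _ => hint j i i']
    simp only [dotProduct, mulVec, Finset.mul_sum, Matrix.of_apply]
    refine Finset.sum_congr rfl fun i _ => ?_
    rw [integral_finsetSum _ fun i' _ => hint j i i']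
    refine Finset.sum_congr rfl fun i' _ => ?_
    rw [integral_const_mul]; ring
  rw [e2]
  refine (FA150.LeQ.trace_le K.P_mean A).trans (le_of_eq ?_)
  rw [Matrix.mul_smul, Matrix.smul_mul, Matrix.trace_smul, smul_eq_mul, Matrix.mul_one]

/-- integral Cauchy–Schwarz -/
theorem cs_int {α : Type*} [MeasurableSpace α] {μ : Measure α} {a b : α → ℝ}
    (ha : Integrable a μ) (hb : Integrable b μ) (ha0 : ∀ x, 0 ≤ a x) (hb0 : ∀ x, 0 ≤ b x) :
    Integrable (fun x => Real.sqrt (a x) * Real.sqrt (b x)) μ ∧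
      ∫ x, Real.sqrt (a x) * Real.sqrt (b x) ∂μ ≤
        Real.sqrt (∫ x, a x ∂μ) * Real.sqrt (∫ x, b x ∂μ) := by
  have hint : Integrable (fun x => Real.sqrt (a x) * Real.sqrt (b x)) μ := by
    refine Integrable.mono' (ha.add hb) ?_ (Filter.Eventually.of_forall fun x => ?_)
    · exact (Real.continuous_sqrt.comp_aestronglyMeasurable ha.1).mul
        (Real.continuous_sqrt.comp_aestronglyMeasurable hb.1)
    · have h1 := Real.sqrt_nonneg (a x)
      have h2 := Real.sqrt_nonneg (b x)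
      rw [Real.norm_eq_abs, abs_of_nonneg (mul_nonneg h1 h2), Pi.add_apply]
      nlinarith [Real.sq_sqrt (ha0 x), Real.sq_sqrt (hb0 x),
        sq_nonneg (Real.sqrt (a x) - Real.sqrt (b x)), sq_nonneg (Real.sqrt (a x) + Real.sqrt (b x))]
  refine ⟨hint, ?_⟩
  set I := ∫ x, Real.sqrt (a x) * Real.sqrt (b x) ∂μ
  have key : ∀ s : ℝ, 0 ≤ (∫ x, a x ∂μ) * (s * s) + (2 * I) * s + ∫ x, b x ∂μ := by
    intro s
    have h : 0 ≤ ∫ x, (s * Real.sqrt (a x) + Real.sqrt (b x)) ^ 2 ∂μ :=
      integral_nonneg fun x => sq_nonneg _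
    have e : ∀ x, (s * Real.sqrt (a x) + Real.sqrt (b x)) ^ 2
        = (s * s) * a x + (2 * s) * (Real.sqrt (a x) * Real.sqrt (b x)) + b x := by
      intro x
      have h1 := Real.sq_sqrt (ha0 x)
      have h2 := Real.sq_sqrt (hb0 x)
      linear_combination (s * s) * h1 + h2
    simp only [e] at h
    have i1 : Integrable (fun x => (s * s) * a x) μ := ha.const_mul _
    have i2 : Integrable (fun x => (2 * s) * (Real.sqrt (a x) * Real.sqrt (b x))) μ :=
      hint.const_mul _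
    have i12 : Integrable (fun x => (s * s) * a x
        + (2 * s) * (Real.sqrt (a x) * Real.sqrt (b x))) μ := i1.add i2
    rw [integral_add i12 hb, integral_add i1 i2, integral_const_mul, integral_const_mul] at h
    linarith
  have hd := discrim_le_zero key
  unfold discrim at hd
  have hA : 0 ≤ ∫ x, a x ∂μ := integral_nonneg ha0
  rw [← Real.sqrt_mul hA]
  exact Real.le_sqrt_of_sq_le (by nlinarith)

end Crest.Agent.R201.FD5839
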