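import Crest.Agent.R201.FD5a_839

/-!
# R201, leaf FD5 (`fsl`), part b: the test field `Φ = P^{(p)} Bc` (helper839)
-/

set_option autoImplicit false
open MeasureTheory Matrix

namespace Crest.Agent.R201.FD5839

open Crest.Agent.R201.MX9839 Crest.Agent.R201.Tw807

variable {n : ℕ} (K : KD n) {ι : Type*} [Fintype ι]

/-- the test field -/
noncomputable def Phi (Bc : T2 n ι) (x : E n) : T2 n ι := actP (K.P x) Bc

omit [Fintype ι] in
theorem cb_Phi (Bc : T2 n ι) : ∀ i, CB (fam2 (Phi K Bc) i) := by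
  rintro ⟨a, p, i⟩
  have : fam2 (Phi K Bc) (a, p, i) = fun x => ∑ p', K.P x p p' * Bc a p' i := rfl
  rw [this]
  exact CB.sum _ fun p' _ => CB.mul (K.P_cb p p') (CB.const _)

omit [Fintype ι] in
theorem pd2_Phi (Bc : T2 n ι) (k : Fin n) (x : E n) :
    pd2 k (Phi K Bc) x = actP (pdM k K.P x) Bc := by
  funext a p i
  have h : ∀ p', DifferentiableAt ℝ (fun y => K.P y p p') x := fun p' =>
    cb_diff (K.P_cb p p') x
  show pd k (fun y => ∑ p', K.P y p p' * Bc a p' i) x = ∑ p', pdM k K.P x p p' * Bc a p' i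
  rw [pd_sum _ _ fun p' _ => (h p').mul_const _]
  refine Finset.sum_congr rfl fun p' _ => ?_
  rw [show (fun y => K.P y p p' * Bc a p' i) = fun y => Bc a p' i * K.P y p p' from
    funext fun y => mul_comm _ _, pd_const_mul _ _ (h p'), mul_comm]
  rfl

variable {K}

theorem int_ip2 {F G : E n → T2 n ι} (hF : ∀ i, CB (fam2 F i)) (hG : ∀ i, CB (fam2 G i)) :
    Integrable (fun x => ip2 (F x) (G x)) K.μ ∧
      ∫ x, ip2 (F x) (G x) ∂K.μ = ∑ i, ∫ x, fam2 F i x * fam2 G i x ∂K.μ := by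
  have e : ∀ x, ip2 (F x) (G x) = ∑ i, fam2 F i x * fam2 G i x := by
    intro x; simp [ip2, fam2, Fintype.sum_prod_type]
  simp only [e]
  exact ⟨integrable_finsetSum _ fun i _ => int_mul_cb (hF i) (hG i),
    integral_finsetSum _ fun i _ => int_mul_cb (hF i) (hG i)⟩

theorem int_ip2_pd {F G : E n → T2 n ι} (hF : ∀ i, CB (fam2 F i)) (hG : ∀ i, CB (fam2 G i)) :
    Integrable (fun x => ∑ k, ip2 (pd2 k F x) (pd2 k G x)) K.μ ∧
      ∫ x, ∑ k, ip2 (pd2 k F x) (pd2 k G x) ∂K.μ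
        = ∑ i, ∑ k, ∫ x, pd k (fam2 F i) x * pd k (fam2 G i) x ∂K.μ := by
  have e : ∀ x, ∑ k, ip2 (pd2 k F x) (pd2 k G x)
      = ∑ i, ∑ k, pd k (fam2 F i) x * pd k (fam2 G i) x := by
    intro x
    rw [Finset.sum_comm]
    refine Finset.sum_congr rfl fun k _ => ?_
    simp only [ip2, Fintype.sum_prod_type]
    rfl
  have hb : ∀ i k, Integrable (fun x => pd k (fam2 F i) x * pd k (fam2 G i) x) K.μ :=
    fun i k => (memLp_pd K (hF i) k 2).integrable_mul (memLp_pd K (hG i) k 2)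
  simp only [e]
  refine ⟨integrable_finsetSum _ fun i _ => integrable_finsetSum _ fun k _ => hb i k, ?_⟩
  rw [integral_finsetSum _ fun i _ => integrable_finsetSum _ fun k _ => hb i k]
  exact Finset.sum_congr rfl fun i _ => integral_finsetSum _ fun k _ => hb i k

/-- the decomposition of `qb` -/
theorem qb_eq {F G : E n → T2 n ι} (hF : ∀ i, CB (fam2 F i)) (hG : ∀ i, CB (fam2 G i)) :
    K.qb (fam2 F) (fam2 G) = (∫ x, ∑ k, ip2 (pd2 k F x) (pd2 k G x) ∂K.μ)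
      + K.kp * (∑ i, ∑ k, (∫ x, K.ω k x * fam2 F i x ∂K.μ) * (∫ x, K.ω k x * fam2 G i x ∂K.μ))
      - (1 + K.ε) * ((∫ x, ip2 (F x) (G x) ∂K.μ)
          - ∑ i, (∫ x, fam2 F i x ∂K.μ) * (∫ x, fam2 G i x ∂K.μ)) := by
  rw [(int_ip2_pd hF hG).2, (int_ip2 hF hG).2]
  unfold KD.qb
  rw [Finset.sum_sub_distrib, Finset.sum_add_distrib, ← Finset.mul_sum, ← Finset.mul_sum,
    Finset.sum_sub_distrib]

theorem nsq_eq {F : E n → T2 n ι} (hF : ∀ i, CB (fam2 F i)) :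
    nsq K.μ (fam2 F) = ∫ x, ip2 (F x) (F x) ∂K.μ := by
  rw [(int_ip2 hF hF).2]
  simp only [nsq, sq]

theorem dsq_eq {F : E n → T2 n ι} (hF : ∀ i, CB (fam2 F i)) :
    dsq K.μ (fam2 F) = ∫ x, ∑ k, ip2 (pd2 k F x) (pd2 k F x) ∂K.μ := by
  rw [(int_ip2_pd hF hF).2]
  simp only [dsq, sq]

theorem msq_le_nsq {κ : Type*} [Fintype κ] {f : κ → E n → ℝ} (hf : ∀ i, CB (f i)) :
    msq K.μ f ≤ nsq K.μ f :=
  Finset.sum_le_sum fun i _ => FA150.sq_int_le K (hf i)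

theorem tsq_le_nsq {κ : Type*} [Fintype κ] {f : κ → E n → ℝ} (hf : ∀ i, CB (f i)) :
    tsq K.μ K.ω f ≤ K.ν * nsq K.μ f := by
  unfold tsq nsq
  rw [Finset.mul_sum]
  exact Finset.sum_le_sum fun i _ => K.ω_le (f i) (memLp_cb K (hf i) 2)

/-- Cauchy–Schwarz for two finite families of numbers -/
theorem cs_fin {κ : Type*} [Fintype κ] (a b : κ → ℝ) :
    |∑ i, a i * b i| ≤ Real.sqrt (∑ i, a i ^ 2) * Real.sqrt (∑ i, b i ^ 2) := by
  rw [← Real.sqrt_mul (Finset.sum_nonneg fun i _ => sq_nonneg _)]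
  exact Real.abs_le_sqrt (Finset.sum_mul_sq_le_sq_mul_sq _ _ _)

section Phi

variable (K) (Bc : T2 n ι) (hBc : ip2 Bc Bc ≤ 1)
include hBc

theorem nsq_Phi : nsq K.μ (fam2 (Phi K Bc)) ≤ K.η ^ 2 := by
  rw [nsq_eq (cb_Phi K Bc)]
  have h1 : ∀ x, ip2 (Phi K Bc x) (Phi K Bc x) ≤ ((mP Bc)ᵀ * K.P x * mP Bc).trace := by
    intro x
    unfold Phi
    rw [ip2_actP_self, K.P_symm]
    exact FA150.LeQ.trace_le (P_sq_le K x) _
  refine (integral_mono (int_ip2 (cb_Phi K Bc) (cb_Phi K Bc)).1 (int_P K (mP Bc)).1 h1).trans ?_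
  refine (int_P K (mP Bc)).2.trans ?_
  have h2 : ((mP Bc)ᵀ * mP Bc).trace = ip2 Bc Bc := by
    rw [ip2_self_mP, Matrix.mul_one]
  rw [h2]
  nlinarith [sq_nonneg K.η]

theorem dsq_Phi : dsq K.μ (fam2 (Phi K Bc)) ≤ 4 / K.h * K.η ^ 2 := by
  rw [dsq_eq (cb_Phi K Bc)]
  have h1 : ∀ x, ∑ k, ip2 (pd2 k (Phi K Bc) x) (pd2 k (Phi K Bc) x) ≤
      4 / K.h * ((mP Bc)ᵀ * K.P x * mP Bc).trace := by
    intro x
    simp only [pd2_Phi]
    exact sum_dP_le_P K x Bc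
  refine (integral_mono (int_ip2_pd (cb_Phi K Bc) (cb_Phi K Bc)).1
    ((int_P K (mP Bc)).1.const_mul _) h1).trans ?_
  rw [integral_const_mul]
  refine mul_le_mul_of_nonneg_left ((int_P K (mP Bc)).2.trans ?_) (four_h_pos K).le
  have h2 : ((mP Bc)ᵀ * mP Bc).trace = ip2 Bc Bc := by
    rw [ip2_self_mP, Matrix.mul_one]
  rw [h2]
  nlinarith [sq_nonneg K.η]

theorem tsq_Phi : tsq K.μ K.ω (fam2 (Phi K Bc)) ≤ K.η ^ 2 := by
  have h1 := tsq_le_nsq (K := K) (cb_Phi K Bc)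
  have h2 := nsq_Phi K Bc hBc
  have h3 := K.ν_le
  have h4 := K.ν_nonneg
  have h5 : 0 ≤ nsq K.μ (fam2 (Phi K Bc)) := by
    unfold nsq; exact Finset.sum_nonneg fun i _ => integral_nonneg fun x => sq_nonneg _
  nlinarith

theorem msq_Phi : msq K.μ (fam2 (Phi K Bc)) ≤ K.η ^ 2 :=
  (msq_le_nsq (cb_Phi K Bc)).trans (nsq_Phi K Bc hBc)

theorem q_Phi : K.q (fam2 (Phi K Bc)) ≤ (4 / K.h + 6) * K.η ^ 2 := by
  have h1 := dsq_Phi K Bc hBc
  have h2 := tsq_Phi K Bc hBc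
  have h3 := msq_Phi K Bc hBc
  have h4 : 0 ≤ nsq K.μ (fam2 (Phi K Bc)) := by
    unfold nsq; exact Finset.sum_nonneg fun i _ => integral_nonneg fun x => sq_nonneg _
  have h5 := K.kp_le
  have h6 := K.kp_pos
  have h7 := K.ε_le
  have h8 := K.ε_nonneg
  have h9 : 0 ≤ tsq K.μ K.ω (fam2 (Phi K Bc)) := by
    unfold tsq; exact Finset.sum_nonneg fun i _ => Finset.sum_nonneg fun k _ => sq_nonneg _
  have h10 : 0 ≤ msq K.μ (fam2 (Phi K Bc)) := by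
    unfold msq; exact Finset.sum_nonneg fun i _ => sq_nonneg _
  unfold KD.q
  nlinarith

end Phi

end Crest.Agent.R201.FD5839
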