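import Crest.Agent.R201.FD4_947
import Crest.Agent.R201.MX1_354

/-!
# R201, KLS half (helper947): FD7' (`Z' ≤ 11 Z`, hence the means)
-/

set_option autoImplicit false
open MeasureTheory Matrix

namespace Crest.Agent.R201.N947

variable {n : ℕ} {K : KD n}

/-- entrywise integral -/
noncomputable def intM (K : KD n) (Z : E n → Mt n) : Mt n :=
  Matrix.of fun i j => ∫ x, Z x i j ∂K.μ

theorem msq_famM (Z : E n → Mt n) : msq K.μ (famM Z) = hs (intM K Z) := by
  simp only [msq, famM, hs, intM, Fintype.sum_prod_type, Matrix.of_apply]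

theorem quad_int {Z : E n → Mt n} (hZ : ∀ i j, Integrable (fun x => Z x i j) K.μ) (u : Fin n → ℝ) :
    u ⬝ᵥ (intM K Z *ᵥ u) = ∫ x, u ⬝ᵥ (Z x *ᵥ u) ∂K.μ := by
  simp only [dotProduct, mulVec, intM, Matrix.of_apply, Finset.mul_sum]
  rw [integral_finsetSum _ fun i _ => integrable_finsetSum _ fun j _ =>
    ((hZ i j).mul_const (u j)).const_mul (u i)]
  refine Finset.sum_congr rfl fun i _ => ?_
  rw [integral_finsetSum _ fun j _ => ((hZ i j).mul_const (u j)).const_mul (u i)]
  refine Finset.sum_congr rfl fun j _ => ?_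
  rw [integral_const_mul, integral_mul_const]

theorem posSemidef_of_quad {A : Mt n} (hA : Aᵀ = A) (h : ∀ u : Fin n → ℝ, 0 ≤ u ⬝ᵥ (A *ᵥ u)) :
    A.PosSemidef := by
  refine PosSemidef.of_dotProduct_mulVec_nonneg ?_ ?_
  · rw [IsHermitian, conjTranspose_eq_transpose_of_trivial, hA]
  · intro u
    simpa using h u

theorem posSemidef_intM {Z : E n → Mt n} (hZ : ∀ i j, Integrable (fun x => Z x i j) K.μ)
    (h : ∀ x, (Z x).PosSemidef) : (intM K Z).PosSemidef := by
  refine posSemidef_of_quad ?_ ?_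
  · ext i j
    simp only [intM, transpose_apply, Matrix.of_apply]
    refine integral_congr_ae (Filter.Eventually.of_forall fun x => ?_)
    have := congrFun (congrFun (MX354.posSemidef_transpose (h x)) i) j
    simpa using this
  · intro u
    rw [quad_int hZ]
    refine integral_nonneg fun x => ?_
    have := (h x).dotProduct_mulVec_nonneg u
    simpa using this

theorem hs_mono {A B : Mt n} (hA : A.PosSemidef) (hB : B.PosSemidef) (h : (B - A).PosSemidef) :
    hs A ≤ hs B := by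
  have h1 := MX354.trace_mul_nonneg hA h
  have h2 := MX354.trace_mul_nonneg hB h
  rw [Matrix.mul_sub, trace_sub] at h1 h2
  rw [MX354.hs_eq_trace, MX354.hs_eq_trace, MX354.posSemidef_transpose hA,
    MX354.posSemidef_transpose hB]
  rw [trace_mul_comm B A] at h2
  linarith

/-- the Gram matrix of `M'` -/
theorem gram_bigM {R : Type} [Fintype R] (M : T3 n R) (Mp : Fin n → T3 n R) :
    gram (bigM M Mp) (bigM M Mp) =
      (1 / 16 : ℝ) • gram M M + ∑ k, gram (Mp k) (Mp k) := by
  ext a a'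
  simp only [gram, bigM, Matrix.of_apply, Matrix.add_apply, Matrix.smul_apply, Matrix.sum_apply,
    Fintype.sum_sum_type, Sum.elim_inl, Sum.elim_inr, smul_eq_mul, Fintype.sum_prod_type]
  have e : ∑ b, ∑ c, (∑ r, M a b c r / 4 * (M a' b c r / 4)
        + ∑ r, ∑ k, Mp k a b c r * Mp k a' b c r)
      = ∑ b, ∑ c, ∑ r, M a b c r / 4 * (M a' b c r / 4)
        + ∑ b, ∑ c, ∑ r, ∑ k, Mp k a b c r * Mp k a' b c r := by
    simp only [Finset.sum_add_distrib]
  rw [e]
  congr 1
  · simp only [Finset.mul_sum]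
    refine Finset.sum_congr rfl fun b _ => Finset.sum_congr rfl fun c _ =>
      Finset.sum_congr rfl fun r _ => ?_
    ring
  · have e1 : ∀ b c, ∑ r, ∑ k, Mp k a b c r * Mp k a' b c r
        = ∑ k, ∑ r, Mp k a b c r * Mp k a' b c r := fun b c => Finset.sum_comm
    simp only [e1]
    have e2 : ∀ b, ∑ c, ∑ k, ∑ r, Mp k a b c r * Mp k a' b c r
        = ∑ k, ∑ c, ∑ r, Mp k a b c r * Mp k a' b c r := fun b => Finset.sum_comm
    simp only [e2]
    exact Finset.sum_comm

/-- `11 Z - Z' ≥ 0` pointwise -/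
theorem eleven {R : Type} [Fintype R] {a : ℝ} {M : E n → T3 n R} {Mp : Fin n → E n → T3 n R}
    {Z Z' : E n → Mt n} (hp : Pack K R a M Z)
    (hp' : Pack K (R ⊕ (R × Fin n)) a (fun x => bigM (M x) (fun k => Mp k x)) Z')
    (hx : Ext K R a M Mp Z) (x : E n) : ((11 : ℝ) • Z x - Z' x).PosSemidef := by
  have hZ := (hp.Zpos x).posSemidef
  have hZ' := (hp'.Zpos x).posSemidef
  have h11 : ((11 : ℝ) • Z x).PosSemidef := hZ.smul (by norm_num)
  refine MX354.sub_posSemidef h11 (MX354.posSemidef_transpose hZ') ?_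
  intro u
  have h1 : Z' x * Z' x = (1 / 16 : ℝ) • (Z x * Z x) + ∑ k, gram (Mp k x) (Mp k x) := by
    rw [hp'.Zsq x, gram_bigM, hp.Zsq x]
  have h2 := hx.gramle x u
  have h3 : 0 ≤ u ⬝ᵥ ((Z x * Z x) *ᵥ u) := by
    rw [MX354.dot_mulVec_self (MX354.posSemidef_transpose hZ)]
    exact Finset.sum_nonneg fun i _ => mul_self_nonneg _
  rw [h1]
  simp only [add_mulVec, dotProduct_add, smul_mulVec, dotProduct_smul, smul_eq_mul,
    Matrix.smul_mul, Matrix.mul_smul] at h2 ⊢
  nlinarith

theorem meanZ'' {R : Type} [Fintype R] {a : ℝ} {M : E n → T3 n R}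
    {Mp : Fin n → E n → T3 n R} {Z Z' : E n → Mt n} (hp : Pack K R a M Z)
    (hp' : Pack K (R ⊕ (R × Fin n)) a (fun x => bigM (M x) (fun k => Mp k x)) Z')
    (hx : Ext K R a M Mp Z) (hZ : ∀ i, CB (famM Z i)) (hZ' : ∀ i, CB (famM Z' i)) :
    msq K.μ (famM Z') ≤ 121 * msq K.μ (famM Z) := by
  have i1 : ∀ i j, Integrable (fun x => Z x i j) K.μ := fun i j => Tw807.int_cb K (hZ (i, j))
  have i2 : ∀ i j, Integrable (fun x => Z' x i j) K.μ := fun i j => Tw807.int_cb K (hZ' (i, j))
  rw [msq_famM, msq_famM]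
  have p1 := posSemidef_intM (K := K) i1 fun x => (hp.Zpos x).posSemidef
  have p2 := posSemidef_intM (K := K) i2 fun x => (hp'.Zpos x).posSemidef
  have p3 := posSemidef_intM (K := K) (Z := fun x => (11 : ℝ) • Z x - Z' x)
    (fun i j => ((i1 i j).const_mul 11).sub (i2 i j)) (fun x => eleven hp hp' hx x)
  have e : intM K (fun x => (11 : ℝ) • Z x - Z' x) = (11 : ℝ) • intM K Z - intM K Z' := by
    ext i j
    simp only [intM, Matrix.of_apply, Matrix.sub_apply, Matrix.smul_apply, smul_eq_mul]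
    rw [integral_sub ((i1 i j).const_mul 11) (i2 i j), integral_const_mul]
  rw [e] at p3
  have h := hs_mono p2 (p1.smul (by norm_num : (0:ℝ) ≤ 11)) p3
  rw [NB152.hs_smul] at h
  norm_num at h
  exact h

end Crest.Agent.R201.N947
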