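import Crest.Agent.R201.FA_150
import Crest.Agent.R201.FD7p_947

/-!
# R201, KLS half (helper150): FD6 (slow growth, integrated)
The leaves MX8, FD3, FD3' are hypotheses here, literally as in `Leaves_74.lean`.
-/

set_option autoImplicit false
open MeasureTheory Matrix

namespace Crest.Agent.R201.FD6150

open Crest.Agent.R201.FA150

/-- MX8, literal -/
def SlowPoint : Prop := ∃ C' C : ℝ, 0 < C' ∧ 0 < C ∧ ∀ (n : ℕ) (R : Type) [Fintype R]
    (p : PtD n R) (Mp : Fin n → T3 n R) (p' : PtD n (R ⊕ (R × Fin n)))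
    (_hM' : p'.M = bigM p.M Mp)
    (_hN' : ∀ k a b c r, p'.N k a b c (Sum.inl r) = p.N k a b c r / 4)
    (_hMp : ∀ k, Sym3 (Mp k)) (d : ℝ) (_hd : 0 < d)
    (Sd : Fin n → Mt n) (_hSd : ∀ k, (Sd k)ᵀ = Sd k)
    (_hSd' : ∀ k,
      Sd k * rt ((p.Z - 2 • p'.Z) * (p.Z - 2 • p'.Z) + d ^ 2 • 1)
        + rt ((p.Z - 2 • p'.Z) * (p.Z - 2 • p'.Z) + d ^ 2 • 1) * Sd k
      = (p.Z - 2 • p'.Z) * (p.Y k - 2 • p'.Y k) + (p.Y k - 2 • p'.Y k) * (p.Z - 2 • p'.Z))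
    (e : ℝ) (_he : p.err + p'.err + (∑ k, ip (p.N k - Mp k) (p.N k - Mp k)) + n * d ^ 2 ≤ e),
    ∃ (B : Fin n → Mt n) (Θ L : Mt n), Conn p C' (C * e) B ∧
      Θᵀ = Θ ∧ Θ * Θ = Θ ∧ Lᵀ = L ∧ LeQ 0 L ∧ LeQ L (32 • (1 : Mt n)) ∧
      L * (4 • ∑ k, B k * B k) = 1 - Θ ∧
      (∑ k, hs ((1 / 2 : ℝ) • ((p.Y k - 2 • p'.Y k) + Sd k)) ≤
        (1 / 2) * hs (ppd d (p.Z - 2 • p'.Z)) + C * e) ∧
      hs (Θ * p.Z) ≤ C * (hs (ppd d (p.Z - 2 • p'.Z)) + e)

/-- FD3, literal -/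
def RootField : Prop := ∀ (n : ℕ) (K : KD n) (R : Type) [Fintype R] (a : ℝ) (M : E n → T3 n R)
    (Z : E n → Mt n) (_hp : Pack K R a M Z),
    (∀ i, CB (famM Z i)) ∧ (∀ x k, (pdM k Z x)ᵀ = pdM k Z x) ∧
    ∀ x k, pdM k Z x * Z x + Z x * pdM k Z x
      = gram (pdT k M x) (M x) + gram (M x) (pdT k M x)

/-- FD3', literal -/
def PpdField : Prop := ∀ (n : ℕ) (W : E n → Mt n) (_hW : ∀ i, CB (famM W i))
    (_hWs : ∀ x, (W x)ᵀ = W x) (d : ℝ) (_hd : 0 < d),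
    (∀ i, CB (famM (fun x => ppd d (W x)) i)) ∧
    ∀ k x, ∃ S : Mt n, Sᵀ = S ∧
      S * rt (W x * W x + d ^ 2 • 1) + rt (W x * W x + d ^ 2 • 1) * S
        = W x * pdM k W x + pdM k W x * W x ∧
      pdM k (fun y => ppd d (W y)) x = (1 / 2 : ℝ) • (pdM k W x + S)

/-- FD6, literal -/
def SlowField : Prop := ∃ C' C : ℝ, 0 < C' ∧ 0 < C ∧ ∀ (n : ℕ) (K : KD n) (R : Type) [Fintype R]
    (a D : ℝ) (M : E n → T3 n R) (Mp : Fin n → E n → T3 n R) (Z Z' : E n → Mt n),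
    Ctx K R a D M Mp Z Z' → K.η ≤ 1 / 100 →
    ∃ e : E n → ℝ, Integrable e K.μ ∧ (∫ x, e x ∂K.μ ≤ C * D) ∧
      ∀ x, ∃ (B : Fin n → Mt n) (Θ L : Mt n),
        (∀ k, (B k)ᵀ = B k) ∧ LeQ (∑ k, B k * B k) (C' • (1 : Mt n)) ∧
        (∑ k, hs (Z x * B k - B k * Z x) ≤ e x) ∧
        (∑ k, ip (pdT k M x - 2 • act1 (B k) (M x)) (pdT k M x - 2 • act1 (B k) (M x)) ≤ e x) ∧
        (∑ k, ip (pdT k M x - 2 • act2 (B k) (M x)) (pdT k M x - 2 • act2 (B k) (M x)) ≤ e x) ∧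
        (∑ k, ip (pdT k M x - 2 • act3 (B k) (M x)) (pdT k M x - 2 • act3 (B k) (M x)) ≤ e x) ∧
        (∑ k, hs (pdM k Z x - 2 • (B k * Z x)) ≤ e x) ∧
        (∑ k, hs (pdM k Z x - 2 • (Z x * B k)) ≤ e x) ∧
        Θᵀ = Θ ∧ Θ * Θ = Θ ∧ Lᵀ = L ∧ LeQ 0 L ∧ LeQ L (32 • (1 : Mt n)) ∧
        L * (4 • ∑ k, B k * B k) = 1 - Θ ∧ hs (Θ * Z x) ≤ e x

variable {n : ℕ}

/-! ### pointwise -/

theorem two_nsmul_mt (A : Mt n) : (2 : ℕ) • A = (2 : ℝ) • A := by
  ext i j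
  simp [Matrix.smul_apply]

theorem sub_two_apply (A B : Mt n) (i j : Fin n) : (A - 2 • B) i j = A i j - 2 * B i j := by
  rw [two_nsmul_mt, Matrix.sub_apply, Matrix.smul_apply, smul_eq_mul]

/-- the smooth positive part -/
theorem ppd_facts {W : Mt n} (hW : Wᵀ = W) {d : ℝ} :
    (ppd d W)ᵀ = ppd d W ∧
    ppd d W * ppd d W = (1 / 2 : ℝ) • (W * ppd d W + ppd d W * W) + (d ^ 2 / 4) • (1 : Mt n) := by
  have hS : (W * W + d ^ 2 • (1 : Mt n)).PosSemidef := by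
    have h1 := MX354.posSemidef_mul_transpose W
    rw [hW] at h1
    exact h1.add (PosSemidef.one.smul (sq_nonneg d))
  obtain ⟨h1, h2⟩ := MX354.rt_spec hS
  have h3 := MX354.posSemidef_transpose h1
  unfold ppd
  refine ⟨?_, ?_⟩
  · rw [transpose_smul, transpose_add, hW, h3]
  · simp only [Matrix.smul_mul, Matrix.mul_smul, Matrix.add_mul, Matrix.mul_add, h2]
    module

theorem tr_form_ge {Q : Mt n} (hQ : Qᵀ = Q) (h0 : LeQ 0 Q) (A B : Mt n) :
    (Aᵀ * Q * B).trace = (Bᵀ * Q * A).trace ∧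
    2 * (Aᵀ * Q * B).trace ≤ (Aᵀ * Q * A).trace + (Bᵀ * Q * B).trace ∧
    -(2 * (Aᵀ * Q * B).trace) ≤ (Aᵀ * Q * A).trace + (Bᵀ * Q * B).trace := by
  have e : (Aᵀ * Q * B).trace = (Bᵀ * Q * A).trace := by
    rw [← trace_transpose, transpose_mul, transpose_mul, transpose_transpose, hQ, Matrix.mul_assoc]
  refine ⟨e, ?_, ?_⟩
  · have h := LeQ.trace_nonneg h0 (A - B)
    rw [transpose_sub, Matrix.sub_mul, Matrix.sub_mul, Matrix.mul_sub, Matrix.mul_sub, trace_sub,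
      trace_sub, trace_sub, ← e] at h
    linarith
  · have h := LeQ.trace_nonneg h0 (A + B)
    rw [transpose_add, Matrix.add_mul, Matrix.add_mul, Matrix.mul_add, Matrix.mul_add, trace_add,
      trace_add, trace_add, ← e] at h
    linarith

theorem tr_ppd {Q W : Mt n} (hQ : Qᵀ = Q) (h0 : LeQ 0 Q) (h1 : LeQ Q 1) (hW : Wᵀ = W) (d : ℝ) :
    ((ppd d W)ᵀ * Q * ppd d W).trace ≤ (Wᵀ * Q * W).trace + n * d ^ 2 / 2 := by
  obtain ⟨hF, hFF⟩ := ppd_facts (d := d) hW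
  set F := ppd d W with hFdef
  obtain ⟨e1, e2, -⟩ := tr_form_ge hQ h0 F W
  have e3 : (Fᵀ * Q * F).trace = (F * F * Q).trace := by
    rw [hF, trace_mul_comm, ← Matrix.mul_assoc]
  have e4 : (F * F * Q).trace = (1 / 2 : ℝ) * ((W * F * Q).trace + (F * W * Q).trace)
      + d ^ 2 / 4 * Q.trace := by
    rw [hFF]
    simp only [Matrix.add_mul, Matrix.smul_mul, trace_add, trace_smul, Matrix.one_mul,
      smul_eq_mul]
  have e5 : (W * F * Q).trace = (Fᵀ * Q * W).trace := by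
    rw [hF, Matrix.mul_assoc, trace_mul_comm]
  have e6 : (F * W * Q).trace = (Wᵀ * Q * F).trace := by
    rw [hW, Matrix.mul_assoc, trace_mul_comm]
  have e7 : Q.trace ≤ n := by
    have := LeQ.trace_le h1 (1 : Mt n)
    simpa using this
  have h8 : d ^ 2 / 4 * Q.trace ≤ d ^ 2 / 4 * n := mul_le_mul_of_nonneg_left e7 (by positivity)
  linarith

theorem tr_W {Q Z Z' : Mt n} (hQ : Qᵀ = Q) (h0 : LeQ 0 Q) :
    ((Z - (2 : ℝ) • Z')ᵀ * Q * (Z - (2 : ℝ) • Z')).trace ≤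
      2 * (Zᵀ * Q * Z).trace + 8 * (Z'ᵀ * Q * Z').trace := by
  obtain ⟨e1, -, e3⟩ := tr_form_ge hQ h0 Z ((2 : ℝ) • Z')
  rw [transpose_sub, Matrix.sub_mul, Matrix.sub_mul, Matrix.mul_sub, Matrix.mul_sub, trace_sub,
      trace_sub, trace_sub]
  have e4 : ((((2 : ℝ) • Z')ᵀ) * Q * ((2 : ℝ) • Z')).trace = 4 * (Z'ᵀ * Q * Z').trace := by
    rw [transpose_smul]
    simp only [Matrix.smul_mul, Matrix.mul_smul, trace_smul, smul_eq_mul]
    ring
  linarith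

theorem sym3_pdT {R : Type} {M : E n → T3 n R} (h : ∀ x, Sym3 (M x)) (k : Fin n) (x : E n) :
    Sym3 (pdT k M x) := by
  refine ⟨fun a b c r => ?_, fun a b c r => ?_⟩
  · unfold pdT
    congr 1
    funext y
    exact (h y).1 a b c r
  · unfold pdT
    congr 1
    funext y
    exact (h y).2 a b c r

theorem sum_gram {R : Type} [Fintype R] (Q : Mt n) (M : T3 n R) :
    ∑ i : Fin n × Fin n × R, ∑ p, ∑ p', Q p p' * M p i.1 i.2.1 i.2.2 * M p' i.1 i.2.1 i.2.2 =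
      (Q * gram M M).trace := by
  unfold trace
  simp only [diag_apply, Matrix.mul_apply, gram, Matrix.of_apply]
  rw [Finset.sum_comm]
  refine Finset.sum_congr rfl fun p _ => ?_
  rw [Finset.sum_comm]
  refine Finset.sum_congr rfl fun p' _ => ?_
  rw [Fintype.sum_prod_type]
  simp only [Fintype.sum_prod_type, Finset.mul_sum]
  refine Finset.sum_congr rfl fun a _ => Finset.sum_congr rfl fun b _ =>
    Finset.sum_congr rfl fun c _ => ?_
  ring

variable {K : KD n}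

/-- the `(1-P)`-energy of `Z` -/
theorem en_Z {R : Type} [Fintype R] {a : ℝ} {M : E n → T3 n R} {Z : E n → Mt n}
    (hp : Pack K R a M Z) : ∫ x, ((Z x)ᵀ * (1 - K.P x) * Z x).trace ∂K.μ ≤ a := by
  refine le_trans (le_of_eq ?_) hp.enM
  unfold en
  refine integral_congr_ae (Filter.Eventually.of_forall fun x => ?_)
  have hZ := MX354.posSemidef_transpose (hp.Zpos x).posSemidef
  have e : ((Z x)ᵀ * (1 - K.P x) * Z x).trace = ((1 - K.P x) * (Z x * Z x)).trace := by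
    rw [hZ, trace_mul_comm, ← Matrix.mul_assoc, trace_mul_comm]
  change ((Z x)ᵀ * (1 - K.P x) * Z x).trace = _
  rw [e, hp.Zsq x]
  exact (sum_gram (1 - K.P x) (M x)).symm

theorem tsq_le {F : E n → Mt n} (hF : ∀ i, CB (famM F i)) :
    tsq K.μ K.ω (famM F) ≤ K.ν * nsq K.μ (famM F) := by
  unfold tsq nsq
  rw [Finset.mul_sum]
  exact Finset.sum_le_sum fun i _ => K.ω_le _ (Tw807.memLp_cb K (hF i) 2)

theorem int_ip_sub {R : Type} [Fintype R] {M N : E n → T3 n R} (hM : ∀ i, CB (fam3 M i))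
    (hN : ∀ i, CB (fam3 N i)) (k : Fin n) :
    Integrable (fun x => ip (pdT k M x - N x) (pdT k M x - N x)) K.μ := by
  unfold ip
  refine integrable_finsetSum _ fun a _ => integrable_finsetSum _ fun b _ =>
    integrable_finsetSum _ fun c _ => integrable_finsetSum _ fun r _ => ?_
  have h := ((Tw807.memLp_pd K (hM (a, b, c, r)) k 2).sub
    (Tw807.memLp_cb K (hN (a, b, c, r)) 2)).integrable_sq
  refine h.congr (Filter.Eventually.of_forall fun x => ?_)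
  simp only [Pi.sub_apply, sq]
  rfl

/-- pointwise data of a pack -/
noncomputable def ptD {R : Type} [Fintype R] {a : ℝ} {M : E n → T3 n R} {Z : E n → Mt n}
    (hp : Pack K R a M Z)
    (hr1 : ∀ x k, (pdM k Z x)ᵀ = pdM k Z x)
    (hr2 : ∀ x k, pdM k Z x * Z x + Z x * pdM k Z x
      = gram (pdT k M x) (M x) + gram (M x) (pdT k M x))
    (Err : E n → Mt n) (hE0 : ∀ x, LeQ 0 (Err x))
    (hE : ∀ x, LeQ (∑ k, gram (pdT k M x) (pdT k M x)) ((200 : ℝ) • (Z x * Z x) + Err x))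
    (x : E n) : PtD n R where
  M := M x
  N := fun k => pdT k M x
  Z := Z x
  Y := fun k => pdM k Z x
  Err := Err x
  symM := hp.sym x
  symN := fun k => sym3_pdT hp.sym k x
  Zpos := hp.Zpos x
  Zsq := hp.Zsq x
  Ysymm := hr1 x
  Ysq := hr2 x
  Errpos := hE0 x
  growth := hE x

/-- the budget of one pack: defect and growth error -/
theorem budget {R : Type} [Fintype R] {a : ℝ} {M : E n → T3 n R} {Z : E n → Mt n}
    (hp : Pack K R a M Z) (hZ : ∀ i, CB (famM Z i)) (Err : E n → Mt n)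
    (hEi : ∀ i j, Integrable (fun x => Err x i j) K.μ) (hEa : ∫ x, (Err x).trace ∂K.μ ≤ a) :
    Integrable (fun x => (∑ k, (ip (pdT k M x) (pdT k M x) - hs (pdM k Z x)))
      + (Err x).trace) K.μ ∧
    ∫ x, ((∑ k, (ip (pdT k M x) (pdT k M x) - hs (pdM k Z x))) + (Err x).trace) ∂K.μ ≤
      2 * a + 4 * tsq K.μ K.ω (famM Z) + 2 * msq K.μ (famM Z) := by
  have i1 : Integrable (fun x => ∑ k, (ip (pdT k M x) (pdT k M x) - hs (pdM k Z x))) K.μ :=
    integrable_finsetSum _ fun k _ => (N947.int_ip_pd hp.cb k).1.sub (N947.int_hs_pd hZ k).1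
  have i2 : Integrable (fun x => (Err x).trace) K.μ := by
    unfold trace
    exact integrable_finsetSum _ fun i _ => hEi i i
  refine ⟨i1.add i2, ?_⟩
  rw [integral_add i1 i2]
  have h1 := N947.defect_le' hp hZ
  have h2 := q_nonneg K (famM Z) hZ
  linarith

theorem cb_W {Z Z' : E n → Mt n} (hZ : ∀ i, CB (famM Z i)) (hZ' : ∀ i, CB (famM Z' i)) :
    ∀ i, CB (famM (fun x => Z x - 2 • Z' x) i) := by
  rintro ⟨i, j⟩
  have e : famM (fun x => Z x - 2 • Z' x) (i, j) = fun x => Z x i j - 2 * Z' x i j := by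
    funext x
    exact sub_two_apply _ _ _ _
  rw [e]
  exact CB.sub (hZ (i, j)) (CB.const_mul 2 (hZ' (i, j)))

theorem pdM_W {Z Z' : E n → Mt n} (hZ : ∀ i, CB (famM Z i)) (hZ' : ∀ i, CB (famM Z' i))
    (k : Fin n) (x : E n) :
    pdM k (fun x => Z x - 2 • Z' x) x = pdM k Z x - 2 • pdM k Z' x := by
  ext i j
  rw [sub_two_apply]
  have e : (fun y => (Z y - 2 • Z' y) i j) = fun y => Z y i j - 2 * Z' y i j := by
    funext y
    exact sub_two_apply _ _ _ _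
  have h1 : pd k (fun y => Z y i j - 2 * Z' y i j) x =
      pd k (fun y => Z y i j) x - 2 * pd k (fun y => Z' y i j) x := by
    refine (Tw807.pd_sub k (Tw807.cb_diff (hZ (i, j)) x)
      ((Tw807.cb_diff (hZ' (i, j)) x).const_mul 2)).trans ?_
    congr 1
    exact Tw807.pd_const_mul 2 k (Tw807.cb_diff (hZ' (i, j)) x)
  change pd k (fun y => (Z y - 2 • Z' y) i j) x = pd k (fun y => Z y i j) x - 2 * pd k (fun y => Z' y i j) x
  rw [e, h1]

theorem pdT_big {R : Type} {M : E n → T3 n R} {Mp : Fin n → E n → T3 n R}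
    [Fintype R] (hM : ∀ i, CB (fam3 M i)) (k a b c : Fin n) (r : R) (x : E n) :
    pdT k (fun x => bigM (M x) (fun k => Mp k x)) x a b c (Sum.inl r) = pdT k M x a b c r / 4 := by
  unfold pdT bigM
  simp only [Sum.elim_inl]
  have e : (fun y => M y a b c r / 4) = fun y => (1 / 4) * M y a b c r := by
    funext y
    ring
  rw [e]
  have := Tw807.pd_const_mul (1 / 4) k (Tw807.cb_diff (hM (a, b, c, r)) x)
  refine this.trans ?_
  have e2 : fam3 M (a, b, c, r) = fun y => M y a b c r := rfl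
  rw [e2]
  ring

/-- the numerical closing -/
theorem close {N dq m t T ν ε kp η D C1 : ℝ} (hε : 0 ≤ ε) (hε' : ε ≤ 1 / 100) (_hkp : 0 ≤ kp)
    (hkp' : kp ≤ 4) (hν : ν ≤ 1 / 100) (hη0 : 0 ≤ η) (hη : η ≤ 1 / 100)
    (hD : 0 < D) (hC1 : 0 < C1) (hN : 0 ≤ N) (hm0 : 0 ≤ m) (ht0 : 0 ≤ t)
    (hq : 0 ≤ dq + kp * t - (1 + ε) * (N - m)) (hd : dq ≤ N / 2 + C1 * (258 * D))
    (ht : t ≤ ν * N) (hm : m ≤ 2 * T + 2 * (η ^ 2 * N)) (hT : T ≤ 21 / 2 * D) :
    N ≤ 3 * (258 * C1 + 22) * D := by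
  have h1 : kp * t ≤ 4 * (1 / 100 * N) := by
    have a1 : kp * t ≤ 4 * t := mul_le_mul_of_nonneg_right hkp' ht0
    have a2 : ν * N ≤ 1 / 100 * N := mul_le_mul_of_nonneg_right hν hN
    linarith
  have h2 : η ^ 2 * N ≤ 1 / 10000 * N := by
    refine mul_le_mul_of_nonneg_right ?_ hN
    nlinarith
  have h3 : (1 + ε) * m ≤ (1 + 1 / 100) * m := by
    refine mul_le_mul_of_nonneg_right ?_ hm0
    linarith
  have h4 : N ≤ (1 + ε) * N := by nlinarith
  have h5 : (1 + ε) * (N - m) = (1 + ε) * N - (1 + ε) * m := by ring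
  have h6 : 0 < C1 * D := mul_pos hC1 hD
  nlinarith

theorem slow_field_of (h8 : SlowPoint) (h3 : RootField) (h3' : PpdField) : SlowField := by
  obtain ⟨C', C1, hC', hC1, hpt⟩ := h8
  refine ⟨C', C1 * (3 * (258 * C1 + 22) + 258), hC', by positivity, ?_⟩
  intro n K R _ a D M Mp Z Z' hc hη
  have hprob := K.prob
  obtain ⟨cZ, sZ, rZ⟩ := h3 n K R a M Z hc.pk
  obtain ⟨cZ', sZ', rZ'⟩ := h3 n K _ a _ Z' hc.pk'
  obtain ⟨Err, hEi, hE0, hEa, hEg⟩ := hc.pk.growth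
  obtain ⟨Err', hEi', hE0', hEa', hEg'⟩ := hc.pk'.growth
  have hD := hc.D_pos
  -- the scale
  obtain ⟨d, hd0, hnd⟩ : ∃ d : ℝ, 0 < d ∧ (n : ℝ) * d ^ 2 ≤ D := by
    refine ⟨Real.sqrt (D / (n + 1)), Real.sqrt_pos.mpr (by positivity), ?_⟩
    rw [Real.sq_sqrt (by positivity), mul_div_assoc', div_le_iff₀ (by positivity)]
    nlinarith
  -- `W`
  have hZs : ∀ x, (Z x)ᵀ = Z x := fun x => MX354.posSemidef_transpose (hc.pk.Zpos x).posSemidef
  have hZs' : ∀ x, (Z' x)ᵀ = Z' x :=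
    fun x => MX354.posSemidef_transpose (hc.pk'.Zpos x).posSemidef
  obtain ⟨W, hW⟩ : ∃ W : E n → Mt n, W = fun x => Z x - 2 • Z' x := ⟨_, rfl⟩
  have cW : ∀ i, CB (famM W i) := by rw [hW]; exact cb_W cZ cZ'
  have pW : ∀ k x, pdM k W x = pdM k Z x - 2 • pdM k Z' x := by
    intro k x
    rw [hW]
    exact pdM_W cZ cZ' k x
  have eW : ∀ x, W x = Z x - 2 • Z' x := fun x => by rw [hW]
  have hWs : ∀ x, (W x)ᵀ = W x := fun x => by
    rw [eW, transpose_sub, hZs, two_nsmul_mt, transpose_smul, hZs']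
  obtain ⟨cF, hS⟩ := h3' n W cW hWs d hd0
  choose S hSs hSl hSp using hS
  -- errors
  obtain ⟨i1, b1⟩ := budget hc.pk cZ Err hEi hEa
  obtain ⟨i2, b2⟩ := budget hc.pk' cZ' Err' hEi' hEa'
  have i3 : Integrable (fun x => ∑ k, ip (pdT k M x - Mp k x) (pdT k M x - Mp k x)) K.μ :=
    integrable_finsetSum _ fun k _ => int_ip_sub hc.pk.cb (hc.ex.cb k) k
  have b3 : ∫ x, (∑ k, ip (pdT k M x - Mp k x) (pdT k M x - Mp k x)) ∂K.μ ≤ a := by
    rw [integral_finsetSum _ fun k _ => int_ip_sub hc.pk.cb (hc.ex.cb k) k]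
    exact hc.ex.near
  obtain ⟨E1, hE1⟩ : ∃ E1 : E n → ℝ, E1 = fun x =>
    (∑ k, (ip (pdT k M x) (pdT k M x) - hs (pdM k Z x))) + (Err x).trace := ⟨_, rfl⟩
  obtain ⟨E2, hE2⟩ : ∃ E2 : E n → ℝ, E2 = fun x =>
    (∑ k, (ip (pdT k (fun x => bigM (M x) (fun k => Mp k x)) x)
      (pdT k (fun x => bigM (M x) (fun k => Mp k x)) x) - hs (pdM k Z' x))) + (Err' x).trace :=
    ⟨_, rfl⟩
  obtain ⟨E3, hE3⟩ : ∃ E3 : E n → ℝ, E3 = fun x =>
    ∑ k, ip (pdT k M x - Mp k x) (pdT k M x - Mp k x) := ⟨_, rfl⟩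
  rw [← hE1] at i1 b1
  rw [← hE2] at i2 b2
  rw [← hE3] at i3 b3
  obtain ⟨e0, he0⟩ : ∃ e0 : E n → ℝ, e0 = fun x => E1 x + E2 x + E3 x + n * d ^ 2 := ⟨_, rfl⟩
  have i12 : Integrable (fun x => E1 x + E2 x) K.μ := i1.add i2
  have i123 : Integrable (fun x => E1 x + E2 x + E3 x) K.μ := i12.add i3
  have ie0 : Integrable e0 K.μ := by
    rw [he0]
    exact i123.add (integrable_const _)
  have be0 : ∫ x, e0 x ∂K.μ ≤ 258 * D := by
    have e : ∫ x, e0 x ∂K.μ = (∫ x, E1 x ∂K.μ) + (∫ x, E2 x ∂K.μ) + (∫ x, E3 x ∂K.μ)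
        + n * d ^ 2 := by
      rw [he0]
      rw [integral_add i123 (integrable_const _), integral_add i12 i3, integral_add i1 i2,
        integral_const]
      simp
    have h7 := N947.meanZ'' hc.pk hc.pk' hc.ex cZ cZ'
    have h8 := hc.a_le
    have h9 := hc.mZ
    have h10 := hc.tZ
    have h11 := hc.tZ'
    rw [e]
    linarith
  -- the point lemma
  have key : ∀ x, ∃ (B : Fin n → Mt n) (Θ L : Mt n),
      Conn (ptD hc.pk sZ rZ Err hE0 hEg x) C' (C1 * e0 x) B ∧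
      Θᵀ = Θ ∧ Θ * Θ = Θ ∧ Lᵀ = L ∧ LeQ 0 L ∧ LeQ L (32 • (1 : Mt n)) ∧
      L * (4 • ∑ k, B k * B k) = 1 - Θ ∧
      (∑ k, hs (pdM k (fun y => ppd d (W y)) x) ≤ (1 / 2) * hs (ppd d (W x)) + C1 * e0 x) ∧
      hs (Θ * Z x) ≤ C1 * (hs (ppd d (W x)) + e0 x) := by
    intro x
    have h := hpt n R (ptD hc.pk sZ rZ Err hE0 hEg x) (fun k => Mp k x)
      (ptD hc.pk' sZ' rZ' Err' hE0' hEg' x) rfl
      (fun k a b c r => pdT_big hc.pk.cb k a b c r x) (fun k => hc.ex.sym k x) d hd0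
      (fun k => S k x) (fun k => hSs k x) (fun k => by
        have h := hSl k x
        rw [pW, eW] at h
        exact h) (e0 x) (by
        rw [he0, hE1, hE2, hE3]
        exact le_rfl)
    obtain ⟨B, Θ, L, h1, h2, h3, h4, h5, h6, h7, h8, h9⟩ := h
    refine ⟨B, Θ, L, h1, h2, h3, h4, h5, h6, h7, ?_, ?_⟩
    · rw [eW]
      refine le_trans (le_of_eq ?_) h8
      refine Finset.sum_congr rfl fun k _ => ?_
      rw [hSp k x, pW]
      rfl
    · rw [eW]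
      exact h9
  -- the norm of the positive part
  have iF : Integrable (fun x => hs (ppd d (W x))) K.μ := int_hs K cF
  have hN : nsq K.μ (famM fun x => ppd d (W x)) = ∫ x, hs (ppd d (W x)) ∂K.μ := nsq_fam K cF
  have hdq : dsq K.μ (famM fun x => ppd d (W x)) ≤
      nsq K.μ (famM fun x => ppd d (W x)) / 2 + C1 * (258 * D) := by
    rw [dsq_fam K cF, hN]
    have h1 : ∫ x, ∑ k, hs (pdM k (fun x => ppd d (W x)) x) ∂K.μ ≤
        ∫ x, ((1 / 2) * hs (ppd d (W x)) + C1 * e0 x) ∂K.μ := by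
      refine integral_mono (integrable_finsetSum _ fun k _ => int_hs_pd K cF k)
        ((iF.const_mul _).add (ie0.const_mul _)) fun x => ?_
      obtain ⟨B, Θ, L, -, -, -, -, -, -, -, h, -⟩ := key x
      exact h
    rw [integral_add (iF.const_mul _) (ie0.const_mul _), integral_const_mul,
      integral_const_mul] at h1
    have h2 := mul_le_mul_of_nonneg_left be0 hC1.le
    linarith
  have hT : ∫ x, ((ppd d (W x))ᵀ * (1 - K.P x) * ppd d (W x)).trace ∂K.μ ≤ 21 / 2 * D := by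
    have iq : ∀ {F : E n → Mt n}, (∀ i, CB (famM F i)) →
        Integrable (fun x => ((F x)ᵀ * (1 - K.P x) * F x).trace) K.μ := fun hF =>
      int_trace K (cb_mulM (cb_mulM (cb_transpose hF) (cb_one_sub_P K)) hF)
    have h1 : ∫ x, ((ppd d (W x))ᵀ * (1 - K.P x) * ppd d (W x)).trace ∂K.μ ≤
        ∫ x, ((2 * ((Z x)ᵀ * (1 - K.P x) * Z x).trace
          + 8 * ((Z' x)ᵀ * (1 - K.P x) * Z' x).trace) + n * d ^ 2 / 2) ∂K.μ := by
      refine integral_mono (iq cF)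
        ((((iq cZ).const_mul _).add ((iq cZ').const_mul _)).add (integrable_const _)) fun x => ?_
      obtain ⟨q1, q2, q3⟩ := one_sub_facts K x
      have h1 := tr_ppd q1 q2 q3 (hWs x) d
      have h2 := tr_W (Z := Z x) (Z' := Z' x) q1 q2
      rw [← two_nsmul_mt, ← eW] at h2
      change ((ppd d (W x))ᵀ * (1 - K.P x) * ppd d (W x)).trace ≤
        (2 * ((Z x)ᵀ * (1 - K.P x) * Z x).trace
          + 8 * ((Z' x)ᵀ * (1 - K.P x) * Z' x).trace) + n * d ^ 2 / 2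
      linarith
    have i4 : Integrable (fun x => 2 * ((Z x)ᵀ * (1 - K.P x) * Z x).trace
          + 8 * ((Z' x)ᵀ * (1 - K.P x) * Z' x).trace) K.μ :=
      ((iq cZ).const_mul _).add ((iq cZ').const_mul _)
    rw [integral_add i4 (integrable_const _), integral_add ((iq cZ).const_mul _)
      ((iq cZ').const_mul _), integral_const_mul, integral_const_mul, integral_const] at h1
    have h2 := en_Z hc.pk
    have h3 := en_Z hc.pk'
    have h4 := hc.a_le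
    rw [probReal_univ, one_smul] at h1
    linarith
  have hfin : nsq K.μ (famM fun x => ppd d (W x)) ≤ 3 * (258 * C1 + 22) * D :=
    close K.ε_nonneg K.ε_le K.kp_pos K.kp_le K.ν_le K.η_pos.le hη hD hC1
      (Finset.sum_nonneg fun _ _ => integral_nonneg fun _ => sq_nonneg _)
      (N947.msq_nonneg _) (N947.tsq_nonneg _) (q_nonneg K _ cF) hdq (tsq_le cF)
      (msq_le K cF) hT
  refine ⟨fun x => C1 * (hs (ppd d (W x)) + e0 x), (iF.add ie0).const_mul _, ?_, fun x => ?_⟩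
  · rw [integral_const_mul, integral_add iF ie0, ← hN, mul_assoc C1]
    refine mul_le_mul_of_nonneg_left ?_ hC1.le
    linarith
  · obtain ⟨B, Θ, L, h1, h2, h3, h4, h5, h6, h7, h8, h9⟩ := key x
    have hle : C1 * e0 x ≤ C1 * (hs (ppd d (W x)) + e0 x) := by
      refine mul_le_mul_of_nonneg_left ?_ hC1.le
      linarith [hs_nonneg (ppd d (W x))]
    exact ⟨B, Θ, L, h1.symm, h1.bdd, h1.comm.trans hle, h1.e1.trans hle, h1.e2.trans hle,
      h1.e3.trans hle, h1.eZ.trans hle, h1.eZ'.trans hle, h2, h3, h4, h5, h6, h7, h9⟩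

end Crest.Agent.R201.FD6150
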