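import Crest.Agent.R201.Defs2_74

/-!
# R201, leaf MX11 (`affinity`), helper354

Complex interpolation replaced by an eigenvector argument: a bilinear form bounded in two weighted
norms is bounded in the geometric mean norm (`interp`).  The affinity bound of doc 1859 section 9(i)
is the case of the weights `X Ra`, `Ra' X` and `Rk Y`, `Y Rk'`.
-/

set_option autoImplicit false
open MeasureTheory Matrix

namespace Crest.Agent.R201.MX354

open Crest.Agent.R201

section Interp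

variable {I J : Type*} [Fintype I] [Fintype J]

lemma contr_of [DecidableEq I] (N : Matrix I J ℝ)
    (a : I → ℝ) (b : J → ℝ) (ha : ∀ i, 0 < a i) (hb : ∀ j, 0 < b j)
    (h1 : ∀ x y, (x ⬝ᵥ (N *ᵥ y)) ^ 2 ≤ (∑ i, a i * x i ^ 2) * (∑ j, b j * y j ^ 2))
    (h2 : ∀ x y, (x ⬝ᵥ (N *ᵥ y)) ^ 2 ≤ (∑ i, x i ^ 2 / a i) * (∑ j, y j ^ 2 / b j))
    (x : I → ℝ) (y : J → ℝ) :
    (x ⬝ᵥ (N *ᵥ y)) ^ 2 ≤ (x ⬝ᵥ x) * (y ⬝ᵥ y) := by
  have hH : (1 - N * Nᵀ).IsHermitian := by
    rw [IsHermitian, conjTranspose_eq_transpose_of_trivial, transpose_sub, transpose_mul,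
      transpose_transpose, transpose_one]
  have hpos : (1 - N * Nᵀ).PosSemidef := by
    rw [hH.posSemidef_iff_eigenvalues_nonneg]
    intro i
    by_contra hlt
    simp only [Pi.zero_apply, not_le] at hlt
    set mu := hH.eigenvalues i with hmu
    set v : I → ℝ := ⇑(hH.eigenvectorBasis i) with hv
    have hev : (1 - N * Nᵀ) *ᵥ v = mu • v := hH.mulVec_eigenvectorBasis i
    have hvv : v ⬝ᵥ v = 1 := by
      have h1 := hH.eigenvectorBasis.orthonormal.1 i
      have h2 : ‖hH.eigenvectorBasis i‖ ^ 2 = 1 := by rw [h1]; norm_num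
      rw [EuclideanSpace.real_norm_sq_eq] at h2
      rw [← h2]
      simp [dotProduct, sq, hv]
    have hNv : N *ᵥ (Nᵀ *ᵥ v) = (1 - mu) • v := by
      rw [sub_mulVec, one_mulVec] at hev
      rw [mulVec_mulVec, sub_smul, one_smul, ← hev]; abel
    set y : J → ℝ := Nᵀ *ᵥ v with hy
    set lam := 1 - mu with hlam
    have hlam1 : 1 < lam := by rw [hlam]; linarith
    set A := ∑ i, v i ^ 2 / a i with hA
    set B := ∑ j, b j * y j ^ 2 with hB
    have e1 := h1 (fun i => v i / a i) y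
    have f1 : (fun i => v i / a i) ⬝ᵥ (N *ᵥ y) = lam * A := by
      rw [hNv, hA, Finset.mul_sum]
      simp only [dotProduct, Pi.smul_apply, smul_eq_mul]
      exact Finset.sum_congr rfl fun i _ => by ring
    have f2 : ∑ i, a i * (v i / a i) ^ 2 = A := by
      rw [hA]
      refine Finset.sum_congr rfl fun i _ => ?_
      have := (ha i).ne'
      field_simp
    have e2 := h2 v (fun j => b j * y j)
    have f3 : v ⬝ᵥ (N *ᵥ fun j => b j * y j) = B := by
      rw [dotProduct_mulVec, ← mulVec_transpose, ← hy, hB]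
      simp only [dotProduct]
      exact Finset.sum_congr rfl fun i _ => by ring
    have f4 : ∑ j, (b j * y j) ^ 2 / b j = B := by
      rw [hB]
      refine Finset.sum_congr rfl fun j _ => ?_
      have := (hb j).ne'
      field_simp
    rw [f1, f2, ← hB] at e1
    rw [f3, f4, ← hA] at e2
    have hA0 : 0 < A := by
      obtain ⟨i0, hi0⟩ : ∃ i0, v i0 ≠ 0 := by
        by_contra hne
        push Not at hne
        have : v ⬝ᵥ v = 0 := by simp [dotProduct, hne]
        linarith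
      rw [hA]
      refine Finset.sum_pos' (fun i _ => div_nonneg (sq_nonneg _) (ha i).le)
        ⟨i0, Finset.mem_univ _, div_pos (by positivity) (ha i0)⟩
    have hB0 : 0 ≤ B := Finset.sum_nonneg fun j _ => mul_nonneg (hb j).le (sq_nonneg _)
    have g1 : lam ^ 2 * A ≤ B := by
      have : A * (lam ^ 2 * A) ≤ A * B := by
        have h9 : A * (lam ^ 2 * A) = (lam * A) ^ 2 := by ring
        rw [h9]; exact e1
      exact le_of_mul_le_mul_left this hA0
    have g2 : B ≤ A := by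
      rcases hB0.lt_or_eq with hp | h0
      · refine le_of_mul_le_mul_right ?_ hp
        rw [← sq]; exact e2
      · rw [← h0]; exact hA0.le
    have g3 : (lam ^ 2 - 1) * A ≤ 0 := by linarith
    have g4 : 0 < lam ^ 2 - 1 := by nlinarith
    exact absurd g3 (not_le.mpr (mul_pos g4 hA0))
  have h3 : (Nᵀ *ᵥ x) ⬝ᵥ (Nᵀ *ᵥ x) ≤ x ⬝ᵥ x := by
    have h := hpos.dotProduct_mulVec_nonneg x
    rw [star_trivial, sub_mulVec, dotProduct_sub, one_mulVec, ← mulVec_mulVec, dotProduct_mulVec x N,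
      ← mulVec_transpose] at h
    linarith
  have h4 : x ⬝ᵥ (N *ᵥ y) = (Nᵀ *ᵥ x) ⬝ᵥ y := by
    rw [dotProduct_mulVec, ← mulVec_transpose]
  rw [h4]
  have h5 : ((Nᵀ *ᵥ x) ⬝ᵥ y) ^ 2 ≤ ((Nᵀ *ᵥ x) ⬝ᵥ (Nᵀ *ᵥ x)) * (y ⬝ᵥ y) := by
    have := Finset.sum_mul_sq_le_sq_mul_sq Finset.univ (Nᵀ *ᵥ x) y
    simpa [dotProduct, sq] using this
  have h6 : 0 ≤ y ⬝ᵥ y := by
    simp only [dotProduct]
    exact Finset.sum_nonneg fun _ _ => mul_self_nonneg _
  exact h5.trans (mul_le_mul_of_nonneg_right h3 h6)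

lemma interp_pos [DecidableEq I] (F : Matrix I J ℝ) (p p' : I → ℝ) (q q' : J → ℝ)
    (hp : ∀ i, 0 < p i) (hp' : ∀ i, 0 < p' i) (hq : ∀ j, 0 < q j) (hq' : ∀ j, 0 < q' j)
    (h1 : ∀ x y, (x ⬝ᵥ (F *ᵥ y)) ^ 2 ≤ (∑ i, (p i * x i) ^ 2) * (∑ j, (q j * y j) ^ 2))
    (h2 : ∀ x y, (x ⬝ᵥ (F *ᵥ y)) ^ 2 ≤ (∑ i, (p' i * x i) ^ 2) * (∑ j, (q' j * y j) ^ 2))
    (x : I → ℝ) (y : J → ℝ) :
    (x ⬝ᵥ (F *ᵥ y)) ^ 2 ≤ (∑ i, p i * p' i * x i ^ 2) * (∑ j, q j * q' j * y j ^ 2) := by
  set s : I → ℝ := fun i => Real.sqrt (p i * p' i) with hs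
  set t : J → ℝ := fun j => Real.sqrt (q j * q' j) with ht
  have hs0 : ∀ i, 0 < s i := fun i => Real.sqrt_pos.mpr (mul_pos (hp i) (hp' i))
  have ht0 : ∀ j, 0 < t j := fun j => Real.sqrt_pos.mpr (mul_pos (hq j) (hq' j))
  have hs2 : ∀ i, s i ^ 2 = p i * p' i := fun i => Real.sq_sqrt (mul_pos (hp i) (hp' i)).le
  have ht2 : ∀ j, t j ^ 2 = q j * q' j := fun j => Real.sq_sqrt (mul_pos (hq j) (hq' j)).le
  let N : Matrix I J ℝ := Matrix.of fun i j => F i j / (s i * t j)
  have hN : ∀ x y, x ⬝ᵥ (N *ᵥ y) = (fun i => x i / s i) ⬝ᵥ (F *ᵥ fun j => y j / t j) := by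
    intro x y
    simp only [dotProduct, mulVec, Finset.mul_sum]
    refine Finset.sum_congr rfl fun i _ => Finset.sum_congr rfl fun j _ => ?_
    simp only [N, Matrix.of_apply]
    have := (hs0 i).ne'
    have := (ht0 j).ne'
    field_simp
  have key := contr_of N (fun i => p i / p' i) (fun j => q j / q' j)
    (fun i => div_pos (hp i) (hp' i)) (fun j => div_pos (hq j) (hq' j)) ?_ ?_
    (fun i => s i * x i) (fun j => t j * y j)
  · rw [hN] at key
    have e1 : (fun i => s i * x i / s i) = x := by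
      ext i; have := (hs0 i).ne'; field_simp
    have e2 : (fun j => t j * y j / t j) = y := by
      ext j; have := (ht0 j).ne'; field_simp
    simp only [e1, e2] at key
    refine key.trans (le_of_eq ?_)
    congr 1
    · simp only [dotProduct]
      refine Finset.sum_congr rfl fun i _ => ?_
      rw [← hs2]; ring
    · simp only [dotProduct]
      refine Finset.sum_congr rfl fun j _ => ?_
      rw [← ht2]; ring
  · intro x y
    rw [hN]
    refine (h1 _ _).trans (le_of_eq ?_)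
    congr 1
    · refine Finset.sum_congr rfl fun i _ => ?_
      have h3 := (hp i).ne'
      have h4 := (hp' i).ne'
      have h5 := (hs0 i).ne'
      rw [mul_pow, div_pow, hs2]
      field_simp
    · refine Finset.sum_congr rfl fun j _ => ?_
      have h3 := (hq j).ne'
      have h4 := (hq' j).ne'
      rw [mul_pow, div_pow, ht2]
      field_simp
  · intro x y
    rw [hN]
    refine (h2 _ _).trans (le_of_eq ?_)
    congr 1
    · refine Finset.sum_congr rfl fun i _ => ?_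
      have h3 := (hp i).ne'
      have h4 := (hp' i).ne'
      rw [mul_pow, div_pow, hs2]
      field_simp
    · refine Finset.sum_congr rfl fun j _ => ?_
      have h3 := (hq j).ne'
      have h4 := (hq' j).ne'
      rw [mul_pow, div_pow, ht2]
      field_simp

lemma wsum_mono {K : Type*} [Fintype K] (r : K → ℝ) (hr : ∀ k, 0 ≤ r k) (e : ℝ) (he : 0 < e)
    (z : K → ℝ) : ∑ k, (r k * z k) ^ 2 ≤ ∑ k, ((r k + e) * z k) ^ 2 := by
  refine Finset.sum_le_sum fun k _ => ?_
  rw [mul_pow, mul_pow]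
  exact mul_le_mul_of_nonneg_right (pow_le_pow_left₀ (hr k) (by linarith) 2) (sq_nonneg _)

lemma wsum_nonneg {K : Type*} [Fintype K] (r z : K → ℝ) : 0 ≤ ∑ k, (r k * z k) ^ 2 :=
  Finset.sum_nonneg fun _ _ => sq_nonneg _

/-- interpolation of two weighted bounds of a bilinear form -/
lemma interp [DecidableEq I] (F : Matrix I J ℝ) (p p' : I → ℝ) (q q' : J → ℝ)
    (hp : ∀ i, 0 ≤ p i) (hp' : ∀ i, 0 ≤ p' i) (hq : ∀ j, 0 ≤ q j) (hq' : ∀ j, 0 ≤ q' j)
    (h1 : ∀ x y, (x ⬝ᵥ (F *ᵥ y)) ^ 2 ≤ (∑ i, (p i * x i) ^ 2) * (∑ j, (q j * y j) ^ 2))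
    (h2 : ∀ x y, (x ⬝ᵥ (F *ᵥ y)) ^ 2 ≤ (∑ i, (p' i * x i) ^ 2) * (∑ j, (q' j * y j) ^ 2))
    (x : I → ℝ) (y : J → ℝ) :
    (x ⬝ᵥ (F *ᵥ y)) ^ 2 ≤ (∑ i, p i * p' i * x i ^ 2) * (∑ j, q j * q' j * y j ^ 2) := by
  have key : ∀ e : ℝ, 0 < e → (x ⬝ᵥ (F *ᵥ y)) ^ 2 ≤
      (∑ i, (p i + e) * (p' i + e) * x i ^ 2) * (∑ j, (q j + e) * (q' j + e) * y j ^ 2) := by
    intro e he
    refine interp_pos F (fun i => p i + e) (fun i => p' i + e) (fun j => q j + e)
      (fun j => q' j + e) (fun i => by linarith [hp i]) (fun i => by linarith [hp' i])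
      (fun j => by linarith [hq j]) (fun j => by linarith [hq' j]) ?_ ?_ x y
    · intro x y
      exact (h1 x y).trans (mul_le_mul (wsum_mono p hp e he x) (wsum_mono q hq e he y)
        (wsum_nonneg _ _) (wsum_nonneg _ _))
    · intro x y
      exact (h2 x y).trans (mul_le_mul (wsum_mono p' hp' e he x) (wsum_mono q' hq' e he y)
        (wsum_nonneg _ _) (wsum_nonneg _ _))
  have hcont : Continuous fun e : ℝ =>
      (∑ i, (p i + e) * (p' i + e) * x i ^ 2) * (∑ j, (q j + e) * (q' j + e) * y j ^ 2) := by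
    fun_prop
  have hlim := (hcont.tendsto 0).mono_left (nhdsWithin_le_nhds (s := Set.Ioi 0))
  simp only [add_zero] at hlim
  refine ge_of_tendsto hlim ?_
  filter_upwards [self_mem_nhdsWithin] with e he
  exact key e he

end Interp

lemma diag_exists {m : Type*} [Fintype m] [DecidableEq m] {A : Matrix m m ℝ} (hA : A.PosSemidef) :
    ∃ (U : Matrix m m ℝ) (d : m → ℝ), (∀ i, 0 ≤ d i) ∧ Uᵀ * U = 1 ∧ U * Uᵀ = 1 ∧
      A = U * diagonal d * Uᵀ := by
  have hH := hA.isHermitian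
  refine ⟨(hH.eigenvectorUnitary : Matrix m m ℝ), hH.eigenvalues, hA.eigenvalues_nonneg, ?_, ?_, ?_⟩
  · have := Unitary.coe_star_mul_self hH.eigenvectorUnitary
    rwa [star_eq_conjTranspose, conjTranspose_eq_transpose_of_trivial] at this
  · have := Unitary.coe_mul_star_self hH.eigenvectorUnitary
    rwa [Unitary.coe_star, star_eq_conjTranspose, conjTranspose_eq_transpose_of_trivial] at this
  · have h := hH.spectral_theorem
    rw [Unitary.conjStarAlgAut_apply, star_eq_conjTranspose,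
      conjTranspose_eq_transpose_of_trivial] at h
    exact h

variable {n : ℕ}

lemma hs_trace {m m' : Type*} [Fintype m] [Fintype m'] (A : Matrix m m' ℝ) :
    hs A = (A * Aᵀ).trace := by
  simp [hs, trace, Matrix.mul_apply, sq]

lemma hs_transpose' {m m' : Type*} [Fintype m] [Fintype m'] (A : Matrix m m' ℝ) :
    hs Aᵀ = hs A := by
  simp only [hs, transpose_apply]
  exact Finset.sum_comm

/-- row form of `LeQ` -/
lemma trace_le_of_LeQ {m : Type*} [Fintype m] {A B : Matrix m m ℝ} (h : LeQ A B)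
    (X : Matrix m m ℝ) : (X * A * Xᵀ).trace ≤ (X * B * Xᵀ).trace := by
  have e : ∀ C : Matrix m m ℝ, (X * C * Xᵀ).trace = ∑ i, (X i) ⬝ᵥ (C *ᵥ (X i)) := by
    intro C
    simp only [trace, diag_apply]
    refine Finset.sum_congr rfl fun i _ => ?_
    rw [Matrix.mul_assoc, Matrix.mul_apply]
    simp only [dotProduct]
    refine Finset.sum_congr rfl fun j _ => ?_
    rw [Matrix.mul_apply]
    simp only [mulVec, dotProduct, transpose_apply]
  rw [e, e]
  exact Finset.sum_le_sum fun i _ => h (X i)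

/-- `‖X S‖² ≤ ‖X R‖²` -/
lemma sum_hs_mul_le {S : Fin n → Mt n} {R : Mt n} (hR : R.PosSemidef)
    (h : LeQ (∑ k, S k * (S k)ᵀ) (R * R)) (X : Mt n) : ∑ k, hs (X * S k) ≤ hs (X * R) := by
  have hRt : Rᵀ = R := by
    have := hR.isHermitian
    rwa [IsHermitian, conjTranspose_eq_transpose_of_trivial] at this
  have h1 := trace_le_of_LeQ h X
  have e1 : ∑ k, hs (X * S k) = (X * (∑ k, S k * (S k)ᵀ) * Xᵀ).trace := by
    rw [Matrix.mul_sum, Matrix.sum_mul, trace_sum]
    refine Finset.sum_congr rfl fun k _ => ?_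
    rw [hs_trace, transpose_mul]
    simp only [Matrix.mul_assoc]
  have e2 : hs (X * R) = (X * (R * R) * Xᵀ).trace := by
    rw [hs_trace, transpose_mul, hRt]
    simp only [Matrix.mul_assoc]
  rw [e1, e2]
  exact h1

/-- `‖Y_K S‖² ≤ ‖Y R‖²` -/
lemma sum_hs_comb_le {S : Fin n → Mt n} {R : Mt n} (hR : R.PosSemidef)
    (h : LeQ (Matrix.of fun k l => (S k * (S l)ᵀ).trace) (R * R)) (Y : Mt n) :
    ∑ k, hs (∑ l, Y k l • S l) ≤ hs (Y * R) := by
  have hRt : Rᵀ = R := by
    have := hR.isHermitian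
    rwa [IsHermitian, conjTranspose_eq_transpose_of_trivial] at this
  have h1 := trace_le_of_LeQ h Y
  have e1 : ∑ k, hs (∑ l, Y k l • S l)
      = (Y * (Matrix.of fun k l => (S k * (S l)ᵀ).trace) * Yᵀ).trace := by
    simp only [trace, diag_apply]
    refine Finset.sum_congr rfl fun k _ => ?_
    have e3 : hs (∑ l, Y k l • S l)
        = ∑ l, ∑ l', Y k l * Y k l' * (S l * (S l')ᵀ).trace := by
      rw [hs_trace, transpose_sum, Matrix.sum_mul, trace_sum]
      refine Finset.sum_congr rfl fun l _ => ?_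
      rw [Matrix.mul_sum, trace_sum]
      refine Finset.sum_congr rfl fun l' _ => ?_
      rw [transpose_smul, smul_mul_assoc, mul_smul_comm, trace_smul, trace_smul, smul_eq_mul,
        smul_eq_mul]
      ring
    rw [e3, Matrix.mul_apply, Finset.sum_comm]
    refine Finset.sum_congr rfl fun l _ => ?_
    rw [Matrix.mul_apply, transpose_apply, Finset.sum_mul]
    refine Finset.sum_congr rfl fun l' _ => ?_
    simp only [Matrix.of_apply, trace, diag_apply]
    ring
  have e2 : hs (Y * R) = (Y * (R * R) * Yᵀ).trace := by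
    rw [hs_trace, transpose_mul, hRt]
    simp only [Matrix.mul_assoc]
  rw [e1, e2]
  exact h1

lemma trace_mul_transpose_eq {m m' : Type*} [Fintype m] [Fintype m'] (A B : Matrix m m' ℝ) :
    (A * Bᵀ).trace = ∑ i, ∑ j, A i j * B i j := by
  simp [trace, Matrix.mul_apply]

/-- Cauchy–Schwarz for a sum of Hilbert–Schmidt products -/
lemma sum_trace_sq_le {K : Type*} [Fintype K] (A B : K → Mt n) :
    (∑ k, (A k * (B k)ᵀ).trace) ^ 2 ≤ (∑ k, hs (A k)) * (∑ k, hs (B k)) := by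
  have h := Finset.sum_mul_sq_le_sq_mul_sq (Finset.univ : Finset (K × Fin n × Fin n))
    (fun i => A i.1 i.2.1 i.2.2) (fun i => B i.1 i.2.1 i.2.2)
  simp only [Fintype.sum_prod_type] at h
  simp only [trace_mul_transpose_eq, hs]
  exact h

/-- the bilinear form `Φ(X, Y) = ⟨X_A S, Y_K T⟩` -/
def PhiST (S T : Fin n → Mt n) (X Y : Mt n) : ℝ := ∑ k, ∑ l, Y k l * (X * S k * (T l)ᵀ).trace

lemma PhiST_eq1 (S T : Fin n → Mt n) (X Y : Mt n) :
    PhiST S T X Y = ∑ k, ((X * S k) * (∑ l, Y k l • T l)ᵀ).trace := by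
  unfold PhiST
  refine Finset.sum_congr rfl fun k _ => ?_
  rw [transpose_sum, Matrix.mul_sum, trace_sum]
  refine Finset.sum_congr rfl fun l _ => ?_
  rw [transpose_smul, mul_smul_comm, trace_smul, smul_eq_mul]

lemma PhiST_eq2 (S T : Fin n → Mt n) (X Y : Mt n) :
    PhiST S T X Y = ∑ l, ((∑ k, Yᵀ l k • S k) * (Xᵀ * T l)ᵀ).trace := by
  unfold PhiST
  rw [Finset.sum_comm]
  refine Finset.sum_congr rfl fun l _ => ?_
  rw [Matrix.sum_mul, trace_sum]
  refine Finset.sum_congr rfl fun k _ => ?_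
  rw [smul_mul_assoc, trace_smul, smul_eq_mul, transpose_apply, transpose_mul, transpose_transpose,
    Matrix.mul_assoc X, trace_mul_comm X, Matrix.mul_assoc (S k)]

lemma PhiST_bound1 {S T : Fin n → Mt n} {Ra Rk' : Mt n}
    (hRa : Ra.PosSemidef) (hRk' : Rk'.PosSemidef)
    (h1 : LeQ (∑ k, S k * (S k)ᵀ) (Ra * Ra))
    (h4 : LeQ (Matrix.of fun k l => (T k * (T l)ᵀ).trace) (Rk' * Rk')) (X Y : Mt n) :
    PhiST S T X Y ^ 2 ≤ hs (X * Ra) * hs (Y * Rk') := by
  rw [PhiST_eq1]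
  refine (sum_trace_sq_le _ _).trans ?_
  refine mul_le_mul (sum_hs_mul_le hRa h1 X) (sum_hs_comb_le hRk' h4 Y) ?_ ?_
  · exact Finset.sum_nonneg fun _ _ => Finset.sum_nonneg fun _ _ =>
      Finset.sum_nonneg fun _ _ => sq_nonneg _
  · exact Finset.sum_nonneg fun _ _ => Finset.sum_nonneg fun _ _ => sq_nonneg _

lemma PhiST_bound2 {S T : Fin n → Mt n} {Ra' Rk : Mt n}
    (hRa' : Ra'.PosSemidef) (hRk : Rk.PosSemidef)
    (h2 : LeQ (∑ k, T k * (T k)ᵀ) (Ra' * Ra'))
    (h3 : LeQ (Matrix.of fun k l => (S k * (S l)ᵀ).trace) (Rk * Rk)) (X Y : Mt n) :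
    PhiST S T X Y ^ 2 ≤ hs (Xᵀ * Ra') * hs (Yᵀ * Rk) := by
  rw [PhiST_eq2, mul_comm (hs (Xᵀ * Ra'))]
  refine (sum_trace_sq_le _ _).trans ?_
  refine mul_le_mul (sum_hs_comb_le hRk h3 Yᵀ) (sum_hs_mul_le hRa' h2 Xᵀ) ?_ ?_
  · exact Finset.sum_nonneg fun _ _ => Finset.sum_nonneg fun _ _ =>
      Finset.sum_nonneg fun _ _ => sq_nonneg _
  · exact Finset.sum_nonneg fun _ _ => Finset.sum_nonneg fun _ _ => sq_nonneg _

lemma hs_mul_orth {X U : Mt n} (hU : U * Uᵀ = 1) : hs (X * U) = hs X := by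
  rw [hs_trace, hs_trace, transpose_mul, Matrix.mul_assoc, ← Matrix.mul_assoc U, hU, Matrix.one_mul]

lemma hs_orth_mul {X U : Mt n} (hU : Uᵀ * U = 1) : hs (U * X) = hs X := by
  rw [← hs_transpose' (U * X), transpose_mul, hs_mul_orth (by rw [transpose_transpose]; exact hU),
    hs_transpose']

/-- weights of `X ↦ X R` in the coordinates `X = V x Uᵀ` -/
lemma hs_coord {U V : Mt n} {d : Fin n → ℝ} (hU : Uᵀ * U = 1)
    (hV : Vᵀ * V = 1) (x : Mt n) :
    hs (V * x * Uᵀ * (U * diagonal d * Uᵀ)) = ∑ i, ∑ j, (d j * x i j) ^ 2 := by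
  have e : V * x * Uᵀ * (U * diagonal d * Uᵀ) = V * ((x * diagonal d) * Uᵀ) := by
    have : V * x * Uᵀ * (U * diagonal d * Uᵀ) = V * x * (Uᵀ * U) * diagonal d * Uᵀ := by
      simp only [Matrix.mul_assoc]
    rw [this, hU]
    simp only [Matrix.mul_one, Matrix.mul_assoc]
  rw [e, hs_orth_mul hV, hs_mul_orth (by rw [transpose_transpose]; exact hU)]
  simp only [hs, Matrix.mul_diagonal]
  exact Finset.sum_congr rfl fun i _ => Finset.sum_congr rfl fun j _ => by ring

lemma transpose_three (A B C : Mt n) : (A * B * Cᵀ)ᵀ = C * Bᵀ * Aᵀ := by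
  rw [transpose_mul, transpose_mul, transpose_transpose, Matrix.mul_assoc]

lemma trace_two_diag {U V : Mt n} (d e : Fin n → ℝ) :
    ∑ i, ∑ j, d j * e i * (Vᵀ * U) i j ^ 2
      = ((U * diagonal d * Uᵀ) * (V * diagonal e * Vᵀ)).trace := by
  have h1 : ((U * diagonal d * Uᵀ) * (V * diagonal e * Vᵀ)).trace
      = (((Vᵀ * U) * diagonal d) * ((diagonal e * (Vᵀ * U))ᵀ)).trace := by
    rw [transpose_mul, transpose_mul, transpose_transpose, diagonal_transpose]
    have : U * diagonal d * Uᵀ * (V * diagonal e * Vᵀ)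
        = (U * diagonal d * Uᵀ * V * diagonal e) * Vᵀ := by simp only [Matrix.mul_assoc]
    rw [this, trace_mul_comm]
    simp only [Matrix.mul_assoc]
  rw [h1, trace_mul_transpose_eq]
  refine Finset.sum_congr rfl fun i _ => Finset.sum_congr rfl fun j _ => ?_
  rw [Matrix.mul_diagonal, Matrix.diagonal_mul]
  ring

/-- MX11 affinity domination (section 9(i)) for two tensors `S, T : (k ; a ; a')`:
bipartitions `a | (k,a')` and `k | (a,a')` -/
theorem affinity (S T : Fin n → Mt n) (Ra Ra' Rk Rk' : Mt n)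
    (hRa : Ra.PosSemidef) (hRa' : Ra'.PosSemidef) (hRk : Rk.PosSemidef) (hRk' : Rk'.PosSemidef)
    (h1 : LeQ (∑ k, S k * (S k)ᵀ) (Ra * Ra)) (h2 : LeQ (∑ k, T k * (T k)ᵀ) (Ra' * Ra'))
    (h3 : LeQ (Matrix.of fun k l => (S k * (S l)ᵀ).trace) (Rk * Rk))
    (h4 : LeQ (Matrix.of fun k l => (T k * (T l)ᵀ).trace) (Rk' * Rk')) :
    |∑ k, (S k * (T k)ᵀ).trace| ≤
      Real.sqrt ((Ra * Ra').trace) * Real.sqrt ((Rk * Rk').trace) := by
  obtain ⟨U, d, hd, hU1, hU2, hU⟩ := diag_exists hRa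
  obtain ⟨U', d', hd', hU1', hU2', hU'⟩ := diag_exists hRa'
  obtain ⟨W, c, hc, hW1, hW2, hW⟩ := diag_exists hRk
  obtain ⟨W', c', hc', hW1', hW2', hW'⟩ := diag_exists hRk'
  let XX : (Fin n × Fin n → ℝ) → Mt n := fun x => U' * (Matrix.of fun i j => x (i, j)) * Uᵀ
  let YY : (Fin n × Fin n → ℝ) → Mt n := fun y => W * (Matrix.of fun i j => y (i, j)) * W'ᵀ
  have hXadd : ∀ x y, XX (x + y) = XX x + XX y := by
    intro x y
    simp only [XX]
    rw [← Matrix.add_mul, ← Matrix.mul_add]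
    rfl
  have hXsmul : ∀ (r : ℝ) x, XX (r • x) = r • XX x := by
    intro r x
    simp only [XX]
    rw [← smul_mul_assoc, ← mul_smul_comm]
    rfl
  have hYadd : ∀ x y, YY (x + y) = YY x + YY y := by
    intro x y
    simp only [YY]
    rw [← Matrix.add_mul, ← Matrix.mul_add]
    rfl
  have hYsmul : ∀ (r : ℝ) x, YY (r • x) = r • YY x := by
    intro r x
    simp only [YY]
    rw [← smul_mul_assoc, ← mul_smul_comm]
    rfl
  let BB : (Fin n × Fin n → ℝ) →ₗ[ℝ] (Fin n × Fin n → ℝ) →ₗ[ℝ] ℝ :=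
    LinearMap.mk₂ ℝ (fun x y => PhiST S T (XX x) (YY y))
      (by
        intro x x' y
        simp only [hXadd, PhiST, ← Finset.sum_add_distrib, Matrix.add_mul, trace_add, mul_add])
      (by
        intro r x y
        simp only [hXsmul, PhiST, smul_mul_assoc, trace_smul, smul_eq_mul, Finset.mul_sum]
        exact Finset.sum_congr rfl fun _ _ => Finset.sum_congr rfl fun _ _ => by ring)
      (by
        intro x y y'
        simp only [hYadd, PhiST, ← Finset.sum_add_distrib, Matrix.add_apply, add_mul])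
      (by
        intro r x y
        simp only [hYsmul, PhiST, Matrix.smul_apply, smul_eq_mul, Finset.mul_sum]
        exact Finset.sum_congr rfl fun _ _ => Finset.sum_congr rfl fun _ _ => by ring)
  have hBB : ∀ x y, BB x y = PhiST S T (XX x) (YY y) := fun x y => rfl
  set F : Matrix (Fin n × Fin n) (Fin n × Fin n) ℝ := LinearMap.toMatrix₂' ℝ BB with hF
  have hFB : ∀ x y, x ⬝ᵥ (F *ᵥ y) = PhiST S T (XX x) (YY y) := by
    intro x y
    rw [← hBB, ← Matrix.toLinearMap₂'_apply', hF, Matrix.toLinearMap₂'_toMatrix']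
  have key := interp F (fun i => d i.2) (fun i => d' i.1) (fun j => c' j.2) (fun j => c j.1)
    (fun i => hd _) (fun i => hd' _) (fun j => hc' _) (fun j => hc _) ?_ ?_
    (fun i => (U'ᵀ * U) i.1 i.2) (fun j => (Wᵀ * W') j.1 j.2)
  · have eX : XX (fun i => (U'ᵀ * U) i.1 i.2) = 1 := by
      simp only [XX]
      have : (Matrix.of fun i j => (U'ᵀ * U) i j) = U'ᵀ * U := by ext; rfl
      rw [this, ← Matrix.mul_assoc, hU2', Matrix.one_mul, hU2]
    have eY : YY (fun i => (Wᵀ * W') i.1 i.2) = 1 := by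
      simp only [YY]
      have : (Matrix.of fun i j => (Wᵀ * W') i j) = Wᵀ * W' := by ext; rfl
      rw [this, ← Matrix.mul_assoc, hW2, Matrix.one_mul, hW2']
    rw [hFB, eX, eY] at key
    have e1 : PhiST S T 1 1 = ∑ k, (S k * (T k)ᵀ).trace := by
      unfold PhiST
      refine Finset.sum_congr rfl fun k _ => ?_
      simp [Matrix.one_apply]
    have e2 : ∑ i : Fin n × Fin n, d i.2 * d' i.1 * ((U'ᵀ * U) i.1 i.2) ^ 2
        = (Ra * Ra').trace := by
      rw [Fintype.sum_prod_type, hU, hU', ← trace_two_diag]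
    have e3 : ∑ i : Fin n × Fin n, c' i.2 * c i.1 * ((Wᵀ * W') i.1 i.2) ^ 2
        = (Rk * Rk').trace := by
      rw [Fintype.sum_prod_type, trace_mul_comm, hW, hW', ← trace_two_diag]
    rw [e1, e2, e3] at key
    have e4 : 0 ≤ (Ra * Ra').trace := by
      rw [← e2]
      exact Finset.sum_nonneg fun i _ => mul_nonneg (mul_nonneg (hd _) (hd' _)) (sq_nonneg _)
    rw [← Real.sqrt_mul e4, ← Real.sqrt_sq_eq_abs]
    exact Real.sqrt_le_sqrt key
  · intro x y
    rw [hFB]
    refine (PhiST_bound1 hRa hRk' h1 h4 _ _).trans (le_of_eq ?_)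
    congr 1
    · rw [hU]
      simp only [XX]
      rw [hs_coord hU1 hU1', Fintype.sum_prod_type]
      rfl
    · rw [hW']
      simp only [YY]
      rw [hs_coord hW1' hW1, Fintype.sum_prod_type]
      rfl
  · intro x y
    rw [hFB]
    refine (PhiST_bound2 hRa' hRk h2 h3 _ _).trans (le_of_eq ?_)
    congr 1
    · rw [hU']
      simp only [XX]
      rw [transpose_three, hs_coord hU1' hU1, Fintype.sum_prod_type, Finset.sum_comm]
      rfl
    · rw [hW]
      simp only [YY]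
      rw [transpose_three, hs_coord hW1 hW1', Fintype.sum_prod_type, Finset.sum_comm]
      rfl

end Crest.Agent.R201.MX354
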