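import Crest.Agent.R201.FD7p_947
import Crest.Agent.R201.Conn_152
import Crest.Agent.R201.MX11_354

/-!
# R201, KLS half (helper947): FD8 (`covZ`), pointwise part
-/

set_option autoImplicit false
open MeasureTheory Matrix

namespace Crest.Agent.R201.N947

variable {n : ℕ}

section Pointwise

variable {R : Type} [Fintype R]

/-- `U = Z⁻¹ M` -/
noncomputable def UU (Z : Mt n) (M : T3 n R) : T3 n R := act1 Z⁻¹ M

theorem inv_mul_posDef {Z : Mt n} (hZ : Z.PosDef) : Z⁻¹ * Z = 1 :=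
  Matrix.nonsing_inv_mul _ ((Matrix.isUnit_iff_isUnit_det _).1 hZ.isUnit)

theorem mul_inv_posDef {Z : Mt n} (hZ : Z.PosDef) : Z * Z⁻¹ = 1 :=
  Matrix.mul_nonsing_inv _ ((Matrix.isUnit_iff_isUnit_det _).1 hZ.isUnit)

theorem gram_UU {Z : Mt n} {M : T3 n R} (hZ : Z.PosDef) (hZM : Z * Z = gram M M) :
    gram (UU Z M) (UU Z M) = 1 := by
  have hs : Zᵀ = Z := transpose_of_posDef hZ
  unfold UU
  rw [NB152.gram_act1_left, NB152.gram_act1_right, ← hZM, transpose_nonsing_inv, hs,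
    ← Matrix.mul_assoc, ← Matrix.mul_assoc, inv_mul_posDef hZ, Matrix.one_mul, mul_inv_posDef hZ]

theorem gram_M_UU {Z : Mt n} {M : T3 n R} (hZ : Z.PosDef) (hZM : Z * Z = gram M M) :
    gram M (UU Z M) = Z := by
  have hs : Zᵀ = Z := transpose_of_posDef hZ
  unfold UU
  rw [NB152.gram_act1_right, ← hZM, transpose_nonsing_inv, hs, Matrix.mul_assoc,
    mul_inv_posDef hZ, Matrix.mul_one]

theorem gram_smul_left (t : ℝ) (M N : T3 n R) : gram (t • M) N = t • gram M N := by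
  ext a a'
  simp only [gram, Matrix.of_apply, Pi.smul_apply, smul_eq_mul, Matrix.smul_apply, Finset.mul_sum,
    mul_assoc]

theorem gram_sub_left (M M' N : T3 n R) : gram (M - M') N = gram M N - gram M' N := by
  ext a a'
  simp only [gram, Matrix.of_apply, Pi.sub_apply, Matrix.sub_apply, sub_mul,
    Finset.sum_sub_distrib]

theorem gram_sum_left {ι : Type*} (s : Finset ι) (N : ι → T3 n R) (M : T3 n R) :
    gram (∑ k ∈ s, N k) M = ∑ k ∈ s, gram (N k) M := by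
  classical
  induction s using Finset.induction_on with
  | empty =>
    ext a a'
    simp [gram]
  | insert k s hk ih =>
    rw [Finset.sum_insert hk, Finset.sum_insert hk, ← ih]
    ext a a'
    simp only [gram, Matrix.of_apply, Pi.add_apply, Matrix.add_apply, add_mul,
      Finset.sum_add_distrib]

/-- quadratic form of a Gram matrix -/
theorem quad_gram (X Y : T3 n R) (u v : Fin n → ℝ) :
    u ⬝ᵥ (gram X Y *ᵥ v) =
      ∑ b, ∑ c, ∑ r, (∑ a, u a * X a b c r) * (∑ a, v a * Y a b c r) := by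
  simp only [dotProduct, mulVec, gram, Matrix.of_apply, Finset.mul_sum, Finset.sum_mul]
  -- both sides are sums over a a' b c r
  have e : ∀ a, ∑ a', ∑ b, ∑ c, ∑ r, u a * (X a b c r * Y a' b c r * v a')
      = ∑ b, ∑ c, ∑ r, ∑ a', u a * (X a b c r * Y a' b c r * v a') := by
    intro a
    rw [Finset.sum_comm]
    refine Finset.sum_congr rfl fun b _ => ?_
    rw [Finset.sum_comm]
    refine Finset.sum_congr rfl fun c _ => ?_
    rw [Finset.sum_comm]
  simp only [e]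
  rw [Finset.sum_comm]
  refine Finset.sum_congr rfl fun b _ => ?_
  rw [Finset.sum_comm]
  refine Finset.sum_congr rfl fun c _ => ?_
  rw [Finset.sum_comm]
  refine Finset.sum_congr rfl fun r _ => ?_
  rw [Finset.sum_comm]
  refine Finset.sum_congr rfl fun a' _ => ?_
  refine Finset.sum_congr rfl fun a _ => ?_
  ring

/-- contraction by `U`: `(X Uᵀ)(X Uᵀ)ᵀ ≤ X Xᵀ` -/
theorem gram_contr {U : T3 n R} (hU : gram U U = 1) (X : T3 n R) :
    LeQ (gram X U * (gram X U)ᵀ) (gram X X) := by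
  intro u
  -- `w = (gram X U)ᵀ u`
  set w : Fin n → ℝ := (gram X U)ᵀ *ᵥ u with hw
  have h1 : u ⬝ᵥ ((gram X U * (gram X U)ᵀ) *ᵥ u) = w ⬝ᵥ w := by
    rw [← mulVec_mulVec, dotProduct_mulVec, ← mulVec_transpose]
  have h2 : w ⬝ᵥ w = u ⬝ᵥ (gram X U *ᵥ w) := by
    rw [dotProduct_mulVec u, ← mulVec_transpose]
  have h3 : w ⬝ᵥ (gram U U *ᵥ w) = w ⬝ᵥ w := by rw [hU, one_mulVec]
  rw [h1]
  rw [quad_gram] at h2 h3
  rw [quad_gram]
  set x : Fin n → Fin n → R → ℝ := fun b c r => ∑ a, u a * X a b c r with hx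
  set y : Fin n → Fin n → R → ℝ := fun b c r => ∑ a, w a * U a b c r with hy
  have h4 : 0 ≤ ∑ b, ∑ c, ∑ r, (x b c r - y b c r) ^ 2 :=
    Finset.sum_nonneg fun _ _ => Finset.sum_nonneg fun _ _ => Finset.sum_nonneg fun _ _ =>
      sq_nonneg _
  have h5 : ∑ b, ∑ c, ∑ r, (x b c r - y b c r) ^ 2 =
      (∑ b, ∑ c, ∑ r, x b c r * x b c r) - 2 * (∑ b, ∑ c, ∑ r, x b c r * y b c r)
        + ∑ b, ∑ c, ∑ r, y b c r * y b c r := by
    simp only [Finset.mul_sum, ← Finset.sum_sub_distrib, ← Finset.sum_add_distrib]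
    refine Finset.sum_congr rfl fun b _ => Finset.sum_congr rfl fun c _ =>
      Finset.sum_congr rfl fun r _ => ?_
    ring
  have h2' : w ⬝ᵥ w = ∑ b, ∑ c, ∑ r, x b c r * y b c r := h2
  have h3' : ∑ b, ∑ c, ∑ r, y b c r * y b c r = w ⬝ᵥ w := h3
  linarith

theorem trace_mono {A B : Mt n} (h : LeQ A B) : A.trace ≤ B.trace := by
  refine Finset.sum_le_sum fun i _ => ?_
  have := h (Pi.single i 1)
  simpa using this

theorem hs_gram_le {U : T3 n R} (hU : gram U U = 1) (X : T3 n R) :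
    hs (gram X U) ≤ ip X X := by
  rw [NB152.hs_eq_trace]
  exact trace_mono (gram_contr hU X)

/-- the part `Y - N Uᵀ` is small -/
theorem hs_e_le {M N : T3 n R} {Z Y B : Mt n} (hZ : Z.PosDef) (hZM : Z * Z = gram M M) :
    hs (Y - gram N (UU Z M)) ≤ 2 * hs (Y - 2 • (B * Z)) +
      2 * ip (N - 2 • act1 B M) (N - 2 • act1 B M) := by
  have hU := gram_UU hZ hZM
  have e : Y - gram N (UU Z M) = (Y - 2 • (B * Z)) - gram (N - 2 • act1 B M) (UU Z M) := by
    rw [gram_sub_left, NB152.two_smul_T3, gram_smul_left, NB152.gram_act1_left, gram_M_UU hZ hZM]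
    have : (2 : ℕ) • (B * Z) = (2 : ℝ) • (B * Z) := by
      rw [two_smul, two_smul]
    rw [this]
    abel
  rw [e]
  refine (NB152.hs_sub_le _ _).trans ?_
  have := hs_gram_le hU (N - 2 • act1 B M)
  linarith

/-- linear combinations of the point data -/
theorem comb_eq {M : T3 n R} {N : Fin n → T3 n R} {Z : Mt n} {Y : Fin n → Mt n}
    (hYN : ∀ k, Y k * Z + Z * Y k = gram (N k) M + gram M (N k)) (ξ : Fin n → ℝ) :
    (∑ k, ξ k • Y k) * Z + Z * (∑ k, ξ k • Y k) =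
      gram (∑ k, ξ k • N k) M + gram M (∑ k, ξ k • N k) := by
  have h1 : gram (∑ k, ξ k • N k) M = ∑ k, ξ k • gram (N k) M := by
    rw [gram_sum_left]
    exact Finset.sum_congr rfl fun k _ => gram_smul_left _ _ _
  have h2 : gram M (∑ k, ξ k • N k) = ∑ k, ξ k • gram M (N k) := by
    rw [← NB152.gram_transpose, h1, Matrix.transpose_sum]
    refine Finset.sum_congr rfl fun k _ => ?_
    rw [Matrix.transpose_smul, NB152.gram_transpose]
  rw [h1, h2, Finset.sum_mul, Finset.mul_sum, ← Finset.sum_add_distrib, ← Finset.sum_add_distrib]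
  refine Finset.sum_congr rfl fun k _ => ?_
  rw [Matrix.smul_mul, Matrix.mul_smul, ← smul_add, hYN k, smul_add]

theorem sym3_comb {N : Fin n → T3 n R} (hN : ∀ k, Sym3 (N k)) (ξ : Fin n → ℝ) :
    Sym3 (∑ k, ξ k • N k) := by
  constructor
  · intro a b c r
    simp only [Finset.sum_apply, Pi.smul_apply, smul_eq_mul]
    exact Finset.sum_congr rfl fun k _ => by rw [(hN k).1 a b c r]
  · intro a b c r
    simp only [Finset.sum_apply, Pi.smul_apply, smul_eq_mul]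
    exact Finset.sum_congr rfl fun k _ => by rw [(hN k).2 a b c r]

theorem transpose_comb {Y : Fin n → Mt n} (hY : ∀ k, (Y k)ᵀ = Y k) (ξ : Fin n → ℝ) :
    (∑ k, ξ k • Y k)ᵀ = ∑ k, ξ k • Y k := by
  rw [Matrix.transpose_sum]
  exact Finset.sum_congr rfl fun k _ => by rw [Matrix.transpose_smul, hY k]

/-- locality: `|Σ ξ_k e_k|² ≤ 4 |Σ ξ_k N_k|²` -/
theorem hs_comb_le {M : T3 n R} {N : Fin n → T3 n R} {Z : Mt n} {Y : Fin n → Mt n}
    (hM : Sym3 M) (hN : ∀ k, Sym3 (N k)) (hZ : Z.PosDef) (hZM : Z * Z = gram M M)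
    (hY : ∀ k, (Y k)ᵀ = Y k)
    (hYN : ∀ k, Y k * Z + Z * Y k = gram (N k) M + gram M (N k)) (ξ : Fin n → ℝ) :
    hs (∑ k, ξ k • (Y k - gram (N k) (UU Z M))) ≤
      4 * ip (∑ k, ξ k • N k) (∑ k, ξ k • N k) := by
  have e : ∑ k, ξ k • (Y k - gram (N k) (UU Z M)) =
      (∑ k, ξ k • Y k) - gram (∑ k, ξ k • N k) (UU Z M) := by
    rw [gram_sum_left, ← Finset.sum_sub_distrib]
    refine Finset.sum_congr rfl fun k _ => ?_
    rw [smul_sub, gram_smul_left]
  rw [e]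
  have h1 := NB152.hs_Y_le hM (sym3_comb hN ξ) hZ hZM (transpose_comb hY ξ) (comb_eq hYN ξ)
  have h2 := hs_gram_le (gram_UU hZ hZM) (∑ k, ξ k • N k)
  refine (NB152.hs_sub_le _ _).trans ?_
  linarith

/-- `|Σ ξ_k Y_k|² ≤ |Σ ξ_k N_k|²` -/
theorem hs_comb_Y_le {M : T3 n R} {N : Fin n → T3 n R} {Z : Mt n} {Y : Fin n → Mt n}
    (hM : Sym3 M) (hN : ∀ k, Sym3 (N k)) (hZ : Z.PosDef) (hZM : Z * Z = gram M M)
    (hY : ∀ k, (Y k)ᵀ = Y k)
    (hYN : ∀ k, Y k * Z + Z * Y k = gram (N k) M + gram M (N k)) (ξ : Fin n → ℝ) :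
    hs (∑ k, ξ k • Y k) ≤ ip (∑ k, ξ k • N k) (∑ k, ξ k • N k) :=
  NB152.hs_Y_le hM (sym3_comb hN ξ) hZ hZM (transpose_comb hY ξ) (comb_eq hYN ξ)

end Pointwise

/-! ### quadratic forms acting on a slot -/

section Slot

variable {ι : Type*} [Fintype ι]

/-- `Σ_i ⟨Q f(·,i), f(·,i)⟩` -/
def sl (Q : Mt n) (f : Fin n → ι → ℝ) : ℝ := ∑ i, ∑ p, ∑ p', Q p p' * f p i * f p' i

theorem sl_eq (Q : Mt n) (f : Fin n → ι → ℝ) :
    sl Q f = ∑ i, (fun p => f p i) ⬝ᵥ (Q *ᵥ fun p => f p i) := by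
  unfold sl
  refine Finset.sum_congr rfl fun i _ => ?_
  simp only [dotProduct, mulVec, Finset.mul_sum]
  refine Finset.sum_congr rfl fun p _ => Finset.sum_congr rfl fun p' _ => ?_
  ring

theorem sl_mono {Q Q' : Mt n} (h : LeQ Q Q') (f : Fin n → ι → ℝ) : sl Q f ≤ sl Q' f := by
  rw [sl_eq, sl_eq]
  exact Finset.sum_le_sum fun i _ => h _

theorem sl_nonneg {Q : Mt n} (h : LeQ 0 Q) (f : Fin n → ι → ℝ) : 0 ≤ sl Q f := by
  rw [sl_eq]
  refine Finset.sum_nonneg fun i _ => ?_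
  have := h (fun p => f p i)
  simpa using this

theorem sl_sq {T : Mt n} (hTs : Tᵀ = T) (g : Fin n → ι → ℝ) :
    sl (T * T) g = ∑ j, ∑ i, (∑ k, T j k * g k i) ^ 2 := by
  rw [sl_eq, Finset.sum_comm]
  refine Finset.sum_congr rfl fun i _ => ?_
  rw [MX354.dot_mulVec_self hTs]
  simp only [dotProduct, mulVec, sq]

/-- comparison of two families through linear combinations of the slot -/
theorem sl_le_of_comb {ι' : Type*} [Fintype ι'] {Q : Mt n} (hQs : Qᵀ = Q) (hQ : LeQ 0 Q)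
    {f : Fin n → ι → ℝ} {g : Fin n → ι' → ℝ} {c : ℝ}
    (h : ∀ ξ : Fin n → ℝ, ∑ i, (∑ k, ξ k * f k i) ^ 2 ≤ c * ∑ i, (∑ k, ξ k * g k i) ^ 2) :
    sl Q f ≤ c * sl Q g := by
  have hQp : Q.PosSemidef := posSemidef_of_quad hQs (fun u => by simpa using hQ u)
  obtain ⟨T, hT, hTT⟩ := MX354.root_exists hQp
  have hTs := MX354.posSemidef_transpose hT
  rw [← hTT, sl_sq hTs, sl_sq hTs, Finset.mul_sum]
  exact Finset.sum_le_sum fun j _ => h (T j)

/-- trace form of the slot energy -/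
theorem sl_one (f : Fin n → ι → ℝ) : sl (1 : Mt n) f = ∑ p, ∑ i, f p i ^ 2 := by
  rw [sl_eq, Finset.sum_comm]
  refine Finset.sum_congr rfl fun i _ => ?_
  rw [one_mulVec]
  simp only [dotProduct, sq]

/-- Young inequality for the slot form -/
theorem sl_young {Q : Mt n} (hQs : Qᵀ = Q) (hQ : LeQ 0 Q) (B f : Fin n → ι → ℝ) {t : ℝ}
    (ht : 0 < t) :
    ∑ i, ∑ p, ∑ p', Q p p' * B p i * f p' i ≤ t / 2 * sl Q B + 1 / (2 * t) * sl Q f := by
  have hsym : ∑ i, ∑ p, ∑ p', Q p p' * f p i * B p' i = ∑ i, ∑ p, ∑ p', Q p p' * B p i * f p' i := by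
    refine Finset.sum_congr rfl fun i _ => ?_
    rw [Finset.sum_comm]
    refine Finset.sum_congr rfl fun p _ => Finset.sum_congr rfl fun p' _ => ?_
    have : Q p' p = Q p p' := by
      have := congrFun (congrFun hQs p) p'
      simpa using this
    rw [this]; ring
  have h := sl_nonneg hQ (fun p i => t * B p i - f p i)
  have e : sl Q (fun p i => t * B p i - f p i) = t ^ 2 * sl Q B
      - t * (∑ i, ∑ p, ∑ p', Q p p' * B p i * f p' i)
      - t * (∑ i, ∑ p, ∑ p', Q p p' * f p i * B p' i) + sl Q f := by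
    unfold sl
    simp only [Finset.mul_sum, ← Finset.sum_sub_distrib, ← Finset.sum_add_distrib]
    refine Finset.sum_congr rfl fun i _ => Finset.sum_congr rfl fun p _ =>
      Finset.sum_congr rfl fun p' _ => ?_
    ring
  rw [hsym] at e
  set S := ∑ i, ∑ p, ∑ p', Q p p' * B p i * f p' i with hS
  have h2 : 0 ≤ t ^ 2 * sl Q B - 2 * t * S + sl Q f := by linarith
  have h3 : 2 * t * S ≤ t ^ 2 * sl Q B + sl Q f := by linarith
  have h4 : S = (2 * t * S) / (2 * t) := by field_simp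
  rw [h4]
  calc (2 * t * S) / (2 * t) ≤ (t ^ 2 * sl Q B + sl Q f) / (2 * t) :=
        div_le_div_of_nonneg_right h3 (by positivity)
    _ = t / 2 * sl Q B + 1 / (2 * t) * sl Q f := by field_simp

end Slot

end Crest.Agent.R201.N947
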