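import Crest.Agent.R201.FD8a_947

/-!
# R201, KLS half (helper947): FD8 (`covZ`), bounded continuous fields, mean splitting
-/

set_option autoImplicit false
open MeasureTheory Matrix

namespace Crest.Agent.R201.N947

variable {n : ℕ} {K : KD n}

/-- bounded continuous -/
def BC (f : E n → ℝ) : Prop := Continuous f ∧ ∃ B : ℝ, ∀ x, |f x| ≤ B

theorem BC.of_cb {f : E n → ℝ} (hf : CB f) : BC f := by
  obtain ⟨h1, B, hB⟩ := hf
  exact ⟨h1.continuous, B, fun x => (hB x).1⟩

theorem BC.pd {f : E n → ℝ} (hf : CB f) (k : Fin n) : BC (pd k f) := by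
  refine ⟨Tw807.pd_cont hf.1 k, ?_⟩
  obtain ⟨h1, B, hB⟩ := hf
  exact ⟨B, fun x => (hB x).2 k⟩

theorem BC.const (c : ℝ) : BC (fun _ : E n => c) := ⟨continuous_const, |c|, fun _ => le_rfl⟩

theorem BC.add {f g : E n → ℝ} (hf : BC f) (hg : BC g) : BC (fun x => f x + g x) := by
  obtain ⟨h1, B, hB⟩ := hf
  obtain ⟨h2, C, hC⟩ := hg
  exact ⟨h1.add h2, B + C, fun x => (abs_add_le _ _).trans (add_le_add (hB x) (hC x))⟩

theorem BC.mul {f g : E n → ℝ} (hf : BC f) (hg : BC g) : BC (fun x => f x * g x) := by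
  obtain ⟨h1, B, hB⟩ := hf
  obtain ⟨h2, C, hC⟩ := hg
  refine ⟨h1.mul h2, B * C, fun x => ?_⟩
  rw [abs_mul]
  exact mul_le_mul (hB x) (hC x) (abs_nonneg _) ((abs_nonneg _).trans (hB x))

theorem BC.const_mul {f : E n → ℝ} (c : ℝ) (hf : BC f) : BC (fun x => c * f x) :=
  (BC.const c).mul hf

theorem BC.neg {f : E n → ℝ} (hf : BC f) : BC (fun x => - f x) := by
  have := BC.const_mul (-1) hf
  simpa using this

theorem BC.sub {f g : E n → ℝ} (hf : BC f) (hg : BC g) : BC (fun x => f x - g x) := by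
  simp only [sub_eq_add_neg]
  exact hf.add hg.neg

theorem BC.sum {ι : Type*} (s : Finset ι) {f : ι → E n → ℝ} (hf : ∀ i ∈ s, BC (f i)) :
    BC (fun x => ∑ i ∈ s, f i x) := by
  classical
  induction s using Finset.induction_on with
  | empty => simpa using BC.const (n := n) 0
  | insert k s hk ih =>
    simp only [Finset.sum_insert hk]
    exact (hf k (Finset.mem_insert_self k s)).add
      (ih fun i hi => hf i (Finset.mem_insert_of_mem hi))

theorem BC.sq {f : E n → ℝ} (hf : BC f) : BC (fun x => f x ^ 2) := by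
  simp only [pow_two]
  exact hf.mul hf

theorem BC.int {f : E n → ℝ} (hf : BC f) : Integrable f K.μ := by
  obtain ⟨h1, B, hB⟩ := hf
  exact Tw807.int_bdd K h1 hB

theorem BC.of_le {f g : E n → ℝ} (hf : Continuous f) (hg : BC g) (h : ∀ x, |f x| ≤ g x) : BC f := by
  obtain ⟨_, B, hB⟩ := hg
  exact ⟨hf, B, fun x => (h x).trans ((le_abs_self _).trans (hB x))⟩

/-- the entries of `V''` are bounded and continuous -/
theorem BC_V2 (K : KD n) (j k : Fin n) : BC (fun x => K.V2 x j k) := by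
  have h : ∀ x, K.V2 x j k = (1 / K.h) * ((if j = k then 1 else 0) - pd j (K.r k) x) := by
    intro x
    rw [K.r_pd]
    have := K.h_pos
    field_simp
    ring
  simp only [h]
  exact BC.const_mul _ ((BC.const _).sub (BC.pd (K.r_cb k) j))

theorem BC_P (K : KD n) (j k : Fin n) : BC (fun x => K.P x j k) := BC.of_cb (K.P_cb j k)

theorem BC_1P (K : KD n) (j k : Fin n) : BC (fun x => (1 - K.P x) j k) := by
  simp only [Matrix.sub_apply]
  exact (BC.const _).sub (BC_P K j k)

theorem en_eq {ι : Type*} [Fintype ι] (μ : Measure (E n)) (Q : E n → Mt n)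
    (f : Fin n → ι → E n → ℝ) : en μ Q f = ∫ x, sl (Q x) (fun p i => f p i x) ∂μ := rfl

theorem BC_sl {ι : Type*} [Fintype ι] {Q : E n → Mt n} (hQ : ∀ j k, BC (fun x => Q x j k))
    {f : Fin n → ι → E n → ℝ} (hf : ∀ p i, BC (f p i)) :
    BC (fun x => sl (Q x) (fun p i => f p i x)) :=
  BC.sum _ fun i _ => BC.sum _ fun p _ => BC.sum _ fun p' _ => ((hQ p p').mul (hf p i)).mul (hf p' i)

theorem en_mono {ι : Type*} [Fintype ι] {Q Q' : E n → Mt n} (hQ : ∀ j k, BC (fun x => Q x j k))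
    (hQ' : ∀ j k, BC (fun x => Q' x j k)) {f : Fin n → ι → E n → ℝ} (hf : ∀ p i, BC (f p i))
    (h : ∀ x, LeQ (Q x) (Q' x)) : en K.μ Q f ≤ en K.μ Q' f := by
  rw [en_eq, en_eq]
  exact integral_mono (BC_sl hQ hf).int (BC_sl hQ' hf).int fun x => sl_mono (h x) _

theorem symm_1P (K : KD n) (x : E n) : (1 - K.P x)ᵀ = 1 - K.P x := by
  rw [transpose_sub, transpose_one, K.P_symm]

theorem nonneg_1P (K : KD n) (x : E n) : LeQ 0 (1 - K.P x) := NB152.leq_sub.1 (K.P_le x)

theorem le_one_1P (K : KD n) (x : E n) : LeQ (1 - K.P x) 1 := by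
  intro u
  have := K.P_nonneg x u
  rw [sub_mulVec, dotProduct_sub]
  simp only [zero_mulVec, dotProduct_zero] at this
  linarith

theorem sq_le_self {P : Mt n} (hs : Pᵀ = P) (h0 : LeQ 0 P) (h1 : LeQ P 1) : LeQ (P * P) P := by
  have hQp : P.PosSemidef := posSemidef_of_quad hs (fun u => by simpa using h0 u)
  obtain ⟨T, hT, hTT⟩ := MX354.root_exists hQp
  have hTs := MX354.posSemidef_transpose hT
  intro u
  have e1 : u ⬝ᵥ ((P * P) *ᵥ u) = (T *ᵥ u) ⬝ᵥ (P *ᵥ (T *ᵥ u)) := by
    have : P * P = T * P * T := by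
      rw [← hTT]
      simp only [Matrix.mul_assoc]
    rw [this, ← mulVec_mulVec, ← mulVec_mulVec, dotProduct_mulVec, ← mulVec_transpose, hTs]
  have e2 : u ⬝ᵥ (P *ᵥ u) = (T *ᵥ u) ⬝ᵥ (T *ᵥ u) := by
    rw [← MX354.dot_mulVec_self hTs, hTT]
  rw [e1, e2]
  have := h1 (T *ᵥ u)
  rwa [one_mulVec] at this

/-- the quadratic form of `P` in the mean -/
theorem int_sl_const {ι : Type*} [Fintype ι] {Q : E n → Mt n} (hQ : ∀ j k, BC (fun x => Q x j k))
    {c : ℝ} (h : LeQ (Matrix.of fun i j => ∫ x, Q x i j ∂K.μ) (c • (1 : Mt n)))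
    (B : Fin n → ι → ℝ) : ∫ x, sl (Q x) B ∂K.μ ≤ c * ∑ p, ∑ i, B p i ^ 2 := by
  have e : ∫ x, sl (Q x) B ∂K.μ = sl (Matrix.of fun i j => ∫ x, Q x i j ∂K.μ) B := by
    unfold sl
    have hi : ∀ i p p', Integrable (fun x => Q x p p' * B p i * B p' i) K.μ := fun i p p' =>
      ((hQ p p').int.mul_const _).mul_const _
    rw [integral_finsetSum _ fun i _ => integrable_finsetSum _ fun p _ =>
      integrable_finsetSum _ fun p' _ => hi i p p']
    refine Finset.sum_congr rfl fun i _ => ?_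
    rw [integral_finsetSum _ fun p _ => integrable_finsetSum _ fun p' _ => hi i p p']
    refine Finset.sum_congr rfl fun p _ => ?_
    rw [integral_finsetSum _ fun p' _ => hi i p p']
    refine Finset.sum_congr rfl fun p' _ => ?_
    rw [integral_mul_const, integral_mul_const, Matrix.of_apply]
  rw [e]
  refine (sl_mono h B).trans (le_of_eq ?_)
  rw [← sl_one]
  unfold sl
  simp only [Matrix.smul_apply, smul_eq_mul, Finset.mul_sum]
  refine Finset.sum_congr rfl fun i _ => Finset.sum_congr rfl fun p _ =>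
    Finset.sum_congr rfl fun p' _ => ?_
  ring

/-- **mean splitting**: `|E f|² ≤ 2 en(1-P)(f) + 2 η² |f|²` for a family with a slot `p` -/
theorem mean_split {ι : Type*} [Fintype ι] {f : Fin n → ι → E n → ℝ} (hf : ∀ p i, BC (f p i)) :
    ∑ p, ∑ i, (∫ x, f p i x ∂K.μ) ^ 2 ≤
      2 * en K.μ (fun x => 1 - K.P x) f + 2 * K.η ^ 2 * ∑ p, ∑ i, ∫ x, f p i x ^ 2 ∂K.μ := by
  set B : Fin n → ι → ℝ := fun p i => ∫ x, f p i x ∂K.μ with hB
  set S := ∑ p, ∑ i, B p i ^ 2 with hS
  have hη := K.η_pos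
  have hη2 : 0 < K.η ^ 2 := by positivity
  -- the two parts at a point
  have hpt : ∀ x, ∑ p, ∑ i, B p i * f p i x ≤
      (1 / 4) * S + sl (1 - K.P x) (fun p i => f p i x)
        + (1 / (4 * K.η ^ 2)) * sl (K.P x) B + K.η ^ 2 * ∑ p, ∑ i, f p i x ^ 2 := by
    intro x
    have e1 : ∑ p, ∑ i, B p i * f p i x =
        (∑ i, ∑ p, ∑ p', (1 - K.P x) p p' * B p i * f p' i x)
          + ∑ i, ∑ p, ∑ p', (K.P x) p p' * B p i * f p' i x := by
      rw [← Finset.sum_add_distrib, Finset.sum_comm]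
      refine Finset.sum_congr rfl fun i _ => ?_
      rw [← Finset.sum_add_distrib]
      refine Finset.sum_congr rfl fun p _ => ?_
      rw [← Finset.sum_add_distrib]
      have : ∀ p', (1 - K.P x) p p' * B p i * f p' i x + K.P x p p' * B p i * f p' i x
          = (1 : Mt n) p p' * (B p i * f p' i x) := fun p' => by
        rw [Matrix.sub_apply]; ring
      rw [Finset.sum_congr rfl fun p' _ => this p']
      simp only [Matrix.one_apply, ite_mul, one_mul, zero_mul, Finset.sum_ite_eq,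
        Finset.mem_univ, if_true]
    have e2 := sl_young (symm_1P K x) (nonneg_1P K x) B (fun p i => f p i x) (t := 1 / 2)
      (by norm_num)
    have e3 : sl (1 - K.P x) B ≤ S := by
      refine (sl_mono (le_one_1P K x) B).trans (le_of_eq (sl_one B))
    -- the `P` part
    have e4 : ∑ i, ∑ p, ∑ p', (K.P x) p p' * B p i * f p' i x ≤
        (1 / (4 * K.η ^ 2)) * sl (K.P x) B + K.η ^ 2 * ∑ p, ∑ i, f p i x ^ 2 := by
      have hsq := sq_le_self (K.P_symm x) (K.P_nonneg x) (K.P_le x)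
      have h1 : ∑ i, ∑ p', (∑ p, (K.P x) p p' * B p i) ^ 2 = sl (K.P x * K.P x) B := by
        rw [sl_sq (K.P_symm x), Finset.sum_comm]
        refine Finset.sum_congr rfl fun p' _ => Finset.sum_congr rfl fun i _ => ?_
        congr 1
        refine Finset.sum_congr rfl fun p _ => ?_
        have := congrFun (congrFun (K.P_symm x) p) p'
        simp only [transpose_apply] at this
        rw [this]
      have h2 : ∑ i, ∑ p, ∑ p', (K.P x) p p' * B p i * f p' i x
          = ∑ i, ∑ p', (∑ p, (K.P x) p p' * B p i) * f p' i x := by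
        refine Finset.sum_congr rfl fun i _ => ?_
        rw [Finset.sum_comm]
        refine Finset.sum_congr rfl fun p' _ => ?_
        rw [Finset.sum_mul]
      have h3 : ∑ i, ∑ p', (∑ p, (K.P x) p p' * B p i) * f p' i x ≤
          ∑ i, ∑ p', ((1 / (4 * K.η ^ 2)) * (∑ p, (K.P x) p p' * B p i) ^ 2
            + K.η ^ 2 * f p' i x ^ 2) := by
        refine Finset.sum_le_sum fun i _ => Finset.sum_le_sum fun p' _ => ?_
        set u := ∑ p, (K.P x) p p' * B p i
        set v := f p' i x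
        have : 0 ≤ (u / (2 * K.η) - K.η * v) ^ 2 := sq_nonneg _
        have e : (u / (2 * K.η) - K.η * v) ^ 2
            = 1 / (4 * K.η ^ 2) * u ^ 2 - u * v + K.η ^ 2 * v ^ 2 := by
          field_simp
          ring
        linarith
      rw [h2]
      refine h3.trans ?_
      simp only [Finset.sum_add_distrib, ← Finset.mul_sum]
      rw [h1]
      have h5 : sl (K.P x * K.P x) B ≤ sl (K.P x) B := sl_mono hsq B
      have h6 : ∑ i, ∑ p', f p' i x ^ 2 = ∑ p, ∑ i, f p i x ^ 2 := Finset.sum_comm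
      rw [h6]
      have : (1 / (4 * K.η ^ 2)) * sl (K.P x * K.P x) B ≤ (1 / (4 * K.η ^ 2)) * sl (K.P x) B :=
        mul_le_mul_of_nonneg_left h5 (by positivity)
      linarith
    rw [e1]
    rw [show (1 : ℝ) / 2 / 2 = 1 / 4 by norm_num, show (1 : ℝ) / (2 * (1 / 2)) = 1 by norm_num,
      one_mul] at e2
    linarith
  -- integrate
  have hS' : ∫ x, ∑ p, ∑ i, B p i * f p i x ∂K.μ = S := by
    rw [integral_finsetSum _ fun p _ => integrable_finsetSum _ fun i _ =>
      ((hf p i).const_mul (B p i)).int]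
    refine Finset.sum_congr rfl fun p _ => ?_
    rw [integral_finsetSum _ fun i _ => ((hf p i).const_mul (B p i)).int]
    refine Finset.sum_congr rfl fun i _ => ?_
    rw [integral_const_mul, pow_two]
  have b1 : BC (fun x => sl (1 - K.P x) (fun p i => f p i x)) := BC_sl (BC_1P K) hf
  have b2 : BC (fun x => (1 / (4 * K.η ^ 2)) * sl (K.P x) B) :=
    BC.const_mul _ (BC_sl (f := fun p i _ => B p i) (BC_P K) fun p i => BC.const _)
  have b3 : BC (fun x => K.η ^ 2 * ∑ p, ∑ i, f p i x ^ 2) :=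
    BC.const_mul _ (BC.sum _ fun p _ => BC.sum _ fun i _ => (hf p i).sq)
  have := K.prob
  have hint := integral_mono (μ := K.μ)
    (BC.sum _ fun p _ => BC.sum _ fun i _ => (hf p i).const_mul (B p i)).int
    ((((BC.const ((1 / 4) * S)).add b1).add b2).add b3).int hpt
  rw [hS'] at hint
  rw [integral_add (((BC.const ((1 / 4) * S)).add b1).add b2).int b3.int,
    integral_add ((BC.const ((1 / 4) * S)).add b1).int b2.int,
    integral_add (BC.const ((1 / 4) * S)).int b1.int, integral_const_mul, integral_const_mul,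
    integral_const_mul] at hint
  have c1 : ∫ _x : E n, S ∂K.μ = S := by simp
  have c2 : ∫ x, sl (K.P x) B ∂K.μ ≤ K.η ^ 2 * S := int_sl_const (BC_P K) K.P_mean B
  have c3 : ∫ x, ∑ p, ∑ i, f p i x ^ 2 ∂K.μ = ∑ p, ∑ i, ∫ x, f p i x ^ 2 ∂K.μ := by
    rw [integral_finsetSum _ fun p _ => integrable_finsetSum _ fun i _ => (hf p i).sq.int]
    refine Finset.sum_congr rfl fun p _ => ?_
    rw [integral_finsetSum _ fun i _ => (hf p i).sq.int]
  have c4 : (1 / (4 * K.η ^ 2)) * ∫ x, sl (K.P x) B ∂K.μ ≤ (1 / 4) * S := by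
    calc (1 / (4 * K.η ^ 2)) * ∫ x, sl (K.P x) B ∂K.μ
        ≤ (1 / (4 * K.η ^ 2)) * (K.η ^ 2 * S) := mul_le_mul_of_nonneg_left c2 (by positivity)
      _ = (1 / 4) * S := by field_simp
  rw [c1, c3] at hint
  rw [en_eq]
  linarith

end Crest.Agent.R201.N947
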