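import Crest.Agent.R201.FD8b_947
import Crest.Agent.R201.FD3_354

/-!
# R201, KLS half (helper947): FD8 (`covZ`), the mean of `D Z - (D M) Uᵀ`
-/

set_option autoImplicit false
open MeasureTheory Matrix

namespace Crest.Agent.R201.N947

set_option maxHeartbeats 400000

variable {n : ℕ} {K : KD n} {R : Type} [Fintype R] {a : ℝ} {M : E n → T3 n R} {Z : E n → Mt n}

theorem sym3_pdT (h : ∀ x, Sym3 (M x)) (k : Fin n) (x : E n) : Sym3 (pdT k M x) := by
  constructor
  · intro a b c r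
    have : (fun y => M y a b c r) = fun y => M y b a c r := funext fun y => (h y).1 a b c r
    simp only [pdT, this]
  · intro a b c r
    have : (fun y => M y a b c r) = fun y => M y a c b r := funext fun y => (h y).2 a b c r
    simp only [pdT, this]

/-- the point data of a pack -/
noncomputable def ptd (hp : Pack K R a M Z) {Err : E n → Mt n} (hE : ∀ x, LeQ 0 (Err x))
    (hg : ∀ x, LeQ (∑ k, gram (pdT k M x) (pdT k M x)) ((200 : ℝ) • (Z x * Z x) + Err x))
    (x : E n) : PtD n R where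
  M := M x
  N := fun k => pdT k M x
  Z := Z x
  Y := fun k => pdM k Z x
  Err := Err x
  symM := hp.sym x
  symN := fun k => sym3_pdT hp.sym k x
  Zpos := hp.Zpos x
  Zsq := hp.Zsq x
  Ysymm := fun k => (MX354.root_field K hp).2.1 x k
  Ysq := fun k => (MX354.root_field K hp).2.2 x k
  Errpos := hE x
  growth := hg x

theorem cont_inv (hZ : ∀ i j, Continuous fun x => Z x i j) (hd : ∀ x, (Z x).PosDef)
    (i j : Fin n) : Continuous fun x => (Z x)⁻¹ i j := by
  have hc : Continuous Z := continuous_matrix hZ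
  have h1 : Continuous fun x => (Z x).det := hc.matrix_det
  have h2 : Continuous fun x => (Z x).adjugate := hc.matrix_adjugate
  have e : ∀ x, (Z x)⁻¹ i j = ((Z x).det)⁻¹ * (Z x).adjugate i j := by
    intro x
    rw [Matrix.inv_def, Ring.inverse_eq_inv', Matrix.smul_apply, smul_eq_mul]
  simp only [e]
  exact (h1.inv₀ fun x => (hd x).det_pos.ne').mul (h2.matrix_elem i j)

/-- `N Uᵀ` -/
noncomputable def Nf (M : E n → T3 n R) (Z : E n → Mt n) (k : Fin n) (x : E n) : Mt n :=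
  gram (pdT k M x) (UU (Z x) (M x))

/-- the error part of `D Z` -/
noncomputable def ef (M : E n → T3 n R) (Z : E n → Mt n) (k : Fin n) (x : E n) : Mt n :=
  pdM k Z x - Nf M Z k x

theorem BC_ip_pd (hM : ∀ i, CB (fam3 M i)) (k : Fin n) :
    BC (fun x => ip (pdT k M x) (pdT k M x)) := by
  have e : ∀ x, ip (pdT k M x) (pdT k M x) = ∑ i, pd k (fam3 M i) x ^ 2 := by
    intro x
    simp only [ip, pdT, Fintype.sum_prod_type, sq]
    rfl
  simp only [e]
  exact BC.sum _ fun i _ => (BC.pd (hM i) k).sq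

theorem abs_le_one_add_sq (t : ℝ) : |t| ≤ 1 + t ^ 2 := by
  rw [← sq_abs]
  nlinarith [sq_nonneg (|t| - 1), abs_nonneg t]

theorem BC_Nf (hp : Pack K R a M Z) (k i j : Fin n) : BC (fun x => Nf M Z k x i j) := by
  have hZ := (MX354.root_field K hp).1
  have hZc : ∀ i j, Continuous fun x => Z x i j := fun i j => (hZ (i, j)).1.continuous
  have hMc : ∀ a b c r, Continuous fun x => M x a b c r := fun a b c r =>
    (hp.cb (a, b, c, r)).1.continuous
  have hNc : ∀ a b c r, Continuous fun x => pdT k M x a b c r := fun a b c r =>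
    (BC.pd (hp.cb (a, b, c, r)) k).1
  refine BC.of_le ?_ ((BC.const 1).add (BC_ip_pd hp.cb k)) fun x => ?_
  · show Continuous fun x => ∑ b, ∑ c, ∑ r, pdT k M x i b c r *
      (∑ a', (Z x)⁻¹ j a' * M x a' b c r)
    refine continuous_finsetSum _ fun b _ => continuous_finsetSum _ fun c _ =>
      continuous_finsetSum _ fun r _ => (hNc i b c r).mul
        (continuous_finsetSum _ fun a' _ => (cont_inv hZc hp.Zpos j a').mul (hMc a' b c r))
  · refine (abs_le_one_add_sq _).trans ?_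
    have h1 := MX354.sq_le_hs (Nf M Z k x) i j
    have h2 := hs_gram_le (gram_UU (hp.Zpos x) (hp.Zsq x)) (pdT k M x)
    have : hs (Nf M Z k x) ≤ ip (pdT k M x) (pdT k M x) := h2
    linarith

theorem BC_ef (hp : Pack K R a M Z) (k i j : Fin n) : BC (fun x => ef M Z k x i j) := by
  have hZ := (MX354.root_field K hp).1
  have h1 : BC (fun x => pdM k Z x i j) := BC.pd (hZ (i, j)) k
  exact h1.sub (BC_Nf hp k i j)

theorem BC_hs {F : E n → Mt n} (hF : ∀ i j, BC (fun x => F x i j)) : BC (fun x => hs (F x)) :=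
  BC.sum _ fun i _ => BC.sum _ fun j _ => (hF i j).sq

/-- the integrated error budget -/
theorem budget {D : ℝ} (hp : Pack K R a M Z) (haD : a ≤ D) (hm : msq K.μ (famM Z) ≤ D)
    (ht : tsq K.μ K.ω (famM Z) ≤ D) :
    K.q (famM Z) ≤ 7 * D ∧
    (∫ x, (∑ k, (ip (pdT k M x) (pdT k M x) - hs (pdM k Z x))) ∂K.μ) ≤ 7 * D := by
  have hrf := MX354.root_field K hp
  have h := defect_le' hp hrf.1
  have h1 : 0 ≤ ∫ x, (∑ k, (ip (pdT k M x) (pdT k M x) - hs (pdM k Z x))) ∂K.μ := by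
    refine integral_nonneg fun x => Finset.sum_nonneg fun k _ => ?_
    exact sub_nonneg.2 (NB152.hs_Y_le (hp.sym x) (sym3_pdT hp.sym k x) (hp.Zpos x) (hp.Zsq x)
      (hrf.2.1 x k) (hrf.2.2 x k))
  have h2 : 0 ≤ K.q (famM Z) := q_nonneg K _ hrf.1
  constructor <;> linarith

/-- the energy of the error part -/
theorem int_ef {D C C' : ℝ} (hC0 : 0 < C) (hp : Pack K R a M Z) (haD : a ≤ D)
    (hm : msq K.μ (famM Z) ≤ D) (ht : tsq K.μ K.ω (famM Z) ≤ D)
    (hC : ∀ p : PtD n R, ∃ B, Conn p C' (C * p.err) B) :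
    ∑ k, ∫ x, hs (ef M Z k x) ∂K.μ ≤ 32 * C * D := by
  obtain ⟨Err, hEi, hE0, hEt, hg⟩ := hp.growth
  have hpt : ∀ x, ∑ k, hs (ef M Z k x) ≤
      4 * C * ((∑ k, (ip (pdT k M x) (pdT k M x) - hs (pdM k Z x))) + (Err x).trace) := by
    intro x
    obtain ⟨B, hB⟩ := hC (ptd hp hE0 hg x)
    have e1 : ∑ k, ip (pdT k M x - 2 • act1 (B k) (M x)) (pdT k M x - 2 • act1 (B k) (M x)) ≤
      C * ((∑ k, (ip (pdT k M x) (pdT k M x) - hs (pdM k Z x))) + (Err x).trace) := hB.e1
    have e2 : ∑ k, hs (pdM k Z x - 2 • (B k * Z x)) ≤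
      C * ((∑ k, (ip (pdT k M x) (pdT k M x) - hs (pdM k Z x))) + (Err x).trace) := hB.eZ
    have e3 : ∑ k, hs (ef M Z k x) ≤ ∑ k, (2 * hs (pdM k Z x - 2 • (B k * Z x)) +
        2 * ip (pdT k M x - 2 • act1 (B k) (M x)) (pdT k M x - 2 • act1 (B k) (M x))) :=
      Finset.sum_le_sum fun k _ => hs_e_le (hp.Zpos x) (hp.Zsq x)
    rw [Finset.sum_add_distrib, ← Finset.mul_sum, ← Finset.mul_sum] at e3
    linarith
  have hrf := MX354.root_field K hp
  have i1 : ∀ k, Integrable (fun x => ip (pdT k M x) (pdT k M x) - hs (pdM k Z x)) K.μ :=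
    fun k => (int_ip_pd hp.cb k).1.sub (int_hs_pd hrf.1 k).1
  have i2 : Integrable (fun x => ∑ k, (ip (pdT k M x) (pdT k M x) - hs (pdM k Z x))) K.μ :=
    integrable_finsetSum _ fun k _ => i1 k
  have i3 : Integrable (fun x => (Err x).trace) K.μ := by
    unfold trace
    exact integrable_finsetSum _ fun i _ => hEi i i
  have i4 : ∀ k, Integrable (fun x => hs (ef M Z k x)) K.μ := fun k =>
    (BC_hs (BC_ef hp k)).int
  rw [← integral_finsetSum _ fun k _ => i4 k]
  refine (integral_mono (integrable_finsetSum _ fun k _ => i4 k)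
    ((i2.add i3).const_mul (4 * C)) hpt).trans ?_
  rw [integral_const_mul]
  have e : ∫ x, ((fun x => ∑ k, (ip (pdT k M x) (pdT k M x) - hs (pdM k Z x)))
      + fun x => (Err x).trace) x ∂K.μ =
      (∫ x, ∑ k, (ip (pdT k M x) (pdT k M x) - hs (pdM k Z x)) ∂K.μ) + ∫ x, (Err x).trace ∂K.μ :=
    integral_add i2 i3
  rw [e]
  have hb := (budget hp haD hm ht).2
  have : (∫ x, ∑ k, (ip (pdT k M x) (pdT k M x) - hs (pdM k Z x)) ∂K.μ)
      + ∫ x, (Err x).trace ∂K.μ ≤ 8 * D := by linarith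
  calc 4 * C * ((∫ x, ∑ k, (ip (pdT k M x) (pdT k M x) - hs (pdM k Z x)) ∂K.μ)
      + ∫ x, (Err x).trace ∂K.μ) ≤ 4 * C * (8 * D) :=
        mul_le_mul_of_nonneg_left this (by positivity)
    _ = 32 * C * D := by ring

/-- `en (1-P) (DM) ≤ 2 a` -/
theorem en_1P_DM (hp : Pack K R a M Z) :
    en K.μ (fun x => 1 - K.P x) (fun k (i : Fin n × Fin n × Fin n × R) x => pd k (fam3 M i) x)
      ≤ 2 * a := by
  have hb : ∀ (k : Fin n) (i : Fin n × Fin n × Fin n × R), BC (fun x => pd k (fam3 M i) x) :=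
    fun k i => BC.pd (hp.cb i) k
  have h1 := en_mono (K := K) (Q := fun x => 1 - K.P x) (Q' := fun x => (2 * K.h) • K.V2 x)
    (BC_1P K) (fun j k => by
      simp only [Matrix.smul_apply, smul_eq_mul]
      exact BC.const_mul _ (BC_V2 K j k)) hb K.P_hess
  refine h1.trans ?_
  have h2 := hp.enD
  have e : en K.μ (fun x => (2 * K.h) • K.V2 x)
      (fun k (i : Fin n × Fin n × Fin n × R) x => pd k (fam3 M i) x) =
      2 * (K.h * en K.μ K.V2 (fun k (i : Fin n × Fin n × Fin n × R) x => pd k (fam3 M i) x)) := by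
    unfold en
    rw [← integral_const_mul, ← integral_const_mul]
    refine integral_congr_ae (Filter.Eventually.of_forall fun x => ?_)
    simp only [Finset.mul_sum, Matrix.smul_apply, smul_eq_mul]
    refine Finset.sum_congr rfl fun i _ => Finset.sum_congr rfl fun p _ =>
      Finset.sum_congr rfl fun p' _ => ?_
    ring
  rw [e]
  linarith

theorem hs_comb_apply (F : Fin n → Mt n) (ξ : Fin n → ℝ) :
    hs (∑ k, ξ k • F k) = ∑ i : Fin n × Fin n, (∑ k, ξ k * F k i.1 i.2) ^ 2 := by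
  simp only [hs, Fintype.sum_prod_type, Matrix.sum_apply, Matrix.smul_apply, smul_eq_mul]

theorem ip_comb_apply (N : Fin n → T3 n R) (ξ : Fin n → ℝ) :
    ip (∑ k, ξ k • N k) (∑ k, ξ k • N k) =
      ∑ i : Fin n × Fin n × Fin n × R, (∑ k, ξ k * N k i.1 i.2.1 i.2.2.1 i.2.2.2) ^ 2 := by
  simp only [ip, Fintype.sum_prod_type, Finset.sum_apply, Pi.smul_apply, smul_eq_mul, sq]

/-- locality of the error part -/
theorem en_1P_ef (hp : Pack K R a M Z) :
    en K.μ (fun x => 1 - K.P x) (fun k (i : Fin n × Fin n) x => ef M Z k x i.1 i.2)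
      ≤ 8 * a := by
  have hrf := MX354.root_field K hp
  have h1 := en_1P_DM hp
  have b1 : BC (fun x => sl (1 - K.P x) (fun k (i : Fin n × Fin n) => ef M Z k x i.1 i.2)) :=
    BC_sl (Q := fun x => 1 - K.P x) (f := fun k (i : Fin n × Fin n) x => ef M Z k x i.1 i.2)
      (BC_1P K) fun p i => BC_ef hp p i.1 i.2
  have b2 : BC (fun x => sl (1 - K.P x)
      (fun k (i : Fin n × Fin n × Fin n × R) => pd k (fam3 M i) x)) :=
    BC_sl (Q := fun x => 1 - K.P x)
      (f := fun k (i : Fin n × Fin n × Fin n × R) x => pd k (fam3 M i) x)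
      (BC_1P K) fun p i => BC.pd (hp.cb i) p
  have hpt : ∀ x, sl (1 - K.P x) (fun k (i : Fin n × Fin n) => ef M Z k x i.1 i.2) ≤
      4 * sl (1 - K.P x) (fun k (i : Fin n × Fin n × Fin n × R) => pd k (fam3 M i) x) := by
    intro x
    refine sl_le_of_comb (symm_1P K x) (nonneg_1P K x) fun ξ => ?_
    have h := hs_comb_le (hp.sym x) (fun k => sym3_pdT hp.sym k x) (hp.Zpos x) (hp.Zsq x)
      (fun k => hrf.2.1 x k) (fun k => hrf.2.2 x k) ξ
    rw [ip_comb_apply, hs_comb_apply] at h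
    exact h
  have h2 : en K.μ (fun x => 1 - K.P x) (fun k (i : Fin n × Fin n) x => ef M Z k x i.1 i.2) ≤
      4 * en K.μ (fun x => 1 - K.P x)
        (fun k (i : Fin n × Fin n × Fin n × R) x => pd k (fam3 M i) x) := by
    rw [en_eq, en_eq, ← integral_const_mul]
    exact integral_mono b1.int (BC.const_mul 4 b2).int hpt
  linarith

/-- the mean of the error part -/
theorem mean_ef {D C C' : ℝ} (hC0 : 0 < C) (hp : Pack K R a M Z) (haD : a ≤ D)
    (hm : msq K.μ (famM Z) ≤ D) (ht : tsq K.μ K.ω (famM Z) ≤ D)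
    (hC : ∀ p : PtD n R, ∃ B, Conn p C' (C * p.err) B) :
    ∑ k, ∑ i : Fin n × Fin n, (∫ x, ef M Z k x i.1 i.2 ∂K.μ) ^ 2 ≤
      16 * a + 64 * C * K.η ^ 2 * D := by
  have h1 := mean_split (K := K) (f := fun k (i : Fin n × Fin n) x => ef M Z k x i.1 i.2)
    fun p i => BC_ef hp p i.1 i.2
  have h2 := en_1P_ef hp
  have h3 := int_ef hC0 hp haD hm ht hC
  have e : ∑ k, ∑ i : Fin n × Fin n, ∫ x, ef M Z k x i.1 i.2 ^ 2 ∂K.μ =
      ∑ k, ∫ x, hs (ef M Z k x) ∂K.μ := by
    refine Finset.sum_congr rfl fun k _ => ?_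
    rw [← integral_finsetSum _ fun i _ => (BC_ef hp k i.1 i.2).sq.int]
    refine integral_congr_ae (Filter.Eventually.of_forall fun x => ?_)
    simp only [hs, Fintype.sum_prod_type]
  rw [e] at h1
  have h4 : 2 * K.η ^ 2 * ∑ k, ∫ x, hs (ef M Z k x) ∂K.μ ≤ 2 * K.η ^ 2 * (32 * C * D) :=
    mul_le_mul_of_nonneg_left h3 (by positivity)
  calc _ ≤ _ := h1
    _ ≤ 2 * (8 * a) + 2 * K.η ^ 2 * (32 * C * D) := by linarith
    _ = _ := by ring

end Crest.Agent.R201.N947
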