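import Crest.Agent.R201.FD8c_947

/-!
# R201, KLS half (helper947): FD8 (`covZ`), the mean of `(D M) Uᵀ` (affinity domination)
-/

set_option autoImplicit false
open MeasureTheory Matrix

namespace Crest.Agent.R201.N947

set_option maxHeartbeats 400000

variable {n : ℕ} {K : KD n}

/-! ### means -/

/-- pointwise domination of Gram kernels gives domination of means -/
theorem mean_le_of_kernel {α β γ : Type*} [Fintype α] [Fintype β] [Fintype γ]
    {f : α → E n → ℝ} {g : β → E n → ℝ} {h : γ → E n → ℝ} (hf : ∀ i, BC (f i))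
    (hg : ∀ i, BC (g i)) (hh : ∀ i, BC (h i))
    (hk : ∀ x y, ∑ i, f i x * f i y ≤ (1 / 2) * ((∑ i, g i x * g i y) + ∑ i, h i x * h i y)) :
    ∑ i, (∫ x, f i x ∂K.μ) ^ 2 ≤
      (1 / 2) * ((∑ i, (∫ x, g i x ∂K.μ) ^ 2) + ∑ i, (∫ x, h i x ∂K.μ) ^ 2) := by
  -- integrate in `y`
  have h1 : ∀ x, ∑ i, f i x * (∫ y, f i y ∂K.μ) ≤
      (1 / 2) * ((∑ i, g i x * ∫ y, g i y ∂K.μ) + ∑ i, h i x * ∫ y, h i y ∂K.μ) := by
    intro x
    have := integral_mono (μ := K.μ)
      (BC.sum Finset.univ fun i _ => (hf i).const_mul (f i x)).int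
      (BC.const_mul (1 / 2) ((BC.sum Finset.univ fun i _ => (hg i).const_mul (g i x)).add
        (BC.sum Finset.univ fun i _ => (hh i).const_mul (h i x)))).int (hk x)
    rw [integral_finsetSum _ fun i _ => ((hf i).const_mul (f i x)).int, integral_const_mul,
      integral_add (BC.sum Finset.univ fun i _ => (hg i).const_mul (g i x)).int
        (BC.sum Finset.univ fun i _ => (hh i).const_mul (h i x)).int,
      integral_finsetSum _ fun i _ => ((hg i).const_mul (g i x)).int,
      integral_finsetSum _ fun i _ => ((hh i).const_mul (h i x)).int] at this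
    simp only [integral_const_mul] at this
    exact this
  have hf' : ∀ i, BC (fun x => f i x * ∫ y, f i y ∂K.μ) := fun i => (hf i).mul (BC.const _)
  have hg' : ∀ i, BC (fun x => g i x * ∫ y, g i y ∂K.μ) := fun i => (hg i).mul (BC.const _)
  have hh' : ∀ i, BC (fun x => h i x * ∫ y, h i y ∂K.μ) := fun i => (hh i).mul (BC.const _)
  have h2 := integral_mono (μ := K.μ) (BC.sum Finset.univ fun i _ => hf' i).int
    (BC.const_mul (1 / 2) ((BC.sum Finset.univ fun i _ => hg' i).add
      (BC.sum Finset.univ fun i _ => hh' i))).int h1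
  rw [integral_finsetSum _ fun i _ => (hf' i).int, integral_const_mul,
    integral_add (BC.sum Finset.univ fun i _ => hg' i).int
      (BC.sum Finset.univ fun i _ => hh' i).int,
    integral_finsetSum _ fun i _ => (hg' i).int,
    integral_finsetSum _ fun i _ => (hh' i).int] at h2
  simp only [integral_mul_const] at h2
  simp only [pow_two]
  exact h2

theorem sq_int_le {f : E n → ℝ} (hf : BC f) : (∫ x, f x ∂K.μ) ^ 2 ≤ ∫ x, f x ^ 2 ∂K.μ := by
  have := K.prob
  set c := ∫ x, f x ∂K.μ with hc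
  have h1 : 0 ≤ ∫ x, (f x - c) ^ 2 ∂K.μ := integral_nonneg fun x => sq_nonneg _
  have e : ∀ x, (f x - c) ^ 2 = f x ^ 2 - (2 * c) * f x + c ^ 2 := fun x => by ring
  simp only [e] at h1
  rw [integral_add (hf.sq.sub (hf.const_mul (2 * c))).int (BC.const _).int,
    integral_sub hf.sq.int (hf.const_mul (2 * c)).int, integral_const_mul] at h1
  have e2 : ∫ _x : E n, c ^ 2 ∂K.μ = c ^ 2 := by simp
  rw [e2, ← hc] at h1
  nlinarith

theorem hs_intM_le {F : E n → Mt n} (hF : ∀ i j, BC (fun x => F x i j)) :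
    hs (intM K F) ≤ ∫ x, hs (F x) ∂K.μ := by
  have e : ∫ x, hs (F x) ∂K.μ = ∑ i, ∑ j, ∫ x, F x i j ^ 2 ∂K.μ := by
    unfold hs
    rw [integral_finsetSum _ fun i _ => (BC.sum Finset.univ fun j _ => (hF i j).sq).int]
    exact Finset.sum_congr rfl fun i _ => integral_finsetSum _ fun j _ => (hF i j).sq.int
  rw [e]
  unfold hs intM
  simp only [Matrix.of_apply]
  exact Finset.sum_le_sum fun i _ => Finset.sum_le_sum fun j _ => sq_int_le (hF i j)

theorem hs_intM_close {F G : E n → Mt n} (hF : ∀ i j, BC (fun x => F x i j))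
    (hG : ∀ i j, BC (fun x => G x i j)) :
    hs (intM K F) ≤ 2 * hs (intM K G) + 2 * ∫ x, hs (F x - G x) ∂K.μ := by
  have e : intM K F = intM K G + intM K (fun x => F x - G x) := by
    ext i j
    simp only [intM, Matrix.of_apply, Matrix.add_apply, Matrix.sub_apply]
    rw [integral_sub (hF i j).int (hG i j).int]
    ring
  rw [e]
  have h1 := NB152.hs_add_le (intM K G) (intM K (fun x => F x - G x))
  have h2 := hs_intM_le (K := K) (F := fun x => F x - G x) fun i j => (hF i j).sub (hG i j)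
  linarith

/-! ### roots -/

theorem continuous_of_sq {f : E n → ℝ} {g : E n → E n → ℝ} (hg : ∀ x, Continuous (g x))
    (hg0 : ∀ x, g x x = 0) (h : ∀ x y, (f y - f x) ^ 2 ≤ g x y) : Continuous f := by
  rw [continuous_iff_continuousAt]
  intro x
  rw [ContinuousAt, tendsto_iff_norm_sub_tendsto_zero]
  have h1 : Filter.Tendsto (fun y => Real.sqrt (g x y)) (nhds x) (nhds 0) := by
    have := (hg x).sqrt.tendsto x
    simpa only [hg0, Real.sqrt_zero] using this
  refine squeeze_zero (fun y => norm_nonneg _) (fun y => ?_) h1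
  rw [Real.norm_eq_abs]
  exact Real.abs_le_sqrt (h x y)

theorem BC_rt {m m' : Type} [Fintype m] [DecidableEq m] [Fintype m'] {A : E n → Matrix m m' ℝ}
    (hA : ∀ i j, BC (fun x => A x i j)) (i j : m) : BC (fun x => rt (A x * (A x)ᵀ) i j) := by
  have hb : BC (fun x => hs (A x)) := BC.sum _ fun i _ => BC.sum _ fun j _ => (hA i j).sq
  refine BC.of_le ?_ ((BC.const 1).add hb) fun x => ?_
  · refine continuous_of_sq (g := fun x y => 2 * hs (A y - A x)) (fun x => ?_) (fun x => ?_)
      fun x y => ?_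
    · refine continuous_const.mul ?_
      show Continuous fun y => ∑ i, ∑ j, (A y - A x) i j ^ 2
      refine continuous_finsetSum _ fun i _ => continuous_finsetSum _ fun j _ => ?_
      exact ((hA i j).1.sub continuous_const).pow 2
    · simp [hs]
    · have h1 := MX354.rt_lip (A y) (A x)
      have h2 := MX354.sq_le_hs (rt (A y * (A y)ᵀ) - rt (A x * (A x)ᵀ)) i j
      simp only [Matrix.sub_apply] at h2
      exact h2.trans h1
  · refine (abs_le_one_add_sq _).trans ?_
    have h1 := MX354.rt_spec (MX354.posSemidef_mul_transpose (A x))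
    have h2 := MX354.sq_le_hs (rt (A x * (A x)ᵀ)) i j
    have h3 : hs (rt (A x * (A x)ᵀ)) = hs (A x) := by
      rw [MX354.hs_eq_trace, MX354.posSemidef_transpose h1.1, h1.2, ← MX354.hs_eq_trace]
    linarith

/-! ### flattenings -/

variable {R : Type} [Fintype R]

/-- slot `a` against the rest -/
def flA (N : Fin n → T3 n R) : Matrix (Fin n) (Fin n × Fin n × Fin n × R) ℝ :=
  Matrix.of fun a i => N i.1 a i.2.1 i.2.2.1 i.2.2.2

/-- slot `k` against the rest -/
def flK (N : Fin n → T3 n R) : Matrix (Fin n) (Fin n × Fin n × Fin n × R) ℝ :=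
  Matrix.of fun k i => N k i.1 i.2.1 i.2.2.1 i.2.2.2

theorem flA_mul (N : Fin n → T3 n R) : flA N * (flA N)ᵀ = ∑ k, gram (N k) (N k) := by
  ext a a'
  rw [Matrix.mul_apply, Matrix.sum_apply]
  simp only [flA, gram, Matrix.of_apply, transpose_apply, Fintype.sum_prod_type]

theorem flK_mul (N : Fin n → T3 n R) :
    flK N * (flK N)ᵀ = Matrix.of fun k l => ip (N k) (N l) := by
  ext k l
  rw [Matrix.mul_apply]
  simp only [flK, ip, Matrix.of_apply, transpose_apply, Fintype.sum_prod_type]

theorem hs_flA_sub (N N' : Fin n → T3 n R) :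
    hs (flA N - flA N') = ∑ k, ip (N k - N' k) (N k - N' k) := by
  simp only [hs, flA, ip, Matrix.sub_apply, Matrix.of_apply, Pi.sub_apply, Fintype.sum_prod_type,
    sq]
  exact Finset.sum_comm

theorem hs_flK_sub (N N' : Fin n → T3 n R) :
    hs (flK N - flK N') = ∑ k, ip (N k - N' k) (N k - N' k) := by
  simp only [hs, flK, ip, Matrix.sub_apply, Matrix.of_apply, Pi.sub_apply, Fintype.sum_prod_type,
    sq]

theorem hs_flK_flA (N : Fin n → T3 n R) :
    hs (flK N - flA N) = ∑ k, ∑ a, ∑ b, ∑ c, ∑ r, (N k a b c r - N a k b c r) ^ 2 := by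
  simp only [hs, flK, flA, Matrix.sub_apply, Matrix.of_apply, Fintype.sum_prod_type]

theorem BC_flA {N : E n → Fin n → T3 n R} (hN : ∀ k a b c r, BC (fun x => N x k a b c r))
    (i : Fin n) (j : Fin n × Fin n × Fin n × R) : BC (fun x => flA (N x) i j) :=
  hN j.1 i j.2.1 j.2.2.1 j.2.2.2

theorem BC_flK {N : E n → Fin n → T3 n R} (hN : ∀ k a b c r, BC (fun x => N x k a b c r))
    (i : Fin n) (j : Fin n × Fin n × Fin n × R) : BC (fun x => flK (N x) i j) :=
  hN i j.1 j.2.1 j.2.2.1 j.2.2.2

/-- the two roots -/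
noncomputable def rA (N : Fin n → T3 n R) : Mt n := rt (flA N * (flA N)ᵀ)
noncomputable def rK (N : Fin n → T3 n R) : Mt n := rt (flK N * (flK N)ᵀ)

theorem rA_spec (N : Fin n → T3 n R) : (rA N).PosSemidef ∧ rA N * rA N = ∑ k, gram (N k) (N k) := by
  have := MX354.rt_spec (MX354.posSemidef_mul_transpose (flA N))
  rw [flA_mul] at this
  unfold rA
  rw [flA_mul]
  exact this

theorem rK_spec (N : Fin n → T3 n R) :
    (rK N).PosSemidef ∧ rK N * rK N = Matrix.of fun k l => ip (N k) (N l) := by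
  have := MX354.rt_spec (MX354.posSemidef_mul_transpose (flK N))
  rw [flK_mul] at this
  unfold rK
  rw [flK_mul]
  exact this

theorem leQ_sum {m : Type*} [Fintype m] {ι : Type*} (s : Finset ι) {A B : ι → Matrix m m ℝ}
    (h : ∀ i ∈ s, LeQ (A i) (B i)) : LeQ (∑ i ∈ s, A i) (∑ i ∈ s, B i) := by
  intro u
  simp only [Matrix.sum_mulVec, dotProduct_sum]
  exact Finset.sum_le_sum fun i hi => h i hi u

theorem quad_K (S : Fin n → Mt n) (u : Fin n → ℝ) :
    u ⬝ᵥ ((Matrix.of fun k l => (S k * (S l)ᵀ).trace) *ᵥ u) = hs (∑ k, u k • S k) := by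
  rw [NB152.hs_eq_trace, Matrix.transpose_sum, Finset.sum_mul, trace_sum]
  simp only [dotProduct, mulVec, Matrix.of_apply, Finset.mul_sum]
  refine Finset.sum_congr rfl fun k _ => ?_
  rw [trace_sum]
  refine Finset.sum_congr rfl fun l _ => ?_
  rw [Matrix.transpose_smul, Matrix.smul_mul, Matrix.mul_smul, trace_smul, trace_smul, smul_eq_mul,
    smul_eq_mul]
  ring

theorem quad_ip (N : Fin n → T3 n R) (u : Fin n → ℝ) :
    u ⬝ᵥ ((Matrix.of fun k l => ip (N k) (N l)) *ᵥ u) = ip (∑ k, u k • N k) (∑ k, u k • N k) := by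
  rw [NB152.ip_eq_trace, gram_sum_left, trace_sum]
  simp only [dotProduct, mulVec, Matrix.of_apply, Finset.mul_sum]
  refine Finset.sum_congr rfl fun k _ => ?_
  have e : gram (N k) (∑ l, u l • N l) = ∑ l, u l • gram (N k) (N l) := by
    rw [← NB152.gram_transpose, gram_sum_left, Matrix.transpose_sum]
    refine Finset.sum_congr rfl fun l _ => ?_
    rw [gram_smul_left, Matrix.transpose_smul, NB152.gram_transpose]
  rw [gram_smul_left, trace_smul, e, trace_sum, smul_eq_mul, Finset.mul_sum]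
  refine Finset.sum_congr rfl fun l _ => ?_
  rw [trace_smul, smul_eq_mul, NB152.ip_eq_trace]
  ring

/-- affinity for `N Uᵀ`: pointwise kernel bound -/
theorem aff_point {U V : T3 n R} (hU : gram U U = 1) (hV : gram V V = 1) (N N' : Fin n → T3 n R) :
    ∑ k, (gram (N k) U * (gram (N' k) V)ᵀ).trace ≤
      (1 / 2) * ((rA N * rA N').trace + (rK N * rK N').trace) := by
  have main : ∀ (W : T3 n R) (hW : gram W W = 1) (L : Fin n → T3 n R),
      LeQ (∑ k, gram (L k) W * (gram (L k) W)ᵀ) (rA L * rA L) ∧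
      LeQ (Matrix.of fun k l => (gram (L k) W * (gram (L l) W)ᵀ).trace) (rK L * rK L) := by
    intro W hW L
    constructor
    · rw [(rA_spec L).2]
      exact leQ_sum _ fun k _ => gram_contr hW (L k)
    · rw [(rK_spec L).2]
      intro u
      rw [quad_K (fun k => gram (L k) W), quad_ip]
      have e : ∑ k, u k • gram (L k) W = gram (∑ k, u k • L k) W := by
        rw [gram_sum_left]
        exact Finset.sum_congr rfl fun k _ => (gram_smul_left _ _ _).symm
      rw [e]
      exact hs_gram_le hW _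
  have h := MX354.affinity (fun k => gram (N k) U) (fun k => gram (N' k) V) (rA N) (rA N') (rK N)
    (rK N') (rA_spec N).1 (rA_spec N').1 (rK_spec N).1 (rK_spec N').1 (main U hU N).1
    (main V hV N').1 (main U hU N).2 (main V hV N').2
  have h1 := MX354.trace_mul_nonneg (rA_spec N).1 (rA_spec N').1
  have h2 := MX354.trace_mul_nonneg (rK_spec N).1 (rK_spec N').1
  refine (le_abs_self _).trans (h.trans ?_)
  have h3 := Real.sq_sqrt h1
  have h4 := Real.sq_sqrt h2
  nlinarith [sq_nonneg (Real.sqrt (rA N * rA N').trace - Real.sqrt (rK N * rK N').trace)]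

end Crest.Agent.R201.N947
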