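import Crest.Agent.R201.FD8d_947

/-!
# R201, KLS half (helper947): FD8 (`covZ`), the mean of `D Z`
-/

set_option autoImplicit false
open MeasureTheory Matrix

namespace Crest.Agent.R201.N947

set_option maxHeartbeats 400000

variable {n : ℕ} {K : KD n} {R : Type} [Fintype R] {a : ℝ} {M : E n → T3 n R} {Z : E n → Mt n}
  {Mp : Fin n → E n → T3 n R}

theorem BC_pdT (hp : Pack K R a M Z) : ∀ (k a b c : Fin n) (r : R),
    BC (fun x => (fun k => pdT k M x : Fin n → T3 n R) k a b c r) :=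
  fun k a b c r => BC.pd (hp.cb (a, b, c, r)) k

theorem BC_Mp (hx : Ext K R a M Mp Z) : ∀ (k a b c : Fin n) (r : R),
    BC (fun x => (fun k => Mp k x : Fin n → T3 n R) k a b c r) :=
  fun k a b c r => BC.of_cb (hx.cb k (a, b, c, r))

/-- kernel domination -/
theorem mean_Nf (hp : Pack K R a M Z) :
    ∑ k, ∑ i : Fin n × Fin n, (∫ x, Nf M Z k x i.1 i.2 ∂K.μ) ^ 2 ≤
      (1 / 2) * (hs (intM K fun x => rA fun k => pdT k M x)
        + hs (intM K fun x => rK fun k => pdT k M x)) := by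
  have hA : ∀ i j, BC (fun x => (rA fun k => pdT k M x) i j) := fun i j =>
    BC_rt (A := fun x => flA fun k => pdT k M x) (fun i j => BC_flA (BC_pdT hp) i j) i j
  have hK : ∀ i j, BC (fun x => (rK fun k => pdT k M x) i j) := fun i j =>
    BC_rt (A := fun x => flK fun k => pdT k M x) (fun i j => BC_flK (BC_pdT hp) i j) i j
  have htr : ∀ {A B : Mt n}, B.PosSemidef → (A * B).trace = ∑ i : Fin n × Fin n,
      A i.1 i.2 * B i.1 i.2 := by
    intro A B hB
    have hs := MX354.posSemidef_transpose hB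
    rw [Fintype.sum_prod_type]
    simp only [trace, diag_apply, Matrix.mul_apply]
    refine Finset.sum_congr rfl fun i _ => Finset.sum_congr rfl fun j _ => ?_
    have := congrFun (congrFun hs i) j
    simp only [transpose_apply] at this
    rw [this]
  have key := mean_le_of_kernel (K := K)
    (f := fun (p : Fin n × Fin n × Fin n) x => Nf M Z p.1 x p.2.1 p.2.2)
    (g := fun (i : Fin n × Fin n) x => (rA fun k => pdT k M x) i.1 i.2)
    (h := fun (i : Fin n × Fin n) x => (rK fun k => pdT k M x) i.1 i.2)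
    (fun p => BC_Nf hp p.1 p.2.1 p.2.2) (fun i => hA i.1 i.2) (fun i => hK i.1 i.2)
    (fun x y => by
      have h := aff_point (gram_UU (hp.Zpos x) (hp.Zsq x)) (gram_UU (hp.Zpos y) (hp.Zsq y))
        (fun k => pdT k M x) (fun k => pdT k M y)
      rw [htr (rA_spec _).1, htr (rK_spec _).1] at h
      refine le_trans (le_of_eq ?_) h
      rw [Fintype.sum_prod_type]
      refine Finset.sum_congr rfl fun k _ => ?_
      rw [Fintype.sum_prod_type]
      simp only [trace, diag_apply, Matrix.mul_apply, transpose_apply, Nf])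
  have e1 : ∑ p : Fin n × Fin n × Fin n, (∫ x, Nf M Z p.1 x p.2.1 p.2.2 ∂K.μ) ^ 2 =
      ∑ k, ∑ i : Fin n × Fin n, (∫ x, Nf M Z k x i.1 i.2 ∂K.μ) ^ 2 := Fintype.sum_prod_type _
  have e2 : ∀ F : E n → Mt n, hs (intM K F) =
      ∑ i : Fin n × Fin n, (∫ x, F x i.1 i.2 ∂K.μ) ^ 2 := by
    intro F
    simp only [hs, intM, Matrix.of_apply, Fintype.sum_prod_type]
  rw [e2, e2, ← e1]
  exact key

theorem rA_le (hp : Pack K R a M Z) (hx : Ext K R a M Mp Z) (x : E n) :
    ((10 : ℝ) • Z x - rA fun k => Mp k x).PosSemidef := by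
  have hZ := (hp.Zpos x).posSemidef
  have h1 := rA_spec fun k => Mp k x
  refine MX354.sub_posSemidef (hZ.smul (by norm_num)) (MX354.posSemidef_transpose h1.1) ?_
  rw [h1.2]
  intro u
  have h2 := hx.gramle x u
  simp only [Matrix.smul_mul, Matrix.mul_smul, smul_mulVec, dotProduct_smul, smul_eq_mul] at h2 ⊢
  linarith

/-- `|E Rp|² ≤ 100 |E Z|²` -/
theorem mean_rA_Mp (hp : Pack K R a M Z) (hx : Ext K R a M Mp Z) :
    hs (intM K fun x => rA fun k => Mp k x) ≤ 100 * msq K.μ (famM Z) := by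
  have hZ := (MX354.root_field K hp).1
  have hA : ∀ i j, BC (fun x => (rA fun k => Mp k x) i j) := fun i j =>
    BC_rt (A := fun x => flA fun k => Mp k x) (fun i j => BC_flA (BC_Mp hx) i j) i j
  have i1 : ∀ i j, Integrable (fun x => Z x i j) K.μ := fun i j => Tw807.int_cb K (hZ (i, j))
  have i2 : ∀ i j, Integrable (fun x => (rA fun k => Mp k x) i j) K.μ := fun i j => (hA i j).int
  rw [msq_famM]
  have p1 := posSemidef_intM (K := K) i1 fun x => (hp.Zpos x).posSemidef
  have p2 := posSemidef_intM (K := K) i2 fun x => (rA_spec fun k => Mp k x).1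
  have p3 := posSemidef_intM (K := K) (Z := fun x => (10 : ℝ) • Z x - rA fun k => Mp k x)
    (fun i j => ((i1 i j).const_mul 10).sub (i2 i j)) (fun x => rA_le hp hx x)
  have e : intM K (fun x => (10 : ℝ) • Z x - rA fun k => Mp k x) =
      (10 : ℝ) • intM K Z - intM K fun x => rA fun k => Mp k x := by
    ext i j
    simp only [intM, Matrix.of_apply, Matrix.sub_apply, Matrix.smul_apply, smul_eq_mul]
    rw [integral_sub ((i1 i j).const_mul 10) (i2 i j), integral_const_mul]
  rw [e] at p3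
  have h := hs_mono p2 (p1.smul (by norm_num : (0:ℝ) ≤ 10)) p3
  rw [NB152.hs_smul] at h
  norm_num at h
  exact h

theorem near_int (hp : Pack K R a M Z) (hx : Ext K R a M Mp Z) :
    (∀ k, Integrable (fun x => ip (pdT k M x - Mp k x) (pdT k M x - Mp k x)) K.μ) ∧
    ∫ x, ∑ k, ip (pdT k M x - Mp k x) (pdT k M x - Mp k x) ∂K.μ ≤ a := by
  have hb : ∀ k, BC (fun x => ip (pdT k M x - Mp k x) (pdT k M x - Mp k x)) := by
    intro k
    show BC fun x => ∑ a, ∑ b, ∑ c, ∑ r, (pdT k M x - Mp k x) a b c r *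
      (pdT k M x - Mp k x) a b c r
    have h1 : ∀ a b c r, BC fun x => (pdT k M x - Mp k x) a b c r := fun a b c r =>
      (BC_pdT hp k a b c r).sub (BC_Mp hx k a b c r)
    exact BC.sum _ fun a _ => BC.sum _ fun b _ => BC.sum _ fun c _ => BC.sum _ fun r _ =>
      (h1 a b c r).mul (h1 a b c r)
  refine ⟨fun k => (hb k).int, ?_⟩
  rw [integral_finsetSum _ fun k _ => (hb k).int]
  exact hx.near

theorem mean_rA (hp : Pack K R a M Z) (hx : Ext K R a M Mp Z) :
    hs (intM K fun x => rA fun k => pdT k M x) ≤ 200 * msq K.μ (famM Z) + 4 * a := by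
  have hA : ∀ i j, BC (fun x => (rA fun k => pdT k M x) i j) := fun i j =>
    BC_rt (A := fun x => flA fun k => pdT k M x) (fun i j => BC_flA (BC_pdT hp) i j) i j
  have hB : ∀ i j, BC (fun x => (rA fun k => Mp k x) i j) := fun i j =>
    BC_rt (A := fun x => flA fun k => Mp k x) (fun i j => BC_flA (BC_Mp hx) i j) i j
  have h1 := hs_intM_close (K := K) hA hB
  have h2 := mean_rA_Mp hp hx
  obtain ⟨i3, h3⟩ := near_int hp hx
  have h4 : ∫ x, hs ((rA fun k => pdT k M x) - rA fun k => Mp k x) ∂K.μ ≤ 2 * a := by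
    have hpt : ∀ x, hs ((rA fun k => pdT k M x) - rA fun k => Mp k x) ≤
        2 * ∑ k, ip (pdT k M x - Mp k x) (pdT k M x - Mp k x) := by
      intro x
      have := MX354.rt_lip (flA fun k => pdT k M x) (flA fun k => Mp k x)
      rw [hs_flA_sub] at this
      exact this
    have i4 : Integrable (fun x => ∑ k, ip (pdT k M x - Mp k x) (pdT k M x - Mp k x)) K.μ :=
      integrable_finsetSum Finset.univ fun k _ => i3 k
    have h6 := integral_mono (μ := K.μ) (BC_hs fun i j => (hA i j).sub (hB i j)).int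
      (i4.const_mul 2) hpt
    rw [integral_const_mul] at h6
    exact h6.trans (by linarith)
  linarith

theorem mean_rK (hp : Pack K R a M Z) (hx : Ext K R a M Mp Z) :
    hs (intM K fun x => rK fun k => pdT k M x) ≤ 200 * msq K.μ (famM Z) + 16 * a := by
  have hA : ∀ i j, BC (fun x => (rK fun k => pdT k M x) i j) := fun i j =>
    BC_rt (A := fun x => flK fun k => pdT k M x) (fun i j => BC_flK (BC_pdT hp) i j) i j
  have hB : ∀ i j, BC (fun x => (rA fun k => Mp k x) i j) := fun i j =>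
    BC_rt (A := fun x => flA fun k => Mp k x) (fun i j => BC_flA (BC_Mp hx) i j) i j
  have h1 := hs_intM_close (K := K) hA hB
  have h2 := mean_rA_Mp hp hx
  obtain ⟨i3, h3⟩ := near_int hp hx
  have i5 : Integrable (fun x => ∑ k, ∑ a, ∑ b, ∑ c, ∑ r, (Mp k x a b c r - Mp a x k b c r) ^ 2)
      K.μ := by
    refine BC.int ?_
    exact BC.sum _ fun k _ => BC.sum _ fun a _ => BC.sum _ fun b _ => BC.sum _ fun c _ =>
      BC.sum _ fun r _ => ((BC_Mp hx k a b c r).sub (BC_Mp hx a k b c r)).sq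
  have h4 : ∫ x, hs ((rK fun k => pdT k M x) - rA fun k => Mp k x) ∂K.μ ≤ 8 * a := by
    have hpt : ∀ x, hs ((rK fun k => pdT k M x) - rA fun k => Mp k x) ≤
        4 * (∑ k, ip (pdT k M x - Mp k x) (pdT k M x - Mp k x))
        + 4 * ∑ k, ∑ a, ∑ b, ∑ c, ∑ r, (Mp k x a b c r - Mp a x k b c r) ^ 2 := by
      intro x
      have g1 := MX354.rt_lip (flK fun k => pdT k M x) (flA fun k => Mp k x)
      have g2 : hs ((flK fun k => pdT k M x) - flA fun k => Mp k x) ≤
          2 * hs ((flK fun k => pdT k M x) - flK fun k => Mp k x) +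
          2 * hs ((flK fun k => Mp k x) - flA fun k => Mp k x) := by
        have := NB152.hs_add_le ((flK fun k => pdT k M x) - flK fun k => Mp k x)
          ((flK fun k => Mp k x) - flA fun k => Mp k x)
        rwa [sub_add_sub_cancel] at this
      rw [hs_flK_sub, hs_flK_flA] at g2
      have g3 : hs ((rK fun k => pdT k M x) - rA fun k => Mp k x) ≤
        2 * hs ((flK fun k => pdT k M x) - flA fun k => Mp k x) := g1
      linarith
    have i4 : Integrable (fun x => ∑ k, ip (pdT k M x - Mp k x) (pdT k M x - Mp k x)) K.μ :=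
      integrable_finsetSum Finset.univ fun k _ => i3 k
    have h6 := integral_mono (μ := K.μ) (BC_hs fun i j => (hA i j).sub (hB i j)).int
      ((i4.const_mul 4).add (i5.const_mul 4)) hpt
    have e : ∫ x, ((fun x => 4 * (∑ k, ip (pdT k M x - Mp k x) (pdT k M x - Mp k x)))
          + fun x => 4 * ∑ k, ∑ a, ∑ b, ∑ c, ∑ r, (Mp k x a b c r - Mp a x k b c r) ^ 2) x ∂K.μ =
          4 * (∫ x, ∑ k, ip (pdT k M x - Mp k x) (pdT k M x - Mp k x) ∂K.μ)
          + 4 * ∫ x, ∑ k, ∑ a, ∑ b, ∑ c, ∑ r, (Mp k x a b c r - Mp a x k b c r) ^ 2 ∂K.μ := by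
      rw [← integral_const_mul, ← integral_const_mul]
      exact integral_add (i4.const_mul 4) (i5.const_mul 4)
    rw [e] at h6
    have := hx.swap
    exact h6.trans (by linarith)
  linarith

/-- **the mean of `D Z`** -/
theorem mean_DZ {D C C' : ℝ} (hC0 : 0 < C) (hp : Pack K R a M Z) (hx : Ext K R a M Mp Z)
    (haD : a ≤ D) (hm : msq K.μ (famM Z) ≤ D) (ht : tsq K.μ K.ω (famM Z) ≤ D)
    (hC : ∀ p : PtD n R, ∃ B, Conn p C' (C * p.err) B) :
    ∑ k, ∑ i, (∫ x, pd k (famM Z i) x ∂K.μ) ^ 2 ≤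
      400 * msq K.μ (famM Z) + 52 * a + 128 * C * K.η ^ 2 * D := by
  have h1 := mean_ef hC0 hp haD hm ht hC
  have h2 := mean_Nf hp
  have h3 := mean_rA hp hx
  have h4 := mean_rK hp hx
  have h5 : ∀ k (i : Fin n × Fin n), (∫ x, pd k (famM Z i) x ∂K.μ) ^ 2 ≤
      2 * (∫ x, Nf M Z k x i.1 i.2 ∂K.μ) ^ 2 + 2 * (∫ x, ef M Z k x i.1 i.2 ∂K.μ) ^ 2 := by
    intro k i
    have e : ∫ x, pd k (famM Z i) x ∂K.μ =
        (∫ x, Nf M Z k x i.1 i.2 ∂K.μ) + ∫ x, ef M Z k x i.1 i.2 ∂K.μ := by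
      rw [← integral_add (BC_Nf hp k i.1 i.2).int (BC_ef hp k i.1 i.2).int]
      refine integral_congr_ae (Filter.Eventually.of_forall fun x => ?_)
      simp only [ef, Matrix.sub_apply, add_sub_cancel]
      rfl
    rw [e]
    nlinarith [sq_nonneg ((∫ x, Nf M Z k x i.1 i.2 ∂K.μ) - ∫ x, ef M Z k x i.1 i.2 ∂K.μ)]
  have h6 : ∑ k, ∑ i, (∫ x, pd k (famM Z i) x ∂K.μ) ^ 2 ≤
      2 * (∑ k, ∑ i : Fin n × Fin n, (∫ x, Nf M Z k x i.1 i.2 ∂K.μ) ^ 2)
      + 2 * ∑ k, ∑ i : Fin n × Fin n, (∫ x, ef M Z k x i.1 i.2 ∂K.μ) ^ 2 := by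
    simp only [Finset.mul_sum, ← Finset.sum_add_distrib]
    exact Finset.sum_le_sum fun k _ => Finset.sum_le_sum fun i _ => h5 k i
  linarith

end Crest.Agent.R201.N947
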