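import Crest.Agent.R201.FD1_807
import Crest.Agent.R201.Tw5_807

/-!
# R201, KLS half (helper844): FD9 part a — reindexing of words, `T3`-tensors as `T2`-tensors
-/

set_option autoImplicit false
open MeasureTheory Matrix

namespace Crest.Agent.R201.N844

open Crest.Agent.R201

variable {n J : ℕ}

/-- rest index of the tower tensors, seen as `T2` tensors: first slot, newest slot -/
abbrev IJ (n J : ℕ) : Type := Σ j : Fin (J + 1), (Fin ((j : ℕ) + 1) → Fin n)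

/-- the word `a u p` -/
def wd {j : ℕ} (a p : Fin n) (u : Fin (j + 1) → Fin n) : Fin (j + 3) → Fin n :=
  (Fin.cons a (Fin.snoc u p : Fin (j + 2) → Fin n) : Fin (j + 3) → Fin n)

/-- the rest word -/
def tl {j : ℕ} (v : Fin (j + 2) → Fin n) : Fin j → Fin n := fun i => v i.succ.succ

/-- a `T3` tensor over `RJ` as `T2` tensor over `IJ` (the regulariser block is dropped) -/
def toT2 (A : T3 n (RJ n J)) : T2 n (IJ n J) := fun a p i =>
  A a ((Fin.snoc i.2 p : Fin ((i.1 : ℕ) + 2) → Fin n) 0)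
    ((Fin.snoc i.2 p : Fin ((i.1 : ℕ) + 2) → Fin n) 1)
    (Sum.inl ⟨i.1, tl (Fin.snoc i.2 p : Fin ((i.1 : ℕ) + 2) → Fin n)⟩)

theorem sum_cons {j : ℕ} (F : (Fin (j + 1) → Fin n) → ℝ) :
    ∑ w, F w = ∑ k : Fin n, ∑ w : Fin j → Fin n, F (Fin.cons k w) := by
  rw [← Fintype.sum_prod_type']
  exact (Fintype.sum_equiv (Fin.consEquiv fun _ : Fin (j + 1) => Fin n) _ _
    fun p => rfl).symm

theorem word3_tl {j : ℕ} (a : Fin n) (v : Fin (j + 2) → Fin n) :
    word3 a (v 0) (v 1) (tl v) = (Fin.cons a v : Fin (j + 3) → Fin n) := by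
  unfold word3
  congr 1
  funext i
  refine Fin.cases rfl (fun i => ?_) i
  refine Fin.cases rfl (fun i => ?_) i
  rfl

theorem tl_cons {j : ℕ} (b c : Fin n) (w : Fin j → Fin n) :
    tl (Fin.cons b (Fin.cons c w : Fin (j + 1) → Fin n) : Fin (j + 2) → Fin n) = w := by
  funext i
  simp [tl]

/-- `b c w` runs over all words of length `j + 2`, as does `u p` -/
theorem sum_bcw {j : ℕ} (f : Fin n → Fin n → (Fin j → Fin n) → ℝ) :
    ∑ b, ∑ c, ∑ w, f b c w = ∑ p : Fin n, ∑ u : Fin (j + 1) → Fin n,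
      f ((Fin.snoc u p : Fin (j + 2) → Fin n) 0) ((Fin.snoc u p : Fin (j + 2) → Fin n) 1)
        (tl (Fin.snoc u p : Fin (j + 2) → Fin n)) := by
  have h1 : ∑ v : Fin (j + 2) → Fin n, f (v 0) (v 1) (tl v) = ∑ b, ∑ c, ∑ w, f b c w := by
    rw [sum_cons]
    refine Finset.sum_congr rfl fun b _ => ?_
    rw [sum_cons]
    refine Finset.sum_congr rfl fun c _ => ?_
    refine Finset.sum_congr rfl fun w _ => ?_
    rw [tl_cons]
    rfl
  rw [← h1, Tw807.sum_snoc, Finset.sum_comm]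

theorem sum_RJ (g : RJ n J → ℝ) :
    ∑ r, g r = (∑ j : Fin (J + 1), ∑ w : Fin (j : ℕ) → Fin n, g (Sum.inl ⟨j, w⟩)) +
      ∑ i : Fin n, g (Sum.inr i) := by
  rw [Fintype.sum_sum_type, Fintype.sum_sigma]

theorem sum_IJ (g : IJ n J → ℝ) :
    ∑ r, g r = ∑ j : Fin (J + 1), ∑ w : Fin ((j : ℕ) + 1) → Fin n, g ⟨j, w⟩ := by
  rw [Fintype.sum_sigma]

/-- the sum over `b c r` splits into the sum over `p i` and the regulariser block -/
theorem sum_bcr (φ : Fin n → Fin n → RJ n J → ℝ) :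
    ∑ b, ∑ c, ∑ r, φ b c r = (∑ p : Fin n, ∑ i : IJ n J,
      φ ((Fin.snoc i.2 p : Fin ((i.1 : ℕ) + 2) → Fin n) 0)
        ((Fin.snoc i.2 p : Fin ((i.1 : ℕ) + 2) → Fin n) 1)
        (Sum.inl ⟨i.1, tl (Fin.snoc i.2 p : Fin ((i.1 : ℕ) + 2) → Fin n)⟩)) +
      ∑ b, ∑ c, ∑ i : Fin n, φ b c (Sum.inr i) := by
  simp only [sum_RJ, sum_IJ, Finset.sum_add_distrib]
  congr 1
  have h : ∀ b, ∑ c, ∑ j : Fin (J + 1), ∑ w : Fin (j : ℕ) → Fin n, φ b c (Sum.inl ⟨j, w⟩) =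
      ∑ j : Fin (J + 1), ∑ c, ∑ w : Fin (j : ℕ) → Fin n, φ b c (Sum.inl ⟨j, w⟩) :=
    fun b => Finset.sum_comm
  simp only [h]
  rw [Finset.sum_comm, Finset.sum_comm (s := (Finset.univ : Finset (Fin n)))
    (t := (Finset.univ : Finset (Fin (J + 1))))]
  exact Finset.sum_congr rfl fun j _ =>
    sum_bcw (fun b c w => φ b c (Sum.inl ⟨j, w⟩))

theorem ip_eq (A B : T3 n (RJ n J)) : ip A B = ip2 (toT2 A) (toT2 B) +
    ∑ a, ∑ b, ∑ c, ∑ i : Fin n, A a b c (Sum.inr i) * B a b c (Sum.inr i) := by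
  unfold ip ip2
  rw [← Finset.sum_add_distrib]
  exact Finset.sum_congr rfl fun a _ => sum_bcr (fun b c r => A a b c r * B a b c r)

theorem ip2_toT2_le (A : T3 n (RJ n J)) : ip2 (toT2 A) (toT2 A) ≤ ip A A := by
  rw [ip_eq A A]
  have : 0 ≤ ∑ a, ∑ b, ∑ c, ∑ i : Fin n, A a b c (Sum.inr i) * A a b c (Sum.inr i) :=
    Finset.sum_nonneg fun a _ => Finset.sum_nonneg fun b _ => Finset.sum_nonneg fun c _ =>
      Finset.sum_nonneg fun i _ => mul_self_nonneg _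
  linarith

/-- quadratic form of a Gram matrix -/
theorem gram_quad {R : Type*} [Fintype R] (A : T3 n R) (u : Fin n → ℝ) :
    u ⬝ᵥ (gram A A *ᵥ u) = ∑ b, ∑ c, ∑ r, (∑ a, u a * A a b c r) ^ 2 := by
  simp only [dotProduct, Matrix.mulVec, gram, Matrix.of_apply, Finset.mul_sum, Finset.sum_mul, sq]
  have e : ∀ a a', ∑ b, ∑ c, ∑ r, u a * (A a b c r * A a' b c r * u a') =
      ∑ b, ∑ c, ∑ r, u a * A a b c r * (u a' * A a' b c r) := fun a a' =>
    Finset.sum_congr rfl fun b _ => Finset.sum_congr rfl fun c _ =>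
      Finset.sum_congr rfl fun r _ => by ring
  simp only [e]
  calc _ = ∑ a, ∑ b, ∑ a', ∑ c, ∑ r, u a * A a b c r * (u a' * A a' b c r) :=
        Finset.sum_congr rfl fun a _ => Finset.sum_comm
    _ = ∑ b, ∑ a, ∑ a', ∑ c, ∑ r, u a * A a b c r * (u a' * A a' b c r) := Finset.sum_comm
    _ = ∑ b, ∑ a, ∑ c, ∑ a', ∑ r, u a * A a b c r * (u a' * A a' b c r) :=
        Finset.sum_congr rfl fun b _ => Finset.sum_congr rfl fun a _ => Finset.sum_comm
    _ = ∑ b, ∑ c, ∑ a, ∑ a', ∑ r, u a * A a b c r * (u a' * A a' b c r) :=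
        Finset.sum_congr rfl fun b _ => Finset.sum_comm
    _ = ∑ b, ∑ c, ∑ a, ∑ r, ∑ a', u a * A a b c r * (u a' * A a' b c r) :=
        Finset.sum_congr rfl fun b _ => Finset.sum_congr rfl fun c _ =>
          Finset.sum_congr rfl fun a _ => Finset.sum_comm
    _ = ∑ b, ∑ c, ∑ r, ∑ a, ∑ a', u a * A a b c r * (u a' * A a' b c r) :=
        Finset.sum_congr rfl fun b _ => Finset.sum_congr rfl fun c _ => Finset.sum_comm
    _ = _ := Finset.sum_congr rfl fun b _ => Finset.sum_congr rfl fun c _ =>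
        Finset.sum_congr rfl fun r _ => Finset.sum_comm

theorem gramA_quad {ι : Type*} [Fintype ι] (A : T2 n ι) (u : Fin n → ℝ) :
    u ⬝ᵥ (gramA A A *ᵥ u) = ∑ p, ∑ i, (∑ a, u a * A a p i) ^ 2 := by
  simp only [dotProduct, Matrix.mulVec, gramA, Matrix.of_apply, Finset.mul_sum, Finset.sum_mul, sq]
  have e : ∀ a a', ∑ p, ∑ i, u a * (A a p i * A a' p i * u a') =
      ∑ p, ∑ i, u a * A a p i * (u a' * A a' p i) := fun a a' =>
    Finset.sum_congr rfl fun b _ => Finset.sum_congr rfl fun c _ => by ring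
  simp only [e]
  calc _ = ∑ a, ∑ p, ∑ a', ∑ i, u a * A a p i * (u a' * A a' p i) :=
        Finset.sum_congr rfl fun a _ => Finset.sum_comm
    _ = ∑ p, ∑ a, ∑ a', ∑ i, u a * A a p i * (u a' * A a' p i) := Finset.sum_comm
    _ = ∑ p, ∑ a, ∑ i, ∑ a', u a * A a p i * (u a' * A a' p i) :=
        Finset.sum_congr rfl fun b _ => Finset.sum_congr rfl fun a _ => Finset.sum_comm
    _ = ∑ p, ∑ i, ∑ a, ∑ a', u a * A a p i * (u a' * A a' p i) :=
        Finset.sum_congr rfl fun b _ => Finset.sum_comm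
    _ = _ := Finset.sum_congr rfl fun b _ => Finset.sum_congr rfl fun c _ => Finset.sum_comm

theorem gramA_toT2_le (A : T3 n (RJ n J)) : LeQ (gramA (toT2 A) (toT2 A)) (gram A A) := by
  intro u
  rw [gram_quad, gramA_quad, sum_bcr (fun b c r => (∑ a, u a * A a b c r) ^ 2)]
  have : 0 ≤ ∑ b, ∑ c, ∑ i : Fin n, (∑ a, u a * A a b c (Sum.inr i)) ^ 2 :=
    Finset.sum_nonneg fun b _ => Finset.sum_nonneg fun c _ =>
      Finset.sum_nonneg fun i _ => sq_nonneg _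
  have e : ∀ (p : Fin n) (i : IJ n J), ∑ a, u a * toT2 A a p i =
    ∑ a, u a * A a ((Fin.snoc i.2 p : Fin ((i.1 : ℕ) + 2) → Fin n) 0)
    ((Fin.snoc i.2 p : Fin ((i.1 : ℕ) + 2) → Fin n) 1)
    (Sum.inl ⟨i.1, tl (Fin.snoc i.2 p : Fin ((i.1 : ℕ) + 2) → Fin n)⟩) := fun p i => rfl
  simp only [e]
  linarith

theorem toT2_sub (A B : T3 n (RJ n J)) : toT2 (A - B) = toT2 A - toT2 B := rfl
theorem toT2_smul (c : ℕ) (A : T3 n (RJ n J)) : toT2 (c • A) = c • toT2 A := rfl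
theorem toT2_act1 (B : Mt n) (A : T3 n (RJ n J)) : toT2 (act1 B A) = actA B (toT2 A) := rfl
theorem toT2_pd (k : Fin n) (M : E n → T3 n (RJ n J)) (x : E n) :
    toT2 (pdT k M x) = pd2 k (fun y => toT2 (M y)) x := rfl

theorem toT2_MT (F : (j : ℕ) → (Fin j → Fin n) → E n → ℝ) (δ : ℝ) (x : E n) (a p : Fin n)
    (i : IJ n J) : toT2 (MT F J δ x) a p i =
      (1 / 10) ^ (i.1 : ℕ) * symW F i.1 (wd a p i.2) x := by
  unfold toT2 MT
  simp only [Sum.elim_inl]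
  rw [word3_tl]
  rfl

end Crest.Agent.R201.N844
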