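import Crest.Agent.R201.FD9a_844

/-!
# R201, KLS half (helper844): FD9 part b — bounded continuous fields, quadratic forms of slots
-/

set_option autoImplicit false
open MeasureTheory Matrix

namespace Crest.Agent.R201.N844

open Crest.Agent.R201

variable {n J : ℕ}

/-! ## bounded continuous functions -/

/-- bounded continuous -/
def BC (f : E n → ℝ) : Prop := Continuous f ∧ ∃ B : ℝ, ∀ x, |f x| ≤ B

theorem BC.of_cb {f : E n → ℝ} (hf : CB f) : BC f := by
  obtain ⟨h, B, hB⟩ := hf
  exact ⟨h.continuous, B, fun x => (hB x).1⟩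

theorem BC.pd {f : E n → ℝ} (hf : CB f) (k : Fin n) : BC (pd k f) := by
  obtain ⟨h, B, hB⟩ := hf
  exact ⟨Tw807.pd_cont h k, B, fun x => (hB x).2 k⟩

theorem BC.const (c : ℝ) : BC (fun _ : E n => c) := ⟨continuous_const, |c|, fun _ => le_rfl⟩

theorem BC.add {f g : E n → ℝ} (hf : BC f) (hg : BC g) : BC (fun x => f x + g x) := by
  obtain ⟨h, B, hB⟩ := hf
  obtain ⟨h', B', hB'⟩ := hg
  exact ⟨h.add h', B + B', fun x => (abs_add_le _ _).trans (add_le_add (hB x) (hB' x))⟩

theorem BC.mul {f g : E n → ℝ} (hf : BC f) (hg : BC g) : BC (fun x => f x * g x) := by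
  obtain ⟨h, B, hB⟩ := hf
  obtain ⟨h', B', hB'⟩ := hg
  refine ⟨h.mul h', B * B', fun x => ?_⟩
  rw [abs_mul]
  exact mul_le_mul (hB x) (hB' x) (abs_nonneg _) ((abs_nonneg _).trans (hB x))

theorem BC.neg {f : E n → ℝ} (hf : BC f) : BC (fun x => - f x) := by
  obtain ⟨h, B, hB⟩ := hf
  exact ⟨h.neg, B, fun x => by simpa using hB x⟩

theorem BC.sub {f g : E n → ℝ} (hf : BC f) (hg : BC g) : BC (fun x => f x - g x) := by
  simpa [sub_eq_add_neg] using hf.add hg.neg

theorem BC.const_mul {f : E n → ℝ} (c : ℝ) (hf : BC f) : BC (fun x => c * f x) :=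
  (BC.const c).mul hf

theorem BC.sq {f : E n → ℝ} (hf : BC f) : BC (fun x => f x ^ 2) := by
  simpa [pow_two] using hf.mul hf

theorem BC.sum {ι : Type*} (s : Finset ι) {f : ι → E n → ℝ} (hf : ∀ i ∈ s, BC (f i)) :
    BC (fun x => ∑ i ∈ s, f i x) := by
  classical
  induction s using Finset.induction_on with
  | empty => simpa using BC.const (n := n) 0
  | insert i s hi ih =>
    simp only [Finset.sum_insert hi]
    exact (hf i (Finset.mem_insert_self i s)).add
      (ih fun j hj => hf j (Finset.mem_insert_of_mem hj))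

theorem BC.int {K : KD n} {f : E n → ℝ} (hf : BC f) : Integrable f K.μ := by
  obtain ⟨h, B, hB⟩ := hf
  exact Tw807.int_bdd K h hB

/-- entries of `V''` are bounded by `1/h` -/
theorem V2_bc (K : KD n) (i j : Fin n) : BC (fun x => K.V2 x i j) := by
  refine ⟨K.V2_cont i j, 2 / K.h, fun x => ?_⟩
  have hh := K.h_pos
  have hs : ∀ a b, K.V2 x a b = K.V2 x b a := fun a b => by
    have := congrFun (congrFun (K.V2_symm x) b) a
    simpa [Matrix.transpose_apply] using this
  have q : ∀ (u : Fin n → ℝ), 0 ≤ ∑ a, u a * ∑ b, K.V2 x a b * u b := fun u => by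
    have := K.V2_nonneg x u
    simpa [dotProduct, Matrix.mulVec] using this
  have q' : ∀ (u : Fin n → ℝ), K.h * (∑ a, u a * ∑ b, K.V2 x a b * u b) ≤ ∑ a, u a * u a :=
    fun u => by
    have := K.V2_le x u
    simp only [Matrix.smul_mulVec, dotProduct_smul, Matrix.one_mulVec, smul_eq_mul] at this
    simpa [dotProduct, Matrix.mulVec] using this
  have e : ∀ (s t : ℝ), ∑ a, (s * (if a = i then 1 else 0) + t * (if a = j then 1 else 0)) *
      ∑ b, K.V2 x a b * (s * (if b = i then 1 else 0) + t * (if b = j then 1 else 0)) =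
      s ^ 2 * K.V2 x i i + 2 * s * t * K.V2 x i j + t ^ 2 * K.V2 x j j := by
    intro s t
    have e1 : ∀ a, ∑ b, K.V2 x a b * (s * (if b = i then 1 else 0) + t * (if b = j then 1 else 0))
        = s * K.V2 x a i + t * K.V2 x a j := by
      intro a
      simp only [mul_add, Finset.sum_add_distrib, mul_ite, mul_one, mul_zero, Finset.sum_ite_eq',
        Finset.mem_univ, if_true]
      ring
    rw [Finset.sum_congr rfl fun a _ => by rw [e1 a]]
    simp only [add_mul, Finset.sum_add_distrib, mul_ite, mul_one, mul_zero, ite_mul, zero_mul,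
      Finset.sum_ite_eq', Finset.mem_univ, if_true]
    rw [hs j i]
    ring
  have e2 : ∀ (s t : ℝ), ∑ a, (s * (if a = i then (1:ℝ) else 0) + t * (if a = j then 1 else 0)) *
      (s * (if a = i then 1 else 0) + t * (if a = j then 1 else 0)) ≤ 2 * s ^ 2 + 2 * t ^ 2 := by
    intro s t
    have : ∀ a, (s * (if a = i then (1:ℝ) else 0) + t * (if a = j then 1 else 0)) *
      (s * (if a = i then 1 else 0) + t * (if a = j then 1 else 0)) ≤
      2 * s ^ 2 * (if a = i then 1 else 0) + 2 * t ^ 2 * (if a = j then 1 else 0) := by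
      intro a
      split_ifs <;> nlinarith [sq_nonneg (s - t), sq_nonneg s, sq_nonneg t]
    refine (Finset.sum_le_sum fun a _ => this a).trans ?_
    simp [Finset.sum_add_distrib]
  have h1 := q' (fun a => 1 * (if a = i then 1 else 0) + 1 * (if a = j then 1 else 0))
  have h2 := q' (fun a => 1 * (if a = i then 1 else 0) + -1 * (if a = j then 1 else 0))
  rw [e] at h1 h2
  have h1' := h1.trans (e2 1 1)
  have h2' := h2.trans (e2 1 (-1))
  have p1 := q (fun a => 1 * (if a = i then 1 else 0) + 0 * (if a = j then 1 else 0))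
  have p2 := q (fun a => 0 * (if a = i then 1 else 0) + 1 * (if a = j then 1 else 0))
  rw [e] at p1 p2
  have hi : 0 ≤ K.V2 x i i := by nlinarith
  have hj : 0 ≤ K.V2 x j j := by nlinarith
  have m1 := mul_nonneg hh.le hi
  have m2 := mul_nonneg hh.le hj
  show |K.V2 x i j| ≤ 2 / K.h
  rw [le_div_iff₀ hh]
  have h3 : |K.V2 x i j * K.h| ≤ 2 := by
    rw [abs_le]
    constructor <;> nlinarith
  rwa [abs_mul, abs_of_pos hh] at h3

theorem P_bc (K : KD n) (i j : Fin n) : BC (fun x => K.P x i j) := .of_cb (K.P_cb i j)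

theorem oneP_bc (K : KD n) (i j : Fin n) : BC (fun x => (1 - K.P x) i j) := by
  simp only [Matrix.sub_apply]
  exact (BC.const _).sub (P_bc K i j)

/-! ## quadratic and bilinear forms on one slot -/

section

variable {ι : Type*} [Fintype ι]

/-- bilinear form of `Q` on the slot `p` -/
def bf (Q : Mt n) (f g : Fin n → ι → ℝ) : ℝ := ∑ i, ∑ p, ∑ p', Q p p' * f p i * g p' i

theorem bf_eq (Q : Mt n) (f g : Fin n → ι → ℝ) :
    bf Q f g = ∑ i, (fun p => f p i) ⬝ᵥ (Q *ᵥ (fun p => g p i)) := by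
  unfold bf
  refine Finset.sum_congr rfl fun i _ => ?_
  simp only [dotProduct, Matrix.mulVec, Finset.mul_sum]
  exact Finset.sum_congr rfl fun p _ => Finset.sum_congr rfl fun p' _ => by ring

theorem bf_mono {Q Q' : Mt n} (h : LeQ Q Q') (f : Fin n → ι → ℝ) : bf Q f f ≤ bf Q' f f := by
  rw [bf_eq, bf_eq]
  exact Finset.sum_le_sum fun i _ => h _

theorem bf_nonneg {Q : Mt n} (h : LeQ 0 Q) (f : Fin n → ι → ℝ) : 0 ≤ bf Q f f := by
  have := bf_mono h f
  simpa [bf] using this

theorem bf_one (f g : Fin n → ι → ℝ) : bf (1 : Mt n) f g = ∑ i, ∑ p, f p i * g p i := by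
  rw [bf_eq]
  simp [dotProduct]

theorem bf_smul (c : ℝ) (Q : Mt n) (f g : Fin n → ι → ℝ) : bf (c • Q) f g = c * bf Q f g := by
  unfold bf
  simp only [Matrix.smul_apply, smul_eq_mul, Finset.mul_sum]
  exact Finset.sum_congr rfl fun i _ => Finset.sum_congr rfl fun p _ =>
    Finset.sum_congr rfl fun p' _ => by ring

theorem bf_add_left (Q Q' : Mt n) (f g : Fin n → ι → ℝ) :
    bf (Q + Q') f g = bf Q f g + bf Q' f g := by
  unfold bf
  simp only [Matrix.add_apply, add_mul, Finset.sum_add_distrib]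

theorem bf_sub_left (Q Q' : Mt n) (f g : Fin n → ι → ℝ) :
    bf (Q - Q') f g = bf Q f g - bf Q' f g := by
  unfold bf
  simp only [Matrix.sub_apply, sub_mul, Finset.sum_sub_distrib]

theorem bf_add (Q : Mt n) (f g h : Fin n → ι → ℝ) : bf Q (f + g) h = bf Q f h + bf Q g h := by
  unfold bf
  simp only [Pi.add_apply, ← Finset.sum_add_distrib]
  exact Finset.sum_congr rfl fun i _ => Finset.sum_congr rfl fun p _ =>
    Finset.sum_congr rfl fun p' _ => by ring

theorem bf_sub (Q : Mt n) (f g h : Fin n → ι → ℝ) : bf Q (f - g) h = bf Q f h - bf Q g h := by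
  unfold bf
  simp only [Pi.sub_apply, ← Finset.sum_sub_distrib]
  exact Finset.sum_congr rfl fun i _ => Finset.sum_congr rfl fun p _ =>
    Finset.sum_congr rfl fun p' _ => by ring

theorem bf_const (Q : Mt n) (c : ℝ) (f g : Fin n → ι → ℝ) : bf Q (c • f) g = c * bf Q f g := by
  unfold bf
  simp only [Pi.smul_apply, smul_eq_mul, Finset.mul_sum]
  exact Finset.sum_congr rfl fun i _ => Finset.sum_congr rfl fun p _ =>
    Finset.sum_congr rfl fun p' _ => by ring

theorem bf_comm {Q : Mt n} (hQ : Qᵀ = Q) (f g : Fin n → ι → ℝ) : bf Q f g = bf Q g f := by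
  unfold bf
  refine Finset.sum_congr rfl fun i _ => ?_
  rw [Finset.sum_comm]
  refine Finset.sum_congr rfl fun p _ => Finset.sum_congr rfl fun p' _ => ?_
  have : Q p' p = Q p p' := by
    have := congrFun (congrFun hQ p) p'
    simpa [Matrix.transpose_apply] using this
  rw [this]; ring

/-- Cauchy–Schwarz with weights -/
theorem bf_cs {Q : Mt n} (hQ : Qᵀ = Q) (h0 : LeQ 0 Q) (f g : Fin n → ι → ℝ) {s : ℝ} (hs : 0 < s) :
    bf Q f g ≤ s / 2 * bf Q g g + 1 / (2 * s) * bf Q f f := by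
  have h := bf_nonneg h0 (f - s • g)
  have e : bf Q (f - s • g) (f - s • g) = bf Q f f - 2 * s * bf Q f g + s ^ 2 * bf Q g g := by
    rw [bf_sub, bf_const, bf_comm hQ f (f - s • g), bf_comm hQ g (f - s • g), bf_sub, bf_sub,
      bf_const, bf_const, bf_comm hQ g f]
    ring
  rw [e] at h
  have h2 : 2 * s * bf Q f g ≤ s ^ 2 * bf Q g g + bf Q f f := by linarith
  have h3 : bf Q f g ≤ (s ^ 2 * bf Q g g + bf Q f f) / (2 * s) := by
    rw [le_div_iff₀ (by positivity)]; linarith
  refine h3.trans (le_of_eq ?_)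
  field_simp

theorem bf_add_le {Q : Mt n} (h0 : LeQ 0 Q) (f g : Fin n → ι → ℝ) :
    bf Q (f - g) (f - g) ≤ 2 * bf Q f f + 2 * bf Q g g := by
  have h := bf_nonneg h0 (f + g)
  have e : bf Q (f + g) (f + g) + bf Q (f - g) (f - g) = 2 * bf Q f f + 2 * bf Q g g := by
    unfold bf
    simp only [Pi.add_apply, Pi.sub_apply, Finset.mul_sum, ← Finset.sum_add_distrib]
    exact Finset.sum_congr rfl fun i _ => Finset.sum_congr rfl fun p _ =>
      Finset.sum_congr rfl fun p' _ => by ring
  linarith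

theorem bf_le_sq {Q : Mt n} (h1 : LeQ Q 1) (f : Fin n → ι → ℝ) :
    bf Q f f ≤ ∑ i, ∑ p, f p i ^ 2 := by
  refine (bf_mono h1 f).trans (le_of_eq ?_)
  rw [bf_one]
  simp only [sq]

theorem bf_bc {Q : E n → Mt n} (hQ : ∀ p p', BC (fun x => Q x p p'))
    {f g : Fin n → ι → E n → ℝ} (hf : ∀ p i, BC (f p i)) (hg : ∀ p i, BC (g p i)) :
    BC (fun x => bf (Q x) (fun p i => f p i x) (fun p i => g p i x)) := by
  unfold bf
  exact BC.sum _ fun i _ => BC.sum _ fun p _ => BC.sum _ fun p' _ =>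
    ((hQ p p').mul (hf p i)).mul (hg p' i)

theorem en_eq (μ : Measure (E n)) (Q : E n → Mt n) (f : Fin n → ι → E n → ℝ) :
    en μ Q f = ∫ x, bf (Q x) (fun p i => f p i x) (fun p i => f p i x) ∂μ := rfl

end

theorem LeQ_oneP (K : KD n) (x : E n) : LeQ 0 (1 - K.P x) := by
  intro u
  have := K.P_le x u
  simp only [Matrix.zero_mulVec, dotProduct_zero, Matrix.sub_mulVec, dotProduct_sub] at *
  linarith

theorem oneP_le (K : KD n) (x : E n) : LeQ (1 - K.P x) 1 := by
  intro u
  have := K.P_nonneg x u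
  simp only [Matrix.zero_mulVec, dotProduct_zero, Matrix.sub_mulVec, dotProduct_sub] at *
  linarith

theorem oneP_symm (K : KD n) (x : E n) : (1 - K.P x)ᵀ = 1 - K.P x := by
  rw [Matrix.transpose_sub, Matrix.transpose_one, K.P_symm]

end Crest.Agent.R201.N844
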