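import Crest.Agent.R201.FD9b_844

/-!
# R201, KLS half (helper844): FD9 part c — the tower tensor as `T2` field
-/

set_option autoImplicit false
open MeasureTheory Matrix

namespace Crest.Agent.R201.N844

open Crest.Agent.R201

variable {n J : ℕ}

theorem snoc0 {j : ℕ} (u : Fin (j + 1) → Fin n) (p : Fin n) :
    (Fin.snoc u p : Fin (j + 2) → Fin n) 0 = u 0 := by
  have : (0 : Fin (j + 2)) = (0 : Fin (j + 1)).castSucc := rfl
  rw [this]
  exact Fin.snoc_castSucc (α := fun _ => Fin n) p u 0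

theorem snoc1_zero (u : Fin 1 → Fin n) (p : Fin n) :
    (Fin.snoc u p : Fin 2 → Fin n) 1 = p :=
  Fin.snoc_last (α := fun _ => Fin n) p u

theorem snoc1_succ {j : ℕ} (u : Fin (j + 2) → Fin n) (p : Fin n) :
    (Fin.snoc u p : Fin (j + 3) → Fin n) 1 = u 1 := by
  have : (1 : Fin (j + 3)) = (1 : Fin (j + 2)).castSucc := rfl
  rw [this]
  exact Fin.snoc_castSucc (α := fun _ => Fin n) p u 1

theorem tl_snoc {j : ℕ} (u : Fin (j + 2) → Fin n) (p : Fin n) :
    tl (Fin.snoc u p : Fin (j + 3) → Fin n) = (Fin.snoc (tl u) p : Fin (j + 1) → Fin n) := by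
  funext i
  refine Fin.lastCases ?_ (fun i => ?_) i
  · rw [Fin.snoc_last]
    show (Fin.snoc u p : Fin (j + 3) → Fin n) (Fin.last _) = p
    exact Fin.snoc_last (α := fun _ => Fin n) p u
  · rw [Fin.snoc_castSucc]
    show (Fin.snoc u p : Fin (j + 3) → Fin n) (i.succ.succ.castSucc) = tl u i
    exact Fin.snoc_castSucc (α := fun _ => Fin n) p u _

/-- the slot family of `T2` tensor: slot `p`, index `(a, i)` -/
def sl {ι : Type*} (A : T2 n ι) : Fin n → Fin n × ι → ℝ := fun p i => A i.1 p i.2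

/-- slot family of `T3` tensors -/
def sl3 {R : Type*} (A : T3 n R) : Fin n → Fin n × Fin n × R → ℝ := fun p i => A p i.1 i.2.1 i.2.2

/-- newest-slot family of `M⁺` -/
def slp {R : Type*} (A : Fin n → T3 n R) : Fin n → Fin n × Fin n × Fin n × R → ℝ :=
  fun k i => A k i.1 i.2.1 i.2.2.1 i.2.2.2

/-- one term of `bf` -/
def qd (Q : Mt n) (f : Fin n → ℝ) : ℝ := ∑ p, ∑ p', Q p p' * f p * f p'

theorem qd_nonneg {Q : Mt n} (h : LeQ 0 Q) (f : Fin n → ℝ) : 0 ≤ qd Q f := by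
  have := h f
  simp only [Matrix.zero_mulVec, dotProduct_zero] at this
  refine this.trans (le_of_eq ?_)
  simp only [dotProduct, Matrix.mulVec, Finset.mul_sum, qd]
  exact Finset.sum_congr rfl fun p _ => Finset.sum_congr rfl fun p' _ => by ring

theorem qd_smul (Q : Mt n) (c : ℝ) (f : Fin n → ℝ) : qd Q (fun p => c * f p) = c ^ 2 * qd Q f := by
  unfold qd
  simp only [Finset.mul_sum]
  exact Finset.sum_congr rfl fun p _ => Finset.sum_congr rfl fun p' _ => by ring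

theorem bf_qd {ι : Type*} [Fintype ι] (Q : Mt n) (f : Fin n → ι → ℝ) :
    bf Q f f = ∑ i, qd Q (fun p => f p i) := rfl

theorem wd_zero (a p : Fin n) (u : Fin 1 → Fin n) (w : Fin 0 → Fin n) :
    wd (j := 0) a p u = word3 (j := 0) a (u 0) p w := by
  funext i
  fin_cases i
  · rfl
  · exact snoc0 (j := 0) u p
  · exact snoc1_zero u p

theorem wd_succ {j : ℕ} (a p : Fin n) (u : Fin (j + 2) → Fin n) :
    wd a p u = word3 a (u 0) (u 1) (Fin.snoc (tl u) p : Fin (j + 1) → Fin n) := by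
  rw [← tl_snoc, ← snoc0 u p, ← snoc1_succ u p, word3_tl]
  rfl

theorem new0 (F : (j : ℕ) → (Fin j → Fin n) → E n → ℝ) (δ : ℝ) (x : E n) (a p : Fin n)
    (u : Fin 1 → Fin n) : toT2 (MT F J δ x) a p ⟨0, u⟩ =
      MT F J δ x a (u 0) p (Sum.inl ⟨0, fun i => i.elim0⟩) := by
  rw [toT2_MT]
  unfold MT
  simp only [Sum.elim_inl]
  congr 2
  exact wd_zero a p u _

theorem newS (F : (j : ℕ) → (Fin j → Fin n) → E n → ℝ) (δ : ℝ) (x : E n) (a p : Fin n)
    (j : Fin J) (u : Fin ((j : ℕ) + 2) → Fin n) : toT2 (MT F J δ x) a p ⟨j.succ, u⟩ =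
      (1 / 10) * MpT F J p x a (u 0) (u 1) (Sum.inl ⟨j.castSucc, tl u⟩) := by
  rw [toT2_MT]
  unfold MpT
  simp only [Sum.elim_inl, Fin.val_castSucc, Fin.val_succ, j.2, if_true]
  rw [← mul_assoc, ← pow_succ']
  rw [← wd_succ]

/-- pointwise: the newest slot of the tower tensor against the slots of `M` and `M⁺` -/
theorem newslot_le (F : (j : ℕ) → (Fin j → Fin n) → E n → ℝ) (δ : ℝ) (x : E n) {Q : Mt n}
    (hQ : LeQ 0 Q) (hs : Sym3 (MT F J δ x)) :
    bf Q (sl (toT2 (MT F J δ x))) (sl (toT2 (MT F J δ x))) ≤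
      bf Q (sl3 (MT F J δ x)) (sl3 (MT F J δ x)) +
      bf Q (slp fun k => MpT F J k x) (slp fun k => MpT F J k x) := by
  have e0 : ∀ (a p : Fin n) (u : Fin 1 → Fin n), sl (toT2 (MT F J δ x)) p (a, ⟨0, u⟩) =
      sl3 (MT F J δ x) p (a, u 0, Sum.inl ⟨0, fun i => i.elim0⟩) := by
    intro a p u
    show toT2 (MT F J δ x) a p ⟨0, u⟩ = MT F J δ x p a (u 0) (Sum.inl ⟨0, fun i => i.elim0⟩)
    rw [new0, hs.1 p a, hs.2 a p]
  have eS : ∀ (a p : Fin n) (j : Fin J) (u : Fin ((j : ℕ) + 2) → Fin n),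
      sl (toT2 (MT F J δ x)) p (a, ⟨j.succ, u⟩) =
      (1 / 10) * slp (fun k => MpT F J k x) p (a, u 0, u 1, Sum.inl ⟨j.castSucc, tl u⟩) :=
    fun a p j u => newS F δ x a p j u
  rw [bf_qd, bf_qd, bf_qd, Fintype.sum_prod_type]
  simp only [sum_IJ, Fin.sum_univ_succ, Finset.sum_add_distrib]
  refine add_le_add ?_ ?_
  · -- level 3
    simp only [Fintype.sum_prod_type]
    refine Finset.sum_le_sum fun a _ => ?_
    have h1 : ∀ b, qd Q (fun p => sl3 (MT F J δ x) p (a, b, Sum.inl ⟨0, fun i => i.elim0⟩)) ≤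
        ∑ r, qd Q (fun p => sl3 (MT F J δ x) p (a, b, r)) := fun b =>
      Finset.single_le_sum (f := fun r => qd Q (fun p => sl3 (MT F J δ x) p (a, b, r)))
        (fun r _ => qd_nonneg hQ _) (Finset.mem_univ _)
    refine le_trans (le_of_eq ?_) (Finset.sum_le_sum fun b _ => h1 b)
    refine Fintype.sum_equiv (Equiv.funUnique (Fin 1) (Fin n)) _ _ fun u => ?_
    congr 1
    funext p
    exact e0 a p u
  · -- higher levels
    have h0 : ∀ i : Fin n × Fin n × Fin n × RJ n J, 0 ≤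
        qd Q (fun k => slp (fun k => MpT F J k x) k i) := fun i => qd_nonneg hQ _
    have h1 : ∑ a, ∑ j : Fin J, ∑ u : Fin (((j.succ : Fin (J + 1)) : ℕ) + 1) → Fin n,
        qd Q (fun p => sl (toT2 (MT F J δ x)) p (a, ⟨j.succ, u⟩)) ≤
        ∑ a, ∑ j : Fin J, ∑ b, ∑ c, ∑ w : Fin (j : ℕ) → Fin n,
        qd Q (fun k => slp (fun k => MpT F J k x) k (a, b, c, Sum.inl ⟨j.castSucc, w⟩)) := by
      refine Finset.sum_le_sum fun a _ => Finset.sum_le_sum fun j _ => ?_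
      have h2 : ∀ u : Fin ((j : ℕ) + 2) → Fin n,
          qd Q (fun p => sl (toT2 (MT F J δ x)) p (a, ⟨j.succ, u⟩)) ≤
          qd Q (fun k => slp (fun k => MpT F J k x) k
            (a, u 0, u 1, Sum.inl ⟨j.castSucc, tl u⟩)) := by
        intro u
        simp only [eS]
        rw [qd_smul]
        have := h0 (a, u 0, u 1, Sum.inl ⟨j.castSucc, tl u⟩)
        nlinarith
      refine (Finset.sum_le_sum fun u _ => h2 u).trans (le_of_eq ?_)
      show ∑ u : Fin ((j : ℕ) + 1 + 1) → Fin n, qd Q (fun k => slp (fun k => MpT F J k x) k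
            (a, u 0, u 1, Sum.inl ⟨j.castSucc, tl u⟩)) = _
      rw [sum_cons]
      refine Finset.sum_congr rfl fun b _ => ?_
      rw [sum_cons]
      refine Finset.sum_congr rfl fun c _ => ?_
      refine Finset.sum_congr rfl fun w _ => ?_
      rw [tl_cons]
      rfl
    refine le_trans h1 ?_
    simp only [Fintype.sum_prod_type]
    refine Finset.sum_le_sum fun a _ => ?_
    rw [Finset.sum_comm]
    refine Finset.sum_le_sum fun b _ => ?_
    rw [Finset.sum_comm]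
    refine Finset.sum_le_sum fun c _ => ?_
    rw [sum_RJ, Fin.sum_univ_castSucc]
    have p1 : 0 ≤ ∑ w : Fin ((Fin.last J : Fin (J + 1)) : ℕ) → Fin n,
      qd Q (fun k => slp (fun k => MpT F J k x) k (a, b, c, Sum.inl ⟨Fin.last J, w⟩)) :=
      Finset.sum_nonneg fun w _ => h0 _
    have p2 : 0 ≤ ∑ i : Fin n,
      qd Q (fun k => slp (fun k => MpT F J k x) k (a, b, c, Sum.inr i)) :=
      Finset.sum_nonneg fun w _ => h0 _
    have e : ∑ j : Fin J, ∑ w : Fin (j : ℕ) → Fin n,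
      qd Q (fun k => slp (fun k => MpT F J k x) k (a, b, c, Sum.inl ⟨j.castSucc, w⟩)) =
      ∑ j : Fin J, ∑ w : Fin ((j.castSucc : Fin (J + 1)) : ℕ) → Fin n,
      qd Q (fun k => slp (fun k => MpT F J k x) k (a, b, c, Sum.inl ⟨j.castSucc, w⟩)) := rfl
    rw [e]
    linarith

theorem int_le_add {μ : Measure (E n)} {f g h : E n → ℝ} (hf : Integrable f μ)
    (hg : Integrable g μ) (hh : Integrable h μ) (H : ∀ x, f x ≤ g x + h x) :
    ∫ x, f x ∂μ ≤ (∫ x, g x ∂μ) + ∫ x, h x ∂μ := by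
  rw [← integral_add hg hh]
  exact integral_mono hf (hg.add hh) H

/-- integrated newest slot energy of the tower tensor -/
theorem en_new_le {K : KD n} {F : (j : ℕ) → (Fin j → Fin n) → E n → ℝ} {δ a : ℝ} {Z : E n → Mt n}
    (hp : Pack K (RJ n J) a (MT F J δ) Z) (hx : Ext K (RJ n J) a (MT F J δ) (MpT F J) Z) :
    en K.μ (fun x => 1 - K.P x)
      (fun p (i : Fin n × IJ n J) x => toT2 (MT F J δ x) i.1 p i.2) ≤ 7 * a := by
  have hMbc : ∀ a b c r, BC (fun x => MT F J δ x a b c r) := fun a b c r =>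
    .of_cb (hp.cb (a, b, c, r))
  have hMd : ∀ k a b c r, BC (fun x => pdT k (MT F J δ) x a b c r) := fun k a b c r =>
    .pd (hp.cb (a, b, c, r)) k
  have hMp : ∀ k a b c r, BC (fun x => MpT F J k x a b c r) := fun k a b c r =>
    .of_cb (hx.cb k (a, b, c, r))
  have i1 : Integrable (fun x => bf (1 - K.P x) (sl3 (MT F J δ x)) (sl3 (MT F J δ x))) K.μ :=
    (bf_bc (oneP_bc K) (f := fun p (i : Fin n × Fin n × RJ n J) x => MT F J δ x p i.1 i.2.1 i.2.2)
      (g := fun p (i : Fin n × Fin n × RJ n J) x => MT F J δ x p i.1 i.2.1 i.2.2)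
      (fun p i => hMbc _ _ _ _) (fun p i => hMbc _ _ _ _)).int
  have i2 : Integrable (fun x => bf (1 - K.P x) (slp fun k => MpT F J k x)
      (slp fun k => MpT F J k x)) K.μ :=
    (bf_bc (oneP_bc K)
      (f := fun k (i : Fin n × Fin n × Fin n × RJ n J) x => MpT F J k x i.1 i.2.1 i.2.2.1 i.2.2.2)
      (g := fun k (i : Fin n × Fin n × Fin n × RJ n J) x => MpT F J k x i.1 i.2.1 i.2.2.1 i.2.2.2)
      (fun p i => hMp _ _ _ _ _) (fun p i => hMp _ _ _ _ _)).int
  have i3 : Integrable (fun x => bf (K.V2 x) (slp fun k => pdT k (MT F J δ) x)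
      (slp fun k => pdT k (MT F J δ) x)) K.μ :=
    (bf_bc (V2_bc K)
      (f := fun k (i : Fin n × Fin n × Fin n × RJ n J) x =>
        pdT k (MT F J δ) x i.1 i.2.1 i.2.2.1 i.2.2.2)
      (g := fun k (i : Fin n × Fin n × Fin n × RJ n J) x =>
        pdT k (MT F J δ) x i.1 i.2.1 i.2.2.1 i.2.2.2)
      (fun p i => hMd _ _ _ _ _) (fun p i => hMd _ _ _ _ _)).int
  have i4 : ∀ k, Integrable (fun x => ip (pdT k (MT F J δ) x - MpT F J k x)
      (pdT k (MT F J δ) x - MpT F J k x)) K.μ := by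
    intro k
    refine BC.int ?_
    unfold ip
    exact BC.sum _ fun a _ => BC.sum _ fun b _ => BC.sum _ fun c _ => BC.sum _ fun r _ =>
      ((hMd k a b c r).sub (hMp k a b c r)).mul ((hMd k a b c r).sub (hMp k a b c r))
  have i0 : Integrable (fun x => bf (1 - K.P x) (sl (toT2 (MT F J δ x)))
      (sl (toT2 (MT F J δ x)))) K.μ :=
    (bf_bc (oneP_bc K) (f := fun p (i : Fin n × IJ n J) x => toT2 (MT F J δ x) i.1 p i.2)
      (g := fun p (i : Fin n × IJ n J) x => toT2 (MT F J δ x) i.1 p i.2)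
      (fun p i => hMbc _ _ _ _) (fun p i => hMbc _ _ _ _)).int
  have hpt : ∀ x, bf (1 - K.P x) (slp fun k => MpT F J k x) (slp fun k => MpT F J k x) ≤
      4 * K.h * bf (K.V2 x) (slp fun k => pdT k (MT F J δ) x) (slp fun k => pdT k (MT F J δ) x) +
      2 * ∑ k, ip (pdT k (MT F J δ) x - MpT F J k x) (pdT k (MT F J δ) x - MpT F J k x) := by
    intro x
    have h1 := bf_add_le (LeQ_oneP K x) (slp fun k => pdT k (MT F J δ) x)
      (slp fun k => pdT k (MT F J δ) x - MpT F J k x)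
    have e1 : (slp fun k => pdT k (MT F J δ) x) - (slp fun k => pdT k (MT F J δ) x - MpT F J k x) =
        slp fun k => MpT F J k x := by
      funext k i
      simp [slp]
    rw [e1] at h1
    have h2 := bf_mono (K.P_hess x) (slp fun k => pdT k (MT F J δ) x)
    rw [bf_smul] at h2
    have h3 := bf_le_sq (oneP_le K x) (slp fun k => pdT k (MT F J δ) x - MpT F J k x)
    have e2 : ∑ i, ∑ p, (slp (fun k => pdT k (MT F J δ) x - MpT F J k x)) p i ^ 2 =
        ∑ k, ip (pdT k (MT F J δ) x - MpT F J k x) (pdT k (MT F J δ) x - MpT F J k x) := by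
      rw [Finset.sum_comm]
      refine Finset.sum_congr rfl fun k _ => ?_
      simp only [Fintype.sum_prod_type, ip, slp, sq]
    rw [e2] at h3
    linarith
  have hint : ∫ x, bf (1 - K.P x) (slp fun k => MpT F J k x) (slp fun k => MpT F J k x) ∂K.μ ≤
      4 * a + 2 * a := by
    refine (int_le_add i2 (i3.const_mul (4 * K.h))
      ((integrable_finsetSum _ fun k _ => i4 k).const_mul 2) hpt).trans ?_
    rw [integral_const_mul, integral_const_mul, integral_finsetSum _ fun k _ => i4 k]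
    have h1 : K.h * ∫ x, bf (K.V2 x) (slp fun k => pdT k (MT F J δ) x)
      (slp fun k => pdT k (MT F J δ) x) ∂K.μ ≤ a := hp.enD
    have h2 := hx.near
    linarith
  have h1 : ∫ x, bf (1 - K.P x) (sl3 (MT F J δ x)) (sl3 (MT F J δ x)) ∂K.μ ≤ a := hp.enM
  have h0 : en K.μ (fun x => 1 - K.P x)
      (fun p (i : Fin n × IJ n J) x => toT2 (MT F J δ x) i.1 p i.2) =
      ∫ x, bf (1 - K.P x) (sl (toT2 (MT F J δ x))) (sl (toT2 (MT F J δ x))) ∂K.μ := rfl
  rw [h0]
  refine (int_le_add i0 i1 i2 fun x => newslot_le F δ x (LeQ_oneP K x) (hp.sym x)).trans ?_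
  linarith

/-! ## the energies of the tower tensor as `T2` field -/

theorem sum_le_fam (φ : Fin n → Fin n → Fin n → RJ n J → ℝ) (h : ∀ a b c r, 0 ≤ φ a b c r) :
    ∑ i : Fin n × Fin n × IJ n J, φ i.1
        ((Fin.snoc i.2.2.2 i.2.1 : Fin ((i.2.2.1 : ℕ) + 2) → Fin n) 0)
        ((Fin.snoc i.2.2.2 i.2.1 : Fin ((i.2.2.1 : ℕ) + 2) → Fin n) 1)
        (Sum.inl ⟨i.2.2.1, tl (Fin.snoc i.2.2.2 i.2.1 : Fin ((i.2.2.1 : ℕ) + 2) → Fin n)⟩) ≤
      ∑ i : Fin n × Fin n × Fin n × RJ n J, φ i.1 i.2.1 i.2.2.1 i.2.2.2 := by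
  simp only [Fintype.sum_prod_type]
  refine Finset.sum_le_sum fun a _ => ?_
  rw [sum_bcr (fun b c r => φ a b c r)]
  have : 0 ≤ ∑ b, ∑ c, ∑ i : Fin n, φ a b c (Sum.inr i) :=
    Finset.sum_nonneg fun b _ => Finset.sum_nonneg fun c _ => Finset.sum_nonneg fun i _ => h _ _ _ _
  linarith

theorem qs_nonneg (K : KD n) {f : E n → ℝ} (hf : CB f) : 0 ≤ Tw807.qs K f := by
  have := q_nonneg K (fun _ : Unit => f) fun _ => hf
  rw [Tw807.q_eq] at this
  simpa using this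

theorem q_toT2_le {K : KD n} {M : E n → T3 n (RJ n J)} (hM : ∀ i, CB (fam3 M i)) :
    K.q (fam2 fun x => toT2 (M x)) ≤ K.q (fam3 M) := by
  rw [Tw807.q_eq, Tw807.q_eq]
  exact sum_le_fam (fun a b c r => Tw807.qs K (fam3 M (a, b, c, r)))
    fun _ _ _ _ => qs_nonneg K (hM _)

theorem msq_toT2_le {K : KD n} {M : E n → T3 n (RJ n J)} :
    msq K.μ (fam2 fun x => toT2 (M x)) ≤ msq K.μ (fam3 M) :=
  sum_le_fam (fun a b c r => (∫ x, fam3 M (a, b, c, r) x ∂K.μ) ^ 2) fun _ _ _ _ => sq_nonneg _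

theorem tsq_toT2_le {K : KD n} {M : E n → T3 n (RJ n J)} :
    tsq K.μ K.ω (fam2 fun x => toT2 (M x)) ≤ tsq K.μ K.ω (fam3 M) :=
  sum_le_fam (fun a b c r => ∑ k, (∫ x, K.ω k x * fam3 M (a, b, c, r) x ∂K.μ) ^ 2)
    fun _ _ _ _ => Finset.sum_nonneg fun _ _ => sq_nonneg _

end Crest.Agent.R201.N844
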