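import Crest.Agent.R201.FD9c_844
import Crest.Agent.R201.FD3_354

/-!
# R201, KLS half (helper844): FD9 part d — alpha_high from `fsl` and `slow_field`
-/

set_option autoImplicit false
open MeasureTheory Matrix

namespace Crest.Agent.R201.N844

open Crest.Agent.R201

variable {n J : ℕ}

/-- FD5, literal -/
def FslP : Prop := ∀ h1 C0 C' : ℝ, 0 < h1 → 0 < C0 → 0 < C' → ∃ C : ℝ, 0 < C ∧
    ∀ (n : ℕ) (K : KD n) (ι : Type) [Fintype ι] (Z : E n → Mt n) (G H : E n → T2 n ι)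
    (Bc : T2 n ι) (e : E n → ℝ) (D X : ℝ),
    h1 ≤ K.h → 1 ≤ X → 0 < D → (∀ x, (Z x).PosDef) → (∀ i, CB (famM Z i)) →
    (∀ i, CB (fam2 G i)) → (∀ i, CB (fam2 H i)) → ip2 Bc Bc ≤ 1 →
    (∀ x, LeQ (gramA (H x) (H x)) (Z x * Z x)) →
    Integrable e K.μ → (∫ x, e x ∂K.μ ≤ C0 * D) →
    (∀ x, ∃ B : Fin n → Mt n, (∀ k, (B k)ᵀ = B k) ∧ LeQ (∑ k, B k * B k) (C' • (1 : Mt n)) ∧
      (∑ k, hs (Z x * B k - B k * Z x) ≤ e x) ∧
      (∑ k, ip2 (pd2 k G x - 2 • actA (B k) (H x)) (pd2 k G x - 2 • actA (B k) (H x)) ≤ e x)) →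
    msq K.μ (famM Z) ≤ D →
    (∫ x, (Z x * (1 - K.P x) * Z x).trace ∂K.μ ≤ C0 * D) →
    en K.μ (fun x => 1 - K.P x) (fun p (i : Fin n × ι) x => H x i.1 p i.2) ≤ C0 * D →
    K.q (fam2 G) ≤ C0 * D → msq K.μ (fam2 G) ≤ C0 * D → tsq K.μ K.ω (fam2 G) ≤ C0 * D →
    |∫ x, ip2 (actP (K.P x) Bc) (G x) ∂K.μ| ≤
      C * (K.η * Real.sqrt X + 1 / X + K.η) * Real.sqrt D

/-- FD6, literal -/
def SlowP : Prop := ∃ C' C : ℝ, 0 < C' ∧ 0 < C ∧ ∀ (n : ℕ) (K : KD n) (R : Type) [Fintype R]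
    (a D : ℝ) (M : E n → T3 n R) (Mp : Fin n → E n → T3 n R) (Z Z' : E n → Mt n),
    Ctx K R a D M Mp Z Z' → K.η ≤ 1 / 100 →
    ∃ e : E n → ℝ, Integrable e K.μ ∧ (∫ x, e x ∂K.μ ≤ C * D) ∧
      ∀ x, ∃ (B : Fin n → Mt n) (Θ L : Mt n),
        (∀ k, (B k)ᵀ = B k) ∧ LeQ (∑ k, B k * B k) (C' • (1 : Mt n)) ∧
        (∑ k, hs (Z x * B k - B k * Z x) ≤ e x) ∧
        (∑ k, ip (pdT k M x - 2 • act1 (B k) (M x)) (pdT k M x - 2 • act1 (B k) (M x)) ≤ e x) ∧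
        (∑ k, ip (pdT k M x - 2 • act2 (B k) (M x)) (pdT k M x - 2 • act2 (B k) (M x)) ≤ e x) ∧
        (∑ k, ip (pdT k M x - 2 • act3 (B k) (M x)) (pdT k M x - 2 • act3 (B k) (M x)) ≤ e x) ∧
        (∑ k, hs (pdM k Z x - 2 • (B k * Z x)) ≤ e x) ∧
        (∑ k, hs (pdM k Z x - 2 • (Z x * B k)) ≤ e x) ∧
        Θᵀ = Θ ∧ Θ * Θ = Θ ∧ Lᵀ = L ∧ LeQ 0 L ∧ LeQ L (32 • (1 : Mt n)) ∧
        L * (4 • ∑ k, B k * B k) = 1 - Θ ∧ hs (Θ * Z x) ≤ e x

/-! ## reindexing -/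

theorem snoc_cons {j : ℕ} (a p : Fin n) (u : Fin (j + 1) → Fin n) :
    (Fin.snoc (Fin.cons a u : Fin (j + 2) → Fin n) p : Fin (j + 3) → Fin n) = wd a p u := by
  unfold wd
  exact (Fin.cons_snoc_eq_snoc_cons a u p).symm

theorem reidx1 (c : ℕ → ℝ) (f : (j : ℕ) → (Fin (j + 3) → Fin n) → ℝ) :
    ∑ j ∈ Finset.range (J + 1), c j * ∑ v, f j v =
      ∑ a : Fin n, ∑ p : Fin n, ∑ i : IJ n J, c i.1 * f i.1 (wd a p i.2) := by
  rw [Finset.sum_range]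
  simp only [sum_IJ]
  have h : ∀ a : Fin n, ∑ p : Fin n, ∑ j : Fin (J + 1), ∑ w : Fin ((j : ℕ) + 1) → Fin n,
      c j * f j (wd a p w) = ∑ j : Fin (J + 1), ∑ p : Fin n, ∑ w : Fin ((j : ℕ) + 1) → Fin n,
      c j * f j (wd a p w) := fun a => Finset.sum_comm
  simp only [h]
  rw [Finset.sum_comm]
  refine Finset.sum_congr rfl fun j _ => ?_
  rw [sum_cons, Finset.mul_sum]
  refine Finset.sum_congr rfl fun a _ => ?_
  rw [Tw807.sum_snoc, Finset.sum_comm, Finset.mul_sum]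
  refine Finset.sum_congr rfl fun p _ => ?_
  rw [Finset.mul_sum]
  rfl

theorem reidx2 (c : ℕ → ℝ) (g : (j : ℕ) → (Fin (j + 2) → Fin n) → ℝ) :
    ∑ j ∈ Finset.range (J + 1), c j * ∑ w, g j w =
      ∑ i : Fin n × IJ n J, c i.2.1 * g i.2.1 (Fin.cons i.1 i.2.2 : Fin ((i.2.1 : ℕ) + 2) → Fin n) := by
  rw [Finset.sum_range, Fintype.sum_prod_type]
  simp only [sum_IJ]
  rw [Finset.sum_comm]
  refine Finset.sum_congr rfl fun j _ => ?_
  rw [sum_cons, Finset.mul_sum]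
  refine Finset.sum_congr rfl fun a _ => ?_
  rw [Finset.mul_sum]

/-- the tower tensors as one `T2` field (first slot, newest slot) -/
noncomputable def Fu (F : (j : ℕ) → (Fin j → Fin n) → E n → ℝ) (x : E n) : T2 n (IJ n J) :=
  fun a p i => (1 / 10) ^ (i.1 : ℕ) * F ((i.1 : ℕ) + 3) (wd a p i.2) x

theorem pow_aux (j : ℕ) : ((1 : ℝ) / 10) ^ j * (1 / 10) ^ j = (1 / 100) ^ j := by
  rw [← mul_pow]; norm_num

theorem ip2_sq {ι : Type*} [Fintype ι] (A : T2 n ι) : ip2 A A = ∑ a, ∑ p, ∑ i, A a p i ^ 2 := by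
  unfold ip2; simp only [sq]

theorem sl_sq {ι : Type*} [Fintype ι] (A : T2 n ι) :
    ∑ i, ∑ p, sl A p i ^ 2 = ip2 A A := by
  rw [ip2_sq, Fintype.sum_prod_type]
  refine Finset.sum_congr rfl fun a _ => ?_
  rw [Finset.sum_comm]
  rfl

/-- `S` = the weighted sum of the means -/
theorem S_eq (μ : Measure (E n)) (F : (j : ℕ) → (Fin j → Fin n) → E n → ℝ) :
    ∑ j ∈ Finset.range (J + 1), (1 / 100) ^ j * msq μ (F (j + 3)) =
      ip2 (fun a p i => ∫ x, Fu (J := J) F x a p i ∂μ) (fun a p i => ∫ x, Fu (J := J) F x a p i ∂μ)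
      := by
  unfold msq
  rw [reidx1 (J := J) (fun j => (1 / 100) ^ j) (fun j v => (∫ x, F (j + 3) v x ∂μ) ^ 2), ip2_sq]
  refine Finset.sum_congr rfl fun a _ => Finset.sum_congr rfl fun p _ =>
    Finset.sum_congr rfl fun i _ => ?_
  unfold Fu
  rw [integral_const_mul, mul_pow, ← pow_aux]
  ring

theorem V_eq {K : KD n} {F : (j : ℕ) → (Fin j → Fin n) → E n → ℝ} (hF : ∀ j w, CB (F j w)) :
    ∑ j ∈ Finset.range (J + 1), (1 / 100) ^ j *
          en K.μ K.V2 (fun p (w : Fin (j + 2) → Fin n) => F (j + 3) (Fin.snoc w p)) =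
      ∫ x, bf (K.V2 x) (sl (Fu (J := J) F x)) (sl (Fu (J := J) F x)) ∂K.μ := by
  have h1 : ∀ j, en K.μ K.V2 (fun p (w : Fin (j + 2) → Fin n) => F (j + 3) (Fin.snoc w p)) =
      ∑ w : Fin (j + 2) → Fin n, ∫ x, qd (K.V2 x) (fun p => F (j + 3) (Fin.snoc w p) x) ∂K.μ := by
    intro j
    unfold en
    rw [integral_finsetSum]
    · rfl
    · intro w _
      exact BC.int (BC.sum _ fun p _ => BC.sum _ fun p' _ =>
        ((V2_bc K p p').mul (.of_cb (hF _ _))).mul (.of_cb (hF _ _)))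
  simp only [h1]
  rw [reidx2 (J := J) (fun j => (1 / 100) ^ j) (fun j w =>
    ∫ x, qd (K.V2 x) (fun p => F (j + 3) (Fin.snoc w p) x) ∂K.μ)]
  simp only [bf_qd]
  rw [integral_finsetSum]
  · refine Finset.sum_congr rfl fun i _ => ?_
    rw [← integral_const_mul]
    refine integral_congr_ae (Filter.Eventually.of_forall fun x => ?_)
    show (1 / 100) ^ (i.2.1 : ℕ) * qd (K.V2 x) (fun p => F _ (Fin.snoc
      (Fin.cons i.1 i.2.2 : Fin ((i.2.1 : ℕ) + 2) → Fin n) p) x) =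
      qd (K.V2 x) (fun p => (1 / 10) ^ (i.2.1 : ℕ) * F _ (wd i.1 p i.2.2) x)
    rw [qd_smul, sq, pow_aux]
    simp only [snoc_cons]
  · intro i _
    exact BC.int (BC.sum _ fun p _ => BC.sum _ fun p' _ =>
        ((V2_bc K p p').mul ((BC.of_cb (hF _ _)).const_mul _)).mul
          ((BC.of_cb (hF _ _)).const_mul _))


theorem symW_bc {F : (j : ℕ) → (Fin j → Fin n) → E n → ℝ} (hF : ∀ j w, CB (F j w)) (j : ℕ)
    (v : Fin (j + 3) → Fin n) : BC (fun x => symW F j v x) := by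
  unfold symW
  exact BC.const_mul _ (BC.sum _ fun σ _ => .of_cb (hF _ _))

theorem Fu_bc {F : (j : ℕ) → (Fin j → Fin n) → E n → ℝ} (hF : ∀ j w, CB (F j w)) (a p : Fin n)
    (i : IJ n J) : BC (fun x => Fu F x a p i) :=
  BC.const_mul _ (.of_cb (hF _ _))

theorem G_bc {F : (j : ℕ) → (Fin j → Fin n) → E n → ℝ} (hF : ∀ j w, CB (F j w)) (δ : ℝ)
    (a p : Fin n) (i : IJ n J) : BC (fun x => toT2 (MT F J δ x) a p i) := by
  simp only [toT2_MT]
  exact BC.const_mul _ (symW_bc hF _ _)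

/-- distance of the tower tensors to the symmetrised ones -/
theorem err_eq {K : KD n} {F : (j : ℕ) → (Fin j → Fin n) → E n → ℝ} (hF : ∀ j w, CB (F j w))
    (δ : ℝ) : ∫ x, ip2 (Fu (J := J) F x - toT2 (MT F J δ x)) (Fu F x - toT2 (MT F J δ x)) ∂K.μ =
      ∑ j ∈ Finset.range (J + 1), (1 / 100) ^ j *
        nsq K.μ (fun v => fun x => F (j + 3) v x - symW F j v x) := by
  unfold nsq
  rw [reidx1 (J := J) (fun j => (1 / 100) ^ j)
    (fun j v => ∫ x, (F (j + 3) v x - symW F j v x) ^ 2 ∂K.μ)]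
  have hb : ∀ (a p : Fin n) (i : IJ n J),
      BC (fun x => (Fu (J := J) F x - toT2 (MT F J δ x)) a p i ^ 2) := fun a p i =>
    ((Fu_bc hF a p i).sub (G_bc hF δ a p i)).sq
  simp only [ip2_sq]
  rw [integral_finsetSum _ fun a _ => (BC.sum _ fun p _ => BC.sum _ fun i _ => hb a p i).int]
  refine Finset.sum_congr rfl fun a _ => ?_
  rw [integral_finsetSum _ fun p _ => (BC.sum _ fun i _ => hb a p i).int]
  refine Finset.sum_congr rfl fun p _ => ?_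
  rw [integral_finsetSum _ fun i _ => (hb a p i).int]
  refine Finset.sum_congr rfl fun i _ => ?_
  rw [← integral_const_mul]
  refine integral_congr_ae (Filter.Eventually.of_forall fun x => ?_)
  simp only [Pi.sub_apply, toT2_MT, Fu]
  rw [← mul_sub, mul_pow, ← pow_aux]
  ring

/-- the `P`-form of a constant family -/
theorem P_const_le (K : KD n) {ι : Type*} [Fintype ι] (f : Fin n → ι → ℝ) :
    ∫ x, bf (K.P x) f f ∂K.μ ≤ K.η ^ 2 * ∑ i, ∑ p, f p i ^ 2 := by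
  have h1 : ∫ x, bf (K.P x) f f ∂K.μ = bf (Matrix.of fun i j => ∫ x, K.P x i j ∂K.μ) f f := by
    unfold bf
    rw [integral_finsetSum _ fun i _ => (BC.sum _ fun p _ => BC.sum _ fun p' _ =>
      ((P_bc K p p').mul (.const _)).mul (.const _)).int]
    refine Finset.sum_congr rfl fun i _ => ?_
    rw [integral_finsetSum _ fun p _ => (BC.sum _ fun p' _ =>
      ((P_bc K p p').mul (.const _)).mul (.const _)).int]
    refine Finset.sum_congr rfl fun p _ => ?_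
    rw [integral_finsetSum _ fun p' _ => (((P_bc K p p').mul (.const _)).mul (.const _)).int]
    refine Finset.sum_congr rfl fun p' _ => ?_
    rw [integral_mul_const, integral_mul_const]
    rfl
  rw [h1]
  refine (bf_mono K.P_mean f).trans (le_of_eq ?_)
  rw [bf_smul, bf_one]
  simp only [sq]

/-- trace of `Z (1-P) Z` as a form -/
theorem trace_ZPZ {R : Type*} [Fintype R] {Q Z : Mt n} {M : T3 n R}
    (h : Z * Z = gram M M) : (Z * Q * Z).trace = bf Q (sl3 M) (sl3 M) := by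
  have h1 : (Z * Q * Z).trace = (Q * (Z * Z)).trace := by
    rw [Matrix.trace_mul_comm, ← Matrix.mul_assoc, Matrix.trace_mul_comm]
  rw [h1, h]
  unfold bf
  simp only [Matrix.trace, Matrix.diag_apply, Matrix.mul_apply, gram, Matrix.of_apply,
    Fintype.sum_prod_type, sl3, Finset.mul_sum]
  have e : ∀ p p' : Fin n, ∑ b, ∑ c, ∑ r, Q p p' * (M p' b c r * M p b c r) =
      ∑ b, ∑ c, ∑ r, Q p p' * M p b c r * M p' b c r := fun p p' =>
    Finset.sum_congr rfl fun b _ => Finset.sum_congr rfl fun c _ =>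
      Finset.sum_congr rfl fun r _ => by ring
  simp only [e]
  calc _ = ∑ p, ∑ b, ∑ p', ∑ c, ∑ r, Q p p' * M p b c r * M p' b c r :=
        Finset.sum_congr rfl fun p _ => Finset.sum_comm
    _ = ∑ b, ∑ p, ∑ p', ∑ c, ∑ r, Q p p' * M p b c r * M p' b c r := Finset.sum_comm
    _ = ∑ b, ∑ p, ∑ c, ∑ p', ∑ r, Q p p' * M p b c r * M p' b c r :=
        Finset.sum_congr rfl fun b _ => Finset.sum_congr rfl fun p _ => Finset.sum_comm
    _ = ∑ b, ∑ c, ∑ p, ∑ p', ∑ r, Q p p' * M p b c r * M p' b c r :=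
        Finset.sum_congr rfl fun b _ => Finset.sum_comm
    _ = ∑ b, ∑ c, ∑ p, ∑ r, ∑ p', Q p p' * M p b c r * M p' b c r :=
        Finset.sum_congr rfl fun b _ => Finset.sum_congr rfl fun c _ =>
          Finset.sum_congr rfl fun p _ => Finset.sum_comm
    _ = _ := Finset.sum_congr rfl fun b _ => Finset.sum_congr rfl fun c _ => Finset.sum_comm

/-- `ip2 (actP Q B) G` as a form -/
theorem ip2_actP_bf {ι : Type*} [Fintype ι] (Q : Mt n) (B G : T2 n ι) :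
    ip2 (actP Q B) G = bf Q (sl G) (sl B) := by
  unfold ip2 bf
  rw [Fintype.sum_prod_type]
  refine Finset.sum_congr rfl fun a _ => ?_
  rw [Finset.sum_comm]
  refine Finset.sum_congr rfl fun i _ => ?_
  refine Finset.sum_congr rfl fun p _ => ?_
  simp only [actP, sl, Finset.sum_mul]
  exact Finset.sum_congr rfl fun p' _ => by ring


/-- the third term: `fsl` for the tower tensor -/
theorem third {K : KD n} {F : (j : ℕ) → (Fin j → Fin n) → E n → ℝ} {δ a D C' Cs Cf : ℝ}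
    {Z Z' : E n → Mt n}
    (hctx : Ctx K (RJ n J) a D (MT F J δ) (MpT F J) Z Z') (hCf : 0 < Cf)
    (Hf : ∀ (Bc : T2 n (IJ n J)) (e : E n → ℝ), ip2 Bc Bc ≤ 1 → Integrable e K.μ →
      (∫ x, e x ∂K.μ ≤ Cs * D) →
      (∀ x, ∃ B : Fin n → Mt n, (∀ k, (B k)ᵀ = B k) ∧ LeQ (∑ k, B k * B k) (C' • (1 : Mt n)) ∧
      (∑ k, hs (Z x * B k - B k * Z x) ≤ e x) ∧
      (∑ k, ip2 (pd2 k (fun y => toT2 (MT F J δ y)) x - 2 • actA (B k) (toT2 (MT F J δ x)))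
        (pd2 k (fun y => toT2 (MT F J δ y)) x - 2 • actA (B k) (toT2 (MT F J δ x))) ≤ e x)) →
      |∫ x, ip2 (actP (K.P x) Bc) (toT2 (MT F J δ x)) ∂K.μ| ≤ Cf * Real.sqrt D)
    {e : E n → ℝ} (he : Integrable e K.μ) (he' : ∫ x, e x ∂K.μ ≤ Cs * D)
    (hB : ∀ x, ∃ B : Fin n → Mt n, (∀ k, (B k)ᵀ = B k) ∧ LeQ (∑ k, B k * B k) (C' • (1 : Mt n)) ∧
      (∑ k, hs (Z x * B k - B k * Z x) ≤ e x) ∧
      (∑ k, ip (pdT k (MT F J δ) x - 2 • act1 (B k) (MT F J δ x))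
        (pdT k (MT F J δ) x - 2 • act1 (B k) (MT F J δ x)) ≤ e x))
    (Bu : T2 n (IJ n J)) :
    ∫ x, bf (K.P x) (sl (toT2 (MT F J δ x))) (sl Bu) ∂K.μ ≤
      ip2 Bu Bu / 8 + 2 * Cf ^ 2 * D := by
  have hD := hctx.D_pos
  have hS0 : 0 ≤ ip2 Bu Bu := by
    rw [ip2_sq]
    exact Finset.sum_nonneg fun _ _ => Finset.sum_nonneg fun _ _ =>
      Finset.sum_nonneg fun _ _ => sq_nonneg _
  rcases hS0.eq_or_lt with h0 | h0
  · have hz : ∀ a p i, Bu a p i = 0 := by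
      intro a p i
      have h1 : Bu a p i ^ 2 ≤ ip2 Bu Bu := by
        rw [ip2_sq]
        refine le_trans ?_ (Finset.single_le_sum (f := fun a => ∑ p, ∑ i, Bu a p i ^ 2)
          (fun _ _ => Finset.sum_nonneg fun _ _ => Finset.sum_nonneg fun _ _ => sq_nonneg _)
          (Finset.mem_univ a))
        refine le_trans ?_ (Finset.single_le_sum (f := fun p => ∑ i, Bu a p i ^ 2)
          (fun _ _ => Finset.sum_nonneg fun _ _ => sq_nonneg _)
          (Finset.mem_univ p))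
        exact Finset.single_le_sum (f := fun i => Bu a p i ^ 2)
          (fun _ _ => sq_nonneg _) (Finset.mem_univ i)
      rw [← h0] at h1
      exact pow_eq_zero_iff (two_ne_zero) |>.mp (le_antisymm h1 (sq_nonneg _))
    have h1 : ∀ x, bf (K.P x) (sl (toT2 (MT F J δ x))) (sl Bu) = 0 := by
      intro x
      unfold bf
      refine Finset.sum_eq_zero fun i _ => Finset.sum_eq_zero fun p _ =>
        Finset.sum_eq_zero fun p' _ => ?_
      show _ * _ * Bu i.1 p' i.2 = 0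
      rw [hz, mul_zero]
    simp only [h1, integral_zero, ← h0]
    positivity
  · set s := Real.sqrt (ip2 Bu Bu) with hs
    have hspos : 0 < s := Real.sqrt_pos.mpr h0
    have hss : s ^ 2 = ip2 Bu Bu := Real.sq_sqrt hS0
    have hn : ip2 ((1 / s) • Bu) ((1 / s) • Bu) = 1 := by
      rw [ip2_sq]
      simp only [Pi.smul_apply, smul_eq_mul, mul_pow, ← Finset.mul_sum]
      rw [← ip2_sq, ← hss]
      field_simp
    have h2 := Hf ((1 / s) • Bu) e hn.le he he' fun x => by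
      obtain ⟨B, hb1, hb2, hb3, hb4⟩ := hB x
      refine ⟨B, hb1, hb2, hb3, le_trans ?_ hb4⟩
      refine Finset.sum_le_sum fun k _ => ?_
      have := ip2_toT2_le (pdT k (MT F J δ) x - 2 • act1 (B k) (MT F J δ x))
      rwa [toT2_sub, toT2_smul, toT2_act1, toT2_pd] at this
    have h3 : ∀ x, ip2 (actP (K.P x) ((1 / s) • Bu)) (toT2 (MT F J δ x)) =
        (1 / s) * bf (K.P x) (sl (toT2 (MT F J δ x))) (sl Bu) := by
      intro x
      rw [ip2_actP_bf]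
      unfold bf
      simp only [Finset.mul_sum]
      refine Finset.sum_congr rfl fun i _ => Finset.sum_congr rfl fun p _ =>
        Finset.sum_congr rfl fun p' _ => ?_
      simp only [sl, Pi.smul_apply, smul_eq_mul]
      ring
    simp only [h3] at h2
    rw [integral_const_mul, abs_mul, abs_of_pos (by positivity : 0 < 1 / s)] at h2
    set I := ∫ x, bf (K.P x) (sl (toT2 (MT F J δ x))) (sl Bu) ∂K.μ
    have h4 : |I| ≤ s * (Cf * Real.sqrt D) := by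
      have := mul_le_mul_of_nonneg_left h2 hspos.le
      rwa [← mul_assoc, mul_one_div_cancel hspos.ne', one_mul] at this
    have hDs : Real.sqrt D ^ 2 = D := Real.sq_sqrt hD.le
    have h5 := le_abs_self I
    have h6 : s * (Cf * Real.sqrt D) ≤ s ^ 2 / 8 + 2 * (Cf * Real.sqrt D) ^ 2 := by
      nlinarith [sq_nonneg (s - 4 * (Cf * Real.sqrt D))]
    rw [mul_pow, hDs, hss] at h6
    linarith



section

variable {K : KD n} {F : (j : ℕ) → (Fin j → Fin n) → E n → ℝ}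

theorem hfu (hF : ∀ j w, CB (F j w)) (p : Fin n) (i : Fin n × IJ n J) :
    BC (fun x => sl (Fu (J := J) F x) p i) := Fu_bc hF _ _ _

theorem hgu (hF : ∀ j w, CB (F j w)) (δ : ℝ) (p : Fin n) (i : Fin n × IJ n J) :
    BC (fun x => sl (toT2 (MT F J δ x)) p i) := G_bc hF δ _ _ _

theorem hbu (Bu : T2 n (IJ n J)) (p : Fin n) (i : Fin n × IJ n J) :
    BC (fun _ : E n => sl Bu p i) := .const _

theorem split_eq (hF : ∀ j w, CB (F j w)) (δ : ℝ) :
    ip2 (fun a p i => ∫ x, Fu (J := J) F x a p i ∂K.μ) (fun a p i => ∫ x, Fu (J := J) F x a p i ∂K.μ)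
     = (∫ x, bf (1 - K.P x) (sl (Fu F x)) (sl fun a p i => ∫ x, Fu (J := J) F x a p i ∂K.μ) ∂K.μ) +
      (∫ x, bf (K.P x) (sl (Fu F x) - sl (toT2 (MT F J δ x)))
        (sl fun a p i => ∫ x, Fu (J := J) F x a p i ∂K.μ) ∂K.μ) +
      ∫ x, bf (K.P x) (sl (toT2 (MT F J δ x)))
        (sl fun a p i => ∫ x, Fu (J := J) F x a p i ∂K.μ) ∂K.μ := by
  set Bu : T2 n (IJ n J) := fun a p i => ∫ x, Fu (J := J) F x a p i ∂K.μ with hBu
  have i1 : Integrable (fun x => bf (1 - K.P x) (sl (Fu (J := J) F x)) (sl Bu)) K.μ :=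
    (bf_bc (oneP_bc K) (hfu hF) (hbu Bu)).int
  have i2 : Integrable (fun x => bf (K.P x) (sl (Fu (J := J) F x) -
      sl (toT2 (MT F J δ x))) (sl Bu)) K.μ :=
    (bf_bc (P_bc K) (fun p i => (hfu hF p i).sub (hgu hF δ p i)) (hbu Bu)).int
  have i3 : Integrable (fun x => bf (K.P x) (sl (toT2 (MT F J δ x))) (sl Bu)) K.μ :=
    (bf_bc (P_bc K) (hgu hF δ) (hbu Bu)).int
  have i12 : Integrable (fun x => bf (1 - K.P x) (sl (Fu (J := J) F x)) (sl Bu) +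
      bf (K.P x) (sl (Fu (J := J) F x) - sl (toT2 (MT F J δ x))) (sl Bu)) K.μ := i1.add i2
  have h0 : ∀ x, ip2 (Fu (J := J) F x) Bu = bf (1 - K.P x) (sl (Fu F x)) (sl Bu) +
      bf (K.P x) (sl (Fu F x) - sl (toT2 (MT F J δ x))) (sl Bu) +
      bf (K.P x) (sl (toT2 (MT F J δ x))) (sl Bu) := by
    intro x
    rw [bf_sub, bf_sub_left, bf_one]
    have : ip2 (Fu (J := J) F x) Bu = ∑ i, ∑ p, sl (Fu F x) p i * sl Bu p i := by
      rw [Fintype.sum_prod_type]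
      refine Finset.sum_congr rfl fun a _ => ?_
      rw [Finset.sum_comm]
      rfl
    rw [this]
    ring
  rw [← integral_add i1 i2, ← integral_add i12 i3]
  have h2 : ip2 Bu Bu = ∫ x, ip2 (Fu (J := J) F x) Bu ∂K.μ := by
    unfold ip2
    rw [integral_finsetSum _ fun a _ => (BC.sum _ fun p _ => BC.sum _ fun i _ =>
      (Fu_bc hF a p i).mul (.const _)).int]
    refine Finset.sum_congr rfl fun a _ => ?_
    rw [integral_finsetSum _ fun p _ => (BC.sum _ fun i _ =>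
      (Fu_bc hF a p i).mul (.const _)).int]
    refine Finset.sum_congr rfl fun p _ => ?_
    rw [integral_finsetSum _ fun i _ => ((Fu_bc hF a p i).mul (.const _)).int]
    refine Finset.sum_congr rfl fun i _ => ?_
    rw [integral_mul_const]
  rw [h2]
  exact integral_congr_ae (Filter.Eventually.of_forall h0)

theorem first_le (hF : ∀ j w, CB (F j w)) (Bu : T2 n (IJ n J)) :
    ∫ x, bf (1 - K.P x) (sl (Fu F x)) (sl Bu) ∂K.μ ≤ ip2 Bu Bu / 4 +
      2 * K.h * ∫ x, bf (K.V2 x) (sl (Fu (J := J) F x)) (sl (Fu (J := J) F x)) ∂K.μ := by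
  have hprob := K.prob
  have hpt : ∀ x, bf (1 - K.P x) (sl (Fu (J := J) F x)) (sl Bu) ≤
      ip2 Bu Bu / 4 + 2 * K.h * bf (K.V2 x) (sl (Fu (J := J) F x)) (sl (Fu (J := J) F x)) := by
    intro x
    have h1 := bf_cs (oneP_symm K x) (LeQ_oneP K x) (sl (Fu (J := J) F x)) (sl Bu)
      (s := 1 / 2) (by norm_num)
    have h2 := bf_le_sq (oneP_le K x) (sl Bu)
    rw [sl_sq] at h2
    have h3 := bf_mono (K.P_hess x) (sl (Fu (J := J) F x))
    rw [bf_smul] at h3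
    norm_num at h1
    linarith
  refine (integral_mono (bf_bc (oneP_bc K) (hfu hF) (hbu Bu)).int
    ((BC.const (ip2 Bu Bu / 4)).add (BC.const_mul (2 * K.h) (bf_bc (V2_bc K) (hfu hF)
      (hfu hF)))).int hpt).trans ?_
  rw [integral_add (BC.const (ip2 Bu Bu / 4)).int (BC.const_mul (2 * K.h)
    (bf_bc (V2_bc K) (hfu hF) (hfu hF))).int, integral_const_mul, integral_const]
  simp

theorem second_le (hF : ∀ j w, CB (F j w)) (δ : ℝ) (Bu : T2 n (IJ n J)) :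
    ∫ x, bf (K.P x) (sl (Fu F x) - sl (toT2 (MT F J δ x))) (sl Bu) ∂K.μ ≤
      ip2 Bu Bu / 8 + 2 * K.η ^ 2 * ∑ j ∈ Finset.range (J + 1), (1 / 100) ^ j *
        nsq K.μ (fun v => fun x => F (j + 3) v x - symW F j v x) := by
  have hη0 := K.η_pos
  have hpt : ∀ x, bf (K.P x) (sl (Fu (J := J) F x) - sl (toT2 (MT F J δ x))) (sl Bu) ≤
      1 / (8 * K.η ^ 2) * bf (K.P x) (sl Bu) (sl Bu) + 2 * K.η ^ 2 *
      ip2 (Fu (J := J) F x - toT2 (MT F J δ x)) (Fu F x - toT2 (MT F J δ x)) := by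
    intro x
    have h1 := bf_cs (K.P_symm x) (K.P_nonneg x) (sl (Fu (J := J) F x) -
      sl (toT2 (MT F J δ x))) (sl Bu) (s := 1 / (4 * K.η ^ 2)) (by positivity)
    have h2 := bf_le_sq (K.P_le x) (sl (Fu (J := J) F x) - sl (toT2 (MT F J δ x)))
    have h4 : ∑ i, ∑ p, (sl (Fu (J := J) F x) - sl (toT2 (MT F J δ x))) p i ^ 2 =
      ip2 (Fu (J := J) F x - toT2 (MT F J δ x)) (Fu F x - toT2 (MT F J δ x)) := by
      rw [← sl_sq]
      rfl
    rw [h4] at h2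
    have e1 : 1 / (4 * K.η ^ 2) / 2 = 1 / (8 * K.η ^ 2) := by field_simp; norm_num
    have e2 : 1 / (2 * (1 / (4 * K.η ^ 2))) = 2 * K.η ^ 2 := by field_simp; norm_num
    rw [e1, e2] at h1
    have := mul_le_mul_of_nonneg_left h2 (by positivity : 0 ≤ 2 * K.η ^ 2)
    linarith
  have b1 : BC (fun x => 1 / (8 * K.η ^ 2) * bf (K.P x) (sl Bu) (sl Bu)) :=
    BC.const_mul _ (bf_bc (P_bc K) (hbu Bu) (hbu Bu))
  have b2 : BC (fun x => ip2 (Fu (J := J) F x - toT2 (MT F J δ x))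
      (Fu F x - toT2 (MT F J δ x))) := by
    simp only [ip2_sq]
    exact BC.sum _ fun a _ => BC.sum _ fun p _ => BC.sum _ fun i _ =>
      ((Fu_bc hF a p i).sub (G_bc hF δ a p i)).sq
  refine (integral_mono (bf_bc (P_bc K) (fun p i => (hfu hF p i).sub (hgu hF δ p i))
    (hbu Bu)).int (b1.add (b2.const_mul _)).int hpt).trans ?_
  rw [integral_add b1.int (b2.const_mul _).int, integral_const_mul, integral_const_mul,
    err_eq hF]
  have h1 := P_const_le K (sl Bu)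
  rw [sl_sq] at h1
  have h3 := mul_le_mul_of_nonneg_left h1 (by positivity : 0 ≤ 1 / (8 * K.η ^ 2))
  have e3 : 1 / (8 * K.η ^ 2) * (K.η ^ 2 * ip2 Bu Bu) = ip2 Bu Bu / 8 := by field_simp
  rw [e3] at h3
  linarith

end

theorem trace_int_le {K : KD n} {R : Type} [Fintype R] {a : ℝ} {M : E n → T3 n R}
    {Z : E n → Mt n} (hp : Pack K R a M Z) :
    ∫ x, (Z x * (1 - K.P x) * Z x).trace ∂K.μ ≤ a := by
  have hE : ∫ x, bf (1 - K.P x) (sl3 (M x)) (sl3 (M x)) ∂K.μ ≤ a := hp.enM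
  have e : (fun x => (Z x * (1 - K.P x) * Z x).trace) =
      fun x => bf (1 - K.P x) (sl3 (M x)) (sl3 (M x)) := funext fun x => trace_ZPZ (hp.Zsq x)
  rw [e]
  exact hE

/-- `fsl` applied to the tower tensor -/
theorem fsl_app {K : KD n} {F : (j : ℕ) → (Fin j → Fin n) → E n → ℝ} {δ a D C' C1 Cf X h1 : ℝ}
    {Z Z' : E n → Mt n} (h7 : 7 ≤ C1)
    (hctx : Ctx K (RJ n J) a D (MT F J δ) (MpT F J) Z Z') (hh : h1 ≤ K.h) (hX : 1 ≤ X)
    (HF : ∀ (n : ℕ) (K : KD n) (ι : Type) [Fintype ι] (Z : E n → Mt n) (G H : E n → T2 n ι)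
    (Bc : T2 n ι) (e : E n → ℝ) (D X : ℝ),
    h1 ≤ K.h → 1 ≤ X → 0 < D → (∀ x, (Z x).PosDef) → (∀ i, CB (famM Z i)) →
    (∀ i, CB (fam2 G i)) → (∀ i, CB (fam2 H i)) → ip2 Bc Bc ≤ 1 →
    (∀ x, LeQ (gramA (H x) (H x)) (Z x * Z x)) →
    Integrable e K.μ → (∫ x, e x ∂K.μ ≤ C1 * D) →
    (∀ x, ∃ B : Fin n → Mt n, (∀ k, (B k)ᵀ = B k) ∧ LeQ (∑ k, B k * B k) (C' • (1 : Mt n)) ∧
      (∑ k, hs (Z x * B k - B k * Z x) ≤ e x) ∧
      (∑ k, ip2 (pd2 k G x - 2 • actA (B k) (H x)) (pd2 k G x - 2 • actA (B k) (H x)) ≤ e x)) →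
    msq K.μ (famM Z) ≤ D →
    (∫ x, (Z x * (1 - K.P x) * Z x).trace ∂K.μ ≤ C1 * D) →
    en K.μ (fun x => 1 - K.P x) (fun p (i : Fin n × ι) x => H x i.1 p i.2) ≤ C1 * D →
    K.q (fam2 G) ≤ C1 * D → msq K.μ (fam2 G) ≤ C1 * D → tsq K.μ K.ω (fam2 G) ≤ C1 * D →
    |∫ x, ip2 (actP (K.P x) Bc) (G x) ∂K.μ| ≤
      Cf * (K.η * Real.sqrt X + 1 / X + K.η) * Real.sqrt D)
    (Bc : T2 n (IJ n J)) (e : E n → ℝ) (hBc : ip2 Bc Bc ≤ 1) (he : Integrable e K.μ)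
    (he' : ∫ x, e x ∂K.μ ≤ C1 * D)
    (hB : ∀ x, ∃ B : Fin n → Mt n, (∀ k, (B k)ᵀ = B k) ∧ LeQ (∑ k, B k * B k) (C' • (1 : Mt n)) ∧
      (∑ k, hs (Z x * B k - B k * Z x) ≤ e x) ∧
      (∑ k, ip2 (pd2 k (fun y => toT2 (MT F J δ y)) x - 2 • actA (B k) (toT2 (MT F J δ x)))
        (pd2 k (fun y => toT2 (MT F J δ y)) x - 2 • actA (B k) (toT2 (MT F J δ x))) ≤ e x)) :
    |∫ x, ip2 (actP (K.P x) Bc) (toT2 (MT F J δ x)) ∂K.μ| ≤
      Cf * (K.η * Real.sqrt X + 1 / X + K.η) * Real.sqrt D := by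
  have hD := hctx.D_pos
  have ha := hctx.a_le
  have hp := hctx.pk
  have hcbZ := (MX354.root_field K hp).1
  have hD7 : 7 * D ≤ C1 * D := mul_le_mul_of_nonneg_right h7 hD.le
  refine HF n K (IJ n J) Z (fun y => toT2 (MT F J δ y))
    (fun y => toT2 (MT F J δ y)) Bc e D X hh hX hD hp.Zpos hcbZ
    (fun i => hp.cb (i.1, _, _, _)) (fun i => hp.cb (i.1, _, _, _)) hBc ?_ he he' hB hctx.mZ
    ?_ ?_ ?_ ?_ ?_
  · intro x
    rw [hp.Zsq x]
    exact gramA_toT2_le _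
  · have h1 := trace_int_le hp
    linarith
  · have h1 := en_new_le hp hctx.ex
    linarith
  · have h1 := (q_toT2_le (K := K) hp.cb).trans hp.qM
    linarith
  · have h1 := (msq_toT2_le (K := K) (M := MT F J δ)).trans hp.mM
    linarith
  · have h1 := (tsq_toT2_le (K := K) (M := MT F J δ)).trans hp.tM
    linarith

/-- FD9 from FD5 and FD6 -/
theorem alpha_high_of (hF : FslP) (hS : SlowP) : ∀ h1 C0 : ℝ, 0 < h1 → 0 < C0 → ∃ C : ℝ, 0 < C ∧
    ∀ (n : ℕ) (K : KD n) (κ : ℝ)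
    (T : Tower K κ) (J : ℕ) (δ a D X : ℝ), h1 ≤ K.h → K.η ≤ 1 / 100 → 1 ≤ X →
    Ctx K (RJ n J) a D (MT T.Ψ J δ) (MpT T.Ψ J) (ZT T.Ψ J δ) (ZT' T.Ψ J δ) →
    (∑ j ∈ Finset.range (J + 1), (1 / 100) ^ j *
        (dsq K.μ (fun v => fun x => T.Ψ (j + 3) v x - symW T.Ψ j v x)
          + nsq K.μ (fun v => fun x => T.Ψ (j + 3) v x - symW T.Ψ j v x)
          + K.q (T.Ψ (j + 3)) + tsq K.μ K.ω (T.Ψ (j + 3))) ≤ C0 * D) →
    (∑ j ∈ Finset.range (J + 1), (1 / 100) ^ j * msq K.μ (T.Ψ (j + 3)) ≤ C0 * D) →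
    ∑ j ∈ Finset.range (J + 1), (1 / 100) ^ j * msq K.μ (T.Ψ (j + 3)) ≤
      4 * K.h * (∑ j ∈ Finset.range (J + 1), (1 / 100) ^ j *
          en K.μ K.V2 (fun p (w : Fin (j + 2) → Fin n) => T.Ψ (j + 3) (Fin.snoc w p)))
      + C * (K.η * Real.sqrt X + 1 / X + K.η) ^ 2 * D := by
  obtain ⟨C', Cs, hC', hCs, HS⟩ := hS
  intro h1 C0 hh1 hC0
  obtain ⟨Cf, hCf, HF⟩ := hF h1 (Cs + 7) C' hh1 (by positivity) hC'
  refine ⟨4 * (C0 + Cf ^ 2), by positivity, ?_⟩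
  intro n K κ T J δ a D X hh hη hX hctx herr _
  have hD := hctx.D_pos
  have hcb : ∀ j w, CB (T.Ψ j w) := T.cb
  obtain ⟨e, he, he', hB⟩ := HS n K (RJ n J) a D _ _ _ _ hctx hη
  have hη0 := K.η_pos
  have hX0 : 0 < X := by linarith
  have hτη : K.η ≤ K.η * Real.sqrt X + 1 / X + K.η := by
    have h1 : 0 ≤ K.η * Real.sqrt X := by positivity
    have h2 : 0 ≤ 1 / X := by positivity
    linarith
  have hfa := fsl_app (J := J) (δ := δ) (a := a) (D := D) (C' := C') (C1 := Cs + 7) (Cf := Cf)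
    (X := X) (by linarith) hctx hh hX HF
  generalize K.η * Real.sqrt X + 1 / X + K.η = τ at hτη hfa ⊢
  have hτ0 : 0 < τ := by linarith
  -- the three terms
  rw [S_eq, V_eq hcb]
  have hsplit := split_eq (K := K) (J := J) hcb δ
  have t1 := first_le (K := K) hcb (fun a p i => ∫ x, Fu (J := J) T.Ψ x a p i ∂K.μ)
  have t2 := second_le (K := K) hcb δ (fun a p i => ∫ x, Fu (J := J) T.Ψ x a p i ∂K.μ)
  have he2 : ∫ x, e x ∂K.μ ≤ (Cs + 7) * D := by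
    have : Cs * D ≤ (Cs + 7) * D := mul_le_mul_of_nonneg_right (by linarith) hD.le
    linarith
  have t3 : ∫ x, bf (K.P x) (sl (toT2 (MT T.Ψ J δ x)))
      (sl fun a p i => ∫ x, Fu (J := J) T.Ψ x a p i ∂K.μ) ∂K.μ ≤ _ :=
    third (Cs := Cs + 7) (C' := C') (Cf := Cf * τ) (e := e) hctx (by positivity) hfa he he2
    (fun x => by
      obtain ⟨B, Θ, L, b1, b2, b3, b4, _⟩ := hB x
      exact ⟨B, b1, b2, b3, b4⟩) (fun a p i => ∫ x, Fu (J := J) T.Ψ x a p i ∂K.μ)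
  have herr' : ∑ j ∈ Finset.range (J + 1), (1 / 100) ^ j *
        nsq K.μ (fun v => fun x => T.Ψ (j + 3) v x - symW T.Ψ j v x) ≤ C0 * D := by
    refine le_trans (Finset.sum_le_sum fun j _ => ?_) herr
    have q0 : 0 ≤ K.q (T.Ψ (j + 3)) := q_nonneg K _ fun w => hcb _ w
    have d0 : 0 ≤ dsq K.μ (fun v => fun x => T.Ψ (j + 3) v x - symW T.Ψ j v x) :=
      Finset.sum_nonneg fun _ _ => Finset.sum_nonneg fun _ _ =>
        integral_nonneg fun _ => sq_nonneg _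
    have s0 : 0 ≤ tsq K.μ K.ω (T.Ψ (j + 3)) :=
      Finset.sum_nonneg fun _ _ => Finset.sum_nonneg fun _ _ => sq_nonneg _
    exact mul_le_mul_of_nonneg_left (by linarith) (by positivity)
  generalize ip2 (fun a p i => ∫ x, Fu (J := J) T.Ψ x a p i ∂K.μ)
    (fun a p i => ∫ x, Fu (J := J) T.Ψ x a p i ∂K.μ) = S at *
  generalize ∫ x, bf (K.V2 x) (sl (Fu (J := J) T.Ψ x)) (sl (Fu (J := J) T.Ψ x)) ∂K.μ = V at *
  generalize ∑ j ∈ Finset.range (J + 1), (1 / 100) ^ j *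
        nsq K.μ (fun v => fun x => T.Ψ (j + 3) v x - symW T.Ψ j v x) = W at *
  have hητ : K.η ^ 2 ≤ τ ^ 2 := by nlinarith only [hη0, hτη]
  have h5 : K.η ^ 2 * W ≤ K.η ^ 2 * (C0 * D) := mul_le_mul_of_nonneg_left herr' (by positivity)
  have h6 : K.η ^ 2 * (C0 * D) ≤ τ ^ 2 * (C0 * D) :=
    mul_le_mul_of_nonneg_right hητ (by positivity)
  rw [mul_pow] at t3
  have h7 : 4 * (C0 + Cf ^ 2) * τ ^ 2 * D = 4 * (τ ^ 2 * (C0 * D)) + 4 * (Cf ^ 2 * τ ^ 2 * D) := by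
    ring
  rw [h7]
  linarith

end Crest.Agent.R201.N844
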