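import Crest.Agent.R201.Noi1_402

/-!
# R201 (S0308), outer reduction, part 1: the truncated and tilted weights  (owner: helper293)

`tw ρ N x = ρ x 1_{|x| ≤ N} exp (-|x|²/(2(N+1)))`; translation to the barycentre; the `ψ₂` hypothesis of
S0308 gives `SG (3a²)` for the centred truncation.
-/

set_option autoImplicit false
open MeasureTheory Matrix Filter Topology
open scoped ContDiff RealInnerProductSpace NNReal ENNReal

namespace Crest.Agent.R201.Fin293

open Crest.Agent.R201 Crest.Agent.R144.Fi865 Crest.Agent.R201.An Crest.Agent.R201.DVQ402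
open Crest.Agent.R201.Noi402

variable {n : ℕ} {ρ w : E n → ℝ} {a c R κ K : ℝ}

/-- what the inner blocks deliver -/
def MainLS : Prop :=
  ∃ C : ℝ, 0 ≤ C ∧ ∀ (n : ℕ) (c R κ : ℝ) (w : E n → ℝ), 0 < c → 0 < κ → Wt c R w →
    SG κ (nm w) → LS w (C * κ)

/-- hypotheses of S0308 on the density -/
structure Dens (ρ : E n → ℝ) : Prop where
  meas : Measurable ρ
  nonneg : ∀ x, 0 ≤ ρ x
  conv : Convex ℝ {x | 0 < ρ x}
  conc : ConcaveOn ℝ {x | 0 < ρ x} (fun x => Real.log (ρ x))
  int : Integrable ρ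
  one : ∫ x, ρ x = 1

/-- truncated and tilted density -/
noncomputable def tw (ρ : E n → ℝ) (N : ℕ) (x : E n) : ℝ :=
  (if ‖x‖ ≤ N then ρ x else 0) * Real.exp (-(1 / ((N : ℝ) + 1) / 2 * ‖x - 0‖ ^ 2))

lemma Dens.slc (h : Dens ρ) (N : ℕ) : SLC 0 (fun x => if ‖x‖ ≤ N then ρ x else 0) := by
  intro x y
  rw [zero_div, zero_mul, neg_zero, Real.exp_zero, one_mul]
  beta_reduce
  have hnn : ∀ z : E n, 0 ≤ (if ‖z‖ ≤ N then ρ z else 0) := fun z => by
    split_ifs
    · exact h.nonneg z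
    · exact le_rfl
  by_cases hx : ‖x‖ ≤ N ∧ 0 < ρ x
  · by_cases hy : ‖y‖ ≤ N ∧ 0 < ρ y
    · have hm : ‖(1 / 2 : ℝ) • (x + y)‖ ≤ N := by
        rw [norm_smul, Real.norm_of_nonneg (by norm_num)]
        have := norm_add_le x y
        linarith [hx.1, hy.1]
      have e : (1 / 2 : ℝ) • (x + y) = (1 / 2 : ℝ) • x + (1 / 2 : ℝ) • y := smul_add _ _ _
      have hp : 0 < ρ ((1 / 2 : ℝ) • (x + y)) := by
        rw [e]
        exact h.conv hx.2 hy.2 (by norm_num) (by norm_num) (by norm_num)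
      have hc := h.conc.2 hx.2 hy.2 (by norm_num : (0 : ℝ) ≤ 1 / 2)
        (by norm_num : (0 : ℝ) ≤ 1 / 2) (by norm_num)
      simp only [smul_eq_mul] at hc
      rw [← e] at hc
      rw [if_pos hx.1, if_pos hy.1, if_pos hm]
      rw [← Real.exp_log hp]
      have e1 : √(ρ x) = Real.exp (1 / 2 * Real.log (ρ x)) := by
        rw [Real.sqrt_eq_rpow, Real.rpow_def_of_pos hx.2]; ring_nf
      have e2 : √(ρ y) = Real.exp (1 / 2 * Real.log (ρ y)) := by
        rw [Real.sqrt_eq_rpow, Real.rpow_def_of_pos hy.2]; ring_nf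
      rw [e1, e2, ← Real.exp_add]
      exact Real.exp_le_exp.2 hc
    · have : √(if ‖y‖ ≤ N then ρ y else 0) = 0 := by
        split_ifs with h1
        · have h2 : ρ y ≤ 0 := not_lt.1 fun h2 => hy ⟨h1, h2⟩
          exact Real.sqrt_eq_zero_of_nonpos h2
        · exact Real.sqrt_zero
      rw [this, mul_zero]
      exact hnn _
  · have : √(if ‖x‖ ≤ N then ρ x else 0) = 0 := by
      split_ifs with h1
      · have h2 : ρ x ≤ 0 := not_lt.1 fun h2 => hx ⟨h1, h2⟩
        exact Real.sqrt_eq_zero_of_nonpos h2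
      · exact Real.sqrt_zero
    rw [this, zero_mul]
    exact hnn _

lemma tw_nonneg (h : Dens ρ) (N : ℕ) (x : E n) : 0 ≤ tw ρ N x := by
  unfold tw
  split_ifs
  · exact mul_nonneg (h.nonneg x) (Real.exp_pos _).le
  · simp

lemma tw_le (h : Dens ρ) (N : ℕ) (x : E n) : tw ρ N x ≤ ρ x := by
  unfold tw
  split_ifs
  · have : Real.exp (-(1 / ((N : ℝ) + 1) / 2 * ‖x - 0‖ ^ 2)) ≤ 1 := by
      rw [Real.exp_le_one_iff]
      have : 0 ≤ 1 / ((N : ℝ) + 1) / 2 * ‖x - 0‖ ^ 2 := by positivity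
      linarith
    nlinarith [h.nonneg x]
  · rw [zero_mul]; exact h.nonneg x

lemma tw_meas (h : Dens ρ) (N : ℕ) : Measurable (tw ρ N) := by
  unfold tw
  refine Measurable.mul (Measurable.ite ?_ h.meas measurable_const) (by fun_prop)
  exact measurableSet_le measurable_norm measurable_const

lemma tw_int (h : Dens ρ) (N : ℕ) : Integrable (tw ρ N) :=
  h.int.mono' (tw_meas h N).aestronglyMeasurable (Eventually.of_forall fun x => by
    rw [Real.norm_of_nonneg (tw_nonneg h N x)]; exact tw_le h N x)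

lemma tw_lim (x : E n) : Tendsto (fun N => tw ρ N x) atTop (𝓝 (ρ x)) := by
  have h1 : Tendsto (fun N : ℕ => Real.exp (-(1 / ((N : ℝ) + 1) / 2 * ‖x - 0‖ ^ 2))) atTop
      (𝓝 (Real.exp (-(0 / 2 * ‖x - 0‖ ^ 2)))) := by
    refine (Real.continuous_exp.tendsto _).comp ?_
    exact ((tendsto_one_div_add_atTop_nhds_zero_nat.div_const 2).mul_const _).neg
  rw [zero_div, zero_mul, neg_zero, Real.exp_zero] at h1
  have h2 := h1.const_mul (ρ x)
  rw [mul_one] at h2
  refine h2.congr' ?_
  obtain ⟨N0, hN0⟩ := exists_nat_ge ‖x‖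
  filter_upwards [eventually_ge_atTop N0] with N hN
  have : ‖x‖ ≤ N := hN0.trans (by exact_mod_cast hN)
  simp [tw, this]

/-- integrals against the truncations converge -/
lemma tw_tendsto (h : Dens ρ) {F : E n → ℝ} (mF : Measurable F)
    (hF : Integrable fun x => F x * ρ x) :
    Tendsto (fun N => ∫ x, F x * tw ρ N x) atTop (𝓝 (∫ x, F x * ρ x)) := by
  refine tendsto_integral_of_dominated_convergence (fun x => ‖F x * ρ x‖)
    (fun N => (mF.mul (tw_meas h N)).aestronglyMeasurable) hF.norm ?_ ?_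
  · intro N
    refine Eventually.of_forall fun x => ?_
    rw [norm_mul, norm_mul, Real.norm_of_nonneg (tw_nonneg h N x), Real.norm_of_nonneg (h.nonneg x)]
    exact mul_le_mul_of_nonneg_left (tw_le h N x) (norm_nonneg _)
  · exact Eventually.of_forall fun x => (tw_lim x).const_mul _

lemma tw_mass (h : Dens ρ) : Tendsto (fun N => ∫ x, tw ρ N x) atTop (𝓝 1) := by
  have := tw_tendsto h (F := fun _ => 1) measurable_const (by simpa using h.int)
  simpa [h.one] using this

lemma tw_mass_ge (h : Dens ρ) : ∀ᶠ N in atTop, (1 / 2 : ℝ) ≤ ∫ x, tw ρ N x :=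
  (tw_mass h).eventually_const_le (by norm_num)

lemma tw_Em (h : Dens ρ) {F : E n → ℝ} (mF : Measurable F)
    (hF : Integrable fun x => F x * ρ x) :
    Tendsto (fun N => Em (tw ρ N) F) atTop (𝓝 (∫ x, F x * ρ x)) := by
  have := (tw_tendsto h mF hF).div (tw_mass h) one_ne_zero
  rw [div_one] at this
  exact this

lemma tw_wt (h : Dens ρ) {N : ℕ} (hN : (1 / 2 : ℝ) ≤ ∫ x, tw ρ N x) :
    Wt (1 / ((N : ℝ) + 1)) N (tw ρ N) where
  nonneg := tw_nonneg h N
  meas := tw_meas h N
  int := tw_int h N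
  supp := fun x hx => by
    by_contra hc
    exact hx (by simp [tw, hc])
  slc := slc_gauss (a := 1 / ((N : ℝ) + 1)) 0 (fun x => by
    split_ifs
    · exact h.nonneg x
    · exact le_rfl) (h.slc N)
  pos := by linarith

/-! ### translation -/

/-- translated weight -/
def trw (b : E n) (w : E n → ℝ) : E n → ℝ := fun x => w (x + b)

lemma int_trw (b : E n) (F : E n → ℝ) : ∫ x, F (x + b) = ∫ x, F x :=
  integral_add_right_eq_self F b

lemma Em_trw (b : E n) (w F : E n → ℝ) : Em (trw b w) (fun x => F (x + b)) = Em w F := by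
  unfold Em trw
  rw [integral_add_right_eq_self (fun x => F x * w x) b, integral_add_right_eq_self w b]

lemma wt_trw (hw : Wt c R w) (b : E n) : Wt c (R + ‖b‖) (trw b w) where
  nonneg := fun x => hw.nonneg _
  meas := hw.meas.comp (measurable_id.add_const b)
  int := hw.int.comp_add_right b
  supp := fun x hx => by
    have h1 := hw.supp (x + b) hx
    have h2 : ‖x‖ ≤ ‖x + b‖ + ‖b‖ := by
      have := norm_sub_le (x + b) b
      simpa using this
    linarith
  slc := fun x y => by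
    have h1 := hw.slc (x + b) (y + b)
    have e1 : x + b - (y + b) = x - y := by abel
    have e2 : (1 / 2 : ℝ) • (x + b + (y + b)) = (1 / 2 : ℝ) • (x + y) + b := by module
    rw [e1, e2] at h1
    exact h1
  pos := by
    unfold trw
    rw [integral_add_right_eq_self w b]
    exact hw.pos

lemma cb_comp_sub {f : E n → ℝ} (hf : CB f) (b : E n) : CB fun x => f (x + b) := by
  obtain ⟨h1, B, hB⟩ := hf
  refine ⟨h1.comp (contDiff_id.add contDiff_const), B, fun x => ⟨(hB _).1, fun k => ?_⟩⟩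
  have e : pd k (fun x => f (x + b)) x = pd k f (x + b) := by
    unfold pd
    rw [fderiv_comp_add_right]
  rw [e]
  exact (hB _).2 k

lemma LS_trw (b : E n) (h : LS (trw b w) K) : LS w K := by
  intro f hf hfc
  have h1 := h (fun x => f (x + b)) (cb_comp_sub hf b) (by
    obtain ⟨c, hc, h2⟩ := hfc
    exact ⟨c, hc, fun x => h2 _⟩)
  have e : ∀ x, ‖fderiv ℝ (fun x => f (x + b)) x‖ ^ 2 / f (x + b) =
      (fun y => ‖fderiv ℝ f y‖ ^ 2 / f y) (x + b) := fun x => by
    rw [fderiv_comp_add_right]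
  rw [Em_trw b w (fun x => f x * Real.log (f x)), Em_trw b w f] at h1
  simp only [e] at h1
  rwa [Em_trw b w (fun y => ‖fderiv ℝ f y‖ ^ 2 / f y)] at h1

end Crest.Agent.R201.Fin293
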