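import Crest.Agent.R201.Fin1_293

/-!
# R201 (S0308), outer reduction, part 2: `ψ₂` gives the sub-Gaussian bound for the centred weight
(owner: helper293)
-/

set_option autoImplicit false
open MeasureTheory Matrix Filter Topology
open scoped ContDiff RealInnerProductSpace NNReal ENNReal

namespace Crest.Agent.R201.Fin293

open Crest.Agent.R201 Crest.Agent.R144.Fi865 Crest.Agent.R201.An Crest.Agent.R201.DVQ402
open Crest.Agent.R201.Noi402

variable {n : ℕ} {ρ w F G : E n → ℝ} {a c R κ K : ℝ}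

lemma int_cont (hw : Wt c R w) (hF : Continuous F) : Integrable fun x => F x * w x := by
  obtain ⟨C, hC⟩ := (isCompact_closedBall (0 : E n) R).exists_bound_of_continuousOn hF.continuousOn
  have h1 : Integrable fun x => C * w x := hw.int.const_mul C
  refine h1.mono' (hF.measurable.mul hw.meas).aestronglyMeasurable (Eventually.of_forall fun x => ?_)
  rw [norm_mul, Real.norm_of_nonneg (hw.nonneg x)]
  by_cases hx : w x = 0
  · rw [hx, mul_zero, mul_zero]
  · exact mul_le_mul_of_nonneg_right (hC x (by simpa using hw.supp x hx)) (hw.nonneg x)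

lemma Em_mono' (hw : Wt c R w) (hF : Continuous F) (hG : Continuous G) (h : ∀ x, F x ≤ G x) :
    Em w F ≤ Em w G := by
  unfold Em
  refine div_le_div_of_nonneg_right ?_ hw.pos.le
  exact integral_mono (int_cont hw hF) (int_cont hw hG) fun x =>
    mul_le_mul_of_nonneg_right (h x) (hw.nonneg x)

lemma Em_lin (hw : Wt c R w) (hF : Continuous F) (hG : Continuous G) (u v : ℝ) :
    Em w (fun x => u * F x + v * G x) = u * Em w F + v * Em w G := by
  unfold Em
  have e : (fun x => (u * F x + v * G x) * w x) = fun x => u * (F x * w x) + v * (G x * w x) := by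
    funext x; ring
  rw [e, integral_add ((int_cont hw hF).const_mul u) ((int_cont hw hG).const_mul v),
    integral_const_mul, integral_const_mul]
  ring

lemma Em_one (hw : Wt c R w) : Em w (fun _ => 1) = 1 := by
  unfold Em
  simp only [one_mul]
  exact div_self hw.pos.ne'

/-- barycentre -/
noncomputable def bary (w : E n → ℝ) : E n := WithLp.toLp 2 fun k => Em w fun x => x k

lemma inner_bary (hw : Wt c R w) (t : E n) : ⟪t, bary w⟫ = Em w fun x => ⟪t, x⟫ := by
  have e : (fun x : E n => ⟪t, x⟫) = fun x => ∑ k, t k * x k := by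
    funext x
    rw [PiLp.inner_apply]
    exact Finset.sum_congr rfl fun k _ => by simp [mul_comm]
  rw [e, Em_sum Finset.univ hw.ex (fun k _ => (EG.coord k).smul (t k)), PiLp.inner_apply]
  refine Finset.sum_congr rfl fun k _ => ?_
  rw [Em_smul]
  simp [bary, mul_comm]

/-- `E cosh ⟨t,x⟩ ≤ exp (3 a² |t|² / 2)` -/
lemma cosh_bound (hw : Wt c R w) (ha : 0 < a)
    (hG : ∀ θ : E n, ‖θ‖ = 1 → Em w (fun x => Real.exp (⟪x, θ⟫ ^ 2 / a ^ 2)) ≤ 4) (t : E n) :
    Em w (fun x => Real.cosh ⟪t, x⟫) ^ 2 ≤ Real.exp (3 * a ^ 2 * ‖t‖ ^ 2) := by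
  have cc : Continuous fun x : E n => Real.cosh ⟪t, x⟫ := by fun_prop
  have hA0 : 0 ≤ Em w (fun x => Real.cosh ⟪t, x⟫) := by
    unfold Em
    exact div_nonneg (integral_nonneg fun x => mul_nonneg (Real.cosh_pos _).le (hw.nonneg x))
      hw.pos.le
  by_cases ht : t = 0
  · subst ht
    simp only [inner_zero_left, Real.cosh_zero, norm_zero]
    rw [Em_one hw]
    simp
  set l := ‖t‖ with hl
  have hl0 : 0 < l := norm_pos_iff.2 ht
  set θ : E n := l⁻¹ • t with hθ
  have hθ1 : ‖θ‖ = 1 := by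
    rw [hθ, norm_smul, norm_inv, Real.norm_of_nonneg hl0.le]
    exact inv_mul_cancel₀ hl0.ne'
  have e1 : ∀ x : E n, ⟪t, x⟫ = l * ⟪x, θ⟫ := fun x => by
    rw [hθ, real_inner_smul_right, real_inner_comm, ← mul_assoc, mul_inv_cancel₀ hl0.ne', one_mul]
  have hG1 := hG θ hθ1
  set p := l ^ 2 * a ^ 2 / 2 with hp
  have hp0 : 0 < p := by positivity
  have cG : Continuous fun x : E n => Real.exp (⟪x, θ⟫ ^ 2 / a ^ 2) := by fun_prop
  by_cases hp1 : p ≤ 1
  · have h1 : Em w (fun x => Real.cosh ⟪t, x⟫) ≤ 1 + 3 * p := by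
      calc Em w (fun x => Real.cosh ⟪t, x⟫)
          ≤ Em w (fun x => (1 - p) * 1 + p * Real.exp (⟪x, θ⟫ ^ 2 / a ^ 2)) := by
            refine Em_mono' hw cc (by fun_prop) fun x => ?_
            refine (Real.cosh_le_exp_half_sq _).trans ?_
            have e2 : ⟪t, x⟫ ^ 2 / 2 = p * (⟪x, θ⟫ ^ 2 / a ^ 2) := by
              rw [e1, hp]; field_simp
            rw [e2]
            have hc := convexOn_exp.2 (Set.mem_univ (0 : ℝ))
              (Set.mem_univ (⟪x, θ⟫ ^ 2 / a ^ 2)) (sub_nonneg.2 hp1) hp0.le (by ring)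
            simp only [smul_eq_mul, mul_zero, zero_add, Real.exp_zero] at hc
            exact hc
        _ = (1 - p) * 1 + p * Em w (fun x => Real.exp (⟪x, θ⟫ ^ 2 / a ^ 2)) := by
            rw [Em_lin hw (F := fun _ => 1) continuous_const cG, Em_one hw]
        _ ≤ 1 + 3 * p := by nlinarith
    have h2 : 1 + 3 * p ≤ Real.exp (3 * p) := by
      have := Real.add_one_le_exp (3 * p)
      linarith
    calc Em w (fun x => Real.cosh ⟪t, x⟫) ^ 2 ≤ Real.exp (3 * p) ^ 2 :=
          pow_le_pow_left₀ hA0 (h1.trans h2) 2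
      _ = Real.exp (3 * a ^ 2 * l ^ 2) := by
          rw [← Real.exp_nat_mul, hp]
          congr 1
          push_cast
          ring
  · have hp1' : 1 < p := not_le.1 hp1
    have h1 : Em w (fun x => Real.cosh ⟪t, x⟫) ≤ Real.exp (p / 2) * 4 := by
      calc Em w (fun x => Real.cosh ⟪t, x⟫)
          ≤ Em w (fun x => Real.exp (p / 2) * Real.exp (⟪x, θ⟫ ^ 2 / a ^ 2)) := by
            refine Em_mono' hw cc (by fun_prop) fun x => ?_
            rw [← Real.exp_add, ← Real.cosh_abs]
            have h2 : Real.cosh |⟪t, x⟫| ≤ Real.exp |⟪t, x⟫| := by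
              rw [Real.cosh_eq]
              have : Real.exp (-|⟪t, x⟫|) ≤ Real.exp |⟪t, x⟫| :=
                Real.exp_le_exp.2 (by linarith [abs_nonneg ⟪t, x⟫])
              linarith
            refine h2.trans (Real.exp_le_exp.2 ?_)
            rw [e1, abs_mul, abs_of_pos hl0]
            have h3 : 0 ≤ (l * a / 2 - |⟪x, θ⟫| / a) ^ 2 := sq_nonneg _
            have h4 : (l * a / 2 - |⟪x, θ⟫| / a) ^ 2 =
                p / 2 - l * |⟪x, θ⟫| + ⟪x, θ⟫ ^ 2 / a ^ 2 := by
              rw [hp, ← sq_abs ⟪x, θ⟫]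
              field_simp
              ring
            linarith
        _ = Real.exp (p / 2) * Em w (fun x => Real.exp (⟪x, θ⟫ ^ 2 / a ^ 2)) := Em_smul _ _ _
        _ ≤ Real.exp (p / 2) * 4 := mul_le_mul_of_nonneg_left hG1 (Real.exp_pos _).le
    have h5 : (16 : ℝ) ≤ Real.exp (5 * p) := by
      have h6 : (2 : ℝ) ≤ Real.exp 1 := by
        have := Real.add_one_le_exp (1 : ℝ)
        linarith
      have h7 : Real.exp 1 ^ 4 = Real.exp 4 := by
        rw [← Real.exp_nat_mul]; norm_num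
      have h8 : (16 : ℝ) ≤ Real.exp 4 := by
        rw [← h7]
        calc (16 : ℝ) = 2 ^ 4 := by norm_num
          _ ≤ Real.exp 1 ^ 4 := pow_le_pow_left₀ (by norm_num) h6 4
      exact h8.trans (Real.exp_le_exp.2 (by linarith))
    calc Em w (fun x => Real.cosh ⟪t, x⟫) ^ 2 ≤ (Real.exp (p / 2) * 4) ^ 2 :=
          pow_le_pow_left₀ hA0 h1 2
      _ = 16 * Real.exp p := by
          rw [mul_pow, ← Real.exp_nat_mul]
          push_cast
          rw [show (2 : ℝ) * (p / 2) = p by ring]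
          ring
      _ ≤ Real.exp (5 * p) * Real.exp p := mul_le_mul_of_nonneg_right h5 (Real.exp_pos _).le
      _ = Real.exp (3 * a ^ 2 * l ^ 2) := by
          rw [← Real.exp_add, hp]
          congr 1
          ring

/-- the centred weight is sub-Gaussian -/
theorem sg_centred (hw : Wt c R w) (ha : 0 < a)
    (hG : ∀ θ : E n, ‖θ‖ = 1 → Em w (fun x => Real.exp (⟪x, θ⟫ ^ 2 / a ^ 2)) ≤ 4) :
    SG (3 * a ^ 2) (nm (trw (bary w) w)) := by
  intro t
  have hb := wt_trw hw (bary w)
  have hE : EG fun x : E n => Real.exp ⟪t, x⟫ := by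
    refine ⟨by fun_prop, 1, ‖t‖, zero_le_one, norm_nonneg _, fun x => ?_⟩
    rw [one_mul, abs_of_pos (Real.exp_pos _)]
    exact Real.exp_le_exp.2 (real_inner_le_norm _ _)
  refine ⟨integrable_nm hb.ex hE, ?_⟩
  rw [int_nm hb.ex]
  have e0 : (fun x : E n => Real.exp ⟪t, x⟫) =
      fun x => (fun y => Real.exp (-⟪t, bary w⟫) * Real.exp ⟪t, y⟫) (x + bary w) := by
    funext x
    beta_reduce
    rw [← Real.exp_add, inner_add_right]
    congr 1
    ring
  rw [e0, Em_trw (bary w) w (fun y => Real.exp (-⟪t, bary w⟫) * Real.exp ⟪t, y⟫), Em_smul]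
  set m := ⟪t, bary w⟫ with hm
  have hmE : m = Em w fun x => ⟪t, x⟫ := inner_bary hw t
  set P := Em w fun y => Real.exp ⟪t, y⟫ with hP
  set Q := Em w fun y => Real.exp (-⟪t, y⟫) with hQ
  have cP : Continuous fun y : E n => Real.exp ⟪t, y⟫ := by fun_prop
  have cQ : Continuous fun y : E n => Real.exp (-⟪t, y⟫) := by fun_prop
  have cL : Continuous fun y : E n => ⟪t, y⟫ := by fun_prop
  have hP0 : 0 ≤ P := by
    rw [hP]; unfold Em
    exact div_nonneg (integral_nonneg fun x => mul_nonneg (Real.exp_pos _).le (hw.nonneg x))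
      hw.pos.le
  have hA : Em w (fun x => Real.cosh ⟪t, x⟫) = (P + Q) / 2 := by
    have e : (fun x : E n => Real.cosh ⟪t, x⟫) =
        fun x => (1 / 2) * Real.exp ⟪t, x⟫ + (1 / 2) * Real.exp (-⟪t, x⟫) := by
      funext x
      rw [Real.cosh_eq]; ring
    rw [e, Em_lin hw cP cQ, ← hP, ← hQ]
    ring
  have hJ : Real.exp (-m) ≤ Q := by
    have h1 : Em w (fun x => (Real.exp (-m) * (1 + m)) * 1 + (-Real.exp (-m)) * ⟪t, x⟫) ≤ Q := by
      refine Em_mono' hw (by fun_prop) cQ fun x => ?_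
      have h2 := Real.add_one_le_exp (m - ⟪t, x⟫)
      have h3 : Real.exp (-⟪t, x⟫) = Real.exp (-m) * Real.exp (m - ⟪t, x⟫) := by
        rw [← Real.exp_add]; congr 1; ring
      rw [h3]
      nlinarith [Real.exp_pos (-m)]
    rw [Em_lin hw (F := fun _ => 1) continuous_const cL, Em_one hw, ← hmE] at h1
    nlinarith
  have hB := cosh_bound hw ha hG t
  rw [hA] at hB
  calc Real.exp (-m) * P ≤ Q * P := mul_le_mul_of_nonneg_right hJ hP0
    _ ≤ ((P + Q) / 2) ^ 2 := by nlinarith [sq_nonneg (P - Q)]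
    _ ≤ _ := hB

end Crest.Agent.R201.Fin293
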