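import Crest.Agent.R201.Fin2_293
import Crest.Agent.R201.Noi2_402
import Crest.Prelude

/-!
# R201 (S0308), outer reduction, part 3: `MainLS` implies the literal statement of S0308
(owner: helper293)
-/

set_option autoImplicit false
open MeasureTheory Matrix Filter Topology
open scoped ContDiff RealInnerProductSpace NNReal ENNReal

namespace Crest.Agent.R201.Fin293

open Crest.Agent.R201 Crest.Agent.R144.Fi865 Crest.Agent.R201.An Crest.Agent.R201.DVQ402
open Crest.Agent.R201.Noi402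

variable {n : ℕ} {ρ w F G : E n → ℝ} {a c R κ K : ℝ}

lemma int_mu {μ : Measure (E n)} (mρ : Measurable ρ) (hρ : ∀ x, 0 ≤ ρ x)
    (hμ : μ = volume.withDensity (fun x => ENNReal.ofReal (ρ x))) (F : E n → ℝ) :
    ∫ x, F x ∂μ = ∫ x, F x * ρ x := by
  rw [hμ, integral_withDensity_eq_integral_toReal_smul mρ.ennreal_ofReal
    (ae_of_all _ fun x => ENNReal.ofReal_lt_top)]
  refine integral_congr_ae (ae_of_all _ fun y => ?_)
  simp only [smul_eq_mul]
  rw [ENNReal.toReal_ofReal (hρ y)]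
  ring

lemma dens_of {μ : Measure (E n)} (mρ : Measurable ρ) (hρ : ∀ x, 0 ≤ ρ x)
    (hc : Convex ℝ {x | 0 < ρ x}) (hl : ConcaveOn ℝ {x | 0 < ρ x} (fun x => Real.log (ρ x)))
    (hμ : μ = volume.withDensity (fun x => ENNReal.ofReal (ρ x))) (hp : IsProbabilityMeasure μ) :
    Dens ρ := by
  have h1 : ∫⁻ x, ENNReal.ofReal (ρ x) = 1 := by
    have := hp.measure_univ
    rw [hμ, withDensity_apply _ MeasurableSet.univ, Measure.restrict_univ] at this
    exact this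
  have hi : Integrable ρ := by
    refine ⟨mρ.aestronglyMeasurable, ?_⟩
    rw [hasFiniteIntegral_iff_ofReal (Eventually.of_forall hρ), h1]
    exact ENNReal.one_lt_top
  refine ⟨mρ, hρ, hc, hl, hi, ?_⟩
  rw [integral_eq_lintegral_of_nonneg_ae (Eventually.of_forall hρ) mρ.aestronglyMeasurable, h1]
  simp

lemma bdd_int (h : Dens ρ) (mF : Measurable F) {B : ℝ} (hB : ∀ x, |F x| ≤ B) :
    Integrable fun x => F x * ρ x := by
  refine (h.int.const_mul B).mono' (mF.mul h.meas).aestronglyMeasurable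
    (Eventually.of_forall fun x => ?_)
  rw [norm_mul, Real.norm_eq_abs, Real.norm_of_nonneg (h.nonneg x)]
  exact mul_le_mul_of_nonneg_right (hB x) (h.nonneg x)

/-- the truncations satisfy the `ψ₂` bound with `4` -/
lemma psi_tw {μ : Measure (E n)} (h : Dens ρ)
    (hμ : μ = volume.withDensity (fun x => ENNReal.ofReal (ρ x)))
    {θ : E n} (hθ : ∫⁻ x, ENNReal.ofReal (Real.exp (inner ℝ x θ ^ 2 / a ^ 2)) ∂μ ≤ 2)
    {N : ℕ} (hN : (1 / 2 : ℝ) ≤ ∫ x, tw ρ N x) :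
    Em (tw ρ N) (fun x => Real.exp (⟪x, θ⟫ ^ 2 / a ^ 2)) ≤ 4 := by
  set Φ : E n → ℝ := fun x => Real.exp (⟪x, θ⟫ ^ 2 / a ^ 2) with hΦ
  have mΦ : Measurable Φ := by
    have : Continuous Φ := by rw [hΦ]; fun_prop
    exact this.measurable
  have hΦ0 : ∀ x, 0 ≤ Φ x := fun x => (Real.exp_pos _).le
  have h1 : ∫⁻ x, ENNReal.ofReal (Φ x * ρ x) ≤ 2 := by
    rw [hμ, lintegral_withDensity_eq_lintegral_mul _ h.meas.ennreal_ofReal mΦ.ennreal_ofReal] at hθ
    refine le_trans (le_of_eq (lintegral_congr fun x => ?_)) hθ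
    rw [Pi.mul_apply, ← ENNReal.ofReal_mul (h.nonneg x), mul_comm]
  have hi : Integrable fun x => Φ x * ρ x := by
    refine ⟨(mΦ.mul h.meas).aestronglyMeasurable, ?_⟩
    rw [hasFiniteIntegral_iff_ofReal
      (Eventually.of_forall fun x => mul_nonneg (hΦ0 x) (h.nonneg x))]
    exact h1.trans_lt (by simp)
  have h2 : ∫ x, Φ x * ρ x ≤ 2 := by
    rw [integral_eq_lintegral_of_nonneg_ae
      (Eventually.of_forall fun x => mul_nonneg (hΦ0 x) (h.nonneg x)) hi.aestronglyMeasurable]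
    have := ENNReal.toReal_mono (by simp) h1
    simpa using this
  have hw := tw_wt h hN
  have h3 : ∫ x, Φ x * tw ρ N x ≤ ∫ x, Φ x * ρ x := by
    refine integral_mono (int_cont hw (by rw [hΦ]; fun_prop)) hi fun x => ?_
    exact mul_le_mul_of_nonneg_left (tw_le h N x) (hΦ0 x)
  unfold Em
  rw [div_le_iff₀ hw.pos]
  linarith

/-- **the outer reduction** -/
theorem final (hM : MainLS) :
    ∃ C : ℝ, ∀ (n : ℕ), 1 ≤ n →
      ∀ (ρ : EuclideanSpace ℝ (Fin n) → ℝ) (μ : Measure (EuclideanSpace ℝ (Fin n))) (a : ℝ),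
        Measurable ρ → (∀ x, 0 ≤ ρ x) → Convex ℝ {x | 0 < ρ x} →
        ConcaveOn ℝ {x | 0 < ρ x} (fun x => Real.log (ρ x)) →
        μ = volume.withDensity (fun x => ENNReal.ofReal (ρ x)) → IsProbabilityMeasure μ →
        ∫ x, x ∂μ = 0 → 0 < a →
        (∀ θ : EuclideanSpace ℝ (Fin n), ‖θ‖ = 1 →
          ∫⁻ x, ENNReal.ofReal (Real.exp (inner ℝ x θ ^ 2 / a ^ 2)) ∂μ ≤ 2) →
        ∀ f : EuclideanSpace ℝ (Fin n) → ℝ, ContDiff ℝ ∞ f → HasCompactSupport f →
          ∫ x, f x ^ 2 * Real.log (f x ^ 2) ∂μ - (∫ x, f x ^ 2 ∂μ) * Real.log (∫ x, f x ^ 2 ∂μ) ≤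
            C * a ^ 2 * ∫ x, ‖fderiv ℝ f x‖ ^ 2 ∂μ := by
  obtain ⟨C, hC0, hC⟩ := hM
  refine ⟨6 * C, fun n _ ρ μ a mρ hρ hconv hconc hμ hp _ ha hψ f hf hfs => ?_⟩
  have hD := dens_of mρ hρ hconv hconc hμ hp
  -- `f` is CB
  obtain ⟨B1, hB1⟩ := hfs.exists_bound_of_continuous hf.continuous
  have cfd : Continuous (fderiv ℝ f) := hf.continuous_fderiv (by simp)
  obtain ⟨B2, hB2⟩ := (hfs.fderiv (𝕜 := ℝ)).exists_bound_of_continuous cfd
  have hB1' : ∀ x, |f x| ≤ B1 := fun x => by simpa using hB1 x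
  have hcb : CB f := by
    refine ⟨hf.of_le (by exact_mod_cast le_top), max B1 B2, fun x => ⟨(hB1' x).trans
      (le_max_left _ _), fun k => ?_⟩⟩
    refine le_trans ?_ (le_max_right _ _)
    unfold pd
    have h1 := (fderiv ℝ f x).le_opNorm (EuclideanSpace.single k (1 : ℝ))
    rw [EuclideanSpace.norm_single] at h1
    simp only [norm_one, mul_one] at h1
    exact h1.trans (hB2 x)
  -- inequality for the truncations
  have key : ∀ᶠ N in atTop,
      Em (tw ρ N) (fun x => f x ^ 2 * Real.log (f x ^ 2)) -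
        Em (tw ρ N) (fun x => f x ^ 2) * Real.log (Em (tw ρ N) fun x => f x ^ 2) ≤
      6 * C * a ^ 2 * Em (tw ρ N) (fun x => ‖fderiv ℝ f x‖ ^ 2) := by
    filter_upwards [tw_mass_ge hD] with N hN
    have hw := tw_wt hD hN
    have hsg := sg_centred hw ha (fun θ hθ => psi_tw hD hμ (hψ θ hθ) hN)
    have hL := hC n _ _ (3 * a ^ 2) _ (by positivity) (by positivity)
      (wt_trw hw (bary (tw ρ N))) hsg
    have h1 := LS_sq hw.ex (by positivity) (LS_trw _ hL) hcb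
    refine h1.trans (le_of_eq ?_)
    ring
  -- limits
  have hB1n : 0 ≤ B1 := (abs_nonneg _).trans (hB1' 0)
  have c1 : Continuous fun x => f x ^ 2 * Real.log (f x ^ 2) :=
    Real.continuous_mul_log.comp (hf.continuous.pow 2)
  have c2 : Continuous fun x => f x ^ 2 := hf.continuous.pow 2
  have c3 : Continuous fun x => ‖fderiv ℝ f x‖ ^ 2 := cfd.norm.pow 2
  have b2 : ∀ x, |f x ^ 2| ≤ B1 ^ 2 := fun x => by
    rw [abs_pow]; exact pow_le_pow_left₀ (abs_nonneg _) (hB1' x) 2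
  have b3 : ∀ x, |‖fderiv ℝ f x‖ ^ 2| ≤ B2 ^ 2 := fun x => by
    rw [abs_pow, abs_norm]; exact pow_le_pow_left₀ (norm_nonneg _) (hB2 x) 2
  obtain ⟨B3, hB3⟩ := (isCompact_Icc (a := (0 : ℝ)) (b := B1 ^ 2)).exists_bound_of_continuousOn
    (Real.continuous_mul_log.continuousOn)
  have b1 : ∀ x, |f x ^ 2 * Real.log (f x ^ 2)| ≤ B3 := fun x => by
    have := hB3 (f x ^ 2) ⟨sq_nonneg _, by rw [← abs_of_nonneg (sq_nonneg (f x))]; exact b2 x⟩
    simpa using this
  have l1 := tw_Em hD c1.measurable (bdd_int hD c1.measurable b1)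
  have l2 := tw_Em hD c2.measurable (bdd_int hD c2.measurable b2)
  have l3 := tw_Em hD c3.measurable (bdd_int hD c3.measurable b3)
  have l4 : Tendsto (fun N => Em (tw ρ N) (fun x => f x ^ 2) *
      Real.log (Em (tw ρ N) fun x => f x ^ 2)) atTop
      (𝓝 ((∫ x, f x ^ 2 * ρ x) * Real.log (∫ x, f x ^ 2 * ρ x))) :=
    (Real.continuous_mul_log.tendsto _).comp l2
  have hfin := le_of_tendsto_of_tendsto (l1.sub l4) (l3.const_mul (6 * C * a ^ 2)) key
  rw [int_mu mρ hρ hμ, int_mu mρ hρ hμ (fun x => f x ^ 2),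
    int_mu mρ hρ hμ (fun x => ‖fderiv ℝ f x‖ ^ 2)]
  exact hfin

end Crest.Agent.R201.Fin293
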