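import Crest.Agent.R201.DVQ_402

/-!
# R201 (S0308): `ψ₂` bound implies a sub-Gaussian Laplace transform  (helper402)

* `sg_real`    : `E Y = 0`, `E exp (Y²/b²) ≤ K` ⊢ `E exp (l Y) ≤ exp (K b² l²)`.
* `sg_of_psi2` : `E exp (⟨x,θ⟩²/a²) ≤ K` for unit `θ` ⊢
  `E exp ⟨t, x - E x⟩ ≤ exp (2 K² a² |t|²)`.
-/

set_option autoImplicit false
open MeasureTheory ProbabilityTheory Matrix
open scoped BigOperators ENNReal RealInnerProductSpace

namespace Crest.Agent.R201.DVQ402

/-- `e^x ≤ x + e^{x²}` -/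
theorem exp_le_add_exp_sq (x : ℝ) : Real.exp x ≤ x + Real.exp (x ^ 2) := by
  rcases le_or_gt |x| 1 with h | h
  · have h1 := (abs_le.1 (Real.abs_exp_sub_one_sub_id_le h)).2
    have h2 := Real.add_one_le_exp (x ^ 2)
    linarith
  · rcases le_or_gt 0 x with h0 | h0
    · rw [abs_of_nonneg h0] at h
      have h1 : Real.exp x ≤ Real.exp (x ^ 2) := Real.exp_le_exp.2 (by nlinarith)
      linarith
    · rw [abs_of_neg h0] at h
      have h1 : Real.exp x ≤ 1 := Real.exp_le_one_iff.2 h0.le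
      have h2 := Real.add_one_le_exp (x ^ 2)
      nlinarith

section Real1

variable {α : Type*} [MeasurableSpace α] {μ : Measure α} [IsProbabilityMeasure μ]

/-- sub-Gaussian Laplace transform of a centred variable -/
theorem sg_real {Y : α → ℝ} {b K : ℝ} (hb : 0 < b) (hY : Measurable Y) (hi : Integrable Y μ)
    (h0 : ∫ x, Y x ∂μ = 0) (hI : Integrable (fun x => Real.exp (Y x ^ 2 / b ^ 2)) μ)
    (hK : ∫ x, Real.exp (Y x ^ 2 / b ^ 2) ∂μ ≤ K) (l : ℝ) :
    Integrable (fun x => Real.exp (l * Y x)) μ ∧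
      ∫ x, Real.exp (l * Y x) ∂μ ≤ Real.exp (K * b ^ 2 * l ^ 2) := by
  have hK1 : 1 ≤ K := by
    have h1 : ∫ _ : α, (1 : ℝ) ∂μ ≤ ∫ x, Real.exp (Y x ^ 2 / b ^ 2) ∂μ :=
      integral_mono (integrable_const _) hI fun x => Real.one_le_exp (by positivity)
    simp at h1
    linarith
  -- `e^{lY} ≤ e^{l²b²/4} e^{Y²/b²}`
  have hdom : ∀ x, Real.exp (l * Y x) ≤
      Real.exp (l ^ 2 * b ^ 2 / 4) * Real.exp (Y x ^ 2 / b ^ 2) := by
    intro x
    rw [← Real.exp_add]
    apply Real.exp_le_exp.2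
    have : 0 ≤ (l * b / 2 - Y x / b) ^ 2 := sq_nonneg _
    have e : (l * b / 2 - Y x / b) ^ 2 = l ^ 2 * b ^ 2 / 4 + Y x ^ 2 / b ^ 2 - l * Y x := by
      field_simp
      ring
    linarith
  have hint : Integrable (fun x => Real.exp (l * Y x)) μ := by
    refine (hI.const_mul (Real.exp (l ^ 2 * b ^ 2 / 4))).mono' (by fun_prop) (ae_of_all _ fun x => ?_)
    rw [Real.norm_of_nonneg (Real.exp_pos _).le]
    exact hdom x
  refine ⟨hint, ?_⟩
  rcases le_or_gt (l ^ 2 * b ^ 2) 1 with h | h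
  · set p := l ^ 2 * b ^ 2 with hp
    have hp0 : 0 ≤ p := by positivity
    -- convexity `e^{pZ} ≤ 1 - p + p e^Z`
    have hconv : ∀ x, Real.exp ((l * Y x) ^ 2) ≤ (1 - p) + p * Real.exp (Y x ^ 2 / b ^ 2) := by
      intro x
      have h1 := convexOn_exp.2 (Set.mem_univ (0 : ℝ)) (Set.mem_univ (Y x ^ 2 / b ^ 2))
        (by linarith : 0 ≤ 1 - p) hp0 (by ring)
      simp only [smul_eq_mul, mul_zero, zero_add, Real.exp_zero, mul_one] at h1
      have e : (l * Y x) ^ 2 = p * (Y x ^ 2 / b ^ 2) := by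
        rw [hp]; field_simp
      rw [e]
      exact h1
    have hint2 : Integrable (fun x => l * Y x + ((1 - p) + p * Real.exp (Y x ^ 2 / b ^ 2))) μ :=
      (hi.const_mul l).add ((integrable_const _).add (hI.const_mul p))
    calc ∫ x, Real.exp (l * Y x) ∂μ
        ≤ ∫ x, (l * Y x + ((1 - p) + p * Real.exp (Y x ^ 2 / b ^ 2))) ∂μ := by
          refine integral_mono hint hint2 fun x => ?_
          have := exp_le_add_exp_sq (l * Y x)
          have := hconv x
          simp only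
          linarith
      _ = (1 - p) + p * ∫ x, Real.exp (Y x ^ 2 / b ^ 2) ∂μ := by
          have j : Integrable (fun x => (1 - p) + p * Real.exp (Y x ^ 2 / b ^ 2)) μ :=
            (integrable_const _).add (hI.const_mul p)
          rw [integral_add (hi.const_mul l) j,
            integral_const_mul, h0, integral_add (integrable_const _) (hI.const_mul p),
            integral_const_mul]
          simp
      _ ≤ p * K + 1 := by
          have := mul_le_mul_of_nonneg_left hK hp0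
          linarith
      _ ≤ Real.exp (K * b ^ 2 * l ^ 2) := by
          have := Real.add_one_le_exp (p * K)
          refine this.trans (le_of_eq ?_)
          congr 1
          rw [hp]; ring
  · calc ∫ x, Real.exp (l * Y x) ∂μ
        ≤ ∫ x, Real.exp (l ^ 2 * b ^ 2 / 4) * Real.exp (Y x ^ 2 / b ^ 2) ∂μ :=
          integral_mono hint (hI.const_mul _) hdom
      _ = Real.exp (l ^ 2 * b ^ 2 / 4) * ∫ x, Real.exp (Y x ^ 2 / b ^ 2) ∂μ := integral_const_mul _ _
      _ ≤ Real.exp (l ^ 2 * b ^ 2 / 4) * Real.exp (K - 1) := by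
          refine mul_le_mul_of_nonneg_left (hK.trans ?_) (Real.exp_pos _).le
          have := Real.add_one_le_exp (K - 1)
          linarith
      _ ≤ Real.exp (K * b ^ 2 * l ^ 2) := by
          rw [← Real.exp_add]
          apply Real.exp_le_exp.2
          nlinarith

end Real1

variable {n : ℕ}

/-- **`ψ₂` implies sub-Gaussian** -/
theorem sg_of_psi2 {μ : Measure (E n)} [IsProbabilityMeasure μ] {a K : ℝ} (ha : 0 < a)
    (hi : ∀ θ : E n, ‖θ‖ = 1 → Integrable (fun x => Real.exp (⟪x, θ⟫ ^ 2 / a ^ 2)) μ)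
    (hK : ∀ θ : E n, ‖θ‖ = 1 → ∫ x, Real.exp (⟪x, θ⟫ ^ 2 / a ^ 2) ∂μ ≤ K) (t : E n) :
    Integrable (fun x : E n => ⟪t, x⟫) μ ∧
    Integrable (fun x => Real.exp (⟪t, x⟫ - ∫ y, ⟪t, y⟫ ∂μ)) μ ∧
      ∫ x, Real.exp (⟪t, x⟫ - ∫ y, ⟪t, y⟫ ∂μ) ∂μ ≤ Real.exp (2 * K ^ 2 * a ^ 2 * ‖t‖ ^ 2) := by
  rcases eq_or_ne t 0 with rfl | ht
  · simp
  set r := ‖t‖ with hr
  have hr0 : 0 < r := norm_pos_iff.2 ht
  set θ : E n := r⁻¹ • t with hθ
  have hθ1 : ‖θ‖ = 1 := by
    rw [hθ, norm_smul, norm_inv, norm_norm]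
    exact inv_mul_cancel₀ hr0.ne'
  have htθ : ∀ x : E n, ⟪t, x⟫ = r * ⟪x, θ⟫ := by
    intro x
    rw [hθ, real_inner_smul_right, ← mul_assoc, mul_inv_cancel₀ hr0.ne', one_mul, real_inner_comm]
  set Y0 : E n → ℝ := fun x => ⟪x, θ⟫ with hY0
  have mY0 : Measurable Y0 := (by fun_prop : Continuous Y0).measurable
  have I1 := hi θ hθ1
  have K1 := hK θ hθ1
  -- integrability of `Y0²` and of `Y0`
  have iY2 : Integrable (fun x => Y0 x ^ 2) μ := by
    refine (I1.const_mul (a ^ 2)).mono' (by fun_prop) (ae_of_all _ fun x => ?_)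
    rw [Real.norm_of_nonneg (sq_nonneg _)]
    have h1 := Real.add_one_le_exp (Y0 x ^ 2 / a ^ 2)
    have h2 : Y0 x ^ 2 = a ^ 2 * (Y0 x ^ 2 / a ^ 2) := by field_simp
    rw [h2]
    refine mul_le_mul_of_nonneg_left ?_ (by positivity)
    rw [← h2]
    linarith
  have iY0 : Integrable Y0 μ := by
    refine ((integrable_const (1 : ℝ)).add iY2).mono' mY0.aestronglyMeasurable
      (ae_of_all _ fun x => ?_)
    rw [Real.norm_eq_abs]
    simp only [Pi.add_apply]
    rw [← sq_abs (Y0 x)]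
    nlinarith [sq_nonneg (|Y0 x| - 1), abs_nonneg (Y0 x)]
  have iT : Integrable (fun x : E n => ⟪t, x⟫) μ := by
    simp only [htθ]
    exact iY0.const_mul r
  refine ⟨iT, ?_⟩
  set m := ∫ x, Y0 x ∂μ with hm
  have hKp : 1 ≤ K := by
    have h1 : ∫ _ : E n, (1 : ℝ) ∂μ ≤ ∫ x, Real.exp (⟪x, θ⟫ ^ 2 / a ^ 2) ∂μ :=
      integral_mono (integrable_const _) I1 fun x => Real.one_le_exp (by positivity)
    simp at h1
    linarith
  -- `exp (m²/a²) ≤ K`
  have hm2 : Real.exp (m ^ 2 / a ^ 2) ≤ K := by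
    have h1 : m ^ 2 ≤ ∫ x, Y0 x ^ 2 ∂μ := by
      have h2 : 0 ≤ ∫ x, (Y0 x - m) ^ 2 ∂μ := integral_nonneg fun x => sq_nonneg _
      have e : ∀ x, (Y0 x - m) ^ 2 = Y0 x ^ 2 - 2 * m * Y0 x + m ^ 2 := fun x => by ring
      simp only [e] at h2
      have e1 : ∫ x, (Y0 x ^ 2 - 2 * m * Y0 x + m ^ 2) ∂μ = (∫ x, Y0 x ^ 2 ∂μ) - 2 * m * m + m ^ 2 := by
        have j1 : Integrable (fun x => Y0 x ^ 2 - 2 * m * Y0 x) μ := iY2.sub (iY0.const_mul _)
        rw [integral_add j1 (integrable_const _), integral_sub iY2 (iY0.const_mul _),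
          integral_const_mul]
        simp [hm]
      rw [e1] at h2
      nlinarith
    have hJ := ConvexOn.map_integral_le (μ := μ) (f := fun x => Y0 x ^ 2 / a ^ 2) convexOn_exp
      Real.continuous_exp.continuousOn isClosed_univ (ae_of_all _ fun _ => Set.mem_univ _)
      (iY2.div_const _) I1
    refine le_trans (Real.exp_le_exp.2 ?_) (hJ.trans K1)
    rw [integral_div]
    exact div_le_div_of_nonneg_right h1 (by positivity)
  -- centred variable
  set Y : E n → ℝ := fun x => Y0 x - m with hY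
  have mY : Measurable Y := mY0.sub measurable_const
  have iY : Integrable Y μ := iY0.sub (integrable_const _)
  have zY : ∫ x, Y x ∂μ = 0 := by
    rw [hY, integral_sub iY0 (integrable_const _)]
    simp [hm]
  have ha2 : (0 : ℝ) < √2 * a := by positivity
  have hsq : (√2 * a) ^ 2 = 2 * a ^ 2 := by
    rw [mul_pow, Real.sq_sqrt (by norm_num)]
  have hdomY : ∀ x, Real.exp (Y x ^ 2 / (√2 * a) ^ 2) ≤
      Real.exp (m ^ 2 / a ^ 2) * Real.exp (⟪x, θ⟫ ^ 2 / a ^ 2) := by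
    intro x
    rw [← Real.exp_add, hsq]
    apply Real.exp_le_exp.2
    rw [← add_div, div_le_div_iff₀ (by positivity) (by positivity)]
    have : Y x ^ 2 ≤ 2 * (m ^ 2 + Y0 x ^ 2) := by
      simp only [hY]
      nlinarith [sq_nonneg (Y0 x + m)]
    nlinarith [this, sq_nonneg a]
  have IY : Integrable (fun x => Real.exp (Y x ^ 2 / (√2 * a) ^ 2)) μ := by
    refine (I1.const_mul (Real.exp (m ^ 2 / a ^ 2))).mono' (by fun_prop) (ae_of_all _ fun x => ?_)
    rw [Real.norm_of_nonneg (Real.exp_pos _).le]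
    exact hdomY x
  have KY : ∫ x, Real.exp (Y x ^ 2 / (√2 * a) ^ 2) ∂μ ≤ K ^ 2 := by
    calc ∫ x, Real.exp (Y x ^ 2 / (√2 * a) ^ 2) ∂μ
        ≤ ∫ x, Real.exp (m ^ 2 / a ^ 2) * Real.exp (⟪x, θ⟫ ^ 2 / a ^ 2) ∂μ :=
          integral_mono IY (I1.const_mul _) hdomY
      _ = Real.exp (m ^ 2 / a ^ 2) * ∫ x, Real.exp (⟪x, θ⟫ ^ 2 / a ^ 2) ∂μ := integral_const_mul _ _
      _ ≤ K * K := by
          refine mul_le_mul hm2 K1 (integral_nonneg fun x => (Real.exp_pos _).le) (by linarith)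
      _ = K ^ 2 := by ring
  have key := sg_real ha2 mY iY zY IY KY r
  have e1 : ∀ x : E n, ⟪t, x⟫ - ∫ y, ⟪t, y⟫ ∂μ = r * Y x := by
    intro x
    have : ∫ y, ⟪t, y⟫ ∂μ = r * m := by
      simp only [htθ]
      rw [integral_const_mul]
    rw [this, htθ]
    simp only [hY, hY0]
    ring
  simp only [e1]
  refine ⟨key.1, key.2.trans (le_of_eq ?_)⟩
  rw [hsq]
  congr 1
  ring

/-- mean-zero version, `lintegral` hypothesis as in S0308 -/
theorem SG_of_psi2 {μ : Measure (E n)} [IsProbabilityMeasure μ] {a : ℝ} (ha : 0 < a)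
    (h0 : ∫ x, x ∂μ = 0)
    (hK : ∀ θ : E n, ‖θ‖ = 1 →
      ∫⁻ x, ENNReal.ofReal (Real.exp (⟪x, θ⟫ ^ 2 / a ^ 2)) ∂μ ≤ 2) : SG (8 * a ^ 2) μ := by
  have hi : ∀ θ : E n, ‖θ‖ = 1 → Integrable (fun x => Real.exp (⟪x, θ⟫ ^ 2 / a ^ 2)) μ := by
    intro θ hθ
    refine ⟨(by fun_prop : Measurable fun x : E n => Real.exp (⟪x, θ⟫ ^ 2 / a ^ 2)).aestronglyMeasurable, ?_⟩
    rw [hasFiniteIntegral_iff_ofReal (Filter.Eventually.of_forall fun x => (Real.exp_pos _).le)]
    exact (hK θ hθ).trans_lt (by norm_num)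
  have hK' : ∀ θ : E n, ‖θ‖ = 1 → ∫ x, Real.exp (⟪x, θ⟫ ^ 2 / a ^ 2) ∂μ ≤ 2 := by
    intro θ hθ
    have h1 := hK θ hθ
    rw [← ofReal_integral_eq_lintegral_ofReal (hi θ hθ)
      (Filter.Eventually.of_forall fun x => (Real.exp_pos _).le)] at h1
    have h2 : (2 : ℝ≥0∞) ≤ ENNReal.ofReal 2 := by norm_num
    exact (ENNReal.ofReal_le_ofReal_iff (by norm_num)).1 (h1.trans h2)
  intro t
  obtain ⟨j1, j2, j3⟩ := sg_of_psi2 ha hi hK' t
  -- mean zero
  have hz : ∫ y, ⟪t, y⟫ ∂μ = 0 := by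
    by_cases hid : Integrable (fun x : E n => x) μ
    · rw [integral_inner hid, h0, inner_zero_right]
    · exfalso
      apply hid
      have hc : ∀ k, Integrable (fun x : E n => x k) μ := by
        intro k
        obtain ⟨j1, -⟩ := sg_of_psi2 ha hi hK' (EuclideanSpace.single k (1 : ℝ))
        refine j1.congr (Filter.Eventually.of_forall fun x => ?_)
        simp [EuclideanSpace.inner_single_left]
      have hs : Integrable (fun x : E n => ∑ k, ‖x k‖) μ :=
        integrable_finsetSum _ fun k _ => (hc k).norm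
      refine hs.mono' (by fun_prop) (Filter.Eventually.of_forall fun x => ?_)
      have e : x = ∑ k, x k • (EuclideanSpace.single k (1 : ℝ) : E n) := by
        ext i
        simp [Finset.sum_apply, Pi.single_apply]
      calc ‖x‖ = ‖∑ k, x k • (EuclideanSpace.single k (1 : ℝ) : E n)‖ := by rw [← e]
        _ ≤ ∑ k, ‖x k • (EuclideanSpace.single k (1 : ℝ) : E n)‖ := norm_sum_le _ _
        _ = ∑ k, ‖x k‖ := by
            refine Finset.sum_congr rfl fun k _ => ?_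
            rw [norm_smul]
            simp
  rw [hz] at j2 j3
  simp only [sub_zero] at j2 j3
  refine ⟨j2, j3.trans (le_of_eq ?_)⟩
  congr 1
  ring

end Crest.Agent.R201.DVQ402
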