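import Crest.Agent.R201.Noi2_402
import Crest.Agent.R201.Psi2_402

/-!
# R201 (S0308): from the key step to the linear bound on the log-Sobolev constant  (helper402)

* `Key κ₀`    : the statement delivered by the inner blocks.
* `ls_of_key` : `Key κ₀ → ∀ c > 0, Wt c R w → SG κ (nm w) → LS w (κ / κ₀)`.
-/

set_option autoImplicit false
open MeasureTheory Matrix Filter Topology
open scoped ContDiff RealInnerProductSpace NNReal

namespace Crest.Agent.R201.Noi402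

open Crest.Agent.R201 Crest.Agent.R144.Fi865 Crest.Agent.R201.An Crest.Agent.R201.DVQ402

variable {n : ℕ} {w ρ F G f : E n → ℝ} {s c K l a κ R : ℝ}

/-- scaling of the sub-Gaussian constant -/
lemma SG_scl (hw : Ex w) (hl : 0 < l) (h : SG κ (nm w)) : SG (κ / l ^ 2) (nm (An.scl l w)) := by
  have e0 : An.scl l w = fun x => (1 : ℝ) * w (l • x) := by funext x; unfold An.scl; ring
  have hw' : Ex (An.scl l w) := by rw [e0]; exact hw.scl hl one_pos
  intro t
  refine ⟨integrable_nm hw' (EG_exp_inner t), ?_⟩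
  have h1 := (h (l⁻¹ • t)).2
  rw [int_nm hw] at h1
  rw [int_nm hw', e0, Em_scl hl one_pos]
  have e1 : (fun x : E n => Real.exp ⟪t, l⁻¹ • x⟫) = fun x => Real.exp ⟪l⁻¹ • t, x⟫ := by
    funext x
    rw [real_inner_smul_left, real_inner_smul_right]
  rw [e1]
  refine h1.trans (le_of_eq ?_)
  rw [norm_smul, Real.norm_of_nonneg (inv_pos.2 hl).le, mul_pow, inv_pow]
  congr 1
  field_simp

/-- log-Sobolev inequality and scaling back -/
lemma LS_scl_iff (hw : Ex w) (hl : 0 < l) : LS (An.scl l w) (K / l ^ 2) ↔ LS w K := by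
  have e0 : An.scl l w = fun x => (1 : ℝ) * w (l • x) := by funext x; unfold An.scl; ring
  constructor
  · intro h
    have h1 := LS_scl (inv_pos.2 hl) one_pos h
    have e1 : (fun x => (1 : ℝ) * An.scl l w (l⁻¹ • x)) = w := by
      funext x
      unfold An.scl
      rw [smul_inv_smul₀ hl.ne', one_mul]
    rw [e1] at h1
    have e2 : K / l ^ 2 / (l⁻¹) ^ 2 = K := by field_simp
    rwa [e2] at h1
  · intro h
    rw [e0]
    exact LS_scl hl one_pos h

/-- what the inner blocks deliver -/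
def Key (κ₀ : ℝ) : Prop :=
  ∀ (n : ℕ) (c R : ℝ) (w : E n → ℝ), 0 < c → Wt c R w → SG κ₀ (nm w) → LS w 1 →
    ∃ δ > 0, δ ≤ 1 ∧ LS w (1 - δ)

/-- **linear bound on the log-Sobolev constant** -/
theorem ls_of_key {κ₀ : ℝ} (hκ₀ : 0 < κ₀) (key : Key κ₀) (hc : 0 < c) (hw : Wt c R w)
    (hκ : 0 ≤ κ) (h : SG κ (nm w)) : LS w (κ / κ₀) := by
  have hfin : ∃ K, 0 ≤ K ∧ LS w K := ⟨1 / c, by positivity, LS_slc hw.ex hc hw.slc⟩
  have hC := LS_CLS hw.ex hfin
  have hC0 := CLS_nonneg w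
  rcases le_or_gt (CLS w) (κ / κ₀) with hle | hgt
  · exact LS_mono hw.ex hC hle
  exfalso
  set C := CLS w with hCdef
  have hCp : 0 < C := lt_of_le_of_lt (by positivity) hgt
  set l := √C with hl
  have hl0 : 0 < l := Real.sqrt_pos.2 hCp
  have hl2 : l ^ 2 = C := Real.sq_sqrt hCp.le
  have h1 : SG κ₀ (nm (An.scl l w)) := by
    refine (SG_scl hw.ex hl0 h).mono ?_
    rw [hl2, div_le_iff₀ hCp]
    rw [div_lt_iff₀ hκ₀] at hgt
    linarith
  have h2 : LS (An.scl l w) 1 := by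
    have := (LS_scl_iff (K := C) hw.ex hl0).2 hC
    rwa [hl2, div_self hCp.ne'] at this
  obtain ⟨δ, hδ, hδ1, h3⟩ := key n _ _ _ (by positivity) (hw.scl hl0) h1 h2
  have h4 : LS w ((1 - δ) * C) := by
    refine (LS_scl_iff hw.ex hl0).1 ?_
    rwa [hl2, mul_div_cancel_right₀ _ hCp.ne']
  have h5 := CLS_le (by nlinarith) h4
  nlinarith

/-- existential form -/
theorem ls_lin (key : ∃ κ₀ > 0, Key κ₀) : ∃ C : ℝ, 0 < C ∧ ∀ (n : ℕ) (c R κ : ℝ) (w : E n → ℝ),
    0 < c → Wt c R w → 0 ≤ κ → SG κ (nm w) → LS w (C * κ) := by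
  obtain ⟨κ₀, hκ₀, key⟩ := key
  refine ⟨1 / κ₀, by positivity, fun n c R κ w hc hw hκ h => ?_⟩
  have := ls_of_key hκ₀ key hc hw hκ h
  rwa [one_div, inv_mul_eq_div]

/-- failure of `LS w (1 - δ)` gives a normalised near-extremal -/
theorem near_of_not (hw : Ex w) {δ : ℝ} (hδ1 : δ ≤ 1) (h : ¬ LS w (1 - δ)) :
    ∃ f : E n → ℝ, LL809.CBp f ∧ Em w f = 1 ∧ (1 - δ) / 2 * Fi w f < En w f ∧ 0 < En w f := by
  rw [LS_def] at h
  push Not at h
  obtain ⟨f, hf, h2⟩ := h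
  obtain ⟨hcb, c, hc, hge⟩ := id hf
  obtain ⟨c', B', hp⟩ := exists_pos hcb ⟨c, hc, hge⟩
  have hpos : 0 < Em w f := by
    have := Em_mono hw (EG.const c') hp.eg hp.ge
    rw [Em_const hw] at this
    exact hp.c_pos.trans_le this
  obtain ⟨k1, k2, k3⟩ := En_smul hw hf (inv_pos.2 hpos)
  have hEn : 0 < En w f := lt_of_le_of_lt (mul_nonneg (by linarith) (Fi_nonneg hw hf)) h2
  refine ⟨fun x => (Em w f)⁻¹ * f x, k1, ?_, ?_, ?_⟩
  · rw [Em_smul]
    exact inv_mul_cancel₀ hpos.ne'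
  · rw [k2, k3]
    have := mul_lt_mul_of_pos_left h2 (inv_pos.2 hpos)
    linarith
  · rw [k2]; positivity

/-- **`Key` from a contradiction**: it is enough to refute the existence of near-extremals of
every quality. -/
theorem key_of_contra {κ₀ : ℝ}
    (H : ∀ (n : ℕ) (c R : ℝ) (w : E n → ℝ), 0 < c → Wt c R w → SG κ₀ (nm w) → LS w 1 →
      ∃ δ > 0, δ ≤ 1 ∧ ∀ f : E n → ℝ, LL809.CBp f → Em w f = 1 → 0 < En w f →
        (1 - δ) / 2 * Fi w f < En w f → False) : Key κ₀ := by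
  intro n c R w hc hw hSG hLS
  obtain ⟨δ, hδ, hδ1, h⟩ := H n c R w hc hw hSG hLS
  refine ⟨δ, hδ, hδ1, ?_⟩
  by_contra hcon
  obtain ⟨f, h1, h2, h3, h4⟩ := near_of_not hw.ex hδ1 hcon
  exact h f h1 h2 h4 h3

end Crest.Agent.R201.Noi402
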