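import Crest.Agent.R201.Fin3_293
import Crest.Agent.R201.Noi3_402

/-!
# R201 (S0308): the whole row from `Key`  (owner: helper293)
-/

set_option autoImplicit false
open MeasureTheory Matrix Filter Topology
open scoped ContDiff RealInnerProductSpace NNReal ENNReal

namespace Crest.Agent.R201.Fin293

open Crest.Agent.R201 Crest.Agent.R201.An Crest.Agent.R201.DVQ402 Crest.Agent.R201.Noi402

lemma mainLS_of_key (h : ∃ κ₀ : ℝ, 0 < κ₀ ∧ Key κ₀) : MainLS := by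
  obtain ⟨C, hC, h1⟩ := ls_lin h
  exact ⟨C, hC.le, fun n c R κ w hc hκ hw hs => h1 n c R κ w hc hw hκ.le hs⟩

/-- **S0308 from `Key`** -/
theorem S0308_of_key (h : ∃ κ₀ : ℝ, 0 < κ₀ ∧ Key κ₀) :
    ∃ C : ℝ, ∀ (n : ℕ), 1 ≤ n →
      ∀ (ρ : EuclideanSpace ℝ (Fin n) → ℝ) (μ : Measure (EuclideanSpace ℝ (Fin n))) (a : ℝ),
        Measurable ρ → (∀ x, 0 ≤ ρ x) → Convex ℝ {x | 0 < ρ x} →
        ConcaveOn ℝ {x | 0 < ρ x} (fun x => Real.log (ρ x)) →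
        μ = volume.withDensity (fun x => ENNReal.ofReal (ρ x)) → IsProbabilityMeasure μ →
        ∫ x, x ∂μ = 0 → 0 < a →
        (∀ θ : EuclideanSpace ℝ (Fin n), ‖θ‖ = 1 →
          ∫⁻ x, ENNReal.ofReal (Real.exp (inner ℝ x θ ^ 2 / a ^ 2)) ∂μ ≤ 2) →
        ∀ f : EuclideanSpace ℝ (Fin n) → ℝ, ContDiff ℝ ∞ f → HasCompactSupport f →
          ∫ x, f x ^ 2 * Real.log (f x ^ 2) ∂μ - (∫ x, f x ^ 2 ∂μ) * Real.log (∫ x, f x ^ 2 ∂μ) ≤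
            C * a ^ 2 * ∫ x, ‖fderiv ℝ f x‖ ^ 2 ∂μ :=
  final (mainLS_of_key h)

end Crest.Agent.R201.Fin293
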