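import Crest.Agent.R201.Defs_74
import Crest.Agent.R285.Gauss

/-!
# R201, LSI half (helper844): Gaussian channels, part 1: Cameron–Martin, likelihood integrals
-/

set_option autoImplicit false
open MeasureTheory Matrix ProbabilityTheory Filter Topology
open scoped ENNReal RealInnerProductSpace

namespace Crest.Agent.R201.GC844

open Crest.Agent.R201 Crest.Agent.R285

variable {n : ℕ}

/-- standard Gaussian measure on `E n` -/
noncomputable abbrev gm (n : ℕ) : Measure (E n) := stdGaussian (E n)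

/-- likelihood of `y = σ z + noise`, relative to the standard Gaussian -/
noncomputable def L (σ : ℝ) (z y : E n) : ℝ := Real.exp (σ * ⟪z, y⟫ - σ ^ 2 * ‖z‖ ^ 2 / 2)

theorem L_pos (σ : ℝ) (z y : E n) : 0 < L σ z y := Real.exp_pos _

theorem L_eq (σ : ℝ) (z y : E n) :
    L σ z y = Real.exp (‖y‖ ^ 2 / 2) * Real.exp (-(‖y - σ • z‖ ^ 2 / 2)) := by
  unfold L
  rw [← Real.exp_add]
  congr 1
  have h := norm_sub_sq_real y (σ • z)
  rw [real_inner_smul_right, norm_smul, mul_pow, Real.norm_eq_abs, sq_abs, real_inner_comm] at h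
  rw [h]
  ring

theorem L_le (σ : ℝ) (z y : E n) : L σ z y ≤ Real.exp (‖y‖ ^ 2 / 2) := by
  rw [L_eq]
  have h : Real.exp (-(‖y - σ • z‖ ^ 2 / 2)) ≤ 1 := Real.exp_le_one_iff.mpr (by
    have := sq_nonneg ‖y - σ • z‖
    linarith)
  have := Real.exp_pos (‖y‖ ^ 2 / 2)
  nlinarith

theorem gdens_shift (v y : E n) :
    gdens (y - v) = gdens y * Real.exp (⟪v, y⟫ - ‖v‖ ^ 2 / 2) := by
  unfold gdens
  rw [mul_assoc, ← Real.exp_add]
  congr 2
  have h := norm_sub_sq_real y v
  rw [h, real_inner_comm]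
  ring

theorem L_gdens (σ : ℝ) (z y : E n) : gdens y * L σ z y = gdens (y - σ • z) := by
  rw [gdens_shift]
  unfold L
  congr 2
  rw [real_inner_smul_left, norm_smul, mul_pow, Real.norm_eq_abs, sq_abs]

theorem continuous_L (σ : ℝ) : Continuous fun p : E n × E n => L σ p.1 p.2 := by
  unfold L
  fun_prop

/-- Cameron–Martin, integrals -/
theorem cm_int (σ : ℝ) (z : E n) (f : E n → ℝ) :
    ∫ y, L σ z y * f y ∂(gm n) = ∫ g, f (σ • z + g) ∂(gm n) := by
  rw [integral_stdGaussian, integral_stdGaussian]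
  have e : ∀ y, gdens y • (L σ z y * f y) = gdens (y - σ • z) * f (σ • z + (y - σ • z)) := by
    intro y
    rw [smul_eq_mul, ← mul_assoc, L_gdens, add_sub_cancel]
  simp_rw [e]
  rw [integral_sub_right_eq_self (fun y => gdens y * f (σ • z + y)) (σ • z)]
  rfl

/-- Cameron–Martin, lower integrals -/
theorem cm_lint (σ : ℝ) (z : E n) {f : E n → ℝ≥0∞} (hf : Measurable f) :
    ∫⁻ y, ENNReal.ofReal (L σ z y) * f y ∂(gm n) = ∫⁻ g, f (σ • z + g) ∂(gm n) := by
  have hg : Measurable fun x : E n => ENNReal.ofReal (gdens x) :=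
    continuous_gdens.measurable.ennreal_ofReal
  have hL : Measurable fun y : E n => ENNReal.ofReal (L σ z y) :=
    ((continuous_L σ).comp (by fun_prop : Continuous fun y : E n => (z, y))).measurable.ennreal_ofReal
  have hgm : gm n = volume.withDensity fun x => ENNReal.ofReal (gdens x) :=
    stdGaussian_eq_withDensity
  rw [hgm]
  have e1 := lintegral_withDensity_eq_lintegral_mul (volume : Measure (E n)) hg (hL.mul hf)
  have hf' : Measurable fun g => f (σ • z + g) := by fun_prop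
  have e2 := lintegral_withDensity_eq_lintegral_mul (volume : Measure (E n)) hg hf'
  refine e1.trans (Eq.trans ?_ e2.symm)
  have e : ∀ y, ((fun x : E n => ENNReal.ofReal (gdens x)) *
      ((fun y : E n => ENNReal.ofReal (L σ z y)) * f)) y =
      (fun y => ENNReal.ofReal (gdens y) * f (σ • z + y)) (y - σ • z) := by
    intro y
    simp only [Pi.mul_apply]
    rw [← mul_assoc, ← ENNReal.ofReal_mul (gdens_pos _).le, L_gdens, add_sub_cancel]
  simp_rw [e]
  rw [lintegral_sub_right_eq_self (fun y => ENNReal.ofReal (gdens y) * f (σ • z + y)) (σ • z)]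
  rfl

section

variable {Ω : Type*} [MeasurableSpace Ω]

/-- joint law of `(ω, J)`, `J = σ ζ + g` -/
noncomputable def jt (ρ : Measure Ω) (ζ : Ω → E n) (σ : ℝ) : Measure (Ω × E n) :=
  (ρ.prod (gm n)).map fun p => (p.1, σ • ζ p.1 + p.2)

theorem meas_sh {ζ : Ω → E n} (hζ : Measurable ζ) (σ : ℝ) :
    Measurable fun p : Ω × E n => (p.1, σ • ζ p.1 + p.2) := by fun_prop

theorem meas_L {ζ : Ω → E n} (hζ : Measurable ζ) (σ : ℝ) :
    Measurable fun p : Ω × E n => L σ (ζ p.1) p.2 := by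
  unfold L
  have h1 : Measurable fun p : Ω × E n => ζ p.1 := hζ.comp measurable_fst
  have h2 : Measurable fun p : Ω × E n => p.2 := measurable_snd
  exact Real.measurable_exp.comp (((h1.inner h2).const_mul σ).sub
    (((h1.norm.pow_const 2).const_mul (σ ^ 2)).div_const 2))

theorem jt_eq {ρ : Measure Ω} [SFinite ρ] {ζ : Ω → E n} (hζ : Measurable ζ) (σ : ℝ) :
    jt ρ ζ σ = (ρ.prod (gm n)).withDensity fun p => ENNReal.ofReal (L σ (ζ p.1) p.2) := by
  refine Measure.ext_of_lintegral _ fun f hf => ?_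
  unfold jt
  have hf1 : Measurable fun p : Ω × E n => f (p.1, σ • ζ p.1 + p.2) := hf.comp (meas_sh hζ σ)
  have hf2 : Measurable fun p : Ω × E n => ENNReal.ofReal (L σ (ζ p.1) p.2) * f p :=
    (meas_L hζ σ).ennreal_ofReal.mul hf
  rw [lintegral_map hf (meas_sh hζ σ),
    lintegral_withDensity_eq_lintegral_mul _ (meas_L hζ σ).ennreal_ofReal hf]
  have e1 : ∫⁻ p, f (p.1, σ • ζ p.1 + p.2) ∂(ρ.prod (gm n)) =
      ∫⁻ ω, ∫⁻ g, f (ω, σ • ζ ω + g) ∂(gm n) ∂ρ := lintegral_prod _ hf1.aemeasurable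
  have e2 : ∫⁻ p, ENNReal.ofReal (L σ (ζ p.1) p.2) * f p ∂(ρ.prod (gm n)) =
      ∫⁻ ω, ∫⁻ y, ENNReal.ofReal (L σ (ζ ω) y) * f (ω, y) ∂(gm n) ∂ρ :=
    lintegral_prod _ hf2.aemeasurable
  refine e1.trans (Eq.trans ?_ e2.symm)
  refine lintegral_congr fun ω => ?_
  exact (cm_lint σ (ζ ω) (f := fun y => f (ω, y)) (hf.comp measurable_prodMk_left)).symm

instance {ρ : Measure Ω} [IsProbabilityMeasure ρ] {ζ : Ω → E n} {σ : ℝ} [hζ : Fact (Measurable ζ)] :
    IsProbabilityMeasure (jt ρ ζ σ) :=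
  Measure.isProbabilityMeasure_map (meas_sh hζ.out σ).aemeasurable

end

end Crest.Agent.R201.GC844
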