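import Crest.Agent.R201.GC2_844
import Crest.Agent.R201.Tw2_807

/-!
# R201, LSI half (helper844): Gaussian channels, part 3: derivative of the posterior mean,
posterior covariance, disintegration
-/

set_option autoImplicit false
set_option linter.unusedSectionVars false
open MeasureTheory Matrix ProbabilityTheory Filter Topology
open scoped ENNReal RealInnerProductSpace

namespace Crest.Agent.R201.GC844

open Crest.Agent.R201 Crest.Agent.R285

variable {n : ℕ} {Ω : Type*} [MeasurableSpace Ω] {ρ : Measure Ω} [IsProbabilityMeasure ρ]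
  {ζ : Ω → E n} {σ : ℝ}

/-! ## integrability from the second moment -/

theorem abs_coord_le (z : E n) (k : Fin n) : |z k| ≤ ‖z‖ := by
  have := PiLp.norm_apply_le (p := 2) z k
  rwa [Real.norm_eq_abs] at this

theorem meas_coord (hζ : Measurable ζ) (k : Fin n) : Measurable fun ω => ζ ω k := by fun_prop

theorem i_norm (hζ : Measurable ζ) (h2 : Integrable (fun ω => ‖ζ ω‖ ^ 2) ρ) :
    Integrable (fun ω => ‖ζ ω‖) ρ := by
  refine ((integrable_const (1 : ℝ)).add h2).mono' hζ.norm.aestronglyMeasurable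
    (Eventually.of_forall fun ω => ?_)
  rw [Real.norm_eq_abs, abs_of_nonneg (norm_nonneg _)]
  simp only [Pi.add_apply]
  nlinarith [sq_nonneg (‖ζ ω‖ - 1), norm_nonneg (ζ ω)]

theorem i_coord (hζ : Measurable ζ) (h2 : Integrable (fun ω => ‖ζ ω‖ ^ 2) ρ) (k : Fin n) :
    Integrable (fun ω => ζ ω k) ρ :=
  (i_norm hζ h2).mono' (meas_coord hζ k).aestronglyMeasurable
    (Eventually.of_forall fun ω => by rw [Real.norm_eq_abs]; exact abs_coord_le _ _)

theorem i_coord2 (hζ : Measurable ζ) (h2 : Integrable (fun ω => ‖ζ ω‖ ^ 2) ρ) (k l : Fin n) :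
    Integrable (fun ω => ζ ω k * ζ ω l) ρ :=
  h2.mono' ((meas_coord hζ k).mul (meas_coord hζ l)).aestronglyMeasurable
    (Eventually.of_forall fun ω => by
      rw [Real.norm_eq_abs, abs_mul, sq]
      exact mul_le_mul (abs_coord_le _ _) (abs_coord_le _ _) (abs_nonneg _) (norm_nonneg _))

theorem i_norm_coord (hζ : Measurable ζ) (h2 : Integrable (fun ω => ‖ζ ω‖ ^ 2) ρ) (k : Fin n) :
    Integrable (fun ω => ‖ζ ω‖ * ζ ω k) ρ :=
  h2.mono' (hζ.norm.mul (meas_coord hζ k)).aestronglyMeasurable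
    (Eventually.of_forall fun ω => by
      rw [Real.norm_eq_abs, abs_mul, abs_of_nonneg (norm_nonneg (ζ ω)), sq]
      exact mul_le_mul_of_nonneg_left (abs_coord_le _ _) (norm_nonneg _))

theorem i_norm_one (hζ : Measurable ζ) (h2 : Integrable (fun ω => ‖ζ ω‖ ^ 2) ρ) :
    Integrable (fun ω => ‖ζ ω‖ * (1 : ℝ)) ρ := by simpa using i_norm hζ h2

theorem i_bdd_mul {a F : Ω → ℝ} (ha : Measurable a) {b : ℝ} (hb : ∀ ω, |a ω| ≤ b)
    (hF : Integrable F ρ) : Integrable (fun ω => a ω * F ω) ρ :=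
  hF.bdd_mul ha.aestronglyMeasurable (Eventually.of_forall fun ω => by
    rw [Real.norm_eq_abs]; exact hb ω)

theorem i_bdd {a : Ω → ℝ} (ha : Measurable a) {b : ℝ} (hb : ∀ ω, |a ω| ≤ b) :
    Integrable a ρ :=
  Integrable.of_bound ha.aestronglyMeasurable b (Eventually.of_forall fun ω => by
    rw [Real.norm_eq_abs]; exact hb ω)

/-! ## smoothness of the weight and of the posterior mean -/

theorem diff_wt (hζ : Measurable ζ) (h2 : Integrable (fun ω => ‖ζ ω‖ ^ 2) ρ) :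
    Differentiable ℝ (wt ρ ζ σ) :=
  differentiable_Z hζ (integrable_const 1) (i_norm_one hζ h2)

theorem cont_wt (hζ : Measurable ζ) : Continuous (wt ρ ζ σ) :=
  continuous_Z hζ (integrable_const 1)

theorem pd_wt (hζ : Measurable ζ) (h2 : Integrable (fun ω => ‖ζ ω‖ ^ 2) ρ) (k : Fin n) (y : E n) :
    pd k (wt ρ ζ σ) y = σ * Z ρ ζ σ (fun ω => ζ ω k) y := by
  unfold wt
  rw [pd_Z hζ (integrable_const 1) (i_norm_one hζ h2)]
  simp only [mul_one]

theorem cont_pe (hζ : Measurable ζ) {F : Ω → ℝ} (hF : Integrable F ρ) :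
    Continuous (pe ρ ζ σ F) :=
  (continuous_Z hζ hF).div (cont_wt hζ) fun y => (wt_pos hζ y).ne'

theorem diff_pe (hζ : Measurable ζ) (h2 : Integrable (fun ω => ‖ζ ω‖ ^ 2) ρ) {F : Ω → ℝ}
    (hF : Integrable F ρ) (hF1 : Integrable (fun ω => ‖ζ ω‖ * F ω) ρ) :
    Differentiable ℝ (pe ρ ζ σ F) := by
  intro y
  have h0 := wt_pos (σ := σ) (ρ := ρ) hζ y
  have d1 := hasFDerivAt_Z (σ := σ) hζ hF hF1 y
  have d2 : HasFDerivAt (wt ρ ζ σ) _ y :=
    hasFDerivAt_Z (σ := σ) hζ (integrable_const (μ := ρ) (1 : ℝ)) (i_norm_one hζ h2) y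
  have d3 := d1.mul ((hasDerivAt_inv h0.ne').comp_hasFDerivAt y d2)
  have d4 : pe ρ ζ σ F = Z ρ ζ σ F * (fun y => y⁻¹) ∘ wt ρ ζ σ := by
    funext z
    simp only [pe, div_eq_mul_inv, Function.comp_apply, Pi.mul_apply]
  rw [d4]
  exact d3.differentiableAt

theorem pd_pe (hζ : Measurable ζ) (h2 : Integrable (fun ω => ‖ζ ω‖ ^ 2) ρ) {F : Ω → ℝ}
    (hF : Integrable F ρ) (hF1 : Integrable (fun ω => ‖ζ ω‖ * F ω) ρ) (k : Fin n) (y : E n) :
    pd k (pe ρ ζ σ F) y =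
      σ * (pe ρ ζ σ (fun ω => ζ ω k * F ω) y - pm ρ ζ σ y k * pe ρ ζ σ F y) := by
  have h0 := wt_pos (σ := σ) (ρ := ρ) hζ y
  have d1 := hasFDerivAt_Z (σ := σ) hζ hF hF1 y
  have d2 : HasFDerivAt (wt ρ ζ σ) _ y :=
    hasFDerivAt_Z (σ := σ) hζ (integrable_const (μ := ρ) (1 : ℝ)) (i_norm_one hζ h2) y
  have e1 := pd_Z (σ := σ) hζ hF hF1 k y
  have e2 := pd_wt (σ := σ) hζ h2 k y
  unfold pd at e1 e2 ⊢
  have d3 := d1.mul ((hasDerivAt_inv h0.ne').comp_hasFDerivAt y d2)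
  have d4 : pe ρ ζ σ F = Z ρ ζ σ F * (fun y => y⁻¹) ∘ wt ρ ζ σ := by
    funext z
    simp only [pe, div_eq_mul_inv, Function.comp_apply, Pi.mul_apply]
  have d5 : fderiv ℝ (pe ρ ζ σ F) y = fderiv ℝ (Z ρ ζ σ F * (fun y => y⁻¹) ∘ wt ρ ζ σ) y := by
    rw [d4]
  rw [d5, d3.fderiv]
  rw [d1.fderiv] at e1
  rw [d2.fderiv] at e2
  simp only [_root_.smul_apply, _root_.add_apply, smul_eq_mul, Function.comp_apply]
  rw [e1, e2]
  unfold pm pe
  field_simp
  ring

theorem pd_pm (hζ : Measurable ζ) (h2 : Integrable (fun ω => ‖ζ ω‖ ^ 2) ρ) (k l : Fin n)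
    (y : E n) : pd l (fun y => pm ρ ζ σ y k) y = σ * pc ρ ζ σ y k l := by
  have := pd_pe (σ := σ) hζ h2 (i_coord hζ h2 k) (i_norm_coord hζ h2 k) l y
  show pd l (pe ρ ζ σ fun ω => ζ ω k) y = _
  rw [this]
  unfold pc
  simp only [Matrix.of_apply]
  congr 1
  have e : (fun ω => ζ ω l * ζ ω k) = fun ω => ζ ω k * ζ ω l := by funext ω; ring
  rw [e]
  unfold pm
  ring

theorem diff_pm (hζ : Measurable ζ) (h2 : Integrable (fun ω => ‖ζ ω‖ ^ 2) ρ) (k : Fin n) :
    Differentiable ℝ (fun y => pm ρ ζ σ y k) :=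
  diff_pe hζ h2 (i_coord hζ h2 k) (i_norm_coord hζ h2 k)

theorem cont_pm (hζ : Measurable ζ) (h2 : Integrable (fun ω => ‖ζ ω‖ ^ 2) ρ) (k : Fin n) :
    Continuous (fun y => pm ρ ζ σ y k) := cont_pe hζ (i_coord hζ h2 k)

theorem cont_pc (hζ : Measurable ζ) (h2 : Integrable (fun ω => ‖ζ ω‖ ^ 2) ρ) (k l : Fin n) :
    Continuous (fun y => pc ρ ζ σ y k l) :=
  (cont_pe hζ (i_coord2 hζ h2 k l)).sub ((cont_pm hζ h2 k).mul (cont_pm hζ h2 l))

theorem pc_symm (y : E n) : (pc ρ ζ σ y)ᵀ = pc ρ ζ σ y := by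
  ext k l
  simp only [Matrix.transpose_apply, pc, Matrix.of_apply]
  have e : (fun ω => ζ ω l * ζ ω k) = fun ω => ζ ω k * ζ ω l := by funext ω; ring
  rw [e]
  ring

/-- quadratic form of the posterior covariance -/
theorem pc_quad (hζ : Measurable ζ) (h2 : Integrable (fun ω => ‖ζ ω‖ ^ 2) ρ) (y : E n)
    (u : Fin n → ℝ) : u ⬝ᵥ (pc ρ ζ σ y *ᵥ u) =
      pe ρ ζ σ (fun ω => (∑ k, u k * ζ ω k) ^ 2) y - (pe ρ ζ σ (fun ω => ∑ k, u k * ζ ω k) y) ^ 2 := by
  have e1 : pe ρ ζ σ (fun ω => ∑ k, u k * ζ ω k) y = ∑ k, u k * pm ρ ζ σ y k := by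
    rw [pe_sum hζ _ fun k _ => (i_coord hζ h2 k).const_mul (u k)]
    refine Finset.sum_congr rfl fun k _ => ?_
    rw [pe_const_mul]
    rfl
  have e2 : pe ρ ζ σ (fun ω => (∑ k, u k * ζ ω k) ^ 2) y =
      ∑ k, ∑ l, u k * u l * pe ρ ζ σ (fun ω => ζ ω k * ζ ω l) y := by
    have : (fun ω => (∑ k, u k * ζ ω k) ^ 2) =
        fun ω => ∑ k, ∑ l, (u k * u l) * (ζ ω k * ζ ω l) := by
      funext ω
      rw [sq, Finset.sum_mul_sum]
      exact Finset.sum_congr rfl fun k _ => Finset.sum_congr rfl fun l _ => by ring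
    rw [this, pe_sum hζ _ fun k _ => integrable_finsetSum _ fun l _ =>
      (i_coord2 hζ h2 k l).const_mul _]
    refine Finset.sum_congr rfl fun k _ => ?_
    rw [pe_sum hζ _ fun l _ => (i_coord2 hζ h2 k l).const_mul _]
    refine Finset.sum_congr rfl fun l _ => ?_
    rw [pe_const_mul]
  rw [e1, e2, sq, Finset.sum_mul_sum, ← Finset.sum_sub_distrib]
  simp only [dotProduct, Matrix.mulVec, Finset.mul_sum, pc, Matrix.of_apply]
  refine Finset.sum_congr rfl fun k _ => ?_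
  rw [← Finset.sum_sub_distrib]
  exact Finset.sum_congr rfl fun l _ => by ring

theorem pc_nonneg (hζ : Measurable ζ) (h2 : Integrable (fun ω => ‖ζ ω‖ ^ 2) ρ) (y : E n) :
    LeQ 0 (pc ρ ζ σ y) := by
  intro u
  rw [pc_quad hζ h2]
  simp only [Matrix.zero_mulVec, dotProduct_zero]
  have i1 : Integrable (fun ω => ∑ k, u k * ζ ω k) ρ :=
    integrable_finsetSum _ fun k _ => (i_coord hζ h2 k).const_mul _
  have i2 : Integrable (fun ω => (∑ k, u k * ζ ω k) ^ 2) ρ := by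
    have : (fun ω => (∑ k, u k * ζ ω k) ^ 2) =
        fun ω => ∑ k, ∑ l, (u k * u l) * (ζ ω k * ζ ω l) := by
      funext ω
      rw [sq, Finset.sum_mul_sum]
      exact Finset.sum_congr rfl fun k _ => Finset.sum_congr rfl fun l _ => by ring
    rw [this]
    exact integrable_finsetSum _ fun k _ => integrable_finsetSum _ fun l _ =>
      (i_coord2 hζ h2 k l).const_mul _
  have := pe_sq_le (σ := σ) hζ i1 i2 y
  linarith

/-! ## the joint law -/

theorem ae_comp_fst {G : Ω → ℝ} (hG : Integrable G ρ) (hζ : Measurable ζ) :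
    Integrable (fun p : Ω × E n => G p.1) (jt ρ ζ σ) := by
  unfold jt
  rw [integrable_map_measure]
  · exact hG.comp_fst (gm n)
  · have h1 : (fun p : Ω × E n => G p.1) = G ∘ Prod.fst := rfl
    rw [h1]
    refine hG.aestronglyMeasurable.comp_quasiMeasurePreserving ?_
    refine ⟨measurable_fst, ?_⟩
    rw [Measure.map_map measurable_fst (meas_sh hζ σ)]
    have : Prod.fst ∘ (fun p : Ω × E n => (p.1, σ • ζ p.1 + p.2)) = Prod.fst := rfl
    rw [this, Measure.map_fst_prod]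
    simp only [measure_univ, one_smul]
    exact Measure.AbsolutelyContinuous.rfl
  · exact (meas_sh hζ σ).aemeasurable

theorem int_fst {G : Ω → ℝ} (hG : Integrable G ρ) (hζ : Measurable ζ) :
    ∫ p : Ω × E n, G p.1 ∂(jt ρ ζ σ) = ∫ ω, G ω ∂ρ := by
  have h0 := ae_comp_fst (σ := σ) hG hζ
  unfold jt at h0 ⊢
  rw [integral_map (meas_sh hζ σ).aemeasurable h0.aestronglyMeasurable]
  simp only
  rw [integral_fun_fst (μ := ρ) (ν := gm n) G]
  simp

theorem jt_int (hζ : Measurable ζ) (f : Ω × E n → ℝ) :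
    ∫ p, f p ∂(jt ρ ζ σ) = ∫ p, L σ (ζ p.1) p.2 * f p ∂(ρ.prod (gm n)) := by
  rw [jt_eq hζ, integral_withDensity_eq_integral_toReal_smul (meas_L hζ σ).ennreal_ofReal
    (Eventually.of_forall fun _ => ENNReal.ofReal_lt_top)]
  refine integral_congr_ae (Eventually.of_forall fun p => ?_)
  simp only [ENNReal.toReal_ofReal (L_pos _ _ _).le, smul_eq_mul]

theorem jt_integrable (hζ : Measurable ζ) (f : Ω × E n → ℝ) :
    Integrable f (jt ρ ζ σ) ↔ Integrable (fun p => L σ (ζ p.1) p.2 * f p) (ρ.prod (gm n)) := by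
  rw [jt_eq hζ, integrable_withDensity_iff_integrable_smul' (meas_L hζ σ).ennreal_ofReal
    (Eventually.of_forall fun _ => ENNReal.ofReal_lt_top)]
  refine integrable_congr (Eventually.of_forall fun p => ?_)
  simp only [ENNReal.toReal_ofReal (L_pos _ _ _).le, smul_eq_mul]

/-- disintegration -/
theorem dis (hζ : Measurable ζ) {F : Ω → ℝ} {φ : E n → ℝ}
    (h : Integrable (fun p : Ω × E n => F p.1 * φ p.2) (jt ρ ζ σ)) :
    Integrable (fun y => Z ρ ζ σ F y * φ y) (gm n) ∧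
    ∫ p : Ω × E n, F p.1 * φ p.2 ∂(jt ρ ζ σ) = ∫ y, Z ρ ζ σ F y * φ y ∂(gm n) := by
  have h1 := (jt_integrable hζ _).mp h
  have e : ∀ y, ∫ ω, L σ (ζ ω) y * (F ω * φ y) ∂ρ = Z ρ ζ σ F y * φ y := by
    intro y
    unfold Z
    rw [← integral_mul_const]
    exact integral_congr_ae (Eventually.of_forall fun ω => by ring)
  constructor
  · have h2 := h1.integral_prod_right
    exact h2.congr (Eventually.of_forall fun y => e y)
  · rw [jt_int hζ, integral_prod_symm _ h1]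
    exact integral_congr_ae (Eventually.of_forall fun y => e y)

end Crest.Agent.R201.GC844
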