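import Crest.Agent.R201.GC3_844

/-!
# R201, LSI half (helper844): Gaussian channels, part 4: the static step of the posterior energy
-/

set_option autoImplicit false
set_option linter.unusedSectionVars false
open MeasureTheory Matrix ProbabilityTheory Filter Topology
open scoped ENNReal RealInnerProductSpace

namespace Crest.Agent.R201.GC844

open Crest.Agent.R201 Crest.Agent.R285

variable {n : ℕ} {Ω : Type*} [MeasurableSpace Ω] {ρ : Measure Ω} [IsProbabilityMeasure ρ]
  {ζ : Ω → E n} {σ : ℝ}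

/-! ## Gaussian moments -/

theorem g_memLp (k : Fin n) : MemLp (fun g : E n => g k) 2 (gm n) := by
  have h := (IsGaussian.memLp_two_id (μ := gm n)).continuousLinearMap_comp
    (EuclideanSpace.proj k : E n →L[ℝ] ℝ)
  exact h

theorem g_mean (k : Fin n) : ∫ g : E n, g k ∂(gm n) = 0 := by
  have h := integral_strongDual_stdGaussian (E := E n) (EuclideanSpace.proj k : E n →L[ℝ] ℝ)
  exact h

theorem g_cov (k l : Fin n) : ∫ g : E n, g k * g l ∂(gm n) = if k = l then 1 else 0 := by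
  have h := covariance_eval_multivariateGaussian (μ := (0 : EuclideanSpace ℝ (Fin n)))
    (S := (1 : Matrix (Fin n) (Fin n) ℝ)) Matrix.PosSemidef.one k l
  rw [multivariateGaussian_zero_one, Matrix.one_apply] at h
  rw [← h]
  unfold covariance
  have e1 := g_mean (n := n) k
  have e2 := g_mean (n := n) l
  rw [e1, e2]
  simp

/-! ## law of the label -/

theorem law_snd (hζ : Measurable ζ) : (jt ρ ζ σ).map Prod.snd =
    (gm n).withDensity fun y => ENNReal.ofReal (wt ρ ζ σ y) := by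
  refine Measure.ext_of_lintegral _ fun f hf => ?_
  have hw : Measurable fun y => ENNReal.ofReal (wt ρ ζ σ y) :=
    (cont_wt hζ).measurable.ennreal_ofReal
  rw [lintegral_map hf measurable_snd, jt_eq hζ]
  have hf2 : Measurable fun p : Ω × E n => f p.2 := hf.comp measurable_snd
  rw [lintegral_withDensity_eq_lintegral_mul _ (meas_L hζ σ).ennreal_ofReal hf2,
    lintegral_withDensity_eq_lintegral_mul _ hw hf]
  have hf3 : Measurable fun p : Ω × E n => ENNReal.ofReal (L σ (ζ p.1) p.2) * f p.2 :=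
    (meas_L hζ σ).ennreal_ofReal.mul hf2
  have e1 : ∫⁻ p, ENNReal.ofReal (L σ (ζ p.1) p.2) * f p.2 ∂(ρ.prod (gm n)) =
      ∫⁻ y, ∫⁻ ω, ENNReal.ofReal (L σ (ζ ω) y) * f y ∂ρ ∂(gm n) :=
    lintegral_prod_symm _ hf3.aemeasurable
  refine e1.trans (lintegral_congr fun y => ?_)
  simp only [Pi.mul_apply]
  rw [lintegral_mul_const _ (meas_L' hζ σ y).ennreal_ofReal]
  congr 1
  unfold wt Z
  simp only [one_mul]
  rw [ofReal_integral_eq_lintegral_ofReal]
  · have := int_Z (σ := σ) hζ (integrable_const (μ := ρ) (1 : ℝ)) y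
    simpa using this
  · exact Eventually.of_forall fun ω => (L_pos _ _ _).le

theorem int_snd_iff (hζ : Measurable ζ) {φ : E n → ℝ} (hφ : Measurable φ) :
    Integrable (fun p : Ω × E n => φ p.2) (jt ρ ζ σ) ↔
      Integrable (fun y => wt ρ ζ σ y * φ y) (gm n) := by
  have hw : Measurable fun y => ENNReal.ofReal (wt ρ ζ σ y) :=
    (cont_wt hζ).measurable.ennreal_ofReal
  have h1 : Integrable φ ((jt ρ ζ σ).map Prod.snd) ↔
      Integrable (φ ∘ Prod.snd) (jt ρ ζ σ) :=
    integrable_map_measure hφ.aestronglyMeasurable measurable_snd.aemeasurable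
  have h2 : (φ ∘ Prod.snd : Ω × E n → ℝ) = fun p => φ p.2 := rfl
  rw [← h2, ← h1, law_snd hζ, integrable_withDensity_iff_integrable_smul' hw
    (Eventually.of_forall fun _ => ENNReal.ofReal_lt_top)]
  refine integrable_congr (Eventually.of_forall fun y => ?_)
  simp only [ENNReal.toReal_ofReal (wt_pos hζ y).le, smul_eq_mul]

theorem int_snd (hζ : Measurable ζ) {φ : E n → ℝ} (hφ : Measurable φ) :
    ∫ p : Ω × E n, φ p.2 ∂(jt ρ ζ σ) = ∫ y, wt ρ ζ σ y * φ y ∂(gm n) := by
  have hw : Measurable fun y => ENNReal.ofReal (wt ρ ζ σ y) :=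
    (cont_wt hζ).measurable.ennreal_ofReal
  have h1 : ∫ y, φ y ∂((jt ρ ζ σ).map Prod.snd) = ∫ p : Ω × E n, φ p.2 ∂(jt ρ ζ σ) :=
    integral_map measurable_snd.aemeasurable hφ.aestronglyMeasurable
  rw [← h1, law_snd hζ, integral_withDensity_eq_integral_toReal_smul hw
    (Eventually.of_forall fun _ => ENNReal.ofReal_lt_top)]
  refine integral_congr_ae (Eventually.of_forall fun y => ?_)
  simp only [ENNReal.toReal_ofReal (wt_pos hζ y).le, smul_eq_mul]

/-- general disintegration -/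
theorem dis_gen (hζ : Measurable ζ) {f : Ω × E n → ℝ} (h : Integrable f (jt ρ ζ σ)) :
    Integrable (fun y => wt ρ ζ σ y * pe ρ ζ σ (fun ω => f (ω, y)) y) (gm n) ∧
    ∫ p, f p ∂(jt ρ ζ σ) = ∫ y, wt ρ ζ σ y * pe ρ ζ σ (fun ω => f (ω, y)) y ∂(gm n) := by
  have h1 := (jt_integrable hζ _).mp h
  have e : ∀ y, ∫ ω, L σ (ζ ω) y * f (ω, y) ∂ρ =
      wt ρ ζ σ y * pe ρ ζ σ (fun ω => f (ω, y)) y := by
    intro y
    rw [mul_comm, ← Z_eq_pe hζ]
    unfold Z
    exact integral_congr_ae (Eventually.of_forall fun ω => by ring)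
  constructor
  · exact h1.integral_prod_right.congr (Eventually.of_forall fun y => e y)
  · rw [jt_int hζ, integral_prod_symm _ h1]
    exact integral_congr_ae (Eventually.of_forall fun y => e y)

/-- posterior energy `E |m|²` -/
noncomputable def En (ρ : Measure Ω) (ζ : Ω → E n) (σ : ℝ) : ℝ :=
  ∫ y, wt ρ ζ σ y * ∑ k, pm ρ ζ σ y k ^ 2 ∂(gm n)

theorem int_ZF (hζ : Measurable ζ) {F : Ω → ℝ} (hF : Integrable F ρ) :
    Integrable (Z ρ ζ σ F) (gm n) ∧ ∫ y, Z ρ ζ σ F y ∂(gm n) = ∫ ω, F ω ∂ρ := by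
  have h0 := ae_comp_fst (σ := σ) hF hζ
  have h1 := dis (σ := σ) (F := F) (φ := fun _ => (1 : ℝ)) hζ (by simpa using h0)
  simp only [mul_one] at h1
  exact ⟨h1.1, by rw [← h1.2, int_fst hF hζ]⟩

theorem pm_sq_int (hζ : Measurable ζ) (h2 : Integrable (fun ω => ‖ζ ω‖ ^ 2) ρ) (k : Fin n) :
    Integrable (fun y => wt ρ ζ σ y * pm ρ ζ σ y k ^ 2) (gm n) := by
  have i2 : Integrable (fun ω => ζ ω k ^ 2) ρ := by
    have := i_coord2 hζ h2 k k
    exact this.congr (Eventually.of_forall fun ω => by simp only; ring)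
  refine (int_ZF (σ := σ) hζ i2).1.mono' ?_ (Eventually.of_forall fun y => ?_)
  · exact ((cont_wt hζ).mul ((cont_pm hζ h2 k).pow 2)).aestronglyMeasurable
  · have h0 := wt_pos (σ := σ) (ρ := ρ) hζ y
    rw [Real.norm_eq_abs, abs_of_nonneg (by positivity), Z_eq_pe hζ, mul_comm]
    exact mul_le_mul_of_nonneg_right (pe_sq_le hζ (i_coord hζ h2 k) i2 y) h0.le

theorem pm_memLp (hζ : Measurable ζ) (h2 : Integrable (fun ω => ‖ζ ω‖ ^ 2) ρ) (k : Fin n) :
    MemLp (fun p : Ω × E n => pm ρ ζ σ p.2 k) 2 (jt ρ ζ σ) := by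
  have hm : Measurable fun y : E n => pm ρ ζ σ y k := (cont_pm hζ h2 k).measurable
  have hm2 : Measurable fun p : Ω × E n => pm ρ ζ σ p.2 k := hm.comp measurable_snd
  refine (memLp_two_iff_integrable_sq hm2.aestronglyMeasurable).mpr ?_
  exact (int_snd_iff hζ (hm.pow_const 2)).mpr (pm_sq_int hζ h2 k)

theorem coord_memLp (hζ : Measurable ζ) (h2 : Integrable (fun ω => ‖ζ ω‖ ^ 2) ρ) (k : Fin n) :
    MemLp (fun p : Ω × E n => ζ p.1 k) 2 (jt ρ ζ σ) := by
  have hm : Measurable fun ω => ζ ω k := meas_coord hζ k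
  have hm2 : Measurable fun p : Ω × E n => ζ p.1 k := hm.comp measurable_fst
  refine (memLp_two_iff_integrable_sq hm2.aestronglyMeasurable).mpr ?_
  refine ae_comp_fst (G := fun ω => ζ ω k ^ 2) ?_ hζ
  exact (i_coord2 hζ h2 k k).congr (Eventually.of_forall fun ω => by simp only; ring)

end Crest.Agent.R201.GC844
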