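import Crest.Agent.R201.GC4_844

/-!
# R201, LSI half (helper844): Gaussian channels, part 5: the static step (core)
-/

set_option autoImplicit false
set_option linter.unusedSectionVars false
open MeasureTheory Matrix ProbabilityTheory Filter Topology
open scoped ENNReal RealInnerProductSpace

namespace Crest.Agent.R201.GC844

open Crest.Agent.R201 Crest.Agent.R285

variable {n : ℕ} {Ω : Type*} [MeasurableSpace Ω] {ρ : Measure Ω} [IsProbabilityMeasure ρ]
  {ζ : Ω → E n} {σ : ℝ}

/-- affine estimator -/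
def HH (r : ℝ) (m : Fin n → ℝ) (R : Mt n) (y' : Fin n → ℝ) (k : Fin n) : ℝ :=
  m k + ∑ l, R k l * (r * y' l - m l)

/-- `2⟨z,H⟩ - |H|²` -/
def VV (z h : Fin n → ℝ) : ℝ := ∑ k, (2 * z k * h k - h k ^ 2)

theorem VV_le (z h : Fin n → ℝ) : VV z h ≤ ∑ k, z k ^ 2 :=
  Finset.sum_le_sum fun k _ => by nlinarith [sq_nonneg (z k - h k)]

theorem VV_int {α : Type*} [MeasurableSpace α] {μ : Measure α} {z h : α → Fin n → ℝ}
    (hz : ∀ k, MemLp (fun a => z a k) 2 μ) (hh : ∀ k, MemLp (fun a => h a k) 2 μ) :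
    Integrable (fun a => VV (z a) (h a)) μ := by
  unfold VV
  refine integrable_finsetSum _ fun k _ => ?_
  have h1 := ((hz k).integrable_mul (hh k)).const_mul 2
  have h2 := (hh k).integrable_sq
  refine (h1.sub h2).congr (Eventually.of_forall fun a => ?_)
  simp only [Pi.sub_apply, Pi.mul_apply]
  ring

theorem memLp_bdd_mul {α : Type*} [MeasurableSpace α] {μ : Measure α} {c f : α → ℝ}
    (hc : Measurable c) (hb : ∀ a, |c a| ≤ 1) (hf : MemLp f 2 μ) :
    MemLp (fun a => c a * f a) 2 μ :=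
  hf.of_le (hc.aestronglyMeasurable.mul hf.aestronglyMeasurable) (Eventually.of_forall fun a => by
    rw [norm_mul, Real.norm_eq_abs]
    exact mul_le_of_le_one_left (norm_nonneg _) (hb a))

theorem HH_memLp {α : Type*} [MeasurableSpace α] {μ : Measure α} {m y' : α → Fin n → ℝ}
    {R : α → Mt n} (hR : ∀ k l, Measurable fun a => R a k l) (hb : ∀ a k l, |R a k l| ≤ 1) (r : ℝ)
    (hm : ∀ k, MemLp (fun a => m a k) 2 μ) (hy : ∀ k, MemLp (fun a => y' a k) 2 μ) (k : Fin n) :
    MemLp (fun a => HH r (m a) (R a) (y' a) k) 2 μ := by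
  unfold HH
  refine (hm k).add (memLp_finsetSum _ fun l _ => ?_)
  exact memLp_bdd_mul (hR k l) (fun a => hb a k l) (((hy l).const_mul r).sub (hm l))

/-- integration over the second observation -/
theorem inner_g (r τ : ℝ) (hrτ : r * τ = 1) (z m : Fin n → ℝ) (R : Mt n) :
    ∫ g : E n, VV z (HH r m R fun l => τ * z l + g l) ∂(gm n) =
      VV z (fun k => m k + ∑ l, R k l * (z l - m l)) - r ^ 2 * ∑ k, ∑ l, R k l ^ 2 := by
  set b : Fin n → ℝ := fun k => m k + ∑ l, R k l * (z l - m l) with hb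
  set G : Fin n → E n → ℝ := fun k g => ∑ l, R k l * g l with hG
  have hH : ∀ (g : E n) k, HH r m R (fun l => τ * z l + g l) k = b k + r * G k g := by
    intro g k
    simp only [HH, hb, hG, Finset.mul_sum]
    rw [add_assoc, ← Finset.sum_add_distrib]
    congr 1
    refine Finset.sum_congr rfl fun l _ => ?_
    have : r * (τ * z l + g l) - m l = (r * τ) * z l - m l + r * g l := by ring
    rw [this, hrτ]
    ring
  have hGm : ∀ k, MemLp (G k) 2 (gm n) := fun k =>
    memLp_finsetSum _ fun l _ => (g_memLp l).const_mul (R k l)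
  have hG1 : ∀ k, ∫ g, G k g ∂(gm n) = 0 := by
    intro k
    simp only [hG]
    rw [integral_finsetSum _ fun l _ => ((g_memLp l).integrable (by norm_num)).const_mul (R k l)]
    refine Finset.sum_eq_zero fun l _ => ?_
    rw [integral_const_mul, g_mean, mul_zero]
  have hG2 : ∀ k, ∫ g, G k g ^ 2 ∂(gm n) = ∑ l, R k l ^ 2 := by
    intro k
    have e : ∀ g : E n, G k g ^ 2 = ∑ l, ∑ l', (R k l * R k l') * (g l * g l') := by
      intro g
      simp only [hG]
      rw [sq, Finset.sum_mul_sum]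
      exact Finset.sum_congr rfl fun l _ => Finset.sum_congr rfl fun l' _ => by ring
    have i1 : ∀ l l', Integrable (fun g : E n => (R k l * R k l') * (g l * g l')) (gm n) :=
      fun l l' => ((g_memLp l).integrable_mul (g_memLp l')).const_mul _
    simp only [e]
    rw [integral_finsetSum _ fun l _ => integrable_finsetSum _ fun l' _ => i1 l l']
    refine Finset.sum_congr rfl fun l _ => ?_
    rw [integral_finsetSum _ fun l' _ => i1 l l']
    have : ∀ l', ∫ g : E n, (R k l * R k l') * (g l * g l') ∂(gm n) =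
        (R k l * R k l') * if l = l' then 1 else 0 := by
      intro l'
      rw [integral_const_mul, g_cov]
    simp only [this, mul_ite, mul_one, mul_zero, Finset.sum_ite_eq, Finset.mem_univ, if_true]
    ring
  have e : ∀ g : E n, VV z (HH r m R fun l => τ * z l + g l) =
      VV z b + (∑ k, (2 * r * (z k - b k)) * G k g) - ∑ k, r ^ 2 * G k g ^ 2 := by
    intro g
    unfold VV
    rw [← Finset.sum_add_distrib, ← Finset.sum_sub_distrib]
    refine Finset.sum_congr rfl fun k _ => ?_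
    rw [hH]
    ring
  have j1 : Integrable (fun g : E n => ∑ k, (2 * r * (z k - b k)) * G k g) (gm n) :=
    integrable_finsetSum _ fun k _ => ((hGm k).integrable (by norm_num)).const_mul _
  have j2 : Integrable (fun g : E n => ∑ k, r ^ 2 * G k g ^ 2) (gm n) :=
    integrable_finsetSum _ fun k _ => ((hGm k).integrable_sq).const_mul _
  have j0 : Integrable (fun _ : E n => VV z b) (gm n) := integrable_const _
  have j01 : Integrable (fun g : E n => VV z b + ∑ k, (2 * r * (z k - b k)) * G k g) (gm n) :=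
    j0.add j1
  simp only [e]
  rw [integral_sub j01 j2, integral_add j0 j1,
    integral_finsetSum _ fun k _ => ((hGm k).integrable (by norm_num)).const_mul _,
    integral_finsetSum _ fun k _ => ((hGm k).integrable_sq).const_mul _]
  have k1 : ∑ k, ∫ g, (2 * r * (z k - b k)) * G k g ∂(gm n) = 0 :=
    Finset.sum_eq_zero fun k _ => by rw [integral_const_mul, hG1, mul_zero]
  have k2 : ∑ k, ∫ g, r ^ 2 * G k g ^ 2 ∂(gm n) = r ^ 2 * ∑ k, ∑ l, R k l ^ 2 := by
    rw [Finset.mul_sum]
    exact Finset.sum_congr rfl fun k _ => by rw [integral_const_mul, hG2]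
  rw [k1, k2]
  simp

/-- posterior expectation of the quadratic form -/
theorem pe_VV (hζ : Measurable ζ) (h2 : Integrable (fun ω => ‖ζ ω‖ ^ 2) ρ) (y : E n) (R : Mt n) :
    pe ρ ζ σ (fun ω => VV (fun k => ζ ω k)
      (fun k => pm ρ ζ σ y k + ∑ l, R k l * (ζ ω l - pm ρ ζ σ y l))) y =
    (∑ k, pm ρ ζ σ y k ^ 2) + 2 * (∑ k, ∑ l, R k l * pc ρ ζ σ y k l) -
      ∑ k, ∑ l, ∑ l', R k l * R k l' * pc ρ ζ σ y l l' := by
  set m := pm ρ ζ σ y with hm
  have i1 : ∀ k, Integrable (fun ω => ζ ω k - m k) ρ := fun k =>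
    (i_coord hζ h2 k).sub (integrable_const _)
  have i2 : ∀ k l, Integrable (fun ω => (ζ ω k - m k) * (ζ ω l - m l)) ρ := by
    intro k l
    have a1 := i_coord2 hζ h2 k l
    have a2 := (i_coord hζ h2 k).const_mul (m l)
    have a3 := (i_coord hζ h2 l).const_mul (m k)
    have a4 : Integrable (fun _ : Ω => m k * m l) ρ := integrable_const _
    refine (((a1.sub a2).sub a3).add a4).congr (Eventually.of_forall fun ω => ?_)
    simp only [Pi.sub_apply, Pi.add_apply]
    ring
  have p1 : ∀ k, pe ρ ζ σ (fun ω => ζ ω k - m k) y = 0 := by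
    intro k
    rw [pe_sub hζ (i_coord hζ h2 k) (integrable_const _), pe_const hζ]
    exact sub_self _
  have p2 : ∀ k l, pe ρ ζ σ (fun ω => (ζ ω k - m k) * (ζ ω l - m l)) y = pc ρ ζ σ y k l := by
    intro k l
    have e : (fun ω => (ζ ω k - m k) * (ζ ω l - m l)) =
        fun ω => (ζ ω k * ζ ω l - m l * ζ ω k) - m k * (ζ ω l - m l) := by
      funext ω; ring
    have a1 := i_coord2 hζ h2 k l
    have a2 := (i_coord hζ h2 k).const_mul (m l)
    have a12 : Integrable (fun ω => ζ ω k * ζ ω l - m l * ζ ω k) ρ := a1.sub a2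
    rw [e, pe_sub hζ a12 ((i1 l).const_mul _), pe_sub hζ a1 a2, pe_const_mul, pe_const_mul, p1 l]
    unfold pc
    simp only [Matrix.of_apply, ← hm, mul_zero, sub_zero]
    have : pe ρ ζ σ (fun ω => ζ ω k) y = m k := rfl
    rw [this]
    ring
  have e : (fun ω => VV (fun k => ζ ω k) (fun k => m k + ∑ l, R k l * (ζ ω l - m l))) =
      fun ω => (∑ k, m k ^ 2) + (∑ k, (2 * m k) * (ζ ω k - m k)) +
        (∑ k, ∑ l, (2 * R k l) * ((ζ ω k - m k) * (ζ ω l - m l))) -
        ∑ k, ∑ l, ∑ l', (R k l * R k l') * ((ζ ω l - m l) * (ζ ω l' - m l')) := by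
    funext ω
    unfold VV
    rw [← Finset.sum_add_distrib, ← Finset.sum_add_distrib, ← Finset.sum_sub_distrib]
    refine Finset.sum_congr rfl fun k _ => ?_
    have e1 : ∑ l, (2 * R k l) * ((ζ ω k - m k) * (ζ ω l - m l)) =
        2 * (ζ ω k - m k) * ∑ l, R k l * (ζ ω l - m l) := by
      rw [Finset.mul_sum]
      exact Finset.sum_congr rfl fun l _ => by ring
    have e2 : ∑ l, ∑ l', (R k l * R k l') * ((ζ ω l - m l) * (ζ ω l' - m l')) =
        (∑ l, R k l * (ζ ω l - m l)) ^ 2 := by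
      rw [sq, Finset.sum_mul_sum]
      exact Finset.sum_congr rfl fun l _ => Finset.sum_congr rfl fun l' _ => by ring
    rw [e1, e2]
    ring
  rw [e]
  have j0 : Integrable (fun _ : Ω => ∑ k, m k ^ 2) ρ := integrable_const _
  have j1 : Integrable (fun ω => ∑ k, (2 * m k) * (ζ ω k - m k)) ρ :=
    integrable_finsetSum _ fun k _ => (i1 k).const_mul _
  have j2 : Integrable (fun ω => ∑ k, ∑ l, (2 * R k l) * ((ζ ω k - m k) * (ζ ω l - m l))) ρ :=
    integrable_finsetSum _ fun k _ => integrable_finsetSum _ fun l _ => (i2 k l).const_mul _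
  have j3 : Integrable (fun ω => ∑ k, ∑ l, ∑ l', (R k l * R k l') *
      ((ζ ω l - m l) * (ζ ω l' - m l'))) ρ :=
    integrable_finsetSum _ fun k _ => integrable_finsetSum _ fun l _ =>
      integrable_finsetSum _ fun l' _ => (i2 l l').const_mul _
  have j01 : Integrable (fun ω => (∑ k, m k ^ 2) + ∑ k, (2 * m k) * (ζ ω k - m k)) ρ := j0.add j1
  have j012 : Integrable (fun ω => (∑ k, m k ^ 2) + (∑ k, (2 * m k) * (ζ ω k - m k)) +
        ∑ k, ∑ l, (2 * R k l) * ((ζ ω k - m k) * (ζ ω l - m l))) ρ := j01.add j2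
  rw [pe_sub hζ j012 j3, pe_add hζ j01 j2, pe_add hζ j0 j1, pe_const hζ,
    pe_sum hζ _ fun k _ => (i1 k).const_mul _,
    pe_sum hζ _ fun k _ => integrable_finsetSum _ fun l _ => (i2 k l).const_mul _,
    pe_sum hζ _ fun k _ => integrable_finsetSum _ fun l _ =>
      integrable_finsetSum _ fun l' _ => (i2 l l').const_mul _]
  have k1 : ∑ k, pe ρ ζ σ (fun ω => (2 * m k) * (ζ ω k - m k)) y = 0 :=
    Finset.sum_eq_zero fun k _ => by rw [pe_const_mul, p1, mul_zero]
  have k2 : ∑ k, pe ρ ζ σ (fun ω => ∑ l, (2 * R k l) * ((ζ ω k - m k) * (ζ ω l - m l))) y =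
      2 * ∑ k, ∑ l, R k l * pc ρ ζ σ y k l := by
    rw [Finset.mul_sum]
    refine Finset.sum_congr rfl fun k _ => ?_
    rw [pe_sum hζ _ fun l _ => (i2 k l).const_mul _, Finset.mul_sum]
    refine Finset.sum_congr rfl fun l _ => ?_
    rw [pe_const_mul, p2]
    ring
  have k3 : ∑ k, pe ρ ζ σ (fun ω => ∑ l, ∑ l', (R k l * R k l') *
      ((ζ ω l - m l) * (ζ ω l' - m l'))) y = ∑ k, ∑ l, ∑ l', R k l * R k l' * pc ρ ζ σ y l l' := by
    refine Finset.sum_congr rfl fun k _ => ?_
    rw [pe_sum hζ _ fun l _ => integrable_finsetSum _ fun l' _ => (i2 l l').const_mul _]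
    refine Finset.sum_congr rfl fun l _ => ?_
    rw [pe_sum hζ _ fun l' _ => (i2 l l').const_mul _]
    refine Finset.sum_congr rfl fun l' _ => ?_
    rw [pe_const_mul, p2]
  rw [k1, k2, k3]
  ring

end Crest.Agent.R201.GC844
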