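import Crest.Agent.R201.GC5_844

/-!
# R201, LSI half (helper844): Gaussian channels, part 6: the static step
-/

set_option autoImplicit false
set_option linter.unusedSectionVars false
open MeasureTheory Matrix ProbabilityTheory Filter Topology
open scoped ENNReal RealInnerProductSpace

namespace Crest.Agent.R201.GC844

open Crest.Agent.R201 Crest.Agent.R285

variable {n : ℕ} {Ω : Type*} [MeasurableSpace Ω] {ρ : Measure Ω} [IsProbabilityMeasure ρ]
  {ζ : Ω → E n} {σ : ℝ}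

/-- rotation of two independent Gaussians -/
theorem rotMP (θ : ℝ) : MeasurePreserving
    (fun p : E n × E n => (Real.cos θ • p.1 - Real.sin θ • p.2, Real.sin θ • p.1 + Real.cos θ • p.2))
    ((gm n).prod (gm n)) ((gm n).prod (gm n)) := by
  refine ⟨by fun_prop, ?_⟩
  have h := IsGaussian.map_rotation_eq_self (μ := gm n) (by simp) (-θ)
  have e : (fun p : E n × E n => (Real.cos θ • p.1 - Real.sin θ • p.2,
      Real.sin θ • p.1 + Real.cos θ • p.2)) = ⇑(ContinuousLinearMap.rotation (-θ) :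
        E n × E n →L[ℝ] E n × E n) := by
    funext p
    rw [ContinuousLinearMap.rotation_apply]
    simp [sub_eq_add_neg]
  rw [e]
  exact h

/-- the rotation on `(Ω × E) × E` -/
theorem rot0 (ρ : Measure Ω) [IsProbabilityMeasure ρ] (θ : ℝ) : MeasurePreserving
    (fun p : (Ω × E n) × E n => ((p.1.1, Real.cos θ • p.1.2 - Real.sin θ • p.2),
      Real.sin θ • p.1.2 + Real.cos θ • p.2))
    ((ρ.prod (gm n)).prod (gm n)) ((ρ.prod (gm n)).prod (gm n)) := by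
  have h1 := measurePreserving_prodAssoc ρ (gm n) (gm n)
  have h2 := (MeasurePreserving.id ρ).prod (rotMP (n := n) θ)
  have h3 := (h1.symm _).comp (h2.comp h1)
  exact h3

theorem shMP (hζ : Measurable ζ) (σ : ℝ) : MeasurePreserving
    (fun p : Ω × E n => (p.1, σ • ζ p.1 + p.2)) (ρ.prod (gm n)) (jt ρ ζ σ) :=
  ⟨meas_sh hζ σ, rfl⟩

theorem mp_int {α β : Type*} [MeasurableSpace α] [MeasurableSpace β] {μ : Measure α}
    {ν : Measure β} {T : α → β} (hT : MeasurePreserving T μ ν) {f : β → ℝ} (hf : Measurable f) :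
    (Integrable (fun a => f (T a)) μ ↔ Integrable f ν) ∧ ∫ a, f (T a) ∂μ = ∫ b, f b ∂ν := by
  constructor
  · exact hT.integrable_comp hf.aestronglyMeasurable
  · rw [← hT.map_eq, integral_map hT.measurable.aemeasurable hf.aestronglyMeasurable]

/-- change of the pair of observations -/
theorem change (hζ : Measurable ζ) (σ' θ : ℝ) {f : (Ω × E n) × E n → ℝ} (hfm : Measurable f)
    (hf : Integrable (fun p : (Ω × E n) × E n =>
      f (p.1, (σ' * Real.sin θ) • ζ p.1.1 + p.2)) ((jt ρ ζ (σ' * Real.cos θ)).prod (gm n))) :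
    Integrable (fun p : (Ω × E n) × E n => f ((p.1.1, Real.cos θ • p.1.2 - Real.sin θ • p.2),
      Real.sin θ • p.1.2 + Real.cos θ • p.2)) ((jt ρ ζ σ').prod (gm n)) ∧
    ∫ p : (Ω × E n) × E n, f (p.1, (σ' * Real.sin θ) • ζ p.1.1 + p.2)
      ∂((jt ρ ζ (σ' * Real.cos θ)).prod (gm n)) =
    ∫ p : (Ω × E n) × E n, f ((p.1.1, Real.cos θ • p.1.2 - Real.sin θ • p.2),
      Real.sin θ • p.1.2 + Real.cos θ • p.2) ∂((jt ρ ζ σ').prod (gm n)) := by
  have : SFinite (jt ρ ζ (σ' * Real.cos θ)) := by unfold jt; infer_instance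
  have : SFinite (jt ρ ζ σ') := by unfold jt; infer_instance
  have m1 := (shMP (ρ := ρ) hζ (σ' * Real.cos θ)).prod (MeasurePreserving.id (gm n))
  have m2 := rot0 (n := n) ρ θ
  have m3 := (shMP (ρ := ρ) hζ σ').prod (MeasurePreserving.id (gm n))
  have m12 := m1.comp m2
  have q1 : Measurable fun p : (Ω × E n) × E n => f (p.1, (σ' * Real.sin θ) • ζ p.1.1 + p.2) :=
    hfm.comp (by fun_prop)
  have q2 : Measurable fun p : (Ω × E n) × E n =>
      f ((p.1.1, Real.cos θ • p.1.2 - Real.sin θ • p.2), Real.sin θ • p.1.2 + Real.cos θ • p.2) :=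
    hfm.comp (by fun_prop)
  have a1 := mp_int m12 q1
  have a2 := mp_int m3 q2
  have e : ∀ a : (Ω × E n) × E n, f ((a.1.1, Real.cos θ • (σ' • ζ a.1.1 + a.1.2) - Real.sin θ • a.2),
        Real.sin θ • (σ' • ζ a.1.1 + a.1.2) + Real.cos θ • a.2) =
      f ((a.1.1, (σ' * Real.cos θ) • ζ a.1.1 + (Real.cos θ • a.1.2 - Real.sin θ • a.2)),
        (σ' * Real.sin θ) • ζ a.1.1 + (Real.sin θ • a.1.2 + Real.cos θ • a.2)) := by
    intro a
    have h1 : (σ' * Real.cos θ) • ζ a.1.1 + (Real.cos θ • a.1.2 - Real.sin θ • a.2) =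
        Real.cos θ • (σ' • ζ a.1.1 + a.1.2) - Real.sin θ • a.2 := by module
    have h2 : (σ' * Real.sin θ) • ζ a.1.1 + (Real.sin θ • a.1.2 + Real.cos θ • a.2) =
        Real.sin θ • (σ' • ζ a.1.1 + a.1.2) + Real.cos θ • a.2 := by module
    rw [h1, h2]
  have b1 : Integrable (fun a : (Ω × E n) × E n =>
      f ((a.1.1, Real.cos θ • (σ' • ζ a.1.1 + a.1.2) - Real.sin θ • a.2),
        Real.sin θ • (σ' • ζ a.1.1 + a.1.2) + Real.cos θ • a.2)) ((ρ.prod (gm n)).prod (gm n)) :=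
    (a1.1.mpr hf).congr (Eventually.of_forall fun a => (e a).symm)
  refine ⟨a2.1.mp b1, ?_⟩
  rw [← a1.2, ← a2.2]
  exact integral_congr_ae (Eventually.of_forall fun a => (e a).symm)

section core

variable (ρ ζ σ) in
/-- the test functional -/
noncomputable def tf (r : ℝ) (R : E n → Mt n) (p : (Ω × E n) × E n) : ℝ :=
  VV (fun k => ζ p.1.1 k) (HH r (pm ρ ζ σ p.1.2) (R p.1.2) fun l => p.2 l)

theorem z_memLp (hζ : Measurable ζ) (h2 : Integrable (fun ω => ‖ζ ω‖ ^ 2) ρ) (k : Fin n) :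
    MemLp (fun ω => ζ ω k) 2 ρ :=
  (memLp_two_iff_integrable_sq (meas_coord hζ k).aestronglyMeasurable).mpr
    ((i_coord2 hζ h2 k k).congr (Eventually.of_forall fun ω => by simp only; ring))

theorem tf_meas (hζ : Measurable ζ) (h2 : Integrable (fun ω => ‖ζ ω‖ ^ 2) ρ) (r : ℝ)
    {R : E n → Mt n} (hR : ∀ k l, Measurable fun y => R y k l) : Measurable (tf ρ ζ σ r R) := by
  have hmm : ∀ k, Measurable fun y : E n => pm ρ ζ σ y k := fun k => (cont_pm hζ h2 k).measurable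
  have hcoord : ∀ k, Measurable fun y : E n => y k := fun k => by fun_prop
  unfold tf VV HH
  refine Finset.measurable_sum _ fun k _ => ?_
  have m1 : Measurable fun p : (Ω × E n) × E n => ζ p.1.1 k :=
    (meas_coord hζ k).comp (measurable_fst.comp measurable_fst)
  have m2 : Measurable fun p : (Ω × E n) × E n => pm ρ ζ σ p.1.2 k +
      ∑ l, R p.1.2 k l * (r * p.2 l - pm ρ ζ σ p.1.2 l) := by
    refine ((hmm k).comp (measurable_snd.comp measurable_fst)).add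
      (Finset.measurable_sum _ fun l _ => ?_)
    exact ((hR k l).comp (measurable_snd.comp measurable_fst)).mul
      ((((hcoord l).comp measurable_snd).const_mul r).sub
        ((hmm l).comp (measurable_snd.comp measurable_fst)))
  exact ((m1.const_mul 2).mul m2).sub (m2.pow_const 2)

theorem tf_eq (r τ : ℝ) (R : E n → Mt n) (p : Ω × E n) (g : E n) :
    tf ρ ζ σ r R (p, τ • ζ p.1 + g) =
      VV (fun k => ζ p.1 k) (HH r (pm ρ ζ σ p.2) (R p.2) fun l => τ * ζ p.1 l + g l) := by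
  unfold tf
  have : (fun l => (τ • ζ p.1 + g) l) = fun l => τ * ζ p.1 l + g l := by
    funext l
    simp
  rw [this]

theorem tf_int (hζ : Measurable ζ) (h2 : Integrable (fun ω => ‖ζ ω‖ ^ 2) ρ) (r τ : ℝ)
    {R : E n → Mt n} (hR : ∀ k l, Measurable fun y => R y k l) (hb : ∀ y k l, |R y k l| ≤ 1) :
    Integrable (fun p : (Ω × E n) × E n => tf ρ ζ σ r R (p.1, τ • ζ p.1.1 + p.2))
      ((jt ρ ζ σ).prod (gm n)) := by
  have : Fact (Measurable ζ) := ⟨hζ⟩
  have L1 : ∀ k, MemLp (fun p : (Ω × E n) × E n => ζ p.1.1 k) 2 ((jt ρ ζ σ).prod (gm n)) :=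
    fun k => (coord_memLp (σ := σ) hζ h2 k).comp_fst (gm n)
  have L2 : ∀ k, MemLp (fun p : (Ω × E n) × E n => pm ρ ζ σ p.1.2 k) 2
      ((jt ρ ζ σ).prod (gm n)) := fun k => (pm_memLp (σ := σ) hζ h2 k).comp_fst (gm n)
  have L3 : ∀ k, MemLp (fun p : (Ω × E n) × E n => p.2 k) 2 ((jt ρ ζ σ).prod (gm n)) :=
    fun k => (g_memLp k).comp_snd (jt ρ ζ σ)
  have L4 : ∀ k, MemLp (fun p : (Ω × E n) × E n => τ * ζ p.1.1 k + p.2 k) 2
      ((jt ρ ζ σ).prod (gm n)) := fun k => ((L1 k).const_mul τ).add (L3 k)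
  have e : (fun p : (Ω × E n) × E n => tf ρ ζ σ r R (p.1, τ • ζ p.1.1 + p.2)) =
      fun p => VV (fun k => ζ p.1.1 k) (HH r (pm ρ ζ σ p.1.2) (R p.1.2)
        fun l => τ * ζ p.1.1 l + p.2 l) := funext fun p => tf_eq r τ R p.1 p.2
  rw [e]
  exact VV_int L1 (HH_memLp (R := fun p : (Ω × E n) × E n => R p.1.2)
      (fun k l => (hR k l).comp (measurable_snd.comp measurable_fst)) (fun a k l => hb _ _ _) r
      L2 L4)

variable (ρ ζ σ) in
/-- the gained energy density -/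
noncomputable def gain (r : ℝ) (R : E n → Mt n) (y : E n) : ℝ :=
  (∑ k, pm ρ ζ σ y k ^ 2) + 2 * (∑ k, ∑ l, R y k l * pc ρ ζ σ y k l) -
      (∑ k, ∑ l, ∑ l', R y k l * R y k l' * pc ρ ζ σ y l l') - r ^ 2 * ∑ k, ∑ l, R y k l ^ 2

variable (ρ ζ σ) in
/-- the functional after integration over the second observation -/
noncomputable def Qf (r : ℝ) (R : E n → Mt n) (p : Ω × E n) : ℝ :=
  VV (fun k => ζ p.1 k) (fun k => pm ρ ζ σ p.2 k +
        ∑ l, R p.2 k l * (ζ p.1 l - pm ρ ζ σ p.2 l)) - r ^ 2 * ∑ k, ∑ l, R p.2 k l ^ 2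

theorem Qf_pe (hζ : Measurable ζ) (h2 : Integrable (fun ω => ‖ζ ω‖ ^ 2) ρ) (r : ℝ)
    (R : E n → Mt n) (y : E n) : pe ρ ζ σ (fun ω => Qf ρ ζ σ r R (ω, y)) y = gain ρ ζ σ r R y := by
  have hz := z_memLp (ρ := ρ) hζ h2
  have hb : ∀ k, MemLp (fun ω => pm ρ ζ σ y k + ∑ l, R y k l * (ζ ω l - pm ρ ζ σ y l)) 2 ρ := by
    intro k
    have h1 : ∀ l, MemLp (fun ω => R y k l * (ζ ω l - pm ρ ζ σ y l)) 2 ρ := fun l =>
      ((hz l).sub (memLp_const (pm ρ ζ σ y l))).const_mul (R y k l)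
    have h3 : MemLp (fun ω => ∑ l, R y k l * (ζ ω l - pm ρ ζ σ y l)) 2 ρ :=
      memLp_finsetSum _ fun l _ => h1 l
    exact (memLp_const (pm ρ ζ σ y k)).add h3
  have i1 : Integrable (fun ω => VV (fun k => ζ ω k) (fun k => pm ρ ζ σ y k +
      ∑ l, R y k l * (ζ ω l - pm ρ ζ σ y l))) ρ :=
    VV_int (z := fun ω k => ζ ω k) (h := fun ω k => pm ρ ζ σ y k +
      ∑ l, R y k l * (ζ ω l - pm ρ ζ σ y l)) hz hb
  unfold Qf gain
  simp only
  rw [pe_sub hζ i1 (integrable_const _), pe_const hζ, pe_VV hζ h2]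

theorem left_side (hζ : Measurable ζ) (h2 : Integrable (fun ω => ‖ζ ω‖ ^ 2) ρ) {r τ : ℝ}
    (hr : r * τ = 1) {R : E n → Mt n} (hR : ∀ k l, Measurable fun y => R y k l)
    (hb : ∀ y k l, |R y k l| ≤ 1) :
    Integrable (fun y => wt ρ ζ σ y * gain ρ ζ σ r R y) (gm n) ∧
    ∫ p : (Ω × E n) × E n, tf ρ ζ σ r R (p.1, τ • ζ p.1.1 + p.2) ∂((jt ρ ζ σ).prod (gm n)) =
      ∫ y, wt ρ ζ σ y * gain ρ ζ σ r R y ∂(gm n) := by
  have : Fact (Measurable ζ) := ⟨hζ⟩
  have hfi := tf_int (σ := σ) hζ h2 r τ hR hb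
  have e1 : ∀ p : Ω × E n, ∫ g, tf ρ ζ σ r R (p, τ • ζ p.1 + g) ∂(gm n) = Qf ρ ζ σ r R p := by
    intro p
    simp only [tf_eq]
    exact inner_g r τ hr (fun k => ζ p.1 k) (pm ρ ζ σ p.2) (R p.2)
  have hint : Integrable (Qf ρ ζ σ r R) (jt ρ ζ σ) :=
    (hfi.integral_prod_left).congr (Eventually.of_forall fun p => e1 p)
  have e2 : ∫ p : (Ω × E n) × E n, tf ρ ζ σ r R (p.1, τ • ζ p.1.1 + p.2)
      ∂((jt ρ ζ σ).prod (gm n)) = ∫ p : Ω × E n, Qf ρ ζ σ r R p ∂(jt ρ ζ σ) := by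
    rw [integral_prod _ hfi]
    exact integral_congr_ae (Eventually.of_forall fun p => e1 p)
  obtain ⟨d1, d2⟩ := dis_gen (σ := σ) hζ hint
  simp only [Qf_pe hζ h2] at d1 d2
  exact ⟨d1, by rw [e2, d2]⟩

theorem En_int (hζ : Measurable ζ) (h2 : Integrable (fun ω => ‖ζ ω‖ ^ 2) ρ) :
    Integrable (fun y => wt ρ ζ σ y * ∑ k, pm ρ ζ σ y k ^ 2) (gm n) := by
  simp only [Finset.mul_sum]
  exact integrable_finsetSum _ fun k _ => pm_sq_int hζ h2 k

/-- any estimator is worse than the posterior mean -/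
theorem est_le (hζ : Measurable ζ) (h2 : Integrable (fun ω => ‖ζ ω‖ ^ 2) ρ) {h : E n → Fin n → ℝ}
    (hi : Integrable (fun p : Ω × E n => VV (fun k => ζ p.1 k) (h p.2)) (jt ρ ζ σ)) :
    ∫ p : Ω × E n, VV (fun k => ζ p.1 k) (h p.2) ∂(jt ρ ζ σ) ≤ En ρ ζ σ := by
  obtain ⟨g1, g2⟩ := dis_gen (σ := σ) hζ hi
  rw [g2]
  unfold En
  refine integral_mono g1 (En_int hζ h2) fun y => ?_
  refine mul_le_mul_of_nonneg_left ?_ (wt_pos hζ y).le
  have e4 : pe ρ ζ σ (fun ω => VV (fun k => ζ ω k) (h y)) y = VV (pm ρ ζ σ y) (h y) := by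
    unfold VV
    have i1 : ∀ k, Integrable (fun ω => 2 * ζ ω k * h y k) ρ := fun k =>
      (((i_coord hζ h2 k).const_mul 2).mul_const (h y k))
    have i2 : ∀ k, Integrable (fun ω => 2 * ζ ω k * h y k - h y k ^ 2) ρ := fun k =>
      (i1 k).sub (integrable_const _)
    rw [pe_sum hζ _ fun k _ => i2 k]
    refine Finset.sum_congr rfl fun k _ => ?_
    rw [pe_sub hζ (i1 k) (integrable_const _), pe_const hζ]
    have : (fun ω => 2 * ζ ω k * h y k) = fun ω => (2 * h y k) * ζ ω k := by funext ω; ring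
    rw [this, pe_const_mul]
    unfold pm
    ring
  show pe ρ ζ σ (fun ω => VV (fun k => ζ ω k) (h y)) y ≤ _
  rw [e4]
  exact VV_le _ _

/-- **static step**, general matrix field `R` -/
theorem static_core (hζ : Measurable ζ) (h2 : Integrable (fun ω => ‖ζ ω‖ ^ 2) ρ) (σ' θ r : ℝ)
    (hr : r * (σ' * Real.sin θ) = 1) {R : E n → Mt n} (hR : ∀ k l, Measurable fun y => R y k l)
    (hb : ∀ y k l, |R y k l| ≤ 1) :
    Integrable (fun y => wt ρ ζ (σ' * Real.cos θ) y * gain ρ ζ (σ' * Real.cos θ) r R y) (gm n) ∧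
    ∫ y, wt ρ ζ (σ' * Real.cos θ) y * gain ρ ζ (σ' * Real.cos θ) r R y ∂(gm n) ≤ En ρ ζ σ' := by
  have : Fact (Measurable ζ) := ⟨hζ⟩
  obtain ⟨d1, d2⟩ := left_side (σ := σ' * Real.cos θ) hζ h2 hr hR hb
  refine ⟨d1, ?_⟩
  obtain ⟨c1, c2⟩ := change hζ σ' θ (tf_meas (σ := σ' * Real.cos θ) hζ h2 r hR)
    (tf_int hζ h2 r _ hR hb)
  rw [← d2, c2, integral_prod_symm _ c1]
  have hEn : ∫ _ : E n, En ρ ζ σ' ∂(gm n) = En ρ ζ σ' := by simp
  rw [← hEn]
  refine integral_mono_ae c1.integral_prod_right (integrable_const _) ?_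
  filter_upwards [c1.prod_left_ae] with g hg
  exact est_le hζ h2 (h := fun y => HH r (pm ρ ζ (σ' * Real.cos θ)
    (Real.cos θ • y - Real.sin θ • g)) (R (Real.cos θ • y - Real.sin θ • g))
    fun l => (Real.sin θ • y + Real.cos θ • g) l) hg

end core

end Crest.Agent.R201.GC844
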