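import Crest.Agent.R201.LabLSI_809
import Crest.Agent.R201.An7_293

/-!
# R201, LSI half (helper809): the standard Gaussian `gam n = nm (gk 1)`, integration by parts, moments
-/

set_option autoImplicit false
set_option maxHeartbeats 400000
set_option linter.unusedSectionVars false
open MeasureTheory Matrix Filter Topology ProbabilityTheory
open scoped ContDiff RealInnerProductSpace

namespace Crest.Agent.R201.LL809

open Crest.Agent.R201.An

variable {n : ℕ} {F G : E n → ℝ}

lemma ex_gk {s : ℝ} (hs : 0 < s) : Ex (gk s : E n → ℝ) where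
  nonneg z := (gk_pos s z).le
  meas := (gk_cont s).measurable
  int a := int_exp_gk hs a
  pos := gk_int_pos hs

/-- the standard Gaussian measure -/
noncomputable def gam (n : ℕ) : Measure (E n) := nm (gk 1)

instance gam_prob (n : ℕ) : IsProbabilityMeasure (gam n) := nm_prob (ex_gk one_pos)

lemma int_gam (F : E n → ℝ) : ∫ y, F y ∂(gam n) = Em (gk 1) F := int_nm (ex_gk one_pos) F

lemma pd_gk_one (k : Fin n) (y : E n) : pd k (gk 1) y = -(y k * gk 1 y) := by
  have h := gk_hasFDerivAt 1 (0 : E n) y
  simp only [sub_zero] at h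
  have h2 : HasFDerivAt (gk 1 : E n → ℝ) ((gk 1 y * (-(1 / (2 * 1)))) • ((2 : ℝ) • innerSL ℝ y)) y :=
    h
  unfold pd
  rw [h2.fderiv]
  simp only [FunLike.coe_smul, Pi.smul_apply, smul_eq_mul, innerSL_apply_apply]
  have : (⟪y, EuclideanSpace.single k (1 : ℝ)⟫ : ℝ) = y k := by
    rw [real_inner_comm, EuclideanSpace.inner_single_left]
    simp
  rw [this]
  ring

/-- Gaussian integration by parts -/
theorem gibp (k : Fin n) (hF : Differentiable ℝ F) (h0 : EG F) (h1 : EG (pd k F)) :
    Em (gk 1) (fun x => x k * F x) = Em (gk 1) (pd k F) := by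
  have hρ : Ex (gk 1 : E n → ℝ) := ex_gk one_pos
  have key := integral_mul_fderiv_eq_neg_fderiv_mul_of_integrable (μ := (volume : Measure (E n)))
    (f := F) (g := gk 1) (v := EuclideanSpace.single k (1 : ℝ))
    (hρ.int_mul h1) ?_ (hρ.int_mul h0) (fun x _ => hF x)
    (fun x _ => by
      have h := gk_hasFDerivAt 1 (0 : E n) x
      simp only [sub_zero] at h
      exact h.differentiableAt)
  · unfold Em
    congr 1
    change ∫ x, F x * pd k (gk 1) x = -∫ x, pd k F x * gk 1 x at key
    rw [← neg_eq_iff_eq_neg] at key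
    rw [← key, ← integral_neg]
    refine integral_congr_ae (ae_of_all _ fun x => ?_)
    simp only
    rw [pd_gk_one]
    ring
  · change Integrable fun x => F x * pd k (gk 1) x
    have e : (fun x => F x * pd k (gk 1) x) = fun x : E n => (-(x k * F x)) * gk 1 x := by
      funext x
      rw [pd_gk_one]
      ring
    rw [e]
    exact hρ.int_mul ((EG.coord k).mul h0).neg

/-! ### polynomial moments -/

lemma diff_coord (k : Fin n) : Differentiable ℝ fun x : E n => x k := by fun_prop

lemma pd_co (k l : Fin n) (x : E n) : pd k (fun x : E n => x l) x = if k = l then 1 else 0 :=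
  pd_coord k l x

lemma EG_ind (a : Prop) [Decidable a] : EG fun _ : E n => (if a then (1 : ℝ) else 0) := EG.const _

lemma m1 (i : Fin n) : Em (gk 1) (fun x : E n => x i) = 0 := by
  have h := gibp i (F := fun _ : E n => (1 : ℝ)) (differentiable_const 1) (EG.const 1)
    (by
      have : pd i (fun _ : E n => (1 : ℝ)) = fun _ => 0 := by
        funext x; exact Tw807.pd_const 1 i x
      rw [this]; exact EG.const 0)
  have e : pd i (fun _ : E n => (1 : ℝ)) = fun _ => 0 := by
    funext x; exact Tw807.pd_const 1 i x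
  rw [e, Em_const (ex_gk one_pos)] at h
  simpa using h

lemma m2 (i j : Fin n) : Em (gk 1) (fun x : E n => x i * x j) = if i = j then 1 else 0 := by
  have e : pd i (fun x : E n => x j) = fun _ => if i = j then 1 else 0 := by
    funext x; exact pd_coord i j x
  have h := gibp i (F := fun x : E n => x j) (diff_coord j) (EG.coord j) (by rw [e]; exact EG.const _)
  rw [e, Em_const (ex_gk one_pos)] at h
  exact h

lemma pd_co2 (i j k : Fin n) : pd i (fun x : E n => x j * x k) =
    fun x => (if i = j then 1 else 0) * x k + x j * (if i = k then 1 else 0) := by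
  funext x
  rw [Tw807.pd_mul i (diff_coord j x) (diff_coord k x), pd_coord, pd_coord]
  ring

lemma m3 (i j k : Fin n) : Em (gk 1) (fun x : E n => x i * (x j * x k)) = 0 := by
  have h := gibp i (F := fun x : E n => x j * x k) ((diff_coord j).mul (diff_coord k))
    ((EG.coord j).mul (EG.coord k))
    (by
      rw [pd_co2]
      exact ((EG.coord k).smul _).add ((EG.coord j).mul (EG.const _)))
  rw [h, pd_co2, Em_add (ex_gk one_pos) ((EG.coord k).smul _) ((EG.coord j).mul (EG.const _)),
    Em_smul, m1]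
  have e : (fun x : E n => x j * (if i = k then (1 : ℝ) else 0)) =
      fun x => (if i = k then (1 : ℝ) else 0) * x j := by funext x; ring
  rw [e, Em_smul, m1]
  ring

lemma m4 (i j k l : Fin n) : Em (gk 1) (fun x : E n => x i * (x j * (x k * x l))) =
    (if i = j then 1 else 0) * (if k = l then 1 else 0) +
      (if i = k then 1 else 0) * (if j = l then 1 else 0) +
      (if i = l then 1 else 0) * (if j = k then 1 else 0) := by
  have e : pd i (fun x : E n => x j * (x k * x l)) =
      fun x => (if i = j then 1 else 0) * (x k * x l) +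
        ((if i = k then 1 else 0) * (x j * x l) + (if i = l then 1 else 0) * (x j * x k)) := by
    funext x
    have hd : DifferentiableAt ℝ (fun x : E n => x k * x l) x :=
      ((diff_coord k).mul (diff_coord l)) x
    rw [Tw807.pd_mul i (diff_coord j x) hd, pd_coord]
    have := congrFun (pd_co2 i k l) x
    rw [this]
    ring
  have g2 : ∀ a b : Fin n, EG fun x : E n => x a * x b := fun a b => (EG.coord a).mul (EG.coord b)
  have h := gibp i (F := fun x : E n => x j * (x k * x l))
    ((diff_coord j).mul ((diff_coord k).mul (diff_coord l)))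
    ((EG.coord j).mul (g2 k l))
    (by
      rw [e]
      exact ((g2 k l).smul _).add (((g2 j l).smul _).add ((g2 j k).smul _)))
  rw [h, e, Em_add (ex_gk one_pos) ((g2 k l).smul _) (((g2 j l).smul _).add ((g2 j k).smul _)),
    Em_add (ex_gk one_pos) ((g2 j l).smul _) ((g2 j k).smul _), Em_smul, Em_smul, Em_smul, m2, m2,
    m2]
  ring

/-! ### linear and quadratic forms -/

lemma EGl (u : Fin n → ℝ) : EG fun x : E n => ∑ i, u i * x i := EG.lin u

lemma EGq (N : Mt n) : EG fun x : E n => ∑ i, ∑ j, N i j * (x i * x j) :=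
  EG.sum _ fun i _ => EG.sum _ fun j _ => ((EG.coord i).mul (EG.coord j)).smul _

lemma ml (u : Fin n → ℝ) : Em (gk 1) (fun x : E n => ∑ i, u i * x i) = 0 := by
  rw [Em_sum _ (ex_gk one_pos) fun i _ => (EG.coord i).smul (u i)]
  simp only [Em_smul, m1, mul_zero, Finset.sum_const_zero]

lemma mq (N : Mt n) : Em (gk 1) (fun x : E n => ∑ i, ∑ j, N i j * (x i * x j)) = N.trace := by
  rw [Em_sum _ (ex_gk one_pos) fun i _ => EG.sum _ fun j _ => ((EG.coord i).mul (EG.coord j)).smul _]
  unfold Matrix.trace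
  refine Finset.sum_congr rfl fun i _ => ?_
  rw [Em_sum _ (ex_gk one_pos) fun j _ => ((EG.coord i).mul (EG.coord j)).smul _]
  simp only [Em_smul, m2, diag_apply]
  simp

lemma mll (u v : Fin n → ℝ) :
    Em (gk 1) (fun x : E n => (∑ i, u i * x i) * ∑ j, v j * x j) = u ⬝ᵥ v := by
  have e : (fun x : E n => (∑ i, u i * x i) * ∑ j, v j * x j) =
      fun x => ∑ i, ∑ j, (Matrix.vecMulVec u v) i j * (x i * x j) := by
    funext x
    rw [Finset.sum_mul_sum]
    refine Finset.sum_congr rfl fun i _ => Finset.sum_congr rfl fun j _ => ?_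
    simp only [Matrix.vecMulVec_apply]
    ring
  rw [e, mq]
  simp [Matrix.trace, Matrix.vecMulVec_apply, dotProduct]

lemma mlq (u : Fin n → ℝ) (N : Mt n) :
    Em (gk 1) (fun x : E n => (∑ i, u i * x i) * ∑ j, ∑ k, N j k * (x j * x k)) = 0 := by
  have e : (fun x : E n => (∑ i, u i * x i) * ∑ j, ∑ k, N j k * (x j * x k)) =
      fun x => ∑ i, ∑ j, ∑ k, (u i * N j k) * (x i * (x j * x k)) := by
    funext x
    rw [Finset.sum_mul]
    refine Finset.sum_congr rfl fun i _ => ?_
    rw [Finset.mul_sum]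
    refine Finset.sum_congr rfl fun j _ => ?_
    rw [Finset.mul_sum]
    exact Finset.sum_congr rfl fun k _ => by ring
  have g3 : ∀ i j k : Fin n, EG fun x : E n => (u i * N j k) * (x i * (x j * x k)) :=
    fun i j k => ((EG.coord i).mul ((EG.coord j).mul (EG.coord k))).smul _
  rw [e, Em_sum _ (ex_gk one_pos) fun i _ => EG.sum _ fun j _ => EG.sum _ fun k _ => g3 i j k]
  refine Finset.sum_eq_zero fun i _ => ?_
  rw [Em_sum _ (ex_gk one_pos) fun j _ => EG.sum _ fun k _ => g3 i j k]
  refine Finset.sum_eq_zero fun j _ => ?_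
  rw [Em_sum _ (ex_gk one_pos) fun k _ => g3 i j k]
  refine Finset.sum_eq_zero fun k _ => ?_
  rw [Em_smul, m3, mul_zero]

lemma mqq (N : Mt n) :
    Em (gk 1) (fun x : E n => (∑ i, ∑ j, N i j * (x i * x j)) ^ 2) =
      N.trace ^ 2 + (N * Nᵀ).trace + (N * N).trace := by
  have e : (fun x : E n => (∑ i, ∑ j, N i j * (x i * x j)) ^ 2) =
      fun x => ∑ i, ∑ j, ∑ k, ∑ l, (N i j * N k l) * (x i * (x j * (x k * x l))) := by
    funext x
    rw [sq, Finset.sum_mul]
    refine Finset.sum_congr rfl fun i _ => ?_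
    rw [Finset.sum_mul]
    refine Finset.sum_congr rfl fun j _ => ?_
    rw [Finset.mul_sum]
    refine Finset.sum_congr rfl fun k _ => ?_
    rw [Finset.mul_sum]
    exact Finset.sum_congr rfl fun l _ => by ring
  have g4 : ∀ i j k l : Fin n, EG fun x : E n => (N i j * N k l) * (x i * (x j * (x k * x l))) :=
    fun i j k l => ((EG.coord i).mul ((EG.coord j).mul ((EG.coord k).mul (EG.coord l)))).smul _
  rw [e, Em_sum _ (ex_gk one_pos) fun i _ => EG.sum _ fun j _ => EG.sum _ fun k _ =>
    EG.sum _ fun l _ => g4 i j k l]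
  have e2 : ∀ i, Em (gk 1) (fun x : E n => ∑ j, ∑ k, ∑ l, (N i j * N k l) *
      (x i * (x j * (x k * x l)))) = N i i * N.trace + (∑ j, N i j * N i j) + ∑ j, N i j * N j i := by
    intro i
    rw [Em_sum _ (ex_gk one_pos) fun j _ => EG.sum _ fun k _ => EG.sum _ fun l _ => g4 i j k l]
    have e3 : ∀ j, Em (gk 1) (fun x : E n => ∑ k, ∑ l, (N i j * N k l) *
        (x i * (x j * (x k * x l)))) =
        (if i = j then 1 else 0) * (N i j * N.trace) + N i j * N i j + N i j * N j i := by
      intro j
      rw [Em_sum _ (ex_gk one_pos) fun k _ => EG.sum _ fun l _ => g4 i j k l]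
      have e4 : ∀ k, Em (gk 1) (fun x : E n => ∑ l, (N i j * N k l) *
          (x i * (x j * (x k * x l)))) =
          (if i = j then 1 else 0) * (N i j * N k k) +
            (if i = k then 1 else 0) * (N i j * N k j) +
            (if j = k then 1 else 0) * (N i j * N k i) := by
        intro k
        rw [Em_sum _ (ex_gk one_pos) fun l _ => g4 i j k l]
        simp only [Em_smul, m4]
        have : ∀ l, N i j * N k l * ((if i = j then 1 else 0) * (if k = l then 1 else 0) +
            (if i = k then 1 else 0) * (if j = l then 1 else 0) +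
            (if i = l then 1 else 0) * (if j = k then 1 else 0)) =
            (if i = j then 1 else 0) * N i j * ((if k = l then 1 else 0) * N k l) +
            (if i = k then 1 else 0) * N i j * ((if j = l then 1 else 0) * N k l) +
            (if j = k then 1 else 0) * N i j * ((if i = l then 1 else 0) * N k l) := by
          intro l; ring
        simp only [this]
        rw [Finset.sum_add_distrib, Finset.sum_add_distrib, ← Finset.mul_sum, ← Finset.mul_sum,
          ← Finset.mul_sum]
        simp only [ite_mul, one_mul, zero_mul, Finset.sum_ite_eq, Finset.mem_univ, if_true]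
      simp only [e4]
      rw [Finset.sum_add_distrib, Finset.sum_add_distrib, ← Finset.mul_sum, ← Finset.mul_sum]
      simp only [ite_mul, one_mul, zero_mul, Finset.sum_ite_eq, Finset.mem_univ, if_true]
      rfl
    simp only [e3]
    rw [Finset.sum_add_distrib, Finset.sum_add_distrib]
    simp only [ite_mul, one_mul, zero_mul, Finset.sum_ite_eq, Finset.mem_univ, if_true]
  simp only [e2]
  rw [Finset.sum_add_distrib, Finset.sum_add_distrib, ← Finset.sum_mul, sq]
  simp only [Matrix.trace, diag_apply, Matrix.mul_apply, transpose_apply]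

/-- second moment of the score of a Gaussian channel, in whitened coordinates -/
theorem mscore (u : Fin n → ℝ) (N : Mt n) :
    Em (gk 1) (fun x : E n => ((∑ i, u i * x i) + ((∑ i, ∑ j, N i j * (x i * x j)) - N.trace)) ^ 2) =
      u ⬝ᵥ u + (N * Nᵀ).trace + (N * N).trace := by
  have e : (fun x : E n => ((∑ i, u i * x i) + ((∑ i, ∑ j, N i j * (x i * x j)) - N.trace)) ^ 2) =
      fun x => ((∑ i, u i * x i) * ∑ j, u j * x j) +
        (2 * ((∑ i, u i * x i) * ∑ j, ∑ k, N j k * (x j * x k)) +
        ((-2 * N.trace) * (∑ i, u i * x i) + ((∑ i, ∑ j, N i j * (x i * x j)) ^ 2 +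
        ((-2 * N.trace) * (∑ i, ∑ j, N i j * (x i * x j)) + N.trace ^ 2)))) := by
    funext x; ring
  have hρ : Ex (gk 1 : E n → ℝ) := ex_gk one_pos
  have a1 := (EGl u).mul (EGl u)
  have a2 := ((EGl u).mul (EGq N)).smul 2
  have a3 := (EGl u).smul (-2 * N.trace)
  have a4 : EG fun x : E n => (∑ i, ∑ j, N i j * (x i * x j)) ^ 2 := by
    simpa [sq] using (EGq N).mul (EGq N)
  have a5 := (EGq N).smul (-2 * N.trace)
  have a6 : EG fun _ : E n => N.trace ^ 2 := EG.const _
  rw [e, Em_add hρ a1 (a2.add (a3.add (a4.add (a5.add a6)))),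
    Em_add hρ a2 (a3.add (a4.add (a5.add a6))), Em_add hρ a3 (a4.add (a5.add a6)),
    Em_add hρ a4 (a5.add a6), Em_add hρ a5 a6, Em_smul, Em_smul, Em_smul, Em_const hρ, mll, mlq, ml,
    mqq, mq]
  ring

/-- the score is centred -/
theorem mscore0 (u : Fin n → ℝ) (N : Mt n) :
    Em (gk 1) (fun x : E n => (∑ i, u i * x i) + ((∑ i, ∑ j, N i j * (x i * x j)) - N.trace)) =
      0 := by
  have hρ : Ex (gk 1 : E n → ℝ) := ex_gk one_pos
  rw [Em_add hρ (EGl u) ((EGq N).sub (EG.const _)), Em_sub hρ (EGq N) (EG.const _), ml, mq,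
    Em_const hρ]
  ring

/-- `gam n` is Mathlib's standard Gaussian -/
theorem gam_eq : gam n = stdGaussian (E n) := by
  refine Measure.ext_of_charFun (funext fun t => ?_)
  rw [charFun_stdGaussian, charFun_apply]
  have hρ : Ex (gk 1 : E n → ℝ) := ex_gk one_pos
  have h0 : (∫ z : E n, gk 1 z) ≠ 0 := hρ.pos.ne'
  have e1 : ∀ c : ℂ, ∀ w : E n, ∫ v : E n, Complex.exp (-(1 / 2 : ℂ) * ‖v‖ ^ 2 + c * ⟪w, v⟫) =
      (Real.pi / (1 / 2 : ℂ)) ^ (Module.finrank ℝ (E n) / 2 : ℂ) *
        Complex.exp (c ^ 2 * ‖w‖ ^ 2 / (4 * (1 / 2 : ℂ))) := fun c w =>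
    GaussianFourier.integral_cexp_neg_mul_sq_norm_add (by norm_num) c w
  have e2 : ∀ v : E n, ((gk 1 v : ℝ) : ℂ) = Complex.exp (-(1 / 2 : ℂ) * ‖v‖ ^ 2) := by
    intro v
    unfold gk
    push_cast
    congr 1
    ring
  have hZ : ((∫ z : E n, gk 1 z : ℝ) : ℂ) =
      (Real.pi / (1 / 2 : ℂ)) ^ (Module.finrank ℝ (E n) / 2 : ℂ) := by
    rw [← integral_complex_ofReal]
    have := e1 0 0
    simp only [zero_mul, add_zero] at this
    simp only [e2]
    rw [this]
    simp
  unfold gam nm
  rw [integral_withDensity_eq_integral_toReal_smul (nm_dens_meas hρ)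
    (ae_of_all _ fun x => ENNReal.ofReal_lt_top)]
  have e3 : ∀ y : E n, (ENNReal.ofReal (gk 1 y / ∫ z : E n, gk 1 z)).toReal •
      Complex.exp (⟪y, t⟫ * Complex.I) = ((∫ z : E n, gk 1 z : ℝ) : ℂ)⁻¹ *
        Complex.exp (-(1 / 2 : ℂ) * ‖y‖ ^ 2 + Complex.I * ⟪t, y⟫) := by
    intro y
    rw [ENNReal.toReal_ofReal (div_nonneg (hρ.nonneg y) hρ.pos.le), Complex.real_smul]
    push_cast
    rw [e2, Complex.exp_add, real_inner_comm]
    ring
  simp only [e3]
  rw [integral_const_mul, e1, ← hZ]
  rw [← mul_assoc, inv_mul_cancel₀ (by exact_mod_cast h0), one_mul]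
  congr 1
  rw [Complex.I_sq]
  ring_nf

end Crest.Agent.R201.LL809
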