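import Crest.Agent.R201.GC4_844
import Crest.Agent.R201.LabG1_809

/-!
# R201, LSI half (helper844): Stein identity for Gaussian fields `ζ(x,g) = A(x) g`
-/

set_option autoImplicit false
set_option linter.unusedSectionVars false
open MeasureTheory Matrix ProbabilityTheory Filter Topology
open scoped ENNReal RealInnerProductSpace

namespace Crest.Agent.R201.GS844

open Crest.Agent.R201 Crest.Agent.R201.An Crest.Agent.R201.GC844

variable {n : ℕ}

/-- `A g` in `E n` -/
noncomputable def mv (A : Mt n) (g : E n) : E n := Matrix.toEuclideanCLM (𝕜 := ℝ) A g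

theorem mv_apply (A : Mt n) (g : E n) (k : Fin n) : mv A g k = ∑ l, A k l * g l := by
  unfold mv
  simp [Matrix.mulVec, dotProduct]

theorem mv_single (A : Mt n) (j k : Fin n) : mv A (EuclideanSpace.single j (1 : ℝ)) k = A k j := by
  rw [mv_apply]
  simp

theorem inner_sum (x y : E n) : (⟪x, y⟫ : ℝ) = ∑ k, x k * y k := by
  rw [PiLp.inner_apply]
  exact Finset.sum_congr rfl fun k _ => by simp [mul_comm]

theorem hasFDerivAt_Lmv (A : Mt n) (σ : ℝ) (y g : E n) :
    HasFDerivAt (fun g => L σ (mv A g) y)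
      (L σ (mv A g) y • (σ • ((innerSL ℝ y).comp (Matrix.toEuclideanCLM (𝕜 := ℝ) A)) -
        σ ^ 2 • ((innerSL ℝ (mv A g)).comp (Matrix.toEuclideanCLM (𝕜 := ℝ) A)))) g := by
  unfold L
  have hT : HasFDerivAt (fun g => mv A g) (Matrix.toEuclideanCLM (𝕜 := ℝ) A) g :=
    (Matrix.toEuclideanCLM (𝕜 := ℝ) A).hasFDerivAt
  have h1 : HasFDerivAt (fun g : E n => (⟪mv A g, y⟫ : ℝ))
      ((innerSL ℝ y).comp (Matrix.toEuclideanCLM (𝕜 := ℝ) A)) g := by
    have h := (innerSL ℝ y).hasFDerivAt.comp g hT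
    refine h.congr_of_eventuallyEq (Eventually.of_forall fun z => ?_)
    simp only [Function.comp_apply, innerSL_apply_apply]
    exact real_inner_comm _ _
  have h2 : HasFDerivAt (fun g : E n => ‖mv A g‖ ^ 2)
      (2 • (innerSL ℝ (mv A g)).comp (Matrix.toEuclideanCLM (𝕜 := ℝ) A)) g := hT.norm_sq
  have h3 := ((h1.const_mul σ).sub ((h2.const_mul (σ ^ 2)).mul_const (1 / 2))).exp
  refine (h3.congr_of_eventuallyEq (Eventually.of_forall fun z => ?_)).congr_fderiv ?_
  · simp only [Pi.sub_apply]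
    congr 1
    ring
  · ext v
    simp only [_root_.smul_apply, _root_.sub_apply, smul_eq_mul, ContinuousLinearMap.comp_apply,
      innerSL_apply_apply, Pi.sub_apply]
    have e : σ * ⟪mv A g, y⟫ - σ ^ 2 * ‖mv A g‖ ^ 2 * (1 / 2) =
        σ * ⟪mv A g, y⟫ - σ ^ 2 * ‖mv A g‖ ^ 2 / 2 := by ring
    rw [e]
    simp only [nsmul_eq_mul]
    push_cast
    ring

theorem pd_Lmv (A : Mt n) (σ : ℝ) (y g : E n) (j : Fin n) :
    pd j (fun g => L σ (mv A g) y) g =
      L σ (mv A g) y * (σ * ∑ k, A k j * (y k - σ * mv A g k)) := by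
  unfold pd
  rw [(hasFDerivAt_Lmv A σ y g).fderiv]
  simp only [_root_.smul_apply, _root_.sub_apply, smul_eq_mul, ContinuousLinearMap.comp_apply,
    innerSL_apply_apply]
  have e1 : (⟪y, (Matrix.toEuclideanCLM (𝕜 := ℝ) A) (EuclideanSpace.single j 1)⟫ : ℝ) =
      ∑ k, A k j * y k := by
    rw [inner_sum]
    exact Finset.sum_congr rfl fun k _ => by
      rw [show (Matrix.toEuclideanCLM (𝕜 := ℝ) A) (EuclideanSpace.single j 1) k = A k j from
        mv_single A j k]
      ring
  have e2 : (⟪mv A g, (Matrix.toEuclideanCLM (𝕜 := ℝ) A) (EuclideanSpace.single j 1)⟫ : ℝ) =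
      ∑ k, A k j * mv A g k := by
    rw [inner_sum]
    exact Finset.sum_congr rfl fun k _ => by
      rw [show (Matrix.toEuclideanCLM (𝕜 := ℝ) A) (EuclideanSpace.single j 1) k = A k j from
        mv_single A j k]
      ring
  rw [e1, e2]
  congr 1
  simp only [Finset.mul_sum]
  rw [← Finset.sum_sub_distrib]
  exact Finset.sum_congr rfl fun k _ => by ring

theorem continuous_mv (A : Mt n) : Continuous (mv A) := by
  unfold mv; exact (Matrix.toEuclideanCLM (𝕜 := ℝ) A).continuous

theorem EG_Lmv (A : Mt n) (σ : ℝ) (y : E n) : EG fun g => L σ (mv A g) y := by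
  refine EG.of_bdd (C := Real.exp (‖y‖ ^ 2 / 2)) ?_ fun g => ?_
  · exact ((continuous_L σ).comp ((continuous_mv A).prodMk continuous_const)).measurable
  · rw [abs_of_pos (L_pos _ _ _)]
    exact L_le _ _ _

theorem EG_mv (A : Mt n) (k : Fin n) : EG fun g : E n => mv A g k := by
  have : (fun g : E n => mv A g k) = fun g => ∑ l, A k l * g l := by
    funext g; exact mv_apply A g k
  rw [this]
  exact EG.lin _

theorem int_gm (F : E n → ℝ) : ∫ y, F y ∂(gm n) = Em (gk 1) F := by
  rw [← LL809.int_gam, LL809.gam_eq]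

theorem integrable_gm {F : E n → ℝ} (hF : EG F) : Integrable F (gm n) := by
  have h : Integrable F (LL809.gam n) := integrable_nm (LL809.ex_gk one_pos) hF
  rwa [LL809.gam_eq] at h

theorem stein0 (A : Mt n) (σ : ℝ) (y : E n) (j : Fin n) :
    ∫ g, g j * L σ (mv A g) y ∂(gm n) =
      σ * ∑ k, A k j * ∫ g, (y k - σ * mv A g k) * L σ (mv A g) y ∂(gm n) := by
  have e0 : pd j (fun g => L σ (mv A g) y) =
      fun g => σ * ∑ k, A k j * ((y k - σ * mv A g k) * L σ (mv A g) y) := by
    funext g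
    rw [pd_Lmv]
    simp only [Finset.mul_sum]
    exact Finset.sum_congr rfl fun k _ => by ring
  have hg : ∀ k, EG fun g => (y k - σ * mv A g k) * L σ (mv A g) y := fun k =>
    ((EG.const (y k)).sub ((EG_mv A k).smul σ)).mul (EG_Lmv A σ y)
  have hE : EG (pd j (fun g => L σ (mv A g) y)) := by
    rw [e0]
    exact (EG.sum _ fun k _ => (hg k).smul (A k j)).smul σ
  have key := LL809.gibp j (F := fun g => L σ (mv A g) y)
    (fun g => (hasFDerivAt_Lmv A σ y g).differentiableAt) (EG_Lmv A σ y) hE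
  rw [int_gm, key, e0, ← int_gm, integral_const_mul,
    integral_finsetSum _ fun k _ => (integrable_gm (hg k)).const_mul _]
  congr 1
  exact Finset.sum_congr rfl fun k _ => integral_const_mul _ _

/-- **Stein identity** -/
theorem stein (A : Mt n) (σ : ℝ) (y : E n) (k : Fin n) :
    ∫ g, mv A g k * L σ (mv A g) y ∂(gm n) =
      σ * ∑ l, (A * Aᵀ) k l * ∫ g, (y l - σ * mv A g l) * L σ (mv A g) y ∂(gm n) := by
  have e1 : ∀ g : E n, mv A g k * L σ (mv A g) y = ∑ j, A k j * (g j * L σ (mv A g) y) := by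
    intro g
    rw [mv_apply, Finset.sum_mul]
    exact Finset.sum_congr rfl fun j _ => by ring
  simp_rw [e1]
  rw [integral_finsetSum _ fun j _ =>
    (integrable_gm ((EG.coord j).mul (EG_Lmv A σ y))).const_mul _]
  simp_rw [integral_const_mul, stein0, Matrix.mul_apply, Matrix.transpose_apply, Finset.mul_sum,
    Finset.sum_mul, Finset.mul_sum]
  rw [Finset.sum_comm]
  exact Finset.sum_congr rfl fun l _ => Finset.sum_congr rfl fun j _ => by ring

/-! ## fields -/

variable {X : Type*} [MeasurableSpace X] {ν : Measure X} [IsProbabilityMeasure ν]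
  {A : X → Mt n} {c σ : ℝ}

/-- the Gaussian field with covariance `A Aᵀ` -/
noncomputable def ze (A : X → Mt n) : X × E n → E n := fun p => mv (A p.1) p.2

/-- `A Aᵀ` as a function on `X × E n` -/
noncomputable def BB (A : X → Mt n) (k l : Fin n) : X × E n → ℝ := fun p =>
  (A p.1 * (A p.1)ᵀ) k l

theorem ze_apply (A : X → Mt n) (p : X × E n) (k : Fin n) :
    ze A p k = ∑ l, A p.1 k l * p.2 l := mv_apply _ _ _

theorem meas_ze (hA : ∀ k l, Measurable fun x => A x k l) : Measurable (ze A) := by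
  have : ∀ k, Measurable fun p => ze A p k := by
    intro k
    simp_rw [ze_apply]
    refine Finset.measurable_fun_sum _ fun l _ => ?_
    exact ((hA k l).comp measurable_fst).mul (by fun_prop)
  have h2 : Measurable fun p => (WithLp.ofLp (ze A p)) := measurable_pi_iff.mpr this
  have h3 : (fun p => WithLp.toLp 2 (WithLp.ofLp (ze A p))) = ze A := rfl
  rw [← h3]
  exact (WithLp.measurable_toLp 2 _).comp h2

theorem ze_memLp (hA : ∀ k l, Measurable fun x => A x k l) (hc : ∀ x k l, |A x k l| ≤ c)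
    (k : Fin n) : MemLp (fun p => ze A p k) 2 (ν.prod (gm n)) := by
  simp_rw [ze_apply]
  refine memLp_finsetSum _ fun l _ => ?_
  have h1 : MemLp (fun p : X × E n => p.2 l) 2 (ν.prod (gm n)) := (g_memLp l).comp_snd ν
  refine (h1.const_mul c).of_le ?_ (Eventually.of_forall fun p => ?_)
  · exact (((hA k l).comp measurable_fst).mul (by fun_prop)).aestronglyMeasurable
  · rw [norm_mul, norm_mul, Real.norm_eq_abs, Real.norm_eq_abs, Real.norm_eq_abs]
    exact mul_le_mul_of_nonneg_right ((hc _ _ _).trans (le_abs_self c)) (abs_nonneg _)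

theorem ze_sq (hA : ∀ k l, Measurable fun x => A x k l) (hc : ∀ x k l, |A x k l| ≤ c) :
    Integrable (fun p => ‖ze A p‖ ^ 2) (ν.prod (gm n)) := by
  have e : (fun p => ‖ze A p‖ ^ 2) = fun p => ∑ k, (ze A p k) ^ 2 := by
    funext p
    rw [EuclideanSpace.real_norm_sq_eq]
  rw [e]
  exact integrable_finsetSum _ fun k _ => (ze_memLp hA hc k).integrable_sq

theorem meas_BB (hA : ∀ k l, Measurable fun x => A x k l) (k l : Fin n) :
    Measurable (BB A k l) := by
  unfold BB
  simp_rw [Matrix.mul_apply, Matrix.transpose_apply]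
  exact Finset.measurable_fun_sum _ fun j _ =>
    ((hA k j).comp measurable_fst).mul ((hA l j).comp measurable_fst)

theorem BB_le (hc : ∀ x k l, |A x k l| ≤ c) (k l : Fin n) (p : X × E n) :
    |BB A k l p| ≤ n * c ^ 2 := by
  unfold BB
  rw [Matrix.mul_apply]
  refine (Finset.abs_sum_le_sum_abs _ _).trans ?_
  have : ∀ j ∈ (Finset.univ : Finset (Fin n)), |A p.1 k j * (A p.1)ᵀ j l| ≤ c ^ 2 := by
    intro j _
    rw [abs_mul, sq, Matrix.transpose_apply]
    exact mul_le_mul (hc _ _ _) (hc _ _ _) (abs_nonneg _) ((abs_nonneg _).trans (hc p.1 k j))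
  refine (Finset.sum_le_sum this).trans ?_
  simp

/-- Stein identity for the field, posterior form -/
theorem Z_stein (hA : ∀ k l, Measurable fun x => A x k l) (hc : ∀ x k l, |A x k l| ≤ c)
    (k : Fin n) (y : E n) :
    Z (ν.prod (gm n)) (ze A) σ (fun p => ze A p k) y = σ * ∑ l,
      (y l * Z (ν.prod (gm n)) (ze A) σ (BB A k l) y -
        σ * Z (ν.prod (gm n)) (ze A) σ (fun p => BB A k l p * ze A p l) y) := by
  have hζ := meas_ze hA
  have h2 := ze_sq (ν := ν) hA hc
  have iB : ∀ l, Integrable (BB A k l) (ν.prod (gm n)) := fun l => i_bdd (meas_BB hA k l) (BB_le hc k l)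
  have iBz : ∀ l, Integrable (fun p => BB A k l p * ze A p l) (ν.prod (gm n)) := fun l =>
    i_bdd_mul (meas_BB hA k l) (BB_le hc k l) (i_coord hζ h2 l)
  have e1 : ∀ l, y l * Z (ν.prod (gm n)) (ze A) σ (BB A k l) y -
        σ * Z (ν.prod (gm n)) (ze A) σ (fun p => BB A k l p * ze A p l) y =
      Z (ν.prod (gm n)) (ze A) σ (fun p => y l * BB A k l p - σ * (BB A k l p * ze A p l)) y := by
    intro l
    rw [Z_sub hζ ((iB l).const_mul _) ((iBz l).const_mul _), Z_const_mul, Z_const_mul]
  simp_rw [e1]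
  have i3 : ∀ l, Integrable (fun p => y l * BB A k l p - σ * (BB A k l p * ze A p l))
      (ν.prod (gm n)) := fun l => ((iB l).const_mul _).sub ((iBz l).const_mul _)
  rw [← Z_sum hζ _ fun l _ => i3 l, ← Z_const_mul]
  have i4 := int_Z (σ := σ) hζ (i_coord hζ h2 k) y
  have i5 := int_Z (σ := σ) hζ ((integrable_finsetSum Finset.univ fun l _ => i3 l).const_mul σ) y
  unfold Z
  rw [integral_prod _ i4, integral_prod _ i5]
  refine integral_congr_ae (Eventually.of_forall fun x => ?_)
  simp only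
  have h := stein (A x) σ y k
  change ∫ g, mv (A x) g k * L σ (mv (A x) g) y ∂(gm n) = _
  rw [h]
  have e5 : ∀ g : E n, (σ * ∑ l, (y l * BB A k l (x, g) - σ * (BB A k l (x, g) * ze A (x, g) l))) *
      L σ (ze A (x, g)) y = ∑ l, (σ * (A x * (A x)ᵀ) k l) *
        ((y l - σ * mv (A x) g l) * L σ (mv (A x) g) y) := by
    intro g
    simp only [BB, ze, Finset.mul_sum, Finset.sum_mul]
    exact Finset.sum_congr rfl fun l _ => by ring
  simp_rw [e5]
  rw [integral_finsetSum _ fun l _ => (integrable_gm (((EG.const (y l)).sub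
    ((EG_mv (A x) l).smul σ)).mul (EG_Lmv (A x) σ y))).const_mul _, Finset.mul_sum]
  refine Finset.sum_congr rfl fun l _ => ?_
  rw [integral_const_mul]
  ring

end Crest.Agent.R201.GS844
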