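import Crest.Agent.R201.GS1_844
import Crest.Agent.R201.GC6_844

/-!
# R201, LSI half (helper844): the Stein shortcut `E|m₁|² ≤ 2 E tr R(J₂)²`
-/

set_option autoImplicit false
set_option linter.unusedSectionVars false
open MeasureTheory Matrix ProbabilityTheory Filter Topology
open scoped ENNReal RealInnerProductSpace

namespace Crest.Agent.R201.GS844

open Crest.Agent.R201 Crest.Agent.R201.An Crest.Agent.R201.GC844

variable {n : ℕ} {Ω : Type*} [MeasurableSpace Ω] {ρ : Measure Ω} [IsProbabilityMeasure ρ]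
  {ζ : Ω → E n} {σ : ℝ}

/-- `1/√2` -/
noncomputable def q2 : ℝ := (√2)⁻¹

theorem q2_mul : q2 * √2 = 1 := by unfold q2; exact inv_mul_cancel₀ (by positivity)
theorem q2_sq : q2 ^ 2 = 1 / 2 := by
  unfold q2; rw [inv_pow, Real.sq_sqrt (by norm_num)]; norm_num
theorem q2_pos : 0 < q2 := by unfold q2; positivity

theorem cos4 : Real.cos (Real.pi / 4) = q2 := by
  rw [Real.cos_pi_div_four, q2]
  refine eq_inv_of_mul_eq_one_left ?_
  rw [div_mul_eq_mul_div, Real.mul_self_sqrt (by norm_num)]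
  norm_num

theorem sin4 : Real.sin (Real.pi / 4) = q2 := by
  rw [Real.sin_pi_div_four, q2]
  refine eq_inv_of_mul_eq_one_left ?_
  rw [div_mul_eq_mul_div, Real.mul_self_sqrt (by norm_num)]
  norm_num

/-- rotation by `π/4` -/
theorem rot4 : MeasurePreserving
    (fun p : E n × E n => (q2 • p.1 - q2 • p.2, q2 • p.1 + q2 • p.2))
    ((gm n).prod (gm n)) ((gm n).prod (gm n)) := by
  have h := rotMP (n := n) (Real.pi / 4)
  simp only [cos4, sin4] at h
  exact h

/-- `(ω,(a,b)) ↦ (ω, ζ ω + (a+b)/√2)` -/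
theorem mpS1 (hζ : Measurable ζ) : MeasurePreserving
    (fun p : Ω × (E n × E n) => (p.1, (1 : ℝ) • ζ p.1 + (q2 • p.2.1 + q2 • p.2.2)))
    (ρ.prod ((gm n).prod (gm n))) (jt ρ ζ 1) := by
  have h1 : MeasurePreserving (fun p : E n × E n => q2 • p.1 + q2 • p.2)
      ((gm n).prod (gm n)) (gm n) := measurePreserving_snd.comp (rot4 (n := n))
  have h2 := (MeasurePreserving.id ρ).prod h1
  have h3 := (shMP (ρ := ρ) hζ 1).comp h2
  exact h3

/-- `(ω,(a,b)) ↦ ((ω, √2 ζ ω + a), b)` -/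
theorem mpS2 (hζ : Measurable ζ) : MeasurePreserving
    (fun p : Ω × (E n × E n) => ((p.1, √2 • ζ p.1 + p.2.1), p.2.2))
    (ρ.prod ((gm n).prod (gm n))) ((jt ρ ζ √2).prod (gm n)) := by
  have h1 := (measurePreserving_prodAssoc ρ (gm n) (gm n)).symm
  have h2 := (shMP (ρ := ρ) hζ √2).prod (MeasurePreserving.id (gm n))
  exact h2.comp h1

/-- `(ω,z,b) ↦ (ω,(z+b)/√2)` -/
theorem mpS3 (hζ : Measurable ζ) : MeasurePreserving
    (fun p : (Ω × E n) × E n => (p.1.1, q2 • p.1.2 + q2 • p.2))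
    ((jt ρ ζ √2).prod (gm n)) (jt ρ ζ 1) := by
  have h1 := mpS1 (ρ := ρ) hζ
  have h2 := mpS2 (ρ := ρ) hζ
  have hm : Measurable (fun p : (Ω × E n) × E n => (p.1.1, q2 • p.1.2 + q2 • p.2)) := by fun_prop
  refine ⟨hm, ?_⟩
  rw [← h2.map_eq, Measure.map_map hm h2.measurable, ← h1.map_eq]
  congr 1
  funext p
  simp only [Function.comp_apply, smul_add, smul_smul, q2_mul, one_smul]
  rw [add_assoc]

/-- the rotation identity -/
theorem rot_id (hζ : Measurable ζ) {F : Ω → ℝ} (hF : Measurable F) {b : ℝ} (hb : ∀ ω, |F ω| ≤ b)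
    {m : E n → ℝ} (hm : Measurable m) (hm2 : MemLp (fun p : Ω × E n => m p.2) 2 (jt ρ ζ 1))
    (l : Fin n) :
    ∫ p : Ω × E n, F p.1 * (m p.2 * (p.2 l - ζ p.1 l)) ∂(jt ρ ζ 1) =
      √2 * ∫ p : (Ω × E n) × E n, F p.1.1 * (m (q2 • p.1.2 + q2 • p.2) * p.2 l)
        ∂((jt ρ ζ √2).prod (gm n)) := by
  have hm3 : MemLp (fun p : Ω × E n => m ((1 : ℝ) • ζ p.1 + p.2)) 2 (ρ.prod (gm n)) :=
    hm2.comp_measurePreserving (shMP hζ 1)
  have hg : MemLp (fun p : Ω × E n => p.2 l) 2 (ρ.prod (gm n)) := (g_memLp l).comp_snd ρ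
  -- left side
  have f1 : Measurable fun p : Ω × E n => F p.1 * (m p.2 * (p.2 l - ζ p.1 l)) :=
    (hF.comp measurable_fst).mul ((hm.comp measurable_snd).mul (by fun_prop))
  rw [← (mp_int (shMP (ρ := ρ) hζ 1) f1).2]
  -- right side
  have f2 : Measurable fun p : (Ω × E n) × E n => F p.1.1 * (m (q2 • p.1.2 + q2 • p.2) * p.2 l) :=
    (hF.comp (measurable_fst.comp measurable_fst)).mul ((hm.comp (by fun_prop)).mul (by fun_prop))
  rw [← (mp_int (mpS2 (ρ := ρ) hζ) f2).2]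
  -- rotate
  have h4 := (MeasurePreserving.id ρ).prod (rot4 (n := n))
  have f3 : Measurable fun p : Ω × (E n × E n) =>
      F p.1 * (m ((1 : ℝ) • ζ p.1 + p.2.2) * (q2 * (p.2.2 l - p.2.1 l))) :=
    (hF.comp measurable_fst).mul ((hm.comp (by fun_prop)).mul (by fun_prop))
  have e3 := (mp_int h4 f3).2
  have e4 : ∫ a : Ω × (E n × E n), F a.1 * (m (q2 • (√2 • ζ a.1 + a.2.1) + q2 • a.2.2) * a.2.2 l)
      ∂(ρ.prod ((gm n).prod (gm n))) = ∫ a : Ω × (E n × E n),
        F a.1 * (m ((1 : ℝ) • ζ a.1 + a.2.2) * (q2 * (a.2.2 l - a.2.1 l)))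
          ∂(ρ.prod ((gm n).prod (gm n))) := by
    rw [← e3]
    refine integral_congr_ae (Eventually.of_forall fun a => ?_)
    simp only [smul_add, smul_smul, q2_mul, add_assoc]
    congr 2
    change a.2.2 l = q2 * ((q2 • a.2.1 + q2 • a.2.2) l - (q2 • a.2.1 - q2 • a.2.2) l)
    simp only [PiLp.add_apply, PiLp.sub_apply, PiLp.smul_apply, smul_eq_mul]
    linear_combination (-(2 : ℝ) * a.2.2 l) * q2_sq
  simp only at e4 ⊢
  rw [e4]
  -- split
  have hp1 : MeasurePreserving (fun a : Ω × (E n × E n) => (a.1, a.2.2))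
      (ρ.prod ((gm n).prod (gm n))) (ρ.prod (gm n)) :=
    (MeasurePreserving.id ρ).prod measurePreserving_snd
  have i1 : Integrable (fun p : Ω × E n => F p.1 * (m ((1 : ℝ) • ζ p.1 + p.2) * p.2 l))
      (ρ.prod (gm n)) :=
    (hm3.integrable_mul hg).bdd_mul (hF.comp measurable_fst).aestronglyMeasurable
      (Eventually.of_forall fun p => by rw [Real.norm_eq_abs]; exact hb _)
  have i1' : Integrable (fun a : Ω × (E n × E n) =>
      F a.1 * (m ((1 : ℝ) • ζ a.1 + a.2.2) * a.2.2 l)) (ρ.prod ((gm n).prod (gm n))) :=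
    hp1.integrable_comp_of_integrable i1
  have hm4 : MemLp (fun a : Ω × (E n × E n) => m ((1 : ℝ) • ζ a.1 + a.2.2)) 2
      (ρ.prod ((gm n).prod (gm n))) := hm3.comp_measurePreserving hp1
  have hg4 : MemLp (fun a : Ω × (E n × E n) => a.2.1 l) 2 (ρ.prod ((gm n).prod (gm n))) := by
    have : MemLp (fun a : E n × E n => a.1 l) 2 ((gm n).prod (gm n)) := (g_memLp l).comp_fst _
    exact this.comp_snd ρ
  have i2 : Integrable (fun a : Ω × (E n × E n) =>
      F a.1 * (m ((1 : ℝ) • ζ a.1 + a.2.2) * a.2.1 l)) (ρ.prod ((gm n).prod (gm n))) :=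
    (hm4.integrable_mul hg4).bdd_mul (hF.comp measurable_fst).aestronglyMeasurable
      (Eventually.of_forall fun p => by rw [Real.norm_eq_abs]; exact hb _)
  have z2 : ∫ a : Ω × (E n × E n), F a.1 * (m ((1 : ℝ) • ζ a.1 + a.2.2) * a.2.1 l)
      ∂(ρ.prod ((gm n).prod (gm n))) = 0 := by
    rw [integral_prod _ i2]
    have : ∀ ω, ∫ y : E n × E n, F ω * (m ((1 : ℝ) • ζ ω + y.2) * y.1 l) ∂((gm n).prod (gm n)) =
        0 := by
      intro ω
      have e : ∀ y : E n × E n, F ω * (m ((1 : ℝ) • ζ ω + y.2) * y.1 l) =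
          y.1 l * (F ω * m ((1 : ℝ) • ζ ω + y.2)) := fun y => by ring
      simp_rw [e]
      rw [integral_prod_mul (fun g : E n => g l) (fun g => F ω * m ((1 : ℝ) • ζ ω + g)), g_mean,
        zero_mul]
    simp only [this, integral_zero]
  have e5 : ∫ a : Ω × (E n × E n), F a.1 * (m ((1 : ℝ) • ζ a.1 + a.2.2) * (q2 * (a.2.2 l - a.2.1 l)))
      ∂(ρ.prod ((gm n).prod (gm n))) = q2 * ∫ a : Ω × (E n × E n),
        F a.1 * (m ((1 : ℝ) • ζ a.1 + a.2.2) * a.2.2 l) ∂(ρ.prod ((gm n).prod (gm n))) := by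
    have : (fun a : Ω × (E n × E n) =>
        F a.1 * (m ((1 : ℝ) • ζ a.1 + a.2.2) * (q2 * (a.2.2 l - a.2.1 l)))) = fun a =>
        q2 * (F a.1 * (m ((1 : ℝ) • ζ a.1 + a.2.2) * a.2.2 l)) -
          q2 * (F a.1 * (m ((1 : ℝ) • ζ a.1 + a.2.2) * a.2.1 l)) := by funext a; ring
    rw [this, integral_sub (i1'.const_mul _) (i2.const_mul _), integral_const_mul,
      integral_const_mul, z2]
    ring
  rw [e5, ← mul_assoc, mul_comm √2, q2_mul, one_mul]
  have f6 : Measurable fun p : Ω × E n => F p.1 * (m ((1 : ℝ) • ζ p.1 + p.2) * p.2 l) :=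
    (hF.comp measurable_fst).mul ((hm.comp (by fun_prop)).mul (by fun_prop))
  have e6 := (mp_int hp1 f6).2
  simp only at e6
  rw [e6]
  refine integral_congr_ae (Eventually.of_forall fun a => ?_)
  simp only [one_smul, PiLp.add_apply]
  ring

/-- conditioning on the label -/
theorem cond (hζ : Measurable ζ) {F : Ω → ℝ} (hF : Measurable F) {b : ℝ} (hb : ∀ ω, |F ω| ≤ b)
    {ψ : E n → E n → ℝ} (hψ : Measurable fun p : E n × E n => ψ p.1 p.2)
    (hi : Integrable (fun p : (Ω × E n) × E n => ψ p.1.2 p.2) ((jt ρ ζ σ).prod (gm n))) :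
    Integrable (fun p : (Ω × E n) × E n => pe ρ ζ σ F p.1.2 * ψ p.1.2 p.2)
      ((jt ρ ζ σ).prod (gm n)) ∧
    ∫ p : (Ω × E n) × E n, F p.1.1 * ψ p.1.2 p.2 ∂((jt ρ ζ σ).prod (gm n)) =
      ∫ p : (Ω × E n) × E n, pe ρ ζ σ F p.1.2 * ψ p.1.2 p.2 ∂((jt ρ ζ σ).prod (gm n)) := by
  have : Fact (Measurable ζ) := ⟨hζ⟩
  have iF : Integrable F ρ := i_bdd hF hb
  have hpe : Measurable (pe ρ ζ σ F) := (cont_pe hζ iF).measurable
  have bpe : ∀ y, |pe ρ ζ σ F y| ≤ b := by
    intro y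
    rw [abs_le]
    constructor
    · have := pe_mono (σ := σ) hζ (integrable_const (-b)) iF (fun ω => (abs_le.1 (hb ω)).1) y
      rwa [pe_const hζ] at this
    · have := pe_mono (σ := σ) hζ iF (integrable_const b) (fun ω => (abs_le.1 (hb ω)).2) y
      rwa [pe_const hζ] at this
  have i1 : Integrable (fun p : (Ω × E n) × E n => F p.1.1 * ψ p.1.2 p.2)
      ((jt ρ ζ σ).prod (gm n)) :=
    hi.bdd_mul (hF.comp (measurable_fst.comp measurable_fst)).aestronglyMeasurable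
      (Eventually.of_forall fun p => by rw [Real.norm_eq_abs]; exact hb _)
  have i2 : Integrable (fun p : (Ω × E n) × E n => pe ρ ζ σ F p.1.2 * ψ p.1.2 p.2)
      ((jt ρ ζ σ).prod (gm n)) :=
    hi.bdd_mul (hpe.comp (measurable_snd.comp measurable_fst)).aestronglyMeasurable
      (Eventually.of_forall fun p => by rw [Real.norm_eq_abs]; exact bpe _)
  refine ⟨i2, ?_⟩
  rw [integral_prod_symm _ i1, integral_prod_symm _ i2]
  refine integral_congr_ae ?_
  filter_upwards [i1.prod_left_ae] with g h1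
  have hψg : Measurable fun z : E n => ψ z g :=
      hψ.comp (measurable_id.prodMk measurable_const)
  have d1 := (dis (σ := σ) (F := F) (φ := fun z => ψ z g) hζ h1).2
  have d2 := int_snd (ρ := ρ) (σ := σ) hζ (φ := fun z => pe ρ ζ σ F z * ψ z g) (hpe.mul hψg)
  refine d1.trans (Eq.trans ?_ d2.symm)
  refine integral_congr_ae (Eventually.of_forall fun y => ?_)
  simp only
  rw [Z_eq_pe hζ]
  ring

end Crest.Agent.R201.GS844
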