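import Crest.Agent.R201.GS2_844

/-!
# R201, LSI half (helper844): the Stein shortcut, main inequality `E|m₁|² ≤ 2 E |R(J₂)|²`
-/

set_option autoImplicit false
set_option linter.unusedSectionVars false
open MeasureTheory Matrix ProbabilityTheory Filter Topology
open scoped ENNReal RealInnerProductSpace

namespace Crest.Agent.R201.GS844

open Crest.Agent.R201 Crest.Agent.R201.An Crest.Agent.R201.GC844

variable {n : ℕ}

section gen

variable {Ω : Type*} [MeasurableSpace Ω] {ρ : Measure Ω} [IsProbabilityMeasure ρ]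
  {ζ : Ω → E n} {σ : ℝ}

theorem noise_memLp (hζ : Measurable ζ) (l : Fin n) :
    MemLp (fun p : Ω × E n => p.2 l - ζ p.1 l) 2 (jt ρ ζ 1) := by
  unfold jt
  have hm : Measurable fun p : Ω × E n => p.2 l - ζ p.1 l := by fun_prop
  rw [memLp_map_measure_iff hm.aestronglyMeasurable (meas_sh hζ 1).aemeasurable]
  have e : (fun p : Ω × E n => p.2 l - ζ p.1 l) ∘ (fun p : Ω × E n => (p.1, (1 : ℝ) • ζ p.1 + p.2))
      = fun p : Ω × E n => p.2 l := by
    funext p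
    simp only [Function.comp_apply, one_smul, PiLp.add_apply]
    ring
  rw [e]
  exact (g_memLp l).comp_snd ρ

end gen

section main

variable {X : Type*} [MeasurableSpace X] {ν : Measure X} [IsProbabilityMeasure ν]
  {A : X → Mt n} {c σ : ℝ}

/-- conditional expectation of `A Aᵀ` given the label -/
noncomputable def Rm (ν : Measure X) (A : X → Mt n) (σ : ℝ) (y : E n) : Mt n :=
  Matrix.of fun k l => pe (ν.prod (gm n)) (ze A) σ (BB A k l) y

theorem Rm_cont (hA : ∀ k l, Measurable fun x => A x k l) (hc : ∀ x k l, |A x k l| ≤ c)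
    (k l : Fin n) : Continuous fun y => Rm ν A σ y k l :=
  cont_pe (meas_ze hA) (i_bdd (meas_BB hA k l) (BB_le hc k l))

theorem Rm_le (hA : ∀ k l, Measurable fun x => A x k l) (hc : ∀ x k l, |A x k l| ≤ c)
    (k l : Fin n) (y : E n) : |Rm ν A σ y k l| ≤ n * c ^ 2 := by
  have hζ := meas_ze hA
  have iF : Integrable (BB A k l) (ν.prod (gm n)) := i_bdd (meas_BB hA k l) (BB_le hc k l)
  change |pe (ν.prod (gm n)) (ze A) σ (BB A k l) y| ≤ _
  rw [abs_le]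
  constructor
  · have := pe_mono (σ := σ) hζ (integrable_const (-(n * c ^ 2))) iF
      (fun ω => (abs_le.1 (BB_le hc k l ω)).1) y
    rwa [pe_const hζ] at this
  · have := pe_mono (σ := σ) hζ iF (integrable_const (n * c ^ 2))
      (fun ω => (abs_le.1 (BB_le hc k l ω)).2) y
    rwa [pe_const hζ] at this

theorem step1 (hA : ∀ k l, Measurable fun x => A x k l) (hc : ∀ x k l, |A x k l| ≤ c)
    (k : Fin n) :
    ∫ y, wt (ν.prod (gm n)) (ze A) 1 y * pm (ν.prod (gm n)) (ze A) 1 y k ^ 2 ∂(gm n) =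
      ∑ l, ∫ p : (X × E n) × E n, BB A k l p.1 *
        (pm (ν.prod (gm n)) (ze A) 1 p.2 k * (p.2 l - ze A p.1 l))
        ∂(jt (ν.prod (gm n)) (ze A) 1) := by
  have hζ := meas_ze hA
  have h2 := ze_sq (ν := ν) hA hc
  set ρ := ν.prod (gm n) with hρ
  set m := fun y => pm ρ (ze A) 1 y k with hm
  have i0 : ∀ l, Integrable (fun p : (X × E n) × E n => BB A k l p.1 *
      (m p.2 * (p.2 l - ze A p.1 l))) (jt ρ (ze A) 1) := fun l =>
    ((pm_memLp (σ := 1) hζ h2 k).integrable_mul (noise_memLp hζ l)).bdd_mul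
      ((meas_BB hA k l).comp measurable_fst).aestronglyMeasurable
      (Eventually.of_forall fun p => by rw [Real.norm_eq_abs]; exact BB_le hc k l _)
  have iB : ∀ l, Integrable (BB A k l) ρ := fun l => i_bdd (meas_BB hA k l) (BB_le hc k l)
  have iBz : ∀ l, Integrable (fun p => BB A k l p * ze A p l) ρ := fun l =>
    i_bdd_mul (meas_BB hA k l) (BB_le hc k l) (i_coord hζ h2 l)
  have e1 : ∀ l y, wt ρ (ze A) 1 y * pe ρ (ze A) 1 (fun ω => BB A k l ω *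
      (m y * (y l - ze A ω l))) y =
      m y * (y l * Z ρ (ze A) 1 (BB A k l) y - Z ρ (ze A) 1 (fun p => BB A k l p * ze A p l) y) := by
    intro l y
    rw [mul_comm, ← Z_eq_pe hζ]
    have : (fun ω => BB A k l ω * (m y * (y l - ze A ω l))) =
        fun ω => m y * (y l * BB A k l ω - BB A k l ω * ze A ω l) := by funext ω; ring
    rw [this, Z_const_mul, Z_sub hζ ((iB l).const_mul _) (iBz l), Z_const_mul]
  have e2 : ∀ l, ∫ p : (X × E n) × E n, BB A k l p.1 * (m p.2 * (p.2 l - ze A p.1 l))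
      ∂(jt ρ (ze A) 1) = ∫ y, m y * (y l * Z ρ (ze A) 1 (BB A k l) y -
        Z ρ (ze A) 1 (fun p => BB A k l p * ze A p l) y) ∂(gm n) := by
    intro l
    rw [(dis_gen hζ (i0 l)).2]
    exact integral_congr_ae (Eventually.of_forall fun y => e1 l y)
  have i3 : ∀ l, Integrable (fun y => m y * (y l * Z ρ (ze A) 1 (BB A k l) y -
        Z ρ (ze A) 1 (fun p => BB A k l p * ze A p l) y)) (gm n) := fun l =>
    (dis_gen hζ (i0 l)).1.congr (Eventually.of_forall fun y => e1 l y)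
  change _ = ∑ l, ∫ p : (X × E n) × E n, BB A k l p.1 * (m p.2 * (p.2 l - ze A p.1 l))
      ∂(jt ρ (ze A) 1)
  simp_rw [e2]
  rw [← integral_finsetSum _ fun l _ => i3 l]
  refine integral_congr_ae (Eventually.of_forall fun y => ?_)
  simp only
  have h5 := Z_stein (ν := ν) (σ := 1) hA hc k y
  simp only [one_mul] at h5
  rw [← Finset.mul_sum, ← h5, Z_eq_pe hζ]
  change wt ρ (ze A) 1 y * pm ρ (ze A) 1 y k ^ 2 = m y * (m y * wt ρ (ze A) 1 y)
  simp only [hm]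
  ring

end main

section core

variable {Ω : Type*} [MeasurableSpace Ω] {ρ : Measure Ω} [IsProbabilityMeasure ρ]
  {ζ : Ω → E n} {σ : ℝ} {B : Fin n → Fin n → Ω → ℝ} {b : ℝ}

/-- second moments of a linear form in the noise -/
theorem lin_noise (u : Fin n → ℝ) : ∫ g : E n, (∑ l, u l * g l) ^ 2 ∂(gm n) = ∑ l, u l ^ 2 := by
  have e : (fun g : E n => (∑ l, u l * g l) ^ 2) =
      fun g => ∑ l, ∑ l', (u l * u l') * (g l * g l') := by
    funext g
    rw [sq, Finset.sum_mul_sum]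
    exact Finset.sum_congr rfl fun k _ => Finset.sum_congr rfl fun l _ => by ring
  have i : ∀ l l', Integrable (fun g : E n => (u l * u l') * (g l * g l')) (gm n) := fun l l' =>
    ((g_memLp l).integrable_mul (g_memLp l')).const_mul _
  rw [e, integral_finsetSum _ fun l _ => integrable_finsetSum _ fun l' _ => i l l']
  refine Finset.sum_congr rfl fun l _ => ?_
  rw [integral_finsetSum _ fun l' _ => i l l']
  simp only [integral_const_mul, g_cov]
  simp [sq]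

theorem pe_abs_le (hζ : Measurable ζ) {F : Ω → ℝ} (hF : Measurable F) (hb : ∀ ω, |F ω| ≤ b)
    (y : E n) : |pe ρ ζ σ F y| ≤ b := by
  have iF : Integrable F ρ := i_bdd hF hb
  rw [abs_le]
  constructor
  · have := pe_mono (σ := σ) hζ (integrable_const (-b)) iF (fun ω => (abs_le.1 (hb ω)).1) y
    rwa [pe_const hζ] at this
  · have := pe_mono (σ := σ) hζ iF (integrable_const b) (fun ω => (abs_le.1 (hb ω)).2) y
    rwa [pe_const hζ] at this

/-- the fields under the pair law -/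
theorem mP (hζ : Measurable ζ) (h2 : Integrable (fun ω => ‖ζ ω‖ ^ 2) ρ) (k : Fin n) :
    MemLp (fun p : (Ω × E n) × E n => pm ρ ζ 1 (q2 • p.1.2 + q2 • p.2) k) 2
      ((jt ρ ζ √2).prod (gm n)) := by
  have h1 := pm_memLp (σ := 1) hζ h2 k
  have h3 := h1.comp_measurePreserving (mpS3 (ρ := ρ) hζ)
  simp only [Function.comp_def] at h3
  exact h3

theorem bP [Fact (Measurable ζ)] (l : Fin n) : MemLp (fun p : (Ω × E n) × E n => p.2 l) 2
    ((jt ρ ζ √2).prod (gm n)) := (g_memLp l).comp_snd _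

theorem term (hζ : Measurable ζ) (h2 : Integrable (fun ω => ‖ζ ω‖ ^ 2) ρ) {F : Ω → ℝ}
    (hF : Measurable F) (hb : ∀ ω, |F ω| ≤ b) (k l : Fin n) :
    Integrable (fun p : (Ω × E n) × E n => pe ρ ζ √2 F p.1.2 *
      (pm ρ ζ 1 (q2 • p.1.2 + q2 • p.2) k * p.2 l)) ((jt ρ ζ √2).prod (gm n)) ∧
    ∫ p : Ω × E n, F p.1 * (pm ρ ζ 1 p.2 k * (p.2 l - ζ p.1 l)) ∂(jt ρ ζ 1) =
      √2 * ∫ p : (Ω × E n) × E n, pe ρ ζ √2 F p.1.2 *
      (pm ρ ζ 1 (q2 • p.1.2 + q2 • p.2) k * p.2 l) ∂((jt ρ ζ √2).prod (gm n)) := by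
  have : Fact (Measurable ζ) := ⟨hζ⟩
  have mm : Measurable fun y => pm ρ ζ 1 y k := (cont_pm hζ h2 k).measurable
  have c1 := cond (ρ := ρ) (σ := √2) hζ hF hb
    (ψ := fun z b => pm ρ ζ 1 (q2 • z + q2 • b) k * b l)
    ((mm.comp (by fun_prop : Measurable fun p : E n × E n => q2 • p.1 + q2 • p.2)).mul
      (by fun_prop)) ((mP hζ h2 k).integrable_mul (bP l))
  refine ⟨c1.1, ?_⟩
  rw [rot_id hζ hF hb mm (pm_memLp (σ := 1) hζ h2 k) l, c1.2]

theorem Rb (hζ : Measurable ζ) {F : Ω → ℝ} (hF : Measurable F) (hb : ∀ ω, |F ω| ≤ b) (l : Fin n) :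
    MemLp (fun p : (Ω × E n) × E n => pe ρ ζ √2 F p.1.2 * p.2 l) 2
      ((jt ρ ζ √2).prod (gm n)) := by
  have : Fact (Measurable ζ) := ⟨hζ⟩
  have mR : Measurable fun y => pe ρ ζ √2 F y := (cont_pe hζ (i_bdd hF hb)).measurable
  refine ((bP (ρ := ρ) (ζ := ζ) l).const_mul b).of_le ?_ (Eventually.of_forall fun p => ?_)
  · exact ((mR.comp (measurable_snd.comp measurable_fst)).mul (by fun_prop)).aestronglyMeasurable
  · rw [norm_mul, norm_mul, Real.norm_eq_abs, Real.norm_eq_abs, Real.norm_eq_abs]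
    exact mul_le_mul_of_nonneg_right ((pe_abs_le hζ hF hb _).trans (le_abs_self _)) (abs_nonneg _)

theorem en_sum (hζ : Measurable ζ) (h2 : Integrable (fun ω => ‖ζ ω‖ ^ 2) ρ) :
    En ρ ζ 1 = ∑ k, ∫ y, wt ρ ζ 1 y * pm ρ ζ 1 y k ^ 2 ∂(gm n) := by
  unfold En
  rw [← integral_finsetSum _ fun k _ => pm_sq_int hζ h2 k]
  refine integral_congr_ae (Eventually.of_forall fun y => ?_)
  simp only
  rw [Finset.mul_sum]

theorem en_P (hζ : Measurable ζ) (h2 : Integrable (fun ω => ‖ζ ω‖ ^ 2) ρ) (k : Fin n) :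
    ∫ p : (Ω × E n) × E n, pm ρ ζ 1 (q2 • p.1.2 + q2 • p.2) k ^ 2 ∂((jt ρ ζ √2).prod (gm n)) =
      ∫ y, wt ρ ζ 1 y * pm ρ ζ 1 y k ^ 2 ∂(gm n) := by
  have mm : Measurable fun y => pm ρ ζ 1 y k := (cont_pm hζ h2 k).measurable
  have f1 : Measurable fun p : Ω × E n => pm ρ ζ 1 p.2 k ^ 2 :=
    (mm.comp measurable_snd).pow_const 2
  have := (mp_int (mpS3 (ρ := ρ) hζ) f1).2
  simp only at this
  rw [this]
  exact int_snd (ρ := ρ) (σ := 1) hζ (φ := fun y => pm ρ ζ 1 y k ^ 2) (mm.pow_const 2)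

theorem en_R (hζ : Measurable ζ) (hB : ∀ k l, Measurable (B k l)) (bB : ∀ k l ω, |B k l ω| ≤ b)
    (k : Fin n) :
    ∫ p : (Ω × E n) × E n, (∑ l, pe ρ ζ √2 (B k l) p.1.2 * p.2 l) ^ 2 ∂((jt ρ ζ √2).prod (gm n)) =
      ∫ y, wt ρ ζ √2 y * ∑ l, pe ρ ζ √2 (B k l) y ^ 2 ∂(gm n) := by
  have : Fact (Measurable ζ) := ⟨hζ⟩
  have hRs : MemLp (fun p : (Ω × E n) × E n => ∑ l, pe ρ ζ √2 (B k l) p.1.2 * p.2 l) 2
      ((jt ρ ζ √2).prod (gm n)) := memLp_finsetSum _ fun l _ => Rb hζ (hB k l) (bB k l) l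
  rw [integral_prod _ hRs.integrable_sq]
  have mS : Measurable fun y => ∑ l, pe ρ ζ √2 (B k l) y ^ 2 :=
    Finset.measurable_fun_sum _ fun l _ =>
      ((cont_pe hζ (i_bdd (hB k l) (bB k l))).measurable).pow_const 2
  rw [← int_snd (ρ := ρ) (σ := √2) hζ (φ := fun y => ∑ l, pe ρ ζ √2 (B k l) y ^ 2) mS]
  exact integral_congr_ae (Eventually.of_forall fun p =>
    lin_noise fun l => pe ρ ζ √2 (B k l) p.2)

theorem iR (hζ : Measurable ζ) (hB : ∀ k l, Measurable (B k l)) (bB : ∀ k l ω, |B k l ω| ≤ b)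
    (k : Fin n) :
    Integrable (fun y => wt ρ ζ √2 y * ∑ l, pe ρ ζ √2 (B k l) y ^ 2) (gm n) := by
  have : Fact (Measurable ζ) := ⟨hζ⟩
  have mS : Measurable fun y => ∑ l, pe ρ ζ √2 (B k l) y ^ 2 :=
    Finset.measurable_fun_sum _ fun l _ =>
      ((cont_pe hζ (i_bdd (hB k l) (bB k l))).measurable).pow_const 2
  refine (int_snd_iff (ρ := ρ) (σ := √2) hζ (φ := fun y => ∑ l, pe ρ ζ √2 (B k l) y ^ 2) mS).mp ?_
  refine Integrable.of_bound (C := ∑ _l : Fin n, b ^ 2)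
    (mS.comp measurable_snd).aestronglyMeasurable (Eventually.of_forall fun p => ?_)
  rw [Real.norm_eq_abs, abs_of_nonneg (Finset.sum_nonneg fun l _ => sq_nonneg _)]
  refine Finset.sum_le_sum fun l _ => ?_
  rw [← sq_abs]
  exact pow_le_pow_left₀ (abs_nonneg _) (pe_abs_le hζ (hB k l) (bB k l) _) 2

theorem amgm (x y : ℝ) : √2 * (x * y) ≤ 1 / 2 * x ^ 2 + y ^ 2 := by
  have h0 : √2 * √2 = 2 := Real.mul_self_sqrt (by norm_num)
  nlinarith [sq_nonneg (x - √2 * y)]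

theorem core (hζ : Measurable ζ) (h2 : Integrable (fun ω => ‖ζ ω‖ ^ 2) ρ)
    (hB : ∀ k l, Measurable (B k l)) (bB : ∀ k l ω, |B k l ω| ≤ b)
    (hS : ∀ k, ∫ y, wt ρ ζ 1 y * pm ρ ζ 1 y k ^ 2 ∂(gm n) =
      ∑ l, ∫ p : Ω × E n, B k l p.1 * (pm ρ ζ 1 p.2 k * (p.2 l - ζ p.1 l)) ∂(jt ρ ζ 1)) :
    En ρ ζ 1 ≤ 2 * ∫ y, wt ρ ζ √2 y * ∑ k, ∑ l, pe ρ ζ √2 (B k l) y ^ 2 ∂(gm n) := by
  have hk : ∀ k, ∫ y, wt ρ ζ 1 y * pm ρ ζ 1 y k ^ 2 ∂(gm n) ≤
      1 / 2 * (∫ y, wt ρ ζ 1 y * pm ρ ζ 1 y k ^ 2 ∂(gm n)) +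
        ∫ y, wt ρ ζ √2 y * ∑ l, pe ρ ζ √2 (B k l) y ^ 2 ∂(gm n) := by
    intro k
    have i2 := fun l => (term (ρ := ρ) hζ h2 (hB k l) (bB k l) k l).1
    have hRs : MemLp (fun p : (Ω × E n) × E n => ∑ l, pe ρ ζ √2 (B k l) p.1.2 * p.2 l) 2
      ((jt ρ ζ √2).prod (gm n)) := memLp_finsetSum _ fun l _ => Rb hζ (hB k l) (bB k l) l
    have i8 := ((mP (ρ := ρ) hζ h2 k).integrable_sq.const_mul (1 / 2)).add hRs.integrable_sq
    have i9 := ((mP (ρ := ρ) hζ h2 k).integrable_mul hRs).const_mul √2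
    have e1 : ∫ y, wt ρ ζ 1 y * pm ρ ζ 1 y k ^ 2 ∂(gm n) =
        ∫ p : (Ω × E n) × E n, √2 * (pm ρ ζ 1 (q2 • p.1.2 + q2 • p.2) k *
          ∑ l, pe ρ ζ √2 (B k l) p.1.2 * p.2 l) ∂((jt ρ ζ √2).prod (gm n)) := by
      rw [hS k, integral_const_mul]
      have e7 : ∀ p : (Ω × E n) × E n, pm ρ ζ 1 (q2 • p.1.2 + q2 • p.2) k *
          ∑ l, pe ρ ζ √2 (B k l) p.1.2 * p.2 l =
          ∑ l, pe ρ ζ √2 (B k l) p.1.2 * (pm ρ ζ 1 (q2 • p.1.2 + q2 • p.2) k * p.2 l) := by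
        intro p
        rw [Finset.mul_sum]
        exact Finset.sum_congr rfl fun l _ => by ring
      simp_rw [e7]
      rw [integral_finsetSum _ fun l _ => i2 l, Finset.mul_sum]
      exact Finset.sum_congr rfl fun l _ => (term (ρ := ρ) hζ h2 (hB k l) (bB k l) k l).2
    have e2 : ∫ p : (Ω × E n) × E n, (1 / 2 * pm ρ ζ 1 (q2 • p.1.2 + q2 • p.2) k ^ 2 +
        (∑ l, pe ρ ζ √2 (B k l) p.1.2 * p.2 l) ^ 2) ∂((jt ρ ζ √2).prod (gm n)) =
        1 / 2 * (∫ y, wt ρ ζ 1 y * pm ρ ζ 1 y k ^ 2 ∂(gm n)) +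
        ∫ y, wt ρ ζ √2 y * ∑ l, pe ρ ζ √2 (B k l) y ^ 2 ∂(gm n) := by
      rw [integral_add ((mP hζ h2 k).integrable_sq.const_mul _) hRs.integrable_sq,
        integral_const_mul, en_P hζ h2 k, en_R hζ hB bB k]
    calc ∫ y, wt ρ ζ 1 y * pm ρ ζ 1 y k ^ 2 ∂(gm n) = _ := e1
      _ ≤ _ := integral_mono i9 i8 fun p => amgm _ _
      _ = _ := e2
  have h3 := Finset.sum_le_sum fun k (_ : k ∈ (Finset.univ : Finset (Fin n))) => hk k
  rw [Finset.sum_add_distrib, ← Finset.mul_sum, ← en_sum hζ h2,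
    ← integral_finsetSum _ fun k _ => iR (ρ := ρ) hζ hB bB k] at h3
  simp_rw [← Finset.mul_sum] at h3
  linarith

end core

section fin

variable {X : Type*} [MeasurableSpace X] {ν : Measure X} [IsProbabilityMeasure ν]
  {A : X → Mt n} {c σ : ℝ}

/-- **the Stein shortcut** -/
theorem stein_main (hA : ∀ k l, Measurable fun x => A x k l) (hc : ∀ x k l, |A x k l| ≤ c) :
    En (ν.prod (gm n)) (ze A) 1 ≤
      2 * ∫ y, wt (ν.prod (gm n)) (ze A) √2 y * hs (Rm ν A √2 y) ∂(gm n) :=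
  core (meas_ze hA) (ze_sq hA hc) (fun k l => meas_BB hA k l) (fun k l ω => BB_le hc k l ω)
    (step1 hA hc)

end fin

end Crest.Agent.R201.GS844
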