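import Crest.Agent.R201.LabG1_809
import Crest.Agent.R201.Spec_152
import Crest.Agent.R201.FD3_354

/-!
# R201, LSI half (helper809): matrix fields (determinant, inverse), Gaussian density with covariance `M`
-/

set_option autoImplicit false
set_option maxHeartbeats 400000
set_option linter.unusedSectionVars false
open MeasureTheory Matrix Filter Topology
open scoped ContDiff RealInnerProductSpace

namespace Crest.Agent.R201.LL809

open Crest.Agent.R201.An

variable {n : ℕ}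

/-! ### scalar fields -/

theorem cb_prod {ι : Type*} (s : Finset ι) {f : ι → E n → ℝ} (hf : ∀ i ∈ s, CB (f i)) :
    CB (fun x => ∏ i ∈ s, f i x) := by
  classical
  induction s using Finset.induction_on with
  | empty => simpa using Tw807.cb_const (n := n) 1
  | insert a s ha ih =>
    have := Tw807.cb_mul (hf a (Finset.mem_insert_self a s))
      (ih fun i hi => hf i (Finset.mem_insert_of_mem hi))
    simpa [Finset.prod_insert ha] using this

theorem pd_comp {f : E n → ℝ} {φ : ℝ → ℝ} {φ' : ℝ} (k : Fin n) {x : E n}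
    (hf : DifferentiableAt ℝ f x) (hφ : HasDerivAt φ φ' (f x)) :
    pd k (fun y => φ (f y)) x = φ' * pd k f x := by
  unfold pd
  have h := hφ.comp_hasFDerivAt x hf.hasFDerivAt
  have e : (fun y => φ (f y)) = φ ∘ f := rfl
  rw [e, h.fderiv]
  simp

theorem pd_exp {f : E n → ℝ} (k : Fin n) {x : E n} (hf : DifferentiableAt ℝ f x) :
    pd k (fun y => Real.exp (f y)) x = Real.exp (f x) * pd k f x :=
  pd_comp k hf (Real.hasDerivAt_exp (f x))

theorem pd_log {f : E n → ℝ} (k : Fin n) {x : E n} (hf : DifferentiableAt ℝ f x) (h0 : f x ≠ 0) :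
    pd k (fun y => Real.log (f y)) x = (f x)⁻¹ * pd k f x :=
  pd_comp k hf (Real.hasDerivAt_log h0)

theorem cb_exp {f : E n → ℝ} (hf : CB f) : CBp (fun x => Real.exp (f x)) := by
  obtain ⟨h1, ⟨B, hB⟩, h3⟩ := Tw807.cb_iff.1 hf
  refine ⟨Tw807.cb_iff.2 ⟨h1.exp, ⟨Real.exp B, fun x => ?_⟩, fun k => ?_⟩, Real.exp (-B),
    Real.exp_pos _, fun x => Real.exp_le_exp.2 (abs_le.1 (hB x)).1⟩
  · rw [abs_of_pos (Real.exp_pos _)]
    exact Real.exp_le_exp.2 ((le_abs_self _).trans (hB x))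
  · obtain ⟨C, hC⟩ := h3 k
    refine ⟨Real.exp B * C, fun x => ?_⟩
    rw [pd_exp k (Tw807.cb_diff hf x), abs_mul, abs_of_pos (Real.exp_pos _)]
    exact mul_le_mul (Real.exp_le_exp.2 ((le_abs_self _).trans (hB x))) (hC x) (abs_nonneg _)
      (Real.exp_pos _).le

theorem cbp_log {f : E n → ℝ} (hf : CBp f) : CB (fun x => Real.log (f x)) := by
  obtain ⟨B, hB0, hB⟩ := hf.log_bdd
  obtain ⟨h1, ⟨C, hC⟩, h3⟩ := Tw807.cb_iff.1 hf.1
  obtain ⟨-, c, hc, hcf⟩ := id hf
  refine Tw807.cb_iff.2 ⟨h1.log fun x => (hf.pos x).ne', ⟨B, hB⟩, fun k => ?_⟩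
  obtain ⟨D, hD⟩ := h3 k
  refine ⟨c⁻¹ * D, fun x => ?_⟩
  rw [pd_log k (Tw807.cb_diff hf.1 x) (hf.pos x).ne', abs_mul, abs_inv, abs_of_pos (hf.pos x)]
  exact mul_le_mul (inv_anti₀ hc (hcf x)) (hD x) (abs_nonneg _) (inv_pos.2 hc).le

theorem cbp_inv {f : E n → ℝ} (hf : CBp f) : CB (fun x => (f x)⁻¹) := by
  have h := (cb_exp (Tw807.cb_neg (cbp_log hf))).1
  have e : (fun x => Real.exp (-Real.log (f x))) = fun x => (f x)⁻¹ := by
    funext x
    rw [Real.exp_neg, Real.exp_log (hf.pos x)]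
  rwa [e] at h

/-! ### determinant and inverse of a matrix field -/

theorem cb_det {M : E n → Mt n} (hM : ∀ i j, CB fun x => M x i j) : CB fun x => (M x).det := by
  have e : (fun x => (M x).det) = fun x => ∑ σ : Equiv.Perm (Fin n),
      ((Equiv.Perm.sign σ : ℤ) : ℝ) * ∏ i, M x (σ i) i := by
    funext x
    rw [Matrix.det_apply']
  rw [e]
  exact Tw807.cb_sum _ fun σ _ => Tw807.cb_const_mul _ (cb_prod _ fun i _ => hM _ _)

theorem symm_posDef {M : Mt n} (hM : Mᵀ = M) {c : ℝ} (hc : 0 < c) (h : LeQ (c • (1 : Mt n)) M) :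
    M.PosDef := MX354.posDef_of_leQ hc hM h

theorem det_ge {M : Mt n} (hM : Mᵀ = M) {c : ℝ} (hc : 0 < c) (h : LeQ (c • (1 : Mt n)) M) :
    c ^ n ≤ M.det := by
  obtain ⟨U, lam, hU, hU', hMU⟩ := NB152.diagonalize hM
  have h1 : ∀ i, c ≤ lam i := by
    intro i
    have h2 := h (fun j => U j i)
    have e1 : (fun j => U j i) = U *ᵥ Pi.single i 1 := by
      funext j
      simp
    have e2 : (fun j => U j i) ⬝ᵥ (fun j => U j i) = 1 := by
      have := congrFun (congrFun hU i) i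
      rw [Matrix.mul_apply, Matrix.one_apply_eq] at this
      simpa [dotProduct, transpose_apply] using this
    have e3 : M *ᵥ (fun j => U j i) = lam i • fun j => U j i := by
      rw [e1, hMU, Matrix.mulVec_mulVec, Matrix.mul_assoc, hU, Matrix.mul_one, ← Matrix.mulVec_mulVec,
        Matrix.diagonal_mulVec_single]
      rw [mul_one]
      have : (Pi.single i (lam i) : Fin n → ℝ) = lam i • Pi.single i 1 := by
        rw [← Pi.single_smul]
        simp
      rw [this, Matrix.mulVec_smul]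
    rw [Matrix.smul_mulVec, Matrix.one_mulVec, dotProduct_smul, e2, e3, dotProduct_smul, e2,
      smul_eq_mul, smul_eq_mul, mul_one, mul_one] at h2
    exact h2
  have h3 : M.det = ∏ i, lam i := by
    rw [hMU, Matrix.det_mul, Matrix.det_mul, Matrix.det_diagonal, Matrix.det_transpose]
    have : U.det * U.det = 1 := by
      have := congrArg Matrix.det hU
      rwa [Matrix.det_mul, Matrix.det_transpose, Matrix.det_one] at this
    calc U.det * (∏ i, lam i) * U.det = (U.det * U.det) * ∏ i, lam i := by ring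
      _ = _ := by rw [this, one_mul]
  rw [h3]
  calc c ^ n = ∏ _i : Fin n, c := by simp
    _ ≤ ∏ i, lam i := Finset.prod_le_prod (fun _ _ => hc.le) fun i _ => h1 i

/-- a symmetric, uniformly positive matrix field with `CB` entries -/
structure MF (M : E n → Mt n) : Prop where
  cb : ∀ i j, CB fun x => M x i j
  symm : ∀ x, (M x)ᵀ = M x
  ge : ∃ c : ℝ, 0 < c ∧ ∀ x, LeQ (c • (1 : Mt n)) (M x)

variable {M : E n → Mt n}

theorem MF.det_cbp (hM : MF M) : CBp fun x => (M x).det := by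
  obtain ⟨c, hc, h⟩ := hM.ge
  exact ⟨cb_det hM.cb, c ^ n, pow_pos hc n, fun x => det_ge (hM.symm x) hc (h x)⟩

theorem MF.det_pos (hM : MF M) (x : E n) : 0 < (M x).det := hM.det_cbp.pos x

theorem MF.unit (hM : MF M) (x : E n) : IsUnit (M x).det :=
  isUnit_iff_ne_zero.2 (hM.det_pos x).ne'

theorem MF.cb_inv (hM : MF M) (i j : Fin n) : CB fun x => (M x)⁻¹ i j := by
  have e : (fun x => (M x)⁻¹ i j) = fun x => ((M x).det)⁻¹ *
      ((M x).updateRow j (Pi.single i 1)).det := by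
    funext x
    rw [Matrix.inv_def, Matrix.smul_apply, Ring.inverse_eq_inv', Matrix.adjugate_apply, smul_eq_mul]
  rw [e]
  refine Tw807.cb_mul (cbp_inv hM.det_cbp) (cb_det fun k l => ?_)
  by_cases hk : k = j
  · subst hk
    simp only [Matrix.updateRow_self]
    exact Tw807.cb_const _
  · simp only [Matrix.updateRow_ne hk]
    exact hM.cb k l

theorem MF.symm_inv (hM : MF M) (x : E n) : ((M x)⁻¹)ᵀ = (M x)⁻¹ := by
  rw [Matrix.transpose_nonsing_inv, hM.symm]

theorem pdM_mul {A B : E n → Mt n} (hA : ∀ i j, CB fun x => A x i j)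
    (hB : ∀ i j, CB fun x => B x i j) (k : Fin n) (x : E n) :
    pdM k (fun y => A y * B y) x = pdM k A x * B x + A x * pdM k B x := by
  ext i j
  simp only [pdM, Matrix.of_apply, Matrix.add_apply, Matrix.mul_apply]
  rw [Tw807.pd_sum _ (f := fun l y => A y i l * B y l j) k
    fun l _ => (Tw807.cb_diff (hA i l) x).mul (Tw807.cb_diff (hB l j) x),
    ← Finset.sum_add_distrib]
  refine Finset.sum_congr rfl fun l _ => ?_
  rw [Tw807.pd_mul k (Tw807.cb_diff (hA i l) x) (Tw807.cb_diff (hB l j) x)]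
  ring

/-- `∂ M⁻¹ = - M⁻¹ ∂M M⁻¹` -/
theorem MF.pd_inv (hM : MF M) (k : Fin n) (x : E n) :
    pdM k (fun y => (M y)⁻¹) x = -((M x)⁻¹ * pdM k M x * (M x)⁻¹) := by
  have h1 := pdM_mul hM.cb hM.cb_inv k x
  have e : (fun y => M y * (M y)⁻¹) = fun _ => 1 := by
    funext y
    exact Matrix.mul_nonsing_inv _ (hM.unit y)
  have e2 : pdM k (fun _ : E n => (1 : Mt n)) x = 0 := by
    ext i j
    simp only [pdM, Matrix.of_apply, Matrix.zero_apply]
    exact Tw807.pd_const _ k x
  rw [e, e2] at h1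
  have h2 : M x * pdM k (fun y => (M y)⁻¹) x = -(pdM k M x * (M x)⁻¹) := by
    rw [eq_neg_iff_add_eq_zero, add_comm]
    exact h1.symm
  calc pdM k (fun y => (M y)⁻¹) x = (M x)⁻¹ * (M x * pdM k (fun y => (M y)⁻¹) x) := by
        rw [← Matrix.mul_assoc, Matrix.nonsing_inv_mul _ (hM.unit x), Matrix.one_mul]
    _ = _ := by rw [h2, Matrix.mul_neg, Matrix.mul_assoc]

/-! #### Jacobi's formula (adapted from R208.N3, helper589) -/

theorem det_one_add_deriv (B : Mt n) :
    HasDerivAt (fun t : ℝ => (1 + t • B).det) B.trace 0 := by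
  have h : ∀ t : ℝ, (1 + t • B).det = 1 + B.trace * t
      + (((1 : Matrix (Fin n) (Fin n) (Polynomial ℝ)) + (Polynomial.X : Polynomial ℝ) •
        B.map Polynomial.C).det.divX.divX.eval t) * t ^ 2 := by
    intro t; exact Matrix.det_one_add_smul _ _
  simp only [h]
  have h0 : HasDerivAt (fun t : ℝ => t) 1 0 := hasDerivAt_id 0
  have h1 := (((1 : Matrix (Fin n) (Fin n) (Polynomial ℝ)) + (Polynomial.X : Polynomial ℝ) •
        B.map Polynomial.C).det.divX.divX).hasDerivAt (0 : ℝ)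
  have h2 := ((h0.const_mul B.trace).const_add 1).add (h1.mul (h0.pow 2))
  refine h2.congr_deriv ?_
  simp

section jacobi

attribute [local instance] Matrix.normedAddCommGroup Matrix.normedSpace

theorem diffAt_det (A : Mt n) : DifferentiableAt ℝ (fun B : Mt n => B.det) A := by
  simp only [Matrix.det_apply]
  refine DifferentiableAt.fun_sum fun σ _ => ?_
  refine DifferentiableAt.fun_const_smul ?_ _
  have hL : ∀ i : Fin n, ∃ L : Mt n →L[ℝ] ℝ, HasFDerivAt (fun B : Mt n => B (σ i) i) L A := by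
    intro i
    have h1 : HasFDerivAt (fun B : Mt n => (B (σ i) : Fin n → ℝ))
        (ContinuousLinearMap.proj (R := ℝ) (φ := fun _ : Fin n => Fin n → ℝ) (σ i)) A :=
      (ContinuousLinearMap.proj (R := ℝ) (φ := fun _ : Fin n => Fin n → ℝ) (σ i)).hasFDerivAt
    have h2 : HasFDerivAt (fun r : Fin n → ℝ => r i)
        (ContinuousLinearMap.proj (R := ℝ) (φ := fun _ : Fin n => ℝ) i) (A (σ i)) :=
      (ContinuousLinearMap.proj (R := ℝ) (φ := fun _ : Fin n => ℝ) i).hasFDerivAt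
    exact ⟨_, (h2.comp A h1 : HasFDerivAt ((fun r : Fin n → ℝ => r i) ∘
      (fun B : Mt n => (B (σ i) : Fin n → ℝ))) _ A)⟩
  choose L hL using hL
  exact (HasFDerivAt.finsetProd (u := Finset.univ)
    (g := fun i (B : Mt n) => B (σ i) i) (x := A) (fun i _ => hL i)).differentiableAt

theorem det_deriv {A : ℝ → Mt n} {A' : Mt n} {t : ℝ}
    (hA : ∀ i j, HasDerivAt (fun t => A t i j) (A' i j) t) (hd : IsUnit (A t).det) :
    HasDerivAt (fun t => (A t).det) ((A t).det * ((A t)⁻¹ * A').trace) t := by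
  have hA' : HasDerivAt A A' t := hasDerivAt_pi.2 fun i => hasDerivAt_pi.2 fun j => hA i j
  have h1 := (diffAt_det (A t)).hasFDerivAt
  have h2 := h1.comp_hasDerivAt t hA'
  refine h2.congr_deriv ?_
  have h3 : HasDerivAt (fun s : ℝ => A t + s • A') A' 0 := by
    have := ((hasDerivAt_id (0 : ℝ)).smul_const A').const_add (A t)
    rw [one_smul] at this
    exact this
  have h4 : HasFDerivAt (fun B : Mt n => B.det)
      (fderiv ℝ (fun B : Mt n => B.det) (A t)) (A t + (0 : ℝ) • A') := by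
    simpa using h1
  have h5 := h4.comp_hasDerivAt (0 : ℝ) h3
  have h6 : ((fun B : Mt n => B.det) ∘ fun s : ℝ => A t + s • A')
      = fun s : ℝ => (A t).det * (1 + s • ((A t)⁻¹ * A')).det := by
    ext s
    simp only [Function.comp]
    rw [← Matrix.det_mul, Matrix.mul_add, Matrix.mul_one, Matrix.mul_smul, ← Matrix.mul_assoc,
      Matrix.mul_nonsing_inv _ hd, Matrix.one_mul]
  rw [h6] at h5
  have h7 := (det_one_add_deriv ((A t)⁻¹ * A')).const_mul (A t).det
  exact h5.unique h7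

end jacobi

/-- `∂ₖ log det M = tr (M⁻¹ ∂ₖM)` -/
theorem MF.pd_logdet (hM : MF M) (k : Fin n) (x : E n) :
    pd k (fun y => Real.log (M y).det) x = ((M x)⁻¹ * pdM k M x).trace := by
  rw [pd_log k (Tw807.cb_diff hM.det_cbp.1 x) (hM.det_pos x).ne']
  have h1 : ∀ {f : E n → ℝ}, DifferentiableAt ℝ f x →
      HasDerivAt (fun t : ℝ => f (x + t • EuclideanSpace.single k (1 : ℝ))) (pd k f x) 0 := by
    intro f hf
    have h2 : HasDerivAt (fun t : ℝ => x + t • (EuclideanSpace.single k (1 : ℝ) : E n))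
        (EuclideanSpace.single k (1 : ℝ)) 0 := by
      simpa using ((hasDerivAt_id (0 : ℝ)).smul_const (EuclideanSpace.single k (1 : ℝ))).const_add x
    have h3 : HasFDerivAt f (fderiv ℝ f x) (x + (0 : ℝ) • (EuclideanSpace.single k (1 : ℝ) : E n)) := by
      simpa using hf.hasFDerivAt
    exact h3.comp_hasDerivAt (0 : ℝ) h2
  have h4 := h1 (Tw807.cb_diff hM.det_cbp.1 x)
  have h5 := det_deriv (A := fun t : ℝ => M (x + t • EuclideanSpace.single k (1 : ℝ)))
    (A' := pdM k M x) (t := 0) (fun i j => h1 (Tw807.cb_diff (hM.cb i j) x))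
    (by simpa using hM.unit x)
  have h6 := h4.unique h5
  rw [h6]
  have h7 : M (x + (0 : ℝ) • EuclideanSpace.single k (1 : ℝ)) = M x := by simp
  rw [h7]
  have := (hM.det_pos x).ne'
  field_simp

/-- symmetric square root -/
theorem MF.root (hM : MF M) (x : E n) : ∃ B : Mt n, Bᵀ = B ∧ B * B = M x ∧ 0 < B.det := by
  obtain ⟨c, hc, h⟩ := hM.ge
  obtain ⟨T, hT, hTT⟩ := MX354.root_exists (symm_posDef (hM.symm x) hc (h x)).posSemidef
  refine ⟨T, MX354.posSemidef_transpose hT, hTT, ?_⟩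
  refine lt_of_le_of_ne hT.det_nonneg fun h0 => ?_
  have h1 := hM.det_pos x
  rw [← hTT, Matrix.det_mul, ← h0, mul_zero] at h1
  exact lt_irrefl _ h1

/-! ### the density of `N(v, M)` with respect to the standard Gaussian -/

/-- log-density of `N(v, M)` with respect to `gam n` -/
noncomputable def gl (v : Fin n → ℝ) (M : Mt n) (y : E n) : ℝ :=
  -(1 / 2) * ((y.ofLp - v) ⬝ᵥ (M⁻¹ *ᵥ (y.ofLp - v))) + (1 / 2) * (y.ofLp ⬝ᵥ y.ofLp) -
    (1 / 2) * Real.log M.det

/-- density of `N(v, M)` with respect to `gam n` -/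
noncomputable def gd (v : Fin n → ℝ) (M : Mt n) (y : E n) : ℝ := Real.exp (gl v M y)

theorem gd_eq (v : Fin n → ℝ) {M : Mt n} (hM : 0 < M.det) (y : E n) :
    gd v M y = Real.exp (-(1 / 2) * ((y.ofLp - v) ⬝ᵥ (M⁻¹ *ᵥ (y.ofLp - v))) +
      (1 / 2) * (y.ofLp ⬝ᵥ y.ofLp)) / √M.det := by
  unfold gd gl
  rw [Real.exp_sub]
  congr 1
  rw [Real.sqrt_eq_rpow, Real.rpow_def_of_pos hM]
  congr 1
  ring

/-- the affine map `g ↦ v + B g` -/
noncomputable def am (v : Fin n → ℝ) (B : Mt n) (g : E n) : E n := WithLp.toLp 2 (v + B *ᵥ g.ofLp)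

theorem am_ofLp (v : Fin n → ℝ) (B : Mt n) (g : E n) : (am v B g).ofLp = v + B *ᵥ g.ofLp := rfl

theorem am_cont (v : Fin n → ℝ) (B : Mt n) : Continuous (am v B) := by
  unfold am
  refine (PiLp.continuous_toLp 2 _).comp (continuous_const.add ?_)
  exact Continuous.matrix_mulVec continuous_const (PiLp.continuous_ofLp 2 _)

theorem norm_sq_dot (y : E n) : ‖y‖ ^ 2 = y.ofLp ⬝ᵥ y.ofLp := by
  rw [EuclideanSpace.norm_sq_eq]
  simp [dotProduct, sq]

/-- change of variables for the affine map -/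
theorem int_am (v : Fin n → ℝ) {B : Mt n} (hB : 0 < B.det) (H : E n → ℝ) :
    (Integrable H ↔ Integrable fun g => H (am v B g)) ∧
    ∫ y, H y = B.det * ∫ g, H (am v B g) := by
  set e : E n ≃L[ℝ] (Fin n → ℝ) := PiLp.continuousLinearEquiv 2 ℝ fun _ : Fin n => ℝ with he
  set f : E n →ₗ[ℝ] E n := (e.symm : (Fin n → ℝ) →ₗ[ℝ] E n) ∘ₗ (Matrix.toLin' B) ∘ₗ
    (e : E n →ₗ[ℝ] (Fin n → ℝ)) with hf
  have hdet : LinearMap.det f = B.det := by
    rw [hf]
    have := LinearMap.det_conj (Matrix.toLin' B) (e.symm.toLinearEquiv)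
    rw [LinearMap.det_toLin'] at this
    exact this
  have hfd : LinearMap.det f ≠ 0 := by rw [hdet]; exact hB.ne'
  have hmap := Measure.map_linearMap_addHaar_eq_smul_addHaar (volume : Measure (E n)) hfd
  rw [hdet, abs_of_pos (inv_pos.2 hB)] at hmap
  have hfa : ∀ g, am v B g = WithLp.toLp 2 v + f g := fun g => rfl
  set fe : E n ≃L[ℝ] E n := (LinearEquiv.ofIsUnitDet (f := f) (v := (stdOrthonormalBasis ℝ (E n)).toBasis)
    (v' := (stdOrthonormalBasis ℝ (E n)).toBasis) (by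
      rw [LinearMap.det_toMatrix]; exact isUnit_iff_ne_zero.2 hfd)).toContinuousLinearEquiv with hfe
  have hfef : ∀ g, fe g = f g := fun g => rfl
  have hme : MeasurableEmbedding (f : E n → E n) := by
    have := fe.toHomeomorph.measurableEmbedding
    exact this
  have hT : ∀ H : E n → ℝ, ∫ y, H (WithLp.toLp 2 v + y) = ∫ y, H y := fun H =>
    integral_add_left_eq_self H _
  constructor
  · have h1 : Integrable H ↔ Integrable fun y => H (WithLp.toLp 2 v + y) := by
      constructor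
      · intro h; exact h.comp_add_left _
      · intro h
        have := h.comp_add_left (-(WithLp.toLp 2 v : E n))
        simpa using this
    rw [h1]
    have h2 := hme.integrable_map_iff (μ := (volume : Measure (E n)))
      (g := fun y => H (WithLp.toLp 2 v + y))
    rw [hmap] at h2
    have h3 : Integrable (fun y => H (WithLp.toLp 2 v + y)) (ENNReal.ofReal (B.det)⁻¹ •
        (volume : Measure (E n))) ↔ Integrable fun y => H (WithLp.toLp 2 v + y) :=
      integrable_smul_measure (by simpa using hB) ENNReal.ofReal_ne_top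
    rw [← h3, h2]
    rfl
  · rw [← hT H]
    have h2 := hme.integral_map (μ := (volume : Measure (E n)))
      (fun y => H (WithLp.toLp 2 v + y))
    rw [hmap, integral_smul_measure, ENNReal.toReal_ofReal (inv_pos.2 hB).le, smul_eq_mul] at h2
    have h3 : ∫ g, H (am v B g) = ∫ g, H (WithLp.toLp 2 v + f g) := rfl
    rw [h3, ← h2, ← mul_assoc, mul_inv_cancel₀ hB.ne', one_mul]

theorem gd_am (v : Fin n → ℝ) {B : Mt n} (hBs : Bᵀ = B) (hB : 0 < B.det) (g : E n) :
    B.det * (gd v (B * B) (am v B g) * gk 1 (am v B g)) = gk 1 g := by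
  have hu : IsUnit B.det := isUnit_iff_ne_zero.2 hB.ne'
  have h1 : (B *ᵥ g.ofLp) ⬝ᵥ ((B * B)⁻¹ *ᵥ (B *ᵥ g.ofLp)) = g.ofLp ⬝ᵥ g.ofLp := by
    rw [Matrix.mul_inv_rev, Matrix.mulVec_mulVec, Matrix.mul_assoc, Matrix.nonsing_inv_mul _ hu,
      Matrix.mul_one]
    have : (B *ᵥ g.ofLp) ⬝ᵥ (B⁻¹ *ᵥ g.ofLp) = g.ofLp ⬝ᵥ ((Bᵀ * B⁻¹) *ᵥ g.ofLp) := by
      rw [← Matrix.mulVec_mulVec, Matrix.dotProduct_mulVec g.ofLp, Matrix.vecMul_transpose]
    rw [this, hBs, Matrix.mul_nonsing_inv _ hu, Matrix.one_mulVec]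
  have h2 : Real.exp (-(1 / 2) * Real.log (B * B).det) = (B.det)⁻¹ := by
    rw [Matrix.det_mul, Real.log_mul hB.ne' hB.ne', ← Real.exp_log (inv_pos.2 hB), Real.log_inv]
    congr 1
    ring
  unfold gd gl gk
  rw [am_ofLp, add_sub_cancel_left, h1]
  have h3 : -(1 / 2) * (g.ofLp ⬝ᵥ g.ofLp) + 1 / 2 * ((v + B *ᵥ g.ofLp) ⬝ᵥ (v + B *ᵥ g.ofLp)) -
      1 / 2 * Real.log (B * B).det = (-(‖g‖ ^ 2 / (2 * 1)) + -(1 / 2) * Real.log (B * B).det) +
        (‖am v B g‖ ^ 2 / (2 * 1)) := by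
    rw [norm_sq_dot, norm_sq_dot, am_ofLp]
    ring
  rw [h3, Real.exp_add, Real.exp_add, h2]
  have h4 : Real.exp (‖am v B g‖ ^ 2 / (2 * 1)) * Real.exp (-(‖am v B g‖ ^ 2 / (2 * 1))) = 1 := by
    rw [← Real.exp_add]; simp
  calc B.det * (Real.exp (-(‖g‖ ^ 2 / (2 * 1))) * (B.det)⁻¹ * Real.exp (‖am v B g‖ ^ 2 / (2 * 1)) *
        Real.exp (-(‖am v B g‖ ^ 2 / (2 * 1))))
      = (B.det * (B.det)⁻¹) * Real.exp (-(‖g‖ ^ 2 / (2 * 1))) *
        (Real.exp (‖am v B g‖ ^ 2 / (2 * 1)) * Real.exp (-(‖am v B g‖ ^ 2 / (2 * 1)))) := by ring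
    _ = _ := by rw [h4, mul_inv_cancel₀ hB.ne', one_mul, mul_one]

/-- the law of `v + B g` has density `gd v (B²)` with respect to `gam n` -/
theorem gd_cov (v : Fin n → ℝ) {B : Mt n} (hBs : Bᵀ = B) (hB : 0 < B.det) (F : E n → ℝ) :
    (Integrable (fun y => F y * gd v (B * B) y) (gam n) ↔
      Integrable (fun g => F (am v B g)) (gam n)) ∧
    ∫ y, F y * gd v (B * B) y ∂(gam n) = ∫ g, F (am v B g) ∂(gam n) := by
  have hρ : Ex (gk 1 : E n → ℝ) := ex_gk one_pos
  obtain ⟨h1, h2⟩ := int_am v hB fun y => F y * gd v (B * B) y * gk 1 y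
  have e : ∀ g, B.det * (F (am v B g) * gd v (B * B) (am v B g) * gk 1 (am v B g)) =
      F (am v B g) * gk 1 g := by
    intro g
    rw [← gd_am v hBs hB g]
    ring
  constructor
  · unfold gam
    rw [integrable_nm_iff hρ, integrable_nm_iff hρ, h1]
    have e2 : (fun g => F (am v B g) * gk 1 g) = fun g =>
        B.det * (F (am v B g) * gd v (B * B) (am v B g) * gk 1 (am v B g)) := by
      funext g; exact (e g).symm
    rw [e2]
    constructor
    · intro h; exact h.const_mul _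
    · intro h
      have := h.const_mul (B.det)⁻¹
      refine this.congr (ae_of_all _ fun g => ?_)
      simp only
      rw [← mul_assoc, inv_mul_cancel₀ hB.ne', one_mul]
  · rw [int_gam, int_gam]
    unfold Em
    rw [h2, ← integral_const_mul]
    simp only [e]

end Crest.Agent.R201.LL809
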