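import Crest.Agent.R201.GS3_844
import Crest.Agent.R201.LabG2_809
import Crest.Agent.R201.An6_293

/-!
# R201, LSI half (helper844): the Gaussian kernel `∫ L σ (A g) y dγ(g) = gd 0 (1 + σ² A Aᵀ) y`
-/

set_option autoImplicit false
set_option linter.unusedSectionVars false
open MeasureTheory Matrix ProbabilityTheory Filter Topology
open scoped ENNReal RealInnerProductSpace

namespace Crest.Agent.R201.GS844

open Crest.Agent.R201 Crest.Agent.R201.An Crest.Agent.R201.GC844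

variable {n : ℕ}

theorem mv_meas (A : Mt n) : Measurable (mv A) := (continuous_mv A).measurable

theorem mv_sq (A : Mt n) : Integrable (fun g => ‖mv A g‖ ^ 2) (gm n) := by
  have e : (fun g => ‖mv A g‖ ^ 2) = fun g => ∑ k, (mv A g k) * (mv A g k) := by
    funext g
    rw [EuclideanSpace.real_norm_sq_eq]
    exact Finset.sum_congr rfl fun k _ => sq _
  rw [e]
  exact integrable_gm (EG.sum _ fun k _ => (EG_mv A k).mul (EG_mv A k))

/-- symmetric matrix `1 + σ² A Aᵀ` -/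
noncomputable def Mk (σ : ℝ) (A : Mt n) : Mt n := 1 + σ ^ 2 • (A * Aᵀ)

theorem Mk_symm (σ : ℝ) (A : Mt n) : (Mk σ A)ᵀ = Mk σ A := by
  unfold Mk
  rw [Matrix.transpose_add, Matrix.transpose_one, Matrix.transpose_smul, Matrix.transpose_mul,
    Matrix.transpose_transpose]

theorem Mk_ge (σ : ℝ) (A : Mt n) : LeQ ((1 : ℝ) • (1 : Mt n)) (Mk σ A) := by
  intro u
  unfold Mk
  rw [one_smul, Matrix.add_mulVec, dotProduct_add, Matrix.smul_mulVec, dotProduct_smul]
  have h : 0 ≤ u ⬝ᵥ ((A * Aᵀ) *ᵥ u) := by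
    rw [← Matrix.mulVec_mulVec, Matrix.dotProduct_mulVec, ← Matrix.mulVec_transpose]
    exact Finset.sum_nonneg fun i _ => mul_self_nonneg _
  have := mul_nonneg (sq_nonneg σ) h
  rw [smul_eq_mul]
  linarith

theorem Mk_det (σ : ℝ) (A : Mt n) : 0 < (Mk σ A).det := by
  have := LL809.det_ge (Mk_symm σ A) one_pos (Mk_ge σ A)
  rw [one_pow] at this
  linarith

theorem gd_one {M : Mt n} (hM : Mᵀ = M) {c : ℝ} (hc : 0 < c) (h : LeQ (c • (1 : Mt n)) M)
    (v : Fin n → ℝ) : Integrable (fun y => LL809.gd v M y) (LL809.gam n) ∧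
      ∫ y, LL809.gd v M y ∂(LL809.gam n) = 1 := by
  obtain ⟨T, hT, hTT⟩ := MX354.root_exists (LL809.symm_posDef hM hc h).posSemidef
  have hdet : 0 < T.det := by
    refine lt_of_le_of_ne hT.det_nonneg fun h0 => ?_
    have h1 := (LL809.symm_posDef hM hc h).det_pos
    rw [← hTT, Matrix.det_mul, ← h0, mul_zero] at h1
    exact lt_irrefl _ h1
  have h2 := LL809.gd_cov v (MX354.posSemidef_transpose hT) hdet (fun _ => 1)
  rw [hTT] at h2
  simp only [one_mul] at h2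
  refine ⟨h2.1.mpr (integrable_const _), ?_⟩
  rw [h2.2]
  simp

theorem gl_eq (M : Mt n) (y : E n) : LL809.gl 0 M y =
    -(1 / 2) * ⟪y, mv M⁻¹ y⟫ + (1 / 2) * ‖y‖ ^ 2 - (1 / 2) * Real.log M.det := by
  unfold LL809.gl
  rw [LL809.norm_sq_dot, sub_zero, inner_sum]
  have : ∀ k, mv M⁻¹ y k = (M⁻¹ *ᵥ y.ofLp) k := fun k => by rw [mv_apply]; rfl
  simp_rw [this]
  rfl

theorem hasFDerivAt_gl (M : Mt n) (y : E n) : HasFDerivAt (LL809.gl 0 M)
    (-(1 / 2 : ℝ) • ((fderivInnerCLM ℝ (y, mv M⁻¹ y)).comp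
      ((ContinuousLinearMap.id ℝ (E n)).prod (Matrix.toEuclideanCLM (𝕜 := ℝ) M⁻¹))) +
      (1 / 2 : ℝ) • (2 • innerSL ℝ y)) y := by
  have e : LL809.gl 0 M = fun y : E n => -(1 / 2) * ⟪y, mv M⁻¹ y⟫ + (1 / 2) * ‖y‖ ^ 2 -
      (1 / 2) * Real.log M.det := funext fun y => gl_eq M y
  rw [e]
  have hT : HasFDerivAt (fun g => mv M⁻¹ g) (Matrix.toEuclideanCLM (𝕜 := ℝ) M⁻¹) y :=
    (Matrix.toEuclideanCLM (𝕜 := ℝ) M⁻¹).hasFDerivAt
  have h1 := (hasFDerivAt_id y).inner ℝ hT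
  have h2 := (hasFDerivAt_id y).norm_sq
  exact ((h1.const_mul (-(1 / 2))).add (h2.const_mul (1 / 2))).sub_const _

theorem pd_gly {M : Mt n} (hM : (M⁻¹)ᵀ = M⁻¹) (k : Fin n) (y : E n) :
    pd k (LL809.gl 0 M) y = y k - ∑ l, M⁻¹ k l * y l := by
  unfold pd
  rw [(hasFDerivAt_gl M y).fderiv]
  simp only [_root_.smul_apply, _root_.add_apply, smul_eq_mul, ContinuousLinearMap.comp_apply,
    innerSL_apply_apply, ContinuousLinearMap.prod_apply, ContinuousLinearMap.id_apply,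
    fderivInnerCLM_apply, nsmul_eq_mul]
  have e1 : (⟪y, (Matrix.toEuclideanCLM (𝕜 := ℝ) M⁻¹) (EuclideanSpace.single k 1)⟫ : ℝ) =
      ∑ l, M⁻¹ k l * y l := by
    rw [inner_sum]
    exact Finset.sum_congr rfl fun l _ => by
      rw [show (Matrix.toEuclideanCLM (𝕜 := ℝ) M⁻¹) (EuclideanSpace.single k 1) l = M⁻¹ l k from
        mv_single M⁻¹ k l, ← congrFun (congrFun hM l) k, Matrix.transpose_apply]
      ring
  have e2 : (⟪EuclideanSpace.single k (1 : ℝ), mv M⁻¹ y⟫ : ℝ) = ∑ l, M⁻¹ k l * y l := by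
    rw [EuclideanSpace.inner_single_left]
    simp [mv_apply]
  have e3 : (⟪y, EuclideanSpace.single k (1 : ℝ)⟫ : ℝ) = y k := by
    rw [real_inner_comm, EuclideanSpace.inner_single_left]
    simp
  rw [e1, e2, e3]
  push_cast
  ring

/-- the gradient of the kernel -/
theorem ker_grad (A : Mt n) (σ : ℝ) (y : E n) (k : Fin n) :
    pd k (wt (gm n) (mv A) σ) y =
      wt (gm n) (mv A) σ y * (y k - ∑ l, (Mk σ A)⁻¹ k l * y l) := by
  set w := wt (gm n) (mv A) σ y with hw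
  set z : Fin n → ℝ := fun k => pd k (wt (gm n) (mv A) σ) y with hz
  have hz1 : ∀ k, z k = σ * Z (gm n) (mv A) σ (fun g => mv A g k) y := fun k =>
    pd_wt (mv_meas A) (mv_sq A) k y
  have hst : ∀ k, z k = σ ^ 2 * ∑ l, (A * Aᵀ) k l * (y l * w - z l) := by
    intro k
    rw [hz1]
    have h1 := stein A σ y k
    change Z (gm n) (mv A) σ (fun g => mv A g k) y = _ at h1
    rw [h1]
    have e : ∀ l, ∫ g, (y l - σ * mv A g l) * L σ (mv A g) y ∂(gm n) = y l * w - z l := by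
      intro l
      rw [hz1]
      have i1 : Integrable (fun g => y l * (1 * L σ (mv A g) y)) (gm n) :=
        (int_Z (mv_meas A) (integrable_const (1 : ℝ)) y).const_mul _
      have i2 : Integrable (fun g => σ * (mv A g l * L σ (mv A g) y)) (gm n) :=
        (int_Z (mv_meas A) (i_coord (mv_meas A) (mv_sq A) l) y).const_mul _
      have e1 : (fun g => (y l - σ * mv A g l) * L σ (mv A g) y) =
          fun g => y l * (1 * L σ (mv A g) y) - σ * (mv A g l * L σ (mv A g) y) := by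
        funext g; ring
      have q1 : ∫ g, y l * (1 * L σ (mv A g) y) ∂(gm n) = y l * w := integral_const_mul _ _
      have q2 : ∫ g, σ * (mv A g l * L σ (mv A g) y) ∂(gm n) =
          σ * Z (gm n) (mv A) σ (fun g => mv A g l) y := integral_const_mul _ _
      rw [e1, integral_sub i1 i2, q1, q2]
    simp_rw [e]
    ring
  -- linear system
  have hvec : Mk σ A *ᵥ z = w • ((Mk σ A - 1) *ᵥ y.ofLp) := by
    have m1 : ∀ v : Fin n → ℝ, (Mk σ A) *ᵥ v = v + σ ^ 2 • ((A * Aᵀ) *ᵥ v) := by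
      intro v
      unfold Mk
      rw [Matrix.add_mulVec, Matrix.one_mulVec, Matrix.smul_mulVec]
    have m2 : (Mk σ A - 1) *ᵥ y.ofLp = σ ^ 2 • ((A * Aᵀ) *ᵥ y.ofLp) := by
      unfold Mk
      rw [add_sub_cancel_left, Matrix.smul_mulVec]
    rw [m1, m2]
    funext k
    simp only [Pi.add_apply, Pi.smul_apply, smul_eq_mul, Matrix.mulVec, dotProduct]
    rw [hst k, ← mul_add, ← Finset.sum_add_distrib, mul_left_comm, Finset.mul_sum (a := w)]
    congr 1
    exact Finset.sum_congr rfl fun l _ => by ring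
  have hu : IsUnit (Mk σ A).det := isUnit_iff_ne_zero.2 (Mk_det σ A).ne'
  have h2 : z = w • ((1 - (Mk σ A)⁻¹) *ᵥ y.ofLp) := by
    have h3 := congrArg (fun v => (Mk σ A)⁻¹ *ᵥ v) hvec
    simp only [Matrix.mulVec_mulVec, Matrix.mulVec_smul, Matrix.nonsing_inv_mul _ hu,
      Matrix.one_mulVec, Matrix.mul_sub, Matrix.mul_one] at h3
    exact h3
  have h4 := congrFun h2 k
  simp only [Pi.smul_apply, Matrix.sub_mulVec, Matrix.one_mulVec, Pi.sub_apply, smul_eq_mul,
    Matrix.mulVec, dotProduct] at h4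
  exact h4

theorem fderiv_zero {f : E n → ℝ} {x : E n} (h : ∀ k, pd k f x = 0) : fderiv ℝ f x = 0 := by
  have h1 := norm_fderiv_sq f x
  simp only [h] at h1
  simpa using h1

/-- **the Gaussian kernel** -/
theorem ker (A : Mt n) (σ : ℝ) (y : E n) :
    ∫ g, L σ (mv A g) y ∂(gm n) = LL809.gd 0 (Mk σ A) y := by
  have hMi : ((Mk σ A)⁻¹)ᵀ = (Mk σ A)⁻¹ := by rw [Matrix.transpose_nonsing_inv, Mk_symm]
  set ψ : E n → ℝ := fun y => wt (gm n) (mv A) σ y * Real.exp (-LL809.gl 0 (Mk σ A) y) with hψ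
  have d1 : Differentiable ℝ (wt (gm n) (mv A) σ) := diff_wt (mv_meas A) (mv_sq A)
  have d2 : Differentiable ℝ (LL809.gl 0 (Mk σ A)) := fun y =>
    (hasFDerivAt_gl (Mk σ A) y).differentiableAt
  have d3 : Differentiable ℝ fun y => Real.exp (-LL809.gl 0 (Mk σ A) y) := d2.neg.exp
  have hd : Differentiable ℝ ψ := d1.mul d3
  have h0 : ∀ y, fderiv ℝ ψ y = 0 := by
    intro y
    refine fderiv_zero fun k => ?_
    have e1 := LL809.pd_exp (f := fun y => -LL809.gl 0 (Mk σ A) y) k (d2.neg y)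
    have e2 : pd k (fun y => -LL809.gl 0 (Mk σ A) y) y = -pd k (LL809.gl 0 (Mk σ A)) y := by
      unfold pd
      rw [fderiv_fun_neg]
      simp
    rw [hψ, Tw807.pd_mul k (d1 y) (d3 y), e1, ker_grad, e2, pd_gly hMi]
    ring
  have hc : ∀ y, ψ y = ψ 0 := fun y => is_const_of_fderiv_eq_zero hd h0 y 0
  have hw : ∀ y, wt (gm n) (mv A) σ y = ψ 0 * LL809.gd 0 (Mk σ A) y := by
    intro y
    rw [← hc y, hψ]
    unfold LL809.gd
    simp only
    rw [mul_assoc, ← Real.exp_add, neg_add_cancel, Real.exp_zero, mul_one]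
  have i1 := (int_ZF (σ := σ) (ρ := gm n) (mv_meas A) (integrable_const (1 : ℝ))).2
  have i2 := (gd_one (Mk_symm σ A) one_pos (Mk_ge σ A) 0).2
  have h1 : ψ 0 = 1 := by
    have e : ∫ y, Z (gm n) (mv A) σ (fun _ => (1 : ℝ)) y ∂(gm n) =
        ψ 0 * ∫ y, LL809.gd 0 (Mk σ A) y ∂(LL809.gam n) := by
      rw [← integral_const_mul, LL809.gam_eq]
      exact integral_congr_ae (Eventually.of_forall fun y => hw y)
    rw [i1, i2, mul_one] at e
    rw [← e]
    simp
  have h2 := hw y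
  rw [h1, one_mul] at h2
  rw [← h2]
  unfold wt Z
  simp only [one_mul]

end Crest.Agent.R201.GS844
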