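import Crest.Agent.R201.TopDefs_674
import Crest.Agent.R201.LabG1_809
import Crest.Agent.R201.Noi3_402

/-!
# R201 (S0308): OFFICIAL DEFINITIONS of the LSI route  (owner: helper74, architect)

`State n ε` = near-extremal of a noisy log-concave measure at one time, all the inputs of the static
part. `NoState` = the static theorem. `Key` = the statement consumed by 293 / 402.
All literal block statements are the `def ... : Prop` below; a block is finished when its Prop is a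
theorem with the same name in lower case and the typist's suffix.
-/

set_option autoImplicit false
open MeasureTheory Matrix
open scoped ContDiff

namespace Crest.Agent.R201.L74

open Crest.Agent.R201

variable {n : ℕ}

/-- `ν = f μ`, `w = D log f`, `V2` = Hessian of the potential of `μ`, `P = 1 - h V2`. -/
structure State (n : ℕ) (ε : ℝ) extends El593.St n where
  μ : Measure (E n)
  prob_μ : IsProbabilityMeasure μ
  f : E n → ℝ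
  f_cbp : LL809.CBp f
  f_one : ∫ x, f x ∂μ = 1
  /-- `ν = f μ` -/
  ν_eq : ν = μ.withDensity fun x => ENNReal.ofReal (f x)
  w_eq : ∀ i x, w i x = pd i f x / f x
  w_cb : ∀ i, CB (w i)
  V2_bdd : ∃ B : ℝ, ∀ x i j, |V2 x i j| ≤ B
  V2_nonneg : ∀ x, LeQ 0 (V2 x)
  h : ℝ
  h_pos : 0 < h
  h_le : h ≤ ε
  V2_le : ∀ x, LeQ (h • V2 x) 1
  lsi : LL809.LSI (1 + ε) μ
  /-- small defect -/
  S1 : (1 + ε) / 2 * nsq ν w - LL809.Ent μ f ≤ ε * nsq ν w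
  /-- level 1 upper bound -/
  S2 : dsq ν w ≤ (1 + ε) * nsq ν w
  /-- labelled `ψ₂`, linear form: `E |E[w|J]|² ≤ ε (I + I(J;x))` -/
  S3 : ∀ (p : E n → E n → ℝ) (G k : E n → ℝ), LL809.Chan (LL809.gam n) p G k →
    ∫ j, (∑ i, (∫ x, f x * (w i x * p j x) ∂μ) ^ 2) / LL809.pJ μ f p j ∂(LL809.gam n) ≤
      ε * (nsq ν w + LL809.MI μ f (LL809.gam n) p)
  /-- labelled `ψ₂`, trace form: `E Tr (R_J P) ≤ ε (I + I(J;x) + E Tr R_J)` -/
  P1L : ∀ (p : E n → E n → ℝ) (G k : E n → ℝ), LL809.Chan (LL809.gam n) p G k →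
    ∀ R : E n → Mt n, (∀ i j, Measurable fun y => R y i j) → (∀ y, (R y)ᵀ = R y) →
      (∀ y, LeQ 0 (R y)) → (∀ y, LeQ (R y) 1) →
      ∫ j, ∫ x, f x * ((R j * (1 - h • V2 x)).trace * p j x) ∂μ ∂(LL809.gam n) ≤
        ε * (nsq ν w + LL809.MI μ f (LL809.gam n) p +
          ∫ j, (R j).trace * LL809.pJ μ f p j ∂(LL809.gam n))

namespace State

variable {ε : ℝ} (S : State n ε)

/-- Fisher information -/
noncomputable def I : ℝ := nsq S.ν S.w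

/-- `Σ ∫ (w_i - φ_i)² dν` -/
noncomputable def dist0 (φ : Fin n → E n → ℝ) : ℝ := ∑ i, ∫ x, (S.w i x - φ i x) ^ 2 ∂S.ν

/-- `Σ ∫ (D_k w_i - D_k φ_i)² dν` -/
noncomputable def dist1 (φ : Fin n → E n → ℝ) : ℝ :=
  ∑ i, ∑ k, ∫ x, (pd k (S.w i) x - pd k (φ i) x) ^ 2 ∂S.ν

end State

/-- Jacobian of a vector field: `(Jac φ x) i k = D_k φ_i (x)` -/
noncomputable def Jac (φ : Fin n → E n → ℝ) (x : E n) : Mt n := Matrix.of fun i k => pd k (φ i) x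

/-- a matrix field with `CB` entries -/
def CBm (A : E n → Mt n) : Prop := ∀ i j, CB fun x => A x i j

/-! ## Block CH (809 + 238) -/

/-- (CH): labelled LSI with `J|x ~ N(φ(x), 1)` -/
def CH : Prop := ∀ (n : ℕ) (ε : ℝ) (S : State n ε), ε ≤ 1 →
  Top674.CHp S.toSt (1 + ε) (ε * S.I) ε S.I

/-! ## Block RG (786 + 807): rigidity, `J|x ~ N(w(x), κ(1 + A(x)))` -/

def RG : Prop := ∀ (n : ℕ) (ε : ℝ) (S : State n ε), ε ≤ 1 →
  Top674.RIGp S.toSt (1 + ε) (ε * S.I) ε S.I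

/-! ## Block NS (150 + 95): unresolved channel, `J|x ~ N(0, 1 + Q(x)²)` -/

def NS : Prop := ∀ (n : ℕ) (ε : ℝ) (S : State n ε), ε ≤ 1 → ∀ Q : E n → Mt n, CBm Q →
  (∀ x, (Q x)ᵀ = Q x) → ∀ a : ℝ, 1 ≤ a → (∀ x, LeQ (Q x * Q x) (a ^ 2 • (1 : Mt n))) →
  ∀ N : ℝ, a ^ 2 ≤ N →
  Ch150.LevB S.ν (fun x => 1 - S.h • S.V2 x) (1 + ε) S.I (ε * S.I) ε N a Q

/-! ## the static theorem -/

def NoState : Prop := ∃ ε : ℝ, 0 < ε ∧ ∀ (n : ℕ) (S : State n ε), 0 < S.I → False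

/-! ## the dynamic part -/

/-- the density at noise level `s` -/
noncomputable def fs (w f₀ : E n → ℝ) (s : ℝ) : E n → ℝ := An.pE w s f₀

/-- the noisy measure -/
noncomputable def ms (w : E n → ℝ) (s : ℝ) : Measure (E n) := An.nm (An.Lp w s fun _ => 1)

/-- entropy and Fisher information at level `s`; level-1 dissipation -/
noncomputable def Hs (w f₀ : E n → ℝ) (s : ℝ) : ℝ := LL809.Ent (ms w s) (fs w f₀ s)
noncomputable def Is (w f₀ : E n → ℝ) (s : ℝ) : ℝ := LL809.Fi (ms w s) (fs w f₀ s)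

/-- the score `w_i = D_i log f_s` -/
noncomputable def sc (w f₀ : E n → ℝ) (s : ℝ) (i : Fin n) (x : E n) : ℝ :=
  pd i (fs w f₀ s) x / fs w f₀ s x

/-- `E|U|² = Σ ∫ (D_k w_i)² f dμ` -/
noncomputable def Us (w f₀ : E n → ℝ) (s : ℝ) : ℝ :=
  ∑ i, ∑ k, ∫ x, fs w f₀ s x * pd k (sc w f₀ s i) x ^ 2 ∂(ms w s)

/-- `E⟨V''w, w⟩` -/
noncomputable def Ks (w f₀ : E n → ℝ) (s : ℝ) : ℝ :=
  ∫ x, fs w f₀ s x * ∑ i, ∑ j, An.Vh w s x i j * sc w f₀ s i x * sc w f₀ s j x ∂(ms w s)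

/-- Block FL: forward flow identities and monotone facts -/
def FL : Prop := ∀ (n : ℕ) (c R : ℝ) (w f₀ : E n → ℝ), 0 < c → An.Wt c R w → LL809.CBp f₀ →
  An.Em w f₀ = 1 → ∀ s : ℝ, 0 < s →
  HasDerivAt (Hs w f₀) (-(1 / 2) * Is w f₀ s) s ∧
  HasDerivAt (Is w f₀) (-(Us w f₀ s + 2 * Ks w f₀ s)) s

/-- Block EP: end point at time 0: `H_0 - H_s ≤ (s/2) I_0`, `H_s ≤ H_0` -/
def EP : Prop := ∀ (n : ℕ) (c R : ℝ) (w f₀ : E n → ℝ), 0 < c → An.Wt c R w → LL809.CBp f₀ →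
  An.Em w f₀ = 1 → ∀ s : ℝ, 0 < s →
  LL809.Ent (An.nm w) f₀ - Hs w f₀ s ≤ s / 2 * LL809.Fi (An.nm w) f₀ ∧
  Hs w f₀ s ≤ LL809.Ent (An.nm w) f₀

/-- Block SL (stationarity lemma): the constant does not grow -/
def SL : Prop := ∀ δ : ℝ, 0 < δ → ∃ κ₀ : ℝ, 0 < κ₀ ∧ ∀ (n : ℕ) (c R : ℝ) (w : E n → ℝ), 0 < c →
  An.Wt c R w → DVQ402.SG κ₀ (An.nm w) → LL809.LSI 1 (An.nm w) →
  ∀ s : ℝ, 0 < s → s ≤ 1 / 2 → LL809.LSI (1 + δ) (ms w s)

/-- Block SB: everything in `State` except `lsi`, `S1`, `S2`, `S3`, `P1L` -/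
structure Pre (n : ℕ) (q f₀ : E n → ℝ) (s : ℝ) extends El593.St n where
  ν_eq : ν = (ms q s).withDensity fun x => ENNReal.ofReal (fs q f₀ s x)
  w_eq : ∀ i x, w i x = pd i (fs q f₀ s) x / fs q f₀ s x
  w_cb : ∀ i, CB (w i)
  V2_eq : ∀ x, V2 x = An.Vh q s x

def SB : Prop := ∀ (n : ℕ) (c R : ℝ) (w f₀ : E n → ℝ), 0 < c → An.Wt c R w → LL809.CBp f₀ →
  An.Em w f₀ = 1 → ∀ s : ℝ, 0 < s →
  Nonempty (Pre n w f₀ s) ∧ IsProbabilityMeasure (ms w s) ∧ LL809.CBp (fs w f₀ s) ∧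
  (∫ x, fs w f₀ s x ∂(ms w s) = 1) ∧ (∃ B : ℝ, ∀ x i j, |An.Vh w s x i j| ≤ B) ∧
  (∀ x, LeQ 0 (An.Vh w s x)) ∧ ∀ x, LeQ (s • An.Vh w s x) 1

/-- Block LB: labelled `ψ₂` on the forward leg (Tweedie); `H_0 + H_s + MI` in the first line -/
def LB : Prop := ∃ C : ℝ, 0 < C ∧ ∀ (n : ℕ) (c R κ : ℝ) (w f₀ : E n → ℝ), 0 < c → An.Wt c R w →
  LL809.CBp f₀ → An.Em w f₀ = 1 → 0 < κ → DVQ402.SG κ (An.nm w) → ∀ s : ℝ, 0 < s → s ≤ 1 →
  ∀ (p : E n → E n → ℝ) (G k : E n → ℝ), LL809.Chan (LL809.gam n) p G k →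
    (∫ j, (∑ i, (∫ x, fs w f₀ s x * (sc w f₀ s i x * p j x) ∂(ms w s)) ^ 2) /
        LL809.pJ (ms w s) (fs w f₀ s) p j ∂(LL809.gam n) ≤
      C * κ / s ^ 2 * (LL809.Ent (An.nm w) f₀ + Hs w f₀ s +
        LL809.MI (ms w s) (fs w f₀ s) (LL809.gam n) p)) ∧
    ∀ R : E n → Mt n, (∀ i j, Measurable fun y => R y i j) → (∀ y, (R y)ᵀ = R y) →
      (∀ y, LeQ 0 (R y)) → (∀ y, LeQ (R y) 1) →
      ∫ j, ∫ x, fs w f₀ s x * ((R j * (1 - s • An.Vh w s x)).trace * p j x) ∂(ms w s)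
          ∂(LL809.gam n) ≤
        C * κ / s * (Hs w f₀ s + LL809.MI (ms w s) (fs w f₀ s) (LL809.gam n) p +
          ∫ j, (R j).trace * LL809.pJ (ms w s) (fs w f₀ s) p j ∂(LL809.gam n))

/-- the statement consumed by 402 / 293 -/
def Key : Prop := ∃ κ₀ : ℝ, 0 < κ₀ ∧ Noi402.Key κ₀

end Crest.Agent.R201.L74
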