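import Crest.Agent.R201.Hf4_391
import Crest.Agent.R201.LDefs_74

/-!
# R201 flow calculus: level 1 and the block FL (helper391)

`I' = -(E|U|² + 2 E V''vv)`, and `fl_391 : L74.FL`.
-/

set_option autoImplicit false
open MeasureTheory Matrix Filter Topology
open scoped RealInnerProductSpace

namespace Crest.Agent.R201.Hf391

open Crest.Agent.R201 Crest.Agent.R144.Fi865 Crest.Agent.R201.An Crest.Agent.R201.Noi402

variable {n : ℕ} {a b : ℝ} {m : ℕ} {w F G : E n → ℝ} {s c R c' : ℝ}

section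
variable (hw : Wt c R w) (ha : 0 < a) (hF : EG F) (hc' : 0 < c') (hge : ∀ x, c' ≤ F x)
include hw ha hF hc' hge

/-- third derivative, `∂_k U_jj = ∂_j U_jk` -/
lemma dy_UU {p : ST n} (hp : p ∈ Om n a b) (j k : Fin n) :
    dy k (Hf391.UU w F j j) p = dy j (Hf391.UU w F j k) p := by
  have tv := T.vv (a := a) (b := b) hw ha hF hc' hge 2 j
  have e1 : dy k (dy j (Hf391.vv w F j)) p = dy j (dy k (Hf391.vv w F j)) p :=
    dy_dy (m := 0) tv k j hp
  have e2 : dy j (dy k (Hf391.vv w F j)) p = dy j (Hf391.UU w F j k) p :=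
    dy_congr (a := a) (b := b) (fun q hq => UU_symm hw ha hF hc' hge hq k j) j p hp
  exact e1.trans e2

/-- `∂_s v_k` -/
lemma ds_vv {p : ST n} (hp : p ∈ Om n a b) (k : Fin n) :
    ds (Hf391.vv w F k) p = 2⁻¹ * (∑ j, dy j (Hf391.UU w F j k) p) +
      (∑ j, Hf391.vv w F j p * Hf391.UU w F j k p) -
      ∑ j, (VH w j k p * Hf391.vv w F j p + VG w j p * Hf391.UU w F j k p) := by
  have hp0 : 0 < p.1 := ha.trans hp.1
  have th := T.hh (a := a) (b := b) hw ha hF hc' hge 2
  have tv := fun j => T.vv (a := a) (b := b) hw ha hF hc' hge 1 j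
  have tV := fun j => T.VG (a := a) (b := b) hw ha 1 j
  have tU := fun i j => T.UU (a := a) (b := b) hw ha hF hc' hge 1 i j
  have e1 : ds (Hf391.vv w F k) p = dy k (ds (Hf391.hh w F)) p := ds_dy (m := 0) th k hp
  have e2 : dy k (ds (Hf391.hh w F)) p = dy k (fun p => ∑ j, (2⁻¹ * Hf391.UU w F j j p +
      2⁻¹ * (Hf391.vv w F j p * Hf391.vv w F j p) - VG w j p * Hf391.vv w F j p)) p := by
    refine dy_congr (a := a) (b := b) (fun q hq => ?_) k p hp
    rw [ds_hh hw ha hF hc' hge hq, Finset.mul_sum, Finset.mul_sum, ← Finset.sum_add_distrib,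
      ← Finset.sum_sub_distrib]
  have d1 : ∀ j, HasFDerivAt (fun p => 2⁻¹ * Hf391.UU w F j j p +
      2⁻¹ * (Hf391.vv w F j p * Hf391.vv w F j p) - VG w j p * Hf391.vv w F j p)
      ((2⁻¹ : ℝ) • fderiv ℝ (Hf391.UU w F j j) p +
        (2⁻¹ : ℝ) • (Hf391.vv w F j p • fderiv ℝ (Hf391.vv w F j) p +
          Hf391.vv w F j p • fderiv ℝ (Hf391.vv w F j) p) -
        (VG w j p • fderiv ℝ (Hf391.vv w F j) p + Hf391.vv w F j p • fderiv ℝ (VG w j) p)) p :=
    fun j => (((tU j j).diff p hp).hasFDerivAt.const_mul 2⁻¹ |>.add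
      ((((tv j).diff p hp).hasFDerivAt.mul ((tv j).diff p hp).hasFDerivAt).const_mul 2⁻¹)).sub
      (((tV j).diff p hp).hasFDerivAt.mul ((tv j).diff p hp).hasFDerivAt)
  have d2 := HasFDerivAt.fun_sum (u := Finset.univ) fun j _ => d1 j
  rw [e1, e2]
  unfold dy
  rw [d2.fderiv]
  simp only [_root_.sum_apply, _root_.add_apply, _root_.sub_apply, _root_.smul_apply, smul_eq_mul]
  rw [Finset.mul_sum, ← Finset.sum_add_distrib, ← Finset.sum_sub_distrib]
  refine Finset.sum_congr rfl fun j _ => ?_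
  have f1 : fderiv ℝ (Hf391.UU w F j j) p ((0 : ℝ), (EuclideanSpace.single k (1 : ℝ) : E n)) =
      dy j (Hf391.UU w F j k) p := dy_UU hw ha hF hc' hge hp j k
  have f2 : fderiv ℝ (Hf391.vv w F j) p ((0 : ℝ), (EuclideanSpace.single k (1 : ℝ) : E n)) =
      Hf391.UU w F j k p := UU_symm hw ha hF hc' hge hp k j
  have f3 : fderiv ℝ (VG w j) p ((0 : ℝ), (EuclideanSpace.single k (1 : ℝ) : E n)) =
      VH w j k p := (dy_VG hw hp0 k j).trans (VH_symm w k j p)
  rw [f1, f2, f3]
  unfold dy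
  ring

/-- **level 1** -/
theorem hasDerivAt_I (hab : a < s ∧ s < b) :
    HasDerivAt (fun s => EE w s (fun p => PE w F p * ∑ k, Hf391.vv w F k p * Hf391.vv w F k p))
      (-((∑ k, ∑ j, EE w s (fun p => PE w F p * (Hf391.UU w F j k p * Hf391.UU w F j k p))) +
        2 * ∑ k, ∑ j, EE w s (fun p => PE w F p *
          (VH w j k p * (Hf391.vv w F j p * Hf391.vv w F k p))))) s := by
  have hs : 0 < s := ha.trans hab.1
  have tv := fun k => T.vv (a := a) (b := b) hw ha hF hc' hge 2 k
  have tv1 := fun k => T.pred (tv k)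
  have tv0 := fun k => T.pred (tv1 k)
  have tV := fun k => T.VG (a := a) (b := b) hw ha 0 k
  have tH := fun j k => T.VH (a := a) (b := b) hw ha 0 j k
  have tU := fun j k => T.UU (a := a) (b := b) hw ha hF hc' hge 1 j k
  have tU0 := fun j k => T.pred (tU j k)
  have tP := T.PE (a := a) (b := b) hw ha 0 hF
  have tψ : T a b 2 (fun p => ∑ k, Hf391.vv w F k p * Hf391.vv w F k p) :=
    T.sum _ fun k _ => (tv k).mul (tv k)
  have d := hasDerivAt_EF (m := 0) hw ha hF hc' hge hab tψ
  refine d.congr_deriv ?_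
  -- names of the terms
  set A : Fin n → Fin n → ST n → ℝ := fun k j p =>
    PE w F p * (Hf391.vv w F k p * dy j (Hf391.UU w F j k) p) with hA
  set B : Fin n → Fin n → ST n → ℝ := fun k j p =>
    PE w F p * (Hf391.UU w F j k p * Hf391.UU w F j k p) with hB
  set C : Fin n → Fin n → ST n → ℝ := fun k j p =>
    PE w F p * (Hf391.vv w F k p * (Hf391.vv w F j p * Hf391.UU w F j k p)) with hC
  set D : Fin n → Fin n → ST n → ℝ := fun k j p =>
    PE w F p * (VH w j k p * (Hf391.vv w F j p * Hf391.vv w F k p)) with hD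
  set E' : Fin n → Fin n → ST n → ℝ := fun k j p =>
    PE w F p * (VG w j p * (Hf391.vv w F k p * Hf391.UU w F j k p)) with hE
  have tA : ∀ k j, T a b 0 (A k j) := fun k j => tP.mul ((tv0 k).mul ((tU j k).hdy j))
  have tB : ∀ k j, T a b 0 (B k j) := fun k j => tP.mul ((tU0 j k).mul (tU0 j k))
  have tC : ∀ k j, T a b 0 (C k j) := fun k j => tP.mul ((tv0 k).mul ((tv0 j).mul (tU0 j k)))
  have tD : ∀ k j, T a b 0 (D k j) := fun k j => tP.mul ((tH j k).mul ((tv0 j).mul (tv0 k)))
  have tE : ∀ k j, T a b 0 (E' k j) := fun k j => tP.mul ((tV j).mul ((tv0 k).mul (tU0 j k)))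
  -- derivatives of ψ
  have c1 : ∀ y, PE w F (s, y) * ds (fun p => ∑ k, Hf391.vv w F k p * Hf391.vv w F k p) (s, y) =
      ∑ k, ∑ j, (A k j (s, y) + 2 * C k j (s, y) - 2 * D k j (s, y) - 2 * E' k j (s, y)) := by
    intro y
    have hp := mem_Om hab y
    have d1 : ∀ k, HasFDerivAt (fun p => Hf391.vv w F k p * Hf391.vv w F k p)
        (Hf391.vv w F k (s, y) • fderiv ℝ (Hf391.vv w F k) (s, y) +
          Hf391.vv w F k (s, y) • fderiv ℝ (Hf391.vv w F k) (s, y)) (s, y) := fun k =>
      ((tv1 k).diff _ hp).hasFDerivAt.mul ((tv1 k).diff _ hp).hasFDerivAt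
    have d2 := HasFDerivAt.fun_sum (u := Finset.univ) fun k _ => d1 k
    have d3 : ds (fun p => ∑ k, Hf391.vv w F k p * Hf391.vv w F k p) (s, y) =
        ∑ k, 2 * (Hf391.vv w F k (s, y) * ds (Hf391.vv w F k) (s, y)) := by
      unfold ds
      rw [d2.fderiv]
      simp only [_root_.sum_apply, _root_.add_apply, _root_.smul_apply, smul_eq_mul]
      exact Finset.sum_congr rfl fun k _ => by ring
    rw [d3, Finset.mul_sum]
    refine Finset.sum_congr rfl fun k _ => ?_
    rw [ds_vv hw ha hF hc' hge hp]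
    simp only [hA, hC, hD, hE]
    rw [Finset.mul_sum, ← Finset.sum_add_distrib, ← Finset.sum_sub_distrib, Finset.mul_sum,
      Finset.mul_sum, Finset.mul_sum]
    refine Finset.sum_congr rfl fun j _ => ?_
    ring
  have c2 : ∀ y, PE w F (s, y) * ∑ j, dy j (dy j (fun p => ∑ k, Hf391.vv w F k p *
      Hf391.vv w F k p)) (s, y) = ∑ k, ∑ j, (2 * A k j (s, y) + 2 * B k j (s, y)) := by
    intro y
    have hp := mem_Om hab y
    have g1 : ∀ j, ∀ q ∈ Om n a b, dy j (fun p => ∑ k, Hf391.vv w F k p * Hf391.vv w F k p) q =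
        ∑ k, 2 * (Hf391.vv w F k q * Hf391.UU w F j k q) := by
      intro j q hq
      have d1 : ∀ k, HasFDerivAt (fun p => Hf391.vv w F k p * Hf391.vv w F k p)
          (Hf391.vv w F k q • fderiv ℝ (Hf391.vv w F k) q +
            Hf391.vv w F k q • fderiv ℝ (Hf391.vv w F k) q) q := fun k =>
        ((tv1 k).diff _ hq).hasFDerivAt.mul ((tv1 k).diff _ hq).hasFDerivAt
      have d2 := HasFDerivAt.fun_sum (u := Finset.univ) fun k _ => d1 k
      have g0 : dy j (fun p => ∑ k, Hf391.vv w F k p * Hf391.vv w F k p) q =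
          ∑ k, 2 * (Hf391.vv w F k q * dy j (Hf391.vv w F k) q) := by
        unfold dy
        rw [d2.fderiv]
        simp only [_root_.sum_apply, _root_.add_apply, _root_.smul_apply, smul_eq_mul]
        exact Finset.sum_congr rfl fun k _ => by ring
      rw [g0]; rfl
    have g2 : ∀ j, dy j (dy j (fun p => ∑ k, Hf391.vv w F k p * Hf391.vv w F k p)) (s, y) =
        ∑ k, (2 * (Hf391.vv w F k (s, y) * dy j (Hf391.UU w F j k) (s, y)) +
          2 * (Hf391.UU w F j k (s, y) * Hf391.UU w F j k (s, y))) := by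
      intro j
      rw [dy_congr (a := a) (b := b) (g1 j) j _ hp]
      have d1 : ∀ k, HasFDerivAt (fun p => 2 * (Hf391.vv w F k p * Hf391.UU w F j k p))
          ((2 : ℝ) • (Hf391.vv w F k (s, y) • fderiv ℝ (Hf391.UU w F j k) (s, y) +
            Hf391.UU w F j k (s, y) • fderiv ℝ (Hf391.vv w F k) (s, y))) (s, y) := fun k =>
        (((tv1 k).diff _ hp).hasFDerivAt.mul ((tU j k).diff _ hp).hasFDerivAt).const_mul 2
      have d2 := HasFDerivAt.fun_sum (u := Finset.univ) fun k _ => d1 k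
      have g0 : dy j (fun p => ∑ k, 2 * (Hf391.vv w F k p * Hf391.UU w F j k p)) (s, y) =
          ∑ k, (2 * (Hf391.vv w F k (s, y) * dy j (Hf391.UU w F j k) (s, y)) +
            2 * (Hf391.UU w F j k (s, y) * dy j (Hf391.vv w F k) (s, y))) := by
        unfold dy
        rw [d2.fderiv]
        simp only [_root_.sum_apply, _root_.add_apply, _root_.smul_apply, smul_eq_mul]
        exact Finset.sum_congr rfl fun k _ => by ring
      rw [g0]; rfl
    simp_rw [g2]
    rw [Finset.sum_comm, Finset.mul_sum]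
    refine Finset.sum_congr rfl fun k _ => ?_
    rw [Finset.mul_sum]
    refine Finset.sum_congr rfl fun j _ => ?_
    simp only [hA, hB]
    ring
  have t1 : ∀ k j, T a b 0 (fun p => A k j p + 2 * C k j p - 2 * D k j p - 2 * E' k j p) :=
    fun k j => (((tA k j).add ((tC k j).smul 2)).sub ((tD k j).smul 2)).sub ((tE k j).smul 2)
  have t2 : ∀ k j, T a b 0 (fun p => 2 * A k j p + 2 * B k j p) :=
    fun k j => ((tA k j).smul 2).add ((tB k j).smul 2)
  have c3 : EE w s (fun p => PE w F p * ds (fun p => ∑ k, Hf391.vv w F k p * Hf391.vv w F k p) p) =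
      ∑ k, ∑ j, (EE w s (A k j) + 2 * EE w s (C k j) - 2 * EE w s (D k j) - 2 * EE w s (E' k j)) := by
    rw [EE_congr (ψ := fun p => ∑ k, ∑ j,
      (A k j p + 2 * C k j p - 2 * D k j p - 2 * E' k j p)) c1,
      EE_sum _ hw.ex hs hab fun k _ => T.sum _ fun j _ => t1 k j]
    refine Finset.sum_congr rfl fun k _ => ?_
    rw [EE_sum _ hw.ex hs hab fun j _ => t1 k j]
    refine Finset.sum_congr rfl fun j _ => ?_
    rw [EE_sub hw.ex hs hab (((tA k j).add ((tC k j).smul 2)).sub ((tD k j).smul 2))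
      ((tE k j).smul 2), EE_sub hw.ex hs hab ((tA k j).add ((tC k j).smul 2)) ((tD k j).smul 2),
      EE_add hw.ex hs hab (tA k j) ((tC k j).smul 2), EE_smul, EE_smul, EE_smul]
  have c4 : EE w s (fun p => PE w F p * ∑ j, dy j (dy j (fun p => ∑ k, Hf391.vv w F k p *
      Hf391.vv w F k p)) p) = ∑ k, ∑ j, (2 * EE w s (A k j) + 2 * EE w s (B k j)) := by
    rw [EE_congr (ψ := fun p => ∑ k, ∑ j, (2 * A k j p + 2 * B k j p)) c2,
      EE_sum _ hw.ex hs hab fun k _ => T.sum _ fun j _ => t2 k j]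
    refine Finset.sum_congr rfl fun k _ => ?_
    rw [EE_sum _ hw.ex hs hab fun j _ => t2 k j]
    refine Finset.sum_congr rfl fun j _ => ?_
    rw [EE_add hw.ex hs hab ((tA k j).smul 2) ((tB k j).smul 2), EE_smul, EE_smul]
  -- integration by parts
  have c5 : ∀ k j, EE w s (B k j) + EE w s (A k j) = EE w s (E' k j) - EE w s (C k j) := by
    intro k j
    have i := EF_ibp hw ha hF hc' hge hab (m := 0) (φ := fun p => Hf391.vv w F k p *
      Hf391.UU w F j k p) ((tv1 k).mul (tU j k)) j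
    have e1 : EE w s (fun p => PE w F p * dy j (fun p => Hf391.vv w F k p *
        Hf391.UU w F j k p) p) = EE w s (fun p => B k j p + A k j p) := by
      refine EE_congr fun y => ?_
      have hp := mem_Om hab y
      rw [dy_mul j ((tv1 k).diff _ hp) ((tU j k).diff _ hp)]
      simp only [hA, hB]
      have : dy j (Hf391.vv w F k) (s, y) = Hf391.UU w F j k (s, y) := rfl
      rw [this]; ring
    have e2 : EE w s (fun p => PE w F p * (VG w j p * (Hf391.vv w F k p * Hf391.UU w F j k p))) =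
        EE w s (E' k j) := rfl
    have e3 : EE w s (fun p => PE w F p * (Hf391.vv w F j p * (Hf391.vv w F k p *
        Hf391.UU w F j k p))) = EE w s (C k j) := EE_congr fun y => by simp only [hC]; ring
    rw [e1, e2, e3, EE_add hw.ex hs hab (tB k j) (tA k j)] at i
    exact i
  rw [c3, c4, Finset.mul_sum, Finset.mul_sum, ← Finset.sum_add_distrib, ← Finset.sum_add_distrib,
    ← Finset.sum_neg_distrib]
  refine Finset.sum_congr rfl fun k _ => ?_
  rw [Finset.mul_sum, Finset.mul_sum, ← Finset.sum_add_distrib, ← Finset.sum_add_distrib,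
    ← Finset.sum_neg_distrib]
  refine Finset.sum_congr rfl fun j _ => ?_
  have := c5 k j
  linarith

end

/-! ### the literal block FL -/

lemma fs_pd (hw : Wt c R w) (hF : EG F) (hc' : 0 < c') (hge : ∀ x, c' ≤ F x) (hs : 0 < s)
    (k : Fin n) (y : E n) : pd k (L74.fs w F s) y = PE w F (s, y) * vv w F k (s, y) := by
  have e : L74.fs w F s = fun y => PE w F (s, y) := rfl
  rw [e, pd_slice k (PE_diff hw.ex hF (p := (s, y)) hs)]
  exact dy_PE_eq (a := s / 2) (b := s + 1) hw (by positivity) hF hc' hge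
    (p := (s, y)) ⟨by simp only; linarith, by simp only; linarith⟩ k

lemma sc_eq (hw : Wt c R w) (hF : EG F) (hc' : 0 < c') (hge : ∀ x, c' ≤ F x) (hs : 0 < s)
    (k : Fin n) (y : E n) : L74.sc w F s k y = vv w F k (s, y) := by
  unfold L74.sc
  rw [fs_pd hw hF hc' hge hs]
  have h0 : PE w F (s, y) ≠ 0 := (hc'.trans_le (PE_ge hw hF hge (p := (s, y)) hs)).ne'
  have e : L74.fs w F s y = PE w F (s, y) := rfl
  rw [e]
  field_simp

lemma pd_sc (hw : Wt c R w) (hF : EG F) (hc' : 0 < c') (hge : ∀ x, c' ≤ F x) (hs : 0 < s)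
    (j k : Fin n) (y : E n) : pd j (L74.sc w F s k) y = UU w F j k (s, y) := by
  have e : L74.sc w F s k = fun y => vv w F k (s, y) := funext fun y => sc_eq hw hF hc' hge hs k y
  have hm : s / 2 < s ∧ s < s + 1 := ⟨by linarith, by linarith⟩
  rw [e, pd_slice j ((T.vv (a := s / 2) (b := s + 1) hw (by positivity) hF hc' hge 1 k).diff
    (s, y) hm)]
  rfl

lemma Hs_eq (hw : Wt c R w) (hF : EG F) (h1 : Em w F = 1) (hs : 0 < s) :
    L74.Hs w F s = EE w s (fun p => PE w F p * hh w F p) := by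
  have hρ := hw.ex.noisy hs
  have e1 : ∫ x, L74.fs w F s x ∂(L74.ms w s) = 1 := by
    unfold L74.ms L74.fs
    rw [int_nm hρ, Em_pE hw.ex hs hF, h1]
  have e2 : ∫ x, L74.fs w F s x * Real.log (L74.fs w F s x) ∂(L74.ms w s) =
      EE w s (fun p => PE w F p * hh w F p) := by
    unfold L74.ms
    rw [int_nm hρ]
    rfl
  unfold L74.Hs LL809.Ent
  rw [e1, e2, Real.log_one]
  ring

lemma Is_eq (hw : Wt c R w) (hF : EG F) (hc' : 0 < c') (hge : ∀ x, c' ≤ F x) (hs : 0 < s) :
    L74.Is w F s = EE w s (fun p => PE w F p * ∑ k, vv w F k p * vv w F k p) := by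
  have hρ := hw.ex.noisy hs
  unfold L74.Is LL809.Fi L74.ms
  rw [int_nm hρ]
  refine EE_congr (φ := fun p => (∑ k, pd k (L74.fs w F s) p.2 ^ 2) / L74.fs w F s p.2)
    fun y => ?_
  have h0 : PE w F (s, y) ≠ 0 := (hc'.trans_le (PE_ge hw hF hge (p := (s, y)) hs)).ne'
  have e : L74.fs w F s y = PE w F (s, y) := rfl
  simp only
  rw [e]
  simp_rw [fs_pd hw hF hc' hge hs]
  rw [Finset.mul_sum, Finset.sum_div]
  refine Finset.sum_congr rfl fun k _ => ?_
  field_simp

/-- **Block FL** -/
theorem fl_391 : L74.FL := by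
  intro n c R w F hc hw hF h1 s hs
  obtain ⟨hcb, c', hc', hge⟩ := id hF
  have hEG : EG F := (CB.eg hcb).1
  have ha : 0 < s / 2 := by positivity
  have hab : s / 2 < s ∧ s < s + 1 := ⟨by linarith, by linarith⟩
  have hρ := hw.ex.noisy hs
  refine ⟨?_, ?_⟩
  · have d := hasDerivAt_H (a := s / 2) (b := s + 1) hw ha hEG hc' hge hab
    refine (d.congr_of_eventuallyEq ?_).congr_deriv ?_
    · filter_upwards [Ioi_mem_nhds hs] with t ht using Hs_eq hw hEG h1 ht
    · rw [Is_eq hw hEG hc' hge hs]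
      ring
  · have d := hasDerivAt_I (a := s / 2) (b := s + 1) hw ha hEG hc' hge hab
    refine (d.congr_of_eventuallyEq ?_).congr_deriv ?_
    · filter_upwards [Ioi_mem_nhds hs] with t ht using Is_eq hw hEG hc' hge ht
    · have tv := fun k => T.vv (a := s / 2) (b := s + 1) hw ha hEG hc' hge 0 k
      have tH := fun j k => T.VH (a := s / 2) (b := s + 1) hw ha 0 j k
      have tP := T.PE (a := s / 2) (b := s + 1) hw ha 0 hEG
      have eU : L74.Us w F s =
          ∑ k, ∑ j, EE w s (fun p => PE w F p * (UU w F j k p * UU w F j k p)) := by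
        unfold L74.Us L74.ms
        refine Finset.sum_congr rfl fun k _ => Finset.sum_congr rfl fun j _ => ?_
        rw [int_nm hρ]
        refine EE_congr (φ := fun p => L74.fs w F s p.2 * pd j (L74.sc w F s k) p.2 ^ 2)
          fun y => ?_
        simp only
        rw [pd_sc hw hEG hc' hge hs]
        have e : L74.fs w F s y = PE w F (s, y) := rfl
        rw [e]; ring
      have eK : L74.Ks w F s = ∑ k, ∑ j, EE w s (fun p => PE w F p *
          (VH w j k p * (vv w F j p * vv w F k p))) := by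
        unfold L74.Ks L74.ms
        rw [int_nm hρ]
        have t1 : ∀ k j, T (s / 2) (s + 1) 0 (fun p => PE w F p *
          (VH w j k p * (vv w F j p * vv w F k p))) := fun k j =>
          tP.mul ((tH j k).mul ((tv j).mul (tv k)))
        have e2 : ∀ k ∈ (Finset.univ : Finset (Fin n)), ∑ j, EE w s (fun p => PE w F p *
            (VH w j k p * (vv w F j p * vv w F k p))) =
            EE w s (fun p => ∑ j, PE w F p * (VH w j k p * (vv w F j p * vv w F k p))) :=
          fun k _ => (EE_sum _ hw.ex hs hab fun j _ => t1 k j).symm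
        rw [Finset.sum_congr rfl e2,
          ← EE_sum _ hw.ex hs hab fun k _ => T.sum _ fun j _ => t1 k j]
        refine EE_congr (φ := fun p => L74.fs w F s p.2 * ∑ i, ∑ j, Vh w s p.2 i j *
          L74.sc w F s i p.2 * L74.sc w F s j p.2) fun y => ?_
        simp only
        rw [Finset.sum_comm, Finset.mul_sum]
        refine Finset.sum_congr rfl fun k _ => ?_
        rw [Finset.mul_sum]
        refine Finset.sum_congr rfl fun j _ => ?_
        rw [sc_eq hw hEG hc' hge hs, sc_eq hw hEG hc' hge hs]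
        have e : L74.fs w F s y = PE w F (s, y) := rfl
        have e' : VH w j k (s, y) = Vh w s y j k := rfl
        rw [e, e']; ring
      rw [eU, eK]

end Crest.Agent.R201.Hf391
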