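import Crest.Agent.R201.LDefs_74
import Crest.Agent.R201.Ends_293

/-!
# R201 (S0308): assembly of `Key` from the static theorem and the dynamic blocks (helper74)

Selection lemma of helper352 (forward leg only).
-/

set_option autoImplicit false
set_option maxHeartbeats 1000000
open MeasureTheory Matrix Set
open scoped ContDiff ENNReal

namespace Crest.Agent.R201.L74

open Crest.Agent.R201 Crest.Agent.R201.An

variable {n : ℕ}

/-- selection of a good time -/
theorem select {f f' : ℝ → ℝ} {a b M : ℝ} (hab : a < b) (hM : 0 < M)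
    (hf : ∀ s ∈ Icc a b, HasDerivAt f (f' s) s) (h0 : ∀ s ∈ Icc a b, 0 ≤ f s) (ha : f a ≤ M) :
    ∃ s ∈ Icc a b, f s ≤ M ∧ -(2 * M / (b - a)) ≤ f' s := by
  by_contra h
  push Not at h
  have hba : 0 < b - a := sub_pos.2 hab
  have hB : ∀ x : ℝ, HasDerivAt (fun x => M - 2 * M / (b - a) * (x - a)) (-(2 * M / (b - a))) x := by
    intro x
    have h1 : HasDerivAt (fun x : ℝ => 2 * M / (b - a) * (x - a)) (2 * M / (b - a) * 1) x :=
      ((hasDerivAt_id x).sub_const a).const_mul _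
    have h2 := h1.const_sub M
    rwa [mul_one] at h2
  have key := image_le_of_deriv_right_lt_deriv_boundary (f := f) (f' := f') (a := a) (b := b)
    (B := fun x => M - 2 * M / (b - a) * (x - a)) (B' := fun _ => -(2 * M / (b - a)))
    (fun x hx => (hf x hx).continuousAt.continuousWithinAt)
    (fun x hx => (hf x (Ico_subset_Icc_self hx)).hasDerivWithinAt) (by simpa using ha) hB
    (fun x hx hfx => h x (Ico_subset_Icc_self hx) (by
      rw [hfx]
      have h3 : 0 ≤ 2 * M / (b - a) * (x - a) :=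
        mul_nonneg (by positivity) (sub_nonneg.2 hx.1)
      linarith)) (right_mem_Icc.2 hab.le)
  have h4 : f b ≤ M - 2 * M := by
    have h5 : 2 * M / (b - a) * (b - a) = 2 * M := div_mul_cancel₀ _ hba.ne'
    simpa [h5] using key
  have h6 := h0 b (right_mem_Icc.2 hab.le)
  linarith

/-- integral against `f μ` -/
theorem int_wd {μ : Measure (E n)} {f : E n → ℝ} (hf : Continuous f) (h0 : ∀ x, 0 ≤ f x)
    (F : E n → ℝ) :
    ∫ x, F x ∂(μ.withDensity fun x => ENNReal.ofReal (f x)) = ∫ x, f x * F x ∂μ := by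
  rw [integral_withDensity_eq_integral_toReal_smul hf.measurable.ennreal_ofReal
    (Filter.Eventually.of_forall fun x => ENNReal.ofReal_lt_top)]
  refine integral_congr_ae (Filter.Eventually.of_forall fun x => ?_)
  simp only [smul_eq_mul]
  rw [ENNReal.toReal_ofReal (h0 x)]

section Bridge

variable {c R : ℝ} {q f₀ : E n → ℝ} {s : ℝ}

/-- `E_ν |w|² = I` -/
theorem nsq_eq (P : Pre n q f₀ s) (hf : LL809.CBp (fs q f₀ s)) (hm : IsProbabilityMeasure (ms q s)) :
    nsq P.ν P.w = Is q f₀ s := by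
  have hp := fun x => (hf.pos x).le
  unfold nsq Is LL809.Fi
  simp only [P.ν_eq, int_wd hf.cont hp]
  rw [← integral_finsetSum]
  · refine integral_congr_ae (Filter.Eventually.of_forall fun x => ?_)
    simp only [P.w_eq]
    rw [Finset.sum_div]
    refine Finset.sum_congr rfl fun i _ => ?_
    have := (hf.pos x).ne'
    field_simp
  · intro i _
    obtain ⟨B, -, hB⟩ := hf.bdd
    obtain ⟨C, hC⟩ := (P.w_cb i).2
    refine Integrable.of_bound (C := B * C ^ 2) ?_ (Filter.Eventually.of_forall fun x => ?_)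
    · exact (hf.cont.mul ((P.w_cb i).1.continuous.pow 2)).aestronglyMeasurable
    · rw [Real.norm_eq_abs, abs_mul, abs_pow]
      exact mul_le_mul (hB x).1 (pow_le_pow_left₀ (abs_nonneg _) (hC x).1 2) (by positivity)
        ((abs_nonneg _).trans (hB x).1)

theorem w_eq_sc (P : Pre n q f₀ s) (i : Fin n) : P.w i = sc q f₀ s i := funext fun x => P.w_eq i x

/-- `E_ν |Dw|² = U` -/
theorem dsq_eq (P : Pre n q f₀ s) (hf : LL809.CBp (fs q f₀ s)) :
    dsq P.ν P.w = Us q f₀ s := by
  have hp := fun x => (hf.pos x).le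
  unfold dsq Us
  simp only [P.ν_eq, int_wd hf.cont hp, w_eq_sc]

theorem Us_nonneg (hf : LL809.CBp (fs q f₀ s)) : 0 ≤ Us q f₀ s :=
  Finset.sum_nonneg fun _ _ => Finset.sum_nonneg fun _ _ =>
    integral_nonneg fun x => mul_nonneg (hf.pos x).le (sq_nonneg _)

theorem Ks_nonneg (hf : LL809.CBp (fs q f₀ s)) (hV : ∀ x, LeQ 0 (An.Vh q s x)) :
    0 ≤ Ks q f₀ s := by
  refine integral_nonneg fun x => mul_nonneg (hf.pos x).le ?_
  have h := hV x (fun i => sc q f₀ s i x)
  simp only [Matrix.zero_mulVec, dotProduct_zero] at h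
  refine h.trans_eq ?_
  simp only [dotProduct, Matrix.mulVec, Finset.mul_sum]
  refine Finset.sum_congr rfl fun i _ => Finset.sum_congr rfl fun j _ => ?_
  ring

end Bridge

theorem tr_nonneg' {A : Mt n} (h : LeQ 0 A) : 0 ≤ A.trace := by
  refine Finset.sum_nonneg fun i _ => ?_
  have := h (Pi.single i 1)
  simpa [Matrix.mulVec_single, Matrix.zero_mulVec] using this

/-- mutual information is nonnegative -/
theorem MI_nonneg' {L : Type*} [MeasurableSpace L] {μ : Measure (E n)} [IsProbabilityMeasure μ]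
    {f : E n → ℝ} {l : Measure L} [SFinite l] {p : L → E n → ℝ} {G k : L → ℝ}
    (hf : LL809.CBp f) (h1 : ∫ x, f x ∂μ = 1) (hp : LL809.Chan l p G k) :
    0 ≤ LL809.MI μ f l p := by
  unfold LL809.MI
  refine integral_nonneg fun j => ?_
  obtain ⟨hm, -, -⟩ := LL809.pJ_bd hp hf h1 j
  set m := LL809.pJ μ f p j with hmdef
  obtain ⟨B, hB0, hB⟩ := hf.bdd
  have m2 : Measurable fun z : L × E n => p z.1 z.2 * Real.log (p z.1 z.2) :=
    hp.meas.mul hp.meas.log
  have i1 : Integrable (fun x => f x * (p j x * Real.log (p j x))) μ :=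
    hp.int_right (q := fun j x => p j x * Real.log (p j x)) hf.cont.measurable
      (fun x => (hB x).1) m2 hp.q2 j
  have i2 : Integrable (fun x => f x * p j x) μ :=
    hp.int_right (q := p) hf.cont.measurable (fun x => (hB x).1) hp.meas hp.q1 j
  have i3 : Integrable f μ := (integrable_const B).mono' hf.cont.aestronglyMeasurable
    (Filter.Eventually.of_forall fun x => (hB x).1)
  have i4 : Integrable (fun x => f x * p j x * (1 + Real.log m) - f x * m) μ :=
    (i2.mul_const _).sub (i3.mul_const _)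
  have h2 : ∫ x, (f x * p j x * (1 + Real.log m) - f x * m) ∂μ = m * Real.log m := by
    rw [integral_sub (i2.mul_const _) (i3.mul_const _), integral_mul_const, integral_mul_const, h1]
    change m * (1 + Real.log m) - 1 * m = _
    ring
  have h3 : ∫ x, (f x * p j x * (1 + Real.log m) - f x * m) ∂μ ≤
      ∫ x, f x * (p j x * Real.log (p j x)) ∂μ := by
    refine integral_mono i4 i1 fun x => ?_
    have hx := (hp.cb j).pos x
    have h4 : Real.log (m / p j x) ≤ m / p j x - 1 := Real.log_le_sub_one_of_pos (div_pos hm hx)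
    rw [Real.log_div hm.ne' hx.ne'] at h4
    have h5 : p j x * (Real.log m - Real.log (p j x)) ≤ p j x * (m / p j x - 1) :=
      mul_le_mul_of_nonneg_left h4 hx.le
    have h6 : p j x * (m / p j x - 1) = m - p j x := by field_simp
    have h7 : p j x * (1 + Real.log m) - m ≤ p j x * Real.log (p j x) := by linarith
    have h8 := mul_le_mul_of_nonneg_left h7 (hf.pos x).le
    simp only
    linarith
  simp only [Pi.zero_apply]
  linarith

/-- **assembly of `Key`** -/
theorem key_of (hNS : NoState) (hSL : SL) (hFL : FL) (hLB : LB) (hSB : SB) : Key := by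
  obtain ⟨ε, hε, hno⟩ := hNS
  obtain ⟨C, hC, hLB⟩ := hLB
  obtain ⟨e, he0, he1, heε⟩ : ∃ e : ℝ, 0 < e ∧ e ≤ 1 ∧ e ≤ ε :=
    ⟨min ε 1, lt_min hε one_pos, min_le_right _ _, min_le_left _ _⟩
  obtain ⟨δ, hδdef⟩ : ∃ δ : ℝ, δ = e ^ 2 / 128 := ⟨_, rfl⟩
  have he2 : e ^ 2 ≤ e := by nlinarith
  have hδ : 0 < δ := by rw [hδdef]; positivity
  have hδ8 : δ ≤ e / 128 := by rw [hδdef]; linarith
  obtain ⟨κ₁, hκ₁, hSL⟩ := hSL δ hδ
  obtain ⟨κ₀, hκ₀, hκ01, hκ0C⟩ : ∃ κ₀ : ℝ, 0 < κ₀ ∧ κ₀ ≤ κ₁ ∧ C * κ₀ / δ ^ 2 ≤ e / 2 := by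
    refine ⟨min κ₁ (e / 2 * δ ^ 2 / C), lt_min hκ₁ (by positivity), min_le_left _ _, ?_⟩
    rw [div_le_iff₀ (by positivity)]
    calc C * min κ₁ (e / 2 * δ ^ 2 / C) ≤ C * (e / 2 * δ ^ 2 / C) := by
          gcongr; exact min_le_right _ _
      _ = e / 2 * δ ^ 2 := by field_simp
  refine ⟨κ₀, hκ₀, fun n c R w hc hw hSG hLS => ⟨δ, hδ, by linarith, ?_⟩⟩
  by_contra hnot
  obtain ⟨f₀, hf₀, hone, hnear, hEn⟩ := Noi402.near_of_not hw.ex (by linarith) hnot
  set H₀ := Noi402.En w f₀ with hH₀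
  set I₀ := Noi402.Fi w f₀ with hI₀
  have hLS' : H₀ ≤ 1 / 2 * I₀ := (Noi402.LS_def.1 hLS) f₀ hf₀
  have hI₀p : 0 < I₀ := by linarith
  -- facts at one level
  have fact : ∀ s : ℝ, 0 < s → s ≤ 1 / 2 →
      H₀ - s / 2 * I₀ ≤ Hs w f₀ s ∧ Is w f₀ s ≤ I₀ ∧ Hs w f₀ s ≤ (1 + δ) / 2 * Is w f₀ s := by
    intro s hs hs2
    have hx : Ex (An.Lp w s fun _ => 1) := hw.ex.noisy hs
    have h1 : Hs w f₀ s = Noi402.En (An.Lp w s fun _ => 1) (An.pE w s f₀) := Noi402.ent_nm hx _
    have h2 : Is w f₀ s = Noi402.Fi (An.Lp w s fun _ => 1) (An.pE w s f₀) := Noi402.fi_nm hx _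
    refine ⟨?_, ?_, ?_⟩
    · rw [h1]; exact Ends293.fwd_ent hw.ex hc.le hw.slc hs hf₀
    · rw [h2]; exact Ends293.fwd_fi hw.ex hc.le hw.slc hs hf₀
    · exact hSL n c R w hc hw (hSG.mono hκ01) ((Noi402.lsi_iff hw.ex).2 hLS) s hs hs2 _
        (Ends293.cbp_pE hw.ex hc.le hw.slc hs hf₀)
  -- selection
  set η := δ + δ / 2 with hη
  have hder : ∀ s ∈ Icc δ (e / 4), HasDerivAt (fun s => (1 + δ) / 2 * Is w f₀ s - Hs w f₀ s)
      ((1 + δ) / 2 * (-(Us w f₀ s + 2 * Ks w f₀ s)) - -(1 / 2) * Is w f₀ s) s := by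
    intro s hs
    obtain ⟨h1, h2⟩ := hFL n c R w f₀ hc hw hf₀ hone s (hδ.trans_le hs.1)
    exact (h2.const_mul _).sub h1
  obtain ⟨s, ⟨hs1, hs2⟩, hsM, hsD⟩ := select (M := η * I₀) (by linarith : δ < e / 4)
    (by positivity) hder (fun s hs => by
      have := (fact s (hδ.trans_le hs.1) (by linarith [hs.2])).2.2
      linarith) (by
      obtain ⟨h1, h2, -⟩ := fact δ hδ (by linarith)
      have h3 : (1 + δ) / 2 * Is w f₀ δ ≤ (1 + δ) / 2 * I₀ := by gcongr
      simp only [hη]
      nlinarith)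
  have hs0 : 0 < s := hδ.trans_le hs1
  obtain ⟨hent, hfi, hlsi⟩ := fact s hs0 (by linarith)
  obtain ⟨⟨P⟩, hprob, hcbp, hone', ⟨BV, hBV⟩, hV0, hV1⟩ := hSB n c R w f₀ hc hw hf₀ hone s hs0
  have hU0 := Us_nonneg (q := w) (f₀ := f₀) (s := s) hcbp
  have hK0 := Ks_nonneg (q := w) (f₀ := f₀) (s := s) hcbp hV0
  -- lower bound for I
  have hIlow : I₀ ≤ 2 * Is w f₀ s := by
    have h1 : (1 - δ) / 2 * I₀ - s / 2 * I₀ ≤ (1 + δ) / 2 * Is w f₀ s := by linarith
    have h2 : (1 - δ - s) * I₀ ≤ (1 + δ) * Is w f₀ s := by linarith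
    have h3 : 5 / 8 * I₀ ≤ (1 - δ - s) * I₀ := by
      refine mul_le_mul_of_nonneg_right ?_ hI₀p.le
      linarith
    have h4 : 0 ≤ Is w f₀ s := by
      by_contra hneg
      push Not at hneg
      nlinarith
    have h5 : (1 + δ) * Is w f₀ s ≤ 9 / 8 * Is w f₀ s := by
      refine mul_le_mul_of_nonneg_right ?_ h4
      linarith
    linarith
  have hIp : 0 < Is w f₀ s := by linarith
  -- level 1
  have hU : Us w f₀ s ≤ (1 + e) * Is w f₀ s := by
    have hd : e / 8 ≤ e / 4 - δ := by linarith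
    have h1 : 2 * (η * I₀) / (e / 4 - δ) ≤ 2 * (η * I₀) / (e / 8) := by
      gcongr
    have h2 : 2 * (η * I₀) / (e / 8) ≤ e / 2 * Is w f₀ s := by
      rw [div_le_iff₀ (by positivity)]
      have h3 : η * I₀ ≤ η * (2 * Is w f₀ s) := by gcongr
      have h4 : η = 3 * e ^ 2 / 256 := by rw [hη, hδdef]; ring
      rw [h4] at h3 ⊢
      nlinarith [mul_pos (pow_pos he0 2) hIp]
    have h5 : (1 + δ) / 2 * (Us w f₀ s + 2 * Ks w f₀ s) ≤ 1 / 2 * Is w f₀ s + e / 2 * Is w f₀ s := by
      linarith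
    have h6 := mul_nonneg hδ.le hU0
    have h7 := mul_nonneg hδ.le hK0
    have h8 : (1 + δ) / 2 * (Us w f₀ s + 2 * Ks w f₀ s) =
        1 / 2 * Us w f₀ s + Ks w f₀ s + 1 / 2 * (δ * Us w f₀ s) + δ * Ks w f₀ s := by ring
    linarith
  -- labels
  have hCs : C * κ₀ / s ^ 2 ≤ e / 2 := by
    refine le_trans ?_ hκ0C
    gcongr
  have hCs' : C * κ₀ / s ≤ e / 2 := by
    refine le_trans ?_ hCs
    have h1 : s ^ 2 ≤ s := by
      rw [sq]
      calc s * s ≤ s * 1 := mul_le_mul_of_nonneg_left (by linarith) hs0.le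
        _ = s := mul_one s
    exact div_le_div_of_nonneg_left (by positivity) (by positivity) h1
  have hpos2 : 0 < C * κ₀ / s ^ 2 := by positivity
  have hpos1 : 0 < C * κ₀ / s := by positivity
  have hHI : Hs w f₀ s ≤ Is w f₀ s := by
    have : (1 + δ) / 2 * Is w f₀ s ≤ 1 * Is w f₀ s := by
      refine mul_le_mul_of_nonneg_right ?_ hIp.le
      linarith
    linarith
  have hns := nsq_eq P hcbp hprob
  have hds := dsq_eq P hcbp
  have hp := fun x => (hcbp.pos x).le
  let S : State n ε :=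
    { P.toSt with
      μ := ms w s
      prob_μ := hprob
      f := fs w f₀ s
      f_cbp := hcbp
      f_one := hone'
      ν_eq := P.ν_eq
      w_eq := P.w_eq
      w_cb := P.w_cb
      V2_bdd := ⟨BV, fun x i j => by rw [P.V2_eq]; exact hBV x i j⟩
      V2_nonneg := fun x => by rw [P.V2_eq]; exact hV0 x
      h := s
      h_pos := hs0
      h_le := by linarith
      V2_le := fun x => by rw [P.V2_eq]; exact hV1 x
      lsi := by
        intro f hf
        refine (hSL n c R w hc hw (hSG.mono hκ01) ((Noi402.lsi_iff hw.ex).2 hLS) s hs0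
          (by linarith) f hf).trans ?_
        have : 0 ≤ LL809.Fi (ms w s) f := integral_nonneg fun x =>
          div_nonneg (Finset.sum_nonneg fun k _ => sq_nonneg _) (hf.pos x).le
        gcongr
        linarith
      S1 := by
        rw [hns]
        change (1 + ε) / 2 * Is w f₀ s - Hs w f₀ s ≤ ε * Is w f₀ s
        have h1 : η * I₀ ≤ η * (2 * Is w f₀ s) := by gcongr
        have h2 : η * (2 * Is w f₀ s) ≤ ε / 2 * Is w f₀ s := by
          rw [← mul_assoc]
          refine mul_le_mul_of_nonneg_right ?_ hIp.le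
          rw [hη]; linarith
        nlinarith [mul_pos hδ hIp]
      S2 := by
        rw [hns, hds]
        refine hU.trans ?_
        gcongr
      S3 := by
        intro p G k hp'
        obtain ⟨h1, -⟩ := hLB n c R κ₀ w f₀ hc hw hf₀ hone hκ₀ hSG s hs0 (by linarith) p G k hp'
        have h2 : ∀ x i, P.w i x = sc w f₀ s i x := fun x i => P.w_eq i x
        rw [hns]
        simp only [h2]
        have h3 : 0 ≤ LL809.MI (ms w s) (fs w f₀ s) (LL809.gam n) p := MI_nonneg' hcbp hone' hp'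
        have h4 : LL809.Ent (An.nm w) f₀ ≤ Is w f₀ s := by
          rw [Noi402.ent_nm hw.ex]; linarith
        have h5 : C * κ₀ / s ^ 2 * (LL809.Ent (An.nm w) f₀ + Hs w f₀ s +
            LL809.MI (ms w s) (fs w f₀ s) (LL809.gam n) p) ≤
            e / 2 * (2 * (Is w f₀ s + LL809.MI (ms w s) (fs w f₀ s) (LL809.gam n) p)) := by
          refine (mul_le_mul_of_nonneg_left (?_ : _ ≤ 2 * (Is w f₀ s +
            LL809.MI (ms w s) (fs w f₀ s) (LL809.gam n) p)) hpos2.le).trans
            (mul_le_mul_of_nonneg_right hCs (by linarith))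
          linarith
        refine h1.trans (h5.trans ?_)
        have h6 : e * (Is w f₀ s + LL809.MI (ms w s) (fs w f₀ s) (LL809.gam n) p) ≤
            ε * (Is w f₀ s + LL809.MI (ms w s) (fs w f₀ s) (LL809.gam n) p) :=
          mul_le_mul_of_nonneg_right heε (by linarith)
        linarith
      P1L := by
        intro p G k hp' R' hR1 hR2 hR3 hR4
        obtain ⟨-, h1⟩ := hLB n c R κ₀ w f₀ hc hw hf₀ hone hκ₀ hSG s hs0 (by linarith) p G k hp'
        have h1 := h1 R' hR1 hR2 hR3 hR4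
        rw [hns]
        simp only [P.V2_eq]
        have h3 : 0 ≤ LL809.MI (ms w s) (fs w f₀ s) (LL809.gam n) p := MI_nonneg' hcbp hone' hp'
        have h3' : 0 ≤ Hs w f₀ s := by
          have a1 : s * I₀ ≤ 1 / 4 * I₀ := mul_le_mul_of_nonneg_right (by linarith) hI₀p.le
          have a2 : δ * I₀ ≤ 1 / 128 * I₀ := mul_le_mul_of_nonneg_right (by linarith) hI₀p.le
          linarith
        have h4 : 0 ≤ ∫ j, (R' j).trace * LL809.pJ (ms w s) (fs w f₀ s) p j ∂(LL809.gam n) :=
          integral_nonneg fun j => mul_nonneg (tr_nonneg' (hR3 j))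
            (integral_nonneg fun x => mul_nonneg (hp x) (((hp'.cb j).pos x).le))
        refine h1.trans ((mul_le_mul_of_nonneg_right
          (hCs'.trans (by linarith : e / 2 ≤ ε)) (by linarith)).trans ?_)
        gcongr }
  refine hno n S ?_
  change 0 < nsq P.ν P.w
  rw [hns]
  exact hIp

end Crest.Agent.R201.L74
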