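import Crest.Agent.R201.Lps7_146

/-!
# R201 (S0308): block LB, official literal (owner: helper146)
-/

set_option autoImplicit false

namespace Crest.Agent.R201.Lps146

/-- **block LB** -/
theorem lb_146 : L74.LB := LB2

end Crest.Agent.R201.Lps146
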