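import Crest.Agent.R201.RG3_786
import Crest.Agent.R201.NSL4_674

/-!
# R201, LSI half (helper786): the law of a Gaussian label, Gaussian LSI
`D(p_J | γ) ≤ 1/2 ∫ |E[y - M⁻¹(y - v) | J = y]|² p_J dγ`.
-/

set_option autoImplicit false
set_option linter.unusedSectionVars false
set_option linter.unusedVariables false
open MeasureTheory Matrix

namespace Crest.Agent.R201.RG786

open Crest.Agent.R201 Crest.Agent.R201.An Crest.Agent.R201.LL809

variable {n : ℕ}

/-- score of the label in the variable `y` -/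
noncomputable def sy (v : Fin n → ℝ) (M : Mt n) (y : E n) (l : Fin n) : ℝ :=
  y l - (M⁻¹ *ᵥ (y.ofLp - v)) l

/-- derivative of the log-density in the label -/
theorem gl_fd (v : Fin n → ℝ) {M : Mt n} (hN : (M⁻¹)ᵀ = M⁻¹) (y : E n) :
    HasFDerivAt (fun y : E n => gl v M y)
      (∑ l, sy v M y l • (EuclideanSpace.proj l : E n →L[ℝ] ℝ)) y := by
  set N := M⁻¹ with hNd
  have hc : ∀ i, HasFDerivAt (fun y : E n => y i) (EuclideanSpace.proj i : E n →L[ℝ] ℝ) y := fun i =>
    (EuclideanSpace.proj i : E n →L[ℝ] ℝ).hasFDerivAt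
  have hd : ∀ i, HasFDerivAt (fun y : E n => y i - v i) (EuclideanSpace.proj i : E n →L[ℝ] ℝ) y :=
    fun i => (hc i).sub_const _
  have h1 : ∀ i, HasFDerivAt (fun y : E n => ∑ j, N i j * (y j - v j))
      (∑ j, N i j • (EuclideanSpace.proj j : E n →L[ℝ] ℝ)) y := fun i =>
    HasFDerivAt.fun_sum fun j _ => (hd j).const_mul (N i j)
  have h2 : HasFDerivAt (fun y : E n => ∑ i, (y i - v i) * ∑ j, N i j * (y j - v j))
      (∑ i, ((y i - v i) • (∑ j, N i j • (EuclideanSpace.proj j : E n →L[ℝ] ℝ)) +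
        (∑ j, N i j * (y j - v j)) • (EuclideanSpace.proj i : E n →L[ℝ] ℝ))) y :=
    HasFDerivAt.fun_sum fun i _ => (hd i).mul (h1 i)
  have h3 : HasFDerivAt (fun y : E n => ∑ i, y i * y i)
      (∑ i, (y i • (EuclideanSpace.proj i : E n →L[ℝ] ℝ) +
        y i • (EuclideanSpace.proj i : E n →L[ℝ] ℝ))) y :=
    HasFDerivAt.fun_sum fun i _ => (hc i).mul (hc i)
  have h4 := ((h2.const_mul (-(1 / 2))).add (h3.const_mul (1 / 2))).sub_const
    ((1 / 2) * Real.log M.det)
  refine (h4.congr_fderiv ?_)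
  ext z
  have e0 : ∀ i, (EuclideanSpace.proj i : E n →L[ℝ] ℝ) z = z i := fun _ => rfl
  simp only [FunLike.coe_add, FunLike.coe_smul, Pi.add_apply, Pi.smul_apply, smul_eq_mul,
    FunLike.coe_sum, Finset.sum_apply, e0, sy]
  have e1 : ∑ i, ((y i - v i) * ∑ j, N i j * z j) = ∑ i, (∑ j, N i j * (y j - v j)) * z i := by
    simp only [Finset.mul_sum, Finset.sum_mul]
    rw [Finset.sum_comm]
    refine Finset.sum_congr rfl fun i _ => Finset.sum_congr rfl fun j _ => ?_
    have : N j i = N i j := congrFun (congrFun hN i) j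
    rw [this]
    ring
  have e2 : ∀ l, (M⁻¹ *ᵥ (y.ofLp - v)) l = ∑ j, N l j * (y j - v j) := fun l => rfl
  have e3 : ∑ l, (y l - ∑ j, N l j * (y j - v j)) * z l =
      ∑ l, y l * z l - ∑ l, (∑ j, N l j * (y j - v j)) * z l := by
    rw [← Finset.sum_sub_distrib]
    exact Finset.sum_congr rfl fun l _ => by ring
  simp only [e2]
  rw [Finset.sum_add_distrib, e1, Finset.sum_add_distrib, e3]
  ring

section LawG

variable {μ : Measure (E n)} [IsProbabilityMeasure μ] {f : E n → ℝ} {M : E n → Mt n}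
  {v : E n → Fin n → ℝ}

theorem gd_fd (hM : MF M) (x y : E n) :
    HasFDerivAt (fun y : E n => gd (v x) (M x) y)
      (∑ l, (sy (v x) (M x) y l * gd (v x) (M x) y) • (EuclideanSpace.proj l : E n →L[ℝ] ℝ)) y := by
  have h := (gl_fd (v x) (hM.symm_inv x) y).exp
  refine h.congr_fderiv ?_
  rw [Finset.smul_sum]
  refine Finset.sum_congr rfl fun l _ => ?_
  rw [smul_smul, mul_comm]
  rfl

theorem PG_sy (hM : MF M) (hv : ∀ i, CB fun x => v x i) (l : Fin n) :
    PG 1 (fun y x => sy (v x) (M x) y l) := by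
  have h := ((PG.cst (hv l)).mono zero_le_one).add (PG_bl hM hv l)
  have e : (fun y x => v x l + bl v M y l x) = fun y x => sy (v x) (M x) y l := by
    funext y x
    rw [← bl_eq]
    rfl
  rwa [e] at h

/-- local bound of the density and its score -/
theorem loc_bd (hM : MF M) (hv : ∀ i, CB fun x => v x i) (hf : CBp f) (R : ℝ) :
    ∃ Φ : ℝ, 0 ≤ Φ ∧ ∀ y : E n, ‖y‖ ≤ R → ∀ x, |f x * gd (v x) (M x) y| ≤ Φ ∧ ∀ l,
      |f x * (sy (v x) (M x) y l * gd (v x) (M x) y)| ≤ Φ := by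
  obtain ⟨B, hB0, hB⟩ := hf.bdd
  obtain ⟨C, hC, hc⟩ := (PG_gl hM hv).bd
  have hs : ∀ l, ∃ D : ℝ, 0 ≤ D ∧ ∀ y x, |sy (v x) (M x) y l| ≤ D * (1 + ‖y‖) := fun l => by
    obtain ⟨D, hD, hd⟩ := (PG_sy hM hv l).bd
    exact ⟨D, hD, fun y x => by simpa using (hd y x).1⟩
  choose D hD hd using hs
  set S := ∑ l, D l with hS
  have hS0 : 0 ≤ S := Finset.sum_nonneg fun l _ => hD l
  have hDS : ∀ l, D l ≤ S := fun l => Finset.single_le_sum (f := D) (fun i _ => hD i)
    (Finset.mem_univ l)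
  refine ⟨B * ((1 + S * (1 + |R|)) * Real.exp (C * (1 + |R|) ^ 2)), by positivity,
    fun y hy x => ?_⟩
  have hyR : 1 + ‖y‖ ≤ 1 + |R| := by have := le_abs_self R; linarith
  have h0 : 0 ≤ 1 + ‖y‖ := by positivity
  have g1 : gd (v x) (M x) y ≤ Real.exp (C * (1 + |R|) ^ 2) := by
    unfold gd
    refine Real.exp_le_exp.2 ((le_abs_self _).trans ((hc y x).1.trans ?_))
    exact mul_le_mul_of_nonneg_left (pow_le_pow_left₀ h0 hyR 2) hC
  have g0 : 0 ≤ gd (v x) (M x) y := (Real.exp_pos _).le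
  have s1 : 1 ≤ 1 + S * (1 + |R|) := by
    have : 0 ≤ S * (1 + |R|) := by positivity
    linarith
  constructor
  · rw [abs_mul, abs_of_nonneg g0]
    refine mul_le_mul (hB x).1 ?_ g0 hB0
    calc gd (v x) (M x) y ≤ 1 * Real.exp (C * (1 + |R|) ^ 2) := by rw [one_mul]; exact g1
      _ ≤ _ := mul_le_mul_of_nonneg_right s1 (Real.exp_pos _).le
  · intro l
    rw [abs_mul, abs_mul, abs_of_nonneg g0]
    refine mul_le_mul (hB x).1 ?_ (mul_nonneg (abs_nonneg _) g0) hB0
    refine mul_le_mul ?_ g1 g0 (by positivity)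
    calc |sy (v x) (M x) y l| ≤ D l * (1 + ‖y‖) := hd l y x
      _ ≤ S * (1 + |R|) := mul_le_mul (hDS l) hyR h0 hS0
      _ ≤ _ := by linarith

theorem meas_x (hM : MF M) (hv : ∀ i, CB fun x => v x i) (hf : CBp f) (y : E n) :
    Continuous (fun x => f x * gd (v x) (M x) y) ∧
    ∀ l, Continuous (fun x => f x * (sy (v x) (M x) y l * gd (v x) (M x) y)) := by
  have h1 : Continuous fun x => gd (v x) (M x) y :=
    Real.continuous_exp.comp ((PG_gl hM hv).cb y).1.continuous
  exact ⟨hf.cont.mul h1, fun l => hf.cont.mul (((PG_sy hM hv l).cb y).1.continuous.mul h1)⟩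

/-- the score integrals -/
noncomputable def sI (μ : Measure (E n)) (f : E n → ℝ) (v : E n → Fin n → ℝ) (M : E n → Mt n)
    (l : Fin n) (y : E n) : ℝ := ∫ x, f x * (sy (v x) (M x) y l * gd (v x) (M x) y) ∂μ

theorem sI_cont (hM : MF M) (hv : ∀ i, CB fun x => v x i) (hf : CBp f) (l : Fin n) :
    Continuous (sI μ f v M l) := by
  rw [continuous_iff_continuousAt]
  intro y₀
  obtain ⟨Φ, hΦ, hb⟩ := loc_bd hM hv hf (‖y₀‖ + 1)
  unfold sI
  refine continuousAt_of_dominated (bound := fun _ => Φ)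
    (Filter.Eventually.of_forall fun y => ((meas_x hM hv hf y).2 l).aestronglyMeasurable) ?_
    (integrable_const _) (Filter.Eventually.of_forall fun x => ?_)
  · filter_upwards [Metric.ball_mem_nhds y₀ one_pos] with y hy
    refine Filter.Eventually.of_forall fun x => ?_
    have : ‖y‖ ≤ ‖y₀‖ + 1 := by
      have h1 := norm_sub_norm_le y y₀
      rw [Metric.mem_ball, dist_eq_norm] at hy
      linarith
    exact (hb y this x).2 l
  · have h1 : Continuous fun y : E n => sy (v x) (M x) y l := by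
      unfold sy
      refine Continuous.sub (by fun_prop) ?_
      have : Continuous fun y : E n => (M x)⁻¹ *ᵥ (y.ofLp - v x) :=
        Continuous.matrix_mulVec continuous_const
          ((PiLp.continuous_ofLp 2 _).sub continuous_const)
      exact (continuous_apply l).comp this
    have h2 : Continuous fun y : E n => gd (v x) (M x) y :=
      continuous_iff_continuousAt.2 fun y => (gd_fd hM x y).continuousAt
    exact ((continuous_const.mul (h1.mul h2))).continuousAt

theorem pJ_fd (hM : MF M) (hv : ∀ i, CB fun x => v x i) (hf : CBp f) (y₀ : E n) :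
    HasFDerivAt (pJ μ f (gp v M)) (∑ l, sI μ f v M l y₀ • (EuclideanSpace.proj l : E n →L[ℝ] ℝ))
      y₀ := by
  obtain ⟨Φ, hΦ, hb⟩ := loc_bd hM hv hf (‖y₀‖ + 1)
  set F' : E n → E n → (E n →L[ℝ] ℝ) := fun y x =>
    ∑ l, (f x * (sy (v x) (M x) y l * gd (v x) (M x) y)) • (EuclideanSpace.proj l : E n →L[ℝ] ℝ)
    with hF'
  have hint : ∀ y l, Integrable (fun x => f x * (sy (v x) (M x) y l * gd (v x) (M x) y)) μ := by
    intro y l
    obtain ⟨Ψ, hΨ, hb'⟩ := loc_bd hM hv hf ‖y‖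
    exact (integrable_const Ψ).mono' ((meas_x hM hv hf y).2 l).aestronglyMeasurable
      (Filter.Eventually.of_forall fun x => (hb' y le_rfl x).2 l)
  have key := hasFDerivAt_integral_of_dominated_of_fderiv_le (μ := μ) (s := Metric.ball y₀ 1)
    (F := fun y x => f x * gd (v x) (M x) y) (F' := F') (x₀ := y₀)
    (bound := fun _ => ∑ l : Fin n, Φ * ‖(EuclideanSpace.proj l : E n →L[ℝ] ℝ)‖)
    (Metric.ball_mem_nhds y₀ one_pos)
    (Filter.Eventually.of_forall fun y => (meas_x hM hv hf y).1.aestronglyMeasurable)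
    ?_ ?_ ?_ (integrable_const _) ?_
  · have e : ∫ x, F' y₀ x ∂μ = ∑ l, sI μ f v M l y₀ • (EuclideanSpace.proj l : E n →L[ℝ] ℝ) := by
      rw [hF']
      simp only
      rw [integral_finsetSum _ fun l _ => (hint y₀ l).smul_const _]
      refine Finset.sum_congr rfl fun l _ => ?_
      rw [integral_smul_const]
      rfl
    rw [← e]
    exact key
  · obtain ⟨Ψ, hΨ, hb'⟩ := loc_bd hM hv hf ‖y₀‖
    exact (integrable_const Ψ).mono' (meas_x hM hv hf y₀).1.aestronglyMeasurable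
      (Filter.Eventually.of_forall fun x => (hb' y₀ le_rfl x).1)
  · refine Continuous.aestronglyMeasurable ?_
    exact continuous_finsetSum _ fun l _ => ((meas_x hM hv hf y₀).2 l).smul continuous_const
  · refine Filter.Eventually.of_forall fun x y hy => ?_
    have hyR : ‖y‖ ≤ ‖y₀‖ + 1 := by
      have h1 := norm_sub_norm_le y y₀
      rw [Metric.mem_ball, dist_eq_norm] at hy
      linarith
    refine (norm_sum_le _ _).trans (Finset.sum_le_sum fun l _ => ?_)
    rw [norm_smul, Real.norm_eq_abs]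
    exact mul_le_mul_of_nonneg_right ((hb y hyR x).2 l) (norm_nonneg _)
  · refine Filter.Eventually.of_forall fun x y hy => ?_
    have h := (gd_fd (v := v) hM x y).const_mul (f x)
    refine h.congr_fderiv ?_
    rw [hF', Finset.smul_sum]
    refine Finset.sum_congr rfl fun l _ => ?_
    rw [smul_smul]

theorem pJ_c1 (hM : MF M) (hv : ∀ i, CB fun x => v x i) (hf : CBp f) :
    ContDiff ℝ 1 (pJ μ f (gp v M)) :=
  contDiff_one_iff_hasFDerivAt.2 ⟨_, continuous_finsetSum _ fun l _ =>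
    (sI_cont (μ := μ) hM hv hf l).smul continuous_const, pJ_fd hM hv hf⟩

theorem pd_pJ (hM : MF M) (hv : ∀ i, CB fun x => v x i) (hf : CBp f) (l : Fin n) (y : E n) :
    pd l (pJ μ f (gp v M)) y = sI μ f v M l y := by
  unfold pd
  rw [(pJ_fd hM hv hf y).fderiv]
  have e0 : ∀ i, (EuclideanSpace.proj i : E n →L[ℝ] ℝ) (EuclideanSpace.single l (1 : ℝ)) =
      if i = l then 1 else 0 := fun i => by
    change (EuclideanSpace.single l (1 : ℝ)) i = _
    simp
  simp only [FunLike.coe_sum, Finset.sum_apply, FunLike.coe_smul, Pi.smul_apply, smul_eq_mul, e0]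
  simp

/-- **the law part** -/
theorem disB {A : E n → Mt n} (hM : MF M) (hv : ∀ i, CB fun x => v x i) (hf : CBp f)
    (h1 : ∫ x, f x ∂μ = 1) (hA : ∀ i j, CB fun x => A x i j) (hAs : ∀ x, (A x)ᵀ = A x)
    (h0 : ∀ x, LeQ 0 (A x)) (hMA : ∀ x, M x = 1 + A x) : DisB μ f v M := by
  obtain ⟨G, h, hp⟩ := gchan hM hv
  obtain ⟨hI, hle⟩ := prod_int (μ := μ) hM hv hf hA hAs h0 hMA
  obtain ⟨pt, iv⟩ := pt_bd (μ := μ) hM hv hf h1 hA hAs h0 hMA
  have e : ∀ y, ‖fderiv ℝ (pJ μ f (gp v M)) y‖ ^ 2 / pJ μ f (gp v M) y =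
      (∑ l, (∫ x, f x * ((y l - ((M x)⁻¹ *ᵥ (y.ofLp - v x)) l) * gp v M y x) ∂μ) ^ 2) /
        pJ μ f (gp v M) y := by
    intro y
    rw [norm_fderiv_sq]
    simp only [pd_pJ hM hv hf]
    rfl
  have hc := pJ_c1 (μ := μ) hM hv hf
  have i1 : Integrable (pJ μ f (gp v M)) (gam n) ∧ ∫ y, pJ μ f (gp v M) y ∂(gam n) = 1 := by
    obtain ⟨a1, a2⟩ := meas_fbp (μ := μ) hp hf (b := fun _ => 1) measurable_const (B := 1) (by simp)
    simp only [one_mul, mul_one, h1] at a1 a2
    exact ⟨a1, a2⟩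
  have i2 : Integrable (fun y => ‖fderiv ℝ (pJ μ f (gp v M)) y‖ ^ 2 / pJ μ f (gp v M) y)
      (gam n) := by
    refine ((iv.const_mul 2).add (hI.integral_prod_left.const_mul 2)).mono' ?_
      (Filter.Eventually.of_forall fun y => ?_)
    · refine (Continuous.div ?_ hc.continuous fun y => ?_).aestronglyMeasurable
      · exact ((hc.continuous_fderiv one_ne_zero).norm).pow 2
      · exact (pJ_bd hp hf h1 y).1.ne'
    · rw [Real.norm_eq_abs, abs_of_nonneg (div_nonneg (sq_nonneg _) (pJ_bd hp hf h1 y).1.le), e]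
      exact pt y
  have key := NSL674.gauss_lsi (f := pJ μ f (gp v M)) hc (fun y => (pJ_bd hp hf h1 y).1)
    (by rw [← gam_eq]; exact i1.1) (by rw [← gam_eq]; exact i2)
  rw [← gam_eq, i1.2, Real.log_one, mul_zero, sub_zero] at key
  have k2 := key.2
  simp only [e] at k2
  exact k2

end LawG

end Crest.Agent.R201.RG786
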