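import Crest.Agent.R201.RG4_786
import Crest.Agent.R201.RG5_786
import Crest.Agent.R201.LDefs_74
import Crest.Agent.R201.Ch7_150

/-!
# R201 (S0308): block RG of `LDefs_74` (helper786)
-/

set_option autoImplicit false
open MeasureTheory Matrix

namespace Crest.Agent.R201.RG786

open Crest.Agent.R201 Crest.Agent.R201.An Crest.Agent.R201.LL809

variable {n : ℕ}

/-- the rigidity inequality, all hypotheses discharged -/
theorem rig' {μ : Measure (E n)} [IsProbabilityMeasure μ] {f : E n → ℝ} {A : E n → Mt n}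
    {w : Fin n → E n → ℝ} {κ K : ℝ} (hL : LSI K μ) (hK : 0 ≤ K) (hf : CBp f)
    (h1 : ∫ x, f x ∂μ = 1) (hw : ∀ i, CB (w i)) (hA : ∀ i j, CB fun x => A x i j)
    (hAs : ∀ x, (A x)ᵀ = A x) (h0 : ∀ x, LeQ 0 (A x)) (hκ : 0 < κ) :
    ∫ x, f x * ∑ i, w i x ^ 2 ∂μ ≤
      K * (∫ x, f x * ∑ k, (fun i => pd k (w i) x) ⬝ᵥ ((1 + A x)⁻¹ *ᵥ fun i => pd k (w i) x) ∂μ) +
      K * κ / 2 * (∫ x, f x * ∑ k, hs (pdM k A x) ∂μ) + 2 * κ * (K / 2 * Fi μ f - Ent μ f) +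
      2 * (∫ y, (∑ l, (∫ x, f x * (w l x * gp (vk κ w) (fun x => 1 + A x) y x) ∂μ) ^ 2) /
        pJ μ f (gp (vk κ w) (fun x => 1 + A x)) y ∂(gam n)) +
      2 * κ * ∫ x, f x * (A x).trace ∂μ ∧
    MI μ f (gam n) (gp (vk κ w) (fun x => 1 + A x)) ≤
      (∫ x, f x * ∑ i, w i x ^ 2 ∂μ) / (2 * κ) + 1 / 2 * ∫ x, f x * (A x).trace ∂μ :=
  rig hL hK hf h1 hw hA hAs h0 hκ
    (disB (MF_of hA hAs h0) (vk_cb hw κ) hf h1 hA hAs h0 fun _ => rfl)

/-- **block RG** -/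
theorem rg_786 : L74.RG := by
  intro n ε S hε A κ hκ hA hAc hAs h0
  have := S.prob_μ
  have hε0 : 0 < ε := S.h_pos.trans_le S.h_le
  have hAcb : ∀ i j, CB fun x => A x i j := fun i j => Tw807.cb_c1 (hA i j) (hAc i j)
  have hf := S.f_cbp
  have mf := hf.cont.measurable
  have hnn : ∀ x, 0 ≤ S.f x := fun x => (hf.pos x).le
  have hν : ∀ g : E n → ℝ, ∫ x, g x ∂S.ν = ∫ x, S.f x * g x ∂S.μ := fun g => by
    rw [S.ν_eq]
    exact Ch150.int_fm mf hnn g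
  obtain ⟨h1, h2⟩ := rig' (A := A) S.lsi (by linarith) hf S.f_one S.w_cb hAcb hAs h0 hκ
  obtain ⟨G, k, hp⟩ := gchan (MF_of hAcb hAs h0) (vk_cb S.w_cb κ)
  have h3 := S.S3 _ G k hp
  have eI : nsq S.ν S.w = ∫ x, S.f x * ∑ i, S.w i x ^ 2 ∂S.μ := by
    unfold nsq
    simp only [hν]
    rw [← integral_finsetSum]
    · refine integral_congr_ae (Filter.Eventually.of_forall fun x => ?_)
      simp only
      rw [Finset.mul_sum]
    · intro i _
      have := ((BC.of_cb hf.1).mul ((BC.of_cb (S.w_cb i)).mul (BC.of_cb (S.w_cb i)))).int (μ := S.μ)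
      simpa [sq] using this
  have eF : Fi S.μ S.f = nsq S.ν S.w := by
    rw [eI]
    unfold Fi
    refine integral_congr_ae (Filter.Eventually.of_forall fun x => ?_)
    simp only [S.w_eq]
    rw [Finset.sum_div, Finset.mul_sum]
    refine Finset.sum_congr rfl fun i _ => ?_
    have := (hf.pos x).ne'
    field_simp
  have h4 := S.S1
  rw [eF] at h1
  have eD : S.I = nsq S.ν S.w := rfl
  rw [eD]
  simp only [hν, eI] at h1 h2 h3 h4 ⊢
  set W := ∫ x, S.f x * ∑ i, S.w i x ^ 2 ∂S.μ with hW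
  set TA := ∫ x, S.f x * (A x).trace ∂S.μ with hTA
  set I' := MI S.μ S.f (gam n) (gp (vk κ S.w) fun x => 1 + A x) with hI'
  have h5 : ε * (W + I') ≤ ε * (W + (W / (2 * κ) + 1 / 2 * TA)) :=
    mul_le_mul_of_nonneg_left (by linarith) hε0.le
  have h6 : 2 * κ * ((1 + ε) / 2 * W - Ent S.μ S.f) ≤ 2 * κ * (ε * W) :=
    mul_le_mul_of_nonneg_left h4 (by positivity)
  have e7 : ∫ x, S.f x * ∑ k, hs (pdM k (fun x => A x) x) ∂S.μ =
    ∫ x, S.f x * ∑ k, hs (pdM k A x) ∂S.μ := rfl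
  linarith

end Crest.Agent.R201.RG786
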