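import Crest.Agent.R201.LDefs_74
import Crest.Agent.R201.El8_593

/-!
# R201 (S0308), block SB: the state at level `s` (helper839, over helper593's El5–El8)
-/

set_option autoImplicit false
open MeasureTheory Matrix

namespace Crest.Agent.R201.SB839

open Crest.Agent.R201 Crest.Agent.R201.L74 Crest.Agent.R201.El593

variable {n : ℕ}

/-- a `CBp` function has at most exponential growth -/
lemma cbp_EG {f : E n → ℝ} (hf : LL809.CBp f) : An.EG f := by
  obtain ⟨B, -, hB⟩ := hf.bdd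
  exact An.EG.of_bdd hf.cont.measurable fun x => (hB x).1

/-- the score is bounded `C¹` with bounded derivative -/
lemma wd_cb {f : E n → ℝ} {c B : ℝ} (h : B2 f c B) (k : Fin n) : CB (wd f k) :=
  ⟨(h.wd_smooth k).of_le (by norm_cast), max (B / c) (B / c + (B / c) * (B / c)), fun x =>
    ⟨(h.wd_le k x).trans (le_max_left _ _), fun l => (h.pd_wd_le k l x).trans (le_max_right _ _)⟩⟩

/-- everything in `State` except `lsi`, `S1`, `S2`, `S3`, `P1L` -/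
theorem pre {c R : ℝ} {w f₀ : E n → ℝ} (hw : An.Wt c R w) (hf : LL809.CBp f₀)
    (h1 : An.Em w f₀ = 1) {s : ℝ} (hs : 0 < s) : Nonempty (Pre n w f₀ s) := by
  have hE := cbp_EG hf
  obtain ⟨a, ha, hle⟩ := hf.2
  obtain ⟨B, hB⟩ := B2_pE hw hs hE ha hle
  have hm : An.Em (An.Lp w s fun _ => 1) (An.pE w s f₀) = 1 := by
    rw [An.Em_pE hw.ex hs hE, h1]
  exact ⟨{
    toSt := stN hw hs hB
    ν_eq := nm_mul (hw.ex.noisy hs) hB.smooth.continuous.measurable hm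
    w_eq := fun i x => rfl
    w_cb := fun i => wd_cb hB i
    V2_eq := fun x => stN_V2 hw hs hB x }⟩

theorem fs_cbp {c R : ℝ} {w f₀ : E n → ℝ} (hw : An.Wt c R w) (hf : LL809.CBp f₀)
    {s : ℝ} (hs : 0 < s) : LL809.CBp (fs w f₀ s) := by
  obtain ⟨a, ha, hle⟩ := hf.2
  obtain ⟨B, hB⟩ := B2_pE hw hs (cbp_EG hf) ha hle
  exact ⟨CB_pE_wt hw hs (cbp_EG hf), a, ha, hB.ge⟩

theorem fs_one {c R : ℝ} {w f₀ : E n → ℝ} (hw : An.Wt c R w) (hf : LL809.CBp f₀)
    (h1 : An.Em w f₀ = 1) {s : ℝ} (hs : 0 < s) : ∫ x, fs w f₀ s x ∂(ms w s) = 1 := by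
  unfold fs ms
  rw [An.int_nm (hw.ex.noisy hs), An.Em_pE hw.ex hs (cbp_EG hf), h1]

theorem Vh_bdd' {c R : ℝ} {w : E n → ℝ} (hw : An.Wt c R w) {s : ℝ} (hs : 0 < s) :
    ∃ B : ℝ, ∀ x i j, |An.Vh w s x i j| ≤ B := by
  have h : ∀ i j : Fin n, ∃ B : ℝ, ∀ x, |An.Vh w s x i j| ≤ B := fun i j => An.Vh_bdd hw hs i j
  choose B hB using h
  refine ⟨∑ i, ∑ j, |B i j|, fun x i j => ?_⟩
  refine ((hB i j x).trans (le_abs_self _)).trans ?_
  refine (Finset.single_le_sum (f := fun j => |B i j|) (fun _ _ => abs_nonneg _)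
    (Finset.mem_univ j)).trans ?_
  exact Finset.single_le_sum (f := fun i => ∑ j, |B i j|)
    (fun _ _ => Finset.sum_nonneg fun _ _ => abs_nonneg _) (Finset.mem_univ i)

theorem Vh_nonneg {c R : ℝ} {w : E n → ℝ} (hc : 0 < c) (hw : An.Wt c R w) {s : ℝ} (hs : 0 < s)
    (x : E n) : LeQ 0 (An.Vh w s x) := by
  intro u
  have h := An.Vh_ge hw.ex hc.le hw.slc hs x u
  simp only [Matrix.smul_mulVec, Matrix.one_mulVec, dotProduct_smul, smul_eq_mul] at h
  simp only [Matrix.zero_mulVec, dotProduct_zero]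
  refine le_trans (mul_nonneg (by positivity) ?_) h
  exact Finset.sum_nonneg fun i _ => mul_self_nonneg (u i)

theorem Vh_le_one {c R : ℝ} {w : E n → ℝ} (hw : An.Wt c R w) {s : ℝ} (hs : 0 < s)
    (x : E n) : LeQ (s • An.Vh w s x) 1 := by
  intro u
  have h := An.Vh_le hw.ex hs x u
  simp only [Matrix.smul_mulVec, Matrix.one_mulVec, dotProduct_smul, smul_eq_mul] at h ⊢
  calc s * (u ⬝ᵥ (An.Vh w s x *ᵥ u)) ≤ s * (1 / s * (u ⬝ᵥ u)) := mul_le_mul_of_nonneg_left h hs.le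
    _ = u ⬝ᵥ u := by field_simp

/-- **block SB** -/
theorem sb_839 : L74.SB := fun _ _ _ _ _ hc hw hf h1 _ hs =>
  ⟨pre hw hf h1 hs, An.nm_prob (hw.ex.noisy hs), fs_cbp hw hf hs, fs_one hw hf h1 hs,
    Vh_bdd' hw hs, Vh_nonneg hc hw hs, Vh_le_one hw hs⟩

end Crest.Agent.R201.SB839
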