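import Crest.Agent.R201.St6_352
import Crest.Agent.R201.LDefs_74

/-!
# R201 St7: block **SL** of LDefs_74 (helper352)
-/

set_option autoImplicit false
open MeasureTheory Matrix Filter Topology
open scoped ContDiff RealInnerProductSpace NNReal

namespace Crest.Agent.R201.St352

open Crest.Agent.R201 Crest.Agent.R144.Fi865 Crest.Agent.R201.An Crest.Agent.R201.DVQ402

/-- Block SL: the log-Sobolev constant of `X + √s G` does not grow -/
theorem sl_352 : L74.SL := by
  intro δ hδ
  set d : ℝ := min δ 1 with hd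
  have hd0 : 0 < d := lt_min hδ one_pos
  have hd1 : d ≤ 1 := min_le_right _ _
  have hdδ : d ≤ δ := min_le_left _ _
  set σ : ℝ := d / 16 with hσ
  set e : ℝ := d / 8 with he
  have hσ0 : 0 < σ := by positivity
  have hσ1 : σ ≤ 1 / 16 := by rw [hσ]; linarith
  have he0 : 0 < e := by positivity
  have he1 : e ≤ 1 / 8 := by rw [he]; linarith
  refine ⟨e ^ 3 * σ ^ 2 / 128, by positivity, ?_⟩
  intro n c R w hc hw hSG hL s hs hs1
  have hex := hw.ex
  have hρ := hex.noisy hs
  have hL' : Noi402.LS w 1 := (Noi402.lsi_iff hex).1 hL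
  unfold L74.ms
  rw [Noi402.lsi_iff hρ]
  rcases le_or_gt s σ with h | h
  · refine Noi402.LS_mono hρ (Noi402.LS_noisy hex hs zero_le_one hL') ?_
    rw [hσ] at h
    linarith
  · have h1 : LSn77.LS (An.Lp w σ fun _ => 1) (1 + σ) :=
      Noi402.ls77_iff.2 (Noi402.LS_noisy hex hσ0 zero_le_one hL')
    have h2 := stat hw hc.le hσ0 hσ1 he0 he1 le_rfl hSG (by linarith : (1 : ℝ) ≤ 1 + σ)
      (by linarith) h1 (t := s - σ) (by linarith) (by linarith)
    have h3 : σ + (s - σ) = s := by ring
    rw [h3] at h2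
    refine Noi402.LS_mono hρ (Noi402.ls77_iff.1 h2) ?_
    have h4 : 0 < 1 - 2 * e := by linarith
    rw [div_le_iff₀ h4, hσ, he]
    nlinarith

end Crest.Agent.R201.St352
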