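import Crest.Agent.R201.Ch9_150
import Crest.Agent.R201.LDefs_74

/-!
# R201, block NS (helper150): `L74.NS` from the unpredictability bound (844 / 795)
-/

set_option autoImplicit false
set_option linter.unusedSectionVars false
open MeasureTheory Matrix Set

namespace Crest.Agent.R201.Ch150

open Crest.Agent.R201 Crest.Agent.R201.NB152 Crest.Agent.R201.FA150 Crest.Agent.R201.LL809

variable {n : ℕ}

theorem LevB_mono {ν : Measure (E n)} {P : E n → Mt n} {K D δ δ' e2 N a : ℝ} {Q : E n → Mt n}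
    (h : δ ≤ δ') (H : LevB ν P K D δ e2 N a Q) : LevB ν P K D δ' e2 N a Q := by
  obtain ⟨Dis, u, pr, i, r, g1, g2, g3, g4, g5, g6⟩ := H
  exact ⟨Dis, u, pr, i, r, by linarith, g2, g3, g4, g5, g6⟩

/-- Fisher information = `nsq` of the score -/
theorem Fi_eq_nsq {μ : Measure (E n)} [IsFiniteMeasure μ] {f : E n → ℝ} (hf : CBp f)
    {w : Fin n → E n → ℝ} (hw : ∀ i x, w i x = pd i f x / f x) (wcb : ∀ i, CB (w i)) :
    Fi μ f = nsq (fm μ f) w := by
  unfold Fi nsq
  have e : ∀ i, ∫ x, w i x ^ 2 ∂(fm μ f) = ∫ x, f x * w i x ^ 2 ∂μ := fun i =>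
    int_fm hf.cont.measurable (fun x => (hf.pos x).le) _
  simp only [e]
  have hi : ∀ i, Integrable (fun x => f x * w i x ^ 2) μ := fun i => by
    obtain ⟨B, hB⟩ := (wcb i).2
    refine int_f hf ((wcb i).1.continuous.measurable.pow_const 2) ⟨B ^ 2, fun x => ?_⟩
    rw [abs_of_nonneg (sq_nonneg _), ← sq_abs]
    exact pow_le_pow_left₀ (abs_nonneg _) (hB x).1 2
  rw [← integral_finsetSum _ fun i _ => hi i]
  refine integral_congr_ae (Filter.Eventually.of_forall fun x => ?_)
  simp only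
  rw [Finset.sum_div]
  refine Finset.sum_congr rfl fun i _ => ?_
  rw [hw i x]
  have := (hf.pos x).ne'
  field_simp

/-- the unpredictability bound for all data -/
def UNP : Prop := ∀ (n : ℕ) (μ : Measure (E n)) [IsProbabilityMeasure μ] (f : E n → ℝ)
  (Q : E n → Mt n), CBp f → ∫ x, f x ∂μ = 1 → (∀ i, CB (famM Q i)) → (∀ x, (Q x)ᵀ = Q x) →
  UNPp μ f Q

theorem ns_of (hU : UNP) : L74.NS := by
  intro n ε S hε Q hQ hQs a ha hQa N hN
  have := S.prob_μ
  have hQ' : ∀ i, CB (famM Q i) := fun i => hQ i.1 i.2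
  have hε0 : 0 < ε := S.h_pos.trans_le S.h_le
  have hν : S.ν = fm S.μ S.f := S.ν_eq
  have hFi : Fi S.μ S.f = S.I := by
    unfold L74.State.I
    rw [hν]
    exact Fi_eq_nsq S.f_cbp S.w_eq S.w_cb
  rw [hν]
  have hI : S.I = nsq S.ν S.w := rfl
  have hδ : (1 + ε) / 2 * Fi S.μ S.f - Ent S.μ S.f ≤ ε * S.I := by
    rw [hFi]
    exact S.S1
  have Vs : ∀ x, (S.V2 x)ᵀ = S.V2 x := fun x => by
    ext i j
    exact S.V2_symm j i x
  refine levB_core (by linarith) S.lsi S.f_cbp S.f_one hQ' hQs ha hQa ?_ ?_ ?_ ?_ hδ hN ?_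
    (hU n S.μ S.f Q S.f_cbp S.f_one hQ' hQs)
  · intro i j
    simp only [Matrix.sub_apply, Matrix.smul_apply]
    exact (continuous_const.sub ((S.V2_cont i j).const_smul S.h)).measurable
  · intro x
    rw [transpose_sub, transpose_one, transpose_smul, Vs]
  · intro x u
    have := S.V2_le x u
    rw [sub_mulVec, dotProduct_sub]
    simp only [zero_mulVec, dotProduct_zero]
    linarith
  · intro x u
    have := S.V2_nonneg x u
    simp only [zero_mulVec, dotProduct_zero] at this
    have h2 := mul_nonneg S.h_pos.le this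
    rw [sub_mulVec, dotProduct_sub, smul_mulVec, dotProduct_smul, smul_eq_mul]
    linarith
  · intro p G k hp R mR Rs R0 R1
    have := S.P1L p G k hp R mR Rs R0 R1
    unfold ET
    refine le_trans (le_of_eq ?_) this
    refine integral_congr_ae (Filter.Eventually.of_forall fun y => ?_)
    refine integral_congr_ae (Filter.Eventually.of_forall fun x => ?_)
    simp only
    rw [trace_mul_comm]

end Crest.Agent.R201.Ch150
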