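import Crest.Agent.R201.UNPB_795
import Crest.Agent.R201.GS3_844
import Crest.Agent.R201.NS_150

/-!
# R201, LSI half (helper795): the unpredictability bound `Ch150.UNP` (from 844's Stein shortcut), block NS
-/

set_option autoImplicit false
set_option linter.unusedSectionVars false
open MeasureTheory Matrix ProbabilityTheory Filter Topology
open scoped ENNReal RealInnerProductSpace

namespace Crest.Agent.R201.UNPB795

open Crest.Agent.R201 Crest.Agent.R201.An Crest.Agent.R201.GC844 Crest.Agent.R201.GS844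
  Crest.Agent.R201.LL809 Crest.Agent.R201.Ch150

variable {n : ℕ} {μ : Measure (E n)} {f : E n → ℝ} {Q : E n → Mt n}

theorem sq2 : (√2 : ℝ) ^ 2 = 2 := Real.sq_sqrt (by norm_num)

theorem wt_lp (hf : CBp f) [IsProbabilityMeasure (μ.withDensity fun x => ENNReal.ofReal (f x))]
    (hQ : ∀ x, (Q x)ᵀ = Q x) (hc : ∀ i j, CB fun x => Q x i j) (y : E n) :
    wt ((μ.withDensity fun x => ENNReal.ofReal (f x)).prod (gm n)) (ze Q) √2 y =
      pJ μ f (lp 2 Q) y := by
  rw [wt_pJ hf hQ hc, sq2]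
  rfl

theorem Rm_Rc (hf : CBp f) [IsProbabilityMeasure (μ.withDensity fun x => ENNReal.ofReal (f x))]
    (hQ : ∀ x, (Q x)ᵀ = Q x) (hc : ∀ i j, CB fun x => Q x i j) (y : E n) :
    Rm (μ.withDensity fun x => ENNReal.ofReal (f x)) Q √2 y =
      Rc μ f (lp 2 Q) (fun x => Q x * Q x) y := by
  obtain ⟨c, hcb⟩ := cb_bdd hc
  ext k l
  have e1 : BB Q k l = fun p : E n × E n => (fun x => (Q x * Q x) k l) p.1 := by
    funext p
    unfold BB
    rw [hQ]
  have mQ : Measurable fun x => (Q x * Q x) k l := by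
    simp_rw [Matrix.mul_apply]
    exact Finset.measurable_fun_sum _ fun j _ => (cb_meas (hc k j)).mul (cb_meas (hc j l))
  have bQ : ∀ x, |(Q x * Q x) k l| ≤ n * c ^ 2 := by
    intro x
    have := BB_le hcb k l (x, (0 : E n))
    rw [e1] at this
    exact this
  unfold Rm Rc
  rw [Matrix.of_apply, Matrix.smul_apply, smul_eq_mul]
  unfold pe
  rw [wt_lp hf hQ hc, e1, Z_pJ hf hQ hc mQ bQ, sq2, div_eq_mul_inv, mul_comm]
  rfl

/-- `∫ f tr(Q² R) p = p_J |R|²` -/
theorem tr_pt {p : E n → E n → ℝ} {G h : E n → ℝ} [IsFiniteMeasure μ] (hp : Chan (gam n) p G h)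
    (hf : CBp f) (h1 : ∫ x, f x ∂μ = 1) (hQ : ∀ x, (Q x)ᵀ = Q x)
    (hc : ∀ i j, CB fun x => Q x i j) (y : E n) :
    ∫ x, f x * ((Q x * Q x * Rc μ f p (fun x => Q x * Q x) y).trace * p y x) ∂μ =
      pJ μ f p y * hs (Rc μ f p (fun x => Q x * Q x) y) := by
  obtain ⟨c, hcb⟩ := cb_bdd hc
  have mQ : ∀ k l, Measurable fun x => (Q x * Q x) k l := by
    intro k l
    simp_rw [Matrix.mul_apply]
    exact Finset.measurable_fun_sum _ fun j _ => (cb_meas (hc k j)).mul (cb_meas (hc j l))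
  have bQ : ∀ k l, ∃ C : ℝ, ∀ x, |(Q x * Q x) k l| ≤ C := by
    intro k l
    refine ⟨n * c ^ 2, fun x => ?_⟩
    have := BB_le hcb k l (x, (0 : E n))
    unfold BB at this
    rw [hQ] at this
    exact this
  have hs' : (Rc μ f p (fun x => Q x * Q x) y)ᵀ = Rc μ f p (fun x => Q x * Q x) y :=
    Rc_symm (fun x => by rw [Matrix.transpose_mul, hQ]) y
  have hJ := (pJ_bd hp hf h1 y).1
  have hRn : ∀ k l, ∫ x, f x * ((Q x * Q x) k l * p y x) ∂μ =
      pJ μ f p y * Rc μ f p (fun x => Q x * Q x) y k l := by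
    intro k l
    unfold Rc Rn
    rw [Matrix.smul_apply, Matrix.of_apply, smul_eq_mul, ← mul_assoc, mul_inv_cancel₀ hJ.ne',
      one_mul]
  set R := Rc μ f p (fun x => Q x * Q x) y with hR
  clear_value R
  have ii : ∀ k l, Integrable (fun x => R l k * (f x * ((Q x * Q x) k l * p y x))) μ := fun k l =>
    (int_x hp hf (mQ k l) (bQ k l) y).const_mul _
  have e : ∀ x, f x * ((Q x * Q x * R).trace * p y x) =
      ∑ k, ∑ l, R l k * (f x * ((Q x * Q x) k l * p y x)) := by
    intro x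
    rw [Matrix.trace]
    simp only [Matrix.diag_apply]
    rw [Finset.sum_mul, Finset.mul_sum]
    refine Finset.sum_congr rfl fun k _ => ?_
    rw [Matrix.mul_apply (M := Q x * Q x), Finset.sum_mul, Finset.mul_sum]
    exact Finset.sum_congr rfl fun l _ => by ring
  simp_rw [e]
  rw [integral_finsetSum _ fun k _ => integrable_finsetSum _ fun l _ => ii k l]
  unfold hs
  rw [Finset.mul_sum]
  refine Finset.sum_congr rfl fun k _ => ?_
  rw [integral_finsetSum _ fun l _ => ii k l, Finset.mul_sum]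
  refine Finset.sum_congr rfl fun l _ => ?_
  rw [integral_const_mul, hRn]
  have : R l k = R k l := by
    have := congrFun (congrFun hs' k) l
    rwa [Matrix.transpose_apply] at this
  rw [this]
  ring

/-- **(UNP)** -/
theorem unp : Ch150.UNP := by
  intro n μ _ f Q hf h1 hQ hQs
  have hc : ∀ i j, CB fun x => Q x i j := fun i j => hQ (i, j)
  have : IsProbabilityMeasure (μ.withDensity fun x => ENNReal.ofReal (f x)) := prob_fm hf h1
  obtain ⟨c, hcb⟩ := cb_bdd hc
  have hm : ∀ k l, Measurable fun x => Q x k l := fun k l => cb_meas (hc k l)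
  have h2 := Dis_le (μ := μ) hf hQs hc
  have h3 := stein_main (ν := μ.withDensity fun x => ENNReal.ofReal (f x)) hm hcb
  have e1 : Dis μ f 0 (Ms 1 Q) = Dis μ f 0 (fun x => 1 + Q x * Q x) := by
    congr 1
    funext x
    unfold Ms
    rw [one_smul]
  obtain ⟨G, h, hp⟩ := gchan (M := Ms 2 Q) (v := 0) (by
    have := MF_N hQs hc √2
    rw [sq2] at this
    exact this) (fun _ => Tw807.cb_const 0)
  have e2 : ET μ f (gam n) (lp 2 Q) (fun x => Q x * Q x) (Rc μ f (lp 2 Q) fun x => Q x * Q x) =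
      ∫ y, wt ((μ.withDensity fun x => ENNReal.ofReal (f x)).prod (gm n)) (ze Q) √2 y *
        hs (Rm (μ.withDensity fun x => ENNReal.ofReal (f x)) Q √2 y) ∂(gm n) := by
    unfold ET
    rw [gam_eq]
    refine integral_congr_ae (Eventually.of_forall fun y => ?_)
    simp only
    rw [wt_lp hf hQs hc, Rm_Rc hf hQs hc]
    exact tr_pt hp hf h1 hQs hc y
  unfold UNPp
  rw [e1, e2]
  linarith

/-- **block NS** -/
theorem ns_795 : L74.NS := ns_of unp

end Crest.Agent.R201.UNPB795
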