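import Crest.Agent.R201.NoState_674
import Crest.Agent.R201.EL3_676
import Crest.Agent.R201.UNP_795
import Crest.Agent.R201.St7_352
import Crest.Agent.R201.Hf5_391
import Crest.Agent.R201.Lps8_146
import Crest.Agent.R201.SB_839
import Crest.Agent.R201.Key_74
import Crest.Agent.R201.Fin4_293
import Crest.Agent.R201.CH_238
import Crest.Agent.R201.RG_786

/-!
# R201 (S0308): glue of all blocks (helper674)
-/

set_option autoImplicit false
open MeasureTheory

namespace Crest.Agent.R201.Top674

/-- the static theorem -/
theorem noState : L74.NoState :=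
  nostate RG786.rg_786 UNPB795.ns_795 (EL676.el676 CH238.ch_238)

theorem key : L74.Key :=
  L74.key_of noState St352.sl_352 Hf391.fl_391 Lps146.lb_146 SB839.sb_839

end Crest.Agent.R201.Top674
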