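import Crest.Agent.R201.An7_293

/-!
# R201 flow calculus: the class `T` of tame space-time functions (helper391)

Space-time points are `p = (s, y) : ℝ × E n`, times range over `(a, b)`.
`T a b m φ`: `φ` and all its derivatives up to order `m` are continuous on `{a < s < b}`, of
exponential growth in `y` uniformly in `s`, and `φ` is `m` times differentiable.
-/

set_option autoImplicit false
open MeasureTheory Matrix Filter Topology

namespace Crest.Agent.R201.Hf391

open Crest.Agent.R201 Crest.Agent.R201.An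

variable {n : ℕ} {a b : ℝ} {m : ℕ}

/-- space-time -/
abbrev ST (n : ℕ) := ℝ × E n

/-- time derivative -/
noncomputable def ds (φ : ST n → ℝ) (p : ST n) : ℝ := fderiv ℝ φ p ((1 : ℝ), (0 : E n))

/-- space derivative -/
noncomputable def dy (k : Fin n) (φ : ST n → ℝ) (p : ST n) : ℝ :=
  fderiv ℝ φ p ((0 : ℝ), (EuclideanSpace.single k (1 : ℝ) : E n))

/-- the open slab `a < s < b` -/
def Om (n : ℕ) (a b : ℝ) : Set (ST n) := {p | a < p.1 ∧ p.1 < b}

lemma Om_open : IsOpen (Om n a b) :=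
  (isOpen_lt continuous_const continuous_fst).inter (isOpen_lt continuous_fst continuous_const)

/-- level `0` of the class `T` -/
def T0 (a b : ℝ) (φ : ST n → ℝ) : Prop :=
  ContinuousOn φ (Om n a b) ∧ ∃ C : ℝ, 0 ≤ C ∧ ∀ p ∈ Om n a b, |φ p| ≤ C * Real.exp (C * ‖p.2‖)

/-- tame functions -/
def T (a b : ℝ) : ℕ → (ST n → ℝ) → Prop
  | 0, φ => T0 a b φ
  | m + 1, φ => T0 a b φ ∧ (∀ p ∈ Om n a b, DifferentiableAt ℝ φ p) ∧
      T a b m (ds φ) ∧ ∀ k, T a b m (dy k φ)

lemma T.t0 {φ : ST n → ℝ} (h : T a b m φ) : T0 a b φ := by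
  cases m with
  | zero => exact h
  | succ m => exact h.1

lemma T.diff {φ : ST n → ℝ} (h : T a b (m + 1) φ) : ∀ p ∈ Om n a b, DifferentiableAt ℝ φ p := h.2.1

lemma T.hds {φ : ST n → ℝ} (h : T a b (m + 1) φ) : T a b m (ds φ) := h.2.2.1

lemma T.hdy {φ : ST n → ℝ} (h : T a b (m + 1) φ) (k : Fin n) : T a b m (dy k φ) := h.2.2.2 k

lemma T.cont {φ : ST n → ℝ} (h : T a b m φ) : ContinuousOn φ (Om n a b) := h.t0.1

lemma T.bd {φ : ST n → ℝ} (h : T a b m φ) :
    ∃ C : ℝ, 0 ≤ C ∧ ∀ p ∈ Om n a b, |φ p| ≤ C * Real.exp (C * ‖p.2‖) := h.t0.2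

lemma T.pred : ∀ {m : ℕ} {φ : ST n → ℝ}, T a b (m + 1) φ → T a b m φ := by
  intro m
  induction m with
  | zero => intro φ h; exact h.1
  | succ m ih => intro φ h; exact ⟨h.1, h.2.1, ih h.2.2.1, fun k => ih (h.2.2.2 k)⟩

lemma T.le {φ : ST n → ℝ} {m m' : ℕ} (h : T a b m φ) (hm : m' ≤ m) : T a b m' φ := by
  induction m, hm using Nat.le_induction with
  | base => exact h
  | succ m hm ih => exact ih (T.pred h)

lemma T0.congr {φ ψ : ST n → ℝ} (h : T0 a b φ) (e : ∀ p ∈ Om n a b, ψ p = φ p) : T0 a b ψ := by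
  refine ⟨h.1.congr e, ?_⟩
  obtain ⟨C, hC, hb⟩ := h.2
  exact ⟨C, hC, fun p hp => by rw [e p hp]; exact hb p hp⟩

lemma evEq {φ ψ : ST n → ℝ} (e : ∀ p ∈ Om n a b, ψ p = φ p) {p : ST n} (hp : p ∈ Om n a b) :
    ψ =ᶠ[𝓝 p] φ := by
  filter_upwards [Om_open.mem_nhds hp] with q hq using e q hq

lemma ds_congr {φ ψ : ST n → ℝ} (e : ∀ p ∈ Om n a b, ψ p = φ p) :
    ∀ p ∈ Om n a b, ds ψ p = ds φ p := by
  intro p hp
  unfold ds
  rw [(evEq e hp).fderiv_eq]

lemma dy_congr {φ ψ : ST n → ℝ} (e : ∀ p ∈ Om n a b, ψ p = φ p) (k : Fin n) :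
    ∀ p ∈ Om n a b, dy k ψ p = dy k φ p := by
  intro p hp
  unfold dy
  rw [(evEq e hp).fderiv_eq]

lemma T.congr : ∀ {m : ℕ} {φ ψ : ST n → ℝ}, T a b m φ → (∀ p ∈ Om n a b, ψ p = φ p) → T a b m ψ := by
  intro m
  induction m with
  | zero => intro φ ψ h e; exact T0.congr h e
  | succ m ih =>
    intro φ ψ h e
    refine ⟨h.1.congr e, fun p hp => ?_, ih h.2.2.1 (ds_congr e), fun k => ih (h.2.2.2 k) (dy_congr e k)⟩
    exact (evEq e hp).differentiableAt_iff.2 (h.2.1 p hp)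

/-! ### algebra -/

lemma T0.const (c : ℝ) : T0 a b (fun _ : ST n => c) := by
  refine ⟨continuousOn_const, |c|, abs_nonneg c, fun p _ => ?_⟩
  have : 1 ≤ Real.exp (|c| * ‖p.2‖) := Real.one_le_exp (by positivity)
  nlinarith [abs_nonneg c]

lemma ds_const (c : ℝ) : ds (fun _ : ST n => c) = fun _ => 0 := by
  funext p; simp [ds]

lemma dy_const (c : ℝ) (k : Fin n) : dy k (fun _ : ST n => c) = fun _ => 0 := by
  funext p; simp [dy]

lemma T.const : ∀ (m : ℕ) (c : ℝ), T a b m (fun _ : ST n => c) := by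
  intro m
  induction m with
  | zero => intro c; exact T0.const c
  | succ m ih =>
    intro c
    refine ⟨T0.const c, fun p _ => by fun_prop, ?_, fun k => ?_⟩
    · rw [ds_const]; exact ih 0
    · rw [dy_const]; exact ih 0

lemma T0.add {φ ψ : ST n → ℝ} (h : T0 a b φ) (h' : T0 a b ψ) : T0 a b (fun p => φ p + ψ p) := by
  refine ⟨h.1.add h'.1, ?_⟩
  obtain ⟨C, hC, hb⟩ := h.2
  obtain ⟨C', hC', hb'⟩ := h'.2
  refine ⟨C + C', by positivity, fun p hp => ?_⟩
  have h1 := hb p hp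
  have h2 := hb' p hp
  have e1 : Real.exp (C * ‖p.2‖) ≤ Real.exp ((C + C') * ‖p.2‖) :=
    Real.exp_le_exp.2 (by nlinarith [norm_nonneg p.2])
  have e2 : Real.exp (C' * ‖p.2‖) ≤ Real.exp ((C + C') * ‖p.2‖) :=
    Real.exp_le_exp.2 (by nlinarith [norm_nonneg p.2])
  calc |φ p + ψ p| ≤ |φ p| + |ψ p| := abs_add_le _ _
    _ ≤ C * Real.exp ((C + C') * ‖p.2‖) + C' * Real.exp ((C + C') * ‖p.2‖) := by
        nlinarith
    _ = _ := by ring

lemma T0.mul {φ ψ : ST n → ℝ} (h : T0 a b φ) (h' : T0 a b ψ) : T0 a b (fun p => φ p * ψ p) := by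
  refine ⟨h.1.mul h'.1, ?_⟩
  obtain ⟨C, hC, hb⟩ := h.2
  obtain ⟨C', hC', hb'⟩ := h'.2
  refine ⟨C + C' + C * C', by positivity, fun p hp => ?_⟩
  have h1 := hb p hp
  have h2 := hb' p hp
  have e1 : Real.exp ((C + C') * ‖p.2‖) ≤ Real.exp ((C + C' + C * C') * ‖p.2‖) :=
    Real.exp_le_exp.2 (by
      have : 0 ≤ C * C' * ‖p.2‖ := by positivity
      nlinarith [norm_nonneg p.2])
  calc |φ p * ψ p| = |φ p| * |ψ p| := abs_mul _ _
    _ ≤ (C * Real.exp (C * ‖p.2‖)) * (C' * Real.exp (C' * ‖p.2‖)) :=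
        mul_le_mul h1 h2 (abs_nonneg _) (by positivity)
    _ = (C * C') * Real.exp ((C + C') * ‖p.2‖) := by rw [add_mul, Real.exp_add]; ring
    _ ≤ (C + C' + C * C') * Real.exp ((C + C' + C * C') * ‖p.2‖) :=
        mul_le_mul (by linarith) e1 (Real.exp_pos _).le (by positivity)

lemma ds_add {φ ψ : ST n → ℝ} {p : ST n} (h : DifferentiableAt ℝ φ p) (h' : DifferentiableAt ℝ ψ p) :
    ds (fun p => φ p + ψ p) p = ds φ p + ds ψ p := by
  unfold ds
  rw [fderiv_fun_add h h']; rfl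

lemma dy_add {φ ψ : ST n → ℝ} {p : ST n} (k : Fin n) (h : DifferentiableAt ℝ φ p)
    (h' : DifferentiableAt ℝ ψ p) :
    dy k (fun p => φ p + ψ p) p = dy k φ p + dy k ψ p := by
  unfold dy
  rw [fderiv_fun_add h h']; rfl

lemma ds_mul {φ ψ : ST n → ℝ} {p : ST n} (h : DifferentiableAt ℝ φ p) (h' : DifferentiableAt ℝ ψ p) :
    ds (fun p => φ p * ψ p) p = φ p * ds ψ p + ψ p * ds φ p := by
  unfold ds
  rw [fderiv_fun_mul h h']; rfl

lemma dy_mul {φ ψ : ST n → ℝ} {p : ST n} (k : Fin n) (h : DifferentiableAt ℝ φ p)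
    (h' : DifferentiableAt ℝ ψ p) :
    dy k (fun p => φ p * ψ p) p = φ p * dy k ψ p + ψ p * dy k φ p := by
  unfold dy
  rw [fderiv_fun_mul h h']; rfl

lemma T.add : ∀ {m : ℕ} {φ ψ : ST n → ℝ}, T a b m φ → T a b m ψ → T a b m (fun p => φ p + ψ p) := by
  intro m
  induction m with
  | zero => intro φ ψ h h'; exact T0.add h h'
  | succ m ih =>
    intro φ ψ h h'
    refine ⟨h.1.add h'.1, fun p hp => (h.diff p hp).add (h'.diff p hp), ?_, fun k => ?_⟩
    · exact (ih h.hds h'.hds).congr fun p hp => ds_add (h.diff p hp) (h'.diff p hp)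
    · exact (ih (h.hdy k) (h'.hdy k)).congr fun p hp => dy_add k (h.diff p hp) (h'.diff p hp)

lemma T.mul : ∀ {m : ℕ} {φ ψ : ST n → ℝ}, T a b m φ → T a b m ψ → T a b m (fun p => φ p * ψ p) := by
  intro m
  induction m with
  | zero => intro φ ψ h h'; exact T0.mul h h'
  | succ m ih =>
    intro φ ψ h h'
    refine ⟨h.1.mul h'.1, fun p hp => (h.diff p hp).mul (h'.diff p hp), ?_, fun k => ?_⟩
    · exact ((ih (T.pred h) h'.hds).add (ih (T.pred h') h.hds)).congr
        fun p hp => ds_mul (h.diff p hp) (h'.diff p hp)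
    · exact ((ih (T.pred h) (h'.hdy k)).add (ih (T.pred h') (h.hdy k))).congr
        fun p hp => dy_mul k (h.diff p hp) (h'.diff p hp)

lemma T.smul (c : ℝ) {φ : ST n → ℝ} (h : T a b m φ) : T a b m (fun p => c * φ p) :=
  (T.const m c).mul h

lemma T.neg {φ : ST n → ℝ} (h : T a b m φ) : T a b m (fun p => -φ p) :=
  (h.smul (-1)).congr fun p _ => by ring

lemma T.sub {φ ψ : ST n → ℝ} (h : T a b m φ) (h' : T a b m ψ) : T a b m (fun p => φ p - ψ p) :=
  (h.add h'.neg).congr fun p _ => by ring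

lemma T.sum {ι : Type*} (S : Finset ι) {φ : ι → ST n → ℝ} (h : ∀ i ∈ S, T a b m (φ i)) :
    T a b m (fun p => ∑ i ∈ S, φ i p) := by
  classical
  induction S using Finset.induction_on with
  | empty => simpa using T.const m 0
  | insert i S hi ih =>
    have := (h i (Finset.mem_insert_self _ _)).add (ih fun j hj => h j (Finset.mem_insert_of_mem hj))
    exact this.congr fun p _ => by rw [Finset.sum_insert hi]

lemma T.pow {φ : ST n → ℝ} (h : T a b m φ) : ∀ j : ℕ, T a b m (fun p => φ p ^ j) := by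
  intro j
  induction j with
  | zero => simpa using T.const m 1
  | succ j ih => exact (ih.mul h).congr fun p _ => pow_succ _ _

/-! ### coordinates -/

lemma hasFDerivAt_coord (k : Fin n) (p : ST n) :
    HasFDerivAt (fun p : ST n => p.2 k)
      ((EuclideanSpace.proj k : E n →L[ℝ] ℝ).comp (ContinuousLinearMap.snd ℝ ℝ (E n))) p :=
  ((EuclideanSpace.proj k : E n →L[ℝ] ℝ).comp (ContinuousLinearMap.snd ℝ ℝ (E n))).hasFDerivAt

lemma ds_coord (k : Fin n) : ds (fun p : ST n => p.2 k) = fun _ => 0 := by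
  funext p; unfold ds; rw [(hasFDerivAt_coord k p).fderiv]; simp

lemma dy_coord (l k : Fin n) : dy l (fun p : ST n => p.2 k) = fun _ => if k = l then 1 else 0 := by
  funext p; unfold dy; rw [(hasFDerivAt_coord k p).fderiv]
  simp

lemma T.coord (m : ℕ) (k : Fin n) : T a b m (fun p : ST n => p.2 k) := by
  have h0 : T0 a b (fun p : ST n => p.2 k) := by
    refine ⟨by fun_prop, 1, zero_le_one, fun p _ => ?_⟩
    have h1 : |p.2 k| ≤ ‖p.2‖ := by
      have := PiLp.norm_apply_le p.2 k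
      simpa using this
    have h2 := Real.add_one_le_exp (1 * ‖p.2‖)
    linarith
  cases m with
  | zero => exact h0
  | succ m =>
    refine ⟨h0, fun p _ => (hasFDerivAt_coord k p).differentiableAt, ?_, fun l => ?_⟩
    · rw [ds_coord]; exact T.const m 0
    · rw [dy_coord]; exact T.const m _

lemma T.time (m : ℕ) : T a b m (fun p : ST n => p.1) := by
  have h0 : T0 a b (fun p : ST n => p.1) := by
    refine ⟨by fun_prop, |a| + |b|, by positivity, fun p hp => ?_⟩
    have h1 : |p.1| ≤ |a| + |b| := by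
      rw [abs_le]
      have := hp.1; have := hp.2
      constructor
      · linarith [neg_abs_le a, abs_nonneg b]
      · linarith [le_abs_self b, abs_nonneg a]
    have : 1 ≤ Real.exp ((|a| + |b|) * ‖p.2‖) := Real.one_le_exp (by positivity)
    have h2 : 0 ≤ |a| + |b| := by positivity
    nlinarith
  have hd : ∀ p : ST n, HasFDerivAt (fun p : ST n => p.1) (ContinuousLinearMap.fst ℝ ℝ (E n)) p :=
    fun p => (ContinuousLinearMap.fst ℝ ℝ (E n)).hasFDerivAt
  cases m with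
  | zero => exact h0
  | succ m =>
    refine ⟨h0, fun p _ => (hd p).differentiableAt, ?_, fun l => ?_⟩
    · have : ds (fun p : ST n => p.1) = fun _ => 1 := by
        funext p; unfold ds; rw [(hd p).fderiv]; simp
      rw [this]; exact T.const m 1
    · have : dy l (fun p : ST n => p.1) = fun _ => 0 := by
        funext p; unfold dy; rw [(hd p).fderiv]; simp
      rw [this]; exact T.const m 0

/-! ### composition with a function of one variable -/

lemma ds_comp {φ : ST n → ℝ} {p : ST n} {g : ℝ → ℝ} {g' : ℝ} (h : DifferentiableAt ℝ φ p)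
    (hg : HasDerivAt g g' (φ p)) : ds (fun p => g (φ p)) p = g' * ds φ p := by
  unfold ds
  have := hg.comp_hasFDerivAt p h.hasFDerivAt
  rw [show (fun p => g (φ p)) = g ∘ φ from rfl, this.fderiv]; simp

lemma dy_comp {φ : ST n → ℝ} {p : ST n} (k : Fin n) {g : ℝ → ℝ} {g' : ℝ}
    (h : DifferentiableAt ℝ φ p) (hg : HasDerivAt g g' (φ p)) :
    dy k (fun p => g (φ p)) p = g' * dy k φ p := by
  unfold dy
  have := hg.comp_hasFDerivAt p h.hasFDerivAt
  rw [show (fun p => g (φ p)) = g ∘ φ from rfl, this.fderiv]; simp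

/-- inverse of a function bounded below -/
lemma T.inv {c : ℝ} (hc : 0 < c) : ∀ {m : ℕ} {φ : ST n → ℝ}, T a b m φ →
    (∀ p ∈ Om n a b, c ≤ φ p) → T a b m (fun p => (φ p)⁻¹) := by
  have base : ∀ {φ : ST n → ℝ}, T0 a b φ → (∀ p ∈ Om n a b, c ≤ φ p) →
      T0 a b (fun p => (φ p)⁻¹) := by
    intro φ h hφ
    refine ⟨h.1.inv₀ fun p hp => (hc.trans_le (hφ p hp)).ne', c⁻¹, by positivity, fun p hp => ?_⟩
    have h0 : 0 < φ p := hc.trans_le (hφ p hp)
    rw [abs_of_pos (inv_pos.2 h0)]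
    have h1 : (φ p)⁻¹ ≤ c⁻¹ := inv_anti₀ hc (hφ p hp)
    have h2 : 1 ≤ Real.exp (c⁻¹ * ‖p.2‖) := Real.one_le_exp (by positivity)
    have h3 : 0 < c⁻¹ := by positivity
    nlinarith
  intro m
  induction m with
  | zero => intro φ h hφ; exact base h hφ
  | succ m ih =>
    intro φ h hφ
    have hne : ∀ p ∈ Om n a b, φ p ≠ 0 := fun p hp => (hc.trans_le (hφ p hp)).ne'
    have hi : T a b m (fun p => (φ p)⁻¹) := ih (T.pred h) hφ
    refine ⟨base h.1 hφ, fun p hp => (h.diff p hp).inv (hne p hp), ?_, fun k => ?_⟩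
    · refine (((hi.mul hi).mul h.hds).neg).congr fun p hp => ?_
      rw [ds_comp (h.diff p hp) (hasDerivAt_inv (hne p hp))]
      ring
    · refine (((hi.mul hi).mul (h.hdy k)).neg).congr fun p hp => ?_
      rw [dy_comp k (h.diff p hp) (hasDerivAt_inv (hne p hp))]
      ring

/-- logarithm of a function bounded below -/
lemma T.log {c : ℝ} (hc : 0 < c) {φ : ST n → ℝ} (h : T a b m φ)
    (hφ : ∀ p ∈ Om n a b, c ≤ φ p) : T a b m (fun p => Real.log (φ p)) := by
  have hne : ∀ p ∈ Om n a b, φ p ≠ 0 := fun p hp => (hc.trans_le (hφ p hp)).ne'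
  have base : T0 a b (fun p => Real.log (φ p)) := by
    refine ⟨h.cont.log hne, ?_⟩
    obtain ⟨C, hC, hb⟩ := h.bd
    refine ⟨|Real.log c| + C, by positivity, fun p hp => ?_⟩
    have h0 : 0 < φ p := hc.trans_le (hφ p hp)
    have h1 : Real.log c ≤ Real.log (φ p) := Real.log_le_log hc (hφ p hp)
    have h2 : Real.log (φ p) ≤ φ p := (Real.log_le_sub_one_of_pos h0).trans (by linarith)
    have h3 : φ p ≤ C * Real.exp (C * ‖p.2‖) := (le_abs_self _).trans (hb p hp)
    have e1 : Real.exp (C * ‖p.2‖) ≤ Real.exp ((|Real.log c| + C) * ‖p.2‖) :=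
      Real.exp_le_exp.2 (by nlinarith [norm_nonneg p.2, abs_nonneg (Real.log c)])
    have e2 : 1 ≤ Real.exp ((|Real.log c| + C) * ‖p.2‖) := Real.one_le_exp (by positivity)
    have h4 : C * Real.exp (C * ‖p.2‖) ≤ C * Real.exp ((|Real.log c| + C) * ‖p.2‖) :=
      mul_le_mul_of_nonneg_left e1 hC
    have h5 : |Real.log c| ≤ |Real.log c| * Real.exp ((|Real.log c| + C) * ‖p.2‖) := by
      nlinarith [abs_nonneg (Real.log c)]
    rw [abs_le, add_mul]
    constructor
    · have := neg_abs_le (Real.log c)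
      have : 0 ≤ C * Real.exp ((|Real.log c| + C) * ‖p.2‖) := by positivity
      linarith
    · have : 0 ≤ |Real.log c| * Real.exp ((|Real.log c| + C) * ‖p.2‖) := by positivity
      linarith
  cases m with
  | zero => exact base
  | succ m =>
    have hi : T a b m (fun p => (φ p)⁻¹) := T.inv hc (T.pred h) hφ
    refine ⟨base, fun p hp => (h.diff p hp).log (hne p hp), ?_, fun k => ?_⟩
    · refine (hi.mul h.hds).congr fun p hp => ?_
      rw [ds_comp (h.diff p hp) (Real.hasDerivAt_log (hne p hp))]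
    · refine (hi.mul (h.hdy k)).congr fun p hp => ?_
      rw [dy_comp k (h.diff p hp) (Real.hasDerivAt_log (hne p hp))]

/-! ### symmetry of second derivatives -/

lemma st_eq_sum (v : ST n) : v = v.1 • ((1 : ℝ), (0 : E n)) +
    ∑ k, v.2 k • ((0 : ℝ), (EuclideanSpace.single k (1 : ℝ) : E n)) := by
  have h : v.2 = ∑ k, v.2 k • (EuclideanSpace.single k (1 : ℝ) : E n) := vec_eq_sum v.2
  refine Prod.ext ?_ ?_
  · simp [Prod.fst_sum]
  · simp only [Prod.snd_add, Prod.smul_snd, smul_zero, zero_add, Prod.snd_sum]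
    exact h

lemma fderiv_eq (φ : ST n → ℝ) (p v : ST n) :
    fderiv ℝ φ p v = v.1 * ds φ p + ∑ k, v.2 k * dy k φ p := by
  conv_lhs => rw [st_eq_sum v]
  rw [map_add, map_smul, map_sum]
  simp only [map_smul, smul_eq_mul]
  rfl

/-- the linear form `v ↦ v.1 a + ∑ v_k b_k` -/
noncomputable def lf (α : ℝ) (β : Fin n → ℝ) : ST n →L[ℝ] ℝ :=
  α • ContinuousLinearMap.fst ℝ ℝ (E n) +
    ∑ k, β k • ((EuclideanSpace.proj k : E n →L[ℝ] ℝ).comp (ContinuousLinearMap.snd ℝ ℝ (E n)))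

lemma lf_apply (α : ℝ) (β : Fin n → ℝ) (v : ST n) : lf α β v = v.1 * α + ∑ k, v.2 k * β k := by
  simp [lf, mul_comm]

lemma fderiv_eq_lf (φ : ST n → ℝ) (p : ST n) : fderiv ℝ φ p = lf (ds φ p) fun k => dy k φ p := by
  ext v <;> simp [fderiv_eq, lf_apply]

lemma T.diff2 {φ : ST n → ℝ} (h : T a b (m + 2) φ) {p : ST n} (hp : p ∈ Om n a b) :
    DifferentiableAt ℝ (fderiv ℝ φ) p := by
  have e : fderiv ℝ φ = fun p => lf (ds φ p) fun k => dy k φ p := funext fun p => fderiv_eq_lf φ p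
  rw [e]
  unfold lf
  have h1 := h.hds.diff p hp
  have h2 := fun k => (h.hdy k).diff p hp
  fun_prop

lemma symm2 {φ : ST n → ℝ} (h : T a b (m + 2) φ) {p : ST n} (hp : p ∈ Om n a b) (u v : ST n) :
    fderiv ℝ (fderiv ℝ φ) p u v = fderiv ℝ (fderiv ℝ φ) p v u := by
  refine second_derivative_symmetric_of_eventually (f' := fderiv ℝ φ) (f := φ) (x := p) ?_
    (h.diff2 hp).hasFDerivAt u v
  filter_upwards [Om_open.mem_nhds hp] with q hq using
    (T.diff (m := m + 1) h q hq).hasFDerivAt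

lemma fderiv_apply_const {φ : ST n → ℝ} (h : T a b (m + 2) φ) {p : ST n} (hp : p ∈ Om n a b)
    (u v : ST n) : fderiv ℝ (fun q => fderiv ℝ φ q v) p u = fderiv ℝ (fderiv ℝ φ) p u v := by
  have h1 := (h.diff2 hp).hasFDerivAt.clm_apply (hasFDerivAt_const v p)
  rw [h1.fderiv]; simp

lemma ds_dy {φ : ST n → ℝ} (h : T a b (m + 2) φ) (k : Fin n) {p : ST n} (hp : p ∈ Om n a b) :
    ds (dy k φ) p = dy k (ds φ) p := by
  change fderiv ℝ (fun q => fderiv ℝ φ q _) p _ = fderiv ℝ (fun q => fderiv ℝ φ q _) p _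
  rw [fderiv_apply_const h hp, fderiv_apply_const h hp, symm2 h hp]

lemma dy_dy {φ : ST n → ℝ} (h : T a b (m + 2) φ) (j k : Fin n) {p : ST n} (hp : p ∈ Om n a b) :
    dy j (dy k φ) p = dy k (dy j φ) p := by
  change fderiv ℝ (fun q => fderiv ℝ φ q _) p _ = fderiv ℝ (fun q => fderiv ℝ φ q _) p _
  rw [fderiv_apply_const h hp, fderiv_apply_const h hp, symm2 h hp]

/-! ### slices -/

lemma mem_Om {s : ℝ} (hs : a < s ∧ s < b) (y : E n) : (s, y) ∈ Om n a b := hs

lemma hasFDerivAt_slice {φ : ST n → ℝ} {s : ℝ} {y : E n} (h : DifferentiableAt ℝ φ (s, y)) :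
    HasFDerivAt (fun y => φ (s, y)) ((fderiv ℝ φ (s, y)).comp (ContinuousLinearMap.inr ℝ ℝ (E n))) y := by
  have h1 : HasFDerivAt (fun y : E n => ((s, y) : ST n)) (ContinuousLinearMap.inr ℝ ℝ (E n)) y :=
    hasFDerivAt_prodMk_right s y
  exact h.hasFDerivAt.comp y h1

lemma pd_slice {φ : ST n → ℝ} {s : ℝ} {y : E n} (k : Fin n) (h : DifferentiableAt ℝ φ (s, y)) :
    pd k (fun y => φ (s, y)) y = dy k φ (s, y) := by
  unfold pd dy
  rw [(hasFDerivAt_slice h).fderiv]; simp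

lemma hasDerivAt_slice {φ : ST n → ℝ} {s : ℝ} {y : E n} (h : DifferentiableAt ℝ φ (s, y)) :
    HasDerivAt (fun s => φ (s, y)) (ds φ (s, y)) s := by
  have h1 : HasDerivAt (fun s : ℝ => ((s, y) : ST n)) ((1 : ℝ), (0 : E n)) s :=
    (hasDerivAt_id s).prodMk (hasDerivAt_const s y)
  exact h.hasFDerivAt.comp_hasDerivAt s h1

lemma T.slice_cont {φ : ST n → ℝ} (h : T a b m φ) {s : ℝ} (hs : a < s ∧ s < b) :
    Continuous fun y => φ (s, y) := by
  refine continuous_iff_continuousAt.2 fun y => ?_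
  have h1 : ContinuousAt φ (s, y) := h.cont.continuousAt (Om_open.mem_nhds (mem_Om hs y))
  exact ContinuousAt.comp (f := fun y : E n => ((s, y) : ST n)) h1 (by fun_prop)

lemma T.slice_EG {φ : ST n → ℝ} (h : T a b m φ) {s : ℝ} (hs : a < s ∧ s < b) :
    EG fun y => φ (s, y) := by
  obtain ⟨C, hC, hb⟩ := h.bd
  exact ⟨(h.slice_cont hs).measurable, C, C, hC, hC, fun y => hb (s, y) hs⟩

lemma T.slice_diff {φ : ST n → ℝ} (h : T a b (m + 1) φ) {s : ℝ} (hs : a < s ∧ s < b) :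
    Differentiable ℝ fun y => φ (s, y) := fun y =>
  (hasFDerivAt_slice (h.diff (s, y) hs)).differentiableAt

end Crest.Agent.R201.Hf391
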