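import Crest.Agent.R201.Hf1_391

/-!
# R201 flow calculus: the posterior means `pE w s F y` are tame in `(s, y)` (helper391)
-/

set_option autoImplicit false
open MeasureTheory Matrix Filter Topology
open scoped RealInnerProductSpace

namespace Crest.Agent.R201.Hf391

open Crest.Agent.R201 Crest.Agent.R201.An

variable {n : ℕ} {a b : ℝ} {w F G : E n → ℝ} {s c R : ℝ}

/-! ### joint differentiation of `Lp` -/

/-- derivative of the kernel in `(s, y)` -/
noncomputable def gkD (s : ℝ) (z : E n) : ST n →L[ℝ] ℝ :=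
  gk s z • ((‖z‖ ^ 2 / (2 * s ^ 2)) • ContinuousLinearMap.fst ℝ ℝ (E n) -
    (1 / s) • (innerSL ℝ z).comp (ContinuousLinearMap.snd ℝ ℝ (E n)))

lemma gk_joint (x : E n) {p : ST n} (hp : 0 < p.1) :
    HasFDerivAt (fun p : ST n => gk p.1 (p.2 - x)) (gkD p.1 (p.2 - x)) p := by
  have h1 : HasFDerivAt (fun p : ST n => p.2 - x) (ContinuousLinearMap.snd ℝ ℝ (E n)) p :=
    (ContinuousLinearMap.snd ℝ ℝ (E n)).hasFDerivAt.sub_const x
  have h2 : HasFDerivAt (fun z : E n => ‖z‖ ^ 2) ((2 : ℝ) • innerSL ℝ (p.2 - x)) (p.2 - x) := by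
    have := (hasStrictFDerivAt_norm_sq (p.2 - x)).hasFDerivAt
    convert! this using 1
    ext v
    simp [two_smul]
  have h3 : HasFDerivAt (fun p : ST n => ‖p.2 - x‖ ^ 2)
      (((2 : ℝ) • innerSL ℝ (p.2 - x)).comp (ContinuousLinearMap.snd ℝ ℝ (E n))) p :=
    HasFDerivAt.comp (g := fun z : E n => ‖z‖ ^ 2) (f := fun p : ST n => p.2 - x) p h2 h1
  have h4 : HasFDerivAt (fun p : ST n => (2 * p.1)) ((2 : ℝ) • ContinuousLinearMap.fst ℝ ℝ (E n)) p :=
    (ContinuousLinearMap.fst ℝ ℝ (E n)).hasFDerivAt.const_mul 2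
  have h5 : HasFDerivAt (fun p : ST n => (2 * p.1)⁻¹)
      ((-((2 * p.1) ^ 2)⁻¹) • ((2 : ℝ) • ContinuousLinearMap.fst ℝ ℝ (E n))) p :=
    (hasDerivAt_inv (by positivity : (2 * p.1) ≠ 0)).comp_hasFDerivAt p h4
  have h6 := ((h3.mul h5).neg).exp
  have e : (fun p : ST n => gk p.1 (p.2 - x)) = fun p : ST n =>
      Real.exp ((-((fun p : ST n => ‖p.2 - x‖ ^ 2) * fun p : ST n => (2 * p.1)⁻¹)) p) := by
    funext q
    simp only [gk, Pi.neg_apply, Pi.mul_apply, div_eq_mul_inv]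
  have e' : Real.exp ((-((fun p : ST n => ‖p.2 - x‖ ^ 2) * fun p : ST n => (2 * p.1)⁻¹)) p) =
      gk p.1 (p.2 - x) := by
    simp only [gk, Pi.neg_apply, Pi.mul_apply, div_eq_mul_inv]
  rw [e'] at h6
  rw [e]
  refine h6.congr_fderiv ?_
  have hp' : p.1 ≠ 0 := hp.ne'
  unfold gkD
  congr 1
  refine ContinuousLinearMap.ext fun v => ?_
  simp only [_root_.neg_apply, _root_.add_apply, _root_.sub_apply, _root_.smul_apply, smul_eq_mul,
    ContinuousLinearMap.comp_apply, ContinuousLinearMap.coe_fst', ContinuousLinearMap.coe_snd',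
    innerSL_apply_apply]
  field_simp
  ring

lemma gkD_apply (s : ℝ) (z : E n) (v : ST n) :
    gkD s z v = gk s z * (‖z‖ ^ 2 / (2 * s ^ 2) * v.1 - (1 / s) * ∑ k, z k * v.2 k) := by
  have e2 : (inner ℝ z v.2 : ℝ) = ∑ k, z k * v.2 k := by
    rw [PiLp.inner_apply]
    exact Finset.sum_congr rfl fun k _ => by simp [mul_comm]
  simp [gkD, e2]

lemma gkD_norm_le {s s₁ : ℝ} (hs₁ : 0 < s₁) (h : s₁ ≤ s) (z : E n) :
    ‖gkD s z‖ ≤ (1 / (2 * s₁ ^ 2) + 1 / s₁) * Real.exp (2 * ‖z‖) := by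
  have hs : 0 < s := hs₁.trans_le h
  refine ContinuousLinearMap.opNorm_le_bound _ (by positivity) fun v => ?_
  have h1 : ‖v.1‖ ≤ ‖v‖ := norm_fst_le v
  have h2 : ‖v.2‖ ≤ ‖v‖ := norm_snd_le v
  have e : gkD s z v = gk s z * (‖z‖ ^ 2 / (2 * s ^ 2) * v.1 - (1 / s) * inner ℝ z v.2) := by
    simp [gkD]
  rw [e, norm_mul, Real.norm_eq_abs, abs_of_pos (gk_pos s z)]
  have h3 : gk s z ≤ 1 := gk_le_one hs z
  have h4 : ‖‖z‖ ^ 2 / (2 * s ^ 2) * v.1 - (1 / s) * inner ℝ z v.2‖ ≤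
      (1 / (2 * s₁ ^ 2) + 1 / s₁) * Real.exp (2 * ‖z‖) * ‖v‖ := by
    refine (norm_sub_le _ _).trans ?_
    rw [norm_mul, norm_mul, Real.norm_of_nonneg (by positivity : 0 ≤ ‖z‖ ^ 2 / (2 * s ^ 2)),
      Real.norm_of_nonneg (by positivity : 0 ≤ 1 / s)]
    have h5 : ‖(inner ℝ z v.2 : ℝ)‖ ≤ ‖z‖ * ‖v‖ :=
      (norm_inner_le_norm z v.2).trans (by gcongr)
    have h6 : ‖z‖ ≤ Real.exp (‖z‖) := by linarith [Real.add_one_le_exp ‖z‖]
    have h7 : ‖z‖ ^ 2 ≤ Real.exp (2 * ‖z‖) := by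
      calc ‖z‖ ^ 2 ≤ Real.exp ‖z‖ ^ 2 := by gcongr
        _ = Real.exp (2 * ‖z‖) := by rw [← Real.exp_nat_mul]; norm_num
    have h8 : ‖z‖ ≤ Real.exp (2 * ‖z‖) := h6.trans (Real.exp_le_exp.2 (by linarith [norm_nonneg z]))
    calc ‖z‖ ^ 2 / (2 * s ^ 2) * ‖v.1‖ + 1 / s * ‖(inner ℝ z v.2 : ℝ)‖
        ≤ Real.exp (2 * ‖z‖) / (2 * s₁ ^ 2) * ‖v‖ + 1 / s₁ * (‖z‖ * ‖v‖) := by gcongr
      _ ≤ Real.exp (2 * ‖z‖) / (2 * s₁ ^ 2) * ‖v‖ + 1 / s₁ * (Real.exp (2 * ‖z‖) * ‖v‖) := by gcongr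
      _ = _ := by ring
  calc gk s z * ‖‖z‖ ^ 2 / (2 * s ^ 2) * v.1 - (1 / s) * inner ℝ z v.2‖
      ≤ 1 * ‖‖z‖ ^ 2 / (2 * s ^ 2) * v.1 - (1 / s) * inner ℝ z v.2‖ := by gcongr
    _ ≤ _ := by rw [one_mul]; exact h4

lemma gkD_meas (s : ℝ) (y : E n) : Measurable fun x : E n => gkD s (y - x) := by
  refine Continuous.measurable ?_
  have h1 : Continuous fun x : E n => y - x := by fun_prop
  have h2 : Continuous fun z : E n => gkD s z := by
    unfold gkD
    refine Continuous.smul (gk_cont s) ?_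
    refine Continuous.sub ?_ ?_
    · exact Continuous.smul (by fun_prop : Continuous fun z : E n => ‖z‖ ^ 2 / (2 * s ^ 2))
        continuous_const
    · refine Continuous.const_smul ?_ (1 / s)
      exact Continuous.clm_comp (innerSL ℝ (E := E n)).continuous continuous_const
  exact h2.comp h1

attribute [irreducible] gkD

/-- the time coefficient -/
noncomputable def LpS (w : E n → ℝ) (s : ℝ) (F : E n → ℝ) (y : E n) : ℝ :=
  (Lp w s (fun x => F x * ‖x‖ ^ 2) y - 2 * (∑ k, y k * Lp w s (fun x => F x * x k) y) +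
    ‖y‖ ^ 2 * Lp w s F y) / (2 * s ^ 2)

lemma EG.nsq : EG fun x : E n => ‖x‖ ^ 2 := by
  simpa [sq] using EG.norm.mul EG.norm

set_option maxHeartbeats 1000000 in
theorem hasFDerivAt_Lq (hw : Ex w) (hF : EG F) {p : ST n} (hp : 0 < p.1) :
    HasFDerivAt (fun p : ST n => Lp w p.1 F p.2)
      (lf (LpS w p.1 F p.2) fun k => (Lp w p.1 (fun x => F x * x k) p.2 - p.2 k * Lp w p.1 F p.2) / p.1)
      p := by
  obtain ⟨s₀, y₀⟩ := p
  simp only at hp ⊢
  obtain ⟨mF, C, a, hC, ha, h⟩ := id hF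
  have mw := hw.meas
  have mg : ∀ (s : ℝ) (y : E n), Measurable fun x : E n => gk s (y - x) := fun s y =>
    (gk_cont (n := n) s).measurable.comp (measurable_const.sub measurable_id)
  set K : ℝ := 1 / (2 * (s₀ / 2) ^ 2) + 1 / (s₀ / 2) with hK
  have hK0 : 0 ≤ K := by positivity
  let F₁ : ST n → E n → ℝ := fun p x => F x * (w x * gk p.1 (p.2 - x))
  let F' : ST n → E n → (ST n →L[ℝ] ℝ) := fun p x => (F x * w x) • gkD p.1 (p.2 - x)
  have key : HasFDerivAt (fun p : ST n => ∫ x, F₁ p x) (∫ x, F' (s₀, y₀) x) (s₀, y₀) := by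
    refine hasFDerivAt_integral_of_dominated_of_fderiv_le (F := F₁) (F' := F')
      (x₀ := ((s₀, y₀) : ST n))
      (s := Metric.ball ((s₀, y₀) : ST n) (min 1 (s₀ / 2)))
      (bound := fun x => K * (C * (Real.exp (2 * (‖y₀‖ + 1)) * (Real.exp ((a + 2) * ‖x‖) * w x))))
      (Metric.ball_mem_nhds _ (by positivity)) ?_ (hw.int_Lp hp hF y₀) ?_ ?_ ?_ ?_
    · exact Eventually.of_forall fun p => (mF.mul (mw.mul (mg _ _))).aestronglyMeasurable
    · exact ((mF.mul mw).smul (gkD_meas _ _)).aestronglyMeasurable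
    · refine ae_of_all _ fun x q hq => ?_
      have hq' := mem_ball_iff_norm.1 hq
      have hq1 : ‖q.1 - s₀‖ ≤ ‖q - (s₀, y₀)‖ := norm_fst_le (q - (s₀, y₀))
      have hq2 : ‖q.2 - y₀‖ ≤ ‖q - (s₀, y₀)‖ := norm_snd_le (q - (s₀, y₀))
      have hs1 : s₀ / 2 ≤ q.1 := by
        have : |q.1 - s₀| < s₀ / 2 := by
          rw [← Real.norm_eq_abs]
          exact (hq1.trans_lt hq').trans_le (min_le_right _ _)
        linarith [(abs_lt.1 this).1]
      have h2 : ‖q.2 - x‖ ≤ ‖y₀‖ + 1 + ‖x‖ := by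
        have h3 : ‖q.2 - y₀‖ < 1 := (hq2.trans_lt hq').trans_le (min_le_left _ _)
        calc ‖q.2 - x‖ = ‖(q.2 - y₀) + y₀ - x‖ := by congr 1; abel
          _ ≤ ‖(q.2 - y₀) + y₀‖ + ‖x‖ := norm_sub_le _ _
          _ ≤ ‖q.2 - y₀‖ + ‖y₀‖ + ‖x‖ := by gcongr; exact norm_add_le _ _
          _ ≤ _ := by linarith
      show ‖(F x * w x) • gkD q.1 (q.2 - x)‖ ≤ _
      rw [norm_smul, norm_mul, Real.norm_eq_abs, Real.norm_eq_abs, abs_of_nonneg (hw.nonneg x)]
      have h5 := gkD_norm_le (by positivity : 0 < s₀ / 2) hs1 (q.2 - x)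
      have h6 := hw.nonneg x
      calc |F x| * w x * ‖gkD q.1 (q.2 - x)‖
          ≤ (C * Real.exp (a * ‖x‖)) * w x * (K * Real.exp (2 * ‖q.2 - x‖)) := by
            gcongr
            exact h x
        _ ≤ (C * Real.exp (a * ‖x‖)) * w x * (K * Real.exp (2 * (‖y₀‖ + 1 + ‖x‖))) := by
            gcongr
        _ = _ := by
            rw [show (a + 2) * ‖x‖ = a * ‖x‖ + 2 * ‖x‖ by ring, Real.exp_add (a * ‖x‖),
              show 2 * (‖y₀‖ + 1 + ‖x‖) = 2 * (‖y₀‖ + 1) + 2 * ‖x‖ by ring,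
              Real.exp_add (2 * (‖y₀‖ + 1))]
            ring
    · exact (((hw.int (a + 2)).const_mul _).const_mul _).const_mul _
    · refine ae_of_all _ fun x q hq => ?_
      have hq' := mem_ball_iff_norm.1 hq
      have hq1 : ‖q.1 - s₀‖ ≤ ‖q - (s₀, y₀)‖ := norm_fst_le (q - (s₀, y₀))
      have hs1 : 0 < q.1 := by
        have : |q.1 - s₀| < s₀ / 2 := by
          rw [← Real.norm_eq_abs]
          exact (hq1.trans_lt hq').trans_le (min_le_right _ _)
        linarith [(abs_lt.1 this).1]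
      have := (gk_joint x hs1).const_mul (F x * w x)
      refine this.congr_of_eventuallyEq (Eventually.of_forall fun z => ?_)
      show F x * (w x * gk z.1 (z.2 - x)) = F x * w x * gk z.1 (z.2 - x)
      ring
  have hint : Integrable fun x => (F x * w x) • gkD s₀ (y₀ - x) := by
    refine Integrable.mono' (g := fun x => K * (C * (Real.exp (2 * (‖y₀‖ + 1)) *
      (Real.exp ((a + 2) * ‖x‖) * w x)))) ((((hw.int (a + 2)).const_mul _).const_mul _).const_mul _)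
      ((mF.mul mw).smul (gkD_meas _ _)).aestronglyMeasurable (ae_of_all _ fun x => ?_)
    rw [norm_smul, norm_mul, Real.norm_eq_abs, Real.norm_eq_abs, abs_of_nonneg (hw.nonneg x)]
    have h5 := gkD_norm_le (by positivity : 0 < s₀ / 2) (by linarith : s₀ / 2 ≤ s₀) (y₀ - x)
    have h6 := hw.nonneg x
    have h2 : ‖y₀ - x‖ ≤ ‖y₀‖ + 1 + ‖x‖ := (norm_sub_le _ _).trans (by linarith)
    calc |F x| * w x * ‖gkD s₀ (y₀ - x)‖
        ≤ (C * Real.exp (a * ‖x‖)) * w x * (K * Real.exp (2 * ‖y₀ - x‖)) := by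
          gcongr
          exact h x
      _ ≤ (C * Real.exp (a * ‖x‖)) * w x * (K * Real.exp (2 * (‖y₀‖ + 1 + ‖x‖))) := by
          gcongr
      _ = _ := by
          rw [show (a + 2) * ‖x‖ = a * ‖x‖ + 2 * ‖x‖ by ring, Real.exp_add (a * ‖x‖),
            show 2 * (‖y₀‖ + 1 + ‖x‖) = 2 * (‖y₀‖ + 1) + 2 * ‖x‖ by ring,
            Real.exp_add (2 * (‖y₀‖ + 1))]
          ring
  have e : (∫ x, (F x * w x) • gkD s₀ (y₀ - x)) = lf (LpS w s₀ F y₀)
      fun k => (Lp w s₀ (fun x => F x * x k) y₀ - y₀ k * Lp w s₀ F y₀) / s₀ := by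
    refine ContinuousLinearMap.ext fun v => ?_
    rw [ContinuousLinearMap.integral_apply hint, lf_apply]
    have i1 : ∀ k, Integrable fun x => F x * x k * (w x * gk s₀ (y₀ - x)) := fun k =>
      hw.int_Lp hp (hF.mul (EG.coord k)) y₀
    have i2 := hw.int_Lp hp hF y₀
    have i3 : Integrable fun x => F x * ‖x‖ ^ 2 * (w x * gk s₀ (y₀ - x)) :=
      hw.int_Lp hp (hF.mul EG.nsq) y₀
    have e1 : ∀ x, ((F x * w x) • gkD s₀ (y₀ - x)) v =
        (v.1 / (2 * s₀ ^ 2)) * ((F x * ‖x‖ ^ 2 * (w x * gk s₀ (y₀ - x)) -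
          2 * ∑ k, y₀ k * (F x * x k * (w x * gk s₀ (y₀ - x)))) +
          ‖y₀‖ ^ 2 * (F x * (w x * gk s₀ (y₀ - x)))) +
        ∑ k, (v.2 k / s₀) * (F x * x k * (w x * gk s₀ (y₀ - x)) -
          y₀ k * (F x * (w x * gk s₀ (y₀ - x)))) := by
      intro x
      have e2 : ‖y₀ - x‖ ^ 2 = ‖x‖ ^ 2 - 2 * (∑ k, y₀ k * x k) + ‖y₀‖ ^ 2 := by
        have : (inner ℝ y₀ x : ℝ) = ∑ k, y₀ k * x k := by
          rw [PiLp.inner_apply]
          exact Finset.sum_congr rfl fun k _ => by simp [mul_comm]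
        rw [norm_sub_sq_real, this]; ring
      rw [_root_.smul_apply, gkD_apply, smul_eq_mul, e2]
      have e3 : ∑ k, y₀ k * (F x * x k * (w x * gk s₀ (y₀ - x))) =
          (F x * (w x * gk s₀ (y₀ - x))) * ∑ k, y₀ k * x k := by
        rw [Finset.mul_sum]; exact Finset.sum_congr rfl fun k _ => by ring
      have e4 : ∑ k, (v.2 k / s₀) * (F x * x k * (w x * gk s₀ (y₀ - x)) -
          y₀ k * (F x * (w x * gk s₀ (y₀ - x)))) =
          -((F x * (w x * gk s₀ (y₀ - x))) * ((1 / s₀) * ∑ k, (y₀ - x) k * v.2 k)) := by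
        rw [Finset.mul_sum, Finset.mul_sum, ← Finset.sum_neg_distrib]
        refine Finset.sum_congr rfl fun k _ => ?_
        simp only [PiLp.sub_apply]
        ring
      rw [e3, e4]
      ring
    rw [integral_congr_ae (ae_of_all _ e1)]
    have i4 : Integrable fun x => (F x * ‖x‖ ^ 2 * (w x * gk s₀ (y₀ - x)) -
          2 * ∑ k, y₀ k * (F x * x k * (w x * gk s₀ (y₀ - x)))) +
          ‖y₀‖ ^ 2 * (F x * (w x * gk s₀ (y₀ - x))) :=
      (i3.sub ((integrable_finsetSum _ fun k _ => (i1 k).const_mul (y₀ k)).const_mul 2)).add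
        (i2.const_mul _)
    have i5 : ∀ k, Integrable fun x => (v.2 k / s₀) * (F x * x k * (w x * gk s₀ (y₀ - x)) -
        y₀ k * (F x * (w x * gk s₀ (y₀ - x)))) := fun k =>
      ((i1 k).sub (i2.const_mul (y₀ k))).const_mul (v.2 k / s₀)
    have i6 : Integrable fun x => 2 * ∑ k, y₀ k * (F x * x k * (w x * gk s₀ (y₀ - x))) :=
      (integrable_finsetSum _ fun k _ => (i1 k).const_mul (y₀ k)).const_mul 2
    have i7 : Integrable fun x => F x * ‖x‖ ^ 2 * (w x * gk s₀ (y₀ - x)) -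
          2 * ∑ k, y₀ k * (F x * x k * (w x * gk s₀ (y₀ - x))) := i3.sub i6
    rw [integral_add (i4.const_mul _) (integrable_finsetSum _ fun k _ => i5 k),
      integral_const_mul, integral_add i7 (i2.const_mul _),
      integral_sub i3 i6,
      integral_const_mul, integral_const_mul, integral_finsetSum _ fun k _ => (i1 k).const_mul (y₀ k),
      integral_finsetSum _ fun k _ => i5 k]
    congr 1
    · simp_rw [integral_const_mul]
      unfold LpS An.Lp
      ring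
    · refine Finset.sum_congr rfl fun k _ => ?_
      rw [integral_const_mul, integral_sub (i1 k) (i2.const_mul _), integral_const_mul]
      unfold An.Lp
      ring
  rw [← e]
  exact key

lemma lf_ds {φ : ST n → ℝ} {p : ST n} {α : ℝ} {β : Fin n → ℝ} (h : HasFDerivAt φ (lf α β) p) :
    ds φ p = α := by
  unfold ds; rw [h.fderiv, lf_apply]; simp

lemma lf_dy {φ : ST n → ℝ} {p : ST n} {α : ℝ} {β : Fin n → ℝ} (h : HasFDerivAt φ (lf α β) p)
    (k : Fin n) : dy k φ p = β k := by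
  unfold dy; rw [h.fderiv, lf_apply]
  simp

/-- posterior mean as a space-time function -/
noncomputable def PE (w : E n → ℝ) (F : E n → ℝ) (p : ST n) : ℝ := pE w p.1 F p.2

lemma PE_diff (hw : Ex w) (hF : EG F) {p : ST n} (hp : 0 < p.1) : DifferentiableAt ℝ (PE w F) p := by
  have h0 := Lp_one_pos hw hp p.2
  have e0 : PE w F = (fun p : ST n => Lp w p.1 F p.2) *
      (fun y => y⁻¹) ∘ fun p : ST n => Lp w p.1 (fun _ => 1) p.2 := by
    funext q
    simp only [PE, pE, div_eq_mul_inv, Function.comp_apply, Pi.mul_apply]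
  rw [e0]
  exact ((hasFDerivAt_Lq hw hF hp).mul
    ((hasDerivAt_inv h0.ne').comp_hasFDerivAt p (hasFDerivAt_Lq hw (EG.const 1) hp))).differentiableAt

lemma dy_PE (hw : Ex w) (hF : EG F) {p : ST n} (hp : 0 < p.1) (k : Fin n) :
    dy k (PE w F) p =
      (PE w (fun x => F x * x k) p - PE w F p * PE w (fun x => x k) p) * p.1⁻¹ := by
  rw [← pd_slice (φ := PE w F) (s := p.1) (y := p.2) k (PE_diff hw hF hp)]
  exact (pd_pE hw hp hF k p.2).trans (div_eq_mul_inv _ _)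

lemma ds_PE (hw : Ex w) (hF : EG F) {p : ST n} (hp : 0 < p.1) :
    ds (PE w F) p =
      ((PE w (fun x => F x * ‖x‖ ^ 2) p - PE w F p * PE w (fun x => ‖x‖ ^ 2) p) -
        2 * ∑ k, p.2 k * (PE w (fun x => F x * x k) p - PE w F p * PE w (fun x => x k) p)) *
        (2⁻¹ * (p.1⁻¹ * p.1⁻¹)) := by
  have h0 := Lp_one_pos hw hp p.2
  have d1 := hasFDerivAt_Lq hw hF hp
  have d2 := hasFDerivAt_Lq hw (EG.const 1) hp
  have d3 := d1.mul ((hasDerivAt_inv h0.ne').comp_hasFDerivAt p d2)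
  have e0 : PE w F = (fun p : ST n => Lp w p.1 F p.2) *
      (fun y => y⁻¹) ∘ fun p : ST n => Lp w p.1 (fun _ => 1) p.2 := by
    funext q
    simp only [PE, pE, div_eq_mul_inv, Function.comp_apply, Pi.mul_apply]
  have e9 : ds (PE w F) p = fderiv ℝ ((fun p : ST n => Lp w p.1 F p.2) *
      (fun y => y⁻¹) ∘ fun p : ST n => Lp w p.1 (fun _ => 1) p.2) p ((1 : ℝ), (0 : E n)) := by
    unfold ds; rw [e0]
  rw [e9, d3.fderiv]
  simp only [_root_.smul_apply, _root_.add_apply, smul_eq_mul, Function.comp_apply, lf_apply]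
  simp only [PiLp.zero_apply, zero_mul, Finset.sum_const_zero, add_zero, one_mul]
  unfold PE pE LpS
  simp only [one_mul]
  have e1 : ∑ k, p.2 k * (Lp w p.1 (fun x => F x * x k) p.2 / Lp w p.1 (fun _ => 1) p.2 -
      Lp w p.1 F p.2 / Lp w p.1 (fun _ => 1) p.2 *
        (Lp w p.1 (fun x => x k) p.2 / Lp w p.1 (fun _ => 1) p.2)) =
      (∑ k, p.2 k * Lp w p.1 (fun x => F x * x k) p.2) * (Lp w p.1 (fun _ => 1) p.2)⁻¹ -
      Lp w p.1 F p.2 * (Lp w p.1 (fun _ => 1) p.2)⁻¹ ^ 2 *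
        (∑ k, p.2 k * Lp w p.1 (fun x => x k) p.2) := by
    rw [Finset.sum_mul, Finset.mul_sum, ← Finset.sum_sub_distrib]
    refine Finset.sum_congr rfl fun k _ => ?_
    field_simp
  rw [e1]
  have hp' := hp.ne'
  have h0' := h0.ne'
  field_simp
  ring

lemma T.timeInv (m : ℕ) (ha : 0 < a) : T a b m (fun p : ST n => p.1⁻¹) :=
  T.inv ha (T.time m) fun p hp => hp.1.le

/-- **posterior means are tame** -/
theorem T.PE (hw : Wt c R w) (ha : 0 < a) : ∀ (m : ℕ) {F : E n → ℝ}, EG F → T a b m (PE w F) := by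
  have base : ∀ {F : E n → ℝ}, EG F → T0 a b (Hf391.PE w F) := by
    intro F hF
    refine ⟨fun p hp => (PE_diff hw.ex hF (ha.trans hp.1)).continuousAt.continuousWithinAt, ?_⟩
    obtain ⟨C, a', hC, ha', hB⟩ := hF.2
    refine ⟨C * Real.exp (a' * R), by positivity, fun p hp => ?_⟩
    have h1 : |Hf391.PE w F p| ≤ C * Real.exp (a' * R) :=
      An.pE_bdd hw (ha.trans hp.1) hF (fun x hx => (hB x).trans
        (mul_le_mul_of_nonneg_left (Real.exp_le_exp.2 (mul_le_mul_of_nonneg_left hx ha')) hC)) p.2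
    have h2 : 1 ≤ Real.exp (C * Real.exp (a' * R) * ‖p.2‖) := Real.one_le_exp (by positivity)
    have h3 : 0 ≤ C * Real.exp (a' * R) := by positivity
    nlinarith
  intro m
  induction m with
  | zero => intro F hF; exact base hF
  | succ m ih =>
    intro F hF
    refine ⟨base hF, fun p hp => PE_diff hw.ex hF (ha.trans hp.1), ?_, fun k => ?_⟩
    · have h1 := ((ih (hF.mul EG.nsq)).sub ((ih hF).mul (ih (EG.nsq (n := n))))).sub
        ((T.sum (Finset.univ : Finset (Fin n)) fun k _ => (T.coord (a := a) (b := b) m k).mul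
          ((ih (hF.mul (EG.coord k))).sub ((ih hF).mul (ih (EG.coord k))))).smul 2)
      have h2 := h1.mul (((T.timeInv (n := n) (b := b) m ha).mul (T.timeInv m ha)).smul 2⁻¹)
      exact h2.congr fun p hp => ds_PE hw.ex hF (ha.trans hp.1)
    · have h1 := ((ih (hF.mul (EG.coord k))).sub ((ih hF).mul (ih (EG.coord k)))).mul
        (T.timeInv (n := n) (b := b) m ha)
      exact h1.congr fun p hp => dy_PE hw.ex hF (ha.trans hp.1) k

end Crest.Agent.R201.Hf391
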