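import Crest.Agent.R201.Hf2_391

/-!
# R201 flow calculus: the time-derivative theorem for `Em (Lp w s 1)` (helper391)

`EE w s φ = Em (Lp w s 1) (φ (s, ·))`;
`d/ds EE w s φ = EE w s (∂_s φ + ½ ∑ V_k ∂_k φ) = EE w s (∂_s φ + ½ Δ φ)`.
-/

set_option autoImplicit false
open MeasureTheory Matrix Filter Topology
open scoped RealInnerProductSpace

namespace Crest.Agent.R201.Hf391

open Crest.Agent.R201 Crest.Agent.R201.An

variable {n : ℕ} {a b : ℝ} {m : ℕ} {w F G : E n → ℝ} {s c R : ℝ}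

/-- gradient of the potential as a space-time function -/
noncomputable def VG (w : E n → ℝ) (k : Fin n) (p : ST n) : ℝ := Vg w p.1 k p.2

/-- Hessian of the potential as a space-time function -/
noncomputable def VH (w : E n → ℝ) (i j : Fin n) (p : ST n) : ℝ := Vh w p.1 p.2 i j

lemma T.VG (hw : Wt c R w) (ha : 0 < a) (m : ℕ) (k : Fin n) : T a b m (VG w k) :=
  (((T.coord (a := a) (b := b) m k).sub (T.PE hw ha m (EG.coord k))).mul
    (T.timeInv (n := n) (b := b) m ha)).congr fun p _ => by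
      simp only [Hf391.VG, Vg, Hf391.PE, div_eq_mul_inv]

lemma dy_VG (hw : Wt c R w) {p : ST n} (hp : 0 < p.1) (j k : Fin n) :
    dy j (VG w k) p = VH w j k p := by
  have h : T (p.1 / 2) (p.1 + 1) 1 (VG w k) := T.VG hw (by positivity) 1 k
  have hm : p.1 / 2 < p.1 ∧ p.1 < p.1 + 1 := ⟨by linarith, by linarith⟩
  rw [← pd_slice (φ := VG w k) (s := p.1) (y := p.2) j (h.diff (p.1, p.2) hm)]
  exact pd_Vg hw.ex hp j k p.2

lemma T.VH (hw : Wt c R w) (ha : 0 < a) (m : ℕ) (j k : Fin n) : T a b m (VH w j k) :=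
  ((T.VG hw ha (m + 1) k).hdy j).congr fun p hp => (dy_VG hw (ha.trans hp.1) j k).symm

lemma VH_symm (w : E n → ℝ) (i j : Fin n) (p : ST n) : VH w i j p = VH w j i p := by
  unfold VH
  conv_lhs => rw [← Vh_symm w p.1 p.2, Matrix.transpose_apply]

/-! ### the averages -/

/-- average of a space-time function over `X + √s G` -/
noncomputable def EE (w : E n → ℝ) (s : ℝ) (φ : ST n → ℝ) : ℝ :=
  Em (Lp w s fun _ => 1) fun y => φ (s, y)

lemma EE_congr {φ ψ : ST n → ℝ} (h : ∀ y, φ (s, y) = ψ (s, y)) : EE w s φ = EE w s ψ := by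
  unfold EE; congr 1; funext y; exact h y

lemma EE_add (hw : Ex w) (hs : 0 < s) (hab : a < s ∧ s < b) {φ ψ : ST n → ℝ} (h : T a b m φ)
    (h' : T a b m ψ) : EE w s (fun p => φ p + ψ p) = EE w s φ + EE w s ψ :=
  Em_add (hw.noisy hs) (h.slice_EG hab) (h'.slice_EG hab)

lemma EE_sub (hw : Ex w) (hs : 0 < s) (hab : a < s ∧ s < b) {φ ψ : ST n → ℝ} (h : T a b m φ)
    (h' : T a b m ψ) : EE w s (fun p => φ p - ψ p) = EE w s φ - EE w s ψ :=
  Em_sub (hw.noisy hs) (h.slice_EG hab) (h'.slice_EG hab)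

lemma EE_smul (w : E n → ℝ) (s : ℝ) (r : ℝ) (φ : ST n → ℝ) :
    EE w s (fun p => r * φ p) = r * EE w s φ := Em_smul _ _ _

lemma EE_sum {ι : Type*} (S : Finset ι) (hw : Ex w) (hs : 0 < s) (hab : a < s ∧ s < b)
    {φ : ι → ST n → ℝ} (h : ∀ i ∈ S, T a b m (φ i)) :
    EE w s (fun p => ∑ i ∈ S, φ i p) = ∑ i ∈ S, EE w s (φ i) :=
  Em_sum S (hw.noisy hs) fun i hi => (h i hi).slice_EG hab

/-- integration by parts -/
theorem EE_ibp (hw : Wt c R w) (hs : 0 < s) (hab : a < s ∧ s < b) {φ : ST n → ℝ}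
    (h : T a b (m + 1) φ) (k : Fin n) :
    EE w s (fun p => VG w k p * φ p) = EE w s (dy k φ) := by
  have h1 := ibp_EG hw hs k (F := fun y => φ (s, y)) (h.slice_diff hab) (h.slice_EG hab) ?_
  · unfold EE
    refine h1.trans ?_
    congr 1
    funext y
    exact pd_slice k (h.diff (s, y) hab)
  · have e : pd k (fun y => φ (s, y)) = fun y => dy k φ (s, y) :=
      funext fun y => pd_slice k (h.diff (s, y) hab)
    rw [e]
    exact (h.hdy k).slice_EG hab

/-! ### the kernel -/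

/-- the density (unnormalised) as a space-time function -/
noncomputable def RR (w : E n → ℝ) (p : ST n) : ℝ := Lp w p.1 (fun _ => 1) p.2

/-- `∂_s R / R` -/
noncomputable def qq (w : E n → ℝ) (p : ST n) : ℝ :=
  2⁻¹ * (∑ k, (VG w k p * VG w k p - VH w k k p)) + (n : ℝ) / 2 * p.1⁻¹

lemma T.qq (hw : Wt c R w) (ha : 0 < a) (m : ℕ) : T a b m (qq w) :=
  ((T.sum (Finset.univ : Finset (Fin n)) fun k _ =>
    ((T.VG hw ha m k).mul (T.VG hw ha m k)).sub (T.VH hw ha m k k)).smul 2⁻¹).add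
      ((T.timeInv (n := n) (b := b) m ha).smul _)

lemma RR_diff (hw : Ex w) {p : ST n} (hp : 0 < p.1) : DifferentiableAt ℝ (RR w) p :=
  (hasFDerivAt_Lq hw (EG.const 1) hp).differentiableAt

lemma ds_RR (hw : Ex w) {p : ST n} (hp : 0 < p.1) : ds (RR w) p = qq w p * RR w p := by
  have h0 := (Lp_one_pos hw hp p.2).ne'
  have hp' := hp.ne'
  have e := lf_ds (hasFDerivAt_Lq hw (EG.const 1) hp)
  have e1 : ds (RR w) p = LpS w p.1 (fun _ => 1) p.2 := e
  rw [e1]
  have e2 : ∀ k, VG w k p * VG w k p - VH w k k p =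
      (p.2 k ^ 2 - 2 * p.2 k * pE w p.1 (fun x => x k) p.2 + pE w p.1 (fun x => x k * x k) p.2) *
        (p.1⁻¹) ^ 2 - p.1⁻¹ := by
    intro k
    simp only [VG, Vg, VH, Vh, pC, Matrix.smul_apply, Matrix.sub_apply, Matrix.one_apply_eq,
      Matrix.of_apply, smul_eq_mul]
    field_simp
    ring
  have e3 : ∑ k, (VG w k p * VG w k p - VH w k k p) =
      (‖p.2‖ ^ 2 - 2 * (∑ k, p.2 k * pE w p.1 (fun x => x k) p.2) +
        pE w p.1 (fun x => ‖x‖ ^ 2) p.2) * (p.1⁻¹) ^ 2 - n * p.1⁻¹ := by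
    simp_rw [e2]
    rw [Finset.sum_sub_distrib, ← Finset.sum_mul, Finset.sum_add_distrib, Finset.sum_sub_distrib]
    have n1 : ∑ k, p.2 k ^ 2 = ‖p.2‖ ^ 2 := (EuclideanSpace.real_norm_sq_eq p.2).symm
    have n2 : (fun x : E n => ‖x‖ ^ 2) = fun x => ∑ k, x k * x k := by
      funext x
      rw [EuclideanSpace.real_norm_sq_eq]
      exact Finset.sum_congr rfl fun k _ => by ring
    rw [n1, n2, pE_sum _ hw hp fun k _ => (EG.coord k).mul (EG.coord k)]
    have n3 : ∑ k, 2 * p.2 k * pE w p.1 (fun x => x k) p.2 =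
        2 * ∑ k, p.2 k * pE w p.1 (fun x => x k) p.2 := by
      rw [Finset.mul_sum]; exact Finset.sum_congr rfl fun k _ => by ring
    rw [n3]
    simp
  unfold qq
  rw [e3]
  unfold LpS RR pE
  simp only [one_mul]
  have e4 : ∑ k, p.2 k * (Lp w p.1 (fun x => x k) p.2 / Lp w p.1 (fun _ => 1) p.2) =
      (∑ k, p.2 k * Lp w p.1 (fun x => x k) p.2) / Lp w p.1 (fun _ => 1) p.2 := by
    rw [Finset.sum_div]; exact Finset.sum_congr rfl fun k _ => by ring
  rw [e4]
  field_simp
  ring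

lemma RR_mono (hw : Ex w) {s t : ℝ} (hs : 0 < s) (hst : s ≤ t) (y : E n) :
    Lp w s (fun _ => 1) y ≤ Lp w t (fun _ => 1) y := by
  have ht : 0 < t := hs.trans_le hst
  unfold An.Lp
  refine integral_mono (hw.int_Lp hs (EG.const 1) y) (hw.int_Lp ht (EG.const 1) y) fun x => ?_
  simp only [one_mul]
  refine mul_le_mul_of_nonneg_left ?_ (hw.nonneg x)
  unfold gk
  refine Real.exp_le_exp.2 (neg_le_neg ?_)
  exact div_le_div_of_nonneg_left (by positivity) (by positivity) (by linarith)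

/-- unnormalised time derivative -/
theorem hasDerivAt_int (hw : Wt c R w) (ha : 0 < a) (hab : a < s ∧ s < b) {φ : ST n → ℝ}
    (h : T a b (m + 1) φ) :
    HasDerivAt (fun s => ∫ y, φ (s, y) * Lp w s (fun _ => 1) y)
      (∫ y, (ds φ (s, y) + φ (s, y) * qq w (s, y)) * Lp w s (fun _ => 1) y) s := by
  have hs : 0 < s := ha.trans hab.1
  have hb : 0 < b := hs.trans hab.2
  have hψ : T a b m (fun p => ds φ p + φ p * qq w p) := h.hds.add ((T.pred h).mul (T.qq hw ha m))
  obtain ⟨C, hC, hbd⟩ := hψ.bd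
  have hρ := hw.ex.noisy hb
  have hmeas : ∀ t : ℝ, 0 < t → a < t ∧ t < b →
      AEStronglyMeasurable (fun y => φ (t, y) * Lp w t (fun _ => 1) y) volume := fun t ht hab =>
    ((h.slice_cont hab).measurable.mul (hw.ex.noisy ht).meas).aestronglyMeasurable
  have key := hasDerivAt_integral_of_dominated_loc_of_deriv_le (μ := (volume : Measure (E n)))
    (F := fun s y => φ (s, y) * Lp w s (fun _ => 1) y)
    (F' := fun s y => (ds φ (s, y) + φ (s, y) * qq w (s, y)) * Lp w s (fun _ => 1) y)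
    (x₀ := s) (s := Set.Ioo a b) (bound := fun y => (C * Real.exp (C * ‖y‖)) * Lp w b (fun _ => 1) y)
    (Ioo_mem_nhds hab.1 hab.2) ?_ ?_ ?_ ?_ ?_ ?_
  · exact key.2
  · filter_upwards [Ioo_mem_nhds hab.1 hab.2] with t ht using hmeas t (ha.trans ht.1) ht
  · exact (hw.ex.noisy hs).int_mul (h.slice_EG hab)
  · exact ((hψ.slice_cont hab).measurable.mul (hw.ex.noisy hs).meas).aestronglyMeasurable
  · refine ae_of_all _ fun y t ht => ?_
    have h1 := hbd (t, y) ht
    have h2 := RR_mono hw.ex (ha.trans ht.1) ht.2.le y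
    have h3 := (Lp_one_pos hw.ex (ha.trans ht.1) y).le
    rw [norm_mul, Real.norm_eq_abs, Real.norm_eq_abs, abs_of_nonneg h3]
    exact mul_le_mul h1 h2 h3 (by positivity)
  · exact hρ.int_mul ((EG.const C).mul (EG.exp C))
  · refine ae_of_all _ fun y t ht => ?_
    have d1 := hasDerivAt_slice (h.diff (t, y) ht)
    have d2 := hasDerivAt_slice (RR_diff hw.ex (p := (t, y)) (ha.trans ht.1))
    rw [ds_RR hw.ex (p := (t, y)) (ha.trans ht.1)] at d2
    have d3 := d1.mul d2
    refine d3.congr_deriv ?_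
    unfold RR
    ring

lemma Z_pos (hw : Ex w) (hs : 0 < s) : 0 < ∫ y, Lp w s (fun _ => 1) y := (hw.noisy hs).pos

lemma int_eq_EE (hw : Ex w) (hs : 0 < s) (φ : ST n → ℝ) :
    ∫ y, φ (s, y) * Lp w s (fun _ => 1) y = EE w s φ * ∫ y, Lp w s (fun _ => 1) y := by
  unfold EE Em
  rw [div_mul_cancel₀ _ (Z_pos hw hs).ne']

lemma EE_qq (hw : Wt c R w) (ha : 0 < a) (hab : a < s ∧ s < b) {φ : ST n → ℝ}
    (h : T a b (m + 1) φ) :
    EE w s (fun p => φ p * qq w p) =
      EE w s (fun p => 2⁻¹ * ∑ k, VG w k p * dy k φ p) + (n : ℝ) / 2 * s⁻¹ * EE w s φ := by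
  have hs : 0 < s := ha.trans hab.1
  have hV := fun k => T.VG (a := a) (b := b) hw ha (m + 1) k
  have hV' := fun k => T.pred (hV k)
  have hH := fun j k => T.VH (a := a) (b := b) hw ha m j k
  have h' := T.pred h
  have e1 : ∀ k, EE w s (fun p => φ p * (VG w k p * VG w k p - VH w k k p)) =
      EE w s (fun p => VG w k p * dy k φ p) := by
    intro k
    have i1 : EE w s (fun p => VG w k p * (φ p * VG w k p)) = EE w s (dy k fun p => φ p * VG w k p) :=
      EE_ibp hw hs hab (h.mul (hV k)) k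
    have i2 : EE w s (dy k fun p => φ p * VG w k p) =
        EE w s (fun p => φ p * VH w k k p + VG w k p * dy k φ p) := by
      refine EE_congr fun y => ?_
      rw [dy_mul k (h.diff _ hab) ((hV k).diff _ hab), dy_VG hw hs]
    have i3 : EE w s (fun p => φ p * (VG w k p * VG w k p - VH w k k p)) =
        EE w s (fun p => VG w k p * (φ p * VG w k p) - φ p * VH w k k p) :=
      EE_congr fun y => by ring
    rw [i3, EE_sub hw.ex hs hab ((hV' k).mul (h'.mul (hV' k))) (h'.mul (hH k k)), i1, i2,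
      EE_add hw.ex hs hab (h'.mul (hH k k)) ((hV' k).mul (h.hdy k))]
    ring
  have t1 : ∀ k ∈ (Finset.univ : Finset (Fin n)),
      T a b m (fun p => φ p * (VG w k p * VG w k p - VH w k k p)) := fun k _ =>
    h'.mul (((hV' k).mul (hV' k)).sub (hH k k))
  have t2 : ∀ k ∈ (Finset.univ : Finset (Fin n)), T a b m (fun p => VG w k p * dy k φ p) :=
    fun k _ => (hV' k).mul (h.hdy k)
  have e2 : EE w s (fun p => φ p * qq w p) =
      EE w s (fun p => 2⁻¹ * (∑ k, φ p * (VG w k p * VG w k p - VH w k k p)) +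
        ((n : ℝ) / 2 * s⁻¹) * φ p) := by
    refine EE_congr fun y => ?_
    unfold qq
    rw [← Finset.mul_sum]
    ring
  rw [e2, EE_add hw.ex hs hab ((T.sum _ t1).smul _) (h'.smul _), EE_smul, EE_smul, EE_smul,
    EE_sum _ hw.ex hs hab t1, EE_sum _ hw.ex hs hab t2, Finset.sum_congr rfl fun k _ => e1 k]

/-- **time derivative of the averages** -/
theorem hasDerivAt_EE (hw : Wt c R w) (ha : 0 < a) (hab : a < s ∧ s < b) {φ : ST n → ℝ}
    (h : T a b (m + 1) φ) :
    HasDerivAt (fun s => EE w s φ)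
      (EE w s (fun p => ds φ p + 2⁻¹ * ∑ k, VG w k p * dy k φ p)) s := by
  have hs : 0 < s := ha.trans hab.1
  have h' := T.pred h
  have hone : T a b (m + 1) (fun _ : ST n => (1 : ℝ)) := T.const _ 1
  have d1 := hasDerivAt_int hw ha hab h
  have d2 := hasDerivAt_int hw ha hab hone
  have hZ := Z_pos hw.ex hs
  have e1 : (∫ y, (ds φ (s, y) + φ (s, y) * qq w (s, y)) * Lp w s (fun _ => 1) y) =
      (EE w s (fun p => ds φ p + 2⁻¹ * ∑ k, VG w k p * dy k φ p) +
        (n : ℝ) / 2 * s⁻¹ * EE w s φ) * ∫ y, Lp w s (fun _ => 1) y := by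
    rw [int_eq_EE hw.ex hs (fun p => ds φ p + φ p * qq w p)]
    congr 1
    have t2 : T a b m (fun p => 2⁻¹ * ∑ k, VG w k p * dy k φ p) :=
      (T.sum _ fun k _ => (T.VG hw ha m k).mul (h.hdy k)).smul _
    rw [EE_add hw.ex hs hab h.hds (h'.mul (T.qq hw ha m)), EE_qq hw ha hab h,
      EE_add hw.ex hs hab h.hds t2]
    ring
  have e2 : (∫ y, (ds (fun _ : ST n => (1 : ℝ)) (s, y) + 1 * qq w (s, y)) * Lp w s (fun _ => 1) y) =
      (n : ℝ) / 2 * s⁻¹ * ∫ y, Lp w s (fun _ => 1) y := by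
    rw [int_eq_EE hw.ex hs (fun p => ds (fun _ : ST n => (1 : ℝ)) p + 1 * qq w p)]
    congr 1
    have e3 : EE w s (fun p => ds (fun _ : ST n => (1 : ℝ)) p + 1 * qq w p) =
        EE w s (fun p => 1 * qq w p) := EE_congr fun y => by rw [ds_const]; simp
    rw [e3, EE_qq hw ha hab hone]
    have e4 : EE w s (fun p => 2⁻¹ * ∑ k, VG w k p * dy k (fun _ : ST n => (1 : ℝ)) p) = 0 := by
      have : EE w s (fun p => 2⁻¹ * ∑ k, VG w k p * dy k (fun _ : ST n => (1 : ℝ)) p) =
          EE w s (fun _ => 0) := EE_congr fun y => by simp [dy_const]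
      rw [this]
      exact Em_const (hw.ex.noisy hs) 0
    have e5 : EE w s (fun _ : ST n => (1 : ℝ)) = 1 := Em_const (hw.ex.noisy hs) 1
    rw [e4, e5]
    ring
  rw [e1] at d1
  rw [e2] at d2
  have e6 : (fun s => ∫ y, (1 : ℝ) * Lp w s (fun _ => 1) y) =
      fun s => ∫ y, Lp w s (fun _ => 1) y := by
    funext t; simp only [one_mul]
  rw [e6] at d2
  have d3 := d1.div d2 hZ.ne'
  have e7 : (fun s => EE w s φ) =
      (fun s => ∫ y, φ (s, y) * Lp w s (fun _ => 1) y) / fun s => ∫ y, Lp w s (fun _ => 1) y := rfl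
  rw [e7]
  refine d3.congr_deriv ?_
  rw [int_eq_EE hw.ex hs φ]
  field_simp
  ring

/-- Laplacian form -/
theorem hasDerivAt_EE' (hw : Wt c R w) (ha : 0 < a) (hab : a < s ∧ s < b) {φ : ST n → ℝ}
    (h : T a b (m + 2) φ) :
    HasDerivAt (fun s => EE w s φ)
      (EE w s (fun p => ds φ p + 2⁻¹ * ∑ k, dy k (dy k φ) p)) s := by
  have hs : 0 < s := ha.trans hab.1
  have d := hasDerivAt_EE (m := m + 1) hw ha hab h
  refine d.congr_deriv ?_
  have h1 := T.pred (T.pred h)
  have t0 : T a b m (ds φ) := T.pred (T.hds (m := m + 1) h)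
  have t1 : ∀ k ∈ (Finset.univ : Finset (Fin n)), T a b m (fun p => VG w k p * dy k φ p) :=
    fun k _ => (T.VG hw ha m k).mul (T.pred (T.hdy (m := m + 1) h k))
  have t2 : ∀ k ∈ (Finset.univ : Finset (Fin n)), T a b m (dy k (dy k φ)) :=
    fun k _ => T.hdy (m := m) (T.hdy (m := m + 1) h k) k
  rw [EE_add hw.ex hs hab t0 ((T.sum _ t1).smul _), EE_add hw.ex hs hab t0 ((T.sum _ t2).smul _),
    EE_smul, EE_smul, EE_sum _ hw.ex hs hab t1, EE_sum _ hw.ex hs hab t2]
  congr 2
  exact Finset.sum_congr rfl fun k _ => EE_ibp hw hs hab (T.hdy (m := m + 1) h k) k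

/-! ### the equation of the posterior mean -/

/-- `∂_s f = ½ Δ f - V'·Df` for `f = pE w s F` -/
theorem PE_pde (hw : Wt c R w) (hF : EG F) {p : ST n} (hp : 0 < p.1) :
    ds (PE w F) p = 2⁻¹ * (∑ k, dy k (dy k (PE w F)) p) - ∑ k, VG w k p * dy k (PE w F) p := by
  have ha : 0 < p.1 / 2 := by positivity
  have hm : p ∈ Om n (p.1 / 2) (p.1 + 1) := ⟨by linarith, by linarith⟩
  have tP : ∀ {G : E n → ℝ}, EG G → T (p.1 / 2) (p.1 + 1) 1 (PE w G) := fun hG => T.PE hw ha 1 hG
  have hp' := hp.ne'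
  have e1 : ∀ k, dy k (dy k (PE w F)) p =
      ((PE w (fun x => F x * (x k * x k)) p - PE w F p * PE w (fun x => x k * x k) p) -
        2 * PE w (fun x => x k) p * (PE w (fun x => F x * x k) p - PE w F p * PE w (fun x => x k) p))
        * (p.1⁻¹ * p.1⁻¹) := by
    intro k
    have c1 : dy k (dy k (PE w F)) p = dy k (fun p =>
        (PE w (fun x => F x * x k) p - PE w F p * PE w (fun x => x k) p) * p.1⁻¹) p :=
      dy_congr (a := p.1 / 2) (b := p.1 + 1)
        (fun q hq => dy_PE hw.ex hF (ha.trans hq.1) k) k p hm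
    have dA := (tP (hF.mul (EG.coord k))).diff p hm
    have dF := (tP hF).diff p hm
    have dX := (tP (EG.coord k)).diff p hm
    have dI := (T.timeInv (n := n) (b := p.1 + 1) 1 ha).diff p hm
    have c2 : dy k (fun p : ST n => p.1⁻¹) p = 0 := by
      have := dy_comp (φ := fun p : ST n => p.1) (p := p) k (g := fun x => x⁻¹)
        ((T.time (n := n) (a := p.1 / 2) (b := p.1 + 1) 1).diff p hm) (hasDerivAt_inv hp')
      rw [this]
      have h0 : dy k (fun p : ST n => p.1) p = 0 := by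
        have hd : HasFDerivAt (fun p : ST n => p.1) (ContinuousLinearMap.fst ℝ ℝ (E n)) p :=
          (ContinuousLinearMap.fst ℝ ℝ (E n)).hasFDerivAt
        unfold dy
        rw [hd.fderiv]; simp
      rw [h0, mul_zero]
    have dM : DifferentiableAt ℝ (fun p => PE w F p * PE w (fun x => x k) p) p := dF.mul dX
    have dM' : DifferentiableAt ℝ (fun p => -1 * (PE w F p * PE w (fun x => x k) p)) p :=
      dM.const_mul (-1)
    have dN : DifferentiableAt ℝ
        (fun p => PE w (fun x => F x * x k) p - PE w F p * PE w (fun x => x k) p) p := dA.sub dM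
    have c3 : dy k (fun p => PE w (fun x => F x * x k) p - PE w F p * PE w (fun x => x k) p) p =
        dy k (PE w (fun x => F x * x k)) p -
          (PE w F p * dy k (PE w fun x => x k) p + PE w (fun x => x k) p * dy k (PE w F) p) := by
      have e0 : (fun p => PE w (fun x => F x * x k) p - PE w F p * PE w (fun x => x k) p) =
          fun p => PE w (fun x => F x * x k) p + (-1) * (PE w F p * PE w (fun x => x k) p) := by
        funext q; ring
      rw [e0, dy_add k dA dM', dy_mul k (differentiableAt_const (-1)) dM, dy_const, dy_mul k dF dX]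
      ring
    rw [c1, dy_mul k dN dI, c2, c3, dy_PE hw.ex (hF.mul (EG.coord k)) hp,
      dy_PE hw.ex (EG.coord k) hp, dy_PE hw.ex hF hp]
    have e5 : (fun x : E n => F x * x k * x k) = fun x => F x * (x k * x k) := by
      funext x; ring
    rw [e5]
    ring
  have e2 : ∀ k, VG w k p * dy k (PE w F) p =
      (p.2 k - PE w (fun x => x k) p) *
        (PE w (fun x => F x * x k) p - PE w F p * PE w (fun x => x k) p) * (p.1⁻¹ * p.1⁻¹) := by
    intro k
    rw [dy_PE hw.ex hF hp]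
    simp only [VG, Vg, PE]
    ring
  simp_rw [e1, e2]
  rw [ds_PE hw.ex hF hp]
  have n2 : (fun x : E n => ‖x‖ ^ 2) = fun x => ∑ k, x k * x k := by
    funext x
    rw [EuclideanSpace.real_norm_sq_eq]
    exact Finset.sum_congr rfl fun k _ => by ring
  have e3 : PE w (fun x => F x * ‖x‖ ^ 2) p = ∑ k, PE w (fun x => F x * (x k * x k)) p := by
    have : (fun x : E n => F x * ‖x‖ ^ 2) = fun x => ∑ k, F x * (x k * x k) := by
      funext x
      rw [← Finset.mul_sum, ← congrFun n2 x]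
    rw [this]
    exact pE_sum _ hw.ex hp (fun k _ => hF.mul ((EG.coord k).mul (EG.coord k))) p.2
  have e4 : PE w (fun x => ‖x‖ ^ 2) p = ∑ k, PE w (fun x => x k * x k) p := by
    rw [n2]
    exact pE_sum _ hw.ex hp (fun k _ => (EG.coord k).mul (EG.coord k)) p.2
  rw [e3, e4, Finset.mul_sum Finset.univ _ (PE w F p), ← Finset.sum_sub_distrib,
    Finset.mul_sum Finset.univ _ (2 : ℝ), ← Finset.sum_sub_distrib, Finset.sum_mul,
    Finset.mul_sum Finset.univ _ (2⁻¹ : ℝ), ← Finset.sum_sub_distrib]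
  refine Finset.sum_congr rfl fun k _ => ?_
  ring

end Crest.Agent.R201.Hf391
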