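import Crest.Agent.R201.Hf3_391
import Crest.Agent.R201.Noi2_402

/-!
# R201 flow calculus: the forward identities `H' = -I/2`, `I' = -(E|U|² + 2 E V''vv)` (helper391)
-/

set_option autoImplicit false
open MeasureTheory Matrix Filter Topology
open scoped RealInnerProductSpace

namespace Crest.Agent.R201.Hf391

open Crest.Agent.R201 Crest.Agent.R144.Fi865 Crest.Agent.R201.An Crest.Agent.R201.Noi402

variable {n : ℕ} {a b : ℝ} {m : ℕ} {w F G : E n → ℝ} {s c R c' : ℝ}

/-! ### the density ratio -/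

lemma PE_ge (hw : Wt c R w) (hF : EG F) (hge : ∀ x, c' ≤ F x) {p : ST n} (hp : 0 < p.1) :
    c' ≤ PE w F p := by
  have := pE_mono hw.ex hp (EG.const c') hF hge p.2
  rwa [pE_const hw.ex hp] at this

/-- `h = log f` -/
noncomputable def hh (w F : E n → ℝ) (p : ST n) : ℝ := Real.log (PE w F p)

/-- `v = D log f` -/
noncomputable def vv (w F : E n → ℝ) (k : Fin n) (p : ST n) : ℝ := dy k (hh w F) p

/-- `U = D² log f` -/
noncomputable def UU (w F : E n → ℝ) (j k : Fin n) (p : ST n) : ℝ := dy j (vv w F k) p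

section
variable (hw : Wt c R w) (ha : 0 < a) (hF : EG F) (hc' : 0 < c') (hge : ∀ x, c' ≤ F x)
include hw ha hF hc' hge

lemma T.hh (m : ℕ) : T a b m (hh w F) :=
  T.log hc' (T.PE hw ha m hF) fun _ hp => PE_ge hw hF hge (ha.trans hp.1)

lemma T.vv (m : ℕ) (k : Fin n) : T a b m (vv w F k) := (T.hh hw ha hF hc' hge (m + 1)).hdy k

lemma T.UU (m : ℕ) (j k : Fin n) : T a b m (UU w F j k) := (T.vv hw ha hF hc' hge (m + 1) k).hdy j

lemma dy_PE_eq {p : ST n} (hp : p ∈ Om n a b) (k : Fin n) :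
    dy k (PE w F) p = PE w F p * vv w F k p := by
  have h0 : 0 < PE w F p := hc'.trans_le (PE_ge hw hF hge (ha.trans hp.1))
  have := dy_comp k (PE_diff hw.ex hF (ha.trans hp.1)) (Real.hasDerivAt_log h0.ne')
  have e : vv w F k p = (PE w F p)⁻¹ * dy k (PE w F) p := this
  rw [e]
  field_simp

lemma ds_PE_eq {p : ST n} (hp : p ∈ Om n a b) :
    ds (PE w F) p = PE w F p * ds (Hf391.hh w F) p := by
  have h0 : 0 < PE w F p := hc'.trans_le (PE_ge hw hF hge (ha.trans hp.1))
  have := ds_comp (PE_diff hw.ex hF (ha.trans hp.1)) (Real.hasDerivAt_log h0.ne')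
  have e : ds (Hf391.hh w F) p = (PE w F p)⁻¹ * ds (PE w F) p := this
  rw [e]
  field_simp

lemma UU_symm {p : ST n} (hp : p ∈ Om n a b) (j k : Fin n) :
    Hf391.UU w F j k p = Hf391.UU w F k j p :=
  dy_dy (m := 0) (T.hh hw ha hF hc' hge 2) j k hp

/-- `∂_s h = ½ Δ h + ½ |Dh|² - V'·Dh` -/
lemma ds_hh {p : ST n} (hp : p ∈ Om n a b) :
    ds (Hf391.hh w F) p = 2⁻¹ * (∑ k, Hf391.UU w F k k p) +
      2⁻¹ * (∑ k, Hf391.vv w F k p * Hf391.vv w F k p) - ∑ k, VG w k p * Hf391.vv w F k p := by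
  have hp0 : 0 < p.1 := ha.trans hp.1
  have h0 : 0 < PE w F p := hc'.trans_le (PE_ge hw hF hge hp0)
  have hpde := PE_pde hw hF hp0
  have e1 : ∀ k, dy k (dy k (PE w F)) p = PE w F p * Hf391.UU w F k k p +
      PE w F p * (Hf391.vv w F k p * Hf391.vv w F k p) := by
    intro k
    have c1 : dy k (dy k (PE w F)) p = dy k (fun p => PE w F p * Hf391.vv w F k p) p :=
      dy_congr (a := a) (b := b) (fun q hq => dy_PE_eq hw ha hF hc' hge hq k) k p hp
    rw [c1, dy_mul k (PE_diff hw.ex hF hp0) ((T.vv hw ha hF hc' hge 1 k).diff p hp),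
      dy_PE_eq hw ha hF hc' hge hp]
    unfold Hf391.UU
    ring
  have e2 : ∀ k, VG w k p * dy k (PE w F) p = PE w F p * (VG w k p * Hf391.vv w F k p) := by
    intro k
    rw [dy_PE_eq hw ha hF hc' hge hp]; ring
  rw [ds_PE_eq hw ha hF hc' hge hp] at hpde
  simp_rw [e1, e2] at hpde
  rw [Finset.sum_add_distrib, ← Finset.mul_sum, ← Finset.mul_sum, ← Finset.mul_sum] at hpde
  have h3 : PE w F p * ds (Hf391.hh w F) p = PE w F p * (2⁻¹ * (∑ k, Hf391.UU w F k k p) +
      2⁻¹ * (∑ k, Hf391.vv w F k p * Hf391.vv w F k p) - ∑ k, VG w k p * Hf391.vv w F k p) := by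
    rw [hpde]; ring
  exact mul_left_cancel₀ h0.ne' h3

/-! ### averages with the density `f` -/

/-- integration by parts for `f μ_s` -/
lemma EF_ibp (hab : a < s ∧ s < b) {φ : ST n → ℝ} (h : T a b (m + 1) φ) (k : Fin n) :
    EE w s (fun p => PE w F p * dy k φ p) =
      EE w s (fun p => PE w F p * (VG w k p * φ p)) -
        EE w s (fun p => PE w F p * (Hf391.vv w F k p * φ p)) := by
  have hs : 0 < s := ha.trans hab.1
  have tP := T.PE (a := a) (b := b) hw ha (m + 1) hF
  have tv := T.vv (a := a) (b := b) hw ha hF hc' hge m k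
  have tV := T.VG (a := a) (b := b) hw ha m k
  have i1 := EE_ibp hw hs hab (tP.mul h) k
  have i2 : EE w s (dy k fun p => PE w F p * φ p) =
      EE w s (fun p => PE w F p * dy k φ p + PE w F p * (Hf391.vv w F k p * φ p)) := by
    refine EE_congr fun y => ?_
    rw [dy_mul k (tP.diff _ hab) (h.diff _ hab), dy_PE_eq hw ha hF hc' hge (mem_Om hab y)]
    ring
  have i3 : EE w s (fun p => VG w k p * (PE w F p * φ p)) =
      EE w s (fun p => PE w F p * (VG w k p * φ p)) := EE_congr fun y => by ring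
  rw [i2, i3, EE_add hw.ex hs hab ((T.pred tP).mul (h.hdy k))
    ((T.pred tP).mul (tv.mul (T.pred h)))] at i1
  linarith

/-- **the time derivative along the forward flow** -/
theorem hasDerivAt_EF (hab : a < s ∧ s < b) {ψ : ST n → ℝ} (h : T a b (m + 2) ψ) :
    HasDerivAt (fun s => EE w s (fun p => PE w F p * ψ p))
      (EE w s (fun p => PE w F p * ds ψ p) +
        2⁻¹ * EE w s (fun p => PE w F p * ∑ k, dy k (dy k ψ) p)) s := by
  have hs : 0 < s := ha.trans hab.1
  have tP := T.PE (a := a) (b := b) hw ha (m + 2) hF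
  have tP0 := T.pred (T.pred tP)
  have tv := fun k => T.vv (a := a) (b := b) hw ha hF hc' hge (m + 1) k
  have tV := fun k => T.VG (a := a) (b := b) hw ha m k
  have tU := fun j k => T.UU (a := a) (b := b) hw ha hF hc' hge m j k
  have h0 := T.pred (T.pred h)
  have h1 : T a b (m + 1) ψ := T.pred h
  have d := hasDerivAt_EE (m := m + 1) hw ha hab (tP.mul h)
  refine d.congr_deriv ?_
  -- pointwise form of the integrand
  have e1 : EE w s (fun p => ds (fun p => PE w F p * ψ p) p +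
        2⁻¹ * ∑ k, VG w k p * dy k (fun p => PE w F p * ψ p) p) =
      EE w s (fun p => PE w F p * ds ψ p + 2⁻¹ * ∑ k, (PE w F p * (dy k (fun q => Hf391.vv w F k q * ψ q) p) +
        PE w F p * (Hf391.vv w F k p * (Hf391.vv w F k p * ψ p)) -
        PE w F p * (VG w k p * (Hf391.vv w F k p * ψ p)) +
        (PE w F p * (VG w k p * dy k ψ p) - PE w F p * (Hf391.vv w F k p * dy k ψ p)))) := by
    refine EE_congr fun y => ?_
    have hp := mem_Om hab y
    have e2 : ∀ k, dy k (fun q => Hf391.vv w F k q * ψ q) (s, y) =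
        Hf391.vv w F k (s, y) * dy k ψ (s, y) + ψ (s, y) * Hf391.UU w F k k (s, y) := by
      intro k
      rw [dy_mul k ((tv k).diff _ hp) (h1.diff _ hp)]
      rfl
    have e3 : ∀ k, dy k (fun p => PE w F p * ψ p) (s, y) = PE w F (s, y) * dy k ψ (s, y) +
        ψ (s, y) * (PE w F (s, y) * Hf391.vv w F k (s, y)) := by
      intro k
      rw [dy_mul k ((T.pred tP).diff _ hp) (h1.diff _ hp), dy_PE_eq hw ha hF hc' hge hp]
    rw [ds_mul ((T.pred tP).diff _ hp) (h1.diff _ hp), ds_PE_eq hw ha hF hc' hge hp,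
      ds_hh hw ha hF hc' hge hp]
    simp_rw [e2, e3]
    have e4 : ∑ k, VG w k (s, y) * (PE w F (s, y) * dy k ψ (s, y) +
        ψ (s, y) * (PE w F (s, y) * Hf391.vv w F k (s, y))) =
        PE w F (s, y) * (∑ k, VG w k (s, y) * dy k ψ (s, y)) +
          (PE w F (s, y) * ψ (s, y)) * ∑ k, VG w k (s, y) * Hf391.vv w F k (s, y) := by
      rw [Finset.mul_sum, Finset.mul_sum, ← Finset.sum_add_distrib]
      exact Finset.sum_congr rfl fun k _ => by ring
    have e5 : ∑ k, (PE w F (s, y) * (Hf391.vv w F k (s, y) * dy k ψ (s, y) +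
        ψ (s, y) * Hf391.UU w F k k (s, y)) +
        PE w F (s, y) * (Hf391.vv w F k (s, y) * (Hf391.vv w F k (s, y) * ψ (s, y))) -
        PE w F (s, y) * (VG w k (s, y) * (Hf391.vv w F k (s, y) * ψ (s, y))) +
        (PE w F (s, y) * (VG w k (s, y) * dy k ψ (s, y)) -
          PE w F (s, y) * (Hf391.vv w F k (s, y) * dy k ψ (s, y)))) =
        (PE w F (s, y) * ψ (s, y)) * (∑ k, Hf391.UU w F k k (s, y)) +
        (PE w F (s, y) * ψ (s, y)) * (∑ k, Hf391.vv w F k (s, y) * Hf391.vv w F k (s, y)) -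
        (PE w F (s, y) * ψ (s, y)) * (∑ k, VG w k (s, y) * Hf391.vv w F k (s, y)) +
        PE w F (s, y) * (∑ k, VG w k (s, y) * dy k ψ (s, y)) := by
      rw [Finset.mul_sum, Finset.mul_sum, Finset.mul_sum, Finset.mul_sum, ← Finset.sum_add_distrib,
        ← Finset.sum_sub_distrib, ← Finset.sum_add_distrib]
      exact Finset.sum_congr rfl fun k _ => by ring
    rw [e4, e5]
    ring
  have tψ0 := h0
  have tψ1 : ∀ k, T a b (m + 1) (fun q => Hf391.vv w F k q * ψ q) := fun k => (tv k).mul h1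
  have u1 : ∀ k, T a b m (fun p => PE w F p * (dy k (fun q => Hf391.vv w F k q * ψ q) p)) :=
    fun k => tP0.mul ((tψ1 k).hdy k)
  have u2 : ∀ k, T a b m (fun p => PE w F p * (Hf391.vv w F k p * (Hf391.vv w F k p * ψ p))) :=
    fun k => tP0.mul ((T.pred (tv k)).mul ((T.pred (tv k)).mul h0))
  have u3 : ∀ k, T a b m (fun p => PE w F p * (VG w k p * (Hf391.vv w F k p * ψ p))) :=
    fun k => tP0.mul ((tV k).mul ((T.pred (tv k)).mul h0))
  have u4 : ∀ k, T a b m (fun p => PE w F p * (VG w k p * dy k ψ p)) :=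
    fun k => tP0.mul ((tV k).mul (h1.hdy k))
  have u5 : ∀ k, T a b m (fun p => PE w F p * (Hf391.vv w F k p * dy k ψ p)) :=
    fun k => tP0.mul ((T.pred (tv k)).mul (h1.hdy k))
  have t1 : ∀ k ∈ (Finset.univ : Finset (Fin n)), T a b m (fun p =>
      PE w F p * (dy k (fun q => Hf391.vv w F k q * ψ q) p) +
        PE w F p * (Hf391.vv w F k p * (Hf391.vv w F k p * ψ p)) -
        PE w F p * (VG w k p * (Hf391.vv w F k p * ψ p)) +
        (PE w F p * (VG w k p * dy k ψ p) - PE w F p * (Hf391.vv w F k p * dy k ψ p))) :=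
    fun k _ => (((u1 k).add (u2 k)).sub (u3 k)).add ((u4 k).sub (u5 k))
  have u6 : ∀ k ∈ (Finset.univ : Finset (Fin n)), T a b m (fun p => PE w F p * dy k (dy k ψ) p) :=
    fun k _ => tP0.mul (T.hdy (m := m) (T.hdy (m := m + 1) h k) k)
  have e6 : EE w s (fun p => PE w F p * ∑ k, dy k (dy k ψ) p) =
      ∑ k, EE w s (fun p => PE w F p * dy k (dy k ψ) p) := by
    rw [← EE_sum _ hw.ex hs hab u6]
    exact EE_congr fun y => by rw [Finset.mul_sum]
  rw [e1, EE_add hw.ex hs hab (tP0.mul (T.pred (T.hds (m := m + 1) h))) ((T.sum _ t1).smul _),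
    EE_smul, EE_sum _ hw.ex hs hab t1, e6]
  congr 2
  refine Finset.sum_congr rfl fun k _ => ?_
  rw [EE_add hw.ex hs hab (((u1 k).add (u2 k)).sub (u3 k)) ((u4 k).sub (u5 k)),
    EE_sub hw.ex hs hab ((u1 k).add (u2 k)) (u3 k), EE_add hw.ex hs hab (u1 k) (u2 k),
    EE_sub hw.ex hs hab (u4 k) (u5 k), EF_ibp hw ha hF hc' hge hab (tψ1 k) k,
    EF_ibp hw ha hF hc' hge hab (T.hdy (m := m + 1) h k) k]
  ring

/-! ### level 0 -/

/-- `d/ds E f log f = -½ E f |v|²` -/
theorem hasDerivAt_H (hab : a < s ∧ s < b) :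
    HasDerivAt (fun s => EE w s (fun p => PE w F p * Hf391.hh w F p))
      (-(2⁻¹ * EE w s (fun p => PE w F p * ∑ k, Hf391.vv w F k p * Hf391.vv w F k p))) s := by
  have hs : 0 < s := ha.trans hab.1
  have th := T.hh (a := a) (b := b) hw ha hF hc' hge 2
  have d := hasDerivAt_EF (m := 0) hw ha hF hc' hge hab th
  refine d.congr_deriv ?_
  have tP := T.PE (a := a) (b := b) hw ha 0 hF
  have tv := fun k => T.vv (a := a) (b := b) hw ha hF hc' hge 1 k
  have tV := fun k => T.VG (a := a) (b := b) hw ha 0 k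
  have tU := fun j k => T.UU (a := a) (b := b) hw ha hF hc' hge 0 j k
  have u1 : ∀ k ∈ (Finset.univ : Finset (Fin n)), T a b 0 (fun p => PE w F p * Hf391.UU w F k k p) :=
    fun k _ => tP.mul (tU k k)
  have u2 : ∀ k ∈ (Finset.univ : Finset (Fin n)),
      T a b 0 (fun p => PE w F p * (Hf391.vv w F k p * Hf391.vv w F k p)) :=
    fun k _ => tP.mul ((T.pred (tv k)).mul (T.pred (tv k)))
  have u3 : ∀ k ∈ (Finset.univ : Finset (Fin n)),
      T a b 0 (fun p => PE w F p * (VG w k p * Hf391.vv w F k p)) :=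
    fun k _ => tP.mul ((tV k).mul (T.pred (tv k)))
  have e1 : EE w s (fun p => PE w F p * ds (Hf391.hh w F) p) =
      2⁻¹ * (∑ k, EE w s (fun p => PE w F p * Hf391.UU w F k k p)) +
      2⁻¹ * (∑ k, EE w s (fun p => PE w F p * (Hf391.vv w F k p * Hf391.vv w F k p))) -
      ∑ k, EE w s (fun p => PE w F p * (VG w k p * Hf391.vv w F k p)) := by
    rw [← EE_sum _ hw.ex hs hab u1, ← EE_sum _ hw.ex hs hab u2, ← EE_sum _ hw.ex hs hab u3,
      ← EE_smul, ← EE_smul, ← EE_add hw.ex hs hab ((T.sum _ u1).smul _) ((T.sum _ u2).smul _),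
      ← EE_sub hw.ex hs hab (((T.sum _ u1).smul _).add ((T.sum _ u2).smul _)) (T.sum _ u3)]
    refine EE_congr fun y => ?_
    rw [ds_hh hw ha hF hc' hge (mem_Om hab y), ← Finset.mul_sum, ← Finset.mul_sum,
      ← Finset.mul_sum]
    ring
  have e2 : EE w s (fun p => PE w F p * ∑ k, dy k (dy k (Hf391.hh w F)) p) =
      ∑ k, EE w s (fun p => PE w F p * Hf391.UU w F k k p) := by
    rw [← EE_sum _ hw.ex hs hab u1]
    exact EE_congr fun y => by rw [Finset.mul_sum]; rfl
  have e3 : EE w s (fun p => PE w F p * ∑ k, Hf391.vv w F k p * Hf391.vv w F k p) =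
      ∑ k, EE w s (fun p => PE w F p * (Hf391.vv w F k p * Hf391.vv w F k p)) := by
    rw [← EE_sum _ hw.ex hs hab u2]
    exact EE_congr fun y => by rw [Finset.mul_sum]
  have e4 : ∑ k, EE w s (fun p => PE w F p * Hf391.UU w F k k p) =
      (∑ k, EE w s (fun p => PE w F p * (VG w k p * Hf391.vv w F k p))) -
        ∑ k, EE w s (fun p => PE w F p * (Hf391.vv w F k p * Hf391.vv w F k p)) := by
    rw [← Finset.sum_sub_distrib]
    exact Finset.sum_congr rfl fun k _ => EF_ibp hw ha hF hc' hge hab (tv k) k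
  rw [e1, e2, e3, e4]
  ring

end

end Crest.Agent.R201.Hf391
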