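import Crest.Agent.R201.LabG3_809
import Crest.Agent.R201.NSL4_674

/-!
# R201, LSI half (helper809): the law of a Gaussian label: score, Gaussian LSI,
`Dis ≤ (1+t)/2 E|E[v|J]|² + (1+1/t)/2 E tr (M + M⁻¹ - 2)`
-/

set_option autoImplicit false
set_option maxHeartbeats 400000
set_option linter.unusedSectionVars false
open MeasureTheory Matrix Filter Topology ProbabilityTheory
open scoped ContDiff RealInnerProductSpace

namespace Crest.Agent.R201.LL809

open Crest.Agent.R201.An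

variable {n : ℕ} {M : E n → Mt n} {v : E n → Fin n → ℝ}

/-! ### measurable families with polynomial growth -/

/-- jointly measurable, polynomial growth of degree `d` in the label -/
structure PB (d : ℕ) (φ : E n → E n → ℝ) : Prop where
  meas : Measurable fun z : E n × E n => φ z.1 z.2
  bd : ∃ C : ℝ, 0 ≤ C ∧ ∀ y x, |φ y x| ≤ C * (1 + ‖y‖) ^ d

theorem PG.pb {d : ℕ} {φ : E n → E n → ℝ} (h : PG d φ) : PB d φ where
  meas := h.meas
  bd := by
    obtain ⟨C, hC, hb⟩ := h.bd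
    exact ⟨C, hC, fun y x => (hb y x).1⟩

theorem PB.mul {d e : ℕ} {φ ψ : E n → E n → ℝ} (hφ : PB d φ) (hψ : PB e ψ) :
    PB (d + e) (fun y x => φ y x * ψ y x) where
  meas := hφ.meas.mul hψ.meas
  bd := by
    obtain ⟨C, hC, h⟩ := hφ.bd
    obtain ⟨C', hC', h'⟩ := hψ.bd
    refine ⟨C * C', by positivity, fun y x => ?_⟩
    rw [abs_mul, pow_add]
    have h1 : 0 ≤ C * (1 + ‖y‖) ^ d := by positivity
    refine (mul_le_mul (h y x) (h' y x) (abs_nonneg _) h1).trans (le_of_eq ?_)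
    ring

theorem PB.add {d : ℕ} {φ ψ : E n → E n → ℝ} (hφ : PB d φ) (hψ : PB d ψ) :
    PB d (fun y x => φ y x + ψ y x) where
  meas := hφ.meas.add hψ.meas
  bd := by
    obtain ⟨C, hC, h⟩ := hφ.bd
    obtain ⟨C', hC', h'⟩ := hψ.bd
    refine ⟨C + C', by positivity, fun y x => ?_⟩
    rw [add_mul]
    exact (abs_add_le _ _).trans (add_le_add (h y x) (h' y x))

theorem PB.one : PB 0 (fun _ _ : E n => (1 : ℝ)) := ⟨measurable_const, 1, zero_le_one, by simp⟩

theorem gd_pos (v : Fin n → ℝ) (M : Mt n) (y : E n) : 0 < gd v M y := Real.exp_pos _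

/-- upper bound of the log-density -/
theorem gl_le (hM : MF M) (hv : ∀ i, CB fun x => v x i) : ∃ K c : ℝ, 0 < c ∧
    ∀ y x, gl (v x) (M x) y ≤ K + (1 / 2) * ‖y‖ ^ 2 - c * ‖y‖ ^ 2 := by
  obtain ⟨c, hc, hge⟩ := hM.ge
  obtain ⟨m, hm, hle⟩ := hM.le
  obtain ⟨L, hL0, hL⟩ := hM.det_cbp.log_bdd
  have h1 : ∀ i, ∃ B : ℝ, ∀ x, |v x i| ≤ B := fun i => by
    obtain ⟨-, B, hB⟩ := hv i
    exact ⟨B, fun x => (hB x).1⟩
  choose b hb using h1
  set V := ∑ i, b i ^ 2 with hV
  have hvV : ∀ x, v x ⬝ᵥ v x ≤ V := by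
    intro x
    refine Finset.sum_le_sum fun i _ => ?_
    rw [← sq, ← sq_abs]
    exact pow_le_pow_left₀ (abs_nonneg _) (hb i x) 2
  refine ⟨1 / (2 * m) * V + (1 / 2) * L, 1 / (4 * m), by positivity, fun y x => ?_⟩
  have h2 := inv_quad_ge (hM.symm x) hc (hge x) (hle x) (y.ofLp - v x)
  have h3 : y.ofLp ⬝ᵥ y.ofLp ≤ 2 * ((y.ofLp - v x) ⬝ᵥ (y.ofLp - v x)) + 2 * (v x ⬝ᵥ v x) := by
    simp only [dotProduct, Finset.mul_sum, ← Finset.sum_add_distrib, Pi.sub_apply]
    refine Finset.sum_le_sum fun i _ => ?_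
    nlinarith [sq_nonneg (y.ofLp i - 2 * v x i)]
  have h4 := hvV x
  have h5 := (abs_le.1 (hL x)).1
  rw [norm_sq_dot]
  unfold gl
  set q := (y.ofLp - v x) ⬝ᵥ ((M x)⁻¹ *ᵥ (y.ofLp - v x)) with hq
  set D := (y.ofLp - v x) ⬝ᵥ (y.ofLp - v x) with hD
  set Y := y.ofLp ⬝ᵥ y.ofLp with hY
  have h6 : Y ≤ 2 * (m * q) + 2 * V := by linarith
  have h7 : 1 / (4 * m) * Y ≤ 1 / (4 * m) * (2 * (m * q) + 2 * V) :=
    mul_le_mul_of_nonneg_left h6 (by positivity)
  have h8 : 1 / (4 * m) * (2 * (m * q) + 2 * V) = (1 / 2) * q + 1 / (2 * m) * V := by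
    field_simp
    ring
  linarith

theorem gd_meas (hM : MF M) (hv : ∀ i, CB fun x => v x i) :
    Measurable fun z : E n × E n => gd (v z.2) (M z.2) z.1 := (PG_gl hM hv).meas.exp

section Fub

variable {μ : Measure (E n)} [IsFiniteMeasure μ]

theorem EG_pow (d : ℕ) (C : ℝ) : EG fun y : E n => C * (1 + ‖y‖) ^ d := by
  refine EG.smul C ?_
  induction d with
  | zero => simpa using EG.const (n := n) 1
  | succ d ih =>
    have := ih.mul ((EG.const 1).add EG.norm)
    simpa [pow_succ] using this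

/-- the dominating function -/
theorem dom_int (K : ℝ) {c : ℝ} (hc : 0 < c) (d : ℕ) (C : ℝ) : Integrable (fun y : E n =>
    C * (1 + ‖y‖) ^ d * Real.exp (K + (1 / 2) * ‖y‖ ^ 2 - c * ‖y‖ ^ 2)) (gam n) := by
  unfold gam
  rw [integrable_nm_iff (ex_gk one_pos)]
  have hs : 0 < 1 / (2 * c) := by positivity
  refine ((ex_gk (n := n) hs).int_mul ((EG_pow (n := n) d C).mul (EG.const (Real.exp K)))).congr
    (ae_of_all _ fun y => ?_)
  simp only
  have : Real.exp (K + 1 / 2 * ‖y‖ ^ 2 - c * ‖y‖ ^ 2) * gk 1 y =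
      Real.exp K * gk (1 / (2 * c)) y := by
    unfold gk
    rw [← Real.exp_add, ← Real.exp_add]
    congr 1
    field_simp
    ring
  calc C * (1 + ‖y‖) ^ d * Real.exp K * gk (1 / (2 * c)) y
      = C * (1 + ‖y‖) ^ d * (Real.exp K * gk (1 / (2 * c)) y) := by ring
    _ = _ := by rw [← this]; ring

/-- Fubini for families against the Gaussian density -/
theorem PB.fub (hM : MF M) (hv : ∀ i, CB fun x => v x i) {d : ℕ} {ψ : E n → E n → ℝ} (hψ : PB d ψ)
    {u : E n → ℝ} (mu : Measurable u) {B : ℝ} (hB : ∀ x, |u x| ≤ B) :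
    (∀ y, Integrable (fun x => u x * (ψ y x * gd (v x) (M x) y)) μ) ∧
    (∀ x, Integrable (fun y => ψ y x * gd (v x) (M x) y) (gam n)) ∧
    Integrable (fun y => ∫ x, u x * (ψ y x * gd (v x) (M x) y) ∂μ) (gam n) ∧
    Integrable (fun x => u x * ∫ y, ψ y x * gd (v x) (M x) y ∂(gam n)) μ ∧
    ∫ y, ∫ x, u x * (ψ y x * gd (v x) (M x) y) ∂μ ∂(gam n) =
      ∫ x, u x * ∫ y, ψ y x * gd (v x) (M x) y ∂(gam n) ∂μ := by
  obtain ⟨K, c, hc, hle⟩ := gl_le hM hv
  obtain ⟨C, hC, hb⟩ := hψ.bd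
  have hB0 : 0 ≤ B := (abs_nonneg _).trans (hB 0)
  set D : E n → ℝ := fun y => C * (1 + ‖y‖) ^ d *
    Real.exp (K + (1 / 2) * ‖y‖ ^ 2 - c * ‖y‖ ^ 2) with hD
  have hDi : Integrable D (gam n) := dom_int K hc d C
  have hle2 : ∀ y x, |ψ y x * gd (v x) (M x) y| ≤ D y := fun y x => by
    rw [abs_mul, abs_of_pos (gd_pos _ _ _)]
    exact mul_le_mul (hb y x) (Real.exp_le_exp.2 (hle y x)) (gd_pos _ _ _).le (by positivity)
  have mq : Measurable fun z : E n × E n => ψ z.1 z.2 * gd (v z.2) (M z.2) z.1 :=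
    hψ.meas.mul (gd_meas hM hv)
  have i1 : Integrable (fun z : E n × E n => u z.2 * (ψ z.1 z.2 * gd (v z.2) (M z.2) z.1))
      ((gam n).prod μ) := by
    have h1 : Integrable (fun z : E n × E n => D z.1 * (fun _ : E n => B) z.2)
      ((gam n).prod μ) := hDi.mul_prod (integrable_const B)
    refine h1.mono' ((mu.comp measurable_snd).mul mq).aestronglyMeasurable
      (ae_of_all _ fun z => ?_)
    rw [Real.norm_eq_abs, abs_mul, mul_comm]
    exact mul_le_mul (hle2 z.1 z.2) (hB z.2) (abs_nonneg _) ((abs_nonneg _).trans (hle2 z.1 z.2))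
  refine ⟨fun y => ?_, fun x => ?_, i1.integral_prod_left, ?_, ?_⟩
  · refine (integrable_const (B * D y)).mono'
      (mu.mul (mq.comp measurable_prodMk_left)).aestronglyMeasurable (ae_of_all _ fun x => ?_)
    rw [Real.norm_eq_abs, abs_mul]
    exact mul_le_mul (hB x) (hle2 y x) (abs_nonneg _) hB0
  · exact hDi.mono' (mq.comp measurable_prodMk_right).aestronglyMeasurable
      (ae_of_all _ fun y => hle2 y x)
  · refine i1.integral_prod_right.congr (ae_of_all _ fun x => ?_)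
    simp only
    exact integral_const_mul _ _
  · rw [integral_integral_swap (f := fun y x => u x * (ψ y x * gd (v x) (M x) y)) i1]
    refine integral_congr_ae (ae_of_all _ fun x => ?_)
    exact integral_const_mul _ _

end Fub

/-! ### the score in the label -/

/-- `∂_{y_l} log gd v M y` -/
noncomputable def sc (v : Fin n → ℝ) (M : Mt n) (l : Fin n) (y : E n) : ℝ :=
  v l + ((1 - M⁻¹) *ᵥ (y.ofLp - v)) l

theorem gl_eq (v : Fin n → ℝ) (M : Mt n) (y : E n) : gl v M y =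
    (-(1 / 2) * (∑ i, (y i - v i) * ∑ j, M⁻¹ i j * (y j - v j)) +
        (1 / 2) * ∑ i, y i * y i) - (1 / 2) * Real.log M.det := rfl

theorem gl_diff_y (v : Fin n → ℝ) (M : Mt n) : ContDiff ℝ 1 (fun y : E n => gl v M y) := by
  simp only [gl_eq]
  fun_prop

theorem pd_gl_y (v : Fin n → ℝ) {M : Mt n} (hA : (M⁻¹)ᵀ = M⁻¹) (l : Fin n) (y : E n) :
    pd l (fun y : E n => gl v M y) y = sc v M l y := by
  set A := M⁻¹ with hAd
  set D := y.ofLp - v with hD
  have dD : ∀ i, DifferentiableAt ℝ (fun y : E n => y i - v i) y := fun i => by fun_prop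
  have pD : ∀ i, pd l (fun y : E n => y i - v i) y = if l = i then 1 else 0 := by
    intro i
    rw [Tw807.pd_sub l (diff_coord i y) (differentiableAt_const _), Tw807.pd_const, pd_co, sub_zero]
  have d1 : ∀ i j, DifferentiableAt ℝ (fun y : E n => A i j * (y j - v j)) y := fun i j =>
    (dD j).const_mul _
  have d2 : ∀ i, DifferentiableAt ℝ (fun y : E n => ∑ j, A i j * (y j - v j)) y := fun i =>
    DifferentiableAt.fun_sum fun j _ => d1 i j
  have d3 : ∀ i, DifferentiableAt ℝ (fun y : E n => (y i - v i) * ∑ j, A i j * (y j - v j)) y :=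
    fun i => (dD i).mul (d2 i)
  have d4 : DifferentiableAt ℝ
      (fun y : E n => ∑ i, (y i - v i) * ∑ j, A i j * (y j - v j)) y :=
    DifferentiableAt.fun_sum fun i _ => d3 i
  have d4' : DifferentiableAt ℝ
      (fun y : E n => -(1 / 2) * ∑ i, (y i - v i) * ∑ j, A i j * (y j - v j)) y := d4.const_mul _
  have d5 : ∀ i, DifferentiableAt ℝ (fun y : E n => y i * y i) y := fun i => by fun_prop
  have d6 : DifferentiableAt ℝ (fun y : E n => ∑ i, y i * y i) y :=
    DifferentiableAt.fun_sum fun i _ => d5 i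
  have d6' : DifferentiableAt ℝ (fun y : E n => (1 / 2) * ∑ i, y i * y i) y := d6.const_mul _
  have d7 : DifferentiableAt ℝ (fun y : E n =>
      -(1 / 2) * (∑ i, (y i - v i) * ∑ j, A i j * (y j - v j)) + (1 / 2) * ∑ i, y i * y i) y :=
    d4'.add d6'
  have e1 : pd l (fun y : E n => ∑ i, (y i - v i) * ∑ j, A i j * (y j - v j)) y =
      2 * (A *ᵥ D) l := by
    rw [Tw807.pd_sum _ l fun i _ => d3 i]
    have : ∀ i, pd l (fun y : E n => (y i - v i) * ∑ j, A i j * (y j - v j)) y =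
        D i * A i l + (if l = i then 1 else 0) * (A *ᵥ D) i := by
      intro i
      rw [Tw807.pd_mul l (dD i) (d2 i), Tw807.pd_sum _ l fun j _ => d1 i j, pD]
      have h5 : ∀ j, pd l (fun y : E n => A i j * (y j - v j)) y = A i j * if l = j then 1 else 0 := by
        intro j
        rw [Tw807.pd_const_mul _ l (dD j), pD]
      simp only [h5, mul_ite, mul_one, mul_zero, Finset.sum_ite_eq, Finset.mem_univ, if_true]
      simp only [hD, Pi.sub_apply, Matrix.mulVec, dotProduct]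
    simp only [this, Finset.sum_add_distrib, ite_mul, one_mul, zero_mul, Finset.sum_ite_eq,
      Finset.mem_univ, if_true]
    have h6 : ∑ i, D i * A i l = (A *ᵥ D) l := by
      simp only [Matrix.mulVec, dotProduct]
      refine Finset.sum_congr rfl fun i _ => ?_
      have := congrFun (congrFun hA l) i
      rw [Matrix.transpose_apply] at this
      rw [this]
      ring
    rw [h6]
    ring
  have e2 : pd l (fun y : E n => ∑ i, y i * y i) y = 2 * y l := by
    rw [Tw807.pd_sum _ l fun i _ => d5 i]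
    have : ∀ i, pd l (fun y : E n => y i * y i) y = if l = i then 2 * y i else 0 := by
      intro i
      rw [Tw807.pd_mul l (diff_coord i y) (diff_coord i y), pd_co]
      split_ifs <;> ring
    simp only [this, Finset.sum_ite_eq, Finset.mem_univ, if_true]
  have e3 : (fun y : E n => gl v M y) = fun y : E n =>
      (-(1 / 2) * (∑ i, (y i - v i) * ∑ j, A i j * (y j - v j)) +
        (1 / 2) * ∑ i, y i * y i) - (1 / 2) * Real.log M.det := rfl
  rw [e3, Tw807.pd_sub l d7 (differentiableAt_const _), Tw807.pd_add l d4' d6',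
    Tw807.pd_const_mul _ l d4, Tw807.pd_const_mul _ l d6, Tw807.pd_const, e1, e2]
  unfold sc
  rw [Matrix.sub_mulVec, Matrix.one_mulVec, Pi.sub_apply]
  simp only [hD, Pi.sub_apply]
  ring

theorem pd_gd_y (v : Fin n → ℝ) {M : Mt n} (hA : (M⁻¹)ᵀ = M⁻¹) (l : Fin n) (y : E n) :
    pd l (fun y : E n => gd v M y) y = gd v M y * sc v M l y := by
  have h := pd_exp l ((gl_diff_y v M).differentiable (by simp) y)
  rw [pd_gl_y v hA] at h
  exact h

theorem PG_sc (hM : MF M) (hv : ∀ i, CB fun x => v x i) (l : Fin n) :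
    PG 1 (fun y x => sc (v x) (M x) l y) := by
  have h1 : PG 1 (fun (y x : E n) => v x l + ∑ j, (1 - (M x)⁻¹) l j * (y j - v x j)) := by
    refine ((PG.cst (hv l)).mono zero_le_one).add (PG.sum _ fun j _ => ?_)
    have h2 : CB fun x => (1 - (M x)⁻¹) l j := by
      simp only [Matrix.sub_apply]
      exact Tw807.cb_sub (Tw807.cb_const _) (hM.cb_inv l j)
    have := (PG.cst h2).mul (PG_D hv j)
    rwa [zero_add] at this
  exact h1

/-- residual part of the score -/
noncomputable def rs (v : Fin n → ℝ) (M : Mt n) (l : Fin n) (y : E n) : ℝ :=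
  ((1 - M⁻¹) *ᵥ (y.ofLp - v)) l

theorem PG_rs (hM : MF M) (hv : ∀ i, CB fun x => v x i) (l : Fin n) :
    PG 1 (fun y x => rs (v x) (M x) l y) := by
  have h := (PG_sc hM hv l).sub ((PG.cst (hv l)).mono zero_le_one)
  have e : (fun y x => sc (v x) (M x) l y - v x l) = fun y x => rs (v x) (M x) l y := by
    funext y x
    unfold sc rs
    ring
  rwa [e] at h

/-! ### smoothness of the label density -/

theorem fderiv_eq_smul (F : E n → ℝ) (y : E n) :
    fderiv ℝ F y = ∑ k, pd k F y • (EuclideanSpace.proj k : E n →L[ℝ] ℝ) := by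
  ext z
  rw [fderiv_eq_sum]
  simp only [FunLike.coe_sum, Finset.sum_apply, FunLike.coe_smul, Pi.smul_apply, smul_eq_mul,
    prj_apply]
  exact Finset.sum_congr rfl fun k _ => mul_comm _ _

theorem contDiff_of_pd {F : E n → ℝ} (hF : Differentiable ℝ F) (h : ∀ k, Continuous (pd k F)) :
    ContDiff ℝ 1 F := by
  rw [contDiff_one_iff_fderiv]
  refine ⟨hF, ?_⟩
  have : fderiv ℝ F = fun y => ∑ k, pd k F y • (EuclideanSpace.proj k : E n →L[ℝ] ℝ) := by
    funext y; exact fderiv_eq_smul F y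
  rw [this]
  exact continuous_finsetSum _ fun k _ => (h k).smul continuous_const

section Score

variable {μ : Measure (E n)} [IsFiniteMeasure μ] {f : E n → ℝ}

/-- local domination -/
theorem loc_bd (hM : MF M) (hv : ∀ i, CB fun x => v x i) {d : ℕ} {ψ : E n → E n → ℝ} (hψ : PB d ψ)
    (y₀ : E n) : ∃ C : ℝ, 0 ≤ C ∧ ∀ y ∈ Metric.ball y₀ 1, ∀ x, |ψ y x * gd (v x) (M x) y| ≤ C := by
  obtain ⟨K, c, hc, hle⟩ := gl_le hM hv
  obtain ⟨C, hC, hb⟩ := hψ.bd
  refine ⟨C * (1 + (‖y₀‖ + 1)) ^ d * Real.exp (K + (1 / 2) * (‖y₀‖ + 1) ^ 2), by positivity,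
    fun y hy x => ?_⟩
  have hy1 : ‖y‖ ≤ ‖y₀‖ + 1 := by
    rw [Metric.mem_ball, dist_eq_norm] at hy
    have := norm_le_norm_add_norm_sub' y y₀
    linarith
  rw [abs_mul, abs_of_pos (gd_pos _ _ _)]
  refine mul_le_mul ((hb y x).trans (mul_le_mul_of_nonneg_left ?_ hC))
    (Real.exp_le_exp.2 ((hle y x).trans ?_)) (gd_pos _ _ _).le (by positivity)
  · exact pow_le_pow_left₀ (by positivity) (by linarith) d
  · have h1 : ‖y‖ ^ 2 ≤ (‖y₀‖ + 1) ^ 2 := pow_le_pow_left₀ (norm_nonneg _) hy1 2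
    have h2 : 0 ≤ c * ‖y‖ ^ 2 := by positivity
    linarith

/-- continuity in the label of integrals against the density -/
theorem cont_int (hM : MF M) (hv : ∀ i, CB fun x => v x i) (hf : CBp f) {d : ℕ}
    {ψ : E n → E n → ℝ} (hψ : PB d ψ) (hc : ∀ x, Continuous fun y => ψ y x) :
    Continuous fun y => ∫ x, f x * (ψ y x * gd (v x) (M x) y) ∂μ := by
  obtain ⟨B, hB0, hB⟩ := hf.bdd
  rw [continuous_iff_continuousAt]
  intro y₀
  obtain ⟨C, hC, hb⟩ := loc_bd hM hv hψ y₀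
  have mq : Measurable fun z : E n × E n => ψ z.1 z.2 * gd (v z.2) (M z.2) z.1 :=
    hψ.meas.mul (gd_meas hM hv)
  refine continuousAt_of_dominated (bound := fun _ => B * C) (Eventually.of_forall fun y => ?_) ?_
    (integrable_const _) (ae_of_all _ fun x => ?_)
  · exact (hf.cont.measurable.mul (mq.comp measurable_prodMk_left)).aestronglyMeasurable
  · filter_upwards [Metric.ball_mem_nhds y₀ one_pos] with y hy
    refine ae_of_all _ fun x => ?_
    rw [Real.norm_eq_abs, abs_mul]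
    exact mul_le_mul (hB x).1 (hb y hy x) (abs_nonneg _) hB0
  · have h1 : Continuous fun y : E n => gd (v x) (M x) y := (gl_diff_y _ _).continuous.rexp
    exact (continuous_const.mul ((hc x).mul h1)).continuousAt

theorem sc_cont (v : Fin n → ℝ) (M : Mt n) (l : Fin n) : Continuous fun y : E n => sc v M l y := by
  have : (fun y : E n => sc v M l y) = fun y : E n => v l + ∑ j, (1 - M⁻¹) l j * (y j - v j) := rfl
  rw [this]
  fun_prop

/-- the score as a vector -/
noncomputable def scv (v : Fin n → ℝ) (M : Mt n) (y : E n) : E n :=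
  WithLp.toLp 2 fun k => sc v M k y

theorem norm_le_sum (z : E n) : ‖z‖ ≤ ∑ k, |z k| := by
  have h := norm_sum_le (Finset.univ : Finset (Fin n))
    (fun k => z k • (EuclideanSpace.single k (1 : ℝ) : E n))
  rw [← vec_eq_sum z] at h
  refine h.trans (Finset.sum_le_sum fun k _ => ?_)
  rw [norm_smul, Real.norm_eq_abs, EuclideanSpace.norm_single]
  simp

/-- derivative of the integrand -/
noncomputable def FF (f : E n → ℝ) (v : E n → Fin n → ℝ) (M : E n → Mt n) (y x : E n) :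
    E n →L[ℝ] ℝ :=
  (f x * gd (v x) (M x) y) • innerSL ℝ (scv (v x) (M x) y)

theorem FF_apply (f : E n → ℝ) (v : E n → Fin n → ℝ) (M : E n → Mt n) (y x : E n) (l : Fin n) :
    FF f v M y x (EuclideanSpace.single l (1 : ℝ)) =
      f x * (sc (v x) (M x) l y * gd (v x) (M x) y) := by
  unfold FF scv
  simp only [FunLike.coe_smul, Pi.smul_apply, smul_eq_mul, innerSL_apply_apply]
  rw [real_inner_comm, EuclideanSpace.inner_single_left]
  simp only [map_one, one_mul]
  ring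

theorem FF_deriv (hM : MF M) (f : E n → ℝ) (x y : E n) :
    HasFDerivAt (fun y => f x * gp v M y x) (FF f v M y x) y := by
  have h1 : DifferentiableAt ℝ (fun y : E n => gd (v x) (M x) y) y :=
    ((gl_diff_y _ _).exp).differentiable (by simp) y
  have h2 := h1.hasFDerivAt.const_mul (f x)
  refine h2.congr_fderiv ?_
  ext z
  simp only [FunLike.coe_smul, Pi.smul_apply, smul_eq_mul, FF, innerSL_apply_apply, scv]
  have h3 : fderiv ℝ (fun y : E n => gd (v x) (M x) y) y z =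
      gd (v x) (M x) y * ∑ k, z k * sc (v x) (M x) k y := by
    rw [fderiv_eq_sum, Finset.mul_sum]
    refine Finset.sum_congr rfl fun k _ => ?_
    rw [pd_gd_y _ (hM.symm_inv x)]
    ring
  have h4 : (⟪(WithLp.toLp 2 fun k => sc (v x) (M x) k y : E n), z⟫ : ℝ) =
      ∑ k, z k * sc (v x) (M x) k y := by
    rw [PiLp.inner_apply]
    refine Finset.sum_congr rfl fun k _ => ?_
    simp
  rw [h4]
  have h5 : fderiv ℝ (fun y : E n => gp v M y x) y z = fderiv ℝ (fun y : E n => gd (v x) (M x) y) y z :=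
    rfl
  rw [mul_assoc, ← h3]

theorem FF_bd (hM : MF M) (hv : ∀ i, CB fun x => v x i) (hf : CBp f) (y₀ : E n) :
    ∃ C : ℝ, ∀ y ∈ Metric.ball y₀ 1, ∀ x, ‖FF f v M y x‖ ≤ C := by
  obtain ⟨B, hB0, hB⟩ := hf.bdd
  have h1 : ∀ k, ∃ C : ℝ, 0 ≤ C ∧ ∀ y ∈ Metric.ball y₀ 1, ∀ x,
      |sc (v x) (M x) k y * gd (v x) (M x) y| ≤ C := fun k => loc_bd hM hv (PG_sc hM hv k).pb y₀
  choose C hC hb using h1
  refine ⟨B * ∑ k, C k, fun y hy x => ?_⟩
  unfold FF
  rw [norm_smul, Real.norm_eq_abs, abs_mul, innerSL_apply_norm, mul_assoc]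
  refine mul_le_mul (hB x).1 ?_ (mul_nonneg (abs_nonneg _) (norm_nonneg _)) hB0
  refine (mul_le_mul_of_nonneg_left (norm_le_sum _) (abs_nonneg _)).trans ?_
  rw [Finset.mul_sum]
  refine Finset.sum_le_sum fun k _ => ?_
  rw [← abs_mul, mul_comm]
  exact hb k y hy x

theorem FF_meas (hM : MF M) (hv : ∀ i, CB fun x => v x i) (hf : CBp f) (y : E n) :
    Measurable (fun x => FF f v M y x) := by
  have mg := gd_meas hM hv
  have h1 : Measurable fun x => scv (v x) (M x) y := by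
    unfold scv
    refine (PiLp.continuous_toLp 2 _).measurable.comp (measurable_pi_lambda _ fun k => ?_)
    exact (PG_sc hM hv k).meas.comp measurable_prodMk_left
  have h2 : Measurable fun x => innerSL ℝ (scv (v x) (M x) y) :=
    (innerSL ℝ).continuous.measurable.comp h1
  exact (hf.cont.measurable.mul (mg.comp measurable_prodMk_left)).smul h2

theorem FF_int (hM : MF M) (hv : ∀ i, CB fun x => v x i) (hf : CBp f) (y : E n) :
    Integrable (fun x => FF f v M y x) μ := by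
  obtain ⟨C, hC⟩ := FF_bd hM hv hf y
  exact (integrable_const C).mono' (FF_meas hM hv hf y).aestronglyMeasurable
    (ae_of_all _ fun x => hC y (Metric.mem_ball_self one_pos) x)

theorem pJ_hasFDeriv (hM : MF M) (hv : ∀ i, CB fun x => v x i) (hf : CBp f) (y₀ : E n) :
    HasFDerivAt (fun y => ∫ x, f x * gp v M y x ∂μ) (∫ x, FF f v M y₀ x ∂μ) y₀ := by
  obtain ⟨B, hB0, hB⟩ := hf.bdd
  have mg := gd_meas hM hv
  obtain ⟨C, hC⟩ := FF_bd hM hv hf y₀
  have a1 : ∀ᶠ y in 𝓝 y₀, AEStronglyMeasurable (fun x => f x * gp v M y x) μ :=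
    Eventually.of_forall fun y =>
      (hf.cont.measurable.mul (mg.comp measurable_prodMk_left)).aestronglyMeasurable
  have a2 : Integrable (fun x => f x * gp v M y₀ x) μ := by
    have := ((PB.one (n := n)).fub (μ := μ) hM hv hf.cont.measurable
        (fun x => (hB x).1)).1 y₀
    simpa [gp] using this
  exact hasFDerivAt_integral_of_dominated_of_fderiv_le (F := fun y x => f x * gp v M y x)
    (F' := fun y x => FF f v M y x) (bound := fun _ => C)
    (Metric.ball_mem_nhds y₀ one_pos) a1 a2 (FF_int hM hv hf y₀).aestronglyMeasurable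
    (ae_of_all _ fun x y hy => hC y hy x) (integrable_const _)
    (ae_of_all _ fun x y _ => FF_deriv hM f x y)

/-- derivative of the label density -/
theorem pJ_smooth (hM : MF M) (hv : ∀ i, CB fun x => v x i) (hf : CBp f) :
    ContDiff ℝ 1 (pJ μ f (gp v M)) ∧ ∀ l y, pd l (pJ μ f (gp v M)) y =
      ∫ x, f x * (sc (v x) (M x) l y * gd (v x) (M x) y) ∂μ := by
  have key : ∀ y₀, HasFDerivAt (pJ μ f (gp v M)) (∫ x, FF f v M y₀ x ∂μ) y₀ := fun y₀ =>
    pJ_hasFDeriv hM hv hf y₀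
  have hpd : ∀ l y, pd l (pJ μ f (gp v M)) y =
      ∫ x, f x * (sc (v x) (M x) l y * gd (v x) (M x) y) ∂μ := by
    intro l y
    unfold pd
    rw [(key y).fderiv, ContinuousLinearMap.integral_apply (FF_int hM hv hf y)]
    exact integral_congr_ae (ae_of_all _ fun x => FF_apply f v M y x l)
  refine ⟨contDiff_of_pd (fun y => (key y).differentiableAt) fun l => ?_, hpd⟩
  have : pd l (pJ μ f (gp v M)) = fun y =>
      ∫ x, f x * (sc (v x) (M x) l y * gd (v x) (M x) y) ∂μ := by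
    funext y; exact hpd l y
  rw [this]
  exact cont_int hM hv hf ((PG_sc hM hv l).pb) fun x => sc_cont _ _ l

/-- weighted Cauchy–Schwarz -/
theorem cs_w {α : Type*} [MeasurableSpace α] {μ : Measure α} {r w : α → ℝ} (hw : ∀ x, 0 ≤ w x)
    (h0 : Integrable w μ) (h1 : Integrable (fun x => r x * w x) μ)
    (h2 : Integrable (fun x => r x ^ 2 * w x) μ) (hp : 0 < ∫ x, w x ∂μ) :
    (∫ x, r x * w x ∂μ) ^ 2 / ∫ x, w x ∂μ ≤ ∫ x, r x ^ 2 * w x ∂μ := by
  set a := ∫ x, r x * w x ∂μ with ha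
  set W := ∫ x, w x ∂μ with hW
  set t := a / W with ht
  have h3 : 0 ≤ ∫ x, (r x - t) ^ 2 * w x ∂μ := integral_nonneg fun x =>
    mul_nonneg (sq_nonneg _) (hw x)
  have e : ∫ x, (r x - t) ^ 2 * w x ∂μ = (∫ x, r x ^ 2 * w x ∂μ) - 2 * t * a + t ^ 2 * W := by
    have : (fun x => (r x - t) ^ 2 * w x) =
        fun x => (r x ^ 2 * w x - 2 * t * (r x * w x)) + t ^ 2 * w x := by
      funext x; ring
    have h4 : Integrable (fun x => r x ^ 2 * w x - 2 * t * (r x * w x)) μ :=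
      h2.sub (h1.const_mul _)
    rw [this, integral_add h4 (h0.const_mul _),
      integral_sub h2 (h1.const_mul _), integral_const_mul, integral_const_mul]
  rw [e, ht] at h3
  have h4 : (∫ x, r x ^ 2 * w x ∂μ) - 2 * (a / W) * a + (a / W) ^ 2 * W =
      (∫ x, r x ^ 2 * w x ∂μ) - a ^ 2 / W := by
    field_simp
    ring
  rw [h4] at h3
  linarith

theorem pJ_eq (y : E n) : pJ μ f (gp v M) y = ∫ x, f x * ((1 : ℝ) * gd (v x) (M x) y) ∂μ := by
  unfold pJ gp
  simp only [one_mul]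

theorem pJ_pos' (hM : MF M) (hv : ∀ i, CB fun x => v x i) (hf : CBp f) (h1 : ∫ x, f x ∂μ = 1)
    (y : E n) : 0 < pJ μ f (gp v M) y := by
  obtain ⟨G, h, hp⟩ := gchan hM hv
  exact (pJ_bd hp hf h1 y).1

/-- energy of a conditional expectation -/
theorem ce_le (hM : MF M) (hv : ∀ i, CB fun x => v x i) (hf : CBp f) (h1 : ∫ x, f x ∂μ = 1)
    {d : ℕ} {ψ : E n → E n → ℝ} (hψ : PB d ψ) (y : E n) :
    (∫ x, f x * (ψ y x * gd (v x) (M x) y) ∂μ) ^ 2 / pJ μ f (gp v M) y ≤
      ∫ x, f x * (ψ y x ^ 2 * gd (v x) (M x) y) ∂μ := by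
  obtain ⟨B, hB0, hB⟩ := hf.bdd
  have mf := hf.cont.measurable
  have i0 := ((PB.one (n := n)).fub (μ := μ) hM hv mf fun x => (hB x).1).1 y
  have i1 := (hψ.fub (μ := μ) hM hv mf fun x => (hB x).1).1 y
  have i2 := ((hψ.mul hψ).fub (μ := μ) hM hv mf fun x => (hB x).1).1 y
  simp only [one_mul] at i0
  have h := cs_w (μ := μ) (r := fun x => ψ y x) (w := fun x => f x * gd (v x) (M x) y)
    (fun x => mul_nonneg (hf.pos x).le (Real.exp_pos _).le) i0
    (i1.congr (ae_of_all _ fun x => by simp only; ring))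
    (i2.congr (ae_of_all _ fun x => by simp only; ring)) (pJ_pos' hM hv hf h1 y)
  have e1 : ∫ x, ψ y x * (f x * gd (v x) (M x) y) ∂μ = ∫ x, f x * (ψ y x * gd (v x) (M x) y) ∂μ :=
    integral_congr_ae (ae_of_all _ fun x => by simp only; ring)
  have e2 : ∫ x, ψ y x ^ 2 * (f x * gd (v x) (M x) y) ∂μ =
      ∫ x, f x * (ψ y x ^ 2 * gd (v x) (M x) y) ∂μ :=
    integral_congr_ae (ae_of_all _ fun x => by simp only; ring)
  rw [e1, e2] at h
  exact h

theorem ce_int (hM : MF M) (hv : ∀ i, CB fun x => v x i) (hf : CBp f) (h1 : ∫ x, f x ∂μ = 1)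
    {d : ℕ} {ψ : E n → E n → ℝ} (hψ : PB d ψ) :
    Integrable (fun y => (∫ x, f x * (ψ y x * gd (v x) (M x) y) ∂μ) ^ 2 / pJ μ f (gp v M) y)
      (gam n) := by
  obtain ⟨B, hB0, hB⟩ := hf.bdd
  have mf := hf.cont.measurable
  have F1 := hψ.fub (μ := μ) hM hv mf fun x => (hB x).1
  have F2 := (hψ.mul hψ).fub (μ := μ) hM hv mf fun x => (hB x).1
  have i3 : Integrable (fun y => ∫ x, f x * (ψ y x ^ 2 * gd (v x) (M x) y) ∂μ) (gam n) :=
    F2.2.2.1.congr (ae_of_all _ fun y => integral_congr_ae (ae_of_all _ fun x => by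
      simp only; ring))
  obtain ⟨G, h, hp⟩ := gchan hM hv
  have hm1 : AEStronglyMeasurable (fun y => ∫ x, f x * (ψ y x * gd (v x) (M x) y) ∂μ) (gam n) :=
    F1.2.2.1.aestronglyMeasurable
  have hm2 : AEStronglyMeasurable (pJ μ f (gp v M)) (gam n) := (pJ_meas hp hf).aestronglyMeasurable
  have hm3 : AEStronglyMeasurable (fun y => (∫ x, f x * (ψ y x * gd (v x) (M x) y) ∂μ) ^ 2 /
      pJ μ f (gp v M) y) (gam n) :=
    ((hm1.aemeasurable.pow_const 2).div hm2.aemeasurable).aestronglyMeasurable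
  refine i3.mono' hm3 (ae_of_all _ fun y => ?_)
  rw [Real.norm_eq_abs, abs_of_nonneg (div_nonneg (sq_nonneg _) (pJ_pos' hM hv hf h1 y).le)]
  exact ce_le hM hv hf h1 hψ y

/-- `E |(1 - M⁻¹)(J - v)|² = tr (M + M⁻¹ - 2)` -/
theorem rs_moment (hM : MF M) (hv : ∀ i, CB fun x => v x i) (x : E n) :
    ∑ l, ∫ y, rs (v x) (M x) l y ^ 2 * gd (v x) (M x) y ∂(gam n) =
      (M x).trace + (M x)⁻¹.trace - 2 * n := by
  obtain ⟨B, hBs, hBB, hB⟩ := hM.root x
  have hu : IsUnit B.det := isUnit_iff_ne_zero.2 hB.ne'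
  have h1 : ∀ l, ∫ y, rs (v x) (M x) l y ^ 2 * gd (v x) (M x) y ∂(gam n) =
      (((1 - (M x)⁻¹) * B) l) ⬝ᵥ (((1 - (M x)⁻¹) * B) l) := by
    intro l
    have := (gd_cov (v x) hBs hB fun y => rs (v x) (M x) l y ^ 2).2
    rw [hBB] at this
    rw [this, int_gam]
    have e : ∀ g : E n, rs (v x) (M x) l (am (v x) B g) ^ 2 =
        (∑ i, ((1 - (M x)⁻¹) * B) l i * g i) * ∑ i, ((1 - (M x)⁻¹) * B) l i * g i := by
      intro g
      unfold rs
      rw [am_ofLp, add_sub_cancel_left, Matrix.mulVec_mulVec, sq]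
      rfl
    simp only [e]
    exact mll _ _
  simp only [h1]
  have h2 : ∑ l, (((1 - (M x)⁻¹) * B) l) ⬝ᵥ (((1 - (M x)⁻¹) * B) l) =
      (((1 - (M x)⁻¹) * B) * ((1 - (M x)⁻¹) * B)ᵀ).trace := by
    simp only [Matrix.trace, diag_apply, Matrix.mul_apply, transpose_apply, dotProduct]
  have hMi : (M x)⁻¹ * M x = 1 := Matrix.nonsing_inv_mul _ (hM.unit x)
  rw [h2, Matrix.transpose_mul, hBs, Matrix.mul_assoc, ← Matrix.mul_assoc B B, hBB,
    Matrix.transpose_sub, Matrix.transpose_one, hM.symm_inv]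
  have h3 : (1 - (M x)⁻¹) * (M x * (1 - (M x)⁻¹)) = M x + (M x)⁻¹ - 1 - 1 := by
    have hMi' : M x * (M x)⁻¹ = 1 := Matrix.mul_nonsing_inv _ (hM.unit x)
    rw [Matrix.mul_sub, Matrix.mul_one, hMi', Matrix.sub_mul, Matrix.one_mul, Matrix.mul_sub, hMi,
      Matrix.mul_one]
    abel
  rw [h3, Matrix.trace_sub, Matrix.trace_sub, Matrix.trace_add, Matrix.trace_one, Fintype.card_fin]
  ring

/-- energy of the conditional mean of `v` given the label -/
noncomputable def CE (μ : Measure (E n)) (f : E n → ℝ) (v : E n → Fin n → ℝ) (M : E n → Mt n)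
    (u : E n → Fin n → ℝ) : ℝ :=
  ∫ y, (∑ l, (∫ x, f x * (u x l * gd (v x) (M x) y) ∂μ) ^ 2) / pJ μ f (gp v M) y ∂(gam n)

/-- **law part of a Gaussian channel** -/
theorem Dis_le (hM : MF M) (hv : ∀ i, CB fun x => v x i) (hf : CBp f) (h1 : ∫ x, f x ∂μ = 1)
    {t : ℝ} (ht : 0 < t) :
    Dis μ f v M ≤ (1 + t) / 2 * CE μ f v M v +
      (1 + t⁻¹) / 2 * ∫ x, f x * ((M x).trace + (M x)⁻¹.trace - 2 * n) ∂μ := by
  obtain ⟨B, hB0, hB⟩ := hf.bdd
  have mf := hf.cont.measurable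
  obtain ⟨hsm, hpd⟩ := pJ_smooth (μ := μ) hM hv hf
  obtain ⟨G, h, hp⟩ := gchan hM hv
  have hpos := pJ_pos' (μ := μ) hM hv hf h1
  have F0 := (PB.one (n := n)).fub (μ := μ) hM hv mf fun x => (hB x).1
  have ipJ : Integrable (pJ μ f (gp v M)) (gam n) :=
    F0.2.2.1.congr (ae_of_all _ fun y => (pJ_eq y).symm)
  have one : ∫ y, pJ μ f (gp v M) y ∂(gam n) = 1 := by
    have e : ∫ y, pJ μ f (gp v M) y ∂(gam n) =
        ∫ y, ∫ x, f x * ((1 : ℝ) * gd (v x) (M x) y) ∂μ ∂(gam n) :=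
      integral_congr_ae (ae_of_all _ fun y => pJ_eq y)
    rw [e, F0.2.2.2.2]
    simp only [one_mul, (gp_moments hM hv _).1, mul_one]
    exact h1
  have hsc := fun l => (PG_sc hM hv l).pb
  have hrs := fun l => (PG_rs hM hv l).pb
  have hvb : ∀ l, PB 0 (fun _ x => v x l) := fun l => (PG.cst (hv l)).pb
  have efd : ∀ y, ‖fderiv ℝ (pJ μ f (gp v M)) y‖ ^ 2 / pJ μ f (gp v M) y =
      ∑ l, (∫ x, f x * (sc (v x) (M x) l y * gd (v x) (M x) y) ∂μ) ^ 2 / pJ μ f (gp v M) y := by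
    intro y
    rw [norm_fderiv_sq, Finset.sum_div]
    simp only [hpd]
  have ice : Integrable (fun y => ‖fderiv ℝ (pJ μ f (gp v M)) y‖ ^ 2 / pJ μ f (gp v M) y)
      (gam n) := by
    simp only [efd]
    exact integrable_finsetSum _ fun l _ => ce_int hM hv hf h1 (hsc l)
  have key := (NSL674.gauss_lsi hsm hpos (by rw [← gam_eq]; exact ipJ)
    (by rw [← gam_eq]; exact ice)).2
  rw [← gam_eq, one, Real.log_one, mul_zero, sub_zero] at key
  unfold Dis
  refine key.trans ?_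
  simp only [efd]
  -- pointwise
  have iv := fun l => ce_int (μ := μ) hM hv hf h1 (hvb l)
  have ir : ∀ l, Integrable (fun y => ∫ x, f x * (rs (v x) (M x) l y ^ 2 *
      gd (v x) (M x) y) ∂μ) (gam n) := fun l =>
    (((hrs l).mul (hrs l)).fub (μ := μ) hM hv mf fun x => (hB x).1).2.2.1.congr
      (ae_of_all _ fun y => integral_congr_ae (ae_of_all _ fun x => by simp only; ring))
  have hpt : ∀ l y, (∫ x, f x * (sc (v x) (M x) l y * gd (v x) (M x) y) ∂μ) ^ 2 /
      pJ μ f (gp v M) y ≤ (1 + t) * ((∫ x, f x * (v x l * gd (v x) (M x) y) ∂μ) ^ 2 /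
        pJ μ f (gp v M) y) + (1 + t⁻¹) * ∫ x, f x * (rs (v x) (M x) l y ^ 2 *
      gd (v x) (M x) y) ∂μ := by
    intro l y
    have i1 := ((hvb l).fub (μ := μ) hM hv mf fun x => (hB x).1).1 y
    have i2 := ((hrs l).fub (μ := μ) hM hv mf fun x => (hB x).1).1 y
    have e1 : ∫ x, f x * (sc (v x) (M x) l y * gd (v x) (M x) y) ∂μ =
        (∫ x, f x * (v x l * gd (v x) (M x) y) ∂μ) +
          ∫ x, f x * (rs (v x) (M x) l y * gd (v x) (M x) y) ∂μ := by
      rw [← integral_add i1 i2]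
      refine integral_congr_ae (ae_of_all _ fun x => ?_)
      simp only [sc, rs]
      ring
    have h3 := ce_le (μ := μ) hM hv hf h1 (hrs l) y
    rw [e1]
    set a := ∫ x, f x * (v x l * gd (v x) (M x) y) ∂μ
    set b := ∫ x, f x * (rs (v x) (M x) l y * gd (v x) (M x) y) ∂μ
    have h4 : (a + b) ^ 2 ≤ (1 + t) * a ^ 2 + (1 + t⁻¹) * b ^ 2 := by
      have h5 : 0 ≤ t⁻¹ * (t * a - b) ^ 2 := by positivity
      have h6 : t⁻¹ * (t * a - b) ^ 2 = t * a ^ 2 - 2 * a * b + t⁻¹ * b ^ 2 := by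
        field_simp
        ring
      nlinarith
    have h7 := div_le_div_of_nonneg_right h4 (hpos y).le
    rw [add_div, mul_div_assoc, mul_div_assoc] at h7
    have h8 : (1 + t⁻¹) * (b ^ 2 / pJ μ f (gp v M) y) ≤ (1 + t⁻¹) *
        ∫ x, f x * (rs (v x) (M x) l y ^ 2 * gd (v x) (M x) y) ∂μ :=
      mul_le_mul_of_nonneg_left h3 (by positivity)
    linarith
  have hint : ∫ y, ∑ l, (∫ x, f x * (sc (v x) (M x) l y * gd (v x) (M x) y) ∂μ) ^ 2 /
      pJ μ f (gp v M) y ∂(gam n) ≤ (1 + t) * CE μ f v M v +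
      (1 + t⁻¹) * ∫ x, f x * ((M x).trace + (M x)⁻¹.trace - 2 * n) ∂μ := by
    have e2 : CE μ f v M v = ∑ l, ∫ y, (∫ x, f x * (v x l * gd (v x) (M x) y) ∂μ) ^ 2 /
        pJ μ f (gp v M) y ∂(gam n) := by
      unfold CE
      rw [← integral_finsetSum _ fun l _ => iv l]
      simp only [Finset.sum_div]
    have e3 : ∫ x, f x * ((M x).trace + (M x)⁻¹.trace - 2 * n) ∂μ =
        ∑ l, ∫ y, ∫ x, f x * (rs (v x) (M x) l y ^ 2 * gd (v x) (M x) y) ∂μ ∂(gam n) := by
      have F3 := fun l => ((hrs l).mul (hrs l)).fub (μ := μ) hM hv mf fun x => (hB x).1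
      have e4 : ∀ l, ∫ y, ∫ x, f x * (rs (v x) (M x) l y ^ 2 * gd (v x) (M x) y) ∂μ ∂(gam n) =
          ∫ x, f x * ∫ y, rs (v x) (M x) l y ^ 2 * gd (v x) (M x) y ∂(gam n) ∂μ := by
        intro l
        have := (F3 l).2.2.2.2
        simp only [← sq] at this
        exact this
      simp only [e4]
      have i5 : ∀ l, Integrable (fun x => f x * ∫ y, rs (v x) (M x) l y ^ 2 *
          gd (v x) (M x) y ∂(gam n)) μ := by
        intro l
        have := (F3 l).2.2.2.1
        simp only [← sq] at this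
        exact this
      rw [← integral_finsetSum _ fun l _ => i5 l]
      refine integral_congr_ae (ae_of_all _ fun x => ?_)
      simp only
      rw [← Finset.mul_sum, rs_moment hM hv x]
    rw [e2, e3, Finset.mul_sum, Finset.mul_sum, ← Finset.sum_add_distrib,
      integral_finsetSum _ fun l _ => ce_int hM hv hf h1 (hsc l)]
    refine Finset.sum_le_sum fun l _ => ?_
    rw [← integral_const_mul, ← integral_const_mul,
      ← integral_add ((iv l).const_mul _) ((ir l).const_mul _)]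
    exact integral_mono (ce_int hM hv hf h1 (hsc l)) (((iv l).const_mul _).add
      ((ir l).const_mul _)) (hpt l)
  linarith

end Score

end Crest.Agent.R201.LL809
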