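import Crest.Agent.R201.Defs2_74

/-!
# R201: LITERAL LEAF STATEMENTS of the tensor side (sections 3–10).  `sorry`-file, never imported.
Every leaf is proved in its own file `R201/<Leaf>_<seat>.lean` with exactly this statement.
-/

set_option autoImplicit false
open MeasureTheory Matrix

namespace Crest.Agent.R201

variable {n : ℕ}

/-! ## MATRIX LEAVES (no measure) -/

/-- MX1 root: existence, uniqueness -/
theorem rt_spec {m : Type} [Fintype m] [DecidableEq m] {S : Matrix m m ℝ} (hS : S.PosSemidef) :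
    (rt S).PosSemidef ∧ rt S * rt S = S := sorry

theorem rt_unique {m : Type} [Fintype m] [DecidableEq m] {S T : Matrix m m ℝ}
    (hT : T.PosSemidef) (h : T * T = S) : rt S = T := sorry

/-- MX2 roots are `√2`-Lipschitz in HS (Araki–Yamagami / Powers–Størmer type) -/
theorem rt_lip {m m' : Type} [Fintype m] [DecidableEq m] [Fintype m'] (A B : Matrix m m' ℝ) :
    hs (rt (A * Aᵀ) - rt (B * Bᵀ)) ≤ 2 * hs (A - B) := sorry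

/-- MX3 root is operator monotone (form version) -/
theorem rt_mono {m : Type} [Fintype m] [DecidableEq m] {S T : Matrix m m ℝ}
    (hS : S.PosSemidef) (hT : T.PosSemidef) (h : LeQ S T) : LeQ (rt S) (rt T) := sorry

/-- MX4 Lyapunov equation -/
theorem lyap {Z Y : Mt n} (hZ : Z.PosDef) (hY : Yᵀ = Y) :
    ∃ A : Mt n, Aᵀ = A ∧ A * Z + Z * A = Y := sorry

/-- MX5 bracket (KMS contraction) -/
theorem bracket {R : Type} [Fintype R] {M : T3 n R} (hM : Sym3 M) {Z A : Mt n}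
    (hZ : Z.PosDef) (hZM : Z * Z = gram M M) (hA : Aᵀ = A) :
    ip (act1 A M) (act2 A M) ≤ (A * Z * A * Z).trace := sorry

/-- MX6 the no-broadcasting identity, consequence -/
theorem nb_point {R : Type} [Fintype R] {M N : T3 n R} (hM : Sym3 M) (hN : Sym3 N) {Z Y A : Mt n}
    (hZ : Z.PosDef) (hZM : Z * Z = gram M M) (hY : Yᵀ = Y)
    (hYN : Y * Z + Z * Y = gram N M + gram M N) (hA : Aᵀ = A) (hAY : A * Z + Z * A = Y) :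
    ip (N - 2 • act1 A M) (N - 2 • act1 A M) + ip (act1 A M - act2 A M) (act1 A M - act2 A M)
      + hs (A * Z - Z * A) ≤ 20 * (ip N N - hs Y) := sorry

/-- MX6' nonnegativity, for a direction -/
theorem hs_Y_le {R : Type} [Fintype R] {M N : T3 n R} (hM : Sym3 M) (hN : Sym3 N) {Z Y : Mt n}
    (hZ : Z.PosDef) (hZM : Z * Z = gram M M) (hY : Yᵀ = Y)
    (hYN : Y * Z + Z * Y = gram N M + gram M N) : hs Y ≤ ip N N := sorry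

/-- MX7 sections 3+4 at a point: a bounded connection with all errors `≤ C err` -/
theorem conn_exists : ∃ C' C : ℝ, 0 < C' ∧ 0 < C ∧ ∀ (n : ℕ) (R : Type) [Fintype R] (p : PtD n R),
    ∃ B, Conn p C' (C * p.err) B := sorry

/-- MX8 = MX7 + section 6 at a point.  `p` data of `(M,Z)`, `p'` data of `(M',Z')`. -/
theorem slow_point : ∃ C' C : ℝ, 0 < C' ∧ 0 < C ∧ ∀ (n : ℕ) (R : Type) [Fintype R]
    (p : PtD n R) (Mp : Fin n → T3 n R) (p' : PtD n (R ⊕ (R × Fin n)))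
    (hM' : p'.M = bigM p.M Mp)
    (hN' : ∀ k a b c r, p'.N k a b c (Sum.inl r) = p.N k a b c r / 4)
    (hMp : ∀ k, Sym3 (Mp k)) (d : ℝ) (hd : 0 < d)
    (Sd : Fin n → Mt n) (hSd : ∀ k, (Sd k)ᵀ = Sd k)
    (hSd' : ∀ k,
      Sd k * rt ((p.Z - 2 • p'.Z) * (p.Z - 2 • p'.Z) + d ^ 2 • 1)
        + rt ((p.Z - 2 • p'.Z) * (p.Z - 2 • p'.Z) + d ^ 2 • 1) * Sd k
      = (p.Z - 2 • p'.Z) * (p.Y k - 2 • p'.Y k) + (p.Y k - 2 • p'.Y k) * (p.Z - 2 • p'.Z))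
    (e : ℝ) (he : p.err + p'.err + (∑ k, ip (p.N k - Mp k) (p.N k - Mp k)) + n * d ^ 2 ≤ e),
    ∃ (B : Fin n → Mt n) (Θ L : Mt n), Conn p C' (C * e) B ∧
      Θᵀ = Θ ∧ Θ * Θ = Θ ∧ Lᵀ = L ∧ LeQ 0 L ∧ LeQ L (32 • (1 : Mt n)) ∧
      L * (4 • ∑ k, B k * B k) = 1 - Θ ∧
      (∑ k, hs ((1 / 2 : ℝ) • ((p.Y k - 2 • p'.Y k) + Sd k)) ≤
        (1 / 2) * hs (ppd d (p.Z - 2 • p'.Z)) + C * e) ∧
      hs (Θ * p.Z) ≤ C * (hs (ppd d (p.Z - 2 • p'.Z)) + e) := sorry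

/-- MX9 the `T`-term at a point (section 5) -/
theorem tterm_point : ∀ C' : ℝ, 0 < C' → ∃ C : ℝ, 0 < C ∧ ∀ (n : ℕ) (ι : Type) [Fintype ι]
    (Z P β : Mt n) (B Pk : Fin n → Mt n) (Bc H : T2 n ι) (Gk : Fin n → T2 n ι) (X s : ℝ)
    (hX : 1 ≤ X) (hs0 : 0 < s) (hZ : Z.PosDef) (hPs : Pᵀ = P) (hP0 : LeQ 0 P) (hP1 : LeQ P 1)
    (hβ : β.PosSemidef) (hβ2 : β * β = gramA Bc Bc)
    (hB : ∀ k, (B k)ᵀ = B k) (hBb : LeQ (∑ k, B k * B k) (C' • (1 : Mt n)))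
    (hPk : ∀ k, (Pk k)ᵀ = Pk k) (hH : LeQ (gramA H H) (Z * Z)) (e : ℝ)
    (he1 : ∑ k, hs (Z * B k - B k * Z) ≤ e)
    (he2 : ∑ k, ip2 (Gk k - 2 • actA (B k) H) (Gk k - 2 • actA (B k) H) ≤ e),
    |∑ k, ip2 (actP (Pk k) Bc) (Gk k)| ≤
      C * (Real.sqrt (∑ k, ip2 (actP (Pk k) Bc) (actP (Pk k) Bc))
            * Real.sqrt (e + X * s * (β * Z).trace)
        + Real.sqrt (∑ k, ip2 (actP (Pk k) H) (actP (Pk k) H))
            * Real.sqrt (e / (X ^ 2 * s ^ 2) + hs (P * β) + hs ((1 - P) * Z) / (X ^ 2 * s ^ 2))) :=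
  sorry

/-- MX10 level 2 at a point (section 7).  `H = Ψ̃₃` (slots `k a p`), `P` on the last slot, `B` on the
middle slot, `N l = D_l Ψ̃₃`; `e` bounds all errors and the slow part, `e4` the swap error. -/
theorem level2_point : ∀ C' : ℝ, 0 < C' → ∃ C : ℝ, 0 < C ∧ ∀ (n : ℕ)
    (Z P β : Mt n) (B Pk : Fin n → Mt n) (Bc : Mt n) (H : T3 n Unit) (N : Fin n → T3 n Unit)
    (Θ L : Mt n) (X s h : ℝ)
    (hX : 1 ≤ X) (hs0 : 0 < s) (hh : 0 < h) (hZ : Z.PosDef) (hPs : Pᵀ = P) (hP0 : LeQ 0 P)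
    (hP1 : LeQ P 1)
    (hβ : β.PosSemidef) (hβ2 : β * β = Bc * Bcᵀ)
    (hB : ∀ k, (B k)ᵀ = B k) (hBb : LeQ (∑ k, B k * B k) (C' • (1 : Mt n)))
    (hPk : ∀ k, (Pk k)ᵀ = Pk k) (hPkb : LeQ (∑ k, Pk k * Pk k) ((4 / h) • (P * (1 - P))))
    (hHs : Sym3 H) (hH : LeQ (gram H H) (Z * Z))
    (hΘ : Θᵀ = Θ) (hΘ2 : Θ * Θ = Θ) (hL : Lᵀ = L) (hL0 : LeQ 0 L) (hL1 : LeQ L (32 • (1 : Mt n)))
    (hLN : L * (4 • ∑ k, B k * B k) = 1 - Θ) (e : ℝ)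
    (he2 : ∑ l, ip (N l - 2 • act2 (B l) H) (N l - 2 • act2 (B l) H) ≤ e)
    (heΘ : hs (Θ * Z) ≤ e)
    (he4 : ∑ k, ∑ l, ∑ b, ∑ c, (N l k b c () - N k l b c ()) ^ 2 ≤ e),
    |∑ k, ∑ b, ∑ c, (∑ c', Pk k c c' * Bc b c') * H k b c ()| ≤
      C * (Real.sqrt (∑ k, hs (Bc * Pk k)) * Real.sqrt (X * s * (β * Z).trace)
        + (Real.sqrt (∑ k, ip (act3 (Pk k) H) (act3 (Pk k) H)) + Real.sqrt (e / h))
            * Real.sqrt (hs (P * β) + hs ((1 - P) * Z) / (X ^ 2 * s ^ 2))) := sorry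

/-- MX11 affinity domination (section 9(i)) for two tensors `S, T : (k ; a ; a')`:
bipartitions `a | (k,a')` and `k | (a,a')` -/
theorem affinity (S T : Fin n → Mt n) (Ra Ra' Rk Rk' : Mt n)
    (hRa : Ra.PosSemidef) (hRa' : Ra'.PosSemidef) (hRk : Rk.PosSemidef) (hRk' : Rk'.PosSemidef)
    (h1 : LeQ (∑ k, S k * (S k)ᵀ) (Ra * Ra)) (h2 : LeQ (∑ k, T k * (T k)ᵀ) (Ra' * Ra'))
    (h3 : LeQ (Matrix.of fun k l => (S k * (S l)ᵀ).trace) (Rk * Rk))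
    (h4 : LeQ (Matrix.of fun k l => (T k * (T l)ᵀ).trace) (Rk' * Rk')) :
    |∑ k, (S k * (T k)ᵀ).trace| ≤
      Real.sqrt ((Ra * Ra').trace) * Real.sqrt ((Rk * Rk').trace) := sorry

/-! ## FIELD LEAVES -/

section

variable (K : KD n)

/-- bilinear form of `q` -/
noncomputable def KD.qb {ι : Type*} [Fintype ι] (f g : ι → E n → ℝ) : ℝ :=
  ∑ i, ((∑ k, ∫ x, pd k (f i) x * pd k (g i) x ∂K.μ)
    + K.kp * (∑ k, (∫ x, K.ω k x * f i x ∂K.μ) * (∫ x, K.ω k x * g i x ∂K.μ))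
    - (1 + K.ε) * ((∫ x, f i x * g i x ∂K.μ) - (∫ x, f i x ∂K.μ) * (∫ x, g i x ∂K.μ)))

/-- FD1 -/
theorem q_nonneg {ι : Type} [Fintype ι] (f : ι → E n → ℝ) (hf : ∀ i, CB (f i)) : 0 ≤ K.q f := sorry

/-- FD1' Cauchy–Schwarz -/
theorem qb_sq_le {ι : Type} [Fintype ι] (f g : ι → E n → ℝ) (hf : ∀ i, CB (f i))
    (hg : ∀ i, CB (g i)) : K.qb f g ^ 2 ≤ K.q f * K.q g := sorry

/-- FD2 calculus of `CB` -/
theorem CB.add {f g : E n → ℝ} (hf : CB f) (hg : CB g) : CB (fun x => f x + g x) := sorry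
theorem CB.mul {f g : E n → ℝ} (hf : CB f) (hg : CB g) : CB (fun x => f x * g x) := sorry

/-- FD3 root field: `Z` is `CB` with the derivative equation -/
theorem root_field {R : Type} [Fintype R] {a : ℝ} {M : E n → T3 n R} {Z : E n → Mt n}
    (hp : Pack K R a M Z) :
    (∀ i, CB (famM Z i)) ∧ (∀ x k, (pdM k Z x)ᵀ = pdM k Z x) ∧
    ∀ x k, pdM k Z x * Z x + Z x * pdM k Z x
      = gram (pdT k M x) (M x) + gram (M x) (pdT k M x) := sorry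

/-- FD3' the smooth positive part is `CB`, with derivative given by a Lyapunov solution -/
theorem ppd_field {W : E n → Mt n} (hW : ∀ i, CB (famM W i)) (hWs : ∀ x, (W x)ᵀ = W x) {d : ℝ}
    (hd : 0 < d) :
    (∀ i, CB (famM (fun x => ppd d (W x)) i)) ∧
    ∀ k x, ∃ S : Mt n, Sᵀ = S ∧
      S * rt (W x * W x + d ^ 2 • 1) + rt (W x * W x + d ^ 2 • 1) * S
        = W x * pdM k W x + pdM k W x * W x ∧
      pdM k (fun y => ppd d (W y)) x = (1 / 2 : ℝ) • (pdM k W x + S) := sorry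

/-- FD4 integrated no-broadcasting (section 3): total defect -/
theorem defect_le {R : Type} [Fintype R] {a : ℝ} {M : E n → T3 n R} {Z : E n → Mt n}
    (hp : Pack K R a M Z) :
    (∫ x, (∑ k, (ip (pdT k M x) (pdT k M x) - hs (pdM k Z x))) ∂K.μ) + K.q (famM Z) ≤
      a + 4 * tsq K.μ K.ω (famM Z) + 2 * msq K.μ (famM Z) := sorry

end

/-- FD5 = FSL (section 5), integrated -/
theorem fsl : ∀ h1 C0 C' : ℝ, 0 < h1 → 0 < C0 → 0 < C' → ∃ C : ℝ, 0 < C ∧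
    ∀ (n : ℕ) (K : KD n) (ι : Type) [Fintype ι] (Z : E n → Mt n) (G H : E n → T2 n ι)
    (Bc : T2 n ι) (e : E n → ℝ) (D X : ℝ),
    h1 ≤ K.h → 1 ≤ X → 0 < D → (∀ x, (Z x).PosDef) → (∀ i, CB (famM Z i)) →
    (∀ i, CB (fam2 G i)) → (∀ i, CB (fam2 H i)) → ip2 Bc Bc ≤ 1 →
    (∀ x, LeQ (gramA (H x) (H x)) (Z x * Z x)) →
    Integrable e K.μ → (∫ x, e x ∂K.μ ≤ C0 * D) →
    (∀ x, ∃ B : Fin n → Mt n, (∀ k, (B k)ᵀ = B k) ∧ LeQ (∑ k, B k * B k) (C' • (1 : Mt n)) ∧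
      (∑ k, hs (Z x * B k - B k * Z x) ≤ e x) ∧
      (∑ k, ip2 (pd2 k G x - 2 • actA (B k) (H x)) (pd2 k G x - 2 • actA (B k) (H x)) ≤ e x)) →
    msq K.μ (famM Z) ≤ D →
    (∫ x, (Z x * (1 - K.P x) * Z x).trace ∂K.μ ≤ C0 * D) →
    en K.μ (fun x => 1 - K.P x) (fun p (i : Fin n × ι) x => H x i.1 p i.2) ≤ C0 * D →
    K.q (fam2 G) ≤ C0 * D → msq K.μ (fam2 G) ≤ C0 * D → tsq K.μ K.ω (fam2 G) ≤ C0 * D →
    |∫ x, ip2 (actP (K.P x) Bc) (G x) ∂K.μ| ≤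
      C * (K.η * Real.sqrt X + 1 / X + K.η) * Real.sqrt D := sorry

/-- FD6 slow growth (section 6), integrated: at every point there is a connection with a slow
projection, all errors bounded by one continuous function `e` with `∫ e ≤ C D`. -/
theorem slow_field : ∃ C' C : ℝ, 0 < C' ∧ 0 < C ∧ ∀ (n : ℕ) (K : KD n) (R : Type) [Fintype R]
    (a D : ℝ) (M : E n → T3 n R) (Mp : Fin n → E n → T3 n R) (Z Z' : E n → Mt n),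
    Ctx K R a D M Mp Z Z' → K.η ≤ 1 / 100 →
    ∃ e : E n → ℝ, Integrable e K.μ ∧ (∫ x, e x ∂K.μ ≤ C * D) ∧
      ∀ x, ∃ (B : Fin n → Mt n) (Θ L : Mt n),
        (∀ k, (B k)ᵀ = B k) ∧ LeQ (∑ k, B k * B k) (C' • (1 : Mt n)) ∧
        (∑ k, hs (Z x * B k - B k * Z x) ≤ e x) ∧
        (∑ k, ip (pdT k M x - 2 • act1 (B k) (M x)) (pdT k M x - 2 • act1 (B k) (M x)) ≤ e x) ∧
        (∑ k, ip (pdT k M x - 2 • act2 (B k) (M x)) (pdT k M x - 2 • act2 (B k) (M x)) ≤ e x) ∧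
        (∑ k, ip (pdT k M x - 2 • act3 (B k) (M x)) (pdT k M x - 2 • act3 (B k) (M x)) ≤ e x) ∧
        (∑ k, hs (pdM k Z x - 2 • (B k * Z x)) ≤ e x) ∧
        (∑ k, hs (pdM k Z x - 2 • (Z x * B k)) ≤ e x) ∧
        Θᵀ = Θ ∧ Θ * Θ = Θ ∧ Lᵀ = L ∧ LeQ 0 L ∧ LeQ L (32 • (1 : Mt n)) ∧
        L * (4 • ∑ k, B k * B k) = 1 - Θ ∧ hs (Θ * Z x) ≤ e x := sorry

/-- FD7 section 8: the mean of `Z` (and the same bound for `Z'` follows from `Z' ≤ 11 Z`) -/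
theorem meanZ : ∀ h1 : ℝ, 0 < h1 → ∃ C : ℝ, 0 < C ∧ ∀ (n : ℕ) (K : KD n) (R : Type) [Fintype R]
    (a D : ℝ) (M : E n → T3 n R) (Mp : Fin n → E n → T3 n R) (Z Z' : E n → Mt n),
    Ctx K R a D M Mp Z Z' → h1 ≤ K.h → K.η ≤ 1 / 100 →
    ∀ X : ℝ, 1 ≤ X → msq K.μ (famM Z) ≤
      C * (a + (K.η * Real.sqrt X + 1 / X + K.η) ^ 2 * D) := sorry

/-- FD7' `Z' ≤ 11 Z` as matrices, hence the means -/
theorem meanZ' (K : KD n) (R : Type) [Fintype R] (a : ℝ) (M : E n → T3 n R)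
    (Mp : Fin n → E n → T3 n R) (Z Z' : E n → Mt n) (hp : Pack K R a M Z)
    (hp' : Pack K (R ⊕ (R × Fin n)) a (fun x => bigM (M x) (fun k => Mp k x)) Z')
    (hx : Ext K R a M Mp Z) : msq K.μ (famM Z') ≤ 121 * msq K.μ (famM Z) := sorry

/-- FD8 section 9 : `c_Z = |Cov(x, Z)|²` for a pack with extension -/
theorem covZ : ∀ h1 : ℝ, 0 < h1 → ∃ C : ℝ, 0 < C ∧ ∀ (n : ℕ) (K : KD n) (R : Type) [Fintype R]
    (a D : ℝ) (M : E n → T3 n R) (Mp : Fin n → E n → T3 n R) (Z : E n → Mt n),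
    Pack K R a M Z → Ext K R a M Mp Z → 0 ≤ a → 0 < D → a ≤ D →
    msq K.μ (famM Z) ≤ D → tsq K.μ K.ω (famM Z) ≤ D → h1 ≤ K.h → K.η ≤ 1 / 100 →
    tsq K.μ K.ω (famM Z) ≤ C * (a + msq K.μ (famM Z) + K.η ^ 2 * D) := sorry

/-- TW1 the tower gives the context: `a = C (α + κ₁)` with `κ₁` as small as we like -/
theorem ctx_of_tower : ∃ C : ℝ, 0 < C ∧ ∀ (n : ℕ) (κ₁ : ℝ), 0 < κ₁ → ∃ (J : ℕ) (δ κ₀ : ℝ),
    0 < δ ∧ 0 < κ₀ ∧ ∀ (K : KD n) (κ : ℝ) (T : Tower K κ), κ ≤ κ₀ →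
    Ctx K (RJ n J) (C * (alphaT T J + κ₁)) (DT T J δ (C * (alphaT T J + κ₁)))
      (MT T.Ψ J δ) (MpT T.Ψ J) (ZT T.Ψ J δ) (ZT' T.Ψ J δ) ∧
    -- energies of the newest slots, `2 ≤ level ≤ J + 3`
    (en K.μ K.V2 (fun p (w : Fin 1 → Fin n) => T.Ψ 2 (Fin.snoc w p))
      + ∑ j ∈ Finset.range (J + 1), (1 / 100) ^ j *
          en K.μ K.V2 (fun p (w : Fin (j + 2) → Fin n) => T.Ψ (j + 3) (Fin.snoc w p))
      ≤ C * (alphaT T J + κ₁)) ∧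
    -- the unsymmetrised tensors of levels `3 … J+3`: distance to the symmetrised ones, in `q`, `nsq`, `dsq`
    (∑ j ∈ Finset.range (J + 1), (1 / 100) ^ j *
        (dsq K.μ (fun v => fun x => T.Ψ (j + 3) v x - symW T.Ψ j v x)
          + nsq K.μ (fun v => fun x => T.Ψ (j + 3) v x - symW T.Ψ j v x)
          + K.q (T.Ψ (j + 3)) + tsq K.μ K.ω (T.Ψ (j + 3)))
      ≤ C * (alphaT T J + κ₁)) ∧
    -- level 2 against level 3, and the swap at level 4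
    (∑ v : Fin 2 → Fin n, ∑ k, ∫ x, (pd k (T.Ψ 2 v) x
        - symW T.Ψ 0 (Fin.snoc v k : Fin 3 → Fin n) x) ^ 2 ∂K.μ ≤ C * (alphaT T J + κ₁)) ∧
    (K.q (T.Ψ 2) + tsq K.μ K.ω (T.Ψ 2) ≤ C * (alphaT T J + κ₁)) ∧
    (∑ v : Fin 2 → Fin n, ∑ k, ∑ l, ∫ x, (pd l (symW T.Ψ 0 (Fin.cons k v : Fin 3 → Fin n)) x
        - pd k (symW T.Ψ 0 (Fin.cons l v : Fin 3 → Fin n)) x) ^ 2 ∂K.μ
      ≤ C * (alphaT T J + κ₁)) := sorry

/-- FD9 levels `≥ 3` of `α` (section 7).  `Cv` bounds the newest-slot energies. -/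
theorem alpha_high : ∀ h1 C0 : ℝ, 0 < h1 → 0 < C0 → ∃ C : ℝ, 0 < C ∧ ∀ (n : ℕ) (K : KD n) (κ : ℝ)
    (T : Tower K κ) (J : ℕ) (δ a D X : ℝ), h1 ≤ K.h → K.η ≤ 1 / 100 → 1 ≤ X →
    Ctx K (RJ n J) a D (MT T.Ψ J δ) (MpT T.Ψ J) (ZT T.Ψ J δ) (ZT' T.Ψ J δ) →
    (∑ j ∈ Finset.range (J + 1), (1 / 100) ^ j *
        (dsq K.μ (fun v => fun x => T.Ψ (j + 3) v x - symW T.Ψ j v x)
          + nsq K.μ (fun v => fun x => T.Ψ (j + 3) v x - symW T.Ψ j v x)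
          + K.q (T.Ψ (j + 3)) + tsq K.μ K.ω (T.Ψ (j + 3))) ≤ C0 * D) →
    (∑ j ∈ Finset.range (J + 1), (1 / 100) ^ j * msq K.μ (T.Ψ (j + 3)) ≤ C0 * D) →
    ∑ j ∈ Finset.range (J + 1), (1 / 100) ^ j * msq K.μ (T.Ψ (j + 3)) ≤
      4 * K.h * (∑ j ∈ Finset.range (J + 1), (1 / 100) ^ j *
          en K.μ K.V2 (fun p (w : Fin (j + 2) → Fin n) => T.Ψ (j + 3) (Fin.snoc w p)))
      + C * (K.η * Real.sqrt X + 1 / X + K.η) ^ 2 * D := sorry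

/-- FD10 level 2 of `α` (section 7) -/
theorem alpha_two : ∀ h1 C0 : ℝ, 0 < h1 → 0 < C0 → ∃ C : ℝ, 0 < C ∧ ∀ (n : ℕ) (K : KD n) (κ : ℝ)
    (T : Tower K κ) (J : ℕ) (δ a D X : ℝ), h1 ≤ K.h → K.η ≤ 1 / 100 → 1 ≤ X →
    Ctx K (RJ n J) a D (MT T.Ψ J δ) (MpT T.Ψ J) (ZT T.Ψ J δ) (ZT' T.Ψ J δ) →
    (∑ v : Fin 2 → Fin n, ∑ k, ∫ x, (pd k (T.Ψ 2 v) x
        - symW T.Ψ 0 (Fin.snoc v k : Fin 3 → Fin n) x) ^ 2 ∂K.μ ≤ C0 * D) →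
    (K.q (T.Ψ 2) + tsq K.μ K.ω (T.Ψ 2) ≤ C0 * D) → msq K.μ (T.Ψ 2) ≤ C0 * D →
    (∑ v : Fin 2 → Fin n, ∑ k, ∑ l, ∫ x, (pd l (symW T.Ψ 0 (Fin.cons k v : Fin 3 → Fin n)) x
        - pd k (symW T.Ψ 0 (Fin.cons l v : Fin 3 → Fin n)) x) ^ 2 ∂K.μ ≤ C0 * D) →
    msq K.μ (T.Ψ 2) ≤
      4 * K.h * en K.μ K.V2 (fun p (w : Fin 1 → Fin n) => T.Ψ 2 (Fin.snoc w p))
      + C * (K.η * Real.sqrt X + 1 / X + K.η) ^ 2 * D := sorry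

/-- FIN the tensor side -/
theorem tensor_main : ∃ h0 : ℝ, 0 < h0 ∧ ∀ h1 : ℝ, 0 < h1 → ∃ η0 : ℝ, 0 < η0 ∧
    ∀ (n : ℕ) (κ' : ℝ), 0 < κ' → ∃ κ₀ : ℝ, 0 < κ₀ ∧
    ∀ K : KD n, h1 ≤ K.h → K.h ≤ h0 → K.η ≤ η0 → ∀ (κ : ℝ) (T : Tower K κ), κ ≤ κ₀ →
      msq K.μ (T.Ψ 2) ≤ κ' := sorry

end Crest.Agent.R201
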