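import Crest.Agent.R201.DVQ_402

/-!
# R201 (S0308), LSI half: labelled psi_2 inequalities, abstract form (owner: helper146)

A probability space `(Z, π)`, a map `x : Z → E n` with sub-Gaussian law, a density `F` of
entropy `H(F)`, a label `j` with conditional density `P j z`, marginal
`pJ j = ∫ F z P j z dπ`, mutual information `I = ∫∫ F P log (P / pJ)`.

* `lin`  : `∑ k ∫ (∫ x k F P)² / pJ ≤ 4 κ (H(F) + I)`
* `quad` : `∫∫ ⟨R j x, x⟩ F P ≤ 8 κ (H(F) + I) + 4 κ ∫ tr (R j) pJ j`
-/

set_option autoImplicit false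
set_option linter.unusedSectionVars false
open MeasureTheory ProbabilityTheory Matrix
open scoped BigOperators ENNReal RealInnerProductSpace

namespace Crest.Agent.R201.Lps146

open Crest.Agent.R201 Crest.Agent.R201.DVQ402

variable {n : ℕ}

/-! ### Sub-Gaussian maps -/

section SGf

variable {Z : Type*} [MeasurableSpace Z] {π : Measure Z}

/-- the Laplace transform of `x` under `π` is at most `exp (κ |t|²)` -/
def SGf (κ : ℝ) (π : Measure Z) (x : Z → E n) : Prop :=
  ∀ t : E n, Integrable (fun z => Real.exp ⟪t, x z⟫) π ∧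
    ∫ z, Real.exp ⟪t, x z⟫ ∂π ≤ Real.exp (κ * ‖t‖ ^ 2)

theorem SGf.map {κ : ℝ} {x : Z → E n} (hx : Measurable x) (h : SGf κ π x) : SG κ (π.map x) := by
  intro t
  have hm : AEStronglyMeasurable (fun y : E n => Real.exp ⟪t, y⟫) (π.map x) :=
    (by fun_prop : Continuous fun y : E n => Real.exp ⟪t, y⟫).aestronglyMeasurable
  refine ⟨(integrable_map_measure hm hx.aemeasurable).2 (h t).1, ?_⟩
  rw [integral_map hx.aemeasurable hm]
  exact (h t).2

theorem SGf.quad {κ : ℝ} {x : Z → E n} [SFinite π] (hx : Measurable x) (h : SGf κ π x) {R : Mt n}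
    (hs : Rᵀ = R) (h0 : LeQ 0 R) (h1 : LeQ R 1) (hκ : 0 ≤ κ) {l : ℝ} (hl : 0 ≤ l)
    (hlk : 8 * l * κ ≤ 1) :
    Integrable (fun z => Real.exp (l * qf R (x z))) π ∧
      ∫ z, Real.exp (l * qf R (x z)) ∂π ≤ Real.exp (4 * l * κ * R.trace) := by
  have hm : AEStronglyMeasurable (fun y : E n => Real.exp (l * qf R y)) (π.map x) :=
    (Real.continuous_exp.comp (continuous_const.mul (qf_cont R))).aestronglyMeasurable
  obtain ⟨hi, hle⟩ := (h.map hx).quad hs h0 h1 hκ hl hlk
  rw [integral_map hx.aemeasurable hm] at hle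
  exact ⟨(integrable_map_measure hm hx.aemeasurable).1 hi, hle⟩

theorem SGf.lin_int {κ : ℝ} {x : Z → E n} (hx : Measurable x) (h : SGf κ π x) {ρ : Z → ℝ}
    (hρ : ∀ z, 0 ≤ ρ z) (hi : Integrable ρ π)
    (hent : Integrable (fun z => ρ z * Real.log (ρ z)) π) (t : E n) :
    Integrable (fun z => ⟪t, x z⟫ * ρ z) π := by
  refine dv_int_abs hρ hi hent (h t).1 ?_ ?_
  · have := (h (-t)).1
    simpa using this
  · exact ((by fun_prop : Continuous fun y : E n => ⟪t, y⟫).measurable.comp hx).aestronglyMeasurable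

theorem SGf.coord_int {κ : ℝ} {x : Z → E n} (hx : Measurable x) (h : SGf κ π x) {ρ : Z → ℝ}
    (hρ : ∀ z, 0 ≤ ρ z) (hi : Integrable ρ π)
    (hent : Integrable (fun z => ρ z * Real.log (ρ z)) π) (k : Fin n) :
    Integrable (fun z => x z k * ρ z) π := by
  have := h.lin_int hx hρ hi hent (EuclideanSpace.single k (1 : ℝ))
  refine this.congr (Filter.Eventually.of_forall fun z => ?_)
  simp [EuclideanSpace.inner_single_left]

/-- linear Donsker–Varadhan for a sub-Gaussian map -/
theorem SGf.dv_lin [IsProbabilityMeasure π] {κ : ℝ} {x : Z → E n} (hx : Measurable x)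
    (h : SGf κ π x) (hκ : 0 < κ) {ρ : Z → ℝ} (hρ : ∀ z, 0 ≤ ρ z) (hi : Integrable ρ π)
    (hone : ∫ z, ρ z ∂π = 1) (hent : Integrable (fun z => ρ z * Real.log (ρ z)) π) :
    ∑ k, (∫ z, x z k * ρ z ∂π) ^ 2 ≤ 4 * κ * ∫ z, ρ z * Real.log (ρ z) ∂π := by
  set m : Fin n → ℝ := fun k => ∫ z, x z k * ρ z ∂π with hm
  set t : E n := WithLp.toLp 2 fun k => (2 * κ)⁻¹ * m k with ht
  have h1 : ∫ z, ⟪t, x z⟫ * ρ z ∂π ≤ ∫ z, ρ z * Real.log (ρ z) ∂π + κ * ‖t‖ ^ 2 :=
    dv hρ hi hone hent (h t).1 (h.lin_int hx hρ hi hent t) (h t).2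
  have e1 : ∫ z, ⟪t, x z⟫ * ρ z ∂π = (2 * κ)⁻¹ * ∑ k, m k ^ 2 := by
    have e : ∀ z : Z, ⟪t, x z⟫ * ρ z = ∑ k, (2 * κ)⁻¹ * m k * (x z k * ρ z) := by
      intro z
      rw [PiLp.inner_apply, Finset.sum_mul]
      refine Finset.sum_congr rfl fun k _ => ?_
      simp only [ht, RCLike.inner_apply, conj_trivial]
      ring
    simp only [e]
    rw [integral_finsetSum _ fun k _ => (h.coord_int hx hρ hi hent k).const_mul _, Finset.mul_sum]
    refine Finset.sum_congr rfl fun k _ => ?_
    rw [integral_const_mul]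
    simp only [hm]
    ring
  have e2 : ‖t‖ ^ 2 = ((2 * κ)⁻¹) ^ 2 * ∑ k, m k ^ 2 := by
    rw [EuclideanSpace.norm_sq_eq, Finset.mul_sum]
    refine Finset.sum_congr rfl fun k _ => ?_
    simp only [ht, Real.norm_eq_abs, sq_abs]
    ring
  rw [e1, e2] at h1
  have hk : (2 * κ)⁻¹ * ∑ k, m k ^ 2 - κ * (((2 * κ)⁻¹) ^ 2 * ∑ k, m k ^ 2) =
      (4 * κ)⁻¹ * ∑ k, m k ^ 2 := by
    field_simp
    ring
  have h3 : (4 * κ)⁻¹ * ∑ k, m k ^ 2 ≤ ∫ z, ρ z * Real.log (ρ z) ∂π := by linarith
  rw [inv_mul_le_iff₀ (by positivity)] at h3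
  exact h3

/-- quadratic Donsker–Varadhan for a sub-Gaussian map -/
theorem SGf.dv_quad [IsProbabilityMeasure π] {κ : ℝ} {x : Z → E n} (hx : Measurable x)
    (h : SGf κ π x) {R : Mt n} (hs : Rᵀ = R) (h0 : LeQ 0 R) (h1 : LeQ R 1) (hκ : 0 ≤ κ)
    {l : ℝ} (hl : 0 < l) (hlk : 8 * l * κ ≤ 1) {ρ : Z → ℝ} (hρ : ∀ z, 0 ≤ ρ z)
    (hi : Integrable ρ π) (hone : ∫ z, ρ z ∂π = 1)
    (hent : Integrable (fun z => ρ z * Real.log (ρ z)) π) :
    Integrable (fun z => qf R (x z) * ρ z) π ∧
      l * ∫ z, qf R (x z) * ρ z ∂π ≤ ∫ z, ρ z * Real.log (ρ z) ∂π + 4 * l * κ * R.trace := by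
  obtain ⟨hI, hle⟩ := h.quad hx hs h0 h1 hκ hl.le hlk
  have hq0 : ∀ z, 0 ≤ l * qf R (x z) := by
    intro z
    have := h0 (x z : Fin n → ℝ)
    rw [← qf_eq R] at this
    simp only [Matrix.zero_mulVec, dotProduct_zero] at this
    exact mul_nonneg hl.le this
  have hint := dv_int_nonneg hρ hi hent hI hq0
    (((continuous_const.mul (qf_cont R)).measurable.comp hx).aestronglyMeasurable)
  have e : ∀ z, l * qf R (x z) * ρ z = l * (qf R (x z) * ρ z) := fun z => by ring
  have hint' : Integrable (fun z => qf R (x z) * ρ z) π := by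
    have h2 := hint.const_mul l⁻¹
    refine h2.congr (Filter.Eventually.of_forall fun z => ?_)
    simp only
    rw [e, ← mul_assoc, inv_mul_cancel₀ hl.ne', one_mul]
  refine ⟨hint', ?_⟩
  have := dv hρ hi hone hent hI hint hle
  simp only [e] at this
  rwa [integral_const_mul] at this

end SGf

/-! ### Labels -/

/-- `P j z` : conditional density of the label `j` at the state `z` -/
structure Lab {Z J : Type*} [MeasurableSpace Z] [MeasurableSpace J] (lam : Measure J)
    (P : J → Z → ℝ) : Prop where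
  nonneg : ∀ j z, 0 ≤ P j z
  meas : Measurable (Function.uncurry P)
  one : ∀ z, ∫ j, P j z ∂lam = 1

section Labels

variable {Z J : Type*} [MeasurableSpace Z] [MeasurableSpace J] {π : Measure Z} {lam : Measure J}
  {P : J → Z → ℝ} {F : Z → ℝ}

/-- marginal density of the label -/
noncomputable def pJ (π : Measure Z) (F : Z → ℝ) (P : J → Z → ℝ) (j : J) : ℝ :=
  ∫ z, F z * P j z ∂π

/-- entropy of the density `F` -/
noncomputable def ent (π : Measure Z) (F : Z → ℝ) : ℝ := ∫ z, F z * Real.log (F z) ∂π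

/-- mutual information of state and label -/
noncomputable def MI (π : Measure Z) (lam : Measure J) (F : Z → ℝ) (P : J → Z → ℝ) : ℝ :=
  ∫ j, ∫ z, F z * P j z * Real.log (P j z / pJ π F P j) ∂π ∂lam

theorem Lab.int_j (h : Lab lam P) (z : Z) : Integrable (fun j => P j z) lam := by
  by_contra hc
  have := integral_undef hc
  rw [h.one z] at this
  exact one_ne_zero this

theorem Lab.int_prod [SFinite π] [SFinite lam] (h : Lab lam P) {G : Z → ℝ} (hG : Integrable G π) :
    Integrable (fun p : J × Z => G p.2 * P p.1 p.2) (lam.prod π) := by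
  have hm : AEStronglyMeasurable (fun p : J × Z => G p.2 * P p.1 p.2) (lam.prod π) :=
    (hG.aestronglyMeasurable.comp_snd).mul h.meas.aestronglyMeasurable
  rw [integrable_prod_iff' hm]
  refine ⟨Filter.Eventually.of_forall fun z => (h.int_j z).const_mul (G z), ?_⟩
  have e : (fun z => ∫ j, ‖G z * P j z‖ ∂lam) = fun z => ‖G z‖ := by
    funext z
    have : ∀ j, ‖G z * P j z‖ = ‖G z‖ * P j z := fun j => by
      rw [norm_mul, Real.norm_of_nonneg (h.nonneg j z)]
    simp only [this]
    rw [integral_const_mul, h.one, mul_one]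
  simp only [e]
  exact hG.norm

theorem Lab.int_z [SFinite π] [SFinite lam] (h : Lab lam P) {G : Z → ℝ} (hG : Integrable G π) :
    ∀ᵐ j ∂lam, Integrable (fun z => G z * P j z) π :=
  (h.int_prod hG).prod_right_ae

theorem Lab.integral_eq [SFinite π] [SFinite lam] (h : Lab lam P) {G : Z → ℝ}
    (hG : Integrable G π) : ∫ j, ∫ z, G z * P j z ∂π ∂lam = ∫ z, G z ∂π := by
  rw [integral_integral_swap (h.int_prod hG)]
  refine integral_congr_ae (Filter.Eventually.of_forall fun z => ?_)
  simp only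
  rw [integral_const_mul, h.one, mul_one]

theorem Lab.int_left [SFinite π] [SFinite lam] (h : Lab lam P) {G : Z → ℝ} (hG : Integrable G π) :
    Integrable (fun j => ∫ z, G z * P j z ∂π) lam :=
  (h.int_prod hG).integral_prod_left

/-- data of a labelled density -/
structure LD (π : Measure Z) (lam : Measure J) (F : Z → ℝ) (P : J → Z → ℝ) : Prop where
  lab : Lab lam P
  nonneg : ∀ z, 0 ≤ F z
  int : Integrable F π
  one : ∫ z, F z ∂π = 1
  ent_int : Integrable (fun z => F z * Real.log (F z)) π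
  mi_int : Integrable (fun p : J × Z => F p.2 * P p.1 p.2 * Real.log (P p.1 p.2 / pJ π F P p.1))
    (lam.prod π)

/-- the label-wise entropy, multiplied by `pJ` -/
noncomputable def eJ (π : Measure Z) (F : Z → ℝ) (P : J → Z → ℝ) (j : J) : ℝ :=
  (∫ z, F z * Real.log (F z) * P j z ∂π) + ∫ z, F z * P j z * Real.log (P j z / pJ π F P j) ∂π

variable [SFinite lam]

theorem LD.pJ_nonneg (h : LD π lam F P) (j : J) : 0 ≤ pJ π F P j :=
  integral_nonneg fun z => mul_nonneg (h.nonneg z) (h.lab.nonneg j z)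

theorem LD.pJ_int [SFinite π] (h : LD π lam F P) : Integrable (fun j => pJ π F P j) lam :=
  h.lab.int_left h.int

theorem LD.eJ_int [SFinite π] (h : LD π lam F P) : Integrable (fun j => eJ π F P j) lam :=
  (h.lab.int_left h.ent_int).add h.mi_int.integral_prod_left

theorem LD.integral_eJ [SFinite π] (h : LD π lam F P) :
    ∫ j, eJ π F P j ∂lam = ent π F + MI π lam F P := by
  unfold eJ
  rw [integral_add (h.lab.int_left h.ent_int) h.mi_int.integral_prod_left,
    h.lab.integral_eq h.ent_int]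
  rfl

/-- everything that holds for almost every label -/
structure Good (π : Measure Z) (F : Z → ℝ) (P : J → Z → ℝ) (j : J) : Prop where
  i1 : Integrable (fun z => F z * P j z) π
  i2 : Integrable (fun z => F z * Real.log (F z) * P j z) π
  i3 : Integrable (fun z => F z * P j z * Real.log (P j z / pJ π F P j)) π

theorem LD.good [SFinite π] (h : LD π lam F P) : ∀ᵐ j ∂lam, Good π F P j := by
  filter_upwards [h.lab.int_z h.int, h.lab.int_z h.ent_int, h.mi_int.prod_right_ae] with j a b c
  exact ⟨a, b, c⟩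

/-- pointwise entropy identity -/
theorem ent_pt {f p q : ℝ} (hf : 0 ≤ f) (hp : 0 ≤ p) (hq : 0 < q) :
    f * p / q * Real.log (f * p / q) * q = f * Real.log f * p + f * p * Real.log (p / q) := by
  rcases hf.eq_or_lt with h0 | h0
  · rw [← h0]; simp
  rcases hp.eq_or_lt with h1 | h1
  · rw [← h1]; simp
  have e : f * p / q = f * (p / q) := by ring
  rw [e, Real.log_mul h0.ne' (div_pos h1 hq).ne']
  field_simp

/-- the conditional density of the state given the label, all its properties -/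
theorem LD.cond (h : LD π lam F P) {j : J} (hj : Good π F P j) (hp : 0 < pJ π F P j) :
    (∀ z, 0 ≤ F z * P j z / pJ π F P j) ∧
    Integrable (fun z => F z * P j z / pJ π F P j) π ∧
    ∫ z, F z * P j z / pJ π F P j ∂π = 1 ∧
    Integrable (fun z => F z * P j z / pJ π F P j * Real.log (F z * P j z / pJ π F P j)) π ∧
    (∫ z, F z * P j z / pJ π F P j * Real.log (F z * P j z / pJ π F P j) ∂π) * pJ π F P j
      = eJ π F P j := by
  have hsum : Integrable (fun z => F z * Real.log (F z) * P j z +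
      F z * P j z * Real.log (P j z / pJ π F P j)) π := hj.i2.add hj.i3
  refine ⟨fun z => div_nonneg (mul_nonneg (h.nonneg z) (h.lab.nonneg j z)) hp.le,
    hj.i1.div_const _, ?_, ?_, ?_⟩
  · rw [integral_div]
    exact div_self hp.ne'
  · refine (hsum.div_const (pJ π F P j)).congr (Filter.Eventually.of_forall fun z => ?_)
    simp only
    rw [div_eq_iff hp.ne', ent_pt (h.nonneg z) (h.lab.nonneg j z) hp]
  · rw [← integral_mul_const]
    unfold eJ
    rw [← integral_add hj.i2 hj.i3]
    refine integral_congr_ae (Filter.Eventually.of_forall fun z => ?_)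
    exact ent_pt (h.nonneg z) (h.lab.nonneg j z) hp

/-- at a label of density zero everything vanishes -/
theorem LD.ae_zero (h : LD π lam F P) {j : J} (hj : Good π F P j) (hp : pJ π F P j = 0) :
    ∀ᵐ z ∂π, F z * P j z = 0 := by
  have := (integral_eq_zero_iff_of_nonneg (fun z => mul_nonneg (h.nonneg z) (h.lab.nonneg j z))
    hj.i1).1 hp
  filter_upwards [this] with z hz
  exact hz

theorem LD.eJ_zero (h : LD π lam F P) {j : J} (hj : Good π F P j) (hp : pJ π F P j = 0) :
    eJ π F P j = 0 := by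
  have h0 := h.ae_zero hj hp
  unfold eJ
  have e1 : ∫ z, F z * Real.log (F z) * P j z ∂π = 0 := by
    rw [← integral_zero Z ℝ (μ := π)]
    refine integral_congr_ae ?_
    filter_upwards [h0] with z hz
    have : F z * Real.log (F z) * P j z = Real.log (F z) * (F z * P j z) := by ring
    rw [this, hz, mul_zero]
  have e2 : ∫ z, F z * P j z * Real.log (P j z / pJ π F P j) ∂π = 0 := by
    rw [← integral_zero Z ℝ (μ := π)]
    refine integral_congr_ae ?_
    filter_upwards [h0] with z hz
    rw [hz, zero_mul]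
  rw [e1, e2, add_zero]

variable [IsProbabilityMeasure π] {κ : ℝ} {x : Z → E n}

/-- labelled mean, one label -/
theorem LD.lin_j (h : LD π lam F P) (hx : Measurable x) (hs : SGf κ π x) (hκ : 0 < κ) {j : J}
    (hj : Good π F P j) :
    (∑ k, (∫ z, x z k * (F z * P j z) ∂π) ^ 2) / pJ π F P j ≤ 4 * κ * eJ π F P j := by
  rcases (h.pJ_nonneg j).eq_or_lt with hp | hp
  · rw [← hp, div_zero, h.eJ_zero hj hp.symm, mul_zero]
  obtain ⟨c1, c2, c3, c4, c5⟩ := h.cond hj hp
  have key := hs.dv_lin hx hκ c1 c2 c3 c4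
  have e : ∀ k, ∫ z, x z k * (F z * P j z / pJ π F P j) ∂π =
      (∫ z, x z k * (F z * P j z) ∂π) / pJ π F P j := by
    intro k
    rw [← integral_div]
    refine integral_congr_ae (Filter.Eventually.of_forall fun z => ?_)
    simp only
    ring
  simp only [e, div_pow] at key
  rw [← Finset.sum_div] at key
  have := mul_le_mul_of_nonneg_right key hp.le
  rw [mul_assoc (4 * κ), c5] at this
  calc (∑ k, (∫ z, x z k * (F z * P j z) ∂π) ^ 2) / pJ π F P j
      = (∑ k, (∫ z, x z k * (F z * P j z) ∂π) ^ 2) / pJ π F P j ^ 2 * pJ π F P j := by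
        field_simp
    _ ≤ _ := this

/-- labelled quadratic form, one label -/
theorem LD.quad_j (h : LD π lam F P) (hx : Measurable x) (hs : SGf κ π x) (hκ : 0 < κ) {R : Mt n}
    (hR : Rᵀ = R) (h0 : LeQ 0 R) (h1 : LeQ R 1) {j : J} (hj : Good π F P j) :
    Integrable (fun z => qf R (x z) * (F z * P j z)) π ∧
    ∫ z, qf R (x z) * (F z * P j z) ∂π ≤
      8 * κ * eJ π F P j + 4 * κ * (R.trace * pJ π F P j) := by
  rcases (h.pJ_nonneg j).eq_or_lt with hp | hp
  · have hz := h.ae_zero hj hp.symm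
    have e : (fun z => qf R (x z) * (F z * P j z)) =ᵐ[π] fun _ => (0 : ℝ) := by
      filter_upwards [hz] with z hz
      rw [hz, mul_zero]
    refine ⟨(integrable_zero Z ℝ π).congr e.symm, ?_⟩
    rw [integral_congr_ae e, h.eJ_zero hj hp.symm, ← hp]
    simp
  obtain ⟨c1, c2, c3, c4, c5⟩ := h.cond hj hp
  have hl : (0 : ℝ) < (8 * κ)⁻¹ := by positivity
  have hlk : 8 * (8 * κ)⁻¹ * κ ≤ 1 := le_of_eq (by field_simp)
  obtain ⟨k1, k2⟩ := hs.dv_quad hx hR h0 h1 hκ.le hl hlk c1 c2 c3 c4
  have e : ∀ z, qf R (x z) * (F z * P j z / pJ π F P j) =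
      (qf R (x z) * (F z * P j z)) / pJ π F P j := fun z => by ring
  simp only [e] at k1 k2
  refine ⟨?_, ?_⟩
  · refine (k1.mul_const (pJ π F P j)).congr (Filter.Eventually.of_forall fun z => ?_)
    simp only
    field_simp
  · rw [integral_div] at k2
    have hm := mul_le_mul_of_nonneg_right k2 (mul_nonneg (by positivity : (0:ℝ) ≤ 8 * κ) hp.le)
    have e1 : (8 * κ)⁻¹ * ((∫ z, qf R (x z) * (F z * P j z) ∂π) / pJ π F P j) *
        (8 * κ * pJ π F P j) = ∫ z, qf R (x z) * (F z * P j z) ∂π := by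
      field_simp
    have e2 : (∫ z, F z * P j z / pJ π F P j * Real.log (F z * P j z / pJ π F P j) ∂π +
        4 * (8 * κ)⁻¹ * κ * R.trace) * (8 * κ * pJ π F P j) =
        8 * κ * ((∫ z, F z * P j z / pJ π F P j * Real.log (F z * P j z / pJ π F P j) ∂π) *
          pJ π F P j) + 4 * κ * (R.trace * pJ π F P j) := by
      field_simp
    rw [e1, e2, c5] at hm
    exact hm

theorem meas_left {G : J × Z → ℝ} (hG : StronglyMeasurable G) :
    StronglyMeasurable fun j => ∫ z, G (j, z) ∂π :=
  StronglyMeasurable.integral_prod_right' hG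

/-- **labelled mean inequality** -/
theorem LD.lin (h : LD π lam F P) (hF : Measurable F) (hx : Measurable x) (hs : SGf κ π x)
    (hκ : 0 < κ) :
    Integrable (fun j => (∑ k, (∫ z, x z k * (F z * P j z) ∂π) ^ 2) / pJ π F P j) lam ∧
    ∫ j, (∑ k, (∫ z, x z k * (F z * P j z) ∂π) ^ 2) / pJ π F P j ∂lam ≤
      4 * κ * (ent π F + MI π lam F P) := by
  have hm : AEStronglyMeasurable
      (fun j => (∑ k, (∫ z, x z k * (F z * P j z) ∂π) ^ 2) / pJ π F P j) lam := by
    have hP : Measurable fun p : J × Z => P p.1 p.2 := h.lab.meas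
    have h1 : Measurable fun j => pJ π F P j :=
      (meas_left (π := π) (G := fun p : J × Z => F p.2 * P p.1 p.2)
        ((hF.comp measurable_snd).mul hP).stronglyMeasurable).measurable
    have h2 : ∀ k, Measurable fun j => ∫ z, x z k * (F z * P j z) ∂π := fun k =>
      (meas_left (π := π) (G := fun p : J × Z => x p.2 k * (F p.2 * P p.1 p.2))
        ((((by fun_prop : Continuous fun y : E n => y k).measurable.comp
          (hx.comp measurable_snd))).mul
          ((hF.comp measurable_snd).mul hP)).stronglyMeasurable).measurable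
    exact ((Finset.measurable_sum _ fun k _ => (h2 k).pow_const 2).div h1).aestronglyMeasurable
  have hdom : ∀ᵐ j ∂lam, (∑ k, (∫ z, x z k * (F z * P j z) ∂π) ^ 2) / pJ π F P j ≤
      4 * κ * eJ π F P j := by
    filter_upwards [h.good] with j hj
    exact h.lin_j hx hs hκ hj
  have hi : Integrable (fun j => (∑ k, (∫ z, x z k * (F z * P j z) ∂π) ^ 2) / pJ π F P j) lam := by
    refine Integrable.mono' (h.eJ_int.const_mul (4 * κ)) hm ?_
    filter_upwards [hdom] with j hj
    rw [Real.norm_of_nonneg (div_nonneg (Finset.sum_nonneg fun k _ => sq_nonneg _)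
      (h.pJ_nonneg j))]
    exact hj
  refine ⟨hi, ?_⟩
  calc _ ≤ ∫ j, 4 * κ * eJ π F P j ∂lam := integral_mono_ae hi (h.eJ_int.const_mul _) hdom
    _ = _ := by rw [integral_const_mul, h.integral_eJ]

/-- **labelled quadratic inequality** -/
theorem LD.quad (h : LD π lam F P) (hF : Measurable F) (hx : Measurable x) (hs : SGf κ π x)
    (hκ : 0 < κ) {R : J → Mt n} (hRm : ∀ i k, Measurable fun j => R j i k)
    (hR : ∀ j, (R j)ᵀ = R j) (h0 : ∀ j, LeQ 0 (R j)) (h1 : ∀ j, LeQ (R j) 1) :
    Integrable (fun j => ∫ z, qf (R j) (x z) * (F z * P j z) ∂π) lam ∧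
    Integrable (fun j => (R j).trace * pJ π F P j) lam ∧
    ∫ j, ∫ z, qf (R j) (x z) * (F z * P j z) ∂π ∂lam ≤
      8 * κ * (ent π F + MI π lam F P) + 4 * κ * ∫ j, (R j).trace * pJ π F P j ∂lam := by
  have hP : Measurable fun p : J × Z => P p.1 p.2 := h.lab.meas
  have hq0 : ∀ j z, 0 ≤ qf (R j) (x z) := by
    intro j z
    have := h0 j (x z : Fin n → ℝ)
    rw [← qf_eq (R j)] at this
    simpa using this
  have hm : AEStronglyMeasurable (fun j => ∫ z, qf (R j) (x z) * (F z * P j z) ∂π) lam := by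
    refine (meas_left (π := π) (G := fun p : J × Z => qf (R p.1) (x p.2) * (F p.2 * P p.1 p.2))
      (Measurable.stronglyMeasurable ?_)).aestronglyMeasurable
    refine Measurable.mul ?_ ((hF.comp measurable_snd).mul hP)
    unfold qf
    refine Finset.measurable_sum _ fun i _ => Finset.measurable_sum _ fun k _ => ?_
    have hc : ∀ i, Measurable fun p : J × Z => x p.2 i := fun i =>
      (by fun_prop : Continuous fun y : E n => y i).measurable.comp (hx.comp measurable_snd)
    exact (((hRm i k).comp measurable_fst).mul (hc i)).mul (hc k)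
  have htr0 : ∀ j, 0 ≤ (R j).trace := by
    intro j
    rw [Matrix.trace]
    refine Finset.sum_nonneg fun i _ => ?_
    have := h0 j (Pi.single i 1)
    simpa [Matrix.mulVec_single_one] using this
  have htr1 : ∀ j, (R j).trace ≤ n := by
    intro j
    rw [Matrix.trace]
    calc ∑ i, Matrix.diag (R j) i ≤ ∑ _i : Fin n, (1 : ℝ) := by
          refine Finset.sum_le_sum fun i _ => ?_
          have := h1 j (Pi.single i 1)
          simpa [Matrix.mulVec_single_one] using this
      _ = n := by simp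
  have htrm : Measurable fun j => (R j).trace :=
    Finset.measurable_sum _ fun i _ => hRm i i
  have hti : Integrable (fun j => (R j).trace * pJ π F P j) lam := by
    refine Integrable.bdd_mul (c := n) h.pJ_int htrm.aestronglyMeasurable
      (Filter.Eventually.of_forall fun j => ?_)
    rw [Real.norm_of_nonneg (htr0 j)]
    exact htr1 j
  have hB : Integrable (fun j => 8 * κ * eJ π F P j + 4 * κ * ((R j).trace * pJ π F P j)) lam :=
    (h.eJ_int.const_mul _).add (hti.const_mul _)
  have hdom : ∀ᵐ j ∂lam, ∫ z, qf (R j) (x z) * (F z * P j z) ∂π ≤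
      8 * κ * eJ π F P j + 4 * κ * ((R j).trace * pJ π F P j) := by
    filter_upwards [h.good] with j hj
    exact (h.quad_j hx hs hκ (hR j) (h0 j) (h1 j) hj).2
  have hi : Integrable (fun j => ∫ z, qf (R j) (x z) * (F z * P j z) ∂π) lam := by
    refine Integrable.mono' hB hm ?_
    filter_upwards [hdom] with j hj
    rw [Real.norm_of_nonneg (integral_nonneg fun z => mul_nonneg (hq0 j z)
      (mul_nonneg (h.nonneg z) (h.lab.nonneg j z)))]
    exact hj
  refine ⟨hi, hti, ?_⟩
  calc _ ≤ ∫ j, (8 * κ * eJ π F P j + 4 * κ * ((R j).trace * pJ π F P j)) ∂lam :=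
        integral_mono_ae hi hB hdom
    _ = _ := by
      rw [integral_add (h.eJ_int.const_mul _) (hti.const_mul _), integral_const_mul,
        integral_const_mul, h.integral_eJ]

end Labels

end Crest.Agent.R201.Lps146
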