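import Crest.Agent.R201.Lps1_146
import Crest.Agent.R201.An7_293

/-!
# R201 (S0308), LSI half: the joint law of `(Y, X)`, `Y = X + √s G` (owner: helper146)

`jl w s` is the joint law (first coordinate `Y`, second `X`); a density `g(x)` of `X`
becomes `pE w s g (y)` on `Y`.
-/

set_option autoImplicit false
set_option linter.unusedSectionVars false
open MeasureTheory ProbabilityTheory Matrix
open scoped BigOperators ENNReal RealInnerProductSpace

namespace Crest.Agent.R201.Lps146

open Crest.Agent.R201 Crest.Agent.R201.DVQ402 Crest.Agent.R201.An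

variable {n : ℕ} {w g : E n → ℝ} {s : ℝ}

/-- joint law of `(Y, X)`, `Y = X + √s G` -/
noncomputable def jl (w : E n → ℝ) (s : ℝ) : Measure (E n × E n) :=
  ((volume : Measure (E n)).prod volume).withDensity fun p =>
    ENNReal.ofReal (w p.2 * gk s (p.1 - p.2) / ∫ y, Lp w s (fun _ => 1) y)

/-- law of `Y` -/
noncomputable abbrev lY (w : E n → ℝ) (s : ℝ) : Measure (E n) := nm (Lp w s fun _ => 1)

lemma jl_dens_meas (hw : Ex w) (s : ℝ) : Measurable fun p : E n × E n =>
    w p.2 * gk s (p.1 - p.2) / ∫ y, Lp w s (fun _ => 1) y := by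
  have m3 : Measurable fun p : E n × E n => w p.2 := hw.meas.comp measurable_snd
  have m4 : Measurable fun p : E n × E n => gk s (p.1 - p.2) :=
    (gk_cont (n := n) s).measurable.comp (measurable_fst.sub measurable_snd)
  exact (m3.mul m4).div_const _

lemma jl_dens_nonneg (hw : Ex w) (hs : 0 < s) (p : E n × E n) :
    0 ≤ w p.2 * gk s (p.1 - p.2) / ∫ y, Lp w s (fun _ => 1) y :=
  div_nonneg (mul_nonneg (hw.nonneg _) (gk_pos _ _).le) (hw.noisy hs).pos.le

/-- change of density, `lintegral` form -/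
theorem lint_jl (hw : Ex w) (hs : 0 < s) (hg : EG g) (h0 : ∀ x, 0 ≤ g x) {k : E n → ℝ≥0∞}
    (hk : Measurable k) :
    ∫⁻ p, ENNReal.ofReal (g p.2) * k p.1 ∂(jl w s) =
      ∫⁻ y, ENNReal.ofReal (pE w s g y) * k y ∂(lY w s) := by
  have hρ := hw.noisy hs
  have mg : Measurable fun p : E n × E n => ENNReal.ofReal (g p.2) :=
    (hg.1.comp measurable_snd).ennreal_ofReal
  have mk : Measurable fun p : E n × E n => k p.1 := hk.comp measurable_fst
  have md := (jl_dens_meas hw s).ennreal_ofReal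
  have mgk : Measurable fun p : E n × E n => ENNReal.ofReal (g p.2) * k p.1 := mg.mul mk
  have mpE : Measurable (pE w s g) := (Lp_meas hw hs hg).div (Lp_meas hw hs (EG.const 1))
  have mpk : Measurable fun y : E n => ENNReal.ofReal (pE w s g y) * k y :=
    mpE.ennreal_ofReal.mul hk
  unfold jl lY nm
  rw [lintegral_withDensity_eq_lintegral_mul _ md mgk,
    lintegral_prod _ (md.mul mgk).aemeasurable,
    lintegral_withDensity_eq_lintegral_mul _ (nm_dens_meas hρ) mpk]
  refine lintegral_congr fun y => ?_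
  simp only [Pi.mul_apply]
  have e1 : ∀ x, ENNReal.ofReal (w x * gk s (y - x) / ∫ y, Lp w s (fun _ => 1) y) *
      (ENNReal.ofReal (g x) * k y) =
      ENNReal.ofReal (g x * (w x * gk s (y - x)) / ∫ y, Lp w s (fun _ => 1) y) * k y := by
    intro x
    rw [← mul_assoc, ← ENNReal.ofReal_mul (jl_dens_nonneg hw hs (y, x))]
    congr 2
    ring
  simp only [e1]
  have mx : Measurable fun x : E n => ENNReal.ofReal (g x * (w x * gk s (y - x)) /
      ∫ y, Lp w s (fun _ => 1) y) := by
    have m4 : Measurable fun x : E n => gk s (y - x) :=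
      (gk_cont (n := n) s).measurable.comp (measurable_const.sub measurable_id)
    exact ((hg.1.mul (hw.meas.mul m4)).div_const _).ennreal_ofReal
  rw [lintegral_mul_const _ mx, ← ofReal_integral_eq_lintegral_ofReal ((hw.int_Lp hs hg y).div_const _)
      (Filter.Eventually.of_forall fun x => div_nonneg (mul_nonneg (h0 x)
        (mul_nonneg (hw.nonneg _) (gk_pos _ _).le)) hρ.pos.le), integral_div, ← mul_assoc,
    ← ENNReal.ofReal_mul (div_nonneg (hρ.nonneg y) hρ.pos.le)]
  congr 2
  have h1 : (∫ x, g x * (w x * gk s (y - x))) = Lp w s g y := rfl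
  rw [h1, ← pE_mul_one hw hs]
  ring

instance jl_sfinite : SFinite (jl w s) := by
  unfold jl
  infer_instance

theorem jl_prob (hw : Ex w) (hs : 0 < s) : IsProbabilityMeasure (jl w s) := by
  constructor
  have h := lint_jl (g := fun _ => 1) hw hs (EG.const 1) (fun _ => zero_le_one)
    (k := fun _ => 1) measurable_const
  have h2 := nm_prob (hw.noisy hs)
  have e : ∀ y, pE w s (fun _ => 1) y = 1 := fun y => pE_const hw hs 1 y
  simp only [e, ENNReal.ofReal_one, mul_one, lintegral_one] at h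
  rw [h]
  exact h2.measure_univ

lemma int_jl_iff (hw : Ex w) (hs : 0 < s) {G : E n × E n → ℝ} :
    Integrable G (jl w s) ↔ Integrable (fun p => w p.2 * gk s (p.1 - p.2) /
      (∫ y, Lp w s (fun _ => 1) y) * G p) ((volume : Measure (E n)).prod volume) := by
  unfold jl
  rw [integrable_withDensity_iff_integrable_smul' (jl_dens_meas hw s).ennreal_ofReal
    (ae_of_all _ fun x => ENNReal.ofReal_lt_top)]
  simp only [ENNReal.toReal_ofReal (jl_dens_nonneg hw hs _), smul_eq_mul]

lemma int_jl (hw : Ex w) (hs : 0 < s) (G : E n × E n → ℝ) :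
    ∫ p, G p ∂(jl w s) = ∫ p, w p.2 * gk s (p.1 - p.2) /
      (∫ y, Lp w s (fun _ => 1) y) * G p ∂((volume : Measure (E n)).prod volume) := by
  unfold jl
  rw [integral_withDensity_eq_integral_toReal_smul (jl_dens_meas hw s).ennreal_ofReal
    (ae_of_all _ fun x => ENNReal.ofReal_lt_top)]
  simp only [ENNReal.toReal_ofReal (jl_dens_nonneg hw hs _), smul_eq_mul]

/-- change of density, Bochner form -/
theorem int_jl_mul (hw : Ex w) (hs : 0 < s) (_hg : EG g) {K : E n → ℝ}
    (h : Integrable (fun p : E n × E n => g p.2 * K p.1) (jl w s)) :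
    Integrable (fun y => pE w s g y * K y) (lY w s) ∧
      ∫ p, g p.2 * K p.1 ∂(jl w s) = ∫ y, pE w s g y * K y ∂(lY w s) := by
  have hρ := hw.noisy hs
  have h1 := (int_jl_iff hw hs).1 h
  have e : ∀ y, ∫ x, w x * gk s (y - x) / (∫ y, Lp w s (fun _ => 1) y) * (g x * K y) =
      (∫ y, Lp w s (fun _ => 1) y)⁻¹ * (pE w s g y * K y * Lp w s (fun _ => 1) y) := by
    intro y
    have e1 : ∀ x, w x * gk s (y - x) / (∫ y, Lp w s (fun _ => 1) y) * (g x * K y) =
        ((∫ y, Lp w s (fun _ => 1) y)⁻¹ * K y) * (g x * (w x * gk s (y - x))) := fun x => by ring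
    simp only [e1]
    rw [integral_const_mul]
    have h1 : (∫ x, g x * (w x * gk s (y - x))) = Lp w s g y := rfl
    rw [h1, ← pE_mul_one hw hs]
    ring
  constructor
  · rw [lY, integrable_nm_iff hρ]
    have h2 := (h1.integral_prod_left).const_mul (∫ y, Lp w s (fun _ => 1) y)
    refine h2.congr (ae_of_all _ fun y => ?_)
    simp only
    rw [e, ← mul_assoc, mul_inv_cancel₀ hρ.pos.ne', one_mul]
  · rw [int_jl hw hs, integral_prod _ h1, lY, int_nm hρ]
    simp only [e]
    rw [integral_const_mul]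
    unfold Em
    rw [div_eq_inv_mul]

/-- integrability transfers back -/
theorem int_jl_of (hw : Ex w) (hs : 0 < s) (hg : EG g) (h0 : ∀ x, 0 ≤ g x) {K : E n → ℝ}
    (hK : Measurable K) (h : Integrable (fun y => pE w s g y * K y) (lY w s)) :
    Integrable (fun p : E n × E n => g p.2 * K p.1) (jl w s) := by
  refine ⟨((hg.1.comp measurable_snd).mul (hK.comp measurable_fst)).aestronglyMeasurable, ?_⟩
  have e1 : ∀ p : E n × E n, ‖g p.2 * K p.1‖ₑ = ENNReal.ofReal (g p.2) * ‖K p.1‖ₑ := by
    intro p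
    rw [enorm_mul, Real.enorm_of_nonneg (h0 _)]
  have e2 : ∀ y, ‖pE w s g y * K y‖ₑ = ENNReal.ofReal (pE w s g y) * ‖K y‖ₑ := by
    intro y
    rw [enorm_mul, Real.enorm_of_nonneg (pE_nonneg hw hs h0 y)]
  have h1 := h.2
  unfold HasFiniteIntegral at h1 ⊢
  simp only [e1]
  simp only [e2] at h1
  rwa [lint_jl hw hs hg h0 hK.enorm]

theorem int_jl_iff' (hw : Ex w) (hs : 0 < s) (hg : EG g) (h0 : ∀ x, 0 ≤ g x) {K : E n → ℝ}
    (hK : Measurable K) : Integrable (fun p : E n × E n => g p.2 * K p.1) (jl w s) ↔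
      Integrable (fun y => pE w s g y * K y) (lY w s) :=
  ⟨fun h => (int_jl_mul hw hs hg h).1, int_jl_of hw hs hg h0 hK⟩

theorem int_jl_eq (hw : Ex w) (hs : 0 < s) (hg : EG g) (h0 : ∀ x, 0 ≤ g x) {K : E n → ℝ}
    (hK : Measurable K) :
    ∫ p, g p.2 * K p.1 ∂(jl w s) = ∫ y, pE w s g y * K y ∂(lY w s) := by
  by_cases h : Integrable (fun p : E n × E n => g p.2 * K p.1) (jl w s)
  · exact (int_jl_mul hw hs hg h).2
  · rw [integral_undef h, integral_undef (fun h' => h (int_jl_of hw hs hg h0 hK h'))]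

/-- functions of `Y` -/
theorem int_jl_fst (hw : Ex w) (hs : 0 < s) {K : E n → ℝ} (hK : Measurable K) :
    (Integrable (fun p : E n × E n => K p.1) (jl w s) ↔ Integrable K (lY w s)) ∧
      ∫ p, K p.1 ∂(jl w s) = ∫ y, K y ∂(lY w s) := by
  have e : ∀ y, pE w s (fun _ => 1) y = 1 := fun y => pE_const hw hs 1 y
  have h1 := int_jl_iff' (g := fun _ => 1) hw hs (EG.const 1) (fun _ => zero_le_one) hK
  have h2 := int_jl_eq (g := fun _ => 1) hw hs (EG.const 1) (fun _ => zero_le_one) hK
  simp only [e, one_mul] at h1 h2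
  exact ⟨h1, h2⟩

/-- functions of `X` -/
theorem int_jl_snd (hw : Ex w) (hs : 0 < s) (hg : EG g) :
    Integrable (fun p : E n × E n => g p.2) (jl w s) ∧
      ∫ p, g p.2 ∂(jl w s) = Em w g := by
  have hg' : EG fun x => |g x| := by
    obtain ⟨m, C, a, hC, ha, h⟩ := hg
    exact ⟨m.abs, C, a, hC, ha, fun x => by rw [abs_abs]; exact h x⟩
  have hi : Integrable (fun p : E n × E n => |g p.2| * (1 : ℝ)) (jl w s) := by
    refine int_jl_of (g := fun x => |g x|) (K := fun _ => 1) hw hs hg' (fun x => abs_nonneg _)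
      measurable_const ?_
    simp only [mul_one]
    rw [lY, integrable_nm_iff (hw.noisy hs)]
    have h1 := hw.int_H_Lp hs (EG.const 1) hg'
    refine h1.congr (ae_of_all _ fun y => ?_)
    simp only
    rw [pE_mul_one hw hs, one_mul]
  have hi2 : Integrable (fun p : E n × E n => g p.2) (jl w s) := by
    refine (integrable_norm_iff (hg.1.comp measurable_snd).aestronglyMeasurable).1 ?_
    refine hi.congr (ae_of_all _ fun p => ?_)
    simp
  refine ⟨hi2, ?_⟩
  have h := (int_jl_mul (g := g) (K := fun _ => 1) hw hs hg (by simpa only [mul_one] using hi2)).2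
  simp only [mul_one] at h
  rw [h, lY, int_nm (hw.noisy hs), Em_pE hw hs hg]

end Crest.Agent.R201.Lps146
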