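import Crest.Agent.R201.Lps2_146

/-!
# R201 (S0308), LSI half: labelled densities on the joint law of `(Y, X)` (owner: helper146)
-/

set_option autoImplicit false
set_option linter.unusedSectionVars false
open MeasureTheory ProbabilityTheory Matrix
open scoped BigOperators ENNReal RealInnerProductSpace

namespace Crest.Agent.R201.Lps146

open Crest.Agent.R201 Crest.Agent.R201.DVQ402 Crest.Agent.R201.An

variable {n : ℕ} {w f F : E n → ℝ} {s : ℝ} {J : Type*} [MeasurableSpace J] {lam : Measure J}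
  [SFinite lam] {P : J → E n → ℝ}

/-- label kernel read on the first coordinate -/
def lift1 (P : J → E n → ℝ) : J → E n × E n → ℝ := fun j p => P j p.1

omit [SFinite lam] in
theorem Lab.lift (h : Lab lam P) : Lab lam (lift1 P) where
  nonneg j p := h.nonneg j p.1
  meas := by
    have hP : Measurable fun p : J × E n => P p.1 p.2 := h.meas
    exact hP.comp (measurable_fst.prodMk (measurable_fst.comp measurable_snd))
  one p := h.one p.1

/-- joint integrability transfers from `Y` to `(Y, X)` -/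
theorem int_prod_jl {g : E n → ℝ} (hw : Ex w) (hs : 0 < s) (hg : EG g) (h0 : ∀ x, 0 ≤ g x)
    {K : J × E n → ℝ} (hK : Measurable K)
    (h : Integrable (fun q : J × E n => pE w s g q.2 * K q) (lam.prod (lY w s))) :
    Integrable (fun q : J × (E n × E n) => g q.2.2 * K (q.1, q.2.1)) (lam.prod (jl w s)) := by
  have hρ := hw.noisy hs
  have := nm_prob hρ
  have := jl_prob hw hs
  have mK : Measurable fun q : J × (E n × E n) => K (q.1, q.2.1) :=
    hK.comp (measurable_fst.prodMk (measurable_fst.comp measurable_snd))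
  have mg : Measurable fun q : J × (E n × E n) => g q.2.2 :=
    hg.1.comp (measurable_snd.comp measurable_snd)
  have mpE : Measurable (pE w s g) := (Lp_meas hw hs hg).div (Lp_meas hw hs (EG.const 1))
  refine ⟨(mg.mul mK).aestronglyMeasurable, ?_⟩
  have h1 := h.2
  have m1 : Measurable fun q : J × (E n × E n) => ‖g q.2.2 * K (q.1, q.2.1)‖ₑ :=
    (mg.mul mK).enorm
  have m2 : Measurable fun q : J × E n => ‖pE w s g q.2 * K q‖ₑ :=
    ((mpE.comp measurable_snd).mul hK).enorm
  unfold HasFiniteIntegral at h1 ⊢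
  rw [lintegral_prod _ m1.aemeasurable]
  rw [lintegral_prod _ m2.aemeasurable] at h1
  refine lt_of_eq_of_lt ?_ h1
  refine lintegral_congr fun j => ?_
  have e1 : ∀ p : E n × E n, ‖g p.2 * K (j, p.1)‖ₑ = ENNReal.ofReal (g p.2) * ‖K (j, p.1)‖ₑ := by
    intro p
    rw [enorm_mul, Real.enorm_of_nonneg (h0 _)]
  have e2 : ∀ y, ‖pE w s g y * K (j, y)‖ₑ = ENNReal.ofReal (pE w s g y) * ‖K (j, y)‖ₑ := by
    intro y
    rw [enorm_mul, Real.enorm_of_nonneg (pE_nonneg hw hs h0 y)]
  simp only [e1, e2]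
  exact lint_jl hw hs hg h0 (k := fun y => ‖K (j, y)‖ₑ) ((hK.comp measurable_prodMk_left).enorm)

theorem kmeas {μ : Measure (E n)} [SFinite μ] (hP : Lab lam P) (hF : Measurable F) :
    Measurable fun q : J × E n => P q.1 q.2 * Real.log (P q.1 q.2 / pJ μ F P q.1) := by
  have hP' : Measurable fun p : J × E n => P p.1 p.2 := hP.meas
  have h0 : StronglyMeasurable fun p : J × E n => F p.2 * P p.1 p.2 :=
    ((hF.comp measurable_snd).mul hP').stronglyMeasurable
  have h1 : Measurable fun j => pJ μ F P j :=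
    (StronglyMeasurable.integral_prod_right' (ν := μ) h0).measurable
  exact hP'.mul (Real.measurable_log.comp (hP'.div (h1.comp measurable_fst)))

/-- a labelled density of `Y`, seen on `(Y, X)` -/
theorem LD.toFst (hw : Ex w) (hs : 0 < s) (hF : Measurable F) (h : LD (lY w s) lam F P) :
    LD (jl w s) lam (fun p => F p.1) (lift1 P) ∧
    (∀ j, pJ (jl w s) (fun p => F p.1) (lift1 P) j = pJ (lY w s) F P j) ∧
    ent (jl w s) (fun p => F p.1) = ent (lY w s) F ∧
    MI (jl w s) lam (fun p => F p.1) (lift1 P) = MI (lY w s) lam F P := by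
  have := nm_prob (hw.noisy hs)
  have := jl_prob hw hs
  have hP' : Measurable fun p : J × E n => P p.1 p.2 := h.lab.meas
  have hPj : ∀ j, Measurable (P j) := fun j => hP'.comp measurable_prodMk_left
  have ep : ∀ j, pJ (jl w s) (fun p => F p.1) (lift1 P) j = pJ (lY w s) F P j := fun j =>
    (int_jl_fst hw hs (hF.mul (hPj j))).2
  have ek := kmeas (μ := lY w s) h.lab hF
  have e1 : ∀ y, pE w s (fun _ => 1) y = 1 := fun y => pE_const hw hs 1 y
  refine ⟨⟨h.lab.lift, fun p => h.nonneg _, (int_jl_fst hw hs hF).1.2 h.int, ?_, ?_, ?_⟩, ep, ?_, ?_⟩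
  · rw [(int_jl_fst hw hs hF).2]; exact h.one
  · exact (int_jl_fst hw hs (hF.mul hF.log)).1.2 h.ent_int
  · have hm : Measurable fun q : J × E n => F q.2 * (P q.1 q.2 *
        Real.log (P q.1 q.2 / pJ (lY w s) F P q.1)) := (hF.comp measurable_snd).mul ek
    have := int_prod_jl (g := fun _ => 1) hw hs (EG.const 1) (fun _ => zero_le_one) hm (by
      refine h.mi_int.congr (ae_of_all _ fun q => ?_)
      simp only [e1, one_mul, mul_assoc])
    refine this.congr (ae_of_all _ fun q => ?_)
    simp only [ep, lift1, one_mul, mul_assoc]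
  · exact (int_jl_fst hw hs (hF.mul hF.log)).2
  · unfold MI
    refine integral_congr_ae (ae_of_all _ fun j => ?_)
    simp only [ep]
    exact (int_jl_fst (K := fun y => F y * P j y * Real.log (P j y / pJ (lY w s) F P j)) hw hs
      ((hF.mul (hPj j)).mul (Real.measurable_log.comp ((hPj j).div_const _)))).2

/-- entropy integrand of a density of exponential growth -/
lemma EG.ent (hf : EG f) (h0 : ∀ x, 0 ≤ f x) : EG fun x => f x * Real.log (f x) := by
  have h1 : EG fun x => f x * f x + 1 := (hf.mul hf).add (EG.const 1)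
  obtain ⟨m, C, a, hC, ha, h⟩ := h1
  refine ⟨hf.1.mul hf.1.log, C, a, hC, ha, fun x => ?_⟩
  refine le_trans ?_ ((le_abs_self _).trans (h x))
  simp only
  rcases (h0 x).eq_or_lt with h2 | h2
  · rw [← h2]; simp
  rw [abs_le]
  have l1 := Real.log_le_sub_one_of_pos h2
  have l2 := Real.log_le_sub_one_of_pos (inv_pos.2 h2)
  rw [Real.log_inv] at l2
  have l3 : f x * (f x)⁻¹ = 1 := mul_inv_cancel₀ h2.ne'
  constructor
  · nlinarith [mul_pos h2 h2]
  · nlinarith [mul_pos h2 h2]

/-- the density `f(X)` with a label of `Y` -/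
theorem LD.toSnd (hw : Ex w) (hs : 0 < s) (hf : EG f) (h0 : ∀ x, 0 ≤ f x) (h1 : Em w f = 1)
    (h : LD (lY w s) lam (pE w s f) P) :
    LD (jl w s) lam (fun p => f p.2) (lift1 P) ∧
    (∀ j, pJ (jl w s) (fun p => f p.2) (lift1 P) j = pJ (lY w s) (pE w s f) P j) ∧
    ent (jl w s) (fun p => f p.2) = Em w (fun x => f x * Real.log (f x)) ∧
    MI (jl w s) lam (fun p => f p.2) (lift1 P) = MI (lY w s) lam (pE w s f) P := by
  have := nm_prob (hw.noisy hs)
  have := jl_prob hw hs
  have hP' : Measurable fun p : J × E n => P p.1 p.2 := h.lab.meas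
  have hPj : ∀ j, Measurable (P j) := fun j => hP'.comp measurable_prodMk_left
  have mF : Measurable (pE w s f) := (Lp_meas hw hs hf).div (Lp_meas hw hs (EG.const 1))
  have ep : ∀ j, pJ (jl w s) (fun p => f p.2) (lift1 P) j = pJ (lY w s) (pE w s f) P j := fun j =>
    int_jl_eq hw hs hf h0 (hPj j)
  have ek := kmeas (μ := lY w s) h.lab mF
  have hfl := EG.ent hf h0
  obtain ⟨i1, i2⟩ := int_jl_snd hw hs hf
  obtain ⟨i3, i4⟩ := int_jl_snd hw hs hfl
  refine ⟨⟨h.lab.lift, fun p => h0 _, i1, i2.trans h1, i3, ?_⟩, ep, i4, ?_⟩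
  · have := int_prod_jl hw hs hf h0 ek (by
      refine h.mi_int.congr (ae_of_all _ fun q => ?_)
      simp only [mul_assoc])
    refine this.congr (ae_of_all _ fun q => ?_)
    simp only [ep, lift1, mul_assoc]
  · unfold MI
    refine integral_congr_ae (ae_of_all _ fun j => ?_)
    simp only [ep]
    have := int_jl_eq hw hs hf h0
      (K := fun y => P j y * Real.log (P j y / pJ (lY w s) (pE w s f) P j))
      ((hPj j).mul (Real.measurable_log.comp ((hPj j).div_const _)))
    simp only [lift1, mul_assoc] at this ⊢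
    exact this

/-- centred `X` on the joint law -/
noncomputable def xh (m : E n) : E n × E n → E n := fun p => p.2 - m

lemma xh_meas (m : E n) : Measurable (xh m) := measurable_snd.sub_const m

/-- centred sub-Gaussian law of `X` -/
def SGw (κ : ℝ) (w : E n → ℝ) (m : E n) : Prop :=
  ∀ t : E n, Em w (fun x => Real.exp ⟪t, x - m⟫) ≤ Real.exp (κ * ‖t‖ ^ 2)

lemma EG.exp_inner (t m : E n) : EG fun x : E n => Real.exp ⟪t, x - m⟫ := by
  refine ⟨by fun_prop, Real.exp (‖t‖ * ‖m‖), ‖t‖, (Real.exp_pos _).le, norm_nonneg _, fun x => ?_⟩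
  rw [abs_of_pos (Real.exp_pos _), ← Real.exp_add]
  apply Real.exp_le_exp.2
  have h1 := real_inner_le_norm t (x - m)
  have h2 : ‖x - m‖ ≤ ‖x‖ + ‖m‖ := norm_sub_le _ _
  nlinarith [norm_nonneg t]

theorem SGw.sgf {κ : ℝ} {m : E n} (hw : Ex w) (hs : 0 < s) (h : SGw κ w m) :
    SGf κ (jl w s) (xh m) := by
  intro t
  obtain ⟨h1, h2⟩ := int_jl_snd hw hs (EG.exp_inner t m)
  refine ⟨h1, ?_⟩
  have e : (fun z : E n × E n => Real.exp ⟪t, xh m z⟫) = fun p => Real.exp ⟪t, p.2 - m⟫ := rfl
  rw [e, h2]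
  exact h t

end Crest.Agent.R201.Lps146
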