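import Crest.Agent.R201.Lps3_146

/-!
# R201 (S0308), LSI half: posterior algebra for the labelled psi_2 inequalities (owner: helper146)
-/

set_option autoImplicit false
set_option linter.unusedSectionVars false
open MeasureTheory ProbabilityTheory Matrix
open scoped BigOperators ENNReal RealInnerProductSpace

namespace Crest.Agent.R201.Lps146

open Crest.Agent.R201 Crest.Agent.R201.DVQ402 Crest.Agent.R201.An

variable {n : ℕ} {w f h F : E n → ℝ} {s : ℝ}

/-! ### quadratic forms -/

lemma qf_nonneg {R : Mt n} (h0 : LeQ 0 R) (x : E n) : 0 ≤ qf R x := by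
  have := h0 (x : Fin n → ℝ)
  rw [← qf_eq R] at this
  simpa using this

lemma qf_sub_add {R : Mt n} (hR : Rᵀ = R) (x a : E n) :
    qf R (x - a) = qf R x - 2 * (∑ i, (∑ j, R i j * a j) * x i) + qf R a := by
  have e2 : ∑ i, ∑ j, R i j * a i * x j = ∑ i, ∑ j, R i j * x i * a j := by
    rw [Finset.sum_comm]
    refine Finset.sum_congr rfl fun i _ => Finset.sum_congr rfl fun j _ => ?_
    have : R j i = R i j := congrFun (congrFun hR i) j
    rw [this]; ring
  have e3 : ∑ i, (∑ j, R i j * a j) * x i = ∑ i, ∑ j, R i j * x i * a j := by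
    refine Finset.sum_congr rfl fun i _ => ?_
    rw [Finset.sum_mul]
    refine Finset.sum_congr rfl fun j _ => ?_
    ring
  have e4 : qf R (x - a) = qf R x - (∑ i, ∑ j, R i j * x i * a j) -
      (∑ i, ∑ j, R i j * a i * x j) + qf R a := by
    unfold qf
    simp only [← Finset.sum_sub_distrib, ← Finset.sum_add_distrib]
    refine Finset.sum_congr rfl fun i _ => Finset.sum_congr rfl fun j _ => ?_
    simp only [PiLp.sub_apply]
    ring
  rw [e4, e2, e3]
  ring

lemma qf_smul (R : Mt n) (c : ℝ) (x : E n) : qf R (c • x) = c ^ 2 * qf R x := by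
  unfold qf
  rw [Finset.mul_sum]
  refine Finset.sum_congr rfl fun i _ => ?_
  rw [Finset.mul_sum]
  refine Finset.sum_congr rfl fun j _ => ?_
  simp only [PiLp.smul_apply, smul_eq_mul]
  ring

/-- `⟨R(a-b),a-b⟩ ≤ 2⟨Ra,a⟩ + 2⟨Rb,b⟩` -/
lemma qf_sub_le {R : Mt n} (hR : Rᵀ = R) (h0 : LeQ 0 R) (a b : E n) :
    qf R (a - b) ≤ 2 * qf R a + 2 * qf R b := by
  have h1 := qf_nonneg h0 (a + b)
  have h2 := qf_sub_add hR a b
  have h3 := qf_sub_add hR a (-b)
  have e : qf R (-b) = qf R b := by
    have := qf_smul R (-1) b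
    rw [neg_one_smul] at this
    rw [this]; ring
  rw [sub_neg_eq_add, e] at h3
  have e2 : ∑ i, (∑ j, R i j * (-b) j) * a i = -∑ i, (∑ j, R i j * b j) * a i := by
    rw [← Finset.sum_neg_distrib]
    refine Finset.sum_congr rfl fun i _ => ?_
    rw [← neg_mul, ← Finset.sum_neg_distrib]
    congr 1
    refine Finset.sum_congr rfl fun j _ => ?_
    simp only [PiLp.neg_apply]; ring
  rw [e2] at h3
  linarith

lemma EG.qf (R : Mt n) : EG (qf R) := by
  unfold DVQ402.qf
  refine EG.sum _ fun i _ => EG.sum _ fun j _ => ?_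
  exact ((EG.coord i).smul (R i j)).mul (EG.coord j)

lemma EG.qf_sub (R : Mt n) (m : E n) : EG fun x => DVQ402.qf R (x - m) := by
  unfold DVQ402.qf
  refine EG.sum _ fun i _ => EG.sum _ fun j _ => ?_
  have h1 : ∀ i, EG fun x : E n => (x - m) i := fun i => by
    have := (EG.coord (n := n) i).sub (EG.const (m i))
    simpa using this
  exact ((h1 i).smul (R i j)).mul (h1 j)

/-- posterior mean vector of `X - m` with extra density `h` -/
noncomputable def pM (w : E n → ℝ) (s : ℝ) (h : E n → ℝ) (m y : E n) : E n :=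
  WithLp.toLp 2 fun k => pE w s (fun x => (x - m) k * h x) y

lemma EG.cen (m : E n) (k : Fin n) : EG fun x : E n => (x - m) k := by
  have := (EG.coord (n := n) k).sub (EG.const (m k))
  simpa using this

/-- Jensen: `⟨R M, M⟩ ≤ pE h · pE (qf R (x - m) h)`, `M = pE((x-m) h)` -/
theorem qf_pM_le (hw : Ex w) (hs : 0 < s) (hh : EG h) (h0 : ∀ x, 0 ≤ h x) {R : Mt n}
    (hR : Rᵀ = R) (hR0 : LeQ 0 R) (m y : E n) :
    qf R (pM w s h m y) ≤ pE w s h y * pE w s (fun x => qf R (x - m) * h x) y := by
  set M := pM w s h m y with hM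
  have key : ∀ c : ℝ, 0 ≤ pE w s (fun x => qf R (x - m) * h x) y - 2 * c * qf R M +
      c ^ 2 * qf R M * pE w s h y := by
    intro c
    have h1 : 0 ≤ pE w s (fun x => qf R (x - m - c • M) * h x) y :=
      pE_nonneg hw hs (fun x => mul_nonneg (qf_nonneg hR0 _) (h0 x)) y
    have e1 : (fun x => qf R (x - m - c • M) * h x) = fun x =>
        (qf R (x - m) * h x - (2 * c) * (∑ i, (∑ j, R i j * M j) * ((x - m) i * h x))) +
          (c ^ 2 * qf R M) * h x := by
      funext x
      rw [qf_sub_add hR, qf_smul]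
      have : ∑ i, (∑ j, R i j * (c • M) j) * (x - m) i =
          c * ∑ i, (∑ j, R i j * M j) * (x - m) i := by
        rw [Finset.mul_sum]
        refine Finset.sum_congr rfl fun i _ => ?_
        rw [← mul_assoc, Finset.mul_sum]
        congr 1
        refine Finset.sum_congr rfl fun j _ => ?_
        simp only [PiLp.smul_apply, smul_eq_mul]; ring
      rw [this]
      have e5 : ∑ i, (∑ j, R i j * M j) * ((x - m) i * h x) =
          (∑ i, (∑ j, R i j * M j) * (x - m) i) * h x := by
        rw [Finset.sum_mul]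
        refine Finset.sum_congr rfl fun i _ => ?_
        ring
      rw [e5]
      ring
    have g1 : EG fun x => qf R (x - m) * h x := (EG.qf_sub R m).mul hh
    have g2 : ∀ i, EG fun x : E n => (x - m) i * h x := fun i => (EG.cen m i).mul hh
    have g3 : EG fun x => ∑ i, (∑ j, R i j * M j) * ((x - m) i * h x) :=
      EG.sum _ fun i _ => (g2 i).smul _
    rw [e1, pE_add hw hs (g1.sub (g3.smul _)) (hh.smul _), pE_sub hw hs g1 (g3.smul _), pE_smul,
      pE_smul, pE_sum _ hw hs fun i _ => (g2 i).smul _] at h1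
    have e6 : ∑ i, pE w s (fun x => (∑ j, R i j * M j) * ((x - m) i * h x)) y = qf R M := by
      unfold DVQ402.qf
      refine Finset.sum_congr rfl fun i _ => ?_
      rw [pE_smul, Finset.sum_mul]
      refine Finset.sum_congr rfl fun j _ => ?_
      have : M i = pE w s (fun x => (x - m) i * h x) y := rfl
      rw [← this]; ring
    rw [e6] at h1
    linarith
  have hp := pE_nonneg hw hs h0 y
  have hq := qf_nonneg hR0 M
  rcases hp.eq_or_lt with h2 | h2
  · -- `pE h = 0`
    rw [← h2, zero_mul]
    by_contra hc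
    push Not at hc
    have h3 := key ((pE w s (fun x => qf R (x - m) * h x) y + 1) / (2 * qf R M))
    rw [← h2] at h3
    have e : 2 * ((pE w s (fun x => qf R (x - m) * h x) y + 1) / (2 * qf R M)) * qf R M =
        pE w s (fun x => qf R (x - m) * h x) y + 1 := by
      have := hc.ne'
      field_simp
    rw [e] at h3
    linarith
  · have h3 := key (pE w s h y)⁻¹
    have e : pE w s h y * (pE w s (fun x => qf R (x - m) * h x) y -
        2 * (pE w s h y)⁻¹ * qf R M + (pE w s h y)⁻¹ ^ 2 * qf R M * pE w s h y) =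
        pE w s h y * pE w s (fun x => qf R (x - m) * h x) y - qf R M := by
      have := h2.ne'
      field_simp
      ring
    have h4 := mul_nonneg h2.le h3
    rw [e] at h4
    linarith

/-- posterior covariance against a symmetric matrix, second moments about `m` -/
theorem tr_pC (hw : Ex w) (hs : 0 < s) {R : Mt n} (_hR : Rᵀ = R) (m y : E n) :
    (R * pC w s y).trace + qf R (pM w s (fun _ => 1) m y) =
      pE w s (fun x => qf R (x - m)) y := by
  have g2 : ∀ i, EG fun x : E n => (x - m) i := fun i => EG.cen m i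
  have hM : ∀ i, pM w s (fun _ => 1) m y i = pE w s (fun x => x i) y - m i := by
    intro i
    have : pM w s (fun _ => 1) m y i = pE w s (fun x => (x - m) i * 1) y := rfl
    rw [this]
    have e : (fun x : E n => (x - m) i * 1) = fun x => x i - m i := by
      funext x; simp
    rw [e, pE_sub hw hs (EG.coord i) (EG.const _), pE_const hw hs]
  have e1 : pE w s (fun x => qf R (x - m)) y =
      ∑ i, ∑ j, R i j * pE w s (fun x => (x - m) i * (x - m) j) y := by
    unfold DVQ402.qf
    rw [pE_sum _ hw hs fun i _ => EG.sum _ fun j _ => ((g2 i).smul (R i j)).mul (g2 j)]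
    refine Finset.sum_congr rfl fun i _ => ?_
    rw [pE_sum _ hw hs fun j _ => ((g2 i).smul (R i j)).mul (g2 j)]
    refine Finset.sum_congr rfl fun j _ => ?_
    rw [← pE_smul]
    congr 1
    funext x; ring
  have e2 : ∀ i j, pE w s (fun x => (x - m) i * (x - m) j) y =
      pC w s y i j + pM w s (fun _ => 1) m y i * pM w s (fun _ => 1) m y j := by
    intro i j
    rw [hM, hM]
    have e : (fun x : E n => (x - m) i * (x - m) j) = fun x =>
        ((x i * x j - m j * x i) - m i * x j) + m i * m j := by
      funext x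
      simp only [PiLp.sub_apply]; ring
    rw [e, pE_add hw hs ((((EG.coord i).mul (EG.coord j)).sub ((EG.coord i).smul _)).sub
      ((EG.coord j).smul _)) (EG.const _), pE_sub hw hs (((EG.coord i).mul (EG.coord j)).sub
      ((EG.coord i).smul _)) ((EG.coord j).smul _), pE_sub hw hs ((EG.coord i).mul (EG.coord j))
      ((EG.coord i).smul _), pE_smul, pE_smul, pE_const hw hs]
    simp only [pC, Matrix.of_apply]
    ring
  rw [e1]
  simp only [e2, mul_add, Finset.sum_add_distrib]
  congr 1
  · rw [Matrix.trace]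
    refine Finset.sum_congr rfl fun i _ => ?_
    rw [Matrix.diag_apply, Matrix.mul_apply]
    refine Finset.sum_congr rfl fun j _ => ?_
    have : pC w s y j i = pC w s y i j := by
      have := congrFun (congrFun (pC_symm w s y) i) j
      rw [← this]; rfl
    rw [this]
  · unfold DVQ402.qf
    refine Finset.sum_congr rfl fun i _ => Finset.sum_congr rfl fun j _ => ?_
    ring

theorem tr_pC_le (hw : Ex w) (hs : 0 < s) {R : Mt n} (hR : Rᵀ = R) (h0 : LeQ 0 R) (m y : E n) :
    (R * pC w s y).trace ≤ pE w s (fun x => qf R (x - m)) y := by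
  have := tr_pC hw hs hR m y
  have := qf_nonneg h0 (pM w s (fun _ => 1) m y)
  linarith

/-- `s D_k F = pE((x-m)_k f) - F pE (x-m)_k`, `F = pE f` -/
theorem pd_cen (hw : Ex w) (hs : 0 < s) (hf : EG f) (m y : E n) (k : Fin n) :
    s * pd k (pE w s f) y = pM w s f m y k - pE w s f y * pM w s (fun _ => 1) m y k := by
  have e1 : pM w s f m y k = pE w s (fun x => f x * x k) y - m k * pE w s f y := by
    have : pM w s f m y k = pE w s (fun x => (x - m) k * f x) y := rfl
    rw [this, ← pE_smul, ← pE_sub hw hs (hf.mul (EG.coord k)) (hf.smul _)]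
    congr 1
    funext x
    simp only [PiLp.sub_apply]; ring
  have e2 : pM w s (fun _ => 1) m y k = pE w s (fun x => x k) y - m k := by
    have : pM w s (fun _ => 1) m y k = pE w s (fun x => (x - m) k * 1) y := rfl
    rw [this]
    have e : (fun x : E n => (x - m) k * 1) = fun x => x k - m k := by
      funext x; simp
    rw [e, pE_sub hw hs (EG.coord k) (EG.const _), pE_const hw hs]
  rw [pd_pE hw hs hf, e1, e2]
  field_simp
  ring

end Crest.Agent.R201.Lps146
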