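import Crest.Agent.R201.Lps4_146
import Crest.Agent.R201.LA2_446

/-!
# R201 (S0308), LSI half: labelled psi_2 inequalities (owner: helper146)

`w` weight of `X` (class `Ex`), centred sub-Gaussian: `SGw κ w m`; `Y = X + √s G`,
`lY w s` the law of `Y`; `f` a density of `X`, `F = pE w s f` the density of `Y`;
`P j y` a label kernel on `Y`, `LD (lY w s) lam F P`.

* `P1L`  : `E tr (R_J Cov(X|Y)) ≤ 8 κ (H(F) + I(J;Y)) + 4 κ E tr R_J`, any density `F` of `Y`.
* `lab_mean` : `s² E |E[D log F(Y) | J]|² ≤ 8 κ (H(f) + H(F) + 2 I(J;Y))`.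
* `lab_quad` : `s² E ⟨R_J D log F, D log F⟩ ≤ 16 κ (H(f) + H(F) + 2 I) + 16 κ E tr R_J`.
-/

set_option autoImplicit false
set_option linter.unusedSectionVars false
open MeasureTheory ProbabilityTheory Matrix
open scoped BigOperators ENNReal RealInnerProductSpace

namespace Crest.Agent.R201.Lps146

open Crest.Agent.R201 Crest.Agent.R201.DVQ402 Crest.Agent.R201.An

variable {n : ℕ} {w f F : E n → ℝ} {s κ : ℝ} {m : E n} {J : Type*} [MeasurableSpace J]
  {lam : Measure J} [SFinite lam] {P : J → E n → ℝ} {R : J → Mt n}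

lemma pE_meas (hw : Ex w) (hs : 0 < s) {g : E n → ℝ} (hg : EG g) : Measurable (pE w s g) :=
  (Lp_meas hw hs hg).div (Lp_meas hw hs (EG.const 1))

lemma pC_meas (hw : Ex w) (hs : 0 < s) (i j : Fin n) : Measurable fun y => pC w s y i j := by
  simp only [pC, Matrix.of_apply]
  exact (pE_meas hw hs ((EG.coord i).mul (EG.coord j))).sub
    ((pE_meas hw hs (EG.coord i)).mul (pE_meas hw hs (EG.coord j)))

lemma psd_of {A : Mt n} (hA : Aᵀ = A) (h0 : LeQ 0 A) : A.PosSemidef := by
  refine Matrix.PosSemidef.of_dotProduct_mulVec_nonneg ?_ fun x => ?_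
  · rw [Matrix.IsHermitian, Matrix.conjTranspose]
    ext i j
    simpa using congrFun (congrFun hA i) j
  · have := h0 x
    simpa using this

lemma tr_mul_nonneg {A B : Mt n} (hA : Aᵀ = A) (h0 : LeQ 0 A) (hB : Bᵀ = B) (hB0 : LeQ 0 B) :
    0 ≤ (A * B).trace :=
  LA2446.trace_mul_nonneg (psd_of hA h0) (psd_of hB hB0)

/-! ### (P1L) -/

/-- for one label -/
theorem P1L_j (hw : Ex w) (hs : 0 < s) (hκ : 0 < κ) (hsg : SGw κ w m) (hF : Measurable F)
    (h : LD (lY w s) lam F P) {A : Mt n} (hA : Aᵀ = A) (h0 : LeQ 0 A) (h1 : LeQ A 1) {j : J}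
    (hj : Good (jl w s) (fun p => F p.1) (lift1 P) j) :
    Integrable (fun y => (A * pC w s y).trace * (F y * P j y)) (lY w s) ∧
    0 ≤ ∫ y, (A * pC w s y).trace * (F y * P j y) ∂(lY w s) ∧
    ∫ y, (A * pC w s y).trace * (F y * P j y) ∂(lY w s) ≤
      ∫ p, DVQ402.qf A (xh m p) * (F p.1 * lift1 P j p) ∂(jl w s) := by
  have := nm_prob (hw.noisy hs)
  have := jl_prob hw hs
  obtain ⟨hl, ep, -, -⟩ := LD.toFst hw hs hF h
  have hP' : Measurable fun p : J × E n => P p.1 p.2 := h.lab.meas
  have hPj : Measurable (P j) := hP'.comp measurable_prodMk_left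
  obtain ⟨k1, -⟩ := hl.quad_j (xh_meas m) (hsg.sgf hw hs) hκ hA h0 h1 hj
  obtain ⟨k2, k3⟩ := int_jl_mul (g := fun x => DVQ402.qf A (x - m)) (K := fun y => F y * P j y)
    hw hs (EG.qf_sub A m) k1
  have hnn : ∀ y, 0 ≤ (A * pC w s y).trace * (F y * P j y) := fun y =>
    mul_nonneg (tr_mul_nonneg hA h0 (pC_symm w s y) (pC_nonneg hw hs y))
      (mul_nonneg (h.nonneg y) (h.lab.nonneg j y))
  have hle : ∀ y, (A * pC w s y).trace * (F y * P j y) ≤
      pE w s (fun x => DVQ402.qf A (x - m)) y * (F y * P j y) := fun y =>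
    mul_le_mul_of_nonneg_right (tr_pC_le hw hs hA h0 m y)
      (mul_nonneg (h.nonneg y) (h.lab.nonneg j y))
  have hm : Measurable fun y => (A * pC w s y).trace * (F y * P j y) := by
    refine Measurable.mul ?_ (hF.mul hPj)
    simp only [Matrix.trace, Matrix.diag_apply, Matrix.mul_apply]
    exact Finset.measurable_sum _ fun i _ => Finset.measurable_sum _ fun k _ =>
      (pC_meas hw hs k i).const_mul _
  have hi : Integrable (fun y => (A * pC w s y).trace * (F y * P j y)) (lY w s) := by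
    refine k2.mono' hm.aestronglyMeasurable (ae_of_all _ fun y => ?_)
    rw [Real.norm_of_nonneg (hnn y)]
    exact hle y
  refine ⟨hi, integral_nonneg hnn, ?_⟩
  have e : ∫ p, DVQ402.qf A (xh m p) * (F p.1 * lift1 P j p) ∂(jl w s) =
      ∫ y, pE w s (fun x => DVQ402.qf A (x - m)) y * (F y * P j y) ∂(lY w s) := k3
  rw [e]
  exact integral_mono hi k2 hle

/-- **(P1L)** : `E tr (R_J Cov(X|Y)) ≤ 8 κ (H(F) + I(J;Y)) + 4 κ E tr R_J` -/
theorem P1L (hw : Ex w) (hs : 0 < s) (hκ : 0 < κ) (hsg : SGw κ w m) (hF : Measurable F)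
    (h : LD (lY w s) lam F P) (hRm : ∀ i k, Measurable fun j => R j i k)
    (hR : ∀ j, (R j)ᵀ = R j) (h0 : ∀ j, LeQ 0 (R j)) (h1 : ∀ j, LeQ (R j) 1) :
    Integrable (fun j => ∫ y, (R j * pC w s y).trace * (F y * P j y) ∂(lY w s)) lam ∧
    Integrable (fun j => (R j).trace * pJ (lY w s) F P j) lam ∧
    ∫ j, ∫ y, (R j * pC w s y).trace * (F y * P j y) ∂(lY w s) ∂lam ≤
      8 * κ * (ent (lY w s) F + MI (lY w s) lam F P) +
        4 * κ * ∫ j, (R j).trace * pJ (lY w s) F P j ∂lam := by
  have := nm_prob (hw.noisy hs)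
  have := jl_prob hw hs
  obtain ⟨hl, ep, ee, em⟩ := LD.toFst hw hs hF h
  have hP' : Measurable fun p : J × E n => P p.1 p.2 := h.lab.meas
  have hF1 : Measurable fun p : E n × E n => F p.1 := hF.comp measurable_fst
  obtain ⟨q1, q2, q3⟩ := hl.quad hF1 (xh_meas m) (hsg.sgf hw hs) hκ hRm hR h0 h1
  simp only [ep] at q2 q3
  rw [ee, em] at q3
  have hae : ∀ᵐ j ∂lam, 0 ≤ ∫ y, (R j * pC w s y).trace * (F y * P j y) ∂(lY w s) ∧
      ∫ y, (R j * pC w s y).trace * (F y * P j y) ∂(lY w s) ≤
        ∫ p, DVQ402.qf (R j) (xh m p) * (F p.1 * lift1 P j p) ∂(jl w s) := by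
    filter_upwards [hl.good] with j hj
    exact (P1L_j hw hs hκ hsg hF h (hR j) (h0 j) (h1 j) hj).2
  have hm : Measurable fun j => ∫ y, (R j * pC w s y).trace * (F y * P j y) ∂(lY w s) := by
    have hG : StronglyMeasurable fun q : J × E n =>
        (R q.1 * pC w s q.2).trace * (F q.2 * P q.1 q.2) := by
      refine (Measurable.mul ?_ ((hF.comp measurable_snd).mul hP')).stronglyMeasurable
      simp only [Matrix.trace, Matrix.diag_apply, Matrix.mul_apply]
      exact Finset.measurable_sum _ fun i _ => Finset.measurable_sum _ fun k _ =>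
        ((hRm i k).comp measurable_fst).mul ((pC_meas hw hs k i).comp measurable_snd)
    exact (StronglyMeasurable.integral_prod_right' (ν := lY w s) hG).measurable
  have hi : Integrable (fun j => ∫ y, (R j * pC w s y).trace * (F y * P j y) ∂(lY w s)) lam := by
    refine q1.mono' hm.aestronglyMeasurable ?_
    filter_upwards [hae] with j hj
    rw [Real.norm_of_nonneg hj.1]
    exact hj.2
  refine ⟨hi, q2, ?_⟩
  refine le_trans ?_ q3
  refine integral_mono_ae hi q1 ?_
  filter_upwards [hae] with j hj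
  exact hj.2

/-! ### Tweedie, labelled mean -/

/-- **labelled psi_2, linear** : `s² E |E[D log F | J]|² ≤ 8 κ (H(f) + H(F) + 2 I(J;Y))` -/
theorem lab_mean (hw : Ex w) (hs : 0 < s) (hκ : 0 < κ) (hsg : SGw κ w m) (hf : EG f)
    (hf0 : ∀ x, 0 ≤ f x) (hf1 : Em w f = 1) (h : LD (lY w s) lam (pE w s f) P) :
    Integrable (fun j => (∑ k, (∫ y, pd k (pE w s f) y * P j y ∂(lY w s)) ^ 2) /
      pJ (lY w s) (pE w s f) P j) lam ∧
    s ^ 2 * ∫ j, (∑ k, (∫ y, pd k (pE w s f) y * P j y ∂(lY w s)) ^ 2) /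
      pJ (lY w s) (pE w s f) P j ∂lam ≤
      8 * κ * (Em w (fun x => f x * Real.log (f x)) + ent (lY w s) (pE w s f) +
        2 * MI (lY w s) lam (pE w s f) P) := by
  have := nm_prob (hw.noisy hs)
  have := jl_prob hw hs
  have mF : Measurable (pE w s f) := pE_meas hw hs hf
  obtain ⟨l1, p1, n1, m1⟩ := LD.toFst hw hs mF h
  obtain ⟨l2, p2, n2, m2⟩ := LD.toSnd hw hs hf hf0 hf1 h
  have hsf := hsg.sgf hw hs
  have hP' : Measurable fun p : J × E n => P p.1 p.2 := h.lab.meas
  have hPj : ∀ j, Measurable (P j) := fun j => hP'.comp measurable_prodMk_left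
  obtain ⟨a1, a2⟩ := l1.lin (mF.comp measurable_fst) (xh_meas m) hsf hκ
  obtain ⟨b1, b2⟩ := l2.lin (hf.1.comp measurable_snd) (xh_meas m) hsf hκ
  simp only [p1] at a1 a2
  simp only [p2] at b1 b2
  rw [n1, m1] at a2
  rw [n2, m2] at b2
  -- pointwise in the label
  have hae : ∀ᵐ j ∂lam, s ^ 2 * ((∑ k, (∫ y, pd k (pE w s f) y * P j y ∂(lY w s)) ^ 2) /
      pJ (lY w s) (pE w s f) P j) ≤
      2 * ((∑ k, (∫ z, xh m z k * (f z.2 * lift1 P j z) ∂(jl w s)) ^ 2) /
        pJ (lY w s) (pE w s f) P j) +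
      2 * ((∑ k, (∫ z, xh m z k * (pE w s f z.1 * lift1 P j z) ∂(jl w s)) ^ 2) /
        pJ (lY w s) (pE w s f) P j) := by
    filter_upwards [l1.good, l2.good] with j g1 g2
    have hk : ∀ k, s * ∫ y, pd k (pE w s f) y * P j y ∂(lY w s) =
        (∫ z, xh m z k * (f z.2 * lift1 P j z) ∂(jl w s)) -
        ∫ z, xh m z k * (pE w s f z.1 * lift1 P j z) ∂(jl w s) := by
      intro k
      have i1 : Integrable (fun z : E n × E n => ((z.2 - m) k * f z.2) * P j z.1) (jl w s) := by
        rcases (l2.pJ_nonneg j).eq_or_lt with hp | hp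
        · have hz := l2.ae_zero g2 hp.symm
          refine (integrable_zero _ _ _).congr ?_
          filter_upwards [hz] with z hz
          have : (z.2 - m) k * f z.2 * P j z.1 = (z.2 - m) k * (f z.2 * lift1 P j z) := by
            unfold lift1; ring
          rw [this, hz, mul_zero]
          rfl
        · obtain ⟨c1, c2, c3, c4, c5⟩ := l2.cond g2 hp
          have hc := (hsf.coord_int (xh_meas m) c1 c2 c4 k).mul_const
            (pJ (jl w s) (fun p => f p.2) (lift1 P) j)
          refine hc.congr (ae_of_all _ fun z => ?_)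
          simp only [xh, lift1]
          field_simp
      have i2 : Integrable (fun z : E n × E n => (z.2 - m) k * (pE w s f z.1 * P j z.1))
          (jl w s) := by
        rcases (l1.pJ_nonneg j).eq_or_lt with hp | hp
        · have hz := l1.ae_zero g1 hp.symm
          refine (integrable_zero _ _ _).congr ?_
          filter_upwards [hz] with z hz
          have : (z.2 - m) k * (pE w s f z.1 * P j z.1) =
              (z.2 - m) k * (pE w s f z.1 * lift1 P j z) := rfl
          rw [this, hz, mul_zero]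
          rfl
        · obtain ⟨c1, c2, c3, c4, c5⟩ := l1.cond g1 hp
          have hc := (hsf.coord_int (xh_meas m) c1 c2 c4 k).mul_const
            (pJ (jl w s) (fun p => pE w s f p.1) (lift1 P) j)
          refine hc.congr (ae_of_all _ fun z => ?_)
          simp only [xh, lift1]
          field_simp
      obtain ⟨u1, u2⟩ := int_jl_mul (g := fun x => (x - m) k * f x) (K := P j) hw hs
        ((EG.cen m k).mul hf) i1
      obtain ⟨v1, v2⟩ := int_jl_mul (g := fun x => (x - m) k) (K := fun y => pE w s f y * P j y)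
        hw hs (EG.cen m k) i2
      have e1 : ∫ z, xh m z k * (f z.2 * lift1 P j z) ∂(jl w s) =
          ∫ y, pE w s (fun x => (x - m) k * f x) y * P j y ∂(lY w s) := by
        rw [← u2]
        refine integral_congr_ae (ae_of_all _ fun z => ?_)
        simp only [xh, lift1]; ring
      have e2 : ∫ z, xh m z k * (pE w s f z.1 * lift1 P j z) ∂(jl w s) =
          ∫ y, pE w s (fun x => (x - m) k) y * (pE w s f y * P j y) ∂(lY w s) := v2
      rw [e1, e2, ← integral_sub u1 v1, ← integral_const_mul]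
      refine integral_congr_ae (ae_of_all _ fun y => ?_)
      have hh := pd_cen hw hs hf m y k
      have h1 : pM w s f m y k = pE w s (fun x => (x - m) k * f x) y := rfl
      have h2 : pM w s (fun _ => 1) m y k = pE w s (fun x => (x - m) k) y := by
        have : pM w s (fun _ => 1) m y k = pE w s (fun x => (x - m) k * 1) y := rfl
        rw [this]; simp only [mul_one]
      rw [h1, h2] at hh
      simp only
      calc s * (pd k (pE w s f) y * P j y) = (s * pd k (pE w s f) y) * P j y := by ring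
        _ = _ := by rw [hh]; ring
    have hs2 : s ^ 2 * (∑ k, (∫ y, pd k (pE w s f) y * P j y ∂(lY w s)) ^ 2) =
        ∑ k, ((∫ z, xh m z k * (f z.2 * lift1 P j z) ∂(jl w s)) -
          ∫ z, xh m z k * (pE w s f z.1 * lift1 P j z) ∂(jl w s)) ^ 2 := by
      rw [Finset.mul_sum]
      refine Finset.sum_congr rfl fun k _ => ?_
      rw [← hk, mul_pow]
    have hle : s ^ 2 * (∑ k, (∫ y, pd k (pE w s f) y * P j y ∂(lY w s)) ^ 2) ≤
        2 * (∑ k, (∫ z, xh m z k * (f z.2 * lift1 P j z) ∂(jl w s)) ^ 2) +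
        2 * (∑ k, (∫ z, xh m z k * (pE w s f z.1 * lift1 P j z) ∂(jl w s)) ^ 2) := by
      rw [hs2, Finset.mul_sum, Finset.mul_sum, ← Finset.sum_add_distrib]
      refine Finset.sum_le_sum fun k _ => ?_
      nlinarith [sq_nonneg ((∫ z, xh m z k * (f z.2 * lift1 P j z) ∂(jl w s)) +
          ∫ z, xh m z k * (pE w s f z.1 * lift1 P j z) ∂(jl w s))]
    have := div_le_div_of_nonneg_right hle (h.pJ_nonneg j)
    rw [add_div, mul_div_assoc, mul_div_assoc, mul_div_assoc] at this
    exact this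
  have hB := (b1.const_mul 2).add (a1.const_mul 2)
  have hm : Measurable fun j => (∑ k, (∫ y, pd k (pE w s f) y * P j y ∂(lY w s)) ^ 2) /
      pJ (lY w s) (pE w s f) P j := by
    have mk : ∀ k, Measurable (pd k (pE w s f)) := by
      intro k
      have := (contDiff_pE hw hs hf).continuous_fderiv (by simp)
      exact (this.clm_apply continuous_const).measurable
    have h1 : ∀ k, Measurable fun j => ∫ y, pd k (pE w s f) y * P j y ∂(lY w s) := fun k => by
      have hG : StronglyMeasurable fun q : J × E n => pd k (pE w s f) q.2 * P q.1 q.2 :=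
        (((mk k).comp measurable_snd).mul hP').stronglyMeasurable
      exact (StronglyMeasurable.integral_prod_right' (ν := lY w s) hG).measurable
    have h2 : Measurable fun j => pJ (lY w s) (pE w s f) P j := by
      have hG : StronglyMeasurable fun q : J × E n => pE w s f q.2 * P q.1 q.2 :=
        ((mF.comp measurable_snd).mul hP').stronglyMeasurable
      exact (StronglyMeasurable.integral_prod_right' (ν := lY w s) hG).measurable
    exact (Finset.measurable_sum _ fun k _ => (h1 k).pow_const 2).div h2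
  have hi' : Integrable (fun j => s ^ 2 * ((∑ k, (∫ y, pd k (pE w s f) y * P j y ∂(lY w s)) ^ 2) /
      pJ (lY w s) (pE w s f) P j)) lam := by
    refine hB.mono' (hm.const_mul _).aestronglyMeasurable ?_
    filter_upwards [hae] with j hj
    rw [Real.norm_of_nonneg (mul_nonneg (sq_nonneg _)
      (div_nonneg (Finset.sum_nonneg fun k _ => sq_nonneg _) (h.pJ_nonneg j)))]
    exact hj
  have hi : Integrable (fun j => (∑ k, (∫ y, pd k (pE w s f) y * P j y ∂(lY w s)) ^ 2) /
      pJ (lY w s) (pE w s f) P j) lam := by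
    refine (hi'.const_mul ((s ^ 2)⁻¹)).congr (ae_of_all _ fun j => ?_)
    simp only
    rw [← mul_assoc, inv_mul_cancel₀ (by positivity), one_mul]
  refine ⟨hi, ?_⟩
  rw [← integral_const_mul]
  have hfin := integral_mono_ae hi' hB hae
  refine hfin.trans ?_
  have e3 : ∫ j, ((fun j => 2 * ((∑ k, (∫ z, xh m z k * (f z.2 * lift1 P j z) ∂(jl w s)) ^ 2) /
        pJ (lY w s) (pE w s f) P j)) + fun j =>
      2 * ((∑ k, (∫ z, xh m z k * (pE w s f z.1 * lift1 P j z) ∂(jl w s)) ^ 2) /
        pJ (lY w s) (pE w s f) P j)) j ∂lam = 2 * (∫ j, (∑ k, (∫ z, xh m z k *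
        (f z.2 * lift1 P j z) ∂(jl w s)) ^ 2) / pJ (lY w s) (pE w s f) P j ∂lam) +
      2 * ∫ j, (∑ k, (∫ z, xh m z k * (pE w s f z.1 * lift1 P j z) ∂(jl w s)) ^ 2) /
        pJ (lY w s) (pE w s f) P j ∂lam := by
    simp only [Pi.add_apply]
    rw [integral_add (b1.const_mul 2) (a1.const_mul 2), integral_const_mul, integral_const_mul]
  rw [e3]
  linarith

end Crest.Agent.R201.Lps146
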