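import Crest.Agent.R201.Lps5_146
import Crest.Agent.R201.LabLSI_809

/-!
# R201 (S0308), LSI half: block LB, labelled psi_2 inequalities for 809's channels
(owner: helper146)

* `LB_mean` (S3) and `LB_P1L` (P1L), in the literals of `LL809`.
-/

set_option autoImplicit false
set_option linter.unusedSectionVars false
open MeasureTheory ProbabilityTheory Matrix
open scoped BigOperators ENNReal RealInnerProductSpace

namespace Crest.Agent.R201.Lps146

open Crest.Agent.R201 Crest.Agent.R201.DVQ402 Crest.Agent.R201.An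

variable {n : ℕ} {μ : Measure (E n)} {F : E n → ℝ} {L : Type*} [MeasurableSpace L]
  {l : Measure L} [SFinite l] {p : L → E n → ℝ} {G h : L → ℝ}

/-- a channel gives a label kernel -/
theorem lab_of (hp : LL809.Chan l p G h) : Lab l p where
  nonneg j x := hp.p_nonneg j x
  meas := hp.meas
  one := hp.one

theorem pJ_eq (μ : Measure (E n)) (F : E n → ℝ) (p : L → E n → ℝ) :
    pJ μ F p = LL809.pJ μ F p := rfl

/-- a channel and a `CBp` density give labelled data -/
theorem LD.of [IsFiniteMeasure μ] (hp : LL809.Chan l p G h) (hF : LL809.CBp F)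
    (h1 : ∫ x, F x ∂μ = 1) : LD μ l F p := by
  obtain ⟨B, hB0, hB⟩ := hF.bdd
  obtain ⟨B', hB0', hB'⟩ := hF.log_bdd
  have mF := hF.cont.measurable
  have hFi : Integrable F μ := (integrable_const B).mono' mF.aestronglyMeasurable
    (Filter.Eventually.of_forall fun x => (hB x).1)
  refine ⟨lab_of hp, fun x => (hF.pos x).le, hFi, h1, ?_, ?_⟩
  · refine (integrable_const (B * B')).mono' (mF.mul mF.log).aestronglyMeasurable
      (Filter.Eventually.of_forall fun x => ?_)
    rw [Real.norm_eq_abs, abs_mul]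
    exact mul_le_mul (hB x).1 (hB' x) (abs_nonneg _) hB0
  · have i1 := hp.int_prod (μ := μ) (q := fun j x => p j x * Real.log (p j x)) mF
      (fun x => (hB x).1) (hp.meas.mul hp.meas.log) hp.q2
    have mpJ : Measurable fun z : L × E n => pJ μ F p z.1 :=
      (LL809.pJ_meas (μ := μ) hp hF).comp measurable_fst
    have i2 : Integrable (fun z : L × E n => F z.2 * (p z.1 z.2 * Real.log (pJ μ F p z.1)))
        (l.prod μ) := by
      refine hp.int_prod (μ := μ) (q := fun j x => p j x * Real.log (pJ μ F p j)) mF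
        (fun x => (hB x).1) (hp.meas.mul mpJ.log) fun j x => ?_
      obtain ⟨h0, h2, h3⟩ := LL809.pJ_bd (μ := μ) hp hF h1 j
      rw [abs_mul, abs_of_nonneg (hp.p_nonneg j x)]
      have h4 : p j x * |Real.log (pJ μ F p j)| ≤ G j * h j :=
        mul_le_mul (hp.le j x) h3 (abs_nonneg _) (hp.G_pos j).le
      have h5 := hp.h_nonneg j
      have h6 := (hp.G_pos j).le
      nlinarith [mul_nonneg h5 h6, mul_nonneg (mul_nonneg h5 h5) h6]
    refine (i1.sub i2).congr (Filter.Eventually.of_forall fun z => ?_)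
    simp only [Pi.sub_apply, pJ_eq]
    rw [Real.log_div ((hp.cb z.1).pos z.2).ne' (LL809.pJ_bd (μ := μ) hp hF h1 z.1).1.ne']
    ring

theorem ent_eq [IsFiniteMeasure μ] (h1 : ∫ x, F x ∂μ = 1) : ent μ F = LL809.Ent μ F := by
  unfold ent LL809.Ent
  rw [h1, Real.log_one, mul_zero, sub_zero]

theorem MI_eq [IsFiniteMeasure μ] (hp : LL809.Chan l p G h) (hF : LL809.CBp F)
    (h1 : ∫ x, F x ∂μ = 1) : MI μ l F p = LL809.MI μ F l p := by
  obtain ⟨B, hB0, hB⟩ := hF.bdd
  have mF := hF.cont.measurable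
  unfold MI LL809.MI
  refine integral_congr_ae (Filter.Eventually.of_forall fun j => ?_)
  simp only
  have i1 := hp.int_right (μ := μ) (q := fun j x => p j x * Real.log (p j x)) mF
    (fun x => (hB x).1) (hp.meas.mul hp.meas.log) hp.q2 j
  have i2 := hp.int_right (μ := μ) (q := p) mF (fun x => (hB x).1) hp.meas hp.q1 j
  have e : pJ μ F p j * Real.log (pJ μ F p j) = ∫ x, F x * p j x * Real.log (pJ μ F p j) ∂μ := by
    rw [integral_mul_const]; rfl
  rw [← pJ_eq, e, ← integral_sub i1 (i2.mul_const _)]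
  refine integral_congr_ae (Filter.Eventually.of_forall fun x => ?_)
  simp only [pJ_eq]
  rw [Real.log_div ((hp.cb j).pos x).ne' (LL809.pJ_bd (μ := μ) hp hF h1 j).1.ne']
  ring

variable {w f : E n → ℝ} {s κ : ℝ} {m : E n}

/-- **block LB, (S3)** : `s² E |E[D log F | J]|² ≤ 8 κ (H(f) + H(F) + 2 I(J;Y))` -/
theorem LB_mean (hw : Ex w) (hs : 0 < s) (hκ : 0 < κ) (hsg : SGw κ w m) (hf : EG f)
    (hf0 : ∀ x, 0 ≤ f x) (hf1 : Em w f = 1) (hF : LL809.CBp (pE w s f))
    (hF1 : ∫ x, pE w s f x ∂(lY w s) = 1) (hp : LL809.Chan l p G h) :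
    Integrable (fun j => (∑ k, (∫ x, pE w s f x * (pd k (pE w s f) x / pE w s f x) * p j x
      ∂(lY w s)) ^ 2) / LL809.pJ (lY w s) (pE w s f) p j) l ∧
    s ^ 2 * ∫ j, (∑ k, (∫ x, pE w s f x * (pd k (pE w s f) x / pE w s f x) * p j x
      ∂(lY w s)) ^ 2) / LL809.pJ (lY w s) (pE w s f) p j ∂l ≤
      8 * κ * (Em w (fun x => f x * Real.log (f x)) + LL809.Ent (lY w s) (pE w s f) +
        2 * LL809.MI (lY w s) (pE w s f) l p) := by
  have := nm_prob (hw.noisy hs)
  have h1 := lab_mean hw hs hκ hsg hf hf0 hf1 (LD.of hp hF hF1)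
  rw [ent_eq hF1, MI_eq hp hF hF1, pJ_eq] at h1
  have e : ∀ k x, pE w s f x * (pd k (pE w s f) x / pE w s f x) = pd k (pE w s f) x := by
    intro k x
    have := (hF.pos x).ne'
    field_simp
  simp only [e]
  exact h1

/-- `1 - s V'' = Cov(X|Y)/s` -/
lemma one_sub_Vh (hs : 0 < s) (y : E n) :
    (1 : Mt n) - s • Vh w s y = (1 / s) • pC w s y := by
  unfold Vh
  rw [smul_smul, mul_one_div_cancel hs.ne', one_smul, sub_sub_cancel]

/-- **block LB, (P1L)** : `E tr (R_J (1 - s V'')) ≤ (1/s) (8 κ (H(F) + I(J;Y)) + 4 κ E tr R_J)` -/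
theorem LB_P1L (hw : Ex w) (hs : 0 < s) (hκ : 0 < κ) (hsg : SGw κ w m) (hF : LL809.CBp F)
    (hF1 : ∫ x, F x ∂(lY w s) = 1) (hp : LL809.Chan l p G h) {R : L → Mt n}
    (hRm : ∀ i k, Measurable fun j => R j i k)
    (hR : ∀ j, (R j)ᵀ = R j) (h0 : ∀ j, LeQ 0 (R j)) (h1 : ∀ j, LeQ (R j) 1) :
    Integrable (fun j => ∫ x, F x * (R j * (1 - s • Vh w s x)).trace * p j x ∂(lY w s)) l ∧
    Integrable (fun j => (R j).trace * LL809.pJ (lY w s) F p j) l ∧
    s * ∫ j, ∫ x, F x * (R j * (1 - s • Vh w s x)).trace * p j x ∂(lY w s) ∂l ≤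
      8 * κ * (LL809.Ent (lY w s) F + LL809.MI (lY w s) F l p) +
        4 * κ * ∫ j, (R j).trace * LL809.pJ (lY w s) F p j ∂l := by
  have := nm_prob (hw.noisy hs)
  obtain ⟨a1, a2, a3⟩ := P1L hw hs hκ hsg hF.cont.measurable (LD.of hp hF hF1) hRm hR h0 h1
  rw [ent_eq hF1, MI_eq hp hF hF1, pJ_eq] at a3
  rw [pJ_eq] at a2
  have e : ∀ j x, F x * (R j * (1 - s • Vh w s x)).trace * p j x =
      (1 / s) * ((R j * pC w s x).trace * (F x * p j x)) := by
    intro j x
    rw [one_sub_Vh hs, Matrix.mul_smul, Matrix.trace_smul, smul_eq_mul]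
    ring
  simp only [e, integral_const_mul]
  refine ⟨a1.const_mul _, a2, ?_⟩
  rw [← mul_assoc, mul_one_div_cancel hs.ne', one_mul]
  exact a3

/-- a sub-Gaussian law (402's `SG`, centre `0`) -/
lemma SGw.of_SG (hw : Ex w) (h : SG κ (nm w)) : SGw κ w 0 := by
  intro t
  have h1 := (h t).2
  rw [int_nm hw] at h1
  simpa using h1

end Crest.Agent.R201.Lps146
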