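import Crest.Agent.R201.Lps6_146
import Crest.Agent.R201.LDefs_74
import Crest.Agent.R201.Ends_293

/-!
# R201 (S0308), LSI half: block LB in the literals of `L74` (owner: helper146)

* `MI_nonneg`
* `LB2` : block LB with the entropy of the start density `Ent (nm w) f₀` in the first conjunct
  (with `Hs` alone the first conjunct is false: Gaussian shifts).
* `LB3` : block LB under `Ent (nm w) f₀ ≤ 2 Hs`.
-/

set_option autoImplicit false
set_option linter.unusedSectionVars false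
open MeasureTheory ProbabilityTheory Matrix
open scoped BigOperators ENNReal RealInnerProductSpace

namespace Crest.Agent.R201.Lps146

open Crest.Agent.R201 Crest.Agent.R201.DVQ402 Crest.Agent.R201.An Crest.Agent.R201.L74

section MI

variable {n : ℕ} {μ : Measure (E n)} {F : E n → ℝ} {L : Type*} [MeasurableSpace L]
  {l : Measure L} [SFinite l] {p : L → E n → ℝ} {G h : L → ℝ}

/-- mutual information is nonnegative -/
theorem MI_nonneg [IsFiniteMeasure μ] (hp : LL809.Chan l p G h) (hF : LL809.CBp F)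
    (h1 : ∫ x, F x ∂μ = 1) : 0 ≤ LL809.MI μ F l p := by
  obtain ⟨B, hB0, hB⟩ := hF.bdd
  have mF := hF.cont.measurable
  have hFi : Integrable F μ := (integrable_const B).mono' mF.aestronglyMeasurable
    (Filter.Eventually.of_forall fun x => (hB x).1)
  unfold LL809.MI
  refine integral_nonneg fun j => ?_
  simp only [Pi.zero_apply]
  obtain ⟨hq, -, -⟩ := LL809.pJ_bd (μ := μ) hp hF h1 j
  set q := LL809.pJ μ F p j with hqd
  have i1 := hp.int_right (μ := μ) (q := fun j x => p j x * Real.log (p j x)) mF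
    (fun x => (hB x).1) (hp.meas.mul hp.meas.log) hp.q2 j
  have i2 := hp.int_right (μ := μ) (q := p) mF (fun x => (hB x).1) hp.meas hp.q1 j
  have key : ∀ x, F x * p j x * (1 + Real.log q) - q * F x ≤ F x * (p j x * Real.log (p j x)) := by
    intro x
    have hpj := (hp.cb j).pos x
    have hlog := Real.log_le_sub_one_of_pos (div_pos hq hpj)
    rw [Real.log_div hq.ne' hpj.ne'] at hlog
    have h2 : p j x * (q / p j x) = q := by field_simp
    have h3 : p j x * (1 + Real.log q) - q ≤ p j x * Real.log (p j x) := by nlinarith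
    calc F x * p j x * (1 + Real.log q) - q * F x = F x * (p j x * (1 + Real.log q) - q) := by ring
      _ ≤ F x * (p j x * Real.log (p j x)) := mul_le_mul_of_nonneg_left h3 (hF.pos x).le
  have hi := integral_mono ((i2.mul_const (1 + Real.log q)).sub (hFi.const_mul q)) i1 key
  simp only [Pi.sub_apply] at hi
  rw [integral_sub (i2.mul_const _) (hFi.const_mul q), integral_mul_const, integral_const_mul, h1]
    at hi
  have e : ∫ x, F x * p j x ∂μ = q := rfl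
  rw [e] at hi
  linarith

end MI

/-- (S3), raw form in the literals of `L74` -/
theorem S3_raw {n : ℕ} {c R κ : ℝ} {w f₀ : E n → ℝ} (hc : 0 < c) (hw : Wt c R w)
    (hf : LL809.CBp f₀) (hf1 : Em w f₀ = 1) (hκ : 0 < κ) (hsg : SG κ (nm w)) {s : ℝ} (hs : 0 < s)
    {p : E n → E n → ℝ} {G k : E n → ℝ} (hp : LL809.Chan (LL809.gam n) p G k) :
    s ^ 2 * ∫ j, (∑ i, (∫ x, fs w f₀ s x * (sc w f₀ s i x * p j x) ∂(ms w s)) ^ 2) /
        LL809.pJ (ms w s) (fs w f₀ s) p j ∂(LL809.gam n) ≤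
      8 * κ * (LL809.Ent (nm w) f₀ + Hs w f₀ s +
        2 * LL809.MI (ms w s) (fs w f₀ s) (LL809.gam n) p) := by
  have hw' := hw.ex
  have hF := Ends293.cbp_pE hw' hc.le hw.slc hs hf
  have hF1 : ∫ x, pE w s f₀ x ∂(lY w s) = 1 := by
    rw [lY, int_nm (hw'.noisy hs), Ends293.mass_pE hw' hs hf, hf1]
  have key := (LB_mean hw' hs hκ (SGw.of_SG hw' hsg) (CB.eg hf.1).1 (fun x => (hf.pos x).le) hf1
    hF hF1 hp).2
  have e0 : LL809.Ent (nm w) f₀ = Em w (fun x => f₀ x * Real.log (f₀ x)) := by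
    unfold LL809.Ent
    rw [int_nm hw', int_nm hw', hf1, Real.log_one, mul_zero, sub_zero]
  rw [e0]
  simp only [mul_assoc] at key ⊢
  exact key

/-- (P1L), raw form in the literals of `L74` -/
theorem P1L_raw {n : ℕ} {c R κ : ℝ} {w f₀ : E n → ℝ} (hc : 0 < c) (hw : Wt c R w)
    (hf : LL809.CBp f₀) (hf1 : Em w f₀ = 1) (hκ : 0 < κ) (hsg : SG κ (nm w)) {s : ℝ} (hs : 0 < s)
    {p : E n → E n → ℝ} {G k : E n → ℝ} (hp : LL809.Chan (LL809.gam n) p G k)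
    {Q : E n → Mt n} (hQm : ∀ i j, Measurable fun y => Q y i j) (hQ : ∀ y, (Q y)ᵀ = Q y)
    (h0 : ∀ y, LeQ 0 (Q y)) (h1 : ∀ y, LeQ (Q y) 1) :
    s * ∫ j, ∫ x, fs w f₀ s x * ((Q j * (1 - s • Vh w s x)).trace * p j x) ∂(ms w s)
          ∂(LL809.gam n) ≤
      8 * κ * (Hs w f₀ s + LL809.MI (ms w s) (fs w f₀ s) (LL809.gam n) p) +
        4 * κ * ∫ j, (Q j).trace * LL809.pJ (ms w s) (fs w f₀ s) p j ∂(LL809.gam n) := by
  have hw' := hw.ex
  have hF := Ends293.cbp_pE hw' hc.le hw.slc hs hf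
  have hF1 : ∫ x, pE w s f₀ x ∂(lY w s) = 1 := by
    rw [lY, int_nm (hw'.noisy hs), Ends293.mass_pE hw' hs hf, hf1]
  have key := (LB_P1L hw' hs hκ (SGw.of_SG hw' hsg) hF hF1 hp hQm hQ h0 h1).2.2
  simp only [mul_assoc] at key ⊢
  exact key

/-- Block LB, first conjunct with the start entropy -/
def LB2p : Prop := ∃ C : ℝ, 0 < C ∧ ∀ (n : ℕ) (c R κ : ℝ) (w f₀ : E n → ℝ), 0 < c → An.Wt c R w →
  LL809.CBp f₀ → An.Em w f₀ = 1 → 0 < κ → DVQ402.SG κ (An.nm w) → ∀ s : ℝ, 0 < s → s ≤ 1 →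
  ∀ (p : E n → E n → ℝ) (G k : E n → ℝ), LL809.Chan (LL809.gam n) p G k →
    (∫ j, (∑ i, (∫ x, fs w f₀ s x * (sc w f₀ s i x * p j x) ∂(ms w s)) ^ 2) /
        LL809.pJ (ms w s) (fs w f₀ s) p j ∂(LL809.gam n) ≤
      C * κ / s ^ 2 * (LL809.Ent (An.nm w) f₀ + Hs w f₀ s +
        LL809.MI (ms w s) (fs w f₀ s) (LL809.gam n) p)) ∧
    ∀ R : E n → Mt n, (∀ i j, Measurable fun y => R y i j) → (∀ y, (R y)ᵀ = R y) →
      (∀ y, LeQ 0 (R y)) → (∀ y, LeQ (R y) 1) →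
      ∫ j, ∫ x, fs w f₀ s x * ((R j * (1 - s • An.Vh w s x)).trace * p j x) ∂(ms w s)
          ∂(LL809.gam n) ≤
        C * κ / s * (Hs w f₀ s + LL809.MI (ms w s) (fs w f₀ s) (LL809.gam n) p +
          ∫ j, (R j).trace * LL809.pJ (ms w s) (fs w f₀ s) p j ∂(LL809.gam n))

/-- nonnegativity facts at level `s` -/
theorem facts {n : ℕ} {c R : ℝ} {w f₀ : E n → ℝ} (hc : 0 < c) (hw : Wt c R w)
    (hf : LL809.CBp f₀) (hf1 : Em w f₀ = 1) {s : ℝ} (hs : 0 < s)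
    {p : E n → E n → ℝ} {G k : E n → ℝ} (hp : LL809.Chan (LL809.gam n) p G k) :
    0 ≤ LL809.MI (ms w s) (fs w f₀ s) (LL809.gam n) p ∧ 0 ≤ Hs w f₀ s ∧
    0 ≤ LL809.Ent (nm w) f₀ := by
  have hw' := hw.ex
  have hF := Ends293.cbp_pE hw' hc.le hw.slc hs hf
  have hF1 : ∫ x, pE w s f₀ x ∂(lY w s) = 1 := by
    rw [lY, int_nm (hw'.noisy hs), Ends293.mass_pE hw' hs hf, hf1]
  have : IsProbabilityMeasure (ms w s) := nm_prob (hw'.noisy hs)
  refine ⟨MI_nonneg hp hF hF1, ?_, ?_⟩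
  · unfold Hs
    rw [ms, Noi402.ent_nm (hw'.noisy hs)]
    exact Noi402.En_nonneg (hw'.noisy hs) hF
  · rw [Noi402.ent_nm hw']
    exact Noi402.En_nonneg hw' hf

theorem tr_pJ_nonneg {n : ℕ} {c R : ℝ} {w f₀ : E n → ℝ} (hc : 0 < c) (hw : Wt c R w)
    (hf : LL809.CBp f₀) {s : ℝ} (hs : 0 < s)
    {p : E n → E n → ℝ} {G k : E n → ℝ} (hp : LL809.Chan (LL809.gam n) p G k)
    {Q : E n → Mt n} (h0 : ∀ y, LeQ 0 (Q y)) :
    0 ≤ ∫ j, (Q j).trace * LL809.pJ (ms w s) (fs w f₀ s) p j ∂(LL809.gam n) := by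
  have hw' := hw.ex
  have hF := Ends293.cbp_pE hw' hc.le hw.slc hs hf
  refine integral_nonneg fun j => mul_nonneg ?_ (integral_nonneg fun x =>
    mul_nonneg (hF.pos x).le (hp.p_nonneg j x))
  rw [Matrix.trace]
  refine Finset.sum_nonneg fun i _ => ?_
  have := h0 j (Pi.single i 1)
  simpa [Matrix.mulVec_single_one] using this

/-- the (P1L) conjunct of block LB, constant 8 -/
theorem LB_P {n : ℕ} {c R κ : ℝ} {w f₀ : E n → ℝ} (hc : 0 < c) (hw : Wt c R w)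
    (hf : LL809.CBp f₀) (hf1 : Em w f₀ = 1) (hκ : 0 < κ) (hsg : SG κ (nm w)) {s : ℝ} (hs : 0 < s)
    {p : E n → E n → ℝ} {G k : E n → ℝ} (hp : LL809.Chan (LL809.gam n) p G k)
    {Q : E n → Mt n} (hQm : ∀ i j, Measurable fun y => Q y i j) (hQ : ∀ y, (Q y)ᵀ = Q y)
    (h0 : ∀ y, LeQ 0 (Q y)) (h1 : ∀ y, LeQ (Q y) 1) :
    ∫ j, ∫ x, fs w f₀ s x * ((Q j * (1 - s • Vh w s x)).trace * p j x) ∂(ms w s)
          ∂(LL809.gam n) ≤
      8 * κ / s * (Hs w f₀ s + LL809.MI (ms w s) (fs w f₀ s) (LL809.gam n) p +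
        ∫ j, (Q j).trace * LL809.pJ (ms w s) (fs w f₀ s) p j ∂(LL809.gam n)) := by
  have h := P1L_raw hc hw hf hf1 hκ hsg hs hp hQm hQ h0 h1
  have h3 := tr_pJ_nonneg hc hw hf hs hp h0
  rw [div_mul_eq_mul_div, le_div_iff₀ hs, mul_comm]
  refine h.trans ?_
  nlinarith [mul_nonneg hκ.le h3]

/-- the (S3) conjunct of block LB, constant 16, start entropy included -/
theorem LB_S {n : ℕ} {c R κ : ℝ} {w f₀ : E n → ℝ} (hc : 0 < c) (hw : Wt c R w)
    (hf : LL809.CBp f₀) (hf1 : Em w f₀ = 1) (hκ : 0 < κ) (hsg : SG κ (nm w)) {s : ℝ} (hs : 0 < s)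
    {p : E n → E n → ℝ} {G k : E n → ℝ} (hp : LL809.Chan (LL809.gam n) p G k) :
    ∫ j, (∑ i, (∫ x, fs w f₀ s x * (sc w f₀ s i x * p j x) ∂(ms w s)) ^ 2) /
        LL809.pJ (ms w s) (fs w f₀ s) p j ∂(LL809.gam n) ≤
      16 * κ / s ^ 2 * (LL809.Ent (nm w) f₀ + Hs w f₀ s +
        LL809.MI (ms w s) (fs w f₀ s) (LL809.gam n) p) := by
  have h := S3_raw hc hw hf hf1 hκ hsg hs hp
  obtain ⟨f1, f2, f3⟩ := facts hc hw hf hf1 hs hp
  rw [div_mul_eq_mul_div, le_div_iff₀ (by positivity), mul_comm]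
  refine h.trans ?_
  nlinarith [mul_nonneg hκ.le f1, mul_nonneg hκ.le f2, mul_nonneg hκ.le f3]

/-- **block LB** (corrected first conjunct) -/
theorem LB2 : LB2p := by
  refine ⟨16, by norm_num, ?_⟩
  intro n c R κ w f₀ hc hw hf hf1 hκ hsg s hs _ p G k hp
  refine ⟨LB_S hc hw hf hf1 hκ hsg hs hp, ?_⟩
  intro Q hQm hQ h0 h1
  have h := LB_P hc hw hf hf1 hκ hsg hs hp hQm hQ h0 h1
  obtain ⟨f1, f2, f3⟩ := facts hc hw hf hf1 hs hp
  have h3 := tr_pJ_nonneg hc hw hf hs hp h0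
  refine h.trans (mul_le_mul_of_nonneg_right ?_ (by positivity))
  gcongr
  norm_num

/-- block LB under `Ent (nm w) f₀ ≤ 2 H_s`: the literal lines of `L74.LB` with `C = 48` -/
theorem LB3 {n : ℕ} {c R κ : ℝ} {w f₀ : E n → ℝ} (hc : 0 < c) (hw : Wt c R w)
    (hf : LL809.CBp f₀) (hf1 : Em w f₀ = 1) (hκ : 0 < κ) (hsg : SG κ (nm w)) {s : ℝ} (hs : 0 < s)
    (h2 : LL809.Ent (nm w) f₀ ≤ 2 * Hs w f₀ s)
    {p : E n → E n → ℝ} {G k : E n → ℝ} (hp : LL809.Chan (LL809.gam n) p G k) :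
    ∫ j, (∑ i, (∫ x, fs w f₀ s x * (sc w f₀ s i x * p j x) ∂(ms w s)) ^ 2) /
        LL809.pJ (ms w s) (fs w f₀ s) p j ∂(LL809.gam n) ≤
      48 * κ / s ^ 2 * (Hs w f₀ s +
        LL809.MI (ms w s) (fs w f₀ s) (LL809.gam n) p) := by
  have h := LB_S hc hw hf hf1 hκ hsg hs hp
  obtain ⟨f1, f2, f3⟩ := facts hc hw hf hf1 hs hp
  refine h.trans ?_
  have e : 48 * κ / s ^ 2 = 3 * (16 * κ / s ^ 2) := by ring
  have h4 : 0 ≤ 16 * κ / s ^ 2 := by positivity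
  rw [e]
  nlinarith [mul_nonneg h4 f1, mul_nonneg h4 f2, mul_nonneg h4 f3,
    mul_le_mul_of_nonneg_left h2 h4]

end Crest.Agent.R201.Lps146
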