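import Crest.Agent.R201.Defs2_74
import Crest.Agent.R201.LA2_446

/-!
# R201, leaf MX5 (`bracket`): wrapping of `LA2_446` (helper446) for three-slot tensors (helper354)
-/

set_option autoImplicit false
open MeasureTheory Matrix

namespace Crest.Agent.R201.MX354

open Crest.Agent.R201

variable {n : ℕ}

/-- MX5 bracket (KMS contraction), with absolute value -/
theorem abs_bracket {R : Type} [Fintype R] {M : T3 n R} (hM : Sym3 M) {Z A : Mt n}
    (hZ : Z.PosDef) (hZM : Z * Z = gram M M) (hA : Aᵀ = A) :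
    |ip (act1 A M) (act2 A M)| ≤ (A * Z * A * Z).trace := by
  have key := LA2446.abs_slot_bracket_le (n := Fin n) (ι := Fin n × R) (Z := Z)
    (fun a b i => M a b i.1 i.2) (fun a b i => hM.1 a b i.1 i.2) hZ.posSemidef
    (by
      intro a a'
      rw [hZM]
      simp only [gram, Matrix.of_apply, Fintype.sum_prod_type]) hA
  have e : ip (act1 A M) (act2 A M) = ∑ a, ∑ b, ∑ r : Fin n × R,
      (∑ a', A a a' * M a' b r.1 r.2) * (∑ b', A b b' * M a b' r.1 r.2) := by
    simp only [ip, act1, act2, Fintype.sum_prod_type]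
  rw [e]
  exact key

/-- MX5 bracket (KMS contraction) -/
theorem bracket {R : Type} [Fintype R] {M : T3 n R} (hM : Sym3 M) {Z A : Mt n}
    (hZ : Z.PosDef) (hZM : Z * Z = gram M M) (hA : Aᵀ = A) :
    ip (act1 A M) (act2 A M) ≤ (A * Z * A * Z).trace :=
  (le_abs_self _).trans (abs_bracket hM hZ hZM hA)

end Crest.Agent.R201.MX354
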