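import Crest.Agent.R201.Defs2_74

/-!
# R201, MX9 (section 5 at a point), part a: matrix tools (helper839)
-/

set_option autoImplicit false
open MeasureTheory Matrix

namespace Crest.Agent.R201.MX9839

variable {n : ℕ}

theorem conjT_real {m m' : Type*} (A : Matrix m m' ℝ) : Aᴴ = Aᵀ := by
  ext i j; simp [Matrix.conjTranspose_apply]

/-- real spectral decomposition -/
theorem spec {A : Mt n} (hA : A.PosSemidef) :
    ∃ (U : Mt n) (d : Fin n → ℝ), Uᵀ * U = 1 ∧ U * Uᵀ = 1 ∧ (∀ i, 0 ≤ d i) ∧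
      A = U * Matrix.diagonal d * Uᵀ := by
  have h := hA.isHermitian.spectral_theorem
  refine ⟨(hA.isHermitian.eigenvectorUnitary : Mt n), hA.isHermitian.eigenvalues, ?_, ?_, ?_, ?_⟩
  · have := Matrix.mem_unitaryGroup_iff'.1 hA.isHermitian.eigenvectorUnitary.2
    rwa [Matrix.star_eq_conjTranspose, conjT_real] at this
  · have := Matrix.mem_unitaryGroup_iff.1 hA.isHermitian.eigenvectorUnitary.2
    rwa [Matrix.star_eq_conjTranspose, conjT_real] at this
  · exact fun i => hA.eigenvalues_nonneg i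
  · rw [Unitary.conjStarAlgAut_apply] at h
    rw [Matrix.star_eq_conjTranspose, conjT_real] at h
    exact h

theorem specPos {A : Mt n} (hA : A.PosDef) :
    ∃ (U : Mt n) (d : Fin n → ℝ), Uᵀ * U = 1 ∧ U * Uᵀ = 1 ∧ (∀ i, 0 < d i) ∧
      A = U * Matrix.diagonal d * Uᵀ := by
  have h := hA.isHermitian.spectral_theorem
  refine ⟨(hA.isHermitian.eigenvectorUnitary : Mt n), hA.isHermitian.eigenvalues, ?_, ?_, ?_, ?_⟩
  · have := Matrix.mem_unitaryGroup_iff'.1 hA.isHermitian.eigenvectorUnitary.2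
    rwa [Matrix.star_eq_conjTranspose, conjT_real] at this
  · have := Matrix.mem_unitaryGroup_iff.1 hA.isHermitian.eigenvectorUnitary.2
    rwa [Matrix.star_eq_conjTranspose, conjT_real] at this
  · exact fun i => hA.eigenvalues_pos i
  · rw [Unitary.conjStarAlgAut_apply] at h
    rw [Matrix.star_eq_conjTranspose, conjT_real] at h
    exact h

theorem hs_eq_trace {m m' : Type*} [Fintype m] [Fintype m'] (A : Matrix m m' ℝ) :
    hs A = (A * Aᵀ).trace := by
  simp [hs, Matrix.trace, Matrix.mul_apply, pow_two]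

theorem hs_transpose {m m' : Type*} [Fintype m] [Fintype m'] (A : Matrix m m' ℝ) :
    hs Aᵀ = hs A := by
  unfold hs
  rw [Finset.sum_comm]
  rfl

theorem hs_nonneg {m m' : Type*} [Fintype m] [Fintype m'] (A : Matrix m m' ℝ) : 0 ≤ hs A := by
  unfold hs; positivity

theorem hs_neg {m m' : Type*} [Fintype m] [Fintype m'] (A : Matrix m m' ℝ) : hs (-A) = hs A := by
  simp [hs]

theorem hs_mul_orth {m m' : Type*} [Fintype m] [Fintype m'] [DecidableEq m'] (A : Matrix m m' ℝ)
    (V : Matrix m' m' ℝ) (hV : V * Vᵀ = 1) : hs (A * V) = hs A := by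
  rw [hs_eq_trace, hs_eq_trace, Matrix.transpose_mul, Matrix.mul_assoc, ← Matrix.mul_assoc V, hV,
    Matrix.one_mul]

theorem hs_orth_mul {m m' : Type*} [Fintype m] [Fintype m'] [DecidableEq m] (A : Matrix m m' ℝ)
    (V : Matrix m m ℝ) (hV : Vᵀ * V = 1) : hs (V * A) = hs A := by
  rw [← hs_transpose, Matrix.transpose_mul, hs_mul_orth _ _ (by simpa using hV), hs_transpose]

/-- sum over rows of the squared norm -/
theorem hs_eq_rows {m m' : Type*} [Fintype m] [Fintype m'] (A : Matrix m m' ℝ) :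
    hs A = ∑ j, (A.col j) ⬝ᵥ (A.col j) := by
  unfold hs
  rw [Finset.sum_comm]
  simp [dotProduct, pow_two, Matrix.col]

section T2

variable {ι : Type*}

/-- flatten with rows `a` -/
def mA (X : T2 n ι) : Matrix (Fin n) (Fin n × ι) ℝ := Matrix.of fun a q => X a q.1 q.2

/-- flatten with rows `p` -/
def mP (X : T2 n ι) : Matrix (Fin n) (Fin n × ι) ℝ := Matrix.of fun p q => X q.1 p q.2

theorem mA_actA (W : Mt n) (X : T2 n ι) : mA (actA W X) = W * mA X := by
  ext a q; simp [mA, actA, Matrix.mul_apply]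

theorem mP_actP (W : Mt n) (X : T2 n ι) : mP (actP W X) = W * mP X := by
  ext a q; simp [mP, actP, Matrix.mul_apply]

theorem mA_add (X Y : T2 n ι) : mA (X + Y) = mA X + mA Y := by
  ext a q; simp [mA]

theorem mA_sub (X Y : T2 n ι) : mA (X - Y) = mA X - mA Y := by
  ext a q; simp [mA]

theorem actA_actP (W P : Mt n) (X : T2 n ι) : actA W (actP P X) = actP P (actA W X) := by
  funext a p i
  simp only [actA, actP, Finset.mul_sum]
  rw [Finset.sum_comm]
  refine Finset.sum_congr rfl fun p' _ => Finset.sum_congr rfl fun a' _ => by ring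

theorem actA_add (W W' : Mt n) (X : T2 n ι) : actA (W + W') X = actA W X + actA W' X := by
  funext a p i
  simp [actA, add_mul, Finset.sum_add_distrib]

variable [Fintype ι]

theorem ip2_eq_mA (X Y : T2 n ι) : ip2 X Y = (mA X * (mA Y)ᵀ).trace := by
  simp [ip2, mA, Matrix.trace, Matrix.mul_apply, Fintype.sum_prod_type]

theorem ip2_eq_mP (X Y : T2 n ι) : ip2 X Y = (mP X * (mP Y)ᵀ).trace := by
  simp only [ip2, mP, Matrix.trace, Matrix.mul_apply, Fintype.sum_prod_type, Matrix.diag_apply,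
    Matrix.of_apply, Matrix.transpose_apply]
  rw [Finset.sum_comm]

theorem ip2_self (X : T2 n ι) : ip2 X X = hs (mA X) := by
  rw [ip2_eq_mA, hs_eq_trace]

theorem ip2_nonneg (X : T2 n ι) : 0 ≤ ip2 X X := by
  rw [ip2_self]; exact hs_nonneg _

theorem gramA_eq (X Y : T2 n ι) : gramA X Y = mA X * (mA Y)ᵀ := by
  ext a a'
  simp [gramA, mA, Matrix.mul_apply, Fintype.sum_prod_type]

theorem ip2_actA (X Y : T2 n ι) (W : Mt n) : ip2 X (actA W Y) = ip2 (actA Wᵀ X) Y := by
  rw [ip2_eq_mA, ip2_eq_mA, mA_actA, mA_actA, Matrix.transpose_mul, ← Matrix.mul_assoc,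
    Matrix.trace_mul_comm, Matrix.mul_assoc]

theorem ip2_actP (X Y : T2 n ι) (W : Mt n) : ip2 (actP W X) Y = ip2 X (actP Wᵀ Y) := by
  rw [ip2_eq_mP, ip2_eq_mP, mP_actP, mP_actP, Matrix.transpose_mul, Matrix.transpose_transpose,
    Matrix.mul_assoc, Matrix.trace_mul_comm, Matrix.mul_assoc]

theorem ip2_add_right (X Y Y' : T2 n ι) : ip2 X (Y + Y') = ip2 X Y + ip2 X Y' := by
  simp [ip2, mul_add, Finset.sum_add_distrib]

theorem ip2_actA_self (X : T2 n ι) (W : Mt n) :
    ip2 (actA W X) (actA W X) = (W * gramA X X * Wᵀ).trace := by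
  rw [ip2_eq_mA, mA_actA, gramA_eq, Matrix.transpose_mul]
  simp only [Matrix.mul_assoc]

/-- monotonicity of `W ↦ tr W S Wᵀ` in `S` for the form order -/
theorem trace_conj_mono {S T : Mt n} (h : LeQ S T) (W : Mt n) :
    (W * S * Wᵀ).trace ≤ (W * T * Wᵀ).trace := by
  have key : ∀ S : Mt n, (W * S * Wᵀ).trace = ∑ i, (W i) ⬝ᵥ (S *ᵥ (W i)) := by
    intro S
    unfold Matrix.trace
    refine Finset.sum_congr rfl fun i _ => ?_
    simp only [Matrix.diag_apply, Matrix.mul_apply, Matrix.transpose_apply, dotProduct,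
      Matrix.mulVec, Finset.sum_mul, Finset.mul_sum]
    rw [Finset.sum_comm]
    exact Finset.sum_congr rfl fun j _ => Finset.sum_congr rfl fun k _ => by ring
  rw [key, key]
  exact Finset.sum_le_sum fun i _ => h (W i)

/-- Cauchy–Schwarz for a finite family of `T2`'s -/
theorem cs_fam {κ : Type*} [Fintype κ] (X Y : κ → T2 n ι) :
    |∑ k, ip2 (X k) (Y k)| ≤
      Real.sqrt (∑ k, ip2 (X k) (X k)) * Real.sqrt (∑ k, ip2 (Y k) (Y k)) := by
  have e : ∀ X Y : κ → T2 n ι, (∑ k, ip2 (X k) (Y k)) =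
      ∑ q : κ × (Fin n × (Fin n × ι)), X q.1 q.2.1 q.2.2.1 q.2.2.2 * Y q.1 q.2.1 q.2.2.1 q.2.2.2 := by
    intro X Y
    simp [ip2, Fintype.sum_prod_type]
  rw [← Real.sqrt_mul (Finset.sum_nonneg fun k _ => ip2_nonneg _)]
  apply Real.abs_le_sqrt
  rw [e X Y, e X X, e Y Y]
  have := Finset.sum_mul_sq_le_sq_mul_sq (Finset.univ : Finset (κ × (Fin n × (Fin n × ι))))
    (fun q => X q.1 q.2.1 q.2.2.1 q.2.2.2) (fun q => Y q.1 q.2.1 q.2.2.1 q.2.2.2)
  simpa [pow_two] using this

end T2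

end Crest.Agent.R201.MX9839
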