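import Crest.Agent.R201.MX9a_839

/-!
# R201, MX9 (section 5 at a point), part b: bands of `Z`-levels (helper839)
-/

set_option autoImplicit false
open MeasureTheory Matrix

namespace Crest.Agent.R201.MX9839

variable {n : ℕ}

/-- near part (levels differing by at most one) -/
noncomputable def nearM (lev : Fin n → ℤ) (B : Mt n) : Mt n :=
  Matrix.of fun l j => if |lev l - lev j| ≤ 1 then B l j else 0

noncomputable def farM (lev : Fin n → ℤ) (B : Mt n) : Mt n :=
  Matrix.of fun l j => if |lev l - lev j| ≤ 1 then 0 else B l j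

theorem near_add_far (lev : Fin n → ℤ) (B : Mt n) : B = nearM lev B + farM lev B := by
  ext l j
  simp only [nearM, farM, Matrix.add_apply, Matrix.of_apply]
  split_ifs <;> simp

theorem band (lev : Fin n → ℤ) (B : Fin n → Mt n) (C' : ℝ) (hC' : 0 ≤ C')
    (hB : ∀ y : Fin n → ℝ, ∑ k, ∑ j, (∑ l, y l * B k l j) ^ 2 ≤ C' * ∑ l, y l ^ 2)
    (c : ℤ → ℝ) (hc : ∀ m, 0 ≤ c m) (y : Fin n → ℝ) :
    ∑ k, ∑ j, c (lev j) * (∑ l, y l * nearM lev (B k) l j) ^ 2 ≤
      C' * ∑ l, y l ^ 2 * (c (lev l - 1) + c (lev l) + c (lev l + 1)) := by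
  classical
  set Λ : Finset ℤ := Finset.univ.image lev with hΛ
  set yl : ℤ → Fin n → ℝ := fun m l => if |lev l - m| ≤ 1 then y l else 0 with hyl
  have h1 : ∀ k, ∑ j, c (lev j) * (∑ l, y l * nearM lev (B k) l j) ^ 2 ≤
      ∑ m ∈ Λ, c m * ∑ j, (∑ l, yl m l * B k l j) ^ 2 := by
    intro k
    have e1 : ∑ j, c (lev j) * (∑ l, y l * nearM lev (B k) l j) ^ 2
        = ∑ m ∈ Λ, ∑ j ∈ Finset.univ.filter (fun j => lev j = m),
            c (lev j) * (∑ l, y l * nearM lev (B k) l j) ^ 2 :=
      (Finset.sum_fiberwise_of_maps_to (fun j _ => Finset.mem_image_of_mem lev (Finset.mem_univ j))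
        _).symm
    rw [e1]
    refine Finset.sum_le_sum fun m _ => ?_
    rw [Finset.mul_sum]
    calc _ = ∑ j ∈ Finset.univ.filter (fun j => lev j = m), c m * (∑ l, yl m l * B k l j) ^ 2 := by
            refine Finset.sum_congr rfl fun j hj => ?_
            have hj' : lev j = m := (Finset.mem_filter.1 hj).2
            rw [hj']
            congr 2
            refine Finset.sum_congr rfl fun l _ => ?_
            simp only [nearM, Matrix.of_apply, hyl, hj']
            split_ifs <;> simp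
      _ ≤ _ := Finset.sum_le_univ_sum_of_nonneg fun j => mul_nonneg (hc m) (sq_nonneg _)
  have h2 : ∑ k, ∑ j, c (lev j) * (∑ l, y l * nearM lev (B k) l j) ^ 2 ≤
      ∑ m ∈ Λ, c m * (C' * ∑ l, yl m l ^ 2) := by
    refine (Finset.sum_le_sum fun k _ => h1 k).trans ?_
    rw [Finset.sum_comm]
    refine Finset.sum_le_sum fun m _ => ?_
    rw [← Finset.mul_sum]
    exact mul_le_mul_of_nonneg_left (hB (yl m)) (hc m)
  refine h2.trans ?_
  have h3 : ∀ l, (∑ m ∈ Λ, if |lev l - m| ≤ 1 then c m else 0)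
      ≤ c (lev l - 1) + c (lev l) + c (lev l + 1) := by
    intro l
    rw [← Finset.sum_filter]
    have hsub : Λ.filter (fun m => |lev l - m| ≤ 1) ⊆ {lev l - 1, lev l, lev l + 1} := by
      intro m hm
      have h := abs_le.1 (Finset.mem_filter.1 hm).2
      simp only [Finset.mem_insert, Finset.mem_singleton]
      omega
    refine (Finset.sum_le_sum_of_subset_of_nonneg hsub fun m _ _ => hc m).trans (le_of_eq ?_)
    rw [Finset.sum_insert, Finset.sum_insert, Finset.sum_singleton]
    · ring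
    · simp
    · simp only [Finset.mem_insert, Finset.mem_singleton]; omega
  have h4 : ∑ m ∈ Λ, c m * (C' * ∑ l, yl m l ^ 2)
      = C' * ∑ l, y l ^ 2 * ∑ m ∈ Λ, if |lev l - m| ≤ 1 then c m else 0 := by
    simp only [Finset.mul_sum, hyl]
    rw [Finset.sum_comm]
    refine Finset.sum_congr rfl fun l _ => Finset.sum_congr rfl fun m _ => ?_
    split_ifs <;> ring
  rw [h4]
  exact mul_le_mul_of_nonneg_left
    (Finset.sum_le_sum fun l _ => mul_le_mul_of_nonneg_left (h3 l) (sq_nonneg _)) hC'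

/-- far part: controlled by the commutator -/
theorem far_le (z : Fin n → ℝ) (hz : ∀ j, 0 < z j) (B : Mt n) :
    ∑ l, ∑ j, (farM (fun j => Int.log 2 (z j)) B l j) ^ 2 * z j ^ 2 ≤
      4 * ∑ l, ∑ j, ((z l - z j) * B l j) ^ 2 := by
  rw [Finset.mul_sum]
  refine Finset.sum_le_sum fun l _ => ?_
  rw [Finset.mul_sum]
  refine Finset.sum_le_sum fun j _ => ?_
  simp only [farM, Matrix.of_apply]
  split_ifs with h
  · have : 0 ≤ 4 * ((z l - z j) * B l j) ^ 2 := by positivity
    simpa using this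
  · have key : z j ^ 2 ≤ 4 * (z l - z j) ^ 2 := by
      have a1 := Int.zpow_log_le_self (R := ℝ) (b := 2) (by norm_num) (hz l)
      have a2 := Int.lt_zpow_succ_log_self (R := ℝ) (b := 2) (by norm_num) (z l)
      have b1 := Int.zpow_log_le_self (R := ℝ) (b := 2) (by norm_num) (hz j)
      have b2 := Int.lt_zpow_succ_log_self (R := ℝ) (b := 2) (by norm_num) (z j)
      push_cast at a1 a2 b1 b2
      rcases lt_or_ge (Int.log 2 (z l)) (Int.log 2 (z j)) with hl | hl
      · have h2 : Int.log 2 (z l) + 2 ≤ Int.log 2 (z j) := by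
          by_contra hcon
          apply h
          rw [abs_le]
          omega
        have h3 : (2:ℝ) ^ (Int.log 2 (z l) + 2) ≤ (2:ℝ) ^ (Int.log 2 (z j)) :=
          zpow_le_zpow_right₀ (by norm_num) h2
        have h4 : (2:ℝ) ^ (Int.log 2 (z l) + 2) = 2 * (2:ℝ) ^ (Int.log 2 (z l) + 1) := by
          rw [show Int.log 2 (z l) + 2 = (Int.log 2 (z l) + 1) + 1 by ring, zpow_add_one₀ (by norm_num)]
          ring
        have h5 : 2 * z l < z j := by linarith
        nlinarith [hz l, hz j]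
      · have h2 : Int.log 2 (z j) + 2 ≤ Int.log 2 (z l) := by
          by_contra hcon
          apply h
          rw [abs_le]
          omega
        have h3 : (2:ℝ) ^ (Int.log 2 (z j) + 2) ≤ (2:ℝ) ^ (Int.log 2 (z l)) :=
          zpow_le_zpow_right₀ (by norm_num) h2
        have h4 : (2:ℝ) ^ (Int.log 2 (z j) + 2) = 2 * (2:ℝ) ^ (Int.log 2 (z j) + 1) := by
          rw [show Int.log 2 (z j) + 2 = (Int.log 2 (z j) + 1) + 1 by ring, zpow_add_one₀ (by norm_num)]
          ring
        have h5 : 2 * z j < z l := by linarith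
        nlinarith [hz l, hz j]
    nlinarith [sq_nonneg (B l j)]

end Crest.Agent.R201.MX9839
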