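import Crest.Agent.R201.MX9b_839

/-!
# R201, MX9 (section 5 at a point), part c: LOW and HIGH sums (helper839)
-/

set_option autoImplicit false
open MeasureTheory Matrix

namespace Crest.Agent.R201.MX9839

variable {n : ℕ}

/-- the level function -/
noncomputable def lv (z : Fin n → ℝ) (j : Fin n) : ℤ := Int.log 2 (z j)

theorem lv_le {z : Fin n → ℝ} (hz : ∀ j, 0 < z j) (j : Fin n) : (2:ℝ) ^ lv z j ≤ z j := by
  have := Int.zpow_log_le_self (R := ℝ) (b := 2) (by norm_num) (hz j)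
  simpa [lv] using this

theorem lt_lv (z : Fin n → ℝ) (j : Fin n) : z j < (2:ℝ) ^ (lv z j + 1) := by
  have := Int.lt_zpow_succ_log_self (R := ℝ) (b := 2) (by norm_num) (z j)
  simpa [lv] using this

/-- the far part of the weighted sum -/
theorem far_sum (O : Mt n) (hO : Oᵀ * O = 1) (z : Fin n → ℝ) (hz : ∀ j, 0 < z j) (B : Mt n) :
    ∑ i, ∑ j, z j ^ 2 * (∑ l, O i l * farM (lv z) B l j) ^ 2 ≤
      4 * ∑ l, ∑ j, ((z l - z j) * B l j) ^ 2 := by
  refine le_trans (le_of_eq ?_) (far_le z hz B)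
  have e1 : ∑ i, ∑ j, z j ^ 2 * (∑ l, O i l * farM (lv z) B l j) ^ 2
      = hs (O * (farM (lv z) B * Matrix.diagonal z)) := by
    unfold hs
    refine Finset.sum_congr rfl fun i _ => Finset.sum_congr rfl fun j _ => ?_
    rw [← Matrix.mul_assoc, Matrix.mul_diagonal, Matrix.mul_apply]
    ring
  rw [e1, hs_orth_mul _ _ hO]
  unfold hs
  refine Finset.sum_congr rfl fun i _ => Finset.sum_congr rfl fun j _ => ?_
  rw [Matrix.mul_diagonal]
  unfold lv
  ring

theorem split_sum (O : Mt n) (z : Fin n → ℝ) (B : Mt n) (w : Fin n → Fin n → ℝ)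
    (hw : ∀ i j, 0 ≤ w i j) :
    ∑ i, ∑ j, w i j * ((O * B) i j) ^ 2 ≤
      2 * (∑ i, ∑ j, w i j * (∑ l, O i l * nearM (lv z) B l j) ^ 2)
      + 2 * (∑ i, ∑ j, w i j * (∑ l, O i l * farM (lv z) B l j) ^ 2) := by
  rw [Finset.mul_sum, Finset.mul_sum, ← Finset.sum_add_distrib]
  refine Finset.sum_le_sum fun i _ => ?_
  rw [Finset.mul_sum, Finset.mul_sum, ← Finset.sum_add_distrib]
  refine Finset.sum_le_sum fun j _ => ?_
  have e : (O * B) i j = (∑ l, O i l * nearM (lv z) B l j) + ∑ l, O i l * farM (lv z) B l j := by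
    rw [Matrix.mul_apply, ← Finset.sum_add_distrib]
    refine Finset.sum_congr rfl fun l _ => ?_
    rw [← mul_add]
    congr 1
    exact congrFun (congrFun (near_add_far (lv z) B) l) j
  rw [e]
  nlinarith [hw i j, sq_nonneg ((∑ l, O i l * nearM (lv z) B l j)
    - ∑ l, O i l * farM (lv z) B l j), mul_nonneg (hw i j) (sq_nonneg
      ((∑ l, O i l * nearM (lv z) B l j) - ∑ l, O i l * farM (lv z) B l j))]

variable (z : Fin n → ℝ) (hz : ∀ j, 0 < z j) (O : Mt n) (hO : Oᵀ * O = 1) (B : Fin n → Mt n)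
  (C' : ℝ) (hC' : 0 ≤ C')
  (hB : ∀ y : Fin n → ℝ, ∑ k, ∑ j, (∑ l, y l * B k l j) ^ 2 ≤ C' * ∑ l, y l ^ 2)
  (t : Fin n → ℝ)

include hz hO hC' hB in
theorem low_sum (ht : ∀ i, 0 ≤ t i) :
    ∑ k, ∑ i, ∑ j, (if z j < t i then z j ^ 2 else 0) * ((O * B k) i j) ^ 2 ≤
      8 * (∑ k, ∑ l, ∑ j, ((z l - z j) * B k l j) ^ 2)
      + 192 * C' * ∑ i, t i * ∑ l, O i l ^ 2 * z l := by
  have h1 : ∀ k, ∑ i, ∑ j, (if z j < t i then z j ^ 2 else 0) * ((O * B k) i j) ^ 2 ≤
      2 * (∑ i, ∑ j, (if z j < t i then z j ^ 2 else 0)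
          * (∑ l, O i l * nearM (lv z) (B k) l j) ^ 2)
      + 2 * (4 * ∑ l, ∑ j, ((z l - z j) * B k l j) ^ 2) := by
    intro k
    refine (split_sum O z (B k) _ fun i j => by split_ifs <;> positivity).trans ?_
    refine add_le_add le_rfl (mul_le_mul_of_nonneg_left ?_ (by norm_num))
    refine le_trans ?_ (far_sum O hO z hz (B k))
    refine Finset.sum_le_sum fun i _ => Finset.sum_le_sum fun j _ => ?_
    refine mul_le_mul_of_nonneg_right ?_ (sq_nonneg _)
    split_ifs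
    · exact le_rfl
    · positivity
  refine (Finset.sum_le_sum fun k _ => h1 k).trans ?_
  rw [Finset.sum_add_distrib, ← Finset.mul_sum, ← Finset.mul_sum, ← Finset.mul_sum]
  have h2 : ∑ k, ∑ i, ∑ j, (if z j < t i then z j ^ 2 else 0)
        * (∑ l, O i l * nearM (lv z) (B k) l j) ^ 2
      ≤ 96 * C' * ∑ i, t i * ∑ l, O i l ^ 2 * z l := by
    rw [Finset.sum_comm, Finset.mul_sum]
    refine Finset.sum_le_sum fun i _ => ?_
    set c : ℤ → ℝ := fun m => if (2:ℝ) ^ m < t i then 4 * ((2:ℝ) ^ m) ^ 2 else 0 with hc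
    have hc0 : ∀ m, 0 ≤ c m := by
      intro m; simp only [hc]; split_ifs <;> positivity
    have h3 : ∑ k, ∑ j, (if z j < t i then z j ^ 2 else 0)
        * (∑ l, O i l * nearM (lv z) (B k) l j) ^ 2
        ≤ ∑ k, ∑ j, c (lv z j) * (∑ l, O i l * nearM (lv z) (B k) l j) ^ 2 := by
      refine Finset.sum_le_sum fun k _ => Finset.sum_le_sum fun j _ => ?_
      refine mul_le_mul_of_nonneg_right ?_ (sq_nonneg _)
      split_ifs with hzt
      · have h4 : (2:ℝ) ^ lv z j < t i := lt_of_le_of_lt (lv_le hz j) hzt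
        simp only [hc, if_pos h4]
        have h5 := lt_lv z j
        rw [zpow_add_one₀ (by norm_num)] at h5
        have h6 : (0:ℝ) < (2:ℝ) ^ lv z j := by positivity
        nlinarith [hz j]
      · exact hc0 _
    refine h3.trans ((band (lv z) B C' hC' hB c hc0 (fun l => O i l)).trans ?_)
    have h7 : ∀ l, c (lv z l - 1) + c (lv z l) + c (lv z l + 1) ≤ 96 * (t i * z l) := by
      intro l
      have p0 : (0:ℝ) < (2:ℝ) ^ lv z l := by positivity
      have pz := lv_le hz l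
      have pl := hz l
      have e1 : (2:ℝ) ^ (lv z l + 1) = 2 * (2:ℝ) ^ lv z l := by
        rw [zpow_add_one₀ (by norm_num)]; ring
      have e2 : (2:ℝ) ^ (lv z l - 1) = (2:ℝ) ^ lv z l / 2 := by
        rw [zpow_sub_one₀ (by norm_num)]; ring
      simp only [hc, e1, e2]
      set p := (2:ℝ) ^ lv z l
      have hti := ht i
      have hpos : 0 ≤ t i * z l := mul_nonneg hti pl.le
      split_ifs with a1 a2 a3 a3 a2 a3 a3 <;> nlinarith [mul_nonneg hti p0.le]
    calc C' * ∑ l, O i l ^ 2 * (c (lv z l - 1) + c (lv z l) + c (lv z l + 1))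
        ≤ C' * ∑ l, O i l ^ 2 * (96 * (t i * z l)) :=
          mul_le_mul_of_nonneg_left (Finset.sum_le_sum fun l _ =>
            mul_le_mul_of_nonneg_left (h7 l) (sq_nonneg _)) hC'
      _ = 96 * C' * (t i * ∑ l, O i l ^ 2 * z l) := by
          simp only [Finset.mul_sum]
          exact Finset.sum_congr rfl fun l _ => by ring
  linarith

include hz hO hC' hB in
theorem high_sum (b : Fin n → ℝ) (Xs : ℝ) (hXs : 0 < Xs) (hb : ∀ i, 0 ≤ b i)
    (ht : ∀ i, t i = Xs * b i) :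
    ∑ k, ∑ i, ∑ j, (if z j < t i then 0 else b i ^ 2) * ((O * B k) i j) ^ 2 ≤
      8 / Xs ^ 2 * (∑ k, ∑ l, ∑ j, ((z l - z j) * B k l j) ^ 2)
      + 6 * C' * ∑ i, b i ^ 2 * ∑ l, (if t i < 4 * z l then O i l ^ 2 else 0) := by
  have h1 : ∀ k, ∑ i, ∑ j, (if z j < t i then 0 else b i ^ 2) * ((O * B k) i j) ^ 2 ≤
      2 * (∑ i, ∑ j, (if z j < t i then 0 else b i ^ 2)
          * (∑ l, O i l * nearM (lv z) (B k) l j) ^ 2)
      + 2 * (1 / Xs ^ 2 * (4 * ∑ l, ∑ j, ((z l - z j) * B k l j) ^ 2)) := by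
    intro k
    refine (split_sum O z (B k) _ fun i j => by split_ifs <;> positivity).trans ?_
    refine add_le_add le_rfl (mul_le_mul_of_nonneg_left ?_ (by norm_num))
    refine le_trans ?_ (mul_le_mul_of_nonneg_left (far_sum O hO z hz (B k)) (by positivity))
    rw [Finset.mul_sum]
    refine Finset.sum_le_sum fun i _ => ?_
    rw [Finset.mul_sum]
    refine Finset.sum_le_sum fun j _ => ?_
    rw [← mul_assoc]
    refine mul_le_mul_of_nonneg_right ?_ (sq_nonneg _)
    split_ifs with h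
    · positivity
    · rw [ht i, not_lt] at h
      rw [one_div, ← div_eq_inv_mul, le_div_iff₀ (by positivity)]
      have := mul_nonneg hXs.le (hb i)
      calc b i ^ 2 * Xs ^ 2 = (Xs * b i) ^ 2 := by ring
        _ ≤ z j ^ 2 := pow_le_pow_left₀ this h 2
  refine (Finset.sum_le_sum fun k _ => h1 k).trans ?_
  rw [Finset.sum_add_distrib, ← Finset.mul_sum, ← Finset.mul_sum, ← Finset.mul_sum,
    ← Finset.mul_sum]
  have h2 : ∑ k, ∑ i, ∑ j, (if z j < t i then 0 else b i ^ 2)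
        * (∑ l, O i l * nearM (lv z) (B k) l j) ^ 2
      ≤ 3 * C' * ∑ i, b i ^ 2 * ∑ l, (if t i < 4 * z l then O i l ^ 2 else 0) := by
    rw [Finset.sum_comm, Finset.mul_sum]
    refine Finset.sum_le_sum fun i _ => ?_
    set c : ℤ → ℝ := fun m => if t i < (2:ℝ) ^ (m + 1) then b i ^ 2 else 0 with hc
    have hc0 : ∀ m, 0 ≤ c m := by
      intro m; simp only [hc]; split_ifs <;> positivity
    have h3 : ∑ k, ∑ j, (if z j < t i then 0 else b i ^ 2)
        * (∑ l, O i l * nearM (lv z) (B k) l j) ^ 2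
        ≤ ∑ k, ∑ j, c (lv z j) * (∑ l, O i l * nearM (lv z) (B k) l j) ^ 2 := by
      refine Finset.sum_le_sum fun k _ => Finset.sum_le_sum fun j _ => ?_
      refine mul_le_mul_of_nonneg_right ?_ (sq_nonneg _)
      split_ifs with hzt
      · exact hc0 _
      · have h4 : t i < (2:ℝ) ^ (lv z j + 1) := lt_of_le_of_lt (not_lt.1 hzt) (lt_lv z j)
        simp only [hc, if_pos h4]; exact le_rfl
    refine h3.trans ((band (lv z) B C' hC' hB c hc0 (fun l => O i l)).trans ?_)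
    have h7 : ∀ l, c (lv z l - 1) + c (lv z l) + c (lv z l + 1) ≤
        3 * (if t i < 4 * z l then b i ^ 2 else 0) := by
      intro l
      have pz := lv_le hz l
      have e1 : (2:ℝ) ^ (lv z l + 1) = 2 * (2:ℝ) ^ lv z l := by
        rw [zpow_add_one₀ (by norm_num)]; ring
      have e2 : (2:ℝ) ^ (lv z l - 1 + 1) = (2:ℝ) ^ lv z l := by
        congr 1; ring
      have e3 : (2:ℝ) ^ (lv z l + 1 + 1) = 4 * (2:ℝ) ^ lv z l := by
        rw [zpow_add_one₀ (by norm_num), e1]; ring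
      have p0 : (0:ℝ) < (2:ℝ) ^ lv z l := by positivity
      simp only [hc, e1, e2, e3]
      set p := (2:ℝ) ^ lv z l
      have hb2 := sq_nonneg (b i)
      split_ifs <;> linarith
    calc C' * ∑ l, O i l ^ 2 * (c (lv z l - 1) + c (lv z l) + c (lv z l + 1))
        ≤ C' * ∑ l, O i l ^ 2 * (3 * (if t i < 4 * z l then b i ^ 2 else 0)) :=
          mul_le_mul_of_nonneg_left (Finset.sum_le_sum fun l _ =>
            mul_le_mul_of_nonneg_left (h7 l) (sq_nonneg _)) hC'
      _ = 3 * C' * (b i ^ 2 * ∑ l, (if t i < 4 * z l then O i l ^ 2 else 0)) := by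
          simp only [Finset.mul_sum]
          refine Finset.sum_congr rfl fun l _ => ?_
          split_ifs <;> ring
  have h5 : 2 * (1 / Xs ^ 2 * (4 * ∑ k, ∑ l, ∑ j, ((z l - z j) * B k l j) ^ 2))
      = 8 / Xs ^ 2 * (∑ k, ∑ l, ∑ j, ((z l - z j) * B k l j) ^ 2) := by ring
  linarith

end Crest.Agent.R201.MX9839
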