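import Crest.Agent.R201.MX9c_839

/-!
# R201, MX9 (section 5 at a point), part d: occupancy (helper839)
-/

set_option autoImplicit false
open MeasureTheory Matrix

namespace Crest.Agent.R201.MX9839

variable {n : ℕ}

theorem dot_sq_le (x y : Fin n → ℝ) : (x ⬝ᵥ y) ^ 2 ≤ (x ⬝ᵥ x) * (y ⬝ᵥ y) := by
  have := Finset.sum_mul_sq_le_sq_mul_sq (Finset.univ : Finset (Fin n)) x y
  simpa [dotProduct, pow_two] using this

/-- occupancy for one vector `u` -/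
theorem occ (V : Mt n) (hV : V * Vᵀ = 1) (z : Fin n → ℝ) (hz : ∀ j, 0 < z j)
    (Z P : Mt n) (hZ : Z = V * Matrix.diagonal z * Vᵀ) (u : Fin n → ℝ) (t : ℝ)
    (ht : 0 < t) :
    ∑ l, (if t < 4 * z l then (Vᵀ *ᵥ u) l ^ 2 else 0) ≤
      2 * ((P *ᵥ u) ⬝ᵥ (P *ᵥ u)) + 32 / t ^ 2 * ((Z *ᵥ ((1 - P) *ᵥ u)) ⬝ᵥ (Z *ᵥ ((1 - P) *ᵥ u))) := by
  classical
  set y : Fin n → ℝ := Vᵀ *ᵥ u with hy
  set S := ∑ l, (if t < 4 * z l then y l ^ 2 else 0) with hS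
  have hV' : Vᵀ * V = 1 := by
    rw [mul_eq_one_comm] ; exact hV
  -- `w = Q u` and `w' = Z⁻¹ Q u`
  set q : Fin n → ℝ := fun l => if t < 4 * z l then y l else 0 with hq
  set q' : Fin n → ℝ := fun l => if t < 4 * z l then y l / z l else 0 with hq'
  set w : Fin n → ℝ := V *ᵥ q with hw
  set w' : Fin n → ℝ := V *ᵥ q' with hw'
  have hwu : u = V *ᵥ y := by
    rw [hy, Matrix.mulVec_mulVec, hV, Matrix.one_mulVec]
  have iso : ∀ a c : Fin n → ℝ, (V *ᵥ a) ⬝ᵥ (V *ᵥ c) = a ⬝ᵥ c := by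
    intro a c
    rw [Matrix.dotProduct_mulVec, ← Matrix.mulVec_transpose, Matrix.mulVec_mulVec, hV',
      Matrix.one_mulVec]
  have hww : w ⬝ᵥ w = S := by
    rw [hw, iso, hS]
    simp only [dotProduct, hq]
    refine Finset.sum_congr rfl fun l _ => ?_
    split_ifs <;> ring
  have huw : u ⬝ᵥ w = S := by
    rw [hwu, hw, iso, hS]
    simp only [dotProduct, hq]
    refine Finset.sum_congr rfl fun l _ => ?_
    split_ifs <;> ring
  have hw'w' : w' ⬝ᵥ w' ≤ 16 / t ^ 2 * S := by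
    rw [hw', iso, hS, Finset.mul_sum]
    simp only [dotProduct, hq']
    refine Finset.sum_le_sum fun l _ => ?_
    split_ifs with h
    · rw [div_mul_div_comm, div_le_iff₀ (by have := hz l; positivity)]
      have h1 : 1 ≤ 16 / t ^ 2 * (z l * z l) := by
        rw [div_mul_eq_mul_div, le_div_iff₀ (by positivity)]
        nlinarith [hz l]
      nlinarith [sq_nonneg (y l)]
    · simp
  have hZw' : w = Z *ᵥ w' := by
    rw [hw, hw', hZ, Matrix.mulVec_mulVec, Matrix.mul_assoc, hV', Matrix.mul_one,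
      ← Matrix.mulVec_mulVec]
    congr 1
    funext l
    rw [Matrix.mulVec_diagonal]
    simp only [hq, hq']
    split_ifs
    · field_simp [(hz l).ne']
    · simp
  have hZs : Zᵀ = Z := by
    rw [hZ]; simp [Matrix.transpose_mul, Matrix.mul_assoc]
  have sym : ∀ (A : Mt n) (_ : Aᵀ = A) (a c : Fin n → ℝ), a ⬝ᵥ (A *ᵥ c) = (A *ᵥ a) ⬝ᵥ c := by
    intro A hA a c
    rw [Matrix.dotProduct_mulVec, ← Matrix.mulVec_transpose, hA]
  have hdec : S = (P *ᵥ u) ⬝ᵥ w + (Z *ᵥ ((1 - P) *ᵥ u)) ⬝ᵥ w' := by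
    have e2 : (Z *ᵥ ((1 - P) *ᵥ u)) ⬝ᵥ w' = ((1 - P) *ᵥ u) ⬝ᵥ w := by
      rw [← sym Z hZs, ← hZw']
    rw [e2, Matrix.sub_mulVec, Matrix.one_mulVec, sub_dotProduct, huw]
    ring
  have hS0 : 0 ≤ S := by
    rw [hS]; exact Finset.sum_nonneg fun l _ => by split_ifs <;> positivity
  have c1 := dot_sq_le (P *ᵥ u) w
  have c2 := dot_sq_le (Z *ᵥ ((1 - P) *ᵥ u)) w'
  rw [hww] at c1
  set A1 := (P *ᵥ u) ⬝ᵥ (P *ᵥ u)
  set A2 := (Z *ᵥ ((1 - P) *ᵥ u)) ⬝ᵥ (Z *ᵥ ((1 - P) *ᵥ u))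
  have hA1 : 0 ≤ A1 := by simp only [A1, dotProduct]; exact Finset.sum_nonneg fun i _ => mul_self_nonneg _
  have hA2 : 0 ≤ A2 := by simp only [A2, dotProduct]; exact Finset.sum_nonneg fun i _ => mul_self_nonneg _
  set x1 := (P *ᵥ u) ⬝ᵥ w
  set x2 := (Z *ᵥ ((1 - P) *ᵥ u)) ⬝ᵥ w'
  have c3 : x2 ^ 2 ≤ A2 * (16 / t ^ 2 * S) := c2.trans (mul_le_mul_of_nonneg_left hw'w' hA2)
  rcases hS0.eq_or_lt with h0 | h0
  · rw [← h0]; positivity
  · have h4 : S * S ≤ S * (2 * A1 + 32 / t ^ 2 * A2) := by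
      have h5 : S * S ≤ 2 * x1 ^ 2 + 2 * x2 ^ 2 := by
        nlinarith [sq_nonneg (x1 - x2)]
      have h6 : A2 * (16 / t ^ 2 * S) * 2 = S * (32 / t ^ 2 * A2) := by ring
      nlinarith
    exact le_of_mul_le_mul_left h4 h0

end Crest.Agent.R201.MX9839
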