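import Crest.Agent.R201.NS_150

/-!
# R201 (helper150): the end game at a `State`, with `l1 → ∞`
-/

set_option autoImplicit false
set_option linter.unusedSectionVars false
open MeasureTheory Matrix Set Filter Topology

namespace Crest.Agent.R201.Ch150

open Crest.Agent.R201 Crest.Agent.R201.NB152 Crest.Agent.R201.FA150 Crest.Agent.R201.LL809

variable {n : ℕ}

/-- **end game at a `State`** -/
theorem endgame_state (hNS : L74.NS) {ε : ℝ} (S : L74.State n ε) (hε : ε ≤ 1) {T : E n → Mt n}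
    (hT : L74.CBm T) (hTs : ∀ x, (T x)ᵀ = T x) {A a l0 N : ℝ}
    (hA : ∀ x, (T x * T x * (T x * T x)).trace ≤ A ^ 2 * (T x * T x).trace)
    (ha : 1 ≤ a) (h0 : 0 < l0) (hN : a ^ 2 ≤ N) :
    2 * (a ^ 2 - Real.pi * a - a ^ 2 * l0 * A ^ 2) * ∫ x, hs (T x) ∂S.ν ≤
      3 / 2 * a ^ 2 * (1 + ε) * (∫ x, ∑ k, hs (pdM k T x) ∂S.ν)
        + (4 * (ε * S.I) + 8 * N * a ^ 2 * ε * S.I) / l0
        + (16 * N * a ^ 2 * ε + 4 * a ^ 2 / N) * (a ^ 2 * ∫ x, hs (T x) ∂S.ν)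
        + 8 * N * (a ^ 2 * ∫ x, (S.h • S.V2 x * (T x * T x)).trace ∂S.ν) := by
  have hε0 : 0 < ε := S.h_pos.trans_le S.h_le
  have ha0 : 0 ≤ a := by linarith
  have hN0 : 0 < N := by nlinarith
  have hI : 0 ≤ S.I := by
    unfold L74.State.I nsq
    exact Finset.sum_nonneg fun i _ => integral_nonneg fun x => sq_nonneg _
  have hT' : ∀ i, CB (famM T i) := fun i => hT i.1 i.2
  obtain ⟨B, hB⟩ := S.V2_bdd
  have hPc : ∀ i j, Continuous fun x => (1 - S.h • S.V2 x : Mt n) i j := fun i j => by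
    simp only [Matrix.sub_apply, Matrix.smul_apply]
    exact continuous_const.sub ((S.V2_cont i j).const_smul S.h)
  have hPb : ∀ x i j, |(1 - S.h • S.V2 x : Mt n) i j| ≤ 1 + S.h * B := fun x i j => by
    rw [Matrix.sub_apply, Matrix.smul_apply, smul_eq_mul]
    refine (abs_sub _ _).trans (add_le_add ?_ ?_)
    · by_cases hij : i = j
      · subst hij; simp
      · simp [Matrix.one_apply_ne hij]
    · rw [abs_mul, abs_of_pos S.h_pos]
      exact mul_le_mul_of_nonneg_left (hB x i j) S.h_pos.le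
  have hP1 : ∀ x, LeQ (1 - S.h • S.V2 x) 1 := fun x u => by
    have := S.V2_nonneg x u
    simp only [zero_mulVec, dotProduct_zero] at this
    have h2 := mul_nonneg S.h_pos.le this
    rw [sub_mulVec, dotProduct_sub, smul_mulVec, dotProduct_smul, smul_eq_mul]
    linarith
  have key : ∀ l1 : ℝ, l0 ≤ l1 →
      2 * (a ^ 2 - Real.pi * a - a ^ 2 * l0 * A ^ 2) * ∫ x, hs (T x) ∂S.ν ≤
      3 / 2 * a ^ 2 * (1 + ε) * (∫ x, ∑ k, hs (pdM k T x) ∂S.ν)
        + (4 * (ε * S.I) + 8 * N * a ^ 2 * ε * S.I) / l0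
        + (16 * N * a ^ 2 * ε + 4 * a ^ 2 / N) * (a ^ 2 * ∫ x, hs (T x) ∂S.ν)
        + 8 * N * (a ^ 2 * ∫ x, (S.h • S.V2 x * (T x * T x)).trace ∂S.ν)
        + 2 * (n * a ^ 2 / l1) := by
    intro l1 h1
    have := assembly S.ν hT' hTs hPc hPb hP1 (K := 1 + ε) (D := S.I) (δ := ε * S.I) (e2 := ε)
      (N := N) (A := A) ha0 h0 h1 (by linarith) hI (mul_nonneg hε0.le hI) hε0.le hN0 hA
      (fun l hl => by
        have hl0 : 0 ≤ l := h0.le.trans hl.1
        refine hNS n ε S hε (fun x => Ql a l (T x)) (fun i j => cb_Ql hT' hTs ha0 hl0 (i, j))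
          (fun x => Ql_symm (hTs x) hl0) a ha (fun x => (Ql_bounds (hTs x) ha0 hl0).2.2.1) N hN)
    have e : ∀ x, (1 - (1 - S.h • S.V2 x) : Mt n) = S.h • S.V2 x := fun x => sub_sub_cancel _ _
    simp only [e] at this
    exact this
  set X := 2 * (a ^ 2 - Real.pi * a - a ^ 2 * l0 * A ^ 2) * ∫ x, hs (T x) ∂S.ν
  set Y := 3 / 2 * a ^ 2 * (1 + ε) * (∫ x, ∑ k, hs (pdM k T x) ∂S.ν)
        + (4 * (ε * S.I) + 8 * N * a ^ 2 * ε * S.I) / l0
        + (16 * N * a ^ 2 * ε + 4 * a ^ 2 / N) * (a ^ 2 * ∫ x, hs (T x) ∂S.ν)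
        + 8 * N * (a ^ 2 * ∫ x, (S.h • S.V2 x * (T x * T x)).trace ∂S.ν)
  have hlim : Tendsto (fun l1 : ℝ => Y + 2 * (n * a ^ 2 / l1)) atTop (𝓝 (Y + 2 * 0)) :=
    tendsto_const_nhds.add ((tendsto_const_nhds.div_atTop tendsto_id).const_mul 2)
  rw [mul_zero, add_zero] at hlim
  exact ge_of_tendsto hlim ((eventually_ge_atTop l0).mono fun l1 h1 => key l1 h1)

end Crest.Agent.R201.Ch150
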