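import Crest.Agent.R144.Fi2_865

/-!
# R201: log-Sobolev inequality for strongly log-concave weights (helper674)

Bobkov–Ledoux proof by Prékopa–Leindler.
-/

set_option autoImplicit false
open MeasureTheory Filter Topology
open scoped ENNReal NNReal

namespace Crest.Agent.R201.NSL674

open Crest.Agent.R144.Fi865

variable {E : Type*} [NormedAddCommGroup E] [InnerProductSpace ℝ E] [FiniteDimensional ℝ E]
  [MeasurableSpace E] [BorelSpace E] {lam : ℝ} {W : E → ℝ}

omit [FiniteDimensional ℝ E] [MeasurableSpace E] [BorelSpace E] in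
/-- dyadic strong log-concavity -/
theorem slc_dyadic (hW0 : ∀ x, 0 ≤ W x) (h : SLC lam W) (m : ℕ) : ∀ x y : E,
    W x ^ (1 - (1 / 2 : ℝ) ^ m) * W y ^ ((1 / 2 : ℝ) ^ m) ≤
      Real.exp (-(lam * ((1 / 2 : ℝ) ^ m * (1 - (1 / 2 : ℝ) ^ m)) / 2 * ‖x - y‖ ^ 2)) *
        W ((1 - (1 / 2 : ℝ) ^ m) • x + ((1 / 2 : ℝ) ^ m) • y) := by
  induction m with
  | zero =>
    intro x y
    simp
  | succ m ih =>
    intro x y
    set s : ℝ := (1 / 2 : ℝ) ^ m with hs
    have hs0 : 0 < s := by positivity
    have hs1 : s ≤ 1 := pow_le_one₀ (by norm_num) (by norm_num)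
    have e1 : (1 / 2 : ℝ) ^ (m + 1) = s / 2 := by rw [pow_succ, hs]; ring
    rw [e1]
    set z := (1 - s) • x + s • y with hz
    have h1 := ih x y
    rw [← hz] at h1
    have h2 := h x z
    have e2 : (1 / 2 : ℝ) • (x + z) = (1 - s / 2) • x + (s / 2) • y := by
      rw [hz]; module
    have e3 : ‖x - z‖ ^ 2 = s ^ 2 * ‖x - y‖ ^ 2 := by
      have : x - z = s • (x - y) := by rw [hz]; module
      rw [this, norm_smul, Real.norm_of_nonneg hs0.le]; ring
    rw [e2, e3] at h2
    -- combine
    have hWx := hW0 x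
    have hWy := hW0 y
    have hWz := hW0 z
    have h3 : √(W x) * √(W x ^ (1 - s) * W y ^ s) ≤
        √(W x) * √(Real.exp (-(lam * (s * (1 - s)) / 2 * ‖x - y‖ ^ 2)) * W z) :=
      mul_le_mul_of_nonneg_left (Real.sqrt_le_sqrt h1) (Real.sqrt_nonneg _)
    have h4 : √(W x) * √(W x ^ (1 - s) * W y ^ s) = W x ^ (1 - s / 2) * W y ^ (s / 2) := by
      rw [Real.sqrt_mul (Real.rpow_nonneg hWx _), Real.sqrt_eq_rpow, Real.sqrt_eq_rpow,
        Real.sqrt_eq_rpow, ← Real.rpow_mul hWx, ← Real.rpow_mul hWy, ← mul_assoc,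
        ← Real.rpow_add_of_nonneg hWx (by norm_num) (by nlinarith)]
      congr 2
      ring
    have h5 : √(Real.exp (-(lam * (s * (1 - s)) / 2 * ‖x - y‖ ^ 2)) * W z) =
        Real.exp (-(lam * (s * (1 - s)) / 4 * ‖x - y‖ ^ 2)) * √(W z) := by
      rw [Real.sqrt_mul (Real.exp_pos _).le, ← Real.exp_half]
      congr 2
      ring
    rw [h4, h5] at h3
    calc W x ^ (1 - s / 2) * W y ^ (s / 2)
        ≤ √(W x) * (Real.exp (-(lam * (s * (1 - s)) / 4 * ‖x - y‖ ^ 2)) * √(W z)) := h3
      _ = Real.exp (-(lam * (s * (1 - s)) / 4 * ‖x - y‖ ^ 2)) * (√(W x) * √(W z)) := by ring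
      _ ≤ Real.exp (-(lam * (s * (1 - s)) / 4 * ‖x - y‖ ^ 2)) *
          (Real.exp (-(lam / 8 * (s ^ 2 * ‖x - y‖ ^ 2))) *
            W ((1 - s / 2) • x + (s / 2) • y)) :=
          mul_le_mul_of_nonneg_left h2 (Real.exp_pos _).le
      _ = _ := by
          rw [← mul_assoc, ← Real.exp_add]
          congr 2
          ring

/-- Prékopa–Leindler for real functions -/
theorem pl_gen {U V H : E → ℝ} (hU : ∀ x, 0 ≤ U x) (hV : ∀ x, 0 ≤ V x) (hH : ∀ x, 0 ≤ H x)
    (mU : Integrable U) (mV : Integrable V) (mH : Integrable H)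
    (sU : Measurable U) (sV : Measurable V) (sH : Measurable H) {s : ℝ} (hs0 : 0 < s) (hs1 : s < 1)
    (h : ∀ x y, U x ^ (1 - s) * V y ^ s ≤ H ((1 - s) • x + s • y)) :
    (∫ x, U x) ^ (1 - s) * (∫ x, V x) ^ s ≤ ∫ x, H x := by
  have key := (PL_fd (E := E)) s hs0 hs1 (fun x => ENNReal.ofReal (U x))
    (fun x => ENNReal.ofReal (V x)) (fun x => ENNReal.ofReal (H x)) sU.ennreal_ofReal
    sV.ennreal_ofReal sH.ennreal_ofReal ?_
  · rw [← ofReal_integral_eq_lintegral_ofReal mU (ae_of_all _ hU),
      ← ofReal_integral_eq_lintegral_ofReal mV (ae_of_all _ hV),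
      ← ofReal_integral_eq_lintegral_ofReal mH (ae_of_all _ hH)] at key
    have i1 : 0 ≤ ∫ x, U x := integral_nonneg hU
    have i2 : 0 ≤ ∫ x, V x := integral_nonneg hV
    have i3 : 0 ≤ ∫ x, H x := integral_nonneg hH
    rw [ENNReal.ofReal_rpow_of_nonneg i1 (by linarith),
      ENNReal.ofReal_rpow_of_nonneg i2 hs0.le, ← ENNReal.ofReal_mul (by positivity),
      ENNReal.ofReal_le_ofReal_iff i3] at key
    exact key
  · intro x y
    have hx := hU x
    have hy := hV y
    rw [ENNReal.ofReal_rpow_of_nonneg hx (by linarith),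
      ENNReal.ofReal_rpow_of_nonneg hy hs0.le, ← ENNReal.ofReal_mul (by positivity)]
    exact ENNReal.ofReal_le_ofReal (h x y)


/-- calculus: nonnegativity of the derivative at `0` from nonnegativity along `2^{-m}` -/
theorem deriv_nonneg_dyadic {φ : ℝ → ℝ} {d : ℝ} (h0 : φ 0 = 0) (hd : HasDerivAt φ d 0)
    (h : ∀ᶠ s in 𝓝[>] (0 : ℝ), (∃ m : ℕ, s = (1 / 2 : ℝ) ^ m) → 0 ≤ φ s) : 0 ≤ d := by
  have h1 : Tendsto (fun m : ℕ => (1 / 2 : ℝ) ^ m) atTop (𝓝 0) :=
    tendsto_pow_atTop_nhds_zero_of_lt_one (by norm_num) (by norm_num)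
  have h2 : Tendsto (fun m : ℕ => (1 / 2 : ℝ) ^ m) atTop (𝓝[>] 0) :=
    tendsto_nhdsWithin_iff.2 ⟨h1, Eventually.of_forall fun m => by
      show (0 : ℝ) < (1 / 2 : ℝ) ^ m
      positivity⟩
  have h3 := hd.tendsto_slope_zero_right
  have h4 := h3.comp h2
  refine ge_of_tendsto h4 ?_
  filter_upwards [h2.eventually h] with m hm
  have := hm ⟨m, rfl⟩
  simp only [Function.comp_apply, zero_add, h0, sub_zero, smul_eq_mul]
  positivity

set_option maxHeartbeats 1000000 in
/-- **log-Sobolev inequality at scale `r`** -/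
theorem lsi_step (hl : 0 < lam) (hW0 : ∀ x, 0 ≤ W x) (mW : Measurable W) (iW : Integrable W)
    (hZ : 0 < ∫ x, W x) (hW : SLC lam W) {g l : E → ℝ} (mg : Measurable g) (ml : Measurable l)
    {M L r : ℝ} (hM : ∀ x, |g x| ≤ M) (hl0 : ∀ x, 0 ≤ l x) (hlL : ∀ x, l x ≤ L) (hr : 0 < r)
    (h1 : ∀ z w, ‖w‖ ≤ r → g (z + w) - g z ≤ l z * ‖w‖)
    (h2 : ∀ z w, g (z + w) - g z ≤ L * ‖w‖) :
    (∫ x, g x * (Real.exp (g x) * W x)) - (∫ x, Real.exp (g x) * W x) *
      Real.log ((∫ x, Real.exp (g x) * W x) / ∫ x, W x) ≤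
      (2 * lam)⁻¹ * ∫ x, l x ^ 2 * (Real.exp (g x) * W x) := by
  have hint : ∀ φ : E → ℝ, Measurable φ → ∀ C : ℝ, (∀ x, |φ x| ≤ C) →
      Integrable (fun x => φ x * W x) := by
    intro φ mφ C hC
    refine (iW.const_mul C).mono' (mφ.mul mW).aestronglyMeasurable (ae_of_all _ fun x => ?_)
    rw [Real.norm_eq_abs, abs_mul, abs_of_nonneg (hW0 x)]
    exact mul_le_mul_of_nonneg_right (hC x) (hW0 x)
  have hL0 : 0 ≤ L := (hl0 0).trans (hlL 0)
  have hM0 : 0 ≤ M := (abs_nonneg _).trans (hM 0)
  set κ : ℝ := (2 * lam)⁻¹ with hκ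
  have hκ0 : 0 < κ := by positivity
  set Z := ∫ x, W x with hZd
  set G := ∫ x, Real.exp (g x) * W x with hG
  set K := ∫ x, g x * (Real.exp (g x) * W x) with hK
  set I := ∫ x, l x ^ 2 * (Real.exp (g x) * W x) with hI
  have hexp : ∀ a : ℝ, ∀ x, |Real.exp (a * g x)| ≤ Real.exp (|a| * M) := by
    intro a x
    rw [abs_of_pos (Real.exp_pos _)]
    refine Real.exp_le_exp.2 ((le_abs_self _).trans ?_)
    rw [abs_mul]
    exact mul_le_mul_of_nonneg_left (hM x) (abs_nonneg _)
  have hexp1 : ∀ x, |Real.exp (g x)| ≤ Real.exp M := by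
    intro x
    have := hexp 1 x
    simpa using this
  have iG : Integrable fun x => Real.exp (g x) * W x := hint _ (by fun_prop) _ hexp1
  have iK : Integrable fun x => g x * (Real.exp (g x) * W x) := by
    have := hint (fun x => g x * Real.exp (g x)) (by fun_prop) (M * Real.exp M) (fun x => by
      rw [abs_mul]
      exact mul_le_mul (hM x) (hexp1 x) (abs_nonneg _) hM0)
    simpa [mul_assoc] using this
  have hl2 : ∀ x, l x ^ 2 ≤ L ^ 2 := fun x => pow_le_pow_left₀ (hl0 x) (hlL x) 2
  have iI : Integrable fun x => l x ^ 2 * (Real.exp (g x) * W x) := by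
    have := hint (fun x => l x ^ 2 * Real.exp (g x)) (by fun_prop) (L ^ 2 * Real.exp M) (fun x => by
      rw [abs_mul, abs_of_nonneg (sq_nonneg (l x))]
      exact mul_le_mul (hl2 x) (hexp1 x) (abs_nonneg _) (by positivity))
    simpa [mul_assoc] using this
  have hG0 : 0 < G := by
    have h3 : Real.exp (-M) * Z ≤ G := by
      rw [hG, hZd, ← integral_const_mul]
      refine integral_mono (iW.const_mul _) iG fun x => ?_
      refine mul_le_mul_of_nonneg_right (Real.exp_le_exp.2 ?_) (hW0 x)
      exact (abs_le.1 (hM x)).1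
    exact lt_of_lt_of_le (by positivity) h3
  -- the function
  set q : ℝ → ℝ := fun s => s / (1 - s) with hq
  have hq0 : q 0 = 0 := by simp [hq]
  have dq : HasDerivAt q 1 0 := by
    have := (hasDerivAt_id (0 : ℝ)).fun_div ((hasDerivAt_id (0 : ℝ)).const_sub 1) (by simp)
    convert! this using 1
    simp
  set u : ℝ → ℝ := fun s => G + κ * I * q s + κ ^ 2 * L ^ 4 * G * q s ^ 2 with hu
  set v : ℝ → ℝ := fun s => G + K * q s with hv
  have du : HasDerivAt u (κ * I) 0 := by
    have := ((dq.const_mul (κ * I)).const_add G).add ((dq.pow 2).const_mul (κ ^ 2 * L ^ 4 * G))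
    convert! this using 1
    simp [hq0]
  have dv : HasDerivAt v K 0 := by
    have := (dq.const_mul K).const_add G
    convert! this using 1
    simp
  have hu0 : u 0 = G := by simp [hu, hq0]
  have hv0 : v 0 = G := by simp [hv, hq0]
  set φ : ℝ → ℝ := fun s => Real.log (u s) - (1 - s) * Real.log (v s) - s * Real.log Z with hφ
  have dφ : HasDerivAt φ (κ * I / G - (-Real.log G + K / G) - Real.log Z) 0 := by
    have a1 := du.log (by rw [hu0]; exact hG0.ne')
    have a2 := dv.log (by rw [hv0]; exact hG0.ne')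
    have a3 := ((hasDerivAt_id (0 : ℝ)).const_sub 1).mul a2
    have a4 := (hasDerivAt_id (0 : ℝ)).mul_const (Real.log Z)
    have a5 := (a1.sub a3).sub a4
    convert! a5 using 1
    simp [hu0, hv0]
  have hφ0 : φ 0 = 0 := by simp [hφ, hu0, hv0]
  have key : 0 ≤ κ * I / G - (-Real.log G + K / G) - Real.log Z := by
    refine deriv_nonneg_dyadic hφ0 dφ ?_
    -- smallness conditions
    have c1 : ∀ᶠ s in 𝓝[>] (0 : ℝ), 0 < s := self_mem_nhdsWithin
    have c2 : ∀ᶠ s in 𝓝[>] (0 : ℝ), s < 1 / 2 :=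
      nhdsWithin_le_nhds (gt_mem_nhds (by norm_num))
    have c3 : ∀ᶠ s in 𝓝[>] (0 : ℝ), 4 * s * L < lam * r := by
      refine nhdsWithin_le_nhds ?_
      have : Tendsto (fun s : ℝ => 4 * s * L) (𝓝 0) (𝓝 (4 * 0 * L)) := by
        exact (by fun_prop : Continuous fun s : ℝ => 4 * s * L).tendsto 0
      refine this.eventually (gt_mem_nhds ?_)
      simp; positivity
    have c4 : ∀ᶠ s in 𝓝[>] (0 : ℝ), s * L ^ 2 < lam := by
      refine nhdsWithin_le_nhds ?_
      have : Tendsto (fun s : ℝ => s * L ^ 2) (𝓝 0) (𝓝 (0 * L ^ 2)) := by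
        exact (by fun_prop : Continuous fun s : ℝ => s * L ^ 2).tendsto 0
      refine this.eventually (gt_mem_nhds ?_)
      simpa using hl
    have c5 : ∀ᶠ s in 𝓝[>] (0 : ℝ), 0 < v s := by
      refine nhdsWithin_le_nhds ?_
      have : Tendsto v (𝓝 0) (𝓝 (v 0)) := dv.continuousAt
      exact this.eventually (lt_mem_nhds (by rw [hv0]; exact hG0))
    filter_upwards [c1, c2, c3, c4, c5] with s hs0 hs1 hs2 hs3 hs4
    rintro ⟨m, hm⟩
    have hs1' : s < 1 := by linarith
    have h1s : 0 < 1 - s := by linarith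
    have hqs : q s = s / (1 - s) := rfl
    have hqs0 : 0 < q s := by rw [hqs]; positivity
    -- exponent constant
    set c : ℝ := κ * q s with hc
    have hc0 : 0 < c := by positivity
    have hcL : c * L ^ 2 ≤ 1 := by
      have : c = s / (2 * lam * (1 - s)) := by
        rw [hc, hκ, hqs]; field_simp
      rw [this, div_mul_eq_mul_div, div_le_one (by positivity)]
      nlinarith
    have hslc := slc_dyadic hW0 hW m
    rw [← hm] at hslc
    have mH : Measurable fun x => Real.exp (g x + c * l x ^ 2) * W x := by fun_prop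
    have hHb : ∀ x, |Real.exp (g x + c * l x ^ 2)| ≤ Real.exp (M + 1) := by
      intro x
      rw [abs_of_pos (Real.exp_pos _)]
      refine Real.exp_le_exp.2 (add_le_add ((le_abs_self _).trans (hM x)) ?_)
      exact (mul_le_mul_of_nonneg_left (hl2 x) hc0.le).trans hcL
    have iH : Integrable fun x => Real.exp (g x + c * l x ^ 2) * W x := hint _ (by fun_prop) _ hHb
    have iU : Integrable fun x => Real.exp ((1 - s)⁻¹ * g x) * W x :=
      hint _ (by fun_prop) _ (hexp _)
    have hPL := pl_gen (U := fun x => Real.exp ((1 - s)⁻¹ * g x) * W x) (V := W)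
      (H := fun x => Real.exp (g x + c * l x ^ 2) * W x)
      (fun x => mul_nonneg (Real.exp_pos _).le (hW0 x)) hW0
      (fun x => mul_nonneg (Real.exp_pos _).le (hW0 x)) iU iW iH (by fun_prop) mW mH hs0 hs1' ?_
    swap
    · intro x y
      set z := (1 - s) • x + s • y with hz
      set w := s • (x - y) with hw
      have hxzw : x = z + w := by rw [hz, hw]; module
      have hxy : ‖w‖ ^ 2 = s ^ 2 * ‖x - y‖ ^ 2 := by
        rw [hw, norm_smul, Real.norm_of_nonneg hs0.le]
        ring
      have h3 := hslc x y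
      rw [← hz] at h3
      have h4 : g x - lam * (1 - s) / (2 * s) * ‖w‖ ^ 2 ≤ g z + c * l z ^ 2 := by
        have ha : 0 < lam * (1 - s) / (2 * s) := by positivity
        rcases le_total ‖w‖ r with hwr | hwr
        · have h5 := h1 z w hwr
          rw [← hxzw] at h5
          have e4 : lam * (1 - s) / (2 * s) * (4 * c) = 1 := by
            rw [hc, hκ, hqs]
            field_simp
            norm_num
          have h6 : l z * ‖w‖ ≤ c * l z ^ 2 + lam * (1 - s) / (2 * s) * ‖w‖ ^ 2 := by
            set a := lam * (1 - s) / (2 * s) with haa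
            have hca : c = 1 / (4 * a) := by
              field_simp
              linarith
            have : 0 ≤ (l z - 2 * a * ‖w‖) ^ 2 / (4 * a) := by positivity
            have e5 : (l z - 2 * a * ‖w‖) ^ 2 / (4 * a) =
                c * l z ^ 2 - l z * ‖w‖ + a * ‖w‖ ^ 2 := by
              rw [hca]
              field_simp
              ring
            linarith
          linarith
        · have h5 := h2 z w
          rw [← hxzw] at h5
          have h6 : L ≤ lam * (1 - s) / (2 * s) * ‖w‖ := by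
            have h7 : L ≤ lam * (1 - s) / (2 * s) * r := by
              rw [div_mul_eq_mul_div, le_div_iff₀ (by positivity)]
              nlinarith [mul_pos (mul_pos hl hr) (sub_pos.2 hs1)]
            exact h7.trans (mul_le_mul_of_nonneg_left hwr ha.le)
          have h8 : L * ‖w‖ ≤ lam * (1 - s) / (2 * s) * ‖w‖ ^ 2 := by
            rw [pow_two, ← mul_assoc]
            exact mul_le_mul_of_nonneg_right h6 (norm_nonneg _)
          have h9 : 0 ≤ c * l z ^ 2 := by positivity
          linarith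
      have hWx := hW0 x
      calc (Real.exp ((1 - s)⁻¹ * g x) * W x) ^ (1 - s) * W y ^ s
          = Real.exp (g x) * (W x ^ (1 - s) * W y ^ s) := by
            rw [Real.mul_rpow (Real.exp_pos _).le hWx, ← Real.exp_mul, mul_assoc]
            congr 2
            field_simp
        _ ≤ Real.exp (g x) * (Real.exp (-(lam * (s * (1 - s)) / 2 * ‖x - y‖ ^ 2)) * W z) :=
            mul_le_mul_of_nonneg_left h3 (Real.exp_pos _).le
        _ = Real.exp (g x - lam * (1 - s) / (2 * s) * ‖w‖ ^ 2) * W z := by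
            rw [← mul_assoc, ← Real.exp_add, hxy]
            congr 2
            field_simp
            ring
        _ ≤ _ := mul_le_mul_of_nonneg_right (Real.exp_le_exp.2 h4) (hW0 z)
    -- bounds of the integrals
    have hlow : v s ≤ ∫ x, Real.exp ((1 - s)⁻¹ * g x) * W x := by
      have : v s = ∫ x, (Real.exp (g x) * W x + q s * (g x * (Real.exp (g x) * W x))) := by
        rw [integral_add iG (iK.const_mul _), integral_const_mul]
        simp only [hv, ← hG, ← hK]
        ring
      rw [this]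
      refine integral_mono (iG.add (iK.const_mul _)) iU fun x => ?_
      simp only
      have e6 : Real.exp ((1 - s)⁻¹ * g x) = Real.exp (g x) * Real.exp (q s * g x) := by
        rw [← Real.exp_add]
        congr 1
        rw [hqs]
        field_simp
        ring
      have h7 : q s * g x + 1 ≤ Real.exp (q s * g x) := Real.add_one_le_exp _
      have h8 : 0 ≤ Real.exp (g x) * W x := mul_nonneg (Real.exp_pos _).le (hW0 x)
      rw [e6]
      nlinarith [mul_le_mul_of_nonneg_left h7 h8]
    have hup : (∫ x, Real.exp (g x + c * l x ^ 2) * W x) ≤ u s := by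
      have i1 : Integrable fun x => Real.exp (g x) * W x +
          c * (l x ^ 2 * (Real.exp (g x) * W x)) := iG.add (iI.const_mul _)
      have : u s = ∫ x, ((Real.exp (g x) * W x + c * (l x ^ 2 * (Real.exp (g x) * W x))) +
          c ^ 2 * L ^ 4 * (Real.exp (g x) * W x)) := by
        rw [integral_add i1 (iG.const_mul _),
          integral_add iG (iI.const_mul _), integral_const_mul, integral_const_mul]
        simp only [hu, ← hG, ← hI, hc]
        ring
      rw [this]
      refine integral_mono iH ((iG.add (iI.const_mul _)).add (iG.const_mul _)) fun x => ?_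
      simp only
      set y := c * l x ^ 2 with hy
      have hy0 : 0 ≤ y := by positivity
      have hy1 : y ≤ c * L ^ 2 := mul_le_mul_of_nonneg_left (hl2 x) hc0.le
      have hy2 : y ≤ 1 := hy1.trans hcL
      have h7 : Real.exp y ≤ 1 + y + y ^ 2 := by
        have := Real.abs_exp_sub_one_sub_id_le (x := y) (by rw [abs_of_nonneg hy0]; exact hy2)
        have := (abs_le.1 this).2
        linarith
      have h8 : 0 ≤ Real.exp (g x) * W x := mul_nonneg (Real.exp_pos _).le (hW0 x)
      have h9 : y ^ 2 ≤ c ^ 2 * L ^ 4 := by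
        calc y ^ 2 ≤ (c * L ^ 2) ^ 2 := pow_le_pow_left₀ hy0 hy1 2
          _ = _ := by ring
      calc Real.exp (g x + y) * W x = Real.exp (g x) * W x * Real.exp y := by
            rw [Real.exp_add]; ring
        _ ≤ Real.exp (g x) * W x * (1 + y + c ^ 2 * L ^ 4) :=
            mul_le_mul_of_nonneg_left (by linarith) h8
        _ = _ := by rw [hy]; ring
    -- logs
    have hA : 0 < ∫ x, Real.exp ((1 - s)⁻¹ * g x) * W x := hs4.trans_le hlow
    have hP : 0 < (∫ x, Real.exp ((1 - s)⁻¹ * g x) * W x) ^ (1 - s) * Z ^ s := by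
      positivity
    have h10 := Real.log_le_log hP (hPL.trans hup)
    rw [Real.log_mul (by positivity) (by positivity), Real.log_rpow hA, Real.log_rpow hZ] at h10
    have h11 := mul_le_mul_of_nonneg_left (Real.log_le_log hs4 hlow) h1s.le
    show 0 ≤ Real.log (u s) - (1 - s) * Real.log (v s) - s * Real.log Z
    linarith
  rw [Real.log_div hG0.ne' hZ.ne']
  have h12 := mul_nonneg hG0.le key
  have e7 : G * (κ * I / G - (-Real.log G + K / G) - Real.log Z) =
      κ * I + G * Real.log G - K - G * Real.log Z := by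
    field_simp
    ring
  rw [e7] at h12
  linarith

end Crest.Agent.R201.NSL674
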