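import Crest.Agent.R201.NSL2_674
import Mathlib.Probability.Distributions.Gaussian.Multivariate

/-!
# R201: log-Sobolev inequality without growth hypotheses, and for `stdGaussian` (helper674)
-/

set_option autoImplicit false
open MeasureTheory Filter Topology
open scoped ENNReal NNReal ContDiff

namespace Crest.Agent.R201.NSL674

open Crest.Agent.R144.Fi865

/-- Fatou for real functions -/
theorem fatou_real {α : Type*} [MeasurableSpace α] {μ : Measure α} {F : ℕ → α → ℝ} {f : α → ℝ}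
    (h0 : ∀ k x, 0 ≤ F k x) (mF : ∀ k, Measurable (F k)) (mf : Measurable f)
    (hlim : ∀ x, ∀ᶠ k in atTop, F k x = f x) (hF : ∀ k, Integrable (F k) μ) {R : ℕ → ℝ} {r : ℝ}
    (hR : Tendsto R atTop (𝓝 r)) (hb : ∀ k, ∫ x, F k x ∂μ ≤ R k) :
    Integrable f μ ∧ ∫ x, f x ∂μ ≤ r := by
  have hf0 : ∀ x, 0 ≤ f x := fun x => by
    obtain ⟨k, hk⟩ := (hlim x).exists
    rw [← hk]
    exact h0 k x
  have hr0 : 0 ≤ r := ge_of_tendsto' hR fun k => (integral_nonneg (h0 k)).trans (hb k)
  have h1 : ∫⁻ x, ENNReal.ofReal (f x) ∂μ ≤ ENNReal.ofReal r := by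
    have h2 : (fun x => ENNReal.ofReal (f x)) =
        fun x => liminf (fun k => ENNReal.ofReal (F k x)) atTop := by
      funext x
      have : Tendsto (fun k => ENNReal.ofReal (F k x)) atTop (𝓝 (ENNReal.ofReal (f x))) := by
        refine tendsto_const_nhds.congr' ?_
        filter_upwards [hlim x] with k hk
        rw [hk]
      exact this.liminf_eq.symm
    rw [h2]
    refine (lintegral_liminf_le fun k => (mF k).ennreal_ofReal).trans ?_
    have h3 : Tendsto (fun k => ENNReal.ofReal (R k)) atTop (𝓝 (ENNReal.ofReal r)) :=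
      (ENNReal.continuous_ofReal.tendsto r).comp hR
    rw [← h3.liminf_eq]
    refine liminf_le_liminf (Eventually.of_forall fun k => ?_)
    show ∫⁻ x, ENNReal.ofReal (F k x) ∂μ ≤ ENNReal.ofReal (R k)
    rw [← ofReal_integral_eq_lintegral_ofReal (hF k) (ae_of_all _ (h0 k))]
    exact ENNReal.ofReal_le_ofReal (hb k)
  have h4 : Integrable f μ := by
    refine ⟨mf.aestronglyMeasurable, ?_⟩
    rw [hasFiniteIntegral_iff_ofReal (ae_of_all _ hf0)]
    exact h1.trans_lt ENNReal.ofReal_lt_top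
  refine ⟨h4, ?_⟩
  rw [← ofReal_integral_eq_lintegral_ofReal h4 (ae_of_all _ hf0)] at h1
  exact (ENNReal.ofReal_le_ofReal_iff hr0).1 h1

theorem mul_log_ge {x : ℝ} (hx : 0 ≤ x) : -1 ≤ x * Real.log x := by
  rcases hx.eq_or_lt with h | h
  · rw [← h]; simp
  · have h1 := Real.one_sub_inv_le_log_of_pos h
    have h2 := mul_le_mul_of_nonneg_left h1 h.le
    have h3 : x * (1 - x⁻¹) = x - 1 := by field_simp
    rw [h3] at h2
    linarith

variable {E : Type*} [NormedAddCommGroup E] [InnerProductSpace ℝ E] [FiniteDimensional ℝ E]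
  [MeasurableSpace E] [BorelSpace E] {lam : ℝ} {W : E → ℝ}

/-- log-Sobolev for squares of compactly supported `C¹` functions -/
theorem lsi_cs (hl : 0 < lam) (hW0 : ∀ x, 0 ≤ W x) (mW : Measurable W) (iW : Integrable W)
    (hZ : 0 < ∫ x, W x) (hW : SLC lam W) {u : E → ℝ} (hu : ContDiff ℝ 1 u)
    (hc : HasCompactSupport u) :
    (∫ x, u x ^ 2 * Real.log (u x ^ 2) * W x) ≤
      (∫ x, W x) * (((∫ x, u x ^ 2 * W x) / ∫ x, W x) *
        Real.log ((∫ x, u x ^ 2 * W x) / ∫ x, W x)) +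
      2 / lam * ∫ x, ‖fderiv ℝ u x‖ ^ 2 * W x := by
  set Z := ∫ x, W x with hZd
  obtain ⟨M, hM⟩ := hc.exists_bound_of_continuous hu.continuous
  have hM' : ∀ x, |u x| ≤ M := fun x => by simpa using hM x
  have hM0 : 0 ≤ M := (abs_nonneg _).trans (hM' 0)
  obtain ⟨N, hN⟩ := (hc.fderiv ℝ).exists_bound_of_continuous (hu.continuous_fderiv (by simp))
  have hN0 : 0 ≤ N := (norm_nonneg _).trans (hN 0)
  have hint : ∀ φ : E → ℝ, Measurable φ → ∀ C : ℝ, (∀ x, |φ x| ≤ C) →
      Integrable (fun x => φ x * W x) := by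
    intro φ mφ C hC
    refine (iW.const_mul C).mono' (mφ.mul mW).aestronglyMeasurable (ae_of_all _ fun x => ?_)
    rw [Real.norm_eq_abs, abs_mul, abs_of_nonneg (hW0 x)]
    exact mul_le_mul_of_nonneg_right (hC x) (hW0 x)
  have mu : Measurable u := hu.continuous.measurable
  have hu2 : ∀ x, u x ^ 2 ≤ M ^ 2 := fun x => by
    rw [← sq_abs (u x)]
    exact pow_le_pow_left₀ (abs_nonneg _) (hM' x) 2
  have iu2 : Integrable fun x => u x ^ 2 * W x := hint _ (by fun_prop) (M ^ 2) fun x => by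
    rw [abs_of_nonneg (sq_nonneg _)]; exact hu2 x
  have iD : Integrable fun x => ‖fderiv ℝ u x‖ ^ 2 * W x := by
    refine hint _ ((measurable_fderiv ℝ u).norm.pow_const 2) (N ^ 2) fun x => ?_
    rw [abs_of_nonneg (sq_nonneg _)]
    exact pow_le_pow_left₀ (norm_nonneg _) (hN x) 2
  -- the sequence
  set e : ℕ → ℝ := fun m => 1 / ((m : ℝ) + 1) with he
  have he0 : ∀ m, 0 < e m := fun m => by simp only [he]; positivity
  have he1 : ∀ m, e m ≤ 1 := fun m => by
    simp only [he]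
    rw [div_le_one (by positivity)]
    have : (0 : ℝ) ≤ m := Nat.cast_nonneg m
    linarith
  have hel : Tendsto e atTop (𝓝 0) := tendsto_one_div_add_atTop_nhds_zero_nat
  have key : ∀ m, (∫ x, (u x ^ 2 + e m) * Real.log (u x ^ 2 + e m) * W x) -
      (∫ x, (u x ^ 2 + e m) * W x) * Real.log ((∫ x, (u x ^ 2 + e m) * W x) / Z) ≤
      2 / lam * ∫ x, ‖fderiv ℝ u x‖ ^ 2 * W x := by
    intro m
    have hfd : ∀ x, HasFDerivAt (fun x => u x ^ 2 + e m) ((2 * u x) • fderiv ℝ u x) x := by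
      intro x
      have h1 := (hu.differentiable (by simp) x).hasFDerivAt.pow 2
      have h2 := h1.add_const (e m)
      convert! h2 using 1
      ext v
      simp
    have hcd : ContDiff ℝ 1 (fun x => u x ^ 2 + e m) := (hu.pow 2).add contDiff_const
    have h1 := lsi_pos hl hW0 mW iW hZ hW hcd (c := e m) (B := max (M ^ 2 + 1) (2 * M * N))
      (he0 m) (fun x => by nlinarith [sq_nonneg (u x)])
      (fun x => by
        refine le_trans ?_ (le_max_left _ _)
        exact add_le_add (hu2 x) (he1 m))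
      (fun x => by
        refine le_trans ?_ (le_max_right _ _)
        rw [(hfd x).fderiv, norm_smul, Real.norm_eq_abs, abs_mul, abs_of_pos two_pos]
        exact mul_le_mul (mul_le_mul_of_nonneg_left (hM' x) two_pos.le) (hN x) (norm_nonneg _)
          (by positivity))
    refine h1.trans ?_
    rw [← integral_const_mul, ← integral_const_mul]
    have hpt : ∀ x, (2 * lam)⁻¹ * (‖fderiv ℝ (fun x => u x ^ 2 + e m) x‖ ^ 2 / (u x ^ 2 + e m) * W x)
        ≤ 2 / lam * (‖fderiv ℝ u x‖ ^ 2 * W x) := by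
      intro x
      rw [(hfd x).fderiv, norm_smul, Real.norm_eq_abs]
      have h2 : (|2 * u x| * ‖fderiv ℝ u x‖) ^ 2 / (u x ^ 2 + e m) ≤ 4 * ‖fderiv ℝ u x‖ ^ 2 := by
        rw [div_le_iff₀ (by nlinarith [sq_nonneg (u x), he0 m]), mul_pow, sq_abs]
        nlinarith [mul_nonneg (he0 m).le (sq_nonneg ‖fderiv ℝ u x‖)]
      calc (2 * lam)⁻¹ * ((|2 * u x| * ‖fderiv ℝ u x‖) ^ 2 / (u x ^ 2 + e m) * W x)
          ≤ (2 * lam)⁻¹ * (4 * ‖fderiv ℝ u x‖ ^ 2 * W x) :=
            mul_le_mul_of_nonneg_left (mul_le_mul_of_nonneg_right h2 (hW0 x)) (by positivity)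
        _ = _ := by field_simp; ring
    refine integral_mono_of_nonneg (ae_of_all _ fun x => ?_) (iD.const_mul _) (ae_of_all _ hpt)
    have := hW0 x
    have h3 : 0 < u x ^ 2 + e m := by nlinarith [sq_nonneg (u x), he0 m]
    simp only [Pi.zero_apply]
    positivity
  -- limits
  obtain ⟨C, hC⟩ : ∃ C : ℝ, ∀ y ∈ Set.Icc (0 : ℝ) (M ^ 2 + 1), |y * Real.log y| ≤ C := by
    have := isCompact_Icc.exists_bound_of_continuousOn (s := Set.Icc (0 : ℝ) (M ^ 2 + 1))
      (Real.continuous_mul_log.continuousOn)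
    exact this.imp fun C h y hy => by simpa using h y hy
  have t1 : Tendsto (fun m => ∫ x, (u x ^ 2 + e m) * Real.log (u x ^ 2 + e m) * W x) atTop
      (𝓝 (∫ x, u x ^ 2 * Real.log (u x ^ 2) * W x)) := by
    refine tendsto_integral_of_dominated_convergence (fun x => C * W x) (fun m => ?_)
      (iW.const_mul _) (fun m => ae_of_all _ fun x => ?_) (ae_of_all _ fun x => ?_)
    · exact (by fun_prop : Measurable fun x =>
        (u x ^ 2 + e m) * Real.log (u x ^ 2 + e m) * W x).aestronglyMeasurable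
    · rw [Real.norm_eq_abs, abs_mul, abs_of_nonneg (hW0 x)]
      refine mul_le_mul_of_nonneg_right (hC _ ⟨?_, add_le_add (hu2 x) (he1 m)⟩) (hW0 x)
      nlinarith [sq_nonneg (u x), he0 m]
    · have h1 : Tendsto (fun m => u x ^ 2 + e m) atTop (𝓝 (u x ^ 2 + 0)) := hel.const_add _
      rw [add_zero] at h1
      exact ((Real.continuous_mul_log.tendsto _).comp h1).mul_const _
  have t2 : Tendsto (fun m => ∫ x, (u x ^ 2 + e m) * W x) atTop (𝓝 (∫ x, u x ^ 2 * W x)) := by
    have h1 : ∀ m, ∫ x, (u x ^ 2 + e m) * W x = (∫ x, u x ^ 2 * W x) + e m * Z := by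
      intro m
      rw [hZd, ← integral_const_mul, ← integral_add iu2 (iW.const_mul _)]
      exact integral_congr_ae (ae_of_all _ fun x => by simp only; ring)
    simp only [h1]
    have := (hel.mul_const Z).const_add (∫ x, u x ^ 2 * W x)
    simpa using this
  have t3 : Tendsto (fun m => (∫ x, (u x ^ 2 + e m) * W x) *
      Real.log ((∫ x, (u x ^ 2 + e m) * W x) / Z)) atTop
      (𝓝 (Z * ((∫ x, u x ^ 2 * W x) / Z * Real.log ((∫ x, u x ^ 2 * W x) / Z)))) := by
    have h1 := ((Real.continuous_mul_log.tendsto _).comp (t2.div_const Z)).const_mul Z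
    refine h1.congr fun m => ?_
    simp only [Function.comp_apply]
    field_simp
  have h5 := le_of_tendsto' (t1.sub t3) key
  linarith

/-- **log-Sobolev inequality**, positive `C¹` functions with finite mass and Fisher information -/
theorem lsi_gen (hl : 0 < lam) (hW0 : ∀ x, 0 ≤ W x) (mW : Measurable W) (iW : Integrable W)
    (hZ : 0 < ∫ x, W x) (hW : SLC lam W) {f : E → ℝ} (hf : ContDiff ℝ 1 f) (hp : ∀ x, 0 < f x)
    (i1 : Integrable fun x => f x * W x)
    (i2 : Integrable fun x => ‖fderiv ℝ f x‖ ^ 2 / f x * W x) :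
    Integrable (fun x => f x * Real.log (f x) * W x) ∧
    (∫ x, f x * Real.log (f x) * W x) - (∫ x, f x * W x) *
      Real.log ((∫ x, f x * W x) / ∫ x, W x) ≤
      (2 * lam)⁻¹ * ∫ x, ‖fderiv ℝ f x‖ ^ 2 / f x * W x := by
  obtain ⟨χ, B, hB0, χs, χc, χ0, χ1, χe, χb⟩ := cutoffs (E := E)
  set Z := ∫ x, W x with hZd
  set u : E → ℝ := fun x => √(f x) with hu
  have hus : ContDiff ℝ 1 u := hf.sqrt fun x => (hp x).ne'
  have hu2 : ∀ x, u x ^ 2 = f x := fun x => Real.sq_sqrt (hp x).le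
  have hup : ∀ x, 0 < u x := fun x => Real.sqrt_pos.2 (hp x)
  have hud : ∀ x, ‖fderiv ℝ u x‖ ^ 2 = ‖fderiv ℝ f x‖ ^ 2 / (4 * f x) := by
    intro x
    have h1 := (hf.differentiable (by simp) x).hasFDerivAt.sqrt (hp x).ne'
    have h2 : fderiv ℝ u x = (1 / (2 * √(f x))) • fderiv ℝ f x := h1.fderiv
    rw [h2, norm_smul, mul_pow, Real.norm_eq_abs, sq_abs, div_pow, mul_pow,
      Real.sq_sqrt (hp x).le]
    ring
  have mu : Measurable u := hus.continuous.measurable
  have mf : Measurable f := hf.continuous.measurable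
  have hev : ∀ x : E, ∀ᶠ k : ℕ in atTop, ‖x‖ < (k : ℝ) + 1 := by
    intro x
    obtain ⟨N, hN⟩ := exists_nat_gt ‖x‖
    filter_upwards [eventually_ge_atTop N] with k hk
    have : (N : ℝ) ≤ k := Nat.cast_le.2 hk
    linarith
  have hχ1 : ∀ x : E, ∀ᶠ k : ℕ in atTop, χ k x = 1 := by
    intro x
    filter_upwards [hev x] with k hk
    exact (χe k x hk).self_of_nhds
  have hfd : ∀ x : E, ∀ᶠ k : ℕ in atTop, fderiv ℝ (fun x => χ k x * u x) x = fderiv ℝ u x := by
    intro x
    filter_upwards [hev x] with k hk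
    refine Filter.EventuallyEq.fderiv_eq ?_
    filter_upwards [χe k x hk] with y hy
    rw [hy, one_mul]
  have gsm : ∀ k, ContDiff ℝ 1 (fun x => χ k x * u x) := fun k => (χs k).mul hus
  have gcs : ∀ k, HasCompactSupport (fun x => χ k x * u x) := fun k => (χc k).mul_right
  have hstep := fun k => lsi_cs hl hW0 mW iW hZ hW (gsm k) (gcs k)
  rw [← hZd] at hstep
  -- bounds
  have hle : ∀ k x, (χ k x * u x) ^ 2 ≤ f x := by
    intro k x
    rw [← hu2 x, mul_pow]
    exact mul_le_of_le_one_left (sq_nonneg _) (pow_le_one₀ (χ0 k x) (χ1 k x))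
  have hfu : ∀ x, f x = u x ^ 2 := fun x => (hu2 x).symm
  have hgr : ∀ k x, ‖fderiv ℝ (fun x => χ k x * u x) x‖ ^ 2 ≤
      2 * ‖fderiv ℝ u x‖ ^ 2 + 2 * B ^ 2 * f x := by
    intro k x
    have h3 : fderiv ℝ (fun x => χ k x * u x) x = χ k x • fderiv ℝ u x + u x • fderiv ℝ (χ k) x :=
      fderiv_fun_mul ((χs k).differentiable (by simp) x) (hus.differentiable (by simp) x)
    have h4 : ‖fderiv ℝ (χ k) x‖ ≤ B := by
      refine le_trans ?_ (χb k x)
      exact le_mul_of_one_le_right (norm_nonneg _) (by linarith [norm_nonneg x])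
    have h5 : ‖fderiv ℝ (fun x => χ k x * u x) x‖ ≤ ‖fderiv ℝ u x‖ + u x * B := by
      rw [h3]
      refine (norm_add_le _ _).trans (add_le_add ?_ ?_)
      · rw [norm_smul, Real.norm_of_nonneg (χ0 k x)]
        exact mul_le_of_le_one_left (norm_nonneg _) (χ1 k x)
      · rw [norm_smul, Real.norm_of_nonneg (hup x).le]
        exact mul_le_mul_of_nonneg_left h4 (hup x).le
    have h6 : (‖fderiv ℝ u x‖ + u x * B) ^ 2 ≤ 2 * ‖fderiv ℝ u x‖ ^ 2 + 2 * (u x * B) ^ 2 := by
      nlinarith [sq_nonneg (‖fderiv ℝ u x‖ - u x * B)]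
    calc ‖fderiv ℝ (fun x => χ k x * u x) x‖ ^ 2 ≤ (‖fderiv ℝ u x‖ + u x * B) ^ 2 :=
          pow_le_pow_left₀ (norm_nonneg _) h5 2
      _ ≤ 2 * ‖fderiv ℝ u x‖ ^ 2 + 2 * (u x * B) ^ 2 := h6
      _ = _ := by rw [hfu x]; ring
  have iDu : Integrable fun x => ‖fderiv ℝ u x‖ ^ 2 * W x := by
    refine (i2.const_mul (1 / 4)).congr (ae_of_all _ fun x => ?_)
    simp only
    rw [hud x]
    have := (hp x).ne'
    field_simp
  have t2 : Tendsto (fun k : ℕ => ∫ x, (χ k x * u x) ^ 2 * W x) atTop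
      (𝓝 (∫ x, f x * W x)) := by
    refine tendsto_integral_of_dominated_convergence (fun x => f x * W x) (fun k => ?_)
      i1 (fun k => ae_of_all _ fun x => ?_) (ae_of_all _ fun x => ?_)
    · exact ((((χs k).continuous.measurable.mul mu).pow_const 2).mul mW).aestronglyMeasurable
    · rw [Real.norm_eq_abs, abs_mul, abs_of_nonneg (hW0 x), abs_of_nonneg (sq_nonneg _)]
      exact mul_le_mul_of_nonneg_right (hle k x) (hW0 x)
    · refine tendsto_const_nhds.congr' ?_
      filter_upwards [hχ1 x] with k hk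
      rw [hk, one_mul, hu2]
  have t3 : Tendsto (fun k : ℕ => ∫ x, ‖fderiv ℝ (fun x => χ k x * u x) x‖ ^ 2 * W x) atTop
      (𝓝 (∫ x, ‖fderiv ℝ u x‖ ^ 2 * W x)) := by
    refine tendsto_integral_of_dominated_convergence
      (fun x => 2 * (‖fderiv ℝ u x‖ ^ 2 * W x) + 2 * B ^ 2 * (f x * W x)) (fun k => ?_)
      ((iDu.const_mul _).add (i1.const_mul _)) (fun k => ae_of_all _ fun x => ?_)
      (ae_of_all _ fun x => ?_)
    · exact (((measurable_fderiv ℝ _).norm.pow_const 2).mul mW).aestronglyMeasurable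
    · rw [Real.norm_eq_abs, abs_mul, abs_of_nonneg (hW0 x), abs_of_nonneg (sq_nonneg _)]
      calc ‖fderiv ℝ (fun x => χ k x * u x) x‖ ^ 2 * W x
          ≤ (2 * ‖fderiv ℝ u x‖ ^ 2 + 2 * B ^ 2 * f x) * W x :=
            mul_le_mul_of_nonneg_right (hgr k x) (hW0 x)
        _ = _ := by ring
    · refine tendsto_const_nhds.congr' ?_
      filter_upwards [hfd x] with k hk
      rw [hk]
  have t4 : Tendsto (fun k : ℕ => Z * (((∫ x, (χ k x * u x) ^ 2 * W x) / Z) *
        Real.log ((∫ x, (χ k x * u x) ^ 2 * W x) / Z)) +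
      2 / lam * ∫ x, ‖fderiv ℝ (fun x => χ k x * u x) x‖ ^ 2 * W x) atTop
      (𝓝 (Z * (((∫ x, f x * W x) / Z) * Real.log ((∫ x, f x * W x) / Z)) +
      2 / lam * ∫ x, ‖fderiv ℝ u x‖ ^ 2 * W x)) :=
    (((Real.continuous_mul_log.tendsto _).comp (t2.div_const Z)).const_mul Z).add
      (t3.const_mul _)
  -- integrability of the approximations
  have hint : ∀ φ : E → ℝ, Measurable φ → ∀ C : ℝ, (∀ x, |φ x| ≤ C) →
      Integrable (fun x => φ x * W x) := by
    intro φ mφ C hC
    refine (iW.const_mul C).mono' (mφ.mul mW).aestronglyMeasurable (ae_of_all _ fun x => ?_)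
    rw [Real.norm_eq_abs, abs_mul, abs_of_nonneg (hW0 x)]
    exact mul_le_mul_of_nonneg_right (hC x) (hW0 x)
  have iF : ∀ k : ℕ, Integrable fun x =>
      (χ k x * u x) ^ 2 * Real.log ((χ k x * u x) ^ 2) * W x := by
    intro k
    obtain ⟨M, hM⟩ := (gcs k).exists_bound_of_continuous (gsm k).continuous
    obtain ⟨C, hC⟩ : ∃ C : ℝ, ∀ y ∈ Set.Icc (0 : ℝ) (M ^ 2), |y * Real.log y| ≤ C := by
      have := isCompact_Icc.exists_bound_of_continuousOn (s := Set.Icc (0 : ℝ) (M ^ 2))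
        (Real.continuous_mul_log.continuousOn)
      exact this.imp fun C h y hy => by simpa using h y hy
    have mk : Measurable fun x => χ k x * u x := (χs k).continuous.measurable.mul mu
    refine hint (fun x => (χ k x * u x) ^ 2 * Real.log ((χ k x * u x) ^ 2)) (by fun_prop) C
      fun x => hC _ ⟨sq_nonneg _, ?_⟩
    rw [← sq_abs]
    exact pow_le_pow_left₀ (abs_nonneg _) (by simpa using hM x) 2
  have hF1 : ∀ k x, 0 ≤ ((χ k x * u x) ^ 2 * Real.log ((χ k x * u x) ^ 2) + 1) * W x := by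
    intro k x
    refine mul_nonneg ?_ (hW0 x)
    have := mul_log_ge (sq_nonneg (χ k x * u x))
    linarith
  have hsum : ∀ k, ∫ x, ((χ k x * u x) ^ 2 * Real.log ((χ k x * u x) ^ 2) + 1) * W x =
      (∫ x, (χ k x * u x) ^ 2 * Real.log ((χ k x * u x) ^ 2) * W x) + Z := by
    intro k
    rw [hZd, ← integral_add (iF k) iW]
    exact integral_congr_ae (ae_of_all _ fun x => by simp only; ring)
  obtain ⟨hi, hle'⟩ := fatou_real (μ := (volume : Measure E))
    (F := fun k x => ((χ k x * u x) ^ 2 * Real.log ((χ k x * u x) ^ 2) + 1) * W x)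
    (f := fun x => (f x * Real.log (f x) + 1) * W x) hF1
    (fun k => by
      have mk : Measurable fun x => χ k x * u x := (χs k).continuous.measurable.mul mu
      fun_prop) (by fun_prop)
    (fun x => by
      filter_upwards [hχ1 x] with k hk
      rw [hk, one_mul, hu2])
    (fun k => ((iF k).add iW).congr (ae_of_all _ fun x => by simp only [Pi.add_apply]; ring))
    (t4.add_const Z) (fun k => by
      rw [hsum k]
      exact add_le_add (hstep k) le_rfl)
  have hi2 : Integrable (fun x => f x * Real.log (f x) * W x) :=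
    (hi.sub iW).congr (ae_of_all _ fun x => by simp only [Pi.sub_apply]; ring)
  refine ⟨hi2, ?_⟩
  have e1 : ∫ x, (f x * Real.log (f x) + 1) * W x = (∫ x, f x * Real.log (f x) * W x) + Z := by
    rw [hZd, ← integral_add hi2 iW]
    exact integral_congr_ae (ae_of_all _ fun x => by simp only; ring)
  rw [e1] at hle'
  have e2 : ∫ x, ‖fderiv ℝ u x‖ ^ 2 * W x = 1 / 4 * ∫ x, ‖fderiv ℝ f x‖ ^ 2 / f x * W x := by
    rw [← integral_const_mul]
    refine integral_congr_ae (ae_of_all _ fun x => ?_)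
    simp only
    rw [hud x]
    have := (hp x).ne'
    field_simp
  have e3 : Z * (((∫ x, f x * W x) / Z) * Real.log ((∫ x, f x * W x) / Z)) =
      (∫ x, f x * W x) * Real.log ((∫ x, f x * W x) / Z) := by
    field_simp
  rw [e2, e3] at hle'
  have e4 : 2 / lam * (1 / 4 * ∫ x, ‖fderiv ℝ f x‖ ^ 2 / f x * W x) =
      (2 * lam)⁻¹ * ∫ x, ‖fderiv ℝ f x‖ ^ 2 / f x * W x := by
    field_simp
    ring
  rw [e4] at hle'
  linarith

end Crest.Agent.R201.NSL674
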