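import Crest.Agent.R201.NsC_674

/-!
# R201 (S0308): the static theorem `NoState` from the blocks RG, NS, EL (helper674)
-/

set_option autoImplicit false
open MeasureTheory Matrix
open scoped ContDiff

namespace Crest.Agent.R201.Top674

open Crest.Agent.R201 Crest.Agent.R201.El593 Crest.Agent.R201.Tw807 Crest.Agent.R201.L74

variable {n : ℕ}

/-- numbers of the rigidity step: `|T|² ≥ 0.99 I` -/
theorem num_rig {I hB hT g ε e1 κ d1 ds : ℝ} (hI : 0 < I) (hε0 : 0 < ε) (he0 : 0 < e1)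
    (hκ : κ = e1 ^ 2 / 10 ^ 4) (hε : ε ≤ 1 / 10 ^ 13) (hεκ : ε ≤ κ / 10 ^ 4)
    (he1 : e1 ≤ 1 / 10 ^ 4) (hd0 : 0 ≤ d1) (hd1 : d1 ≤ 1 / 10 ^ 10 * I) (hds : ds ≤ (1 + ε) * I)
    (hT0 : 0 ≤ hT) (hTB : hT ≤ hB) (hg : g ≤ 2 * I)
    (h1 : hB ≤ (1 + 1 / 1000) * ds + (1 + 1 / (1 / 1000)) * d1)
    (h2 : I ≤ (1 + ε) * ((1 + 1 / 1000) * (1 / 2 * (hB + hT)) + (1 + 1 / (1 / 1000)) * d1) +
      (1 + ε) * κ / 2 * (4 / e1 ^ 2 * g) + 2 * κ * (ε * I) +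
      2 * ε * (I + I / (2 * κ) + 1 / 2 * ((e1 ^ 2)⁻¹ * hT)) + 2 * κ * ((e1 ^ 2)⁻¹ * hT)) :
    99 / 100 * I ≤ hT ∧ hT ≤ 101 / 100 * I := by
  have hκ0 : 0 < κ := by rw [hκ]; positivity
  have hκ1 : κ ≤ 1 / 10 ^ 12 := by
    rw [hκ]
    have : e1 ^ 2 ≤ (1 / 10 ^ 4) ^ 2 := pow_le_pow_left₀ he0.le he1 2
    linarith
  have hB1 : hB ≤ 1002 / 1000 * I := by nlinarith
  have hT1 : hT ≤ 1002 / 1000 * I := hTB.trans hB1
  have q1 : (1 + ε) * κ / 2 * (4 / e1 ^ 2 * g) = (1 + ε) * (2 / 10 ^ 4) * g := by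
    rw [hκ]; field_simp; ring
  have q2 : 2 * κ * ((e1 ^ 2)⁻¹ * hT) = 2 / 10 ^ 4 * hT := by
    rw [hκ]; field_simp
  have q3 : ε * (I / (2 * κ)) ≤ 1 / (2 * 10 ^ 4) * I := by
    have : ε * (I / (2 * κ)) = (ε / κ) * (I / 2) := by field_simp
    rw [this]
    have h3 : ε / κ ≤ 1 / 10 ^ 4 := by
      rw [div_le_iff₀ hκ0]; linarith
    nlinarith
  have q4 : ε * ((e1 ^ 2)⁻¹ * hT) ≤ 1 / 10 ^ 8 * hT := by
    have : ε * (e1 ^ 2)⁻¹ ≤ 1 / 10 ^ 8 := by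
      rw [← div_eq_mul_inv, div_le_iff₀ (by positivity)]
      rw [hκ] at hεκ
      linarith
    calc ε * ((e1 ^ 2)⁻¹ * hT) = (ε * (e1 ^ 2)⁻¹) * hT := by ring
      _ ≤ _ := mul_le_mul_of_nonneg_right this hT0
  have q5 : 2 * κ * (ε * I) ≤ 1 / 10 ^ 10 * I := by
    have : 2 * κ * ε ≤ 1 / 10 ^ 10 := by nlinarith
    nlinarith
  have q6 : 2 * ε * (I + I / (2 * κ) + 1 / 2 * ((e1 ^ 2)⁻¹ * hT)) =
      2 * ε * I + 2 * (ε * (I / (2 * κ))) + ε * ((e1 ^ 2)⁻¹ * hT) := by ring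
  rw [q1, q2, q6] at h2
  have q7 : 2 * ε * I ≤ 1 / 10 ^ 10 * I := by nlinarith
  have q8 : (1 + ε) * (2 / 10 ^ 4) * g ≤ 5 / 10 ^ 4 * I := by
    have : (1 + ε) * (2 / 10 ^ 4) * g ≤ (1 + ε) * (2 / 10 ^ 4) * (2 * I) :=
      mul_le_mul_of_nonneg_left hg (by positivity)
    nlinarith
  have q9 : (1 + ε) * ((1 + 1 / 1000) * (1 / 2 * (hB + hT)) + (1 + 1 / (1 / 1000)) * d1) ≤
      (1 + 1 / 1000) * (1 / 2 * (hB + hT)) + (1 + 1 / (1 / 1000)) * d1 + 1 / 10 ^ 6 * I := by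
    have h3 : (1 + 1 / 1000) * (1 / 2 * (hB + hT)) + (1 + 1 / (1 / 1000)) * d1 ≤ 2 * I := by
      norm_num at hd1 ⊢
      linarith
    have h4 : ε * ((1 + 1 / 1000) * (1 / 2 * (hB + hT)) + (1 + 1 / (1 / 1000)) * d1) ≤
        ε * (2 * I) := mul_le_mul_of_nonneg_left h3 hε0.le
    have h5 : ε * (2 * I) ≤ 1 / 10 ^ 6 * I := by nlinarith
    linarith
  refine ⟨?_, by linarith⟩
  norm_num at q3 q4 q5 q7 q8 q9 h2 hB1 hT1 hd1 h1 ⊢
  linarith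

/-- numbers of the end game -/
theorem num_end {I hT hS gS wS C ε e1 d1 r : ℝ} (hI : 0 < I) (hε0 : 0 < ε) (hε : ε ≤ 1 / 10 ^ 13)
    (he0 : 0 < e1) (he1 : e1 ≤ 1 / 10 ^ 4)
    (hC : C ≤ 1 / 10 ^ 3) (hd0 : 0 ≤ d1) (hd1 : d1 ≤ 1 / 10 ^ 10 * I)
    (hT1 : 99 / 100 * I ≤ hT) (hT2 : hT ≤ 101 / 100 * I) (hS1 : hT - d1 ≤ hS) (hS2 : hS ≤ hT)
    (hgS : gS ≤ (1 + C) * I) (hg0 : 0 ≤ gS) (hw : wS ≤ 2 * ε * ((1 + C) * I) + 2 * d1)
    (hr : r ≤ I)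
    (h : 2 * ((20 : ℝ) ^ 2 - Real.pi * 20 - 20 ^ 2 * 1 * e1 ^ 2) * hS ≤
      3 / 2 * 20 ^ 2 * (1 + ε) * gS + (4 * (ε * I) + 8 * 10 ^ 6 * 20 ^ 2 * ε * I) / 1 +
      (16 * 10 ^ 6 * 20 ^ 2 * ε + 4 * 20 ^ 2 / 10 ^ 6) * (20 ^ 2 * hS) +
      8 * 10 ^ 6 * (20 ^ 2 * wS) + r) : False := by
  have hS0 : 98 / 100 * I ≤ hS := by norm_num at hd1; linarith
  have hSp : 0 ≤ hS := le_trans (by positivity) hS0
  have he2 : e1 ^ 2 ≤ 1 / 10 ^ 8 := by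
    have : e1 ^ 2 ≤ (1 / 10 ^ 4) ^ 2 := pow_le_pow_left₀ he0.le he1 2
    norm_num at this ⊢
    linarith
  have hpi := Real.pi_lt_d2
  have l1 : 2 * ((20 : ℝ) ^ 2 - Real.pi * 20 - 20 ^ 2 * 1 * e1 ^ 2) ≥ 673 := by
    norm_num at he2 hpi ⊢
    linarith
  have l2 : 673 * hS ≤ 2 * ((20 : ℝ) ^ 2 - Real.pi * 20 - 20 ^ 2 * 1 * e1 ^ 2) * hS :=
    mul_le_mul_of_nonneg_right l1 hSp
  have r1 : 3 / 2 * 20 ^ 2 * (1 + ε) * gS ≤ 602 * I := by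
    have a1 : (1 + ε) * gS ≤ (1 + 1 / 10 ^ 13) * ((1 + 1 / 10 ^ 3) * I) := by
      refine mul_le_mul (by linarith) (hgS.trans ?_) hg0 (by positivity)
      exact mul_le_mul_of_nonneg_right (by linarith) hI.le
    norm_num at a1 ⊢
    linarith
  have εI : ε * I ≤ 1 / 10 ^ 13 * I := mul_le_mul_of_nonneg_right hε hI.le
  have εS : ε * hS ≤ 1 / 10 ^ 13 * (101 / 100 * I) :=
    mul_le_mul hε (hS2.trans hT2) hSp (by positivity)
  have r3 : (16 * 10 ^ 6 * 20 ^ 2 * ε + 4 * 20 ^ 2 / 10 ^ 6) * (20 ^ 2 * hS) =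
      2560000000000 * (ε * hS) + 64 / 100 * hS := by ring
  have r4 : wS ≤ 3 / 10 ^ 10 * I := by
    have a1 : 2 * ε * ((1 + C) * I) ≤ 2 * (1 / 10 ^ 13) * ((1 + 1 / 10 ^ 3) * I) := by
      have b1 : (1 + C) * I ≤ (1 + 1 / 10 ^ 3) * I := mul_le_mul_of_nonneg_right (by linarith) hI.le
      have b2 : 0 ≤ (1 + C) * I := hg0.trans hgS
      exact mul_le_mul (by linarith) b1 b2 (by positivity)
    norm_num at a1 hd1 ⊢
    linarith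
  rw [r3] at h
  norm_num at h εI εS r4 r1 hT2 hS0
  have e1' : 8 * 10 ^ 6 * (20 ^ 2 * wS) ≤ I := by norm_num; linarith
  norm_num at e1'
  nlinarith

/-- **the static theorem from its blocks** -/
theorem nostate (hRG : RG) (hNS : NS) (hEL : ELc) : NoState := by
  obtain ⟨C, hC, hEL⟩ := hEL
  set e1 : ℝ := 1 / (10 ^ 4 * (C + 1)) with he1
  have e1_pos : 0 < e1 := by positivity
  have e1_le : e1 ≤ 1 / 10 ^ 4 := by
    rw [he1]
    apply one_div_le_one_div_of_le (by norm_num)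
    nlinarith
  have Ce1 : C * e1 ≤ 1 / 10 ^ 4 := by
    rw [he1, mul_one_div, div_le_div_iff₀ (by positivity) (by norm_num)]
    nlinarith
  set ρ : ℝ := e1 ^ 2 / 10 ^ 10 with hρ
  have ρ_pos : 0 < ρ := by positivity
  have e12 : e1 ^ 2 ≤ 1 / 10 ^ 8 := by
    have : e1 ^ 2 ≤ (1 / 10 ^ 4) ^ 2 := pow_le_pow_left₀ e1_pos.le e1_le 2
    norm_num at this ⊢
    linarith
  have ρ_le : ρ ≤ 1 / 10 ^ 18 := by
    rw [hρ]; norm_num at e12 ⊢; linarith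
  have ρe : ρ ≤ e1 / 10 ^ 14 := by
    rw [hρ]
    have : e1 ^ 2 ≤ e1 * (1 / 10 ^ 4) := by rw [sq]; exact mul_le_mul_of_nonneg_left e1_le e1_pos.le
    norm_num at this ⊢
    linarith
  set ε : ℝ := ρ ^ 2 with hε
  have ε_pos : 0 < ε := by positivity
  have ε_le : ε ≤ 1 / 10 ^ 13 := by
    have : ρ ^ 2 ≤ (1 / 10 ^ 18) ^ 2 := pow_le_pow_left₀ ρ_pos.le ρ_le 2
    rw [hε]
    refine this.trans (by norm_num)
  have ε_one : ε ≤ 1 := ε_le.trans (by norm_num)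
  have sqε : √ε = ρ := by rw [hε]; exact Real.sqrt_sq ρ_pos.le
  have Cρ : C * ρ ≤ 1 / 10 ^ 18 := by
    have : C * ρ ≤ C * (e1 / 10 ^ 14) := mul_le_mul_of_nonneg_left ρe hC.le
    norm_num at this Ce1 ⊢
    linarith
  have Cε : C * ε ≤ 1 / 10 ^ 18 := by
    have : C * ε = C * ρ * ρ := by rw [hε]; ring
    rw [this]
    have h1 : C * ρ * ρ ≤ 1 / 10 ^ 18 * 1 :=
      mul_le_mul Cρ (ρ_le.trans (by norm_num)) ρ_pos.le (by positivity)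
    linarith
  set κ : ℝ := e1 ^ 2 / 10 ^ 4 with hκ
  have κ_pos : 0 < κ := by positivity
  have εκ : ε ≤ κ / 10 ^ 4 := by
    have h1 : ε = (e1 ^ 2) * (e1 ^ 2) / 10 ^ 20 := by rw [hε, hρ]; ring
    have h2 : (e1 ^ 2) * (e1 ^ 2) ≤ (e1 ^ 2) * (1 / 10 ^ 8) :=
      mul_le_mul_of_nonneg_left e12 (by positivity)
    rw [h1, hκ]
    have h3 : 0 ≤ e1 ^ 2 := by positivity
    norm_num at h2 ⊢
    linarith
  refine ⟨ε, ε_pos, fun n S hI => ?_⟩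
  obtain ⟨φ, hφ, hφs, d0, d1, lev⟩ := hEL n ε S ε_one hI e1 e1_pos (e1_le.trans (by norm_num))
  set I := S.I with hIdef
  have hIn : nsq S.ν S.w = I := rfl
  have hd0 := dist1_nonneg S (φ := φ)
  have hd1 : S.dist1 φ ≤ 1 / 10 ^ 10 * I := by
    refine d1.trans (mul_le_mul_of_nonneg_right (Cε.trans (by norm_num)) hI.le)
  rw [sqε] at lev
  have hC' : C * (ρ + e1) ≤ 1 / 10 ^ 3 := by
    have : C * (ρ + e1) = C * ρ + C * e1 := by ring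
    rw [this]
    norm_num at Cρ Ce1 ⊢
    linarith
  have vt0 := VT_nonneg S e1 (φ := φ)
  set g := ∫ x, ∑ k, hs (pdM k (Tc e1 φ) x) ∂S.ν with hg
  set v := ∫ x, (S.V2 x * ((Tc e1 φ x)ᵀ * Tc e1 φ x)).trace ∂S.ν with hv
  have g0 : 0 ≤ g := integral_nonneg fun x => Finset.sum_nonneg fun k _ => NB152.hs_nonneg _
  have g2 : g ≤ 2 * I := by nlinarith
  -- rigidity
  have r1 := rig_int S e1_pos hφ hφs (K := 1 + ε) (δ := ε * S.I) (e := ε) (D := S.I) (κ := κ)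
    (θ := 1 / 1000) (by positivity) κ_pos (by norm_num) (hRG n ε S ε_one)
  have r2 := hB_le S hφ hφs (θ := 1 / 1000) (by norm_num)
  have r3 := hT_le S e1_pos hφ hφs
  have r4 : 0 ≤ ∫ x, hs (Tc e1 φ x) ∂S.ν := integral_nonneg fun x => NB152.hs_nonneg _
  rw [hIn] at r1
  obtain ⟨t1, t2⟩ := num_rig hI ε_pos e1_pos hκ ε_le εκ e1_le hd0 hd1 S.S2 r4 r3 g2 r2 r1
  -- end game
  obtain ⟨s1, s2⟩ := hS_ge S e1_pos hφ hφs
  have s3 := gS_le S e1 hφ hφs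
  have s4 := VS_le S e1_pos hφ hφs
  have s5 : 0 ≤ ∫ x, ∑ k, hs (pdM k (Sc e1 φ) x) ∂S.ν :=
    integral_nonneg fun x => Finset.sum_nonneg fun k _ => NB152.hs_nonneg _
  have s6 : 2 * S.h * v + 2 * S.dist1 φ ≤ 2 * ε * ((1 + C * (ρ + e1)) * I) + 2 * S.dist1 φ := by
    have h1 : v ≤ (1 + C * (ρ + e1)) * I := by linarith
    have h2 : S.h * v ≤ ε * ((1 + C * (ρ + e1)) * I) := mul_le_mul S.h_le h1 vt0 ε_pos.le
    linarith
  obtain ⟨BV, hBV⟩ := S.V2_bdd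
  have hPc : ∀ i j, Continuous fun x => (1 - S.h • S.V2 x) i j := fun i j => by
    simp only [Matrix.sub_apply, Matrix.smul_apply, smul_eq_mul]
    exact continuous_const.sub (continuous_const.mul (S.V2_cont i j))
  have hPb : ∀ x i j, |(1 - S.h • S.V2 x) i j| ≤ 1 + S.h * BV := fun x i j => by
    simp only [Matrix.sub_apply, Matrix.smul_apply, smul_eq_mul]
    refine (abs_sub _ _).trans (add_le_add ?_ ?_)
    · by_cases hij : i = j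
      · subst hij; simp
      · simp [Matrix.one_apply_ne hij]
    · rw [abs_mul, abs_of_pos S.h_pos]
      exact mul_le_mul_of_nonneg_left (hBV x i j) S.h_pos.le
  have hP1 : ∀ x, LeQ (1 - S.h • S.V2 x) 1 := fun x u => by
    have := S.V2_nonneg x u
    simp only [zero_mulVec, dotProduct_zero] at this
    rw [Matrix.sub_mulVec, dotProduct_sub, smul_mulVec, dotProduct_smul, smul_eq_mul]
    have := mul_nonneg S.h_pos.le this
    linarith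
  have hA : ∀ x, (Sc e1 φ x * Sc e1 φ x * (Sc e1 φ x * Sc e1 φ x)).trace ≤
      e1 ^ 2 * (Sc e1 φ x * Sc e1 φ x).trace := fun x =>
    sy_four (Clip78.cFt_le e1_pos _) (Clip78.cFt_le' e1_pos _)
  set l1 : ℝ := max 1 (800 * n / I) with hl1
  have l1_one : 1 ≤ l1 := le_max_left _ _
  have l1_pos : 0 < l1 := by linarith
  have hr : 2 * (n * (20 : ℝ) ^ 2 / l1) ≤ I := by
    have h1 : 800 * n / I ≤ l1 := le_max_right _ _
    rw [div_le_iff₀ hI] at h1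
    have : 2 * (n * (20 : ℝ) ^ 2 / l1) = 800 * n / l1 := by ring
    rw [this, div_le_iff₀ l1_pos]
    linarith
  have asm := Ch150.assembly S.ν (S := Sc e1 φ) (P := fun x => 1 - S.h • S.V2 x)
    (Sc_cb e1 hφ hφs) (Sc_symm e1) hPc hPb hP1 (K := 1 + ε) (D := S.I) (δ := ε * S.I) (e2 := ε)
    (N := 10 ^ 6) (a := 20) (l0 := 1) (l1 := l1) (A := e1) (by norm_num) one_pos l1_one
    (by positivity) hI.le (by positivity) ε_pos.le (by norm_num) hA (fun l hl => by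
      have hl0 : 0 ≤ l := zero_le_one.trans hl.1
      have cb := Ch150.cb_Ql (Sc_cb e1 hφ hφs) (Sc_symm e1) (a := 20) (by norm_num) hl0
      exact hNS n ε S ε_one (fun x => Ch150.Ql 20 l (Sc e1 φ x)) (fun i j => cb (i, j))
        (fun x => Ch150.Ql_symm (Sc_symm e1 x) hl0) 20 (by norm_num)
        (fun x => (Ch150.Ql_bounds (Sc_symm e1 x) (by norm_num) hl0).2.2.1) (10 ^ 6)
        (by norm_num))
  exact num_end hI ε_pos ε_le e1_pos e1_le hC' hd0 hd1 t1 t2 s1 s2 (s3.trans (by linarith)) s5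
    (s4.trans s6) hr asm

end Crest.Agent.R201.Top674
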