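import Crest.Agent.R201.An14_293
import Crest.Agent.R201.NSL2_674
import Crest.Agent.R201.DVQ_402

/-!
# R201 (S0308): log-Laplace of posteriors, and `C_LS(X) ≤ s + C_LS(X + √s G)`  (helper402)

`LS ρ K` : `Ent_ρ(f) ≤ (K/2) E_ρ |Df|²/f` for `f ∈ CB`, `f ≥ c > 0`.

* `post_laplace` : `E[exp ⟨t,X⟩ | Y = y] ≤ exp (⟨t, E[X|y]⟩ + s |t|²/2)` for log-concave `X`.
* `post_ent`     : `Ent(f | Y = y) ≤ (s/2) E[|Df|²/f | Y = y]`.
* `post_cov_ent` : `|Cov(f, X | y)|² ≤ 2 s E[f|y] Ent(f|y)`.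
* `post_grad`    : `|D E[f|y]|² ≤ E[f|y] E[|Df|²/f | y]`.
* `LS_of_noisy`  : `LS (law of X + √s G) K → LS (law of X) (K + s)`.
-/

set_option autoImplicit false
open MeasureTheory Matrix Filter Topology
open scoped ContDiff RealInnerProductSpace NNReal

namespace Crest.Agent.R201.Noi402

open Crest.Agent.R201 Crest.Agent.R144.Fi865 Crest.Agent.R201.An Crest.Agent.R201.DVQ402

variable {n : ℕ} {w ρ F G f : E n → ℝ} {s c K : ℝ}

/-- log-Sobolev inequality, density form, for the probability `ρ / ∫ ρ` -/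
def LS (ρ : E n → ℝ) (K : ℝ) : Prop :=
  ∀ f : E n → ℝ, CB f → (∃ c > 0, ∀ x, c ≤ f x) →
    Em ρ (fun x => f x * Real.log (f x)) - Em ρ f * Real.log (Em ρ f) ≤
      K / 2 * Em ρ (fun x => ‖fderiv ℝ f x‖ ^ 2 / f x)

/-! ### convexity of the potential and the posterior Laplace transform -/

/-- first-order convexity from a positive semidefinite Hessian -/
theorem first_order {V : E n → ℝ} {g : Fin n → E n → ℝ} {H : E n → Mt n}
    (hV : Differentiable ℝ V) (h1 : ∀ k x, pd k V x = g k x) (hg : ∀ k, Differentiable ℝ (g k))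
    (h2 : ∀ l k x, pd l (g k) x = H x l k) (hH : ∀ x, LeQ 0 (H x)) (x v : E n) :
    V x + ∑ k, v k * g k x ≤ V (x + v) := by
  set φ : ℝ → ℝ := fun t => V (x + t • v) with hφ
  set ψ : ℝ → ℝ := fun t => ∑ k, v k * g k (x + t • v) with hψ
  have d1 : ∀ t, HasDerivAt φ (ψ t) t := fun t => by
    have := line_deriv hV x v t
    simp only [h1] at this
    exact this
  have d2 : ∀ t, HasDerivAt ψ (∑ k, v k * ∑ l, v l * H (x + t • v) l k) t := fun t => by
    have h3 : ∀ k ∈ Finset.univ, HasDerivAt (fun t => v k * g k (x + t • v))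
        (v k * ∑ l, v l * H (x + t • v) l k) t := fun k _ => by
      have := (line_deriv (hg k) x v t).const_mul (v k)
      simp only [h2] at this
      exact this
    have h4 := HasDerivAt.fun_sum h3
    exact h4
  have hmono : Monotone ψ := by
    refine monotone_of_deriv_nonneg (fun t => (d2 t).differentiableAt) fun t => ?_
    rw [(d2 t).deriv]
    have := hH (x + t • v) (v : Fin n → ℝ)
    simp only [Matrix.zero_mulVec, dotProduct_zero] at this
    refine this.trans (le_of_eq ?_)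
    simp only [dotProduct, Matrix.mulVec, Finset.mul_sum]
    rw [Finset.sum_comm]
    refine Finset.sum_congr rfl fun k _ => Finset.sum_congr rfl fun l _ => ?_
    ring
  obtain ⟨ξ, hξ, e⟩ := exists_hasDerivAt_eq_slope φ ψ one_pos
    (fun t _ => (d1 t).continuousAt.continuousWithinAt) fun t _ => d1 t
  have h5 : ψ 0 ≤ ψ ξ := hmono hξ.1.le
  rw [e] at h5
  simp only [hφ, hψ, zero_smul, add_zero, one_smul, sub_zero, div_one] at h5
  linarith

/-- first-order convexity of the potential of `X + √s G` -/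
theorem Vp_conv (hw : Ex w) (hc : 0 ≤ c) (h : SLC c w) (hs : 0 < s) (y v : E n) :
    Vp w s y + ∑ k, v k * Vg w s k y ≤ Vp w s (y + v) := by
  refine first_order (H := Vh w s) ((Vp_contDiff hw hs).differentiable (by simp))
    (fun k x => pd_Vp hw hs k x) (fun k => (Vg_contDiff hw hs k).differentiable (by simp))
    (fun l k x => pd_Vg hw hs l k x) (fun x u => ?_) y v
  have h1 := Vh_ge hw hc h hs x u
  refine le_trans ?_ h1
  simp only [Matrix.zero_mulVec, dotProduct_zero, Matrix.smul_mulVec, Matrix.one_mulVec,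
    dotProduct_smul, smul_eq_mul]
  have : 0 ≤ u ⬝ᵥ u := Finset.sum_nonneg fun i _ => mul_self_nonneg _
  positivity

lemma EG_exp_inner (t : E n) : EG fun x : E n => Real.exp ⟪t, x⟫ := by
  refine ⟨by fun_prop, 1, ‖t‖, zero_le_one, norm_nonneg _, fun x => ?_⟩
  rw [abs_of_pos (Real.exp_pos _), one_mul]
  exact Real.exp_le_exp.2 (real_inner_le_norm _ _)

/-- exponential tilt = shift of the observation -/
lemma Lp_exp_inner (hs : 0 < s) (t y : E n) :
    Lp w s (fun x => Real.exp ⟪t, x⟫) y =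
      Real.exp (⟪t, y⟫ + s * ‖t‖ ^ 2 / 2) * Lp w s (fun _ => 1) (y + s • t) := by
  unfold An.Lp
  rw [← integral_const_mul]
  refine integral_congr_ae (ae_of_all _ fun x => ?_)
  simp only [one_mul]
  have e : Real.exp ⟪t, x⟫ * gk s (y - x) =
      Real.exp (⟪t, y⟫ + s * ‖t‖ ^ 2 / 2) * gk s (y + s • t - x) := by
    unfold gk
    rw [← Real.exp_add, ← Real.exp_add]
    congr 1
    have e1 : y + s • t - x = (y - x) + s • t := by abel
    rw [e1, norm_add_sq_real, norm_smul, Real.norm_of_nonneg hs.le, real_inner_smul_right,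
      inner_sub_left, real_inner_comm t y, real_inner_comm t x]
    field_simp
    ring
  calc Real.exp ⟪t, x⟫ * (w x * gk s (y - x)) = w x * (Real.exp ⟪t, x⟫ * gk s (y - x)) := by ring
    _ = _ := by rw [e]; ring

/-- **posterior Laplace transform** -/
theorem post_laplace (hw : Ex w) (hc : 0 ≤ c) (h : SLC c w) (hs : 0 < s) (t y : E n) :
    pE w s (fun x => Real.exp ⟪t, x⟫) y ≤
      Real.exp ((∑ k, t k * pE w s (fun x => x k) y) + s * ‖t‖ ^ 2 / 2) := by
  have p1 := Lp_one_pos hw hs y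
  have p2 := Lp_one_pos hw hs (y + s • t)
  have hconv := Vp_conv hw hc h hs y (s • t)
  unfold pE
  rw [Lp_exp_inner hs, div_le_iff₀ p1]
  have e1 : Lp w s (fun _ => 1) (y + s • t) = Real.exp (-Vp w s (y + s • t)) := by
    unfold Vp; rw [neg_neg, Real.exp_log p2]
  have e2 : Lp w s (fun _ => 1) y = Real.exp (-Vp w s y) := by
    unfold Vp; rw [neg_neg, Real.exp_log p1]
  have e3 : (∑ k, t k * (Lp w s (fun x => x k) y / Lp w s (fun _ => 1) y)) =
      ∑ k, t k * pE w s (fun x => x k) y := rfl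
  rw [e3, e1]
  conv_rhs => rw [e2]
  rw [← Real.exp_add, ← Real.exp_add]
  apply Real.exp_le_exp.2
  have e4 : ∑ k, (s • t) k * Vg w s k y = ⟪t, y⟫ - ∑ k, t k * pE w s (fun x => x k) y := by
    rw [PiLp.inner_apply, ← Finset.sum_sub_distrib]
    refine Finset.sum_congr rfl fun k _ => ?_
    unfold Vg
    simp only [PiLp.smul_apply, smul_eq_mul, RCLike.inner_apply, conj_trivial]
    field_simp
  rw [e4] at hconv
  linarith

/-! ### functions bounded below -/

/-- the test class -/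
structure Pos (f : E n → ℝ) (c B : ℝ) : Prop where
  cb : CB f
  c_pos : 0 < c
  ge : ∀ x, c ≤ f x
  le : ∀ x, f x ≤ B
  dle : ∀ x, ‖fderiv ℝ f x‖ ≤ B

lemma exists_pos {f : E n → ℝ} (hf : CB f) (h : ∃ c > 0, ∀ x, c ≤ f x) :
    ∃ c B, Pos f c B := by
  obtain ⟨c, hc, h0⟩ := h
  obtain ⟨B, hB⟩ := hf.2
  obtain ⟨L, hL⟩ := cb_lip hf
  refine ⟨c, max B L, hf, hc, h0, fun x => ?_, fun x => ?_⟩
  · exact (le_abs_self _).trans ((hB x).1.trans (le_max_left _ _))
  · exact (norm_fderiv_le_of_lipschitz ℝ hL).trans (le_max_right _ _)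

namespace Pos

variable {B : ℝ} (hf : Pos f c B)
include hf

lemma pos (x : E n) : 0 < f x := hf.c_pos.trans_le (hf.ge x)

lemma B_pos : 0 < B := (hf.pos 0).trans_le (hf.le 0)

lemma cont : Continuous f := hf.cb.1.continuous

lemma eg : EG f := EG.of_bdd hf.cont.measurable (C := B) fun x => by
  rw [abs_of_pos (hf.pos x)]; exact hf.le x

lemma cont_log : Continuous fun x => Real.log (f x) := hf.cont.log fun x => (hf.pos x).ne'

lemma log_bdd (x : E n) : |Real.log (f x)| ≤ max |Real.log c| |Real.log B| := by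
  have h1 : Real.log c ≤ Real.log (f x) := Real.log_le_log hf.c_pos (hf.ge x)
  have h2 : Real.log (f x) ≤ Real.log B := Real.log_le_log (hf.pos x) (hf.le x)
  exact abs_le_max_abs_abs h1 h2

lemma flogf_bdd (x : E n) : |f x * Real.log (f x)| ≤ B * max |Real.log c| |Real.log B| := by
  rw [abs_mul, abs_of_pos (hf.pos x)]
  exact mul_le_mul (hf.le x) (hf.log_bdd x) (abs_nonneg _) hf.B_pos.le

lemma flogf_cont : Continuous fun x => f x * Real.log (f x) := hf.cont.mul hf.cont_log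

lemma eg_flogf : EG fun x => f x * Real.log (f x) :=
  EG.of_bdd hf.flogf_cont.measurable hf.flogf_bdd

lemma fi_cont : Continuous fun x => ‖fderiv ℝ f x‖ ^ 2 / f x :=
  ((hf.cb.1.continuous_fderiv (by simp)).norm.pow 2).div hf.cont fun x => (hf.pos x).ne'

lemma fi_nonneg (x : E n) : 0 ≤ ‖fderiv ℝ f x‖ ^ 2 / f x :=
  div_nonneg (sq_nonneg _) (hf.pos x).le

lemma fi_bdd (x : E n) : |‖fderiv ℝ f x‖ ^ 2 / f x| ≤ B ^ 2 / c := by
  rw [abs_of_nonneg (hf.fi_nonneg x)]
  exact div_le_div₀ (sq_nonneg _) (pow_le_pow_left₀ (norm_nonneg _) (hf.dle x) 2) hf.c_pos (hf.ge x)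

lemma eg_fi : EG fun x => ‖fderiv ℝ f x‖ ^ 2 / f x :=
  EG.of_bdd hf.fi_cont.measurable hf.fi_bdd

end Pos

/-! ### posterior entropy -/

/-- posterior entropy of `f` -/
noncomputable def pEnt (w : E n → ℝ) (s : ℝ) (f : E n → ℝ) (y : E n) : ℝ :=
  pE w s (fun x => f x * Real.log (f x)) y - pE w s f y * Real.log (pE w s f y)

/-- **posterior log-Sobolev inequality** -/
theorem post_ent {c' B : ℝ} (hw : Ex w) (hc : 0 ≤ c) (h : SLC c w) (hs : 0 < s)
    (hf : Pos f c' B) (y : E n) :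
    pEnt w s f y ≤ s / 2 * pE w s (fun x => ‖fderiv ℝ f x‖ ^ 2 / f x) y := by
  set W : E n → ℝ := fun x => w x * gk s (y - x) with hW
  have hl : 0 < c + 1 / s := by positivity
  have p1 := Lp_one_pos hw hs y
  have hZ : Lp w s (fun _ => 1) y = ∫ x, W x := by
    unfold An.Lp; simp only [one_mul, hW]
  have mW : Measurable W :=
    hw.meas.mul ((gk_cont (n := n) s).measurable.comp (measurable_const.sub measurable_id))
  have key := NSL674.lsi_pos (W := W) hl (fun x => mul_nonneg (hw.nonneg x) (gk_pos s _).le) mW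
    (by simpa using hw.int_Lp hs (EG.const 1) y) (by rw [← hZ]; exact p1)
    (slc_post hs hw.nonneg h y) hf.cb.1 hf.c_pos hf.ge hf.le hf.dle
  have e1 : (∫ x, f x * Real.log (f x) * W x) = Lp w s (fun x => f x * Real.log (f x)) y := rfl
  have e2 : (∫ x, f x * W x) = Lp w s f y := rfl
  have e3 : (∫ x, ‖fderiv ℝ f x‖ ^ 2 / f x * W x) =
      Lp w s (fun x => ‖fderiv ℝ f x‖ ^ 2 / f x) y := rfl
  rw [e1, e2, e3, ← hZ] at key
  have hfi : 0 ≤ Lp w s (fun x => ‖fderiv ℝ f x‖ ^ 2 / f x) y := Lp_nonneg hw hf.fi_nonneg y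
  have hk : (2 * (c + 1 / s))⁻¹ ≤ s / 2 := by
    rw [inv_le_comm₀ (by positivity) (by positivity)]
    have : (s / 2)⁻¹ = 2 * (1 / s) := by field_simp
    rw [this]
    linarith
  have key2 := key.trans (mul_le_mul_of_nonneg_right hk hfi)
  unfold pEnt pE
  rw [← sub_nonneg] at key2 ⊢
  have e4 : s / 2 * (Lp w s (fun x => ‖fderiv ℝ f x‖ ^ 2 / f x) y / Lp w s (fun _ => 1) y) -
      (Lp w s (fun x => f x * Real.log (f x)) y / Lp w s (fun _ => 1) y -
        Lp w s f y / Lp w s (fun _ => 1) y * Real.log (Lp w s f y / Lp w s (fun _ => 1) y)) =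
      (s / 2 * Lp w s (fun x => ‖fderiv ℝ f x‖ ^ 2 / f x) y -
        (Lp w s (fun x => f x * Real.log (f x)) y -
          Lp w s f y * Real.log (Lp w s f y / Lp w s (fun _ => 1) y))) /
        Lp w s (fun _ => 1) y := by
    field_simp
  rw [e4]
  exact div_nonneg key2 p1.le

/-- `|Cov(f, X | y)|² ≤ 2 s E[f|y] Ent(f|y)` -/
theorem post_cov_ent {c' B : ℝ} (hw : Ex w) (hc : 0 ≤ c) (h : SLC c w) (hs : 0 < s)
    (hf : Pos f c' B) (y : E n) :
    ∑ k, (pE w s (fun x => f x * x k) y - pE w s f y * pE w s (fun x => x k) y) ^ 2 ≤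
      2 * s * pE w s f y * pEnt w s f y := by
  set m : Fin n → ℝ := fun k => pE w s (fun x => x k) y with hm
  set Fy := pE w s f y with hFy
  set C : Fin n → ℝ := fun k => pE w s (fun x => f x * x k) y - Fy * m k with hC
  have hFpos : 0 < Fy := by
    have := pE_mono hw hs (EG.const c') hf.eg hf.ge y
    rw [pE_const hw hs] at this
    exact hf.c_pos.trans_le this
  set t : E n := WithLp.toLp 2 fun k => (s * Fy)⁻¹ * C k with ht
  have hlap := post_laplace hw hc h hs t y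
  set c0 := (∑ k, t k * m k) + s * ‖t‖ ^ 2 / 2 with hc0
  -- pointwise Young
  have young' : ∀ x, (⟪t, x⟫ - c0 + Real.log Fy) * f x ≤
      f x * Real.log (f x) - f x + Real.exp (-c0) * Fy * Real.exp ⟪t, x⟫ := by
    intro x
    refine (young (⟪t, x⟫ - c0 + Real.log Fy) (hf.pos x).le).trans (le_of_eq ?_)
    rw [Real.exp_add, Real.exp_log hFpos, Real.exp_sub, Real.exp_neg]
    field_simp
  have egin : EG fun x : E n => ⟪t, x⟫ := by
    have e : (fun x : E n => ⟪t, x⟫) = fun x => ∑ k, t k * x k := by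
      funext x
      rw [PiLp.inner_apply]
      exact Finset.sum_congr rfl fun k _ => by simp [mul_comm]
    rw [e]
    exact EG.sum _ fun k _ => (EG.coord k).smul _
  have egl : EG fun x => (⟪t, x⟫ - c0 + Real.log Fy) * f x :=
    ((egin.sub (EG.const c0)).add (EG.const _)).mul hf.eg
  have egr : EG fun x => f x * Real.log (f x) - f x + Real.exp (-c0) * Fy * Real.exp ⟪t, x⟫ :=
    (hf.eg_flogf.sub hf.eg).add ((EG_exp_inner t).smul _)
  have key := pE_mono hw hs egl egr young' y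
  rw [pE_add hw hs (hf.eg_flogf.sub hf.eg) ((EG_exp_inner t).smul _),
    pE_sub hw hs hf.eg_flogf hf.eg, pE_smul] at key
  have eL : pE w s (fun x => (⟪t, x⟫ - c0 + Real.log Fy) * f x) y =
      (∑ k, t k * pE w s (fun x => f x * x k) y) + (Real.log Fy - c0) * Fy := by
    have e : (fun x : E n => (⟪t, x⟫ - c0 + Real.log Fy) * f x) =
        fun x => (∑ k, t k * (f x * x k)) + (Real.log Fy - c0) * f x := by
      funext x
      rw [PiLp.inner_apply]
      have : ∑ k, t k * (f x * x k) = (∑ k, t k * x k) * f x := by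
        rw [Finset.sum_mul]
        exact Finset.sum_congr rfl fun k _ => by ring
      rw [this]
      have : (∑ i, inner ℝ (t i) (x i)) = ∑ k, t k * x k :=
        Finset.sum_congr rfl fun k _ => by simp [mul_comm]
      rw [this]
      ring
    rw [e, pE_add hw hs (EG.sum _ fun k _ => (hf.eg.mul (EG.coord k)).smul _) (hf.eg.smul _),
      pE_sum _ hw hs fun k _ => (hf.eg.mul (EG.coord k)).smul _, pE_smul]
    simp only [pE_smul]
    rfl
  rw [eL] at key
  have h1 : Real.exp (-c0) * Fy * pE w s (fun x => Real.exp ⟪t, x⟫) y ≤ Fy := by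
    calc Real.exp (-c0) * Fy * pE w s (fun x => Real.exp ⟪t, x⟫) y
        ≤ Real.exp (-c0) * Fy * Real.exp c0 := by gcongr
      _ = Fy * (Real.exp (-c0) * Real.exp c0) := by ring
      _ = Fy := by rw [← Real.exp_add]; simp
  -- the sum
  set S := ∑ k, C k ^ 2 with hS
  have e2 : ‖t‖ ^ 2 = ((s * Fy)⁻¹) ^ 2 * S := by
    rw [EuclideanSpace.norm_sq_eq, hS, Finset.mul_sum]
    refine Finset.sum_congr rfl fun k _ => ?_
    simp only [ht, Real.norm_eq_abs, sq_abs]
    ring
  have e3 : (∑ k, t k * pE w s (fun x => f x * x k) y) - Fy * ∑ k, t k * m k = (s * Fy)⁻¹ * S := by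
    rw [Finset.mul_sum, ← Finset.sum_sub_distrib, hS, Finset.mul_sum]
    refine Finset.sum_congr rfl fun k _ => ?_
    simp only [ht, hC]
    ring
  have h2 : (s * Fy)⁻¹ * S - Fy * (s * (((s * Fy)⁻¹) ^ 2 * S) / 2) ≤ pEnt w s f y := by
    unfold pEnt
    rw [← hFy, ← e2, ← e3]
    have : (Real.log Fy - c0) * Fy = Fy * Real.log Fy - Fy * c0 := by ring
    rw [this, hc0] at key
    nlinarith [key, h1]
  have e4 : (s * Fy)⁻¹ * S - Fy * (s * (((s * Fy)⁻¹) ^ 2 * S) / 2) = (2 * s * Fy)⁻¹ * S := by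
    field_simp
    ring
  rw [e4, inv_mul_le_iff₀ (by positivity)] at h2
  exact h2

/-- `|D E[f|y]|² ≤ E[f|y] E[|Df|²/f | y]` -/
theorem post_grad {c' B : ℝ} (hw : Ex w) (hc : 0 ≤ c) (h : SLC c w) (hs : 0 < s)
    (hf : Pos f c' B) (y : E n) :
    ∑ k, pd k (pE w s f) y ^ 2 ≤ pE w s f y * pE w s (fun x => ‖fderiv ℝ f x‖ ^ 2 / f x) y := by
  have h1 := post_cov_ent hw hc h hs hf y
  have h2 := post_ent hw hc h hs hf y
  have hF0 : 0 ≤ pE w s f y := pE_nonneg hw hs (fun x => (hf.pos x).le) y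
  have e : ∑ k, pd k (pE w s f) y ^ 2 = (∑ k, (pE w s (fun x => f x * x k) y -
      pE w s f y * pE w s (fun x => x k) y) ^ 2) / s ^ 2 := by
    rw [Finset.sum_div]
    refine Finset.sum_congr rfl fun k _ => ?_
    rw [pd_pE hw hs hf.eg, div_pow]
  rw [e, div_le_iff₀ (by positivity)]
  refine h1.trans ?_
  have := mul_le_mul_of_nonneg_left h2 (by positivity : 0 ≤ 2 * s * pE w s f y)
  refine this.trans (le_of_eq ?_)
  ring

/-- the posterior mean stays in the class -/
theorem Pos.pE {c' B : ℝ} (hw : Ex w) (hc : 0 ≤ c) (h : SLC c w) (hs : 0 < s)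
    (hf : Pos f c' B) : CB (An.pE w s f) ∧ ∀ y, c' ≤ An.pE w s f y := by
  refine ⟨CB_pE hw hc h hs hf.cont.measurable (B := B) fun x => by
    rw [abs_of_pos (hf.pos x)]; exact hf.le x, fun y => ?_⟩
  have := pE_mono hw hs (EG.const c') hf.eg hf.ge y
  rwa [pE_const hw hs] at this

/-- **`C_LS(X) ≤ s + C_LS(X + √s G)`** -/
theorem LS_of_noisy (hw : Ex w) (hc : 0 ≤ c) (h : SLC c w) (hs : 0 < s) (hK : 0 ≤ K)
    (hL : LS (Lp w s fun _ => 1) K) : LS w (K + s) := by
  intro f hfcb hfc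
  obtain ⟨c', B, hf⟩ := exists_pos hfcb hfc
  have hρ := hw.noisy hs
  obtain ⟨hgcb, hgc⟩ := hf.pE hw hc h hs
  obtain ⟨c'', B'', hg⟩ := exists_pos hgcb ⟨c', hf.c_pos, hgc⟩
  have k1 := hL _ hgcb ⟨c', hf.c_pos, hgc⟩
  rw [Em_pE hw hs hf.eg] at k1
  -- Fisher term
  have egpfi : EG (pE w s fun x => ‖fderiv ℝ f x‖ ^ 2 / f x) :=
    (CB.eg (CB_pE hw hc h hs hf.fi_cont.measurable hf.fi_bdd)).1
  have k2 : Em (Lp w s fun _ => 1) (fun y => ‖fderiv ℝ (pE w s f) y‖ ^ 2 / pE w s f y) ≤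
      Em w (fun x => ‖fderiv ℝ f x‖ ^ 2 / f x) := by
    rw [← Em_pE hw hs hf.eg_fi]
    refine Em_mono hρ hg.eg_fi egpfi fun y => ?_
    rw [div_le_iff₀ (hg.pos y), norm_fderiv_sq, mul_comm]
    exact post_grad hw hc h hs hf y
  -- entropy inside
  have egpfl : EG (pE w s fun x => f x * Real.log (f x)) :=
    (CB.eg (CB_pE hw hc h hs hf.flogf_cont.measurable hf.flogf_bdd)).1
  have k3 : Em w (fun x => f x * Real.log (f x)) -
      Em (Lp w s fun _ => 1) (fun y => pE w s f y * Real.log (pE w s f y)) ≤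
      s / 2 * Em w (fun x => ‖fderiv ℝ f x‖ ^ 2 / f x) := by
    rw [← Em_pE hw hs hf.eg_flogf, ← Em_pE hw hs hf.eg_fi, ← Em_sub hρ egpfl hg.eg_flogf,
      ← Em_smul]
    exact Em_mono hρ (egpfl.sub hg.eg_flogf) (egpfi.smul _) fun y =>
      post_ent hw hc h hs hf y
  have k4 := mul_le_mul_of_nonneg_left k2 (by positivity : 0 ≤ K / 2)
  have e : (K + s) / 2 * Em w (fun x => ‖fderiv ℝ f x‖ ^ 2 / f x) =
      K / 2 * Em w (fun x => ‖fderiv ℝ f x‖ ^ 2 / f x) +
        s / 2 * Em w (fun x => ‖fderiv ℝ f x‖ ^ 2 / f x) := by ring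
  rw [e]
  linarith

end Crest.Agent.R201.Noi402
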