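import Crest.Agent.R201.El5_593
import Crest.Agent.R201.Ch6_150
import Crest.Agent.R201.Clip5_78

/-!
# R201 (S0308), NoState assembly, part 1: matrix and integral lemmas (helper674)
-/

set_option autoImplicit false
open MeasureTheory Matrix
open scoped ContDiff

namespace Crest.Agent.R201.Top674

open Crest.Agent.R201 Crest.Agent.R201.El593 Crest.Agent.R201.Tw807

variable {n : ℕ}

/-! ### matrices -/

/-- symmetric part -/
noncomputable def sy (T : Mt n) : Mt n := (1 / 2 : ℝ) • (T + Tᵀ)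

theorem sy_symm (T : Mt n) : (sy T)ᵀ = sy T := by
  rw [sy, transpose_smul, transpose_add, transpose_transpose, add_comm]

theorem sy_apply (T : Mt n) (i j : Fin n) : sy T i j = 1 / 2 * (T i j + T j i) := by
  simp [sy]

theorem hs_swap (T : Mt n) : ∑ i, ∑ j, T j i ^ 2 = hs T := by
  rw [Finset.sum_comm]; rfl

theorem hs_sy (T : Mt n) : hs (sy T) = hs T - 1 / 4 * hs (T - Tᵀ) := by
  have h1 : hs (sy T) + 1 / 4 * hs (T - Tᵀ) = 1 / 2 * hs T + 1 / 2 * ∑ i, ∑ j, T j i ^ 2 := by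
    simp only [hs, sy_apply, Matrix.sub_apply, transpose_apply, Finset.mul_sum,
      ← Finset.sum_add_distrib]
    exact Finset.sum_congr rfl fun i _ => Finset.sum_congr rfl fun j _ => by ring
  rw [hs_swap] at h1
  linarith

theorem hs_sy_sub (T : Mt n) : hs (sy T - T) = 1 / 4 * hs (T - Tᵀ) := by
  simp only [hs, sy_apply, Matrix.sub_apply, transpose_apply, Finset.mul_sum]
  exact Finset.sum_congr rfl fun i _ => Finset.sum_congr rfl fun j _ => by ring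

theorem tr_form (V X : Mt n) : (V * (Xᵀ * X)).trace = ∑ i, (X i) ⬝ᵥ (V *ᵥ (X i)) := by
  simp only [Matrix.trace, Matrix.diag_apply, Matrix.mul_apply, Matrix.transpose_apply,
    dotProduct, Matrix.mulVec, Finset.mul_sum]
  have h : ∀ i : Fin n, ∑ k, ∑ j, V i k * (X j k * X j i) = ∑ j, ∑ k, V i k * (X j k * X j i) :=
    fun i => Finset.sum_comm
  simp only [h]
  rw [Finset.sum_comm]
  exact Finset.sum_congr rfl fun j _ => Finset.sum_congr rfl fun i _ =>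
    Finset.sum_congr rfl fun k _ => by ring

theorem quad_two {V : Mt n} (h0 : LeQ 0 V) (h1 : LeQ V 1) (x y : Fin n → ℝ) :
    x ⬝ᵥ (V *ᵥ x) ≤ 2 * (y ⬝ᵥ (V *ᵥ y)) + 2 * ((x - y) ⬝ᵥ (x - y)) := by
  have a1 := h0 (x - (2 : ℝ) • y)
  have a2 := h1 (x - y)
  simp only [zero_mulVec, dotProduct_zero, one_mulVec, Matrix.mulVec_sub, Matrix.mulVec_smul,
    sub_dotProduct, dotProduct_sub, smul_dotProduct, dotProduct_smul, smul_eq_mul] at a1 a2 ⊢
  linarith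

/-- `tr V S² ≤ 2 tr V TᵀT + 2 |S - T|²` -/
theorem tr_VS {V S T : Mt n} (h0 : LeQ 0 V) (h1 : LeQ V 1) (hS : Sᵀ = S) :
    (V * (S * S)).trace ≤ 2 * (V * (Tᵀ * T)).trace + 2 * hs (S - T) := by
  have e : S * S = Sᵀ * S := by rw [hS]
  rw [e, tr_form, tr_form, hs, Finset.mul_sum, Finset.mul_sum, ← Finset.sum_add_distrib]
  refine Finset.sum_le_sum fun i _ => ?_
  have := quad_two h0 h1 (S i) (T i)
  have e2 : (S i - T i) ⬝ᵥ (S i - T i) = ∑ j, (S - T) i j ^ 2 := by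
    simp only [dotProduct, Pi.sub_apply, Matrix.sub_apply, sq]
  rw [e2] at this
  exact this

theorem tr_VT_nonneg {V : Mt n} (h0 : LeQ 0 V) (T : Mt n) : 0 ≤ (V * (Tᵀ * T)).trace := by
  rw [tr_form]
  refine Finset.sum_nonneg fun i _ => ?_
  have := h0 (T i)
  simpa using this

theorem dot_mv (X : Mt n) (u : Fin n → ℝ) : u ⬝ᵥ ((Xᵀ * X) *ᵥ u) = (X *ᵥ u) ⬝ᵥ (X *ᵥ u) := by
  rw [← Matrix.mulVec_mulVec, Matrix.dotProduct_mulVec, Matrix.vecMul_transpose]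

/-- `(sy T)² ≤ e²` -/
theorem sy_sq_le {e : ℝ} {T : Mt n} (h1 : LeQ (T * Tᵀ) (e ^ 2 • (1 : Mt n)))
    (h2 : LeQ (Tᵀ * T) (e ^ 2 • (1 : Mt n))) : LeQ (sy T * sy T) (e ^ 2 • (1 : Mt n)) := by
  intro u
  have a1 := h1 u
  have a2 := h2 u
  have e0 : u ⬝ᵥ ((sy T * sy T) *ᵥ u) = (sy T *ᵥ u) ⬝ᵥ (sy T *ᵥ u) := by
    have := dot_mv (sy T) u
    rwa [sy_symm] at this
  have e1 : u ⬝ᵥ ((T * Tᵀ) *ᵥ u) = (Tᵀ *ᵥ u) ⬝ᵥ (Tᵀ *ᵥ u) := by
    have := dot_mv Tᵀ u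
    rwa [transpose_transpose] at this
  have e2 : u ⬝ᵥ ((Tᵀ * T) *ᵥ u) = (T *ᵥ u) ⬝ᵥ (T *ᵥ u) := dot_mv T u
  rw [e0]
  rw [e1] at a1
  rw [e2] at a2
  have e3 : sy T *ᵥ u = (1 / 2 : ℝ) • (T *ᵥ u + Tᵀ *ᵥ u) := by
    rw [sy, smul_mulVec, Matrix.add_mulVec]
  rw [e3]
  have a3 : 0 ≤ (T *ᵥ u - Tᵀ *ᵥ u) ⬝ᵥ (T *ᵥ u - Tᵀ *ᵥ u) :=
    Finset.sum_nonneg fun i _ => mul_self_nonneg _
  simp only [smul_dotProduct, dotProduct_smul, smul_eq_mul, add_dotProduct, dotProduct_add,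
    sub_dotProduct, dotProduct_sub] at a3 ⊢
  linarith

theorem sy_four {e : ℝ} {T : Mt n} (h1 : LeQ (T * Tᵀ) (e ^ 2 • (1 : Mt n)))
    (h2 : LeQ (Tᵀ * T) (e ^ 2 • (1 : Mt n))) :
    (sy T * sy T * (sy T * sy T)).trace ≤ e ^ 2 * (sy T * sy T).trace := by
  have h := FA150.LeQ.trace_le (sy_sq_le h1 h2) (sy T)
  have e1 : ((sy T)ᵀ * (sy T * sy T) * sy T).trace = (sy T * sy T * (sy T * sy T)).trace := by
    rw [sy_symm]; simp only [Matrix.mul_assoc]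
  have e2 : ((sy T)ᵀ * (e ^ 2 • (1 : Mt n)) * sy T).trace = e ^ 2 * (sy T * sy T).trace := by
    rw [sy_symm, Matrix.mul_smul, Matrix.mul_one, Matrix.smul_mul, trace_smul, smul_eq_mul]
  rw [e1, e2] at h
  exact h

theorem hs_sym_diff_le (X : Mt n) : hs (X - Xᵀ) ≤ 4 * hs X := by
  have h : hs (X - Xᵀ) ≤ 2 * hs X + 2 * ∑ i, ∑ j, X j i ^ 2 := by
    simp only [hs, Matrix.sub_apply, transpose_apply, Finset.mul_sum, ← Finset.sum_add_distrib]
    exact Finset.sum_le_sum fun i _ => Finset.sum_le_sum fun j _ => by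
      nlinarith [sq_nonneg (X i j + X j i)]
  rw [hs_swap] at h
  linarith

/-! ### fields -/

/-- derivative of the symmetric part -/
theorem pdM_sy {T : E n → Mt n} (hT : ∀ i j, Differentiable ℝ fun x => T x i j) (k : Fin n)
    (x : E n) : pdM k (fun x => sy (T x)) x = sy (pdM k T x) := by
  ext i j
  have e : (fun y => sy (T y) i j) = fun y => (1 / 2 : ℝ) * (T y i j + T y j i) := by
    funext y; exact sy_apply _ _ _
  rw [sy_apply]
  simp only [pdM, Matrix.of_apply]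
  have d1 : DifferentiableAt ℝ (fun y => T y i j + T y j i) x := (hT i j x).add (hT j i x)
  rw [e, pd_const_mul (1 / 2) k d1, pd_add k (hT i j x) (hT j i x)]

theorem hs_pdM_sy_le {T : E n → Mt n} (hT : ∀ i j, Differentiable ℝ fun x => T x i j) (k : Fin n)
    (x : E n) : hs (pdM k (fun x => sy (T x)) x) ≤ hs (pdM k T x) := by
  rw [pdM_sy hT, hs_sy]
  have : 0 ≤ hs (pdM k T x - (pdM k T x)ᵀ) := NB152.hs_nonneg _
  linarith

theorem cb_sy {T : E n → Mt n} (hT : ∀ p, CB (famM T p)) (p : Fin n × Fin n) :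
    CB (famM (fun x => sy (T x)) p) := by
  have e : famM (fun x => sy (T x)) p =
      fun x => (1 / 2 : ℝ) * (famM T p x + famM T (p.2, p.1) x) := by
    funext x
    simp only [famM, sy_apply]
  rw [e]
  exact cb_const_mul _ (cb_add (hT _) (hT _))

/-- `C¹_c` entries are `CB` -/
theorem cb_cs {f : E n → ℝ} (hf : ContDiff ℝ 1 f) (hs : HasCompactSupport f) : CB f :=
  cb_iff.2 ⟨hf, bdd_of_cc hf.continuous hs, fun k => bdd_of_cc (pd_cont hf k) (pd_cs hs k)⟩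

end Crest.Agent.R201.Top674
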