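import Crest.Agent.R201.LDefs_74
import Crest.Agent.R201.Clip5_78

/-!
# R201 (S0308): literal statement of the static level-2 block, consumed by the NoState assembly
(helper674; typist 676)
-/

set_option autoImplicit false
open MeasureTheory Matrix
open scoped ContDiff

namespace Crest.Agent.R201.Top674

open Crest.Agent.R201 Crest.Agent.R201.L74

variable {n : ℕ}

/-- the clipped field `T = F_{e1}(Jac φ)`, `F_e(M) = M (1 + e⁻² MᵀM)^{-1/2}` (non-symmetric clip) -/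
noncomputable def Tc (e1 : ℝ) (φ : Fin n → E n → ℝ) (x : E n) : Mt n := Clip78.cF e1 (Jac φ x)

/-- (EL) static level 2 -/
def ELc : Prop := ∃ C : ℝ, 0 < C ∧ ∀ (n : ℕ) (ε : ℝ) (S : State n ε), ε ≤ 1 → 0 < S.I →
  ∀ e1 : ℝ, 0 < e1 → e1 ≤ 1 / 10 → ∃ φ : Fin n → E n → ℝ, (∀ i, ContDiff ℝ ∞ (φ i)) ∧
    (∀ i, HasCompactSupport (φ i)) ∧ S.dist0 φ ≤ C * ε * S.I ∧ S.dist1 φ ≤ C * ε * S.I ∧
    (∫ x, ∑ k, hs (pdM k (Tc e1 φ) x) ∂S.ν) +
      (∫ x, (S.V2 x * ((Tc e1 φ x)ᵀ * Tc e1 φ x)).trace ∂S.ν) ≤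
      (1 + C * (√ε + e1)) * S.I

end Crest.Agent.R201.Top674
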