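import Crest.Agent.R201.NsA_674
import Crest.Agent.R201.NsDefs_674

/-!
# R201 (S0308), NoState assembly, part 2: fields (helper674)
-/

set_option autoImplicit false
open MeasureTheory Matrix
open scoped ContDiff

namespace Crest.Agent.R201.Top674

open Crest.Agent.R201 Crest.Agent.R201.El593 Crest.Agent.R201.Tw807 Crest.Agent.R201.L74

variable {n : ℕ}

/-! ### pointwise facts -/

theorem one_add_inv {A : Mt n} (hA : Aᵀ = A) (h0 : LeQ 0 A) : (1 + A) * (1 + A)⁻¹ = 1 := by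
  have h1 : (1 + A).PosDef := by
    refine Clip78.posDef_of_leQ (c := 1) one_pos ?_ fun u => ?_
    · rw [transpose_add, transpose_one, hA]
    · have := h0 u
      rw [one_smul, Matrix.add_mulVec, dotProduct_add]
      simp only [zero_mulVec, dotProduct_zero] at this
      linarith
  exact Matrix.mul_nonsing_inv _ h1.det_pos.ne'.isUnit

theorem dot_symm {A : Mt n} (hA : Aᵀ = A) (u v : Fin n → ℝ) : u ⬝ᵥ (A *ᵥ v) = v ⬝ᵥ (A *ᵥ u) := by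
  rw [Matrix.dotProduct_mulVec, ← Matrix.mulVec_transpose, hA, dotProduct_comm]

/-- `0 ≤ (1 + A)⁻¹ ≤ 1 - A/2` for `0 ≤ A ≤ 1` -/
theorem inv_facts {A : Mt n} (hA : Aᵀ = A) (h0 : LeQ 0 A) (h1 : LeQ A 1) (u : Fin n → ℝ) :
    0 ≤ u ⬝ᵥ ((1 + A)⁻¹ *ᵥ u) ∧
      u ⬝ᵥ ((1 + A)⁻¹ *ᵥ u) ≤ u ⬝ᵥ u - 1 / 2 * (u ⬝ᵥ (A *ᵥ u)) := by
  set v := (1 + A)⁻¹ *ᵥ u with hv
  have e1 : u = v + A *ᵥ v := by
    have : (1 + A) *ᵥ v = u := by
      rw [hv, Matrix.mulVec_mulVec, one_add_inv hA h0, Matrix.one_mulVec]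
    rw [← this, Matrix.add_mulVec, Matrix.one_mulVec]
  set p := A *ᵥ v with hp
  set q := A *ᵥ p with hq
  have c1 : v ⬝ᵥ q = p ⬝ᵥ p := by rw [hq, dot_symm hA v p]
  have k0 := h0 v
  have k1 := h1 p
  have k2 : p ⬝ᵥ p ≤ v ⬝ᵥ p := An.sq_le_self hA h0 h1 v
  simp only [zero_mulVec, dotProduct_zero, one_mulVec, ← hp, ← hq] at k0 k1
  have k3 : 0 ≤ v ⬝ᵥ v := Finset.sum_nonneg fun i _ => mul_self_nonneg _
  have e2 : A *ᵥ u = p + q := by rw [e1, Matrix.mulVec_add]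
  have c2 : p ⬝ᵥ v = v ⬝ᵥ p := dotProduct_comm _ _
  rw [e2, e1]
  simp only [add_dotProduct, dotProduct_add]
  constructor
  · linarith
  · linarith

/-- `x·Gx ≤ (1+θ) y·Gy + (1+1/θ) |x-y|²` -/
theorem quad_theta {G : Mt n} (h0 : ∀ u : Fin n → ℝ, 0 ≤ u ⬝ᵥ (G *ᵥ u))
    (h1 : ∀ u : Fin n → ℝ, u ⬝ᵥ (G *ᵥ u) ≤ u ⬝ᵥ u) {θ : ℝ} (hθ : 0 < θ) (x y : Fin n → ℝ) :
    x ⬝ᵥ (G *ᵥ x) ≤ (1 + θ) * (y ⬝ᵥ (G *ᵥ y)) + (1 + 1 / θ) * ((x - y) ⬝ᵥ (x - y)) := by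
  set z := x - y with hz
  have ex : x = y + z := by rw [hz]; abel
  have a1 := h0 (θ • y - z)
  have a2 := h1 z
  rw [ex]
  simp only [Matrix.mulVec_sub, Matrix.mulVec_smul, Matrix.mulVec_add, sub_dotProduct,
    dotProduct_sub, smul_dotProduct, dotProduct_smul, smul_eq_mul, add_dotProduct,
    dotProduct_add] at a1 ⊢
  have a3 : y ⬝ᵥ (G *ᵥ z) + z ⬝ᵥ (G *ᵥ y) ≤ θ * (y ⬝ᵥ (G *ᵥ y)) + 1 / θ * (z ⬝ᵥ (G *ᵥ z)) := by
    have a4 : 0 ≤ θ * (θ * (y ⬝ᵥ (G *ᵥ y)) + 1 / θ * (z ⬝ᵥ (G *ᵥ z)) -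
        (y ⬝ᵥ (G *ᵥ z) + z ⬝ᵥ (G *ᵥ y))) := by
      have e : θ * (θ * (y ⬝ᵥ (G *ᵥ y)) + 1 / θ * (z ⬝ᵥ (G *ᵥ z)) -
          (y ⬝ᵥ (G *ᵥ z) + z ⬝ᵥ (G *ᵥ y))) =
          θ * (θ * (y ⬝ᵥ (G *ᵥ y))) + (θ * (1 / θ)) * (z ⬝ᵥ (G *ᵥ z)) -
          θ * (y ⬝ᵥ (G *ᵥ z)) - θ * (z ⬝ᵥ (G *ᵥ y)) := by ring
      rw [e, mul_one_div_cancel hθ.ne']
      linarith
    have := nonneg_of_mul_nonneg_right a4 hθ
    linarith
  have a5 : (1 + 1 / θ) * (z ⬝ᵥ (G *ᵥ z)) ≤ (1 + 1 / θ) * (z ⬝ᵥ z) :=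
    mul_le_mul_of_nonneg_left a2 (by positivity)
  linarith

theorem hs_cols (M : Mt n) : ∑ k, (fun i => M i k) ⬝ᵥ (fun i => M i k) = hs M := by
  simp only [dotProduct, hs]
  rw [Finset.sum_comm]
  exact Finset.sum_congr rfl fun i _ => Finset.sum_congr rfl fun k _ => (sq _).symm

theorem tr_cols (M A : Mt n) :
    ∑ k, (fun i => M i k) ⬝ᵥ (A *ᵥ fun i => M i k) = (M * Mᵀ * A).trace := by
  simp only [dotProduct, Matrix.mulVec, Matrix.trace, Matrix.diag_apply, Matrix.mul_apply,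
    Matrix.transpose_apply, Finset.mul_sum, Finset.sum_mul]
  have h1 : ∀ k : Fin n, ∑ i, ∑ j, M i k * (A i j * M j k) = ∑ j, ∑ i, M i k * (A i j * M j k) :=
    fun k => Finset.sum_comm
  simp only [h1]
  rw [Finset.sum_comm]
  refine Finset.sum_congr rfl fun j _ => ?_
  rw [Finset.sum_comm]
  exact Finset.sum_congr rfl fun i _ => Finset.sum_congr rfl fun k _ => by ring

/-- the quadratic term of the rigidity channel -/
theorem rig_pt {e : ℝ} (he : 0 < e) {θ : ℝ} (hθ : 0 < θ) (H B : Mt n) :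
    0 ≤ ∑ k, (fun i => H i k) ⬝ᵥ ((1 + Clip78.bF e B)⁻¹ *ᵥ fun i => H i k) ∧
    ∑ k, (fun i => H i k) ⬝ᵥ ((1 + Clip78.bF e B)⁻¹ *ᵥ fun i => H i k) ≤
      (1 + θ) * (1 / 2 * (hs B + hs (Clip78.cF e B))) + (1 + 1 / θ) * hs (H - B) := by
  have hA := Clip78.bF_symm e B
  have h0 := Clip78.bF_nonneg e B
  have h1 := Clip78.bF_le_one he B
  have G0 : ∀ u : Fin n → ℝ, 0 ≤ u ⬝ᵥ ((1 + Clip78.bF e B)⁻¹ *ᵥ u) := fun u =>
    (inv_facts hA h0 h1 u).1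
  have G1 : ∀ u : Fin n → ℝ, u ⬝ᵥ ((1 + Clip78.bF e B)⁻¹ *ᵥ u) ≤ u ⬝ᵥ u := fun u => by
    have := (inv_facts hA h0 h1 u).2
    have h3 := h0 u
    simp only [zero_mulVec, dotProduct_zero] at h3
    linarith
  refine ⟨Finset.sum_nonneg fun k _ => G0 _, ?_⟩
  have s1 : ∀ k, (fun i => H i k) ⬝ᵥ ((1 + Clip78.bF e B)⁻¹ *ᵥ fun i => H i k) ≤
      (1 + θ) * ((fun i => B i k) ⬝ᵥ (fun i => B i k) -
        1 / 2 * ((fun i => B i k) ⬝ᵥ (Clip78.bF e B *ᵥ fun i => B i k))) +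
      (1 + 1 / θ) * ((fun i => (H - B) i k) ⬝ᵥ (fun i => (H - B) i k)) := by
    intro k
    have a1 := quad_theta G0 G1 hθ (fun i => H i k) (fun i => B i k)
    have a2 := mul_le_mul_of_nonneg_left (inv_facts hA h0 h1 (fun i => B i k)).2
      (by positivity : 0 ≤ 1 + θ)
    have e1 : ((fun i => H i k) - fun i => B i k) = fun i => (H - B) i k := by
      funext i; rfl
    rw [e1] at a1
    linarith
  refine (Finset.sum_le_sum fun k _ => s1 k).trans (le_of_eq ?_)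
  rw [Finset.sum_add_distrib, ← Finset.mul_sum, ← Finset.mul_sum, Finset.sum_sub_distrib,
    ← Finset.mul_sum, hs_cols, hs_cols, tr_cols, ← Clip78.hs_sub_hs_bF he]
  ring

/-! ### integrals -/

section Int

variable {ν : Measure (E n)} [IsProbabilityMeasure ν]

theorem hs_int {F : E n → Mt n} (hF : ∀ i j, MemLp (fun x => F x i j) 2 ν) :
    Integrable (fun x => hs (F x)) ν ∧ ∫ x, hs (F x) ∂ν = ∑ i, ∑ j, ∫ x, F x i j ^ 2 ∂ν := by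
  have h : ∀ i j, Integrable (fun x => F x i j ^ 2) ν := fun i j => isq (hF i j)
  have h2 : ∀ i, Integrable (fun x => ∑ j, F x i j ^ 2) ν := fun i =>
    integrable_finsetSum _ fun j _ => h i j
  unfold hs
  refine ⟨integrable_finsetSum _ fun i _ => h2 i, ?_⟩
  rw [integral_finsetSum _ fun i _ => h2 i]
  exact Finset.sum_congr rfl fun i _ => integral_finsetSum _ fun j _ => h i j

variable {φ : Fin n → E n → ℝ}

theorem Jac_C1 (hφ : ∀ i, ContDiff ℝ ∞ (φ i)) (i j : Fin n) :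
    ContDiff ℝ 1 fun x => Jac φ x i j := (pd_smooth (hφ i) j).of_le (by norm_cast)

theorem Jac_cs (hφs : ∀ i, HasCompactSupport (φ i)) (i j : Fin n) :
    HasCompactSupport fun x => Jac φ x i j := pd_cs (hφs i) j

theorem Jac_mem (hφ : ∀ i, ContDiff ℝ ∞ (φ i)) (hφs : ∀ i, HasCompactSupport (φ i)) (i j : Fin n) :
    MemLp (fun x => Jac φ x i j) 2 ν := mcc (Jac_C1 hφ i j).continuous (Jac_cs hφs i j)

theorem Tc_C1 (e1 : ℝ) (hφ : ∀ i, ContDiff ℝ ∞ (φ i)) (i j : Fin n) :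
    ContDiff ℝ 1 fun x => Tc e1 φ x i j := Clip78.cF_field_C1 e1 (Jac_C1 hφ) i j

theorem Tc_cs (e1 : ℝ) (hφs : ∀ i, HasCompactSupport (φ i)) (i j : Fin n) :
    HasCompactSupport fun x => Tc e1 φ x i j := Clip78.cF_cs e1 (Jac_cs hφs) i j

theorem Tc_mem (e1 : ℝ) (hφ : ∀ i, ContDiff ℝ ∞ (φ i)) (hφs : ∀ i, HasCompactSupport (φ i))
    (i j : Fin n) : MemLp (fun x => Tc e1 φ x i j) 2 ν :=
  mcc (Tc_C1 e1 hφ i j).continuous (Tc_cs e1 hφs i j)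

/-- the rigidity field -/
noncomputable def Ac (e1 : ℝ) (φ : Fin n → E n → ℝ) (x : E n) : Mt n := Clip78.bF e1 (Jac φ x)

theorem Ac_apply (e1 : ℝ) (x : E n) (i j : Fin n) :
    Ac e1 φ x i j = (e1 ^ 2)⁻¹ * ∑ k, Tc e1 φ x i k * Tc e1 φ x j k := by
  simp only [Ac, Clip78.bF, Tc, Matrix.smul_apply, Matrix.mul_apply, transpose_apply, smul_eq_mul]

theorem Ac_C1 (e1 : ℝ) (hφ : ∀ i, ContDiff ℝ ∞ (φ i)) (i j : Fin n) :
    ContDiff ℝ 1 fun x => Ac e1 φ x i j := by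
  simp only [Ac_apply]
  exact contDiff_const.mul (ContDiff.sum fun k _ => (Tc_C1 e1 hφ i k).mul (Tc_C1 e1 hφ j k))

theorem Ac_cs (e1 : ℝ) (hφs : ∀ i, HasCompactSupport (φ i)) (i j : Fin n) :
    HasCompactSupport fun x => Ac e1 φ x i j := by
  simp only [Ac_apply]
  have h : HasCompactSupport fun x => ∑ k, Tc e1 φ x i k * Tc e1 φ x j k :=
    cs_sum _ fun k _ => (Tc_cs e1 hφs i k).mul_right (f' := fun x => Tc e1 φ x j k)
  exact h.mul_left (f := fun _ => (e1 ^ 2)⁻¹)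

theorem Ac_tr (e1 : ℝ) (x : E n) : (Ac e1 φ x).trace = (e1 ^ 2)⁻¹ * hs (Tc e1 φ x) := by
  rw [Ac, Clip78.bF, trace_smul, smul_eq_mul, Tc, ← MX354.hs_eq_trace]

/-- integrable derivative energy -/
theorem pdT_int (e1 : ℝ) (hφ : ∀ i, ContDiff ℝ ∞ (φ i)) (hφs : ∀ i, HasCompactSupport (φ i)) :
    Integrable (fun x => ∑ k, hs (pdM k (Tc e1 φ) x)) ν :=
  integrable_finsetSum _ fun k _ => (hs_int fun i j =>
    mcc (pd_cont (Tc_C1 e1 hφ i j) k) (pd_cs (Tc_cs e1 hφs i j) k)).1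

end Int

end Crest.Agent.R201.Top674
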