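import Crest.Agent.R201.NsB_674

/-!
# R201 (S0308), NoState assembly, part 3: integrated facts over a state (helper674)
-/

set_option autoImplicit false
open MeasureTheory Matrix
open scoped ContDiff

namespace Crest.Agent.R201.Top674

open Crest.Agent.R201 Crest.Agent.R201.El593 Crest.Agent.R201.Tw807 Crest.Agent.R201.L74

variable {n : ℕ} {ε : ℝ} (S : State n ε) {φ : Fin n → E n → ℝ}

/-- `H_ik = D_k w_i` -/
noncomputable def Hm (x : E n) : Mt n := Matrix.of fun i k => pd k (S.w i) x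

theorem Hm_symm (x : E n) : (Hm S x)ᵀ = Hm S x := by
  ext i k
  exact (S.H_symm i k x).symm

theorem dist1_eq (hφ : ∀ i, ContDiff ℝ ∞ (φ i)) (hφs : ∀ i, HasCompactSupport (φ i)) :
    Integrable (fun x => hs (Hm S x - Jac φ x)) S.ν ∧
      ∫ x, hs (Hm S x - Jac φ x) ∂S.ν = S.dist1 φ := by
  have h : ∀ i j, MemLp (fun x => (Hm S x - Jac φ x) i j) 2 S.ν := fun i j =>
    (S.H_L2 i j).sub (Jac_mem hφ hφs i j)
  exact hs_int h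

theorem hB_eq (hφ : ∀ i, ContDiff ℝ ∞ (φ i)) (hφs : ∀ i, HasCompactSupport (φ i)) :
    Integrable (fun x => hs (Jac φ x)) S.ν ∧ ∫ x, hs (Jac φ x) ∂S.ν = dsq S.ν φ :=
  hs_int (Jac_mem hφ hφs)

theorem dsq_w_eq : Integrable (fun x => hs (Hm S x)) S.ν ∧
    ∫ x, hs (Hm S x) ∂S.ν = dsq S.ν S.w := hs_int fun i j => S.H_L2 i j

theorem hs_split {θ : ℝ} (hθ : 0 < θ) (X Y : Mt n) :
    hs Y ≤ (1 + θ) * hs X + (1 + 1 / θ) * hs (X - Y) := by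
  have h : ∀ i j, Y i j ^ 2 ≤ (1 + θ) * X i j ^ 2 + (1 + 1 / θ) * (X - Y) i j ^ 2 := by
    intro i j
    have e : (1 + θ) * X i j ^ 2 + (1 + 1 / θ) * (X - Y) i j ^ 2 - Y i j ^ 2 =
        (θ * X i j + (X i j - Y i j)) ^ 2 / θ := by
      rw [Matrix.sub_apply]
      field_simp
      ring
    have : 0 ≤ (θ * X i j + (X i j - Y i j)) ^ 2 / θ := by positivity
    linarith
  unfold hs
  rw [Finset.mul_sum, Finset.mul_sum, ← Finset.sum_add_distrib]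
  refine Finset.sum_le_sum fun i _ => ?_
  rw [Finset.mul_sum, Finset.mul_sum, ← Finset.sum_add_distrib]
  exact Finset.sum_le_sum fun j _ => h i j

/-- `|B|² ≤ (1+θ) E|Dw|² + (1+1/θ) |Dw - Dφ|²` -/
theorem hB_le (hφ : ∀ i, ContDiff ℝ ∞ (φ i)) (hφs : ∀ i, HasCompactSupport (φ i)) {θ : ℝ}
    (hθ : 0 < θ) : ∫ x, hs (Jac φ x) ∂S.ν ≤
      (1 + θ) * dsq S.ν S.w + (1 + 1 / θ) * S.dist1 φ := by
  obtain ⟨a1, a2⟩ := dist1_eq S hφ hφs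
  obtain ⟨b1, b2⟩ := hB_eq S hφ hφs
  obtain ⟨c1, c2⟩ := dsq_w_eq S
  rw [← a2, ← c2, ← integral_const_mul, ← integral_const_mul,
    ← integral_add (c1.const_mul _) (a1.const_mul _)]
  exact integral_mono b1 ((c1.const_mul _).add (a1.const_mul _)) fun x => hs_split hθ _ _

/-- `|T|² ≤ |B|²` -/
theorem hT_le {e1 : ℝ} (he : 0 < e1) (hφ : ∀ i, ContDiff ℝ ∞ (φ i))
    (hφs : ∀ i, HasCompactSupport (φ i)) :
    ∫ x, hs (Tc e1 φ x) ∂S.ν ≤ ∫ x, hs (Jac φ x) ∂S.ν :=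
  integral_mono (hs_int (Tc_mem e1 hφ hφs)).1 (hB_eq S hφ hφs).1 fun x => Clip78.hs_cF_le he _

/-- **rigidity, integrated** -/
theorem rig_int {e1 : ℝ} (he : 0 < e1) (hφ : ∀ i, ContDiff ℝ ∞ (φ i))
    (hφs : ∀ i, HasCompactSupport (φ i)) {K δ e D κ θ : ℝ} (hK : 0 ≤ K) (hκ : 0 < κ) (hθ : 0 < θ)
    (hR : RIGp S.toSt K δ e D) :
    nsq S.ν S.w ≤
      K * ((1 + θ) * (1 / 2 * ((∫ x, hs (Jac φ x) ∂S.ν) + ∫ x, hs (Tc e1 φ x) ∂S.ν)) +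
        (1 + 1 / θ) * S.dist1 φ) +
      K * κ / 2 * (4 / e1 ^ 2 * ∫ x, ∑ k, hs (pdM k (Tc e1 φ) x) ∂S.ν) + 2 * κ * δ +
      2 * e * (D + nsq S.ν S.w / (2 * κ) + 1 / 2 * ((e1 ^ 2)⁻¹ * ∫ x, hs (Tc e1 φ x) ∂S.ν)) +
      2 * κ * ((e1 ^ 2)⁻¹ * ∫ x, hs (Tc e1 φ x) ∂S.ν) := by
  have h := hR (Ac e1 φ) κ hκ (fun i j => Ac_C1 e1 hφ i j) (fun i j => Ac_cs e1 hφs i j)
    (fun x => Clip78.bF_symm e1 _) (fun x => Clip78.bF_nonneg e1 _)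
  obtain ⟨a1, a2⟩ := dist1_eq S hφ hφs
  obtain ⟨b1, b2⟩ := hB_eq S hφ hφs
  obtain ⟨t1, -⟩ := hs_int (ν := S.ν) (Tc_mem e1 hφ hφs)
  have i1 : ∫ x, ∑ k, (fun i => pd k (S.w i) x) ⬝ᵥ
      ((1 + Ac e1 φ x)⁻¹ *ᵥ fun i => pd k (S.w i) x) ∂S.ν ≤
      (1 + θ) * (1 / 2 * ((∫ x, hs (Jac φ x) ∂S.ν) + ∫ x, hs (Tc e1 φ x) ∂S.ν)) +
        (1 + 1 / θ) * S.dist1 φ := by
    have bt : Integrable (fun x => (1 + θ) * (1 / 2 * (hs (Jac φ x) + hs (Tc e1 φ x)))) S.ν :=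
      ((b1.add t1).const_mul (1 / 2)).const_mul (1 + θ)
    have at' : Integrable (fun x => (1 + 1 / θ) * hs (Hm S x - Jac φ x)) S.ν :=
      a1.const_mul (1 + 1 / θ)
    rw [← a2, ← integral_add b1 t1, ← integral_const_mul (1 / 2), ← integral_const_mul (1 + θ),
      ← integral_const_mul (1 + 1 / θ), ← integral_add bt at']
    refine integral_mono_of_nonneg (Filter.Eventually.of_forall fun x => ?_)
      (bt.add at') (Filter.Eventually.of_forall fun x => ?_)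
    · exact (rig_pt he hθ (Hm S x) (Jac φ x)).1
    · exact (rig_pt he hθ (Hm S x) (Jac φ x)).2
  have i2 : ∫ x, ∑ k, hs (pdM k (fun x => Ac e1 φ x) x) ∂S.ν ≤
      4 / e1 ^ 2 * ∫ x, ∑ k, hs (pdM k (Tc e1 φ) x) ∂S.ν := by
    rw [← integral_const_mul]
    refine integral_mono_of_nonneg (Filter.Eventually.of_forall fun x =>
      Finset.sum_nonneg fun k _ => NB152.hs_nonneg _) ((pdT_int e1 hφ hφs).const_mul _)
      (Filter.Eventually.of_forall fun x => ?_)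
    change ∑ k, hs (pdM k (fun x => Ac e1 φ x) x) ≤ 4 / e1 ^ 2 * ∑ k, hs (pdM k (Tc e1 φ) x)
    rw [Finset.mul_sum]
    exact Finset.sum_le_sum fun k _ => Clip78.hs_pdM_bF_le he (Jac_C1 hφ) k x
  have i3 : ∫ x, (Ac e1 φ x).trace ∂S.ν = (e1 ^ 2)⁻¹ * ∫ x, hs (Tc e1 φ x) ∂S.ν := by
    simp only [Ac_tr]
    exact integral_const_mul _ _
  rw [i3] at h
  have j1 := mul_le_mul_of_nonneg_left i1 hK
  have j2 := mul_le_mul_of_nonneg_left i2 (by positivity : 0 ≤ K * κ / 2)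
  linarith

/-! ### the symmetrised field -/

/-- the symmetrised field -/
noncomputable def Sc (e1 : ℝ) (φ : Fin n → E n → ℝ) (x : E n) : Mt n := sy (Tc e1 φ x)

theorem Sc_cb (e1 : ℝ) (hφ : ∀ i, ContDiff ℝ ∞ (φ i)) (hφs : ∀ i, HasCompactSupport (φ i))
    (p : Fin n × Fin n) : CB (famM (Sc e1 φ) p) :=
  cb_sy (fun p => cb_cs (Tc_C1 e1 hφ p.1 p.2) (Tc_cs e1 hφs p.1 p.2)) p

theorem Sc_symm (e1 : ℝ) (x : E n) : (Sc e1 φ x)ᵀ = Sc e1 φ x := sy_symm _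

theorem skew_int {e1 : ℝ} (he : 0 < e1) (hφ : ∀ i, ContDiff ℝ ∞ (φ i))
    (hφs : ∀ i, HasCompactSupport (φ i)) :
    Integrable (fun x => hs (Tc e1 φ x - (Tc e1 φ x)ᵀ)) S.ν ∧
      ∫ x, hs (Tc e1 φ x - (Tc e1 φ x)ᵀ) ∂S.ν ≤ 4 * S.dist1 φ := by
  have t1 : Integrable (fun x => hs (Tc e1 φ x - (Tc e1 φ x)ᵀ)) S.ν :=
    (hs_int (F := fun x => Tc e1 φ x - (Tc e1 φ x)ᵀ) fun i j =>
      (Tc_mem e1 hφ hφs i j).sub (Tc_mem e1 hφ hφs j i)).1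
  obtain ⟨a1, a2⟩ := dist1_eq S hφ hφs
  refine ⟨t1, ?_⟩
  rw [← a2, ← integral_const_mul]
  refine integral_mono t1 (a1.const_mul _) fun x => ?_
  change hs (Tc e1 φ x - (Tc e1 φ x)ᵀ) ≤ 4 * hs (Hm S x - Jac φ x)
  refine (Clip78.cF_sub_transpose he _).trans ?_
  have e : hs (Jac φ x - (Jac φ x)ᵀ) =
      hs ((Hm S x - Jac φ x) - (Hm S x - Jac φ x)ᵀ) := by
    rw [transpose_sub, Hm_symm]
    have : Hm S x - Jac φ x - (Hm S x - (Jac φ x)ᵀ) = -(Jac φ x - (Jac φ x)ᵀ) := by abel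
    rw [this]
    simp only [hs, Matrix.neg_apply, neg_sq]
  rw [e]
  exact hs_sym_diff_le _

theorem hS_ge {e1 : ℝ} (he : 0 < e1) (hφ : ∀ i, ContDiff ℝ ∞ (φ i))
    (hφs : ∀ i, HasCompactSupport (φ i)) :
    (∫ x, hs (Tc e1 φ x) ∂S.ν) - S.dist1 φ ≤ ∫ x, hs (Sc e1 φ x) ∂S.ν ∧
      ∫ x, hs (Sc e1 φ x) ∂S.ν ≤ ∫ x, hs (Tc e1 φ x) ∂S.ν := by
  obtain ⟨s1, s2⟩ := skew_int S he hφ hφs
  obtain ⟨t1, -⟩ := hs_int (ν := S.ν) (Tc_mem e1 hφ hφs)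
  have e : ∫ x, hs (Sc e1 φ x) ∂S.ν = (∫ x, hs (Tc e1 φ x) ∂S.ν) -
      1 / 4 * ∫ x, hs (Tc e1 φ x - (Tc e1 φ x)ᵀ) ∂S.ν := by
    rw [← integral_const_mul, ← integral_sub t1 (s1.const_mul _)]
    simp only [Sc, hs_sy]
  have s3 : 0 ≤ ∫ x, hs (Tc e1 φ x - (Tc e1 φ x)ᵀ) ∂S.ν :=
    integral_nonneg fun x => NB152.hs_nonneg _
  rw [e]
  constructor <;> linarith

theorem gS_le (e1 : ℝ) (hφ : ∀ i, ContDiff ℝ ∞ (φ i)) (hφs : ∀ i, HasCompactSupport (φ i)) :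
    ∫ x, ∑ k, hs (pdM k (Sc e1 φ) x) ∂S.ν ≤ ∫ x, ∑ k, hs (pdM k (Tc e1 φ) x) ∂S.ν := by
  refine integral_mono_of_nonneg (Filter.Eventually.of_forall fun x =>
    Finset.sum_nonneg fun k _ => NB152.hs_nonneg _) (pdT_int e1 hφ hφs)
    (Filter.Eventually.of_forall fun x => ?_)
  exact Finset.sum_le_sum fun k _ => hs_pdM_sy_le
    (fun i j => (Tc_C1 e1 hφ i j).differentiable (by simp)) k x

/-- `tr V2 TᵀT` is integrable and nonnegative -/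
theorem VT_int (e1 : ℝ) (hφ : ∀ i, ContDiff ℝ ∞ (φ i)) (hφs : ∀ i, HasCompactSupport (φ i)) :
    Integrable (fun x => (S.V2 x * ((Tc e1 φ x)ᵀ * Tc e1 φ x)).trace) S.ν := by
  simp only [Matrix.trace, Matrix.diag_apply, Matrix.mul_apply, Matrix.transpose_apply]
  refine integrable_finsetSum _ fun i _ => integrable_finsetSum _ fun j _ => ?_
  have h2 : HasCompactSupport fun x => ∑ k, Tc e1 φ x k j * Tc e1 φ x k i :=
    cs_sum _ fun k _ => (Tc_cs e1 hφs k j).mul_right (f' := fun x => Tc e1 φ x k i)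
  exact cci (S := S.toSm) ((S.V2_cont i j).mul (continuous_finsetSum _ fun k _ =>
    (Tc_C1 e1 hφ k j).continuous.mul (Tc_C1 e1 hφ k i).continuous))
    (h2.mul_left (f := fun x => S.V2 x i j))

theorem VS_le {e1 : ℝ} (he : 0 < e1) (hφ : ∀ i, ContDiff ℝ ∞ (φ i))
    (hφs : ∀ i, HasCompactSupport (φ i)) :
    ∫ x, ((1 - (1 - S.h • S.V2 x)) * (Sc e1 φ x * Sc e1 φ x)).trace ∂S.ν ≤
      2 * S.h * (∫ x, (S.V2 x * ((Tc e1 φ x)ᵀ * Tc e1 φ x)).trace ∂S.ν) + 2 * S.dist1 φ := by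
  obtain ⟨s1, s2⟩ := skew_int S he hφ hφs
  have v1 := VT_int S e1 hφ hφs
  have h0 : ∀ x, LeQ 0 (S.h • S.V2 x) := fun x u => by
    have := S.V2_nonneg x u
    simp only [zero_mulVec, dotProduct_zero, smul_mulVec, dotProduct_smul, smul_eq_mul] at this ⊢
    exact mul_nonneg S.h_pos.le this
  have hp : ∀ x, ((1 - (1 - S.h • S.V2 x)) * (Sc e1 φ x * Sc e1 φ x)).trace ≤
      2 * S.h * (S.V2 x * ((Tc e1 φ x)ᵀ * Tc e1 φ x)).trace +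
        1 / 2 * hs (Tc e1 φ x - (Tc e1 φ x)ᵀ) := by
    intro x
    rw [sub_sub_cancel]
    have := tr_VS (T := Tc e1 φ x) (h0 x) (S.V2_le x) (Sc_symm (φ := φ) e1 x)
    have e1' : (S.h • S.V2 x * ((Tc e1 φ x)ᵀ * Tc e1 φ x)).trace =
        S.h * (S.V2 x * ((Tc e1 φ x)ᵀ * Tc e1 φ x)).trace := by
      rw [Matrix.smul_mul, trace_smul, smul_eq_mul]
    have e2 : hs (Sc e1 φ x - Tc e1 φ x) = 1 / 4 * hs (Tc e1 φ x - (Tc e1 φ x)ᵀ) := hs_sy_sub _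
    rw [e1', e2] at this
    linarith
  have hn : ∀ x, 0 ≤ ((1 - (1 - S.h • S.V2 x)) * (Sc e1 φ x * Sc e1 φ x)).trace := by
    intro x
    rw [sub_sub_cancel]
    have := tr_VT_nonneg (h0 x) (Sc e1 φ x)
    rwa [Sc_symm] at this
  have i1 : ∫ x, ((1 - (1 - S.h • S.V2 x)) * (Sc e1 φ x * Sc e1 φ x)).trace ∂S.ν ≤
      2 * S.h * (∫ x, (S.V2 x * ((Tc e1 φ x)ᵀ * Tc e1 φ x)).trace ∂S.ν) +
        1 / 2 * ∫ x, hs (Tc e1 φ x - (Tc e1 φ x)ᵀ) ∂S.ν := by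
    rw [← integral_const_mul, ← integral_const_mul,
      ← integral_add (v1.const_mul _) (s1.const_mul _)]
    exact integral_mono_of_nonneg (Filter.Eventually.of_forall hn)
      ((v1.const_mul _).add (s1.const_mul _)) (Filter.Eventually.of_forall hp)
  linarith

theorem VT_nonneg (e1 : ℝ) :
    0 ≤ ∫ x, (S.V2 x * ((Tc e1 φ x)ᵀ * Tc e1 φ x)).trace ∂S.ν :=
  integral_nonneg fun x => tr_VT_nonneg (S.V2_nonneg x) _

theorem dist1_nonneg : 0 ≤ S.dist1 φ :=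
  Finset.sum_nonneg fun i _ => Finset.sum_nonneg fun k _ => integral_nonneg fun x => sq_nonneg _

end Crest.Agent.R201.Top674
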