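import Crest.Agent.R201.Ch6_150

/-!
# R201, LSI half (helper786): rigidity channel, matrix part

`M = 1 + A`, `0 ≤ A ≤ 1` symmetric.
-/

set_option autoImplicit false
set_option linter.unusedSectionVars false
open MeasureTheory Matrix

namespace Crest.Agent.R201.RG786

open Crest.Agent.R201 Crest.Agent.R201.NB152 Crest.Agent.R201.Ch150

variable {n : ℕ}

/-- spectral form of a symmetric `0 ≤ A ≤ 1` -/
theorem spec01 {A : Mt n} (hA : Aᵀ = A) (h0 : LeQ 0 A) (h1 : LeQ A 1) :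
    ∃ (U : Mt n) (a : Fin n → ℝ), Uᵀ * U = 1 ∧ U * Uᵀ = 1 ∧ A = spec U a ∧
      (∀ i, 0 ≤ a i) ∧ ∀ i, a i ≤ 1 := by
  obtain ⟨U, a, hU, hU', e⟩ := exists_spec hA
  have hc : ∀ i, (fun j => U j i) ⬝ᵥ (A *ᵥ fun j => U j i) = a i := by
    intro i
    have e1 : (fun j => U j i) = U *ᵥ Pi.single i 1 := by
      funext j; simp
    rw [e1, e, spec_form]
    have e2 : Uᵀ *ᵥ (U *ᵥ Pi.single i (1 : ℝ)) = Pi.single i 1 := by
      rw [Matrix.mulVec_mulVec, hU, Matrix.one_mulVec]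
    rw [e2]
    simp [Pi.single_apply]
  have hn : ∀ i, (fun j => U j i) ⬝ᵥ (fun j => U j i) = 1 := by
    intro i
    have := congrFun (congrFun hU i) i
    rw [Matrix.mul_apply] at this
    simpa [dotProduct] using this
  refine ⟨U, a, hU, hU', e, fun i => ?_, fun i => ?_⟩
  · have := h0 fun j => U j i
    rw [hc] at this
    simpa using this
  · have := h1 fun j => U j i
    rw [hc, Matrix.one_mulVec, hn] at this
    exact this

theorem one_add_spec {U : Mt n} (hU' : U * Uᵀ = 1) (a : Fin n → ℝ) :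
    1 + spec U a = spec U (fun i => 1 + a i) := by
  rw [← spec_one hU', spec_add]

/-- spectral form of a symmetric `0 ≤ A` -/
theorem spec0 {A : Mt n} (hA : Aᵀ = A) (h0 : LeQ 0 A) :
    ∃ (U : Mt n) (a : Fin n → ℝ), Uᵀ * U = 1 ∧ U * Uᵀ = 1 ∧ A = spec U a ∧ ∀ i, 0 ≤ a i := by
  obtain ⟨U, a, hU, hU', e⟩ := exists_spec hA
  have hc : ∀ i, (fun j => U j i) ⬝ᵥ (A *ᵥ fun j => U j i) = a i := by
    intro i
    have e1 : (fun j => U j i) = U *ᵥ Pi.single i 1 := by
      funext j; simp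
    rw [e1, e, spec_form]
    have e2 : Uᵀ *ᵥ (U *ᵥ Pi.single i (1 : ℝ)) = Pi.single i 1 := by
      rw [Matrix.mulVec_mulVec, hU, Matrix.one_mulVec]
    rw [e2]
    simp [Pi.single_apply]
  refine ⟨U, a, hU, hU', e, fun i => ?_⟩
  have := h0 fun j => U j i
  rw [hc] at this
  simpa using this

/-- `(1 + A)⁻¹ ≤ 1 - A / 2` -/
theorem inv_le {A : Mt n} (hA : Aᵀ = A) (h0 : LeQ 0 A) (h1 : LeQ A 1) (u : Fin n → ℝ) :
    u ⬝ᵥ ((1 + A)⁻¹ *ᵥ u) ≤ u ⬝ᵥ u - 1 / 2 * (u ⬝ᵥ (A *ᵥ u)) := by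
  obtain ⟨U, a, hU, hU', rfl, ha0, ha1⟩ := spec01 hA h0 h1
  rw [one_add_spec hU', inv_spec hU hU' fun i => by have := ha0 i; positivity]
  have h := spec_mono U (f := fun i => (1 + a i)⁻¹) (g := fun i => 1 - 1 / 2 * a i) (fun i => by
    have h2 := ha0 i
    have h3 := ha1 i
    rw [inv_le_comm₀ (by linarith) (by linarith)]
    rw [inv_le_iff_one_le_mul₀ (by linarith)]
    nlinarith) u
  refine h.trans (le_of_eq ?_)
  have e : spec U (fun i => 1 - 1 / 2 * a i) = 1 - (1 / 2 : ℝ) • spec U a := by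
    rw [← spec_one hU', spec_smul, spec_sub]
  rw [e, Matrix.sub_mulVec, dotProduct_sub, Matrix.one_mulVec, Matrix.smul_mulVec, dotProduct_smul,
    smul_eq_mul]

/-- `tr (M⁻¹ K M⁻¹ K) ≤ |K|²` -/
theorem trace_inv_le {A K : Mt n} (hA : Aᵀ = A) (h0 : LeQ 0 A) (hK : Kᵀ = K) :
    ((1 + A)⁻¹ * K * (1 + A)⁻¹ * K).trace ≤ hs K := by
  obtain ⟨U, a, hU, hU', rfl, ha0⟩ := spec0 hA h0
  rw [one_add_spec hU', inv_spec hU hU' fun i => by have := ha0 i; positivity]
  set b : Fin n → ℝ := fun i => (1 + a i)⁻¹ with hb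
  have hb0 : ∀ i, 0 ≤ b i := fun i => inv_nonneg.2 (by have := ha0 i; linarith)
  have hb1 : ∀ i, b i ≤ 1 := fun i => inv_le_one_of_one_le₀ (by have := ha0 i; linarith)
  set X := Uᵀ * K * U with hX
  have hXs : Xᵀ = X := by
    rw [hX, transpose_mul, transpose_mul, transpose_transpose, hK, Matrix.mul_assoc]
  have e1 : (spec U b * K * spec U b * K).trace = (diagonal b * X * (diagonal b * X)).trace := by
    unfold spec
    have : U * diagonal b * Uᵀ * K * (U * diagonal b * Uᵀ) * K =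
        U * (diagonal b * X * (diagonal b * (Uᵀ * K))) := by
      simp only [hX, Matrix.mul_assoc]
    rw [this, trace_mul_comm]
    congr 1
    simp only [hX, Matrix.mul_assoc]
  have e2 : hs K = hs X := by
    have := hs_conj (U := Uᵀ) (by rw [transpose_transpose]; exact hU') K
    rw [transpose_transpose] at this
    rw [hX, this]
  rw [e1, e2]
  unfold hs
  simp only [Matrix.trace, Matrix.diag_apply, Matrix.mul_apply (M := diagonal b * X),
    Matrix.diagonal_mul]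
  refine Finset.sum_le_sum fun i _ => Finset.sum_le_sum fun j _ => ?_
  have e3 : X j i = X i j := congrFun (congrFun hXs i) j
  rw [e3]
  have h2 : b i * b j ≤ 1 := mul_le_one₀ (hb1 i) (hb0 j) (hb1 j)
  nlinarith [mul_nonneg (sub_nonneg.2 h2) (sq_nonneg (X i j))]

/-- `0 ≤ log det (1 + A) ≤ tr A` -/
theorem logdet_bd {A : Mt n} (hA : Aᵀ = A) (h0 : LeQ 0 A) :
    0 ≤ Real.log (1 + A).det ∧ Real.log (1 + A).det ≤ A.trace := by
  obtain ⟨U, a, hU, hU', rfl, ha0⟩ := spec0 hA h0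
  rw [one_add_spec hU', det_spec hU, trace_spec hU,
    Real.log_prod fun i _ => (by have := ha0 i; positivity)]
  constructor
  · exact Finset.sum_nonneg fun i _ => Real.log_nonneg (by have := ha0 i; linarith)
  · refine Finset.sum_le_sum fun i _ => ?_
    have := Real.log_le_sub_one_of_pos (x := 1 + a i) (by have := ha0 i; linarith)
    linarith

/-- `|(1 - M⁻¹) B|² ≤ tr A` for `B² = M` -/
theorem hs_one_sub_inv {A B : Mt n} (hA : Aᵀ = A) (h0 : LeQ 0 A)
    (hB : Bᵀ = B) (hBB : B * B = 1 + A) : hs ((1 - (1 + A)⁻¹) * B) ≤ A.trace := by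
  obtain ⟨U, a, hU, hU', rfl, ha0⟩ := spec0 hA h0
  have hne : ∀ i, 1 + a i ≠ 0 := fun i => by have := ha0 i; positivity
  have e0 : 1 - (1 + spec U a)⁻¹ = spec U (fun i => 1 - (1 + a i)⁻¹) := by
    rw [one_add_spec hU', inv_spec hU hU' hne, ← spec_one hU', spec_sub]
  rw [hs_eq_trace, transpose_mul, hB]
  have e1 : (1 - (1 + spec U a)⁻¹) * B * (B * (1 - (1 + spec U a)⁻¹)ᵀ) =
      (1 - (1 + spec U a)⁻¹) * (B * B) * (1 - (1 + spec U a)⁻¹)ᵀ := by
    simp only [Matrix.mul_assoc]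
  rw [e1, hBB, e0, one_add_spec hU', spec_transpose, spec_mul hU, spec_mul hU, trace_spec hU,
    trace_spec hU]
  refine Finset.sum_le_sum fun i _ => ?_
  have h2 := ha0 i
  have h4 : 0 < 1 + a i := by linarith
  have e2 : (1 - (1 + a i)⁻¹) * (1 + a i) * (1 - (1 + a i)⁻¹) = a i ^ 2 / (1 + a i) := by
    field_simp
    ring
  rw [e2, div_le_iff₀ h4]
  nlinarith

end Crest.Agent.R201.RG786
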