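import Crest.Agent.R201.RG1_786
import Crest.Agent.R201.LabG3_809

/-!
# R201, LSI half (helper786): rigidity channel, label averages
-/

set_option autoImplicit false
set_option linter.unusedSectionVars false
set_option linter.unusedVariables false
open MeasureTheory Matrix

namespace Crest.Agent.R201.RG786

open Crest.Agent.R201 Crest.Agent.R201.An Crest.Agent.R201.LL809

variable {n : ℕ}

section Jensen

variable {μ : Measure (E n)} [IsFiniteMeasure μ] {f : E n → ℝ} {L : Type*} [MeasurableSpace L]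
  {l : Measure L} [SFinite l] {p : L → E n → ℝ} {G h : L → ℝ}

theorem int_fbp (hp : Chan l p G h) (hf : CBp f) (j : L) {b : E n → ℝ}
    (mb : Measurable b) {B : ℝ} (hb : ∀ x, |b x| ≤ B) :
    Integrable (fun x => f x * (b x * p j x)) μ := by
  obtain ⟨C, hC0, hC⟩ := hf.bdd
  have h1 := hp.int_right (μ := μ) (u := fun x => f x * b x) (q := p) (hf.cont.measurable.mul mb)
    (B := C * B) (fun x => by
      rw [abs_mul]; exact mul_le_mul (hC x).1 (hb x) (abs_nonneg _) hC0) hp.meas hp.q1 j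
  refine h1.congr (Filter.Eventually.of_forall fun x => ?_)
  simp only
  ring

/-- conditional Jensen: `(∫ f b p_j)² / p_J(j) ≤ ∫ f b² p_j` -/
theorem jensen (hp : Chan l p G h) (hf : CBp f) (h1 : ∫ x, f x ∂μ = 1) (j : L) {b : E n → ℝ}
    (mb : Measurable b) {B : ℝ} (hb : ∀ x, |b x| ≤ B) :
    (∫ x, f x * (b x * p j x) ∂μ) ^ 2 / pJ μ f p j ≤ ∫ x, f x * (b x ^ 2 * p j x) ∂μ := by
  obtain ⟨hZ, -, -⟩ := pJ_bd hp hf h1 j
  set Z := pJ μ f p j with hZ'
  set c := ∫ x, f x * (b x * p j x) ∂μ with hc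
  have i0 : Integrable (fun x => f x * p j x) μ := by
    have := int_fbp (μ := μ) hp hf j (b := fun _ => 1) measurable_const (B := 1) (by simp)
    simpa using this
  have i1 := int_fbp (μ := μ) hp hf j mb hb
  have i2 : Integrable (fun x => f x * (b x ^ 2 * p j x)) μ :=
    int_fbp (μ := μ) hp hf j (b := fun x => b x ^ 2) (mb.pow_const 2) (B := B ^ 2) fun x => by
      rw [abs_pow]; exact pow_le_pow_left₀ (abs_nonneg _) (hb x) 2
  have key : 0 ≤ ∫ x, f x * ((b x - c / Z) ^ 2 * p j x) ∂μ := integral_nonneg fun x =>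
    mul_nonneg (hf.pos x).le (mul_nonneg (sq_nonneg _) (hp.p_nonneg j x))
  have e : ∫ x, f x * ((b x - c / Z) ^ 2 * p j x) ∂μ =
      (∫ x, f x * (b x ^ 2 * p j x) ∂μ) - 2 * (c / Z) * c + (c / Z) ^ 2 * Z := by
    have e1 : ∀ x, f x * ((b x - c / Z) ^ 2 * p j x) = f x * (b x ^ 2 * p j x) -
        2 * (c / Z) * (f x * (b x * p j x)) + (c / Z) ^ 2 * (f x * p j x) := fun x => by ring
    simp only [e1]
    have i3 : Integrable (fun x => f x * (b x ^ 2 * p j x) -
        2 * (c / Z) * (f x * (b x * p j x))) μ := i2.sub (i1.const_mul _)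
    rw [integral_add i3 (i0.const_mul _), integral_sub i2 (i1.const_mul _), integral_const_mul,
      integral_const_mul]
    rfl
  rw [e] at key
  have e2 : (∫ x, f x * (b x ^ 2 * p j x) ∂μ) - 2 * (c / Z) * c + (c / Z) ^ 2 * Z =
      (∫ x, f x * (b x ^ 2 * p j x) ∂μ) - c ^ 2 / Z := by
    field_simp
    ring
  rw [e2] at key
  linarith

theorem meas_fbp (hp : Chan l p G h) (hf : CBp f) {b : E n → ℝ}
    (mb : Measurable b) {B : ℝ} (hb : ∀ x, |b x| ≤ B) :
    Integrable (fun j => ∫ x, f x * (b x * p j x) ∂μ) l ∧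
      ∫ j, ∫ x, f x * (b x * p j x) ∂μ ∂l = ∫ x, f x * b x ∂μ := by
  obtain ⟨C, hC0, hC⟩ := hf.bdd
  obtain ⟨h1, h2⟩ := hp.swap (μ := μ) (u := fun x => f x * b x) (q := p)
    (hf.cont.measurable.mul mb) (B := C * B) (fun x => by
      rw [abs_mul]; exact mul_le_mul (hC x).1 (hb x) (abs_nonneg _) hC0) hp.meas hp.q1
  simp only [hp.one, mul_one, mul_assoc] at h1 h2
  exact ⟨h1, h2⟩

/-- integrability of the label average -/
theorem int_avg {ι : Type*} [Fintype ι] (hp : Chan l p G h) (hf : CBp f) (h1 : ∫ x, f x ∂μ = 1)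
    {b : ι → E n → ℝ} (mb : ∀ i, Measurable (b i)) {B : ℝ} (hb : ∀ i x, |b i x| ≤ B) :
    Integrable (fun j => (∑ i, (∫ x, f x * (b i x * p j x) ∂μ) ^ 2) / pJ μ f p j) l := by
  have m1 : ∀ i, AEMeasurable (fun j => ∫ x, f x * (b i x * p j x) ∂μ) l := fun i =>
    (meas_fbp hp hf (mb i) (hb i)).1.aestronglyMeasurable.aemeasurable
  have m2 : AEMeasurable (fun j => (∑ i, (∫ x, f x * (b i x * p j x) ∂μ) ^ 2) / pJ μ f p j) l := by
    refine AEMeasurable.div ?_ (pJ_meas hp hf).aemeasurable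
    exact Finset.aemeasurable_fun_sum _ fun i _ => (m1 i).pow_const 2
  have i1 : Integrable (fun j => ∑ i, ∫ x, f x * (b i x ^ 2 * p j x) ∂μ) l :=
    integrable_finsetSum _ fun i _ => (meas_fbp hp hf (b := fun x => b i x ^ 2)
      ((mb i).pow_const 2) (B := B ^ 2) fun x => by
        rw [abs_pow]; exact pow_le_pow_left₀ (abs_nonneg _) (hb i x) 2).1
  refine i1.mono' m2.aestronglyMeasurable (Filter.Eventually.of_forall fun j => ?_)
  have hZ := (pJ_bd hp hf h1 j).1
  rw [Real.norm_eq_abs, abs_of_nonneg (div_nonneg (Finset.sum_nonneg fun i _ => sq_nonneg _) hZ.le),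
    Finset.sum_div]
  exact Finset.sum_le_sum fun i _ => jensen hp hf h1 j (mb i) (hb i)

end Jensen

section Gauss

variable {M : E n → Mt n} {v : E n → Fin n → ℝ}

/-- `b_l(y, x) = ((1 - M⁻¹)(y - v))_l` -/
noncomputable def bl (v : E n → Fin n → ℝ) (M : E n → Mt n) (y : E n) (l : Fin n) (x : E n) : ℝ :=
  ((1 - (M x)⁻¹) *ᵥ (y.ofLp - v x)) l

theorem bl_eq (v : E n → Fin n → ℝ) (M : E n → Mt n) (y : E n) (l : Fin n) (x : E n) :
    y l - ((M x)⁻¹ *ᵥ (y.ofLp - v x)) l = v x l + bl v M y l x := by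
  unfold bl
  rw [Matrix.sub_mulVec, Matrix.one_mulVec]
  simp only [Pi.sub_apply]
  ring

theorem PG_bl (hM : MF M) (hv : ∀ i, CB fun x => v x i) (l : Fin n) :
    PG 1 (fun y x => bl v M y l x) := by
  have h1 : PG 1 (fun (y x : E n) => ∑ j, (1 - (M x)⁻¹) l j * (y j - v x j)) := by
    refine PG.sum _ fun j _ => ?_
    have h2 : CB fun x => (1 - (M x)⁻¹) l j := by
      simp only [Matrix.sub_apply]
      exact Tw807.cb_sub (Tw807.cb_const _) (hM.cb_inv l j)
    have := (PG.cst h2).mul (PG_D hv j)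
    rwa [zero_add] at this
  exact h1

/-- second moment of `b` under the Gaussian law of the label -/
theorem bl_sq (hM : MF M) (v : E n → Fin n → ℝ) (x : E n) {B : Mt n} (hBs : Bᵀ = B)
    (hBB : B * B = M x) (hB : 0 < B.det) :
    Integrable (fun y => (∑ l, bl v M y l x ^ 2) * gd (v x) (M x) y) (gam n) ∧
    ∫ y, (∑ l, bl v M y l x ^ 2) * gd (v x) (M x) y ∂(gam n) = hs ((1 - (M x)⁻¹) * B) := by
  obtain ⟨h1, h2⟩ := gd_cov (v x) hBs hB fun y => ∑ l, bl v M y l x ^ 2
  rw [hBB] at h1 h2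
  have e : ∀ g : E n, ∑ l, bl v M (am (v x) B g) l x ^ 2 =
      ∑ l, (∑ i, ((1 - (M x)⁻¹) * B) l i * g i) * ∑ j, ((1 - (M x)⁻¹) * B) l j * g j := by
    intro g
    refine Finset.sum_congr rfl fun l _ => ?_
    unfold bl
    rw [am_ofLp, add_sub_cancel_left, Matrix.mulVec_mulVec, sq]
    rfl
  have hρ : Ex (gk 1 : E n → ℝ) := ex_gk one_pos
  have hE : ∀ l, EG fun g : E n => (∑ i, ((1 - (M x)⁻¹) * B) l i * g i) *
      ∑ j, ((1 - (M x)⁻¹) * B) l j * g j := fun l => (EGl _).mul (EGl _)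
  constructor
  · rw [h1]
    simp only [e]
    unfold gam
    rw [integrable_nm_iff hρ]
    exact hρ.int_mul (EG.sum _ fun l _ => hE l)
  · rw [h2]
    simp only [e]
    rw [int_gam, Em_sum _ hρ fun l _ => hE l]
    unfold hs
    refine Finset.sum_congr rfl fun l _ => ?_
    rw [mll]
    simp only [dotProduct, sq]

end Gauss

end Crest.Agent.R201.RG786
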