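import Crest.Agent.R201.RG2_786

/-!
# R201, LSI half (helper786): rigidity channel, law part and the inequality
-/

set_option autoImplicit false
set_option linter.unusedSectionVars false
set_option linter.unusedVariables false
open MeasureTheory Matrix

namespace Crest.Agent.R201.RG786

open Crest.Agent.R201 Crest.Agent.R201.An Crest.Agent.R201.LL809

variable {n : ℕ}

/-! ### bounded continuous functions -/

/-- bounded continuous -/
def BC (g : E n → ℝ) : Prop := Continuous g ∧ ∃ B : ℝ, ∀ x, |g x| ≤ B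

theorem BC.of_cb {g : E n → ℝ} (h : CB g) : BC g := by
  obtain ⟨h1, B, hB⟩ := h
  exact ⟨h1.continuous, B, fun x => (hB x).1⟩

theorem BC.of_pd {g : E n → ℝ} (h : CB g) (k : Fin n) : BC (pd k g) := by
  obtain ⟨h1, B, hB⟩ := id h
  exact ⟨Tw807.pd_cont h1 k, B, fun x => (hB x).2 k⟩

theorem BC.const (c : ℝ) : BC (fun _ : E n => c) := ⟨continuous_const, |c|, fun _ => le_rfl⟩

theorem BC.add {g h : E n → ℝ} (hg : BC g) (hh : BC h) : BC fun x => g x + h x := by
  obtain ⟨c1, B, hB⟩ := hg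
  obtain ⟨c2, C, hC⟩ := hh
  exact ⟨c1.add c2, B + C, fun x => (abs_add_le _ _).trans (add_le_add (hB x) (hC x))⟩

theorem BC.mul {g h : E n → ℝ} (hg : BC g) (hh : BC h) : BC fun x => g x * h x := by
  obtain ⟨c1, B, hB⟩ := hg
  obtain ⟨c2, C, hC⟩ := hh
  refine ⟨c1.mul c2, B * C, fun x => ?_⟩
  rw [abs_mul]
  exact mul_le_mul (hB x) (hC x) (abs_nonneg _) ((abs_nonneg _).trans (hB x))

theorem BC.smul {g : E n → ℝ} (c : ℝ) (hg : BC g) : BC fun x => c * g x := (BC.const c).mul hg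

theorem BC.sub {g h : E n → ℝ} (hg : BC g) (hh : BC h) : BC fun x => g x - h x := by
  have := hg.add (hh.smul (-1))
  simpa [sub_eq_add_neg] using this

theorem BC.sum {ι : Type*} (s : Finset ι) {g : ι → E n → ℝ} (h : ∀ i ∈ s, BC (g i)) :
    BC fun x => ∑ i ∈ s, g i x := by
  classical
  induction s using Finset.induction_on with
  | empty => simpa using BC.const (n := n) 0
  | insert a s ha ih =>
    simp only [Finset.sum_insert ha]
    exact (h a (Finset.mem_insert_self a s)).add (ih fun i hi => h i (Finset.mem_insert_of_mem hi))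

theorem BC.int {μ : Measure (E n)} [IsFiniteMeasure μ] {g : E n → ℝ} (h : BC g) :
    Integrable g μ := by
  obtain ⟨c, B, hB⟩ := h
  exact (integrable_const B).mono' c.aestronglyMeasurable (Filter.Eventually.of_forall hB)

/-! ### the law part -/

section Law

variable {μ : Measure (E n)} [IsProbabilityMeasure μ] {f : E n → ℝ} {M A : E n → Mt n}
  {v : E n → Fin n → ℝ}

/-- Gaussian LSI for the law of the label (statement) -/
def DisB (μ : Measure (E n)) (f : E n → ℝ) (v : E n → Fin n → ℝ) (M : E n → Mt n) : Prop :=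
  Dis μ f v M ≤ 1 / 2 * ∫ y, (∑ l, (∫ x, f x * ((y l - ((M x)⁻¹ *ᵥ (y.ofLp - v x)) l) *
    gp v M y x) ∂μ) ^ 2) / pJ μ f (gp v M) y ∂(gam n)

theorem MF_of (hA : ∀ i j, CB fun x => A x i j) (hs : ∀ x, (A x)ᵀ = A x)
    (h0 : ∀ x, LeQ 0 (A x)) : MF (fun x => 1 + A x) where
  cb i j := Tw807.cb_add (Tw807.cb_const _) (hA i j)
  symm x := by rw [transpose_add, transpose_one, hs]
  ge := ⟨1, one_pos, fun x u => by
    have := h0 x u
    rw [Matrix.add_mulVec, dotProduct_add, one_smul]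
    simp only [Matrix.zero_mulVec, dotProduct_zero] at this
    linarith⟩

theorem prod_int (hM : MF M) (hv : ∀ i, CB fun x => v x i) (hf : CBp f)
    (hA : ∀ i j, CB fun x => A x i j) (hAs : ∀ x, (A x)ᵀ = A x) (h0 : ∀ x, LeQ 0 (A x))
    (hMA : ∀ x, M x = 1 + A x) :
    Integrable (fun z : E n × E n => f z.2 * ((∑ l, bl v M z.1 l z.2 ^ 2) * gp v M z.1 z.2))
      ((gam n).prod μ) ∧
    ∫ y, ∫ x, f x * ((∑ l, bl v M y l x ^ 2) * gp v M y x) ∂μ ∂(gam n) ≤
      ∫ x, f x * (A x).trace ∂μ := by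
  obtain ⟨G, h, hp⟩ := gchan hM hv
  have key : ∀ x, Integrable (fun y => f x * ((∑ l, bl v M y l x ^ 2) * gp v M y x)) (gam n) ∧
      ∫ y, f x * ((∑ l, bl v M y l x ^ 2) * gp v M y x) ∂(gam n) ≤ f x * (A x).trace := by
    intro x
    obtain ⟨B, hBs, hBB, hB⟩ := hM.root x
    obtain ⟨h1, h2⟩ := bl_sq hM v x hBs hBB hB
    refine ⟨h1.const_mul (f x), ?_⟩
    rw [integral_const_mul]
    refine mul_le_mul_of_nonneg_left ?_ (hf.pos x).le
    have h3 := hs_one_sub_inv (hAs x) (h0 x) hBs (by rw [hBB, hMA])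
    rw [← hMA] at h3
    exact h2.le.trans h3
  have ms : StronglyMeasurable (fun z : E n × E n => f z.2 * ((∑ l, bl v M z.1 l z.2 ^ 2) *
      gp v M z.1 z.2)) := by
    refine (((hf.cont.measurable.comp measurable_snd)).mul ((Finset.measurable_fun_sum _ fun l _ =>
      (PG_bl hM hv l).meas.pow_const 2).mul hp.meas)).stronglyMeasurable
  have nn : ∀ y x, 0 ≤ f x * ((∑ l, bl v M y l x ^ 2) * gp v M y x) := fun y x =>
    mul_nonneg (hf.pos x).le (mul_nonneg (Finset.sum_nonneg fun l _ => sq_nonneg _)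
      (Real.exp_pos _).le)
  have hT : Integrable (fun x => f x * (A x).trace) μ := by
    refine BC.int ((BC.of_cb hf.1).mul ?_)
    exact BC.sum _ fun i _ => BC.of_cb (hA i i)
  have hI : Integrable (fun z : E n × E n => f z.2 * ((∑ l, bl v M z.1 l z.2 ^ 2) *
      gp v M z.1 z.2)) ((gam n).prod μ) := by
    rw [integrable_prod_iff' ms.aestronglyMeasurable]
    refine ⟨Filter.Eventually.of_forall fun x => (key x).1, ?_⟩
    refine hT.mono' ?_ (Filter.Eventually.of_forall fun x => ?_)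
    · exact (StronglyMeasurable.integral_prod_left' ms.norm).aestronglyMeasurable
    · rw [Real.norm_eq_abs, abs_of_nonneg (integral_nonneg fun y => norm_nonneg _)]
      refine le_trans (le_of_eq ?_) (key x).2
      refine integral_congr_ae (Filter.Eventually.of_forall fun y => ?_)
      simp only
      rw [Real.norm_eq_abs, abs_of_nonneg (nn y x)]
  refine ⟨hI, ?_⟩
  rw [integral_integral_swap (f := fun y x => f x * ((∑ l, bl v M y l x ^ 2) * gp v M y x)) hI]
  exact integral_mono hI.integral_prod_right hT fun x => (key x).2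

/-- pointwise bound of the score of the label law, and integrability of the bound -/
theorem pt_bd (hM : MF M) (hv : ∀ i, CB fun x => v x i) (hf : CBp f) (h1 : ∫ x, f x ∂μ = 1)
    (hA : ∀ i j, CB fun x => A x i j) (hAs : ∀ x, (A x)ᵀ = A x) (h0 : ∀ x, LeQ 0 (A x))
    (hMA : ∀ x, M x = 1 + A x) :
    (∀ y, (∑ l, (∫ x, f x * ((y l - ((M x)⁻¹ *ᵥ (y.ofLp - v x)) l) * gp v M y x) ∂μ) ^ 2) /
      pJ μ f (gp v M) y ≤ 2 * ((∑ l, (∫ x, f x * (v x l * gp v M y x) ∂μ) ^ 2) /
        pJ μ f (gp v M) y) + 2 * ∫ x, f x * ((∑ l, bl v M y l x ^ 2) * gp v M y x) ∂μ) ∧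
    Integrable (fun y => (∑ l, (∫ x, f x * (v x l * gp v M y x) ∂μ) ^ 2) /
        pJ μ f (gp v M) y) (gam n) := by
  obtain ⟨G, h, hp⟩ := gchan hM hv
  have hvb : ∃ B : ℝ, ∀ l x, |v x l| ≤ B := by
    have : ∀ i, ∃ B : ℝ, ∀ x, |v x i| ≤ B := fun i => (BC.of_cb (hv i)).2
    choose B hB using this
    exact ⟨∑ i, |B i|, fun l x => (hB l x).trans ((le_abs_self _).trans
      (Finset.single_le_sum (f := fun i => |B i|) (fun i _ => abs_nonneg _) (Finset.mem_univ l)))⟩
  obtain ⟨Bv, hBv⟩ := hvb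
  have mv : ∀ l, Measurable fun x => v x l := fun l => (hv l).1.continuous.measurable
  have iv := int_avg (μ := μ) hp hf h1 (b := fun l x => v x l) mv hBv
  refine ⟨?_, iv⟩
  have hbb : ∀ y, ∃ B : ℝ, ∀ l x, |bl v M y l x| ≤ B := by
    intro y
    have : ∀ l, ∃ B : ℝ, ∀ x, |bl v M y l x| ≤ B := fun l => (BC.of_cb ((PG_bl hM hv l).cb y)).2
    choose B hB using this
    exact ⟨∑ i, |B i|, fun l x => (hB l x).trans ((le_abs_self _).trans
      (Finset.single_le_sum (f := fun i => |B i|) (fun i _ => abs_nonneg _) (Finset.mem_univ l)))⟩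
  have mb : ∀ y l, Measurable (bl v M y l) := fun y l => ((PG_bl hM hv l).cb y).1.continuous.measurable
  intro y
  obtain ⟨Bb, hBb⟩ := hbb y
  have hZ := (pJ_bd hp hf h1 y).1
  have e1 : ∀ l, ∫ x, f x * ((y l - ((M x)⁻¹ *ᵥ (y.ofLp - v x)) l) * gp v M y x) ∂μ =
      (∫ x, f x * (v x l * gp v M y x) ∂μ) + ∫ x, f x * (bl v M y l x * gp v M y x) ∂μ := by
    intro l
    rw [← integral_add (int_fbp hp hf y (mv l) (hBv l)) (int_fbp hp hf y (mb y l) (hBb l))]
    refine integral_congr_ae (Filter.Eventually.of_forall fun x => ?_)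
    simp only
    rw [bl_eq]
    ring
  have e2 : ∑ l, ∫ x, f x * (bl v M y l x ^ 2 * gp v M y x) ∂μ =
      ∫ x, f x * ((∑ l, bl v M y l x ^ 2) * gp v M y x) ∂μ := by
    rw [← integral_finsetSum _ fun l _ => int_fbp hp hf y (b := fun x => bl v M y l x ^ 2)
      ((mb y l).pow_const 2) (B := Bb ^ 2) fun x => by
        rw [abs_pow]; exact pow_le_pow_left₀ (abs_nonneg _) (hBb l x) 2]
    refine integral_congr_ae (Filter.Eventually.of_forall fun x => ?_)
    simp only
    rw [Finset.sum_mul, Finset.mul_sum]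
  simp only [e1]
  rw [← e2, Finset.sum_div, Finset.sum_div, Finset.mul_sum, Finset.mul_sum,
    ← Finset.sum_add_distrib]
  refine Finset.sum_le_sum fun l _ => ?_
  have h3 := jensen hp hf h1 y (mb y l) (hBb l)
  set a := ∫ x, f x * (v x l * gp v M y x) ∂μ
  set c := ∫ x, f x * (bl v M y l x * gp v M y x) ∂μ
  have h4 : (a + c) ^ 2 / pJ μ f (gp v M) y ≤ (2 * a ^ 2 + 2 * c ^ 2) / pJ μ f (gp v M) y :=
    div_le_div_of_nonneg_right (by nlinarith [sq_nonneg (a - c)]) hZ.le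
  have h5 : (2 * a ^ 2 + 2 * c ^ 2) / pJ μ f (gp v M) y =
      2 * (a ^ 2 / pJ μ f (gp v M) y) + 2 * (c ^ 2 / pJ μ f (gp v M) y) := by ring
  linarith

/-- **law part**: `D(p_J|γ) ≤ E|E[v|J]|² + E tr A` -/
theorem law_le (hM : MF M) (hv : ∀ i, CB fun x => v x i) (hf : CBp f) (h1 : ∫ x, f x ∂μ = 1)
    (hA : ∀ i j, CB fun x => A x i j) (hAs : ∀ x, (A x)ᵀ = A x) (h0 : ∀ x, LeQ 0 (A x))
    (hMA : ∀ x, M x = 1 + A x) (hD : DisB μ f v M) :
    Dis μ f v M ≤ (∫ y, (∑ l, (∫ x, f x * (v x l * gp v M y x) ∂μ) ^ 2) /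
      pJ μ f (gp v M) y ∂(gam n)) + ∫ x, f x * (A x).trace ∂μ := by
  obtain ⟨G, h, hp⟩ := gchan hM hv
  obtain ⟨hI, hle⟩ := prod_int (μ := μ) hM hv hf hA hAs h0 hMA
  obtain ⟨pt, iv⟩ := pt_bd (μ := μ) hM hv hf h1 hA hAs h0 hMA
  have i2 : Integrable (fun y => 2 * ((∑ l, (∫ x, f x * (v x l * gp v M y x) ∂μ) ^ 2) /
        pJ μ f (gp v M) y) + 2 * ∫ x, f x * ((∑ l, bl v M y l x ^ 2) * gp v M y x) ∂μ) (gam n) :=
    (iv.const_mul 2).add (hI.integral_prod_left.const_mul 2)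
  have h6 := integral_mono_of_nonneg (μ := gam n) (f := fun y =>
    (∑ l, (∫ x, f x * ((y l - ((M x)⁻¹ *ᵥ (y.ofLp - v x)) l) * gp v M y x) ∂μ) ^ 2) /
      pJ μ f (gp v M) y) (Filter.Eventually.of_forall fun y => div_nonneg
        (Finset.sum_nonneg fun i _ => sq_nonneg _) (pJ_bd hp hf h1 y).1.le) i2
    (Filter.Eventually.of_forall pt)
  rw [integral_add (iv.const_mul 2) (hI.integral_prod_left.const_mul 2), integral_const_mul,
    integral_const_mul] at h6
  unfold DisB at hD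
  linarith

end Law

end Crest.Agent.R201.RG786
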