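import Crest.Agent.R201.RG3_786

/-!
# R201, LSI half (helper786): rigidity channel, the inequality (modulo the law part)
-/

set_option autoImplicit false
set_option linter.unusedSectionVars false
set_option linter.unusedVariables false
open MeasureTheory Matrix

namespace Crest.Agent.R201.RG786

open Crest.Agent.R201 Crest.Agent.R201.An Crest.Agent.R201.LL809

variable {n : ℕ}

section Rig

variable {μ : Measure (E n)} [IsProbabilityMeasure μ] {f : E n → ℝ} {A : E n → Mt n}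
  {w : Fin n → E n → ℝ} {κ K : ℝ}

/-- the mean field of the label -/
noncomputable def vk (κ : ℝ) (w : Fin n → E n → ℝ) (x : E n) (i : Fin n) : ℝ := (√κ)⁻¹ * w i x

theorem vk_cb (hw : ∀ i, CB (w i)) (κ : ℝ) (i : Fin n) : CB fun x => vk κ w x i :=
  Tw807.cb_const_mul _ (hw i)

theorem vk_dot (hκ : 0 < κ) (x : E n) : vk κ w x ⬝ᵥ vk κ w x = κ⁻¹ * ∑ i, w i x ^ 2 := by
  unfold vk
  rw [dotProduct, Finset.mul_sum]
  refine Finset.sum_congr rfl fun i _ => ?_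
  have : (√κ)⁻¹ * (√κ)⁻¹ = κ⁻¹ := by rw [← mul_inv, Real.mul_self_sqrt hκ.le]
  calc (√κ)⁻¹ * w i x * ((√κ)⁻¹ * w i x) = ((√κ)⁻¹ * (√κ)⁻¹) * w i x ^ 2 := by ring
    _ = _ := by rw [this]

theorem pdv_vk (hw : ∀ i, CB (w i)) (κ : ℝ) (k : Fin n) (x : E n) :
    pdv k (vk κ w) x = (√κ)⁻¹ • fun i => pd k (w i) x := by
  funext i
  simp only [pdv, vk, Pi.smul_apply, smul_eq_mul]
  exact Tw807.pd_const_mul _ k (Tw807.cb_diff (hw i) x)

theorem pdM_one_add (hA : ∀ i j, CB fun x => A x i j) (k : Fin n) (x : E n) :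
    pdM k (fun x => 1 + A x) x = pdM k A x := by
  ext i j
  simp only [pdM, Matrix.of_apply, Matrix.add_apply]
  rw [Tw807.pd_add k (differentiableAt_const _) (Tw807.cb_diff (hA i j) x), Tw807.pd_const, zero_add]

theorem Dis_nonneg {v : E n → Fin n → ℝ} {M : E n → Mt n} (hM : MF M)
    (hv : ∀ i, CB fun x => v x i) (hf : CBp f) (h1 : ∫ x, f x ∂μ = 1) : 0 ≤ Dis μ f v M := by
  obtain ⟨G, h, hp⟩ := gchan hM hv
  have e1 : Integrable (pJ μ f (gp v M)) (gam n) ∧ ∫ y, pJ μ f (gp v M) y ∂(gam n) = 1 := by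
    obtain ⟨a1, a2⟩ := meas_fbp (μ := μ) hp hf (b := fun _ => 1) measurable_const (B := 1) (by simp)
    simp only [one_mul, mul_one, h1] at a1 a2
    exact ⟨a1, a2⟩
  have e2 := pJlog_int (μ := μ) hp hf h1
  have e3 : ∫ y, (pJ μ f (gp v M) y - 1) ∂(gam n) = 0 := by
    rw [integral_sub e1.1 (integrable_const _), e1.2]
    simp
  unfold Dis
  rw [← e3]
  refine integral_mono (e1.1.sub (integrable_const _)) e2 fun y => ?_
  have h0 := (pJ_bd hp hf h1 y).1
  simp only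
  set z := pJ μ f (gp v M) y
  have h4 := Real.one_sub_inv_le_log_of_pos h0
  have h5 := mul_le_mul_of_nonneg_left h4 h0.le
  have h6 : z * (1 - z⁻¹) = z - 1 := by
    rw [mul_sub, mul_one, mul_inv_cancel₀ h0.ne']
  linarith

theorem rig (hL : LSI K μ) (hK : 0 ≤ K) (hf : CBp f) (h1 : ∫ x, f x ∂μ = 1)
    (hw : ∀ i, CB (w i)) (hA : ∀ i j, CB fun x => A x i j) (hAs : ∀ x, (A x)ᵀ = A x)
    (h0 : ∀ x, LeQ 0 (A x)) (hκ : 0 < κ) (hD : DisB μ f (vk κ w) (fun x => 1 + A x)) :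
    ∫ x, f x * ∑ i, w i x ^ 2 ∂μ ≤
      K * (∫ x, f x * ∑ k, (fun i => pd k (w i) x) ⬝ᵥ ((1 + A x)⁻¹ *ᵥ fun i => pd k (w i) x) ∂μ) +
      K * κ / 2 * (∫ x, f x * ∑ k, hs (pdM k A x) ∂μ) + 2 * κ * (K / 2 * Fi μ f - Ent μ f) +
      2 * (∫ y, (∑ l, (∫ x, f x * (w l x * gp (vk κ w) (fun x => 1 + A x) y x) ∂μ) ^ 2) /
        pJ μ f (gp (vk κ w) (fun x => 1 + A x)) y ∂(gam n)) +
      2 * κ * ∫ x, f x * (A x).trace ∂μ ∧
    MI μ f (gam n) (gp (vk κ w) (fun x => 1 + A x)) ≤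
      (∫ x, f x * ∑ i, w i x ^ 2 ∂μ) / (2 * κ) + 1 / 2 * ∫ x, f x * (A x).trace ∂μ := by
  have hM := MF_of hA hAs h0
  have hv := vk_cb hw κ
  obtain ⟨G, h, hp⟩ := gchan hM hv
  have hlaw := law_le hM hv hf h1 hA hAs h0 (fun _ => rfl) hD
  have hlab := lab hL hf h1 hp
  rw [LF_gp hM hv hf, MI_gp hM hv hf h1] at hlab
  have hDis := Dis_nonneg (μ := μ) hM hv hf h1
  have hMI := MI_gp (μ := μ) hM hv hf h1
  set D := Dis μ f (vk κ w) (fun x => 1 + A x) with hDd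
  have bf := BC.of_cb hf.1
  have bA : BC fun x => (A x).trace := BC.sum _ fun i _ => BC.of_cb (hA i i)
  have bw : BC fun x => ∑ i, w i x ^ 2 := BC.sum _ fun i _ => by
    have := (BC.of_cb (hw i)).mul (BC.of_cb (hw i))
    simpa [sq] using this
  have bl : BC fun x => Real.log (1 + A x).det := BC.of_cb (cbp_log hM.det_cbp)
  have bd : BC fun x => ∑ k, (fun i => pd k (w i) x) ⬝ᵥ ((1 + A x)⁻¹ *ᵥ fun i => pd k (w i) x) := by
    refine BC.sum _ fun k _ => ?_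
    simp only [dotProduct, Matrix.mulVec]
    exact BC.sum _ fun i _ => (BC.of_pd (hw i) k).mul
      (BC.sum _ fun j _ => (BC.of_cb (hM.cb_inv i j)).mul (BC.of_pd (hw j) k))
  have bh : BC fun x => ∑ k, hs (pdM k A x) := by
    refine BC.sum _ fun k _ => ?_
    unfold hs
    refine BC.sum _ fun i _ => BC.sum _ fun j _ => ?_
    have := (BC.of_pd (hA i j) k).mul (BC.of_pd (hA i j) k)
    simpa [sq, pdM] using this
  -- the law part in terms of `w`
  have e1 : ∫ y, (∑ l, (∫ x, f x * (vk κ w x l * gp (vk κ w) (fun x => 1 + A x) y x) ∂μ) ^ 2) /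
        pJ μ f (gp (vk κ w) (fun x => 1 + A x)) y ∂(gam n) =
      κ⁻¹ * ∫ y, (∑ l, (∫ x, f x * (w l x * gp (vk κ w) (fun x => 1 + A x) y x) ∂μ) ^ 2) /
        pJ μ f (gp (vk κ w) (fun x => 1 + A x)) y ∂(gam n) := by
    rw [← integral_const_mul]
    refine integral_congr_ae (Filter.Eventually.of_forall fun y => ?_)
    simp only
    rw [← mul_div_assoc, Finset.mul_sum]
    congr 1
    refine Finset.sum_congr rfl fun l _ => ?_
    have e2 : ∫ x, f x * (vk κ w x l * gp (vk κ w) (fun x => 1 + A x) y x) ∂μ =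
        (√κ)⁻¹ * ∫ x, f x * (w l x * gp (vk κ w) (fun x => 1 + A x) y x) ∂μ := by
      rw [← integral_const_mul]
      refine integral_congr_ae (Filter.Eventually.of_forall fun x => ?_)
      simp only [vk]
      ring
    rw [e2, mul_pow, inv_pow, Real.sq_sqrt hκ.le]
  rw [e1] at hlaw
  set T := ∫ y, (∑ l, (∫ x, f x * (w l x * gp (vk κ w) (fun x => 1 + A x) y x) ∂μ) ^ 2) /
        pJ μ f (gp (vk κ w) (fun x => 1 + A x)) y ∂(gam n) with hT
  -- mutual information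
  have e3 : ∫ x, f x * (vk κ w x ⬝ᵥ vk κ w x + (1 + A x).trace - n - Real.log (1 + A x).det) ∂μ =
      κ⁻¹ * (∫ x, f x * ∑ i, w i x ^ 2 ∂μ) + (∫ x, f x * (A x).trace ∂μ) -
        ∫ x, f x * Real.log (1 + A x).det ∂μ := by
    have i1 := ((bf.mul bw).smul κ⁻¹).int (μ := μ)
    have i2 := (bf.mul bA).int (μ := μ)
    have i3 := (bf.mul bl).int (μ := μ)
    have i12 : Integrable (fun x => κ⁻¹ * (f x * ∑ i, w i x ^ 2) + f x * (A x).trace) μ := i1.add i2
    rw [← integral_const_mul, ← integral_add i1 i2, ← integral_sub i12 i3]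
    refine integral_congr_ae (Filter.Eventually.of_forall fun x => ?_)
    simp only
    rw [vk_dot hκ, Matrix.trace_add, Matrix.trace_one, Fintype.card_fin]
    ring
  have i4 : 0 ≤ ∫ x, f x * Real.log (1 + A x).det ∂μ := integral_nonneg fun x =>
    mul_nonneg (hf.pos x).le (logdet_bd (hAs x) (h0 x)).1
  have i5 : ∫ x, f x * Real.log (1 + A x).det ∂μ ≤ ∫ x, f x * (A x).trace ∂μ :=
    integral_mono (bf.mul bl).int (bf.mul bA).int fun x =>
      mul_le_mul_of_nonneg_left (logdet_bd (hAs x) (h0 x)).2 (hf.pos x).le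
  -- Fisher information
  have e4 : ∫ x, f x * ∑ k, (pdv k (vk κ w) x ⬝ᵥ ((1 + A x)⁻¹ *ᵥ pdv k (vk κ w) x) +
      (1 / 2) * ((1 + A x)⁻¹ * pdM k (fun x => 1 + A x) x * (1 + A x)⁻¹ *
        pdM k (fun x => 1 + A x) x).trace) ∂μ ≤
      κ⁻¹ * (∫ x, f x * ∑ k, (fun i => pd k (w i) x) ⬝ᵥ
        ((1 + A x)⁻¹ *ᵥ fun i => pd k (w i) x) ∂μ) +
      1 / 2 * (∫ x, f x * ∑ k, hs (pdM k A x) ∂μ) := by
    have i1 := ((bf.mul bd).smul κ⁻¹).int (μ := μ)
    have i2 := ((bf.mul bh).smul (1 / 2)).int (μ := μ)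
    rw [← integral_const_mul, ← integral_const_mul, ← integral_add i1 i2]
    refine integral_mono_of_nonneg (Filter.Eventually.of_forall fun x => ?_) (i1.add i2)
      (Filter.Eventually.of_forall fun x => ?_)
    · refine mul_nonneg (hf.pos x).le (Finset.sum_nonneg fun k _ => ?_)
      rw [← (gp_moments hM hv x).2.2.1 k]
      exact integral_nonneg fun y => mul_nonneg (sq_nonneg _) (Real.exp_pos _).le
    · have e5 : ∑ k, (pdv k (vk κ w) x ⬝ᵥ ((1 + A x)⁻¹ *ᵥ pdv k (vk κ w) x) +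
          (1 / 2) * ((1 + A x)⁻¹ * pdM k (fun x => 1 + A x) x * (1 + A x)⁻¹ *
            pdM k (fun x => 1 + A x) x).trace) ≤
          κ⁻¹ * (∑ k, (fun i => pd k (w i) x) ⬝ᵥ ((1 + A x)⁻¹ *ᵥ fun i => pd k (w i) x)) +
          1 / 2 * ∑ k, hs (pdM k A x) := by
        rw [Finset.mul_sum, Finset.mul_sum, ← Finset.sum_add_distrib]
        refine Finset.sum_le_sum fun k _ => ?_
        have e6 := trace_inv_le (hAs x) (h0 x) (K := pdM k A x) (by
          rw [← pdM_one_add hA]; exact pdM_symm hM k x)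
        rw [pdM_one_add hA, pdv_vk hw, Matrix.mulVec_smul, smul_dotProduct, dotProduct_smul,
          smul_eq_mul, smul_eq_mul, ← mul_assoc]
        have e7 : (√κ)⁻¹ * (√κ)⁻¹ = κ⁻¹ := by rw [← mul_inv, Real.mul_self_sqrt hκ.le]
        rw [e7]
        linarith
      have e8 := mul_le_mul_of_nonneg_left e5 (hf.pos x).le
      refine e8.trans (le_of_eq ?_)
      simp only
      ring
  rw [e3] at hlab hMI
  set W := ∫ x, f x * ∑ i, w i x ^ 2 ∂μ with hW
  set TA := ∫ x, f x * (A x).trace ∂μ with hTA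
  set LG := ∫ x, f x * Real.log (1 + A x).det ∂μ with hLG
  set F1 := ∫ x, f x * ∑ k, (fun i => pd k (w i) x) ⬝ᵥ
        ((1 + A x)⁻¹ *ᵥ fun i => pd k (w i) x) ∂μ with hF1
  set F2 := ∫ x, f x * ∑ k, hs (pdM k A x) ∂μ with hF2
  constructor
  · have h3 := mul_le_mul_of_nonneg_left e4 (by positivity : 0 ≤ K / 2)
    have h4 : 1 / 2 * (κ⁻¹ * W + TA - LG) - D ≤
        K / 2 * (κ⁻¹ * F1 + 1 / 2 * F2) + (K / 2 * Fi μ f - Ent μ f) := by linarith
    have h5 := mul_le_mul_of_nonneg_left h4 (by positivity : 0 ≤ 2 * κ)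
    have h6 := mul_le_mul_of_nonneg_left hlaw (by positivity : 0 ≤ 2 * κ)
    have h7 : 2 * κ * (1 / 2 * (κ⁻¹ * W + TA - LG) - D) = W + κ * (TA - LG) - 2 * κ * D := by
      field_simp
      ring
    have h8 : 2 * κ * (K / 2 * (κ⁻¹ * F1 + 1 / 2 * F2) + (K / 2 * Fi μ f - Ent μ f)) =
        K * F1 + K * κ / 2 * F2 + 2 * κ * (K / 2 * Fi μ f - Ent μ f) := by
      field_simp
    have h9 : 2 * κ * (κ⁻¹ * T + TA) = 2 * T + 2 * κ * TA := by
      field_simp
    have h10 : 0 ≤ κ * (TA - LG) := mul_nonneg hκ.le (by linarith)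
    rw [h7, h8] at h5
    rw [h9] at h6
    linarith
  · have h3 : W / (2 * κ) = 1 / 2 * (κ⁻¹ * W) := by field_simp
    rw [h3]
    linarith

end Rig

end Crest.Agent.R201.RG786
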