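import Crest.Agent.R201.RG4_786
import Crest.Agent.R201.LabG4_809
import Crest.Agent.R201.CH_238

/-!
# R201, block RG (helper238, second hand): bridge of the law part and the literal
-/

set_option autoImplicit false
set_option maxHeartbeats 400000
open MeasureTheory Matrix Filter Topology ProbabilityTheory
open scoped ContDiff

namespace Crest.Agent.R201.RGL238

open Crest.Agent.R201 Crest.Agent.R201.LL809

variable {n : ℕ}

/-- law part in 786's form -/
theorem disB {μ : Measure (E n)} [IsProbabilityMeasure μ] {f : E n → ℝ} {M : E n → Mt n}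
    {v : E n → Fin n → ℝ} (hM : MF M) (hv : ∀ i, CB fun x => v x i) (hf : CBp f)
    (h1 : ∫ x, f x ∂μ = 1) : RG786.DisB μ f v M := by
  obtain ⟨hsm, hpd⟩ := pJ_smooth (μ := μ) hM hv hf
  obtain ⟨G, h, hp⟩ := gchan hM hv
  have hpos := pJ_pos' (μ := μ) hM hv hf h1
  obtain ⟨ipJ, one⟩ := CH238.pJ_mass (μ := μ) hp hf h1
  have hsc := fun l => (PG_sc hM hv l).pb
  have efd : ∀ y, ‖fderiv ℝ (pJ μ f (gp v M)) y‖ ^ 2 / pJ μ f (gp v M) y =
      ∑ l, (∫ x, f x * (sc (v x) (M x) l y * gd (v x) (M x) y) ∂μ) ^ 2 / pJ μ f (gp v M) y := by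
    intro y
    rw [An.norm_fderiv_sq, Finset.sum_div]
    simp only [hpd]
  have ice : Integrable (fun y => ‖fderiv ℝ (pJ μ f (gp v M)) y‖ ^ 2 / pJ μ f (gp v M) y)
      (gam n) := by
    simp only [efd]
    exact integrable_finsetSum _ fun l _ => ce_int hM hv hf h1 (hsc l)
  have key := (NSL674.gauss_lsi hsm hpos (by rw [← gam_eq]; exact ipJ)
    (by rw [← gam_eq]; exact ice)).2
  rw [← gam_eq, one, Real.log_one, mul_zero, sub_zero] at key
  unfold RG786.DisB Dis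
  refine key.trans (le_of_eq ?_)
  congr 1
  refine integral_congr_ae (Eventually.of_forall fun y => ?_)
  simp only
  rw [efd, ← Finset.sum_div]
  congr 1
  refine Finset.sum_congr rfl fun l _ => ?_
  congr 1
  refine integral_congr_ae (Eventually.of_forall fun x => ?_)
  simp only
  rw [RG786.bl_eq]
  rfl

theorem rg_238 : L74.RG := by
  intro n ε S hε A κ hκ hA hAc hAs hA0
  haveI := S.prob_μ
  have hε0 : 0 < ε := S.h_pos.trans_le S.h_le
  have hf : CBp S.f := S.f_cbp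
  have hAcb : ∀ i j, CB fun x => A x i j := fun i j => Tw807.cb_c1 (hA i j) (hAc i j)
  have hM := RG786.MF_of hAcb hAs hA0
  have hv := RG786.vk_cb S.w_cb κ
  obtain ⟨G, h, hp⟩ := gchan hM hv
  obtain ⟨r1, r2⟩ := RG786.rig (μ := S.μ) S.lsi (by linarith) hf S.f_one S.w_cb hAcb hAs hA0 hκ
    (disB hM hv hf S.f_one)
  have hν : S.ν = CH238.nu S.μ S.f := S.ν_eq
  have hFi : Fi S.μ S.f = nsq S.ν S.w := by rw [hν]; exact CH238.fi_eq hf S.w S.w_eq
  have hS1 := S.S1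
  have hS3 := S.S3 _ G h hp
  have hW : ∫ x, S.f x * ∑ i, S.w i x ^ 2 ∂S.μ = nsq S.ν S.w := by
    have e := CH238.nsq_nu (μ := S.μ) hf S.w
    rw [hν, e]
    have ii : ∀ i, Integrable (fun x => S.f x * S.w i x ^ 2) S.μ := fun i => by
      have := ((RG786.BC.of_cb hf.1).mul ((RG786.BC.of_cb (S.w_cb i)).mul
        (RG786.BC.of_cb (S.w_cb i)))).int (μ := S.μ)
      simpa [sq] using this
    rw [← integral_finsetSum _ fun i _ => ii i]
    simp only [Finset.mul_sum]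
  rw [hW, hFi] at r1
  rw [hW] at r2
  change nsq S.ν S.w ≤
      (1 + ε) * (∫ x, ∑ k, (fun i => pd k (S.w i) x) ⬝ᵥ
        ((1 + A x)⁻¹ *ᵥ fun i => pd k (S.w i) x) ∂S.ν) +
      (1 + ε) * κ / 2 * (∫ x, ∑ k, hs (pdM k (fun x => A x) x) ∂S.ν) +
      2 * κ * (ε * nsq S.ν S.w) +
      2 * ε * (nsq S.ν S.w + nsq S.ν S.w / (2 * κ) + 1 / 2 * ∫ x, (A x).trace ∂S.ν) +
      2 * κ * ∫ x, (A x).trace ∂S.ν
  simp only [hν, CH238.int_nu hf] at *
  have h3 : ε * MI S.μ S.f (gam n) (gp (RG786.vk κ S.w) fun x => 1 + A x) ≤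
      ε * (nsq (CH238.nu S.μ S.f) S.w / (2 * κ) + 1 / 2 * ∫ x, S.f x * (A x).trace ∂S.μ) :=
    mul_le_mul_of_nonneg_left r2 hε0.le
  have h4 : 2 * κ * ((1 + ε) / 2 * nsq (CH238.nu S.μ S.f) S.w - Ent S.μ S.f) ≤
      2 * κ * (ε * nsq (CH238.nu S.μ S.f) S.w) :=
    mul_le_mul_of_nonneg_left hS1 (by positivity)
  linarith

end Crest.Agent.R201.RGL238
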