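import Crest.Agent.R201.Spec_152

/-!
# R201: spectral calculus `f(A)` for real symmetric matrices, and its derivative (helper95)

`sf f A` = `f` of the symmetric part of `A`; for `f ∈ C¹` the map `sf f` is `C¹` on all matrices,
with derivative = divided differences in any eigenframe (`dsf_apply`).
-/

set_option autoImplicit false
set_option linter.unusedSectionVars false
open Matrix Filter Topology
open scoped Matrix.Norms.Frobenius
attribute [-instance] instTopologicalSpaceMatrix Matrix.instUniformSpace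

namespace Crest.Agent.R201.Sf95

open Crest.Agent.R201 NB152

variable {m : Type*} [Fintype m] [DecidableEq m]

/-! ## Frobenius norm -/

theorem norm_sq (A : Matrix m m ℝ) : ‖A‖ ^ 2 = hs A := by
  rw [frobenius_norm_def, hs]
  simp only [Real.rpow_two, Real.norm_eq_abs, sq_abs]
  rw [← Real.rpow_natCast, ← Real.rpow_mul (Finset.sum_nonneg fun _ _ => Finset.sum_nonneg fun _ _ => sq_nonneg _)]
  norm_num

theorem norm_le_of_hs {A B : Matrix m m ℝ} {c : ℝ} (hc : 0 ≤ c) (h : hs A ≤ c ^ 2 * hs B) :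
    ‖A‖ ≤ c * ‖B‖ := by
  rw [← norm_sq, ← norm_sq, ← mul_pow] at h
  exact le_of_sq_le_sq h (by positivity)

theorem hs_conj {U : Matrix m m ℝ} (h1 : Uᵀ * U = 1) (X : Matrix m m ℝ) : hs (U * X * Uᵀ) = hs X := by
  rw [hs_eq_trace, hs_eq_trace, Matrix.transpose_mul, Matrix.transpose_mul, Matrix.transpose_transpose]
  have : U * X * Uᵀ * (U * (Xᵀ * Uᵀ)) = U * (X * Xᵀ * Uᵀ) := by
    calc U * X * Uᵀ * (U * (Xᵀ * Uᵀ)) = U * X * (Uᵀ * U) * (Xᵀ * Uᵀ) := by noncomm_ring
      _ = U * (X * Xᵀ * Uᵀ) := by rw [h1]; noncomm_ring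
  rw [this, Matrix.trace_mul_comm, Matrix.mul_assoc, h1, Matrix.mul_one]

theorem hs_conj' {U : Matrix m m ℝ} (h2 : U * Uᵀ = 1) (X : Matrix m m ℝ) : hs (Uᵀ * X * U) = hs X := by
  have := hs_conj (U := Uᵀ) (by rwa [Matrix.transpose_transpose]) X
  rwa [Matrix.transpose_transpose] at this

/-! ## the symmetric part -/

/-- symmetric part -/
noncomputable def symp (A : Matrix m m ℝ) : Matrix m m ℝ := (1 / 2 : ℝ) • (A + Aᵀ)

theorem symp_transpose (A : Matrix m m ℝ) : (symp A)ᵀ = symp A := by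
  simp only [symp, Matrix.transpose_smul, Matrix.transpose_add, Matrix.transpose_transpose, add_comm]

theorem symp_of_symm {A : Matrix m m ℝ} (h : Aᵀ = A) : symp A = A := by
  rw [symp, h, ← two_smul ℝ A, smul_smul]
  norm_num

theorem symp_add (A B : Matrix m m ℝ) : symp (A + B) = symp A + symp B := by
  simp only [symp, Matrix.transpose_add, ← smul_add]
  congr 1
  abel

theorem symp_smul (c : ℝ) (A : Matrix m m ℝ) : symp (c • A) = c • symp A := by
  simp only [symp, Matrix.transpose_smul, ← smul_add, smul_comm c]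

theorem hs_symp_le (A : Matrix m m ℝ) : hs (symp A) ≤ hs A := by
  have h1 : hs (A + Aᵀ) ≤ 4 * hs A := by
    have := hs_add_le A Aᵀ
    rw [hs_transpose] at this
    linarith
  rw [symp, hs_smul]
  linarith

/-- the symmetric part as a continuous linear map -/
noncomputable def sympL (m : Type*) [Fintype m] [DecidableEq m] : Matrix m m ℝ →L[ℝ] Matrix m m ℝ :=
  LinearMap.toContinuousLinearMap
    { toFun := symp
      map_add' := symp_add
      map_smul' := fun c A => symp_smul c A }

@[simp] theorem sympL_apply (A : Matrix m m ℝ) : sympL m A = symp A := rfl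

/-! ## chosen eigenframe, `sf` -/

/-- chosen eigenframe of the symmetric part -/
noncomputable def eU (A : Matrix m m ℝ) : Matrix m m ℝ := (diagonalize (symp_transpose A)).choose
/-- chosen eigenvalues of the symmetric part -/
noncomputable def eL (A : Matrix m m ℝ) : m → ℝ := (diagonalize (symp_transpose A)).choose_spec.choose

theorem eU_left (A : Matrix m m ℝ) : (eU A)ᵀ * eU A = 1 :=
  (diagonalize (symp_transpose A)).choose_spec.choose_spec.1
theorem eU_right (A : Matrix m m ℝ) : eU A * (eU A)ᵀ = 1 :=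
  (diagonalize (symp_transpose A)).choose_spec.choose_spec.2.1
theorem eU_spec (A : Matrix m m ℝ) : symp A = spec (eU A) (eL A) :=
  (diagonalize (symp_transpose A)).choose_spec.choose_spec.2.2

/-- `f` of (the symmetric part of) a matrix -/
noncomputable def sf (f : ℝ → ℝ) (A : Matrix m m ℝ) : Matrix m m ℝ :=
  spec (eU A) (fun i => f (eL A i))

/-- `A` has symmetric part `U diag l Uᵀ` -/
structure Frame (A U : Matrix m m ℝ) (l : m → ℝ) : Prop where
  left : Uᵀ * U = 1
  right : U * Uᵀ = 1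
  eq : symp A = spec U l

theorem frame_e (A : Matrix m m ℝ) : Frame A (eU A) (eL A) := ⟨eU_left A, eU_right A, eU_spec A⟩

theorem exists_frame (A : Matrix m m ℝ) : ∃ U l, Frame A U l := ⟨_, _, frame_e A⟩

theorem spec_congr {U V : Matrix m m ℝ} {k l : m → ℝ} (hU : Uᵀ * U = 1) (hU' : U * Uᵀ = 1)
    (hV : Vᵀ * V = 1) (hV' : V * Vᵀ = 1) (h : spec U k = spec V l) (f : ℝ → ℝ) :
    spec U (fun i => f (k i)) = spec V (fun i => f (l i)) := by
  have h1 : diagonal k * (Uᵀ * V) = Uᵀ * V * diagonal l := by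
    have e1 : Uᵀ * spec U k * V = diagonal k * (Uᵀ * V) := by
      unfold spec
      calc Uᵀ * (U * diagonal k * Uᵀ) * V = (Uᵀ * U) * diagonal k * (Uᵀ * V) := by noncomm_ring
        _ = _ := by rw [hU, Matrix.one_mul]
    have e2 : Uᵀ * spec V l * V = Uᵀ * V * diagonal l := by
      unfold spec
      calc Uᵀ * (V * diagonal l * Vᵀ) * V = Uᵀ * V * diagonal l * (Vᵀ * V) := by noncomm_ring
        _ = _ := by rw [hV, Matrix.mul_one]
    rw [← e1, ← e2, h]
  have h2 : diagonal (fun i => f (k i)) * (Uᵀ * V) = Uᵀ * V * diagonal (fun i => f (l i)) := by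
    ext i j
    have := congrFun (congrFun h1 i) j
    rw [Matrix.diagonal_mul, Matrix.mul_diagonal] at this ⊢
    by_cases hij : (Uᵀ * V) i j = 0
    · rw [hij]; ring
    · have : k i = l j := by
        have h3 : (k i - l j) * (Uᵀ * V) i j = 0 := by linarith
        rcases mul_eq_zero.1 h3 with h | h
        · linarith
        · exact absurd h hij
      rw [this]; ring
  unfold spec
  calc U * diagonal (fun i => f (k i)) * Uᵀ
      = U * diagonal (fun i => f (k i)) * Uᵀ * (V * Vᵀ) := by rw [hV', Matrix.mul_one]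
    _ = U * (diagonal (fun i => f (k i)) * (Uᵀ * V)) * Vᵀ := by noncomm_ring
    _ = U * (Uᵀ * V * diagonal (fun i => f (l i))) * Vᵀ := by rw [h2]
    _ = (U * Uᵀ) * V * diagonal (fun i => f (l i)) * Vᵀ := by noncomm_ring
    _ = _ := by rw [hU', Matrix.one_mul]

theorem sf_eq {A U : Matrix m m ℝ} {l : m → ℝ} (h : Frame A U l) (f : ℝ → ℝ) :
    sf f A = spec U (fun i => f (l i)) :=
  spec_congr (eU_left A) (eU_right A) h.left h.right ((eU_spec A).symm.trans h.eq) f

theorem sf_transpose (f : ℝ → ℝ) (A : Matrix m m ℝ) : (sf f A)ᵀ = sf f A := spec_transpose _ _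

theorem frame_sf {A U : Matrix m m ℝ} {l : m → ℝ} (h : Frame A U l) (f : ℝ → ℝ) :
    Frame (sf f A) U (fun i => f (l i)) :=
  ⟨h.left, h.right, by rw [symp_of_symm (sf_transpose f A), sf_eq h f]⟩

theorem sf_mul (f g : ℝ → ℝ) (A : Matrix m m ℝ) : sf f A * sf g A = sf (fun x => f x * g x) A := by
  rw [sf, sf, spec_mul (eU_left A)]
  rfl

theorem sf_add (f g : ℝ → ℝ) (A : Matrix m m ℝ) : sf f A + sf g A = sf (fun x => f x + g x) A := by
  rw [sf, sf, spec_add]
  rfl

theorem sf_sub (f g : ℝ → ℝ) (A : Matrix m m ℝ) : sf f A - sf g A = sf (fun x => f x - g x) A := by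
  rw [sf, sf, spec_sub]
  rfl

theorem sf_smul (c : ℝ) (f : ℝ → ℝ) (A : Matrix m m ℝ) : c • sf f A = sf (fun x => c * f x) A := by
  rw [sf, spec_smul]
  rfl

theorem sf_one (A : Matrix m m ℝ) : sf (fun _ => 1) A = 1 := spec_one (eU_right A)

theorem sf_id (A : Matrix m m ℝ) : sf (fun x => x) A = symp A := (eU_spec A).symm

theorem sf_const (c : ℝ) (A : Matrix m m ℝ) : sf (fun _ => c) A = c • (1 : Matrix m m ℝ) := by
  rw [← sf_one A, sf_smul, mul_one]

theorem sf_comp (g f : ℝ → ℝ) (A : Matrix m m ℝ) : sf g (sf f A) = sf (fun x => g (f x)) A :=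
  sf_eq (frame_sf (frame_e A) f) g

theorem trace_spec {U : Matrix m m ℝ} (hU : Uᵀ * U = 1) (l : m → ℝ) : (spec U l).trace = ∑ i, l i := by
  unfold spec
  rw [Matrix.mul_assoc, Matrix.trace_mul_comm, Matrix.mul_assoc, hU, Matrix.mul_one, Matrix.trace_diagonal]

theorem hs_spec {U : Matrix m m ℝ} (hU : Uᵀ * U = 1) (l : m → ℝ) : hs (spec U l) = ∑ i, l i ^ 2 := by
  rw [hs_eq_trace, spec_transpose, spec_mul hU, trace_spec hU]
  simp only [pow_two]

theorem sf_mono {f g : ℝ → ℝ} (A : Matrix m m ℝ) (h : ∀ x, f x ≤ g x) : LeQ (sf f A) (sf g A) :=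
  spec_mono _ fun _ => h _

end Crest.Agent.R201.Sf95
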