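import Crest.Agent.R201.Sf1_95

/-!
# R201: derivative of the spectral calculus (helper95)
-/

set_option autoImplicit false
set_option linter.unusedSectionVars false
open Matrix Filter Topology
open scoped Matrix.Norms.Frobenius
attribute [-instance] instTopologicalSpaceMatrix Matrix.instUniformSpace

namespace Crest.Agent.R201.Sf95

open Crest.Agent.R201 NB152

variable {m : Type*} [Fintype m] [DecidableEq m]

/-! ## divided differences -/

/-- divided difference (`deriv f a` on the diagonal) -/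
noncomputable def dd (f : ℝ → ℝ) (a b : ℝ) : ℝ := dslope f a b

theorem sub_mul_dd (f : ℝ → ℝ) (a b : ℝ) : (b - a) * dd f a b = f b - f a := sub_smul_dslope f a b

theorem dd_self (f : ℝ → ℝ) (a : ℝ) : dd f a a = deriv f a := dslope_same f a

theorem dd_of_ne {f : ℝ → ℝ} {a b : ℝ} (h : b ≠ a) : dd f a b = (f b - f a) / (b - a) := by
  rw [dd, dslope_of_ne f h, slope_def_field]

theorem dd_comm (f : ℝ → ℝ) (a b : ℝ) : dd f a b = dd f b a := by
  rcases eq_or_ne a b with rfl | h
  · rfl
  · rw [dd_of_ne h.symm, dd_of_ne h, ← neg_sub (f b) (f a), ← neg_sub b a, neg_div_neg_eq]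

theorem dd_unique {f : ℝ → ℝ} {a b v : ℝ} (h : (b - a) * v = f b - f a)
    (h' : a = b → v = deriv f a) : dd f a b = v := by
  rcases eq_or_ne a b with rfl | hab
  · rw [dd_self, h' rfl]
  · have h1 := sub_mul_dd f a b
    rw [← h] at h1
    exact mul_left_cancel₀ (sub_ne_zero.2 hab.symm) h1

/-- mean value theorem -/
theorem exists_dd {f : ℝ → ℝ} (hf : Differentiable ℝ f) (a b : ℝ) :
    ∃ c ∈ Set.uIcc a b, dd f a b = deriv f c := by
  wlog hab : a ≤ b generalizing a b with H
  · obtain ⟨c, hc, e⟩ := H b a (le_of_not_ge hab)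
    exact ⟨c, by rwa [Set.uIcc_comm], by rw [dd_comm, e]⟩
  rcases hab.eq_or_lt with rfl | hlt
  · exact ⟨a, by simp, dd_self f a⟩
  · obtain ⟨c, hc, e⟩ := exists_deriv_eq_slope f hlt hf.continuous.continuousOn hf.differentiableOn
    refine ⟨c, ?_, ?_⟩
    · rw [Set.uIcc_of_le hab]; exact ⟨hc.1.le, hc.2.le⟩
    · rw [dd_of_ne hlt.ne', e]

theorem dd_sub {f g : ℝ → ℝ} (hf : Differentiable ℝ f) (hg : Differentiable ℝ g) (a b : ℝ) :
    dd (fun x => f x - g x) a b = dd f a b - dd g a b := by
  refine dd_unique ?_ ?_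
  · rw [mul_sub, sub_mul_dd, sub_mul_dd]; ring
  · rintro rfl
    rw [dd_self, dd_self, deriv_fun_sub (hf a) (hg a)]

theorem dd_add {f g : ℝ → ℝ} (hf : Differentiable ℝ f) (hg : Differentiable ℝ g) (a b : ℝ) :
    dd (fun x => f x + g x) a b = dd f a b + dd g a b := by
  refine dd_unique ?_ ?_
  · rw [mul_add, sub_mul_dd, sub_mul_dd]; ring
  · rintro rfl
    rw [dd_self, dd_self, deriv_fun_add (hf a) (hg a)]

theorem dd_const_mul (c : ℝ) {f : ℝ → ℝ} (hf : Differentiable ℝ f) (a b : ℝ) :
    dd (fun x => c * f x) a b = c * dd f a b := by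
  refine dd_unique ?_ ?_
  · rw [mul_left_comm, sub_mul_dd]; ring
  · rintro rfl
    rw [dd_self, deriv_const_mul c (hf a)]

theorem dd_const (c a b : ℝ) : dd (fun _ => c) a b = 0 := by
  refine dd_unique (by simp) ?_
  rintro rfl
  simp

theorem dd_id (a b : ℝ) : dd (fun x => x) a b = 1 := by
  refine dd_unique (by simp) ?_
  rintro rfl
  simp

/-- Leibniz rule -/
theorem dd_mul {f g : ℝ → ℝ} (hf : Differentiable ℝ f) (hg : Differentiable ℝ g) (a b : ℝ) :
    dd (fun x => f x * g x) a b = f a * dd g a b + dd f a b * g b := by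
  refine dd_unique ?_ ?_
  · have h1 := sub_mul_dd f a b
    have h2 := sub_mul_dd g a b
    linear_combination f a * h2 + g b * h1
  · rintro rfl
    rw [dd_self, dd_self, deriv_fun_mul (hf a) (hg a)]
    ring

/-! ## Hadamard multipliers in a frame -/

/-- the linear map `H ↦ U (c ∘ (Uᵀ H U)) Uᵀ` -/
noncomputable def had (c : m → m → ℝ) (U H : Matrix m m ℝ) : Matrix m m ℝ :=
  U * (Matrix.of fun i j => c i j * (Uᵀ * H * U) i j) * Uᵀ

theorem had_add (c : m → m → ℝ) (U H K : Matrix m m ℝ) : had c U (H + K) = had c U H + had c U K := by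
  unfold had
  rw [← Matrix.add_mul, ← Matrix.mul_add]
  congr 2
  ext i j
  simp only [Matrix.add_mul, Matrix.add_apply, Matrix.of_apply, mul_add]

theorem had_smul (c : m → m → ℝ) (U : Matrix m m ℝ) (t : ℝ) (H : Matrix m m ℝ) :
    had c U (t • H) = t • had c U H := by
  unfold had
  rw [← Matrix.smul_mul, ← Matrix.mul_smul]
  congr 2
  ext i j
  simp only [Matrix.mul_smul, Matrix.smul_mul, Matrix.smul_apply, Matrix.of_apply, smul_eq_mul]
  ring

theorem had_sub_left (c d : m → m → ℝ) (U H : Matrix m m ℝ) :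
    had c U H - had d U H = had (fun i j => c i j - d i j) U H := by
  unfold had
  rw [← Matrix.sub_mul, ← Matrix.mul_sub]
  congr 2
  ext i j
  simp only [Matrix.sub_apply, Matrix.of_apply]
  ring

theorem had_add_left (c d : m → m → ℝ) (U H : Matrix m m ℝ) :
    had c U H + had d U H = had (fun i j => c i j + d i j) U H := by
  unfold had
  rw [← Matrix.add_mul, ← Matrix.mul_add]
  congr 2
  ext i j
  simp only [Matrix.add_apply, Matrix.of_apply]
  ring

theorem had_smul_left (t : ℝ) (c : m → m → ℝ) (U H : Matrix m m ℝ) :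
    t • had c U H = had (fun i j => t * c i j) U H := by
  unfold had
  rw [← Matrix.smul_mul, ← Matrix.mul_smul]
  congr 2
  ext i j
  simp only [Matrix.smul_apply, Matrix.of_apply, smul_eq_mul]
  ring

theorem had_coord {U : Matrix m m ℝ} (h1 : Uᵀ * U = 1) (c : m → m → ℝ) (H : Matrix m m ℝ) :
    Uᵀ * had c U H * U = Matrix.of fun i j => c i j * (Uᵀ * H * U) i j := by
  unfold had
  calc Uᵀ * (U * (Matrix.of fun i j => c i j * (Uᵀ * H * U) i j) * Uᵀ) * U
      = (Uᵀ * U) * (Matrix.of fun i j => c i j * (Uᵀ * H * U) i j) * (Uᵀ * U) := by noncomm_ring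
    _ = _ := by rw [h1, Matrix.one_mul, Matrix.mul_one]

theorem hs_had {U : Matrix m m ℝ} (h1 : Uᵀ * U = 1) (c : m → m → ℝ) (H : Matrix m m ℝ) :
    hs (had c U H) = ∑ i, ∑ j, c i j ^ 2 * (Uᵀ * H * U) i j ^ 2 := by
  unfold had
  rw [hs_conj h1]
  simp only [hs, Matrix.of_apply, mul_pow]

theorem hs_had_le {U : Matrix m m ℝ} (h1 : Uᵀ * U = 1) (h2 : U * Uᵀ = 1) {c : m → m → ℝ} {C : ℝ}
    (hc : ∀ i j, |c i j| ≤ C) (H : Matrix m m ℝ) : hs (had c U H) ≤ C ^ 2 * hs H := by
  rw [hs_had h1, ← hs_conj' h2 H, hs]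
  simp only [Finset.mul_sum]
  refine Finset.sum_le_sum fun i _ => Finset.sum_le_sum fun j _ => ?_
  refine mul_le_mul_of_nonneg_right ?_ (sq_nonneg _)
  rw [← sq_abs]
  exact pow_le_pow_left₀ (abs_nonneg _) (hc i j) 2

/-- `had` as a continuous linear map -/
noncomputable def hadL (c : m → m → ℝ) (U : Matrix m m ℝ) : Matrix m m ℝ →L[ℝ] Matrix m m ℝ :=
  LinearMap.toContinuousLinearMap
    { toFun := had c U
      map_add' := had_add c U
      map_smul' := fun t H => had_smul c U t H }

@[simp] theorem hadL_apply (c : m → m → ℝ) (U H : Matrix m m ℝ) : hadL c U H = had c U H := rfl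

/-! ## powers and polynomials -/

theorem conj_spec_mul {U : Matrix m m ℝ} (h1 : Uᵀ * U = 1) (l : m → ℝ) (H : Matrix m m ℝ) :
    Uᵀ * (spec U l * H) * U = diagonal l * (Uᵀ * H * U) := by
  unfold spec
  calc Uᵀ * (U * diagonal l * Uᵀ * H) * U = (Uᵀ * U) * diagonal l * (Uᵀ * H * U) := by noncomm_ring
    _ = _ := by rw [h1, Matrix.one_mul]

theorem conj_mul_spec {U : Matrix m m ℝ} (h1 : Uᵀ * U = 1) (l : m → ℝ) (H : Matrix m m ℝ) :
    Uᵀ * (H * spec U l) * U = Uᵀ * H * U * diagonal l := by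
  unfold spec
  calc Uᵀ * (H * (U * diagonal l * Uᵀ)) * U = (Uᵀ * H * U) * diagonal l * (Uᵀ * U) := by noncomm_ring
    _ = _ := by rw [h1, Matrix.mul_one]

theorem conj_inj {U X Y : Matrix m m ℝ} (h2 : U * Uᵀ = 1) (h : Uᵀ * X * U = Uᵀ * Y * U) : X = Y := by
  have : U * (Uᵀ * X * U) * Uᵀ = U * (Uᵀ * Y * U) * Uᵀ := by rw [h]
  have e : ∀ Z : Matrix m m ℝ, U * (Uᵀ * Z * U) * Uᵀ = Z := fun Z => by
    calc U * (Uᵀ * Z * U) * Uᵀ = (U * Uᵀ) * Z * (U * Uᵀ) := by noncomm_ring
      _ = Z := by rw [h2, Matrix.one_mul, Matrix.mul_one]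
  rwa [e, e] at this

theorem spec_pow {U : Matrix m m ℝ} (h1 : Uᵀ * U = 1) (h2 : U * Uᵀ = 1) (l : m → ℝ) (k : ℕ) :
    spec U l ^ k = spec U (fun i => l i ^ k) := by
  induction k with
  | zero => simp only [pow_zero, spec_one h2]
  | succ k ih => rw [pow_succ, ih, spec_mul h1]; simp only [pow_succ]

theorem hasFDerivAt_pow' {U : Matrix m m ℝ} (h1 : Uᵀ * U = 1) (h2 : U * Uᵀ = 1) (l : m → ℝ) (k : ℕ) :
    HasFDerivAt (fun A : Matrix m m ℝ => A ^ k)
      (hadL (fun i j => dd (fun x => x ^ k) (l i) (l j)) U) (spec U l) := by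
  induction k with
  | zero =>
    have e : (hadL (fun i j => dd (fun x : ℝ => x ^ 0) (l i) (l j)) U) = 0 := by
      ext H : 1
      change had _ U H = 0
      have : (fun x : ℝ => x ^ 0) = fun _ => (1 : ℝ) := by funext x; simp
      simp only [this, dd_const, had, zero_mul]
      have : (Matrix.of fun _ _ => (0 : ℝ) : Matrix m m ℝ) = 0 := rfl
      rw [this, Matrix.mul_zero, Matrix.zero_mul]
    rw [e]
    simpa using hasFDerivAt_const (1 : Matrix m m ℝ) (spec U l)
  | succ k ih =>
    have h := HasFDerivAt.mul' ih (hasFDerivAt_id (spec U l))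
    have e0 : (fun A : Matrix m m ℝ => A ^ (k + 1)) = (fun A : Matrix m m ℝ => A ^ k) * id := by
      funext A
      simp only [Pi.mul_apply, id, pow_succ]
    rw [e0]
    refine h.congr_fderiv ?_
    ext H : 1
    change spec U l ^ k * H + had _ U H * spec U l = had _ U H
    refine conj_inj h2 ?_
    rw [Matrix.mul_add, Matrix.add_mul, spec_pow h1 h2, conj_spec_mul h1, conj_mul_spec h1,
      had_coord h1, had_coord h1]
    ext i j
    rw [Matrix.add_apply, Matrix.diagonal_mul, Matrix.mul_diagonal, Matrix.of_apply, Matrix.of_apply]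
    have e1 : (fun x : ℝ => x ^ (k + 1)) = fun x => x ^ k * x := by funext x; rw [pow_succ]
    have e2 := dd_mul (f := fun x : ℝ => x ^ k) (g := fun x => x) (differentiable_pow k)
      differentiable_fun_id (l i) (l j)
    rw [e1, e2, dd_id]
    ring

open Polynomial in
theorem aeval_spec {U : Matrix m m ℝ} (h1 : Uᵀ * U = 1) (h2 : U * Uᵀ = 1) (l : m → ℝ) (p : ℝ[X]) :
    aeval (spec U l) p = spec U (fun i => p.eval (l i)) := by
  induction p using Polynomial.induction_on' with
  | add p q hp hq => simp only [map_add, hp, hq, eval_add, spec_add]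
  | monomial k a =>
    rw [aeval_monomial, spec_pow h1 h2, ← Algebra.smul_def, spec_smul]
    simp only [eval_monomial]

open Polynomial in
theorem hasFDerivAt_aeval {U : Matrix m m ℝ} (h1 : Uᵀ * U = 1) (h2 : U * Uᵀ = 1) (l : m → ℝ)
    (p : ℝ[X]) :
    HasFDerivAt (fun A : Matrix m m ℝ => aeval A p)
      (hadL (fun i j => dd (fun x => p.eval x) (l i) (l j)) U) (spec U l) := by
  induction p using Polynomial.induction_on' with
  | add p q hp hq =>
    have h := hp.add hq
    have e0 : (fun A : Matrix m m ℝ => aeval A (p + q)) =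
        (fun A : Matrix m m ℝ => aeval A p) + fun A : Matrix m m ℝ => aeval A q := by
      funext A
      simp only [map_add, Pi.add_apply]
    rw [e0]
    refine h.congr_fderiv ?_
    ext H : 1
    change had _ U H + had _ U H = had _ U H
    rw [had_add_left]
    congr 1
    funext i j
    simp only [eval_add]
    rw [dd_add p.differentiable q.differentiable]
  | monomial k a =>
    have h := (hasFDerivAt_pow' h1 h2 l k).const_smul a
    have e0 : (fun A : Matrix m m ℝ => aeval A (monomial k a)) =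
        a • fun A : Matrix m m ℝ => A ^ k := by
      funext A
      simp only [aeval_monomial, Pi.smul_apply, ← Algebra.smul_def]
    rw [e0]
    refine h.congr_fderiv ?_
    ext H : 1
    change a • had _ U H = had _ U H
    rw [had_smul_left]
    congr 1
    funext i j
    simp only [eval_monomial]
    rw [dd_const_mul a (differentiable_pow k)]

open Polynomial in
theorem sf_poly (p : ℝ[X]) (A : Matrix m m ℝ) : sf (fun x => p.eval x) A = aeval (symp A) p := by
  rw [eU_spec A, aeval_spec (eU_left A) (eU_right A)]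
  rfl

open Polynomial in
theorem hasFDerivAt_sf_poly {A U : Matrix m m ℝ} {l : m → ℝ} (h : Frame A U l) (p : ℝ[X]) :
    HasFDerivAt (sf fun x => p.eval x)
      ((hadL (fun i j => dd (fun x => p.eval x) (l i) (l j)) U).comp (sympL m)) A := by
  have e : (sf fun x => p.eval x) = (fun A : Matrix m m ℝ => aeval A p) ∘ sympL m := by
    funext B
    simp only [sf_poly, Function.comp_apply, sympL_apply]
  rw [e]
  refine HasFDerivAt.comp A ?_ (sympL m).hasFDerivAt
  rw [sympL_apply, h.eq]
  exact hasFDerivAt_aeval h.left h.right l p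

end Crest.Agent.R201.Sf95
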