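import Crest.Agent.R201.Sf2_95

/-!
# R201: `sf f` is `C¹` for `f ∈ C¹`, derivative = divided differences in any eigenframe (helper95)
-/

set_option autoImplicit false
set_option linter.unusedSectionVars false
open Matrix Filter Topology
open scoped Matrix.Norms.Frobenius
attribute [-instance] instTopologicalSpaceMatrix Matrix.instUniformSpace

namespace Crest.Agent.R201.Sf95

open Crest.Agent.R201 NB152

variable {m : Type*} [Fintype m] [DecidableEq m]

/-! ## polynomial approximation in `C¹` -/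

open Polynomial in
theorem exists_antideriv (q : ℝ[X]) : ∃ p : ℝ[X], derivative p = q := by
  induction q using Polynomial.induction_on' with
  | add p q hp hq =>
    obtain ⟨P, hP⟩ := hp
    obtain ⟨Q, hQ⟩ := hq
    exact ⟨P + Q, by rw [derivative_add, hP, hQ]⟩
  | monomial k a =>
    refine ⟨monomial (k + 1) (a / (k + 1)), ?_⟩
    rw [derivative_monomial]
    have : (a / ((k : ℝ) + 1)) * ((k + 1 : ℕ) : ℝ) = a := by
      push_cast
      field_simp
    rw [this]
    simp

open Polynomial in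
theorem exists_approx {f : ℝ → ℝ} (hf : ContDiff ℝ 1 f) {R : ℝ} (hR : 0 ≤ R) {ε : ℝ} (hε : 0 < ε) :
    ∃ p : ℝ[X], (∀ x, |x| ≤ R → |deriv (fun x => p.eval x) x - deriv f x| ≤ ε) ∧
      ∀ x, |x| ≤ R → |p.eval x - f x| ≤ ε * R := by
  have hc : Continuous (deriv f) := hf.continuous_deriv le_rfl
  have hd : Differentiable ℝ f := hf.differentiable one_ne_zero
  obtain ⟨q, hq⟩ := exists_polynomial_near_of_continuousOn (-R) R (deriv f) hc.continuousOn ε hε
  obtain ⟨p0, hp0⟩ := exists_antideriv q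
  set p : ℝ[X] := p0 + C (f 0 - p0.eval 0) with hp
  have hpd : ∀ x, deriv (fun x => p.eval x) x = q.eval x := by
    intro x
    rw [Polynomial.deriv, hp, derivative_add, derivative_C, add_zero, hp0]
  have h1 : ∀ x, |x| ≤ R → |deriv (fun x => p.eval x) x - deriv f x| ≤ ε := by
    intro x hx
    rw [hpd]
    exact (hq x (abs_le.1 hx)).le
  refine ⟨p, h1, fun x hx => ?_⟩
  have h0 : p.eval 0 = f 0 := by rw [hp]; simp
  obtain ⟨c, hc, e⟩ := exists_dd (f := fun x => p.eval x - f x) (p.differentiable.sub hd) 0 x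
  have h2 := sub_mul_dd (fun x => p.eval x - f x) 0 x
  rw [e, deriv_fun_sub (p.differentiable c) (hd c)] at h2
  simp only [h0, sub_self, sub_zero] at h2
  rw [← h2, abs_mul, mul_comm]
  have hcR : |c| ≤ R := by
    rw [abs_le] at hx ⊢
    rw [Set.mem_uIcc] at hc
    rcases hc with h | h <;> constructor <;> linarith [h.1, h.2, hx.1, hx.2]
  exact mul_le_mul (h1 c hcR) hx (abs_nonneg _) hε.le

/-! ## the derivative -/

/-- derivative of `sf f` -/
noncomputable def dsf (f : ℝ → ℝ) (A : Matrix m m ℝ) : Matrix m m ℝ →L[ℝ] Matrix m m ℝ :=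
  (hadL (fun i j => dd f (eL A i) (eL A j)) (eU A)).comp (sympL m)

theorem Frame.abs_le {A U : Matrix m m ℝ} {l : m → ℝ} (h : Frame A U l) {R : ℝ} (hR : 0 ≤ R)
    (hA : hs A ≤ R ^ 2) (i : m) : |l i| ≤ R := by
  have h1 : ∑ i, l i ^ 2 ≤ R ^ 2 := by
    rw [← hs_spec h.left, ← h.eq]
    exact (hs_symp_le A).trans hA
  have h2 : l i ^ 2 ≤ R ^ 2 :=
    (Finset.single_le_sum (f := fun i => l i ^ 2) (fun _ _ => sq_nonneg _) (Finset.mem_univ i)).trans h1
  exact abs_le_of_sq_le_sq h2 hR

theorem had_diff_le {A U : Matrix m m ℝ} {l : m → ℝ} (h : Frame A U l) {R : ℝ} (hR : 0 ≤ R)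
    (hA : hs A ≤ R ^ 2) {f g : ℝ → ℝ} (hf : Differentiable ℝ f) (hg : Differentiable ℝ g) {ε : ℝ}
    (hε : 0 ≤ ε) (hfg : ∀ x, |x| ≤ R → |deriv g x - deriv f x| ≤ ε) (H : Matrix m m ℝ) :
    ‖had (fun i j => dd g (l i) (l j)) U (symp H) - had (fun i j => dd f (l i) (l j)) U (symp H)‖ ≤
      ε * ‖H‖ := by
  rw [had_sub_left]
  refine norm_le_of_hs hε ((hs_had_le h.left h.right (C := ε) (fun i j => ?_) (symp H)).trans
    (mul_le_mul_of_nonneg_left (hs_symp_le H) (sq_nonneg _)))
  rw [← dd_sub hg hf]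
  obtain ⟨c, hc, e⟩ := exists_dd (f := fun x => g x - f x) (hg.sub hf) (l i) (l j)
  rw [e, deriv_fun_sub (hg c) (hf c)]
  refine hfg c ?_
  have h1 := _root_.abs_le.1 (h.abs_le hR hA i)
  have h2 := _root_.abs_le.1 (h.abs_le hR hA j)
  rw [Set.mem_uIcc] at hc
  rw [_root_.abs_le]
  rcases hc with h | h <;> constructor <;> linarith [h.1, h.2, h1.1, h1.2, h2.1, h2.2]

theorem hs_le_of_norm {A : Matrix m m ℝ} {R : ℝ} (h : ‖A‖ ≤ R) : hs A ≤ R ^ 2 := by
  rw [← norm_sq]
  exact pow_le_pow_left₀ (norm_nonneg _) h 2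

open Polynomial in
theorem dsf_poly {A U : Matrix m m ℝ} {l : m → ℝ} (h : Frame A U l) (p : ℝ[X]) (H : Matrix m m ℝ) :
    dsf (fun x => p.eval x) A H = had (fun i j => dd (fun x => p.eval x) (l i) (l j)) U (symp H) := by
  have h1 := hasFDerivAt_sf_poly (frame_e A) p
  have h2 := hasFDerivAt_sf_poly h p
  have := h1.unique h2
  exact congrArg (fun L : Matrix m m ℝ →L[ℝ] Matrix m m ℝ => L H) this

/-- derivative in any eigenframe -/
theorem dsf_apply {A U : Matrix m m ℝ} {l : m → ℝ} (h : Frame A U l) {f : ℝ → ℝ}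
    (hf : ContDiff ℝ 1 f) (H : Matrix m m ℝ) :
    dsf f A H = had (fun i j => dd f (l i) (l j)) U (symp H) := by
  have hd : Differentiable ℝ f := hf.differentiable one_ne_zero
  rw [← sub_eq_zero, ← norm_eq_zero]
  refine le_antisymm ?_ (norm_nonneg _)
  refine le_of_forall_pos_le_add fun δ hδ => ?_
  obtain ⟨p, hp, -⟩ := exists_approx hf (norm_nonneg A) (ε := δ / (2 * (‖H‖ + 1))) (by positivity)
  have h1 := had_diff_le (frame_e A) (norm_nonneg A) (hs_le_of_norm le_rfl) hd p.differentiable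
    (ε := δ / (2 * (‖H‖ + 1))) (by positivity) hp H
  have h2 := had_diff_le h (norm_nonneg A) (hs_le_of_norm le_rfl) hd p.differentiable
    (ε := δ / (2 * (‖H‖ + 1))) (by positivity) hp H
  have h3 : had (fun i j => dd (fun x => p.eval x) (eL A i) (eL A j)) (eU A) (symp H) =
    had (fun i j => dd (fun x => p.eval x) (l i) (l j)) U (symp H) := dsf_poly h p H
  rw [h3] at h1
  have h4 : dsf f A H = had (fun i j => dd f (eL A i) (eL A j)) (eU A) (symp H) := rfl
  rw [h4, zero_add]
  set X := had (fun i j => dd (fun x => p.eval x) (l i) (l j)) U (symp H)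
  set Y := had (fun i j => dd f (eL A i) (eL A j)) (eU A) (symp H)
  set Z := had (fun i j => dd f (l i) (l j)) U (symp H)
  have h5 : ‖Y - Z‖ ≤ ‖X - Y‖ + ‖X - Z‖ := by
    have : Y - Z = (X - Z) - (X - Y) := by abel
    rw [this, add_comm]
    exact norm_sub_le _ _
  refine h5.trans ((add_le_add h1 h2).trans ?_)
  have hH : 0 ≤ ‖H‖ := norm_nonneg _
  have e : δ / (2 * (‖H‖ + 1)) * ‖H‖ + δ / (2 * (‖H‖ + 1)) * ‖H‖ = δ * (‖H‖ / (‖H‖ + 1)) := by
    field_simp
    ring
  rw [e]
  refine mul_le_of_le_one_right hδ.le ?_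
  rw [div_le_one (by positivity)]
  linarith

theorem continuous_spec (U : Matrix m m ℝ) : Continuous fun l : m → ℝ => spec U l :=
  (continuous_const.matrix_mul (Continuous.matrix_diagonal continuous_id)).matrix_mul continuous_const

theorem hasFDerivAt_sf {f : ℝ → ℝ} (hf : ContDiff ℝ 1 f) (A : Matrix m m ℝ) :
    HasFDerivAt (sf f) (dsf f A) A ∧ ContinuousAt (dsf f) A := by
  have hd : Differentiable ℝ f := hf.differentiable one_ne_zero
  set R : ℝ := ‖A‖ + 1 with hR
  have hR0 : 0 ≤ R := by positivity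
  have hball : ∀ B ∈ Metric.ball A 1, hs B ≤ R ^ 2 := by
    intro B hB
    refine hs_le_of_norm ?_
    rw [mem_ball_iff_norm] at hB
    have : ‖B‖ ≤ ‖A‖ + ‖B - A‖ := by
      have := norm_add_le A (B - A)
      simpa using this
    linarith
  choose p hp1 hp2 using fun k : ℕ => exists_approx hf hR0 (ε := 1 / ((k : ℝ) + 1)) (by positivity)
  have hunif : TendstoUniformlyOn (fun k => dsf (m := m) fun x => (p k).eval x) (dsf f) atTop
      (Metric.ball A 1) := by
    rw [Metric.tendstoUniformlyOn_iff]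
    intro ε hε
    obtain ⟨K, hK⟩ := exists_nat_one_div_lt hε
    filter_upwards [eventually_ge_atTop K] with k hk B hB
    rw [dist_comm, dist_eq_norm]
    refine lt_of_le_of_lt ?_ hK
    refine le_trans (b := 1 / ((k : ℝ) + 1)) ?_ ?_
    · refine ContinuousLinearMap.opNorm_le_bound _ (by positivity) fun H => ?_
      exact had_diff_le (frame_e B) hR0 (hball B hB) hd (p k).differentiable (by positivity) (hp1 k) H
    · refine one_div_le_one_div_of_le (by positivity) ?_
      have : (K : ℝ) ≤ k := by exact_mod_cast hk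
      linarith
  constructor
  · refine hasFDerivAt_of_tendstoUniformlyOn (f := fun k => sf fun x => (p k).eval x)
      Metric.isOpen_ball hunif ?_ ?_ (Metric.mem_ball_self one_pos)
    · intro k B _
      exact hasFDerivAt_sf_poly (frame_e B) (p k)
    · intro B hB
      have h1 : Tendsto (fun k i => (p k).eval (eL B i)) atTop (𝓝 fun i => f (eL B i)) := by
        rw [tendsto_pi_nhds]
        intro i
        rw [tendsto_iff_dist_tendsto_zero]
        have hb : |eL B i| ≤ R := (frame_e B).abs_le hR0 (hball B hB) i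
        have hlim : Tendsto (fun k : ℕ => 1 / ((k : ℝ) + 1) * R) atTop (𝓝 0) := by
          simpa using tendsto_one_div_add_atTop_nhds_zero_nat.mul_const R
        refine squeeze_zero (fun _ => dist_nonneg) (fun k => ?_) hlim
        rw [Real.dist_eq]
        exact hp2 k _ hb
      exact ((continuous_spec (eU B)).tendsto _).comp h1
  · refine (hunif.continuousOn (Frequently.of_forall fun k => ?_)).continuousAt
      (Metric.ball_mem_nhds A one_pos)
    have e : (dsf (m := m) fun x => (p k).eval x) = fderiv ℝ (sf fun x => (p k).eval x) := by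
      funext B
      exact (hasFDerivAt_sf_poly (frame_e B) (p k)).fderiv.symm
    rw [e]
    refine Continuous.continuousOn ?_
    have e2 : (sf (m := m) fun x => (p k).eval x) =
        (fun A : Matrix m m ℝ => Polynomial.aeval A (p k)) ∘ sympL m := by
      funext B
      simp only [sf_poly, Function.comp_apply, sympL_apply]
    rw [e2]
    have h3 : ContDiff ℝ 1 fun A : Matrix m m ℝ => Polynomial.aeval A (p k) := by
      simp only [Polynomial.aeval_eq_sum_range]
      refine ContDiff.sum fun i _ => ContDiff.const_smul _ ?_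
      exact contDiff_id.pow i
    exact (h3.comp (sympL m).contDiff).continuous_fderiv one_ne_zero

theorem contDiff_sf {f : ℝ → ℝ} (hf : ContDiff ℝ 1 f) : ContDiff ℝ 1 (sf (m := m) f) := by
  rw [contDiff_one_iff_fderiv]
  refine ⟨fun A => (hasFDerivAt_sf hf A).1.differentiableAt, ?_⟩
  have : fderiv ℝ (sf (m := m) f) = dsf f := funext fun A => (hasFDerivAt_sf hf A).1.fderiv
  rw [this]
  exact continuous_iff_continuousAt.2 fun A => (hasFDerivAt_sf hf A).2

end Crest.Agent.R201.Sf95
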