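import Crest.Agent.R201.Sf3_95

/-!
# R201: spectral calculus of matrix fields on `E n`, entrywise form (helper95)

For `f ∈ C¹` and a symmetric `C¹` field `S`: `x ↦ sf f (S x)` is `C¹` entrywise,
`D_k sf f (S) = had (dd f (l i) (l j)) U (D_k S)` in any frame `S x = U diag l Uᵀ`.
-/

set_option autoImplicit false
set_option linter.unusedSectionVars false
open Matrix Filter Topology
open scoped Matrix.Norms.Frobenius
attribute [-instance] instTopologicalSpaceMatrix Matrix.instUniformSpace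

namespace Crest.Agent.R201.Sf95

open Crest.Agent.R201 NB152

section General

variable {m : Type*} [Fintype m] [DecidableEq m] {X : Type*} [NormedAddCommGroup X]
  [NormedSpace ℝ X]

/-- entry as a continuous linear map -/
noncomputable def entL (i j : m) : Matrix m m ℝ →L[ℝ] ℝ :=
  LinearMap.toContinuousLinearMap
    { toFun := fun A => A i j
      map_add' := fun _ _ => rfl
      map_smul' := fun _ _ => rfl }

@[simp] theorem entL_apply (i j : m) (A : Matrix m m ℝ) : entL i j A = A i j := rfl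

theorem field_eq_sum (S : X → Matrix m m ℝ) :
    S = fun x => ∑ i, ∑ j, S x i j • (Matrix.single i j (1 : ℝ)) := by
  funext x
  conv_lhs => rw [Matrix.matrix_eq_sum_single (S x)]
  refine Finset.sum_congr rfl fun i _ => Finset.sum_congr rfl fun j _ => ?_
  rw [Matrix.smul_single, smul_eq_mul, mul_one]

theorem contDiff_field {k : WithTop ℕ∞} {S : X → Matrix m m ℝ} :
    ContDiff ℝ k S ↔ ∀ i j, ContDiff ℝ k fun x => S x i j := by
  constructor
  · intro h i j
    exact (entL i j).contDiff.comp h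
  · intro h
    rw [field_eq_sum S]
    exact ContDiff.sum fun i _ => ContDiff.sum fun j _ => (h i j).smul contDiff_const

theorem differentiableAt_field {S : X → Matrix m m ℝ} {x : X} :
    DifferentiableAt ℝ S x ↔ ∀ i j, DifferentiableAt ℝ (fun y => S y i j) x := by
  constructor
  · intro h i j
    exact (entL i j).differentiableAt.comp x h
  · intro h
    rw [field_eq_sum S]
    exact DifferentiableAt.fun_sum fun i _ => DifferentiableAt.fun_sum fun j _ =>
      (h i j).smul_const _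

theorem fderiv_entry {S : X → Matrix m m ℝ} {x : X} (h : DifferentiableAt ℝ S x) (i j : m) (v : X) :
    fderiv ℝ (fun y => S y i j) x v = (fderiv ℝ S x v) i j := by
  have h1 : HasFDerivAt (fun y => S y i j) ((entL i j).comp (fderiv ℝ S x)) x :=
    (entL i j).hasFDerivAt.comp x h.hasFDerivAt
  rw [h1.fderiv]
  rfl

theorem fderiv_field {S : X → Matrix m m ℝ} {x : X} (h : DifferentiableAt ℝ S x) (v : X) :
    fderiv ℝ S x v = Matrix.of fun i j => fderiv ℝ (fun y => S y i j) x v := by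
  ext i j
  rw [Matrix.of_apply, fderiv_entry h]

theorem had_transpose {c : m → m → ℝ} (hc : ∀ i j, c i j = c j i) {U H : Matrix m m ℝ} (hH : Hᵀ = H) :
    (had c U H)ᵀ = had c U H := by
  unfold had
  rw [Matrix.transpose_mul, Matrix.transpose_mul, Matrix.transpose_transpose, ← Matrix.mul_assoc]
  have e : (Matrix.of fun i j => c i j * (Uᵀ * H * U) i j)ᵀ =
      Matrix.of fun i j => c i j * (Uᵀ * H * U) i j := by
    ext i j
    have h : (Uᵀ * H * U)ᵀ = Uᵀ * H * U := by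
      rw [Matrix.transpose_mul, Matrix.transpose_mul, Matrix.transpose_transpose, hH, Matrix.mul_assoc]
    have h' : (Uᵀ * H * U) j i = (Uᵀ * H * U) i j := by
      conv_lhs => rw [← h]
      rfl
    rw [Matrix.transpose_apply, Matrix.of_apply, Matrix.of_apply, h', hc]
  rw [e]

/-- `⟨H, c ∘ H⟩` in the frame -/
theorem trace_mul_had {U : Matrix m m ℝ} (h1 : Uᵀ * U = 1) (h2 : U * Uᵀ = 1) (c : m → m → ℝ)
    {H K : Matrix m m ℝ} (hH : Hᵀ = H) :
    (H * had c U K).trace = ∑ i, ∑ j, c i j * ((Uᵀ * H * U) i j * (Uᵀ * K * U) i j) := by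
  have e1 : (H * had c U K).trace = ((Uᵀ * H * U) * (Uᵀ * had c U K * U)).trace := by
    have : (Uᵀ * H * U) * (Uᵀ * had c U K * U) = Uᵀ * (H * had c U K) * U := by
      calc (Uᵀ * H * U) * (Uᵀ * had c U K * U) = Uᵀ * H * (U * Uᵀ) * had c U K * U := by noncomm_ring
        _ = _ := by rw [h2, Matrix.mul_one]; noncomm_ring
    rw [this, Matrix.trace_mul_comm (Uᵀ * (H * had c U K)) U, ← Matrix.mul_assoc, h2, Matrix.one_mul]
  rw [e1, had_coord h1]
  have hs : (Uᵀ * H * U)ᵀ = Uᵀ * H * U := by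
    rw [Matrix.transpose_mul, Matrix.transpose_mul, Matrix.transpose_transpose, hH, Matrix.mul_assoc]
  simp only [Matrix.trace, Matrix.diag_apply, Matrix.mul_apply (M := Uᵀ * H * U), Matrix.of_apply]
  rw [Finset.sum_comm]
  refine Finset.sum_congr rfl fun i _ => Finset.sum_congr rfl fun j _ => ?_
  have h' : (Uᵀ * H * U) j i = (Uᵀ * H * U) i j := by
    conv_lhs => rw [← hs]
    rfl
  rw [h']
  ring

theorem trace_had {U : Matrix m m ℝ} (h1 : Uᵀ * U = 1) (h2 : U * Uᵀ = 1) (c : m → m → ℝ)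
    (K : Matrix m m ℝ) : (had c U K).trace = ∑ i, c i i * (Uᵀ * K * U) i i := by
  have := trace_mul_had h1 h2 c (H := 1) (K := K) Matrix.transpose_one
  rw [Matrix.one_mul, Matrix.mul_one, h1] at this
  rw [this]
  refine Finset.sum_congr rfl fun i _ => ?_
  rw [Finset.sum_eq_single i]
  · simp
  · intro j _ hj
    simp [Matrix.one_apply_ne hj.symm]
  · simp

/-- `hs (c ∘ H) ≤ ⟨H, c ∘ H⟩` for `0 ≤ c ≤ 1` -/
theorem hs_had_le_trace {U : Matrix m m ℝ} (h1 : Uᵀ * U = 1) (h2 : U * Uᵀ = 1) {c : m → m → ℝ}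
    (hc0 : ∀ i j, 0 ≤ c i j) (hc1 : ∀ i j, c i j ≤ 1) {H : Matrix m m ℝ} (hH : Hᵀ = H) :
    hs (had c U H) ≤ (H * had c U H).trace := by
  rw [hs_had h1, trace_mul_had h1 h2 c hH]
  refine Finset.sum_le_sum fun i _ => Finset.sum_le_sum fun j _ => ?_
  rw [← pow_two]
  refine mul_le_mul_of_nonneg_right ?_ (sq_nonneg _)
  nlinarith [hc0 i j, hc1 i j]

theorem trace_had_le {U : Matrix m m ℝ} (h1 : Uᵀ * U = 1) (h2 : U * Uᵀ = 1) {c d : m → m → ℝ}
    (hcd : ∀ i j, c i j ≤ d i j) {H : Matrix m m ℝ} (hH : Hᵀ = H) :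
    (H * had c U H).trace ≤ (H * had d U H).trace := by
  rw [trace_mul_had h1 h2 c hH, trace_mul_had h1 h2 d hH]
  refine Finset.sum_le_sum fun i _ => Finset.sum_le_sum fun j _ => ?_
  rw [← pow_two]
  exact mul_le_mul_of_nonneg_right (hcd i j) (sq_nonneg _)

theorem dd_nonneg {f : ℝ → ℝ} (hf : Differentiable ℝ f) (h : ∀ x, 0 ≤ deriv f x) (a b : ℝ) :
    0 ≤ dd f a b := by
  obtain ⟨c, -, e⟩ := exists_dd hf a b
  rw [e]
  exact h c

theorem dd_le {f : ℝ → ℝ} (hf : Differentiable ℝ f) {C : ℝ} (h : ∀ x, deriv f x ≤ C) (a b : ℝ) :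
    dd f a b ≤ C := by
  obtain ⟨c, -, e⟩ := exists_dd hf a b
  rw [e]
  exact h c

/-- derivative of `x ↦ sf f (S x)` -/
theorem hasFDerivAt_sf_comp {f : ℝ → ℝ} (hf : ContDiff ℝ 1 f) {S : X → Matrix m m ℝ}
    {S' : X →L[ℝ] Matrix m m ℝ} {x : X} (hS : HasFDerivAt S S' x) :
    HasFDerivAt (fun y => sf f (S y)) ((dsf f (S x)).comp S') x :=
  HasFDerivAt.comp x (hasFDerivAt_sf hf (S x)).1 hS

/-- the trace function -/
theorem hasFDerivAt_tr {f : ℝ → ℝ} (hf : ContDiff ℝ 1 f) (A H : Matrix m m ℝ) :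
    (dsf f A H).trace = (sf (deriv f) A * H).trace := by
  rw [dsf_apply (frame_e A) hf, trace_had (eU_left A) (eU_right A)]
  simp only [dd_self]
  have e1 : (sf (deriv f) A * H).trace = (sf (deriv f) A * symp H).trace := by
    have e2 : (sf (deriv f) A * Hᵀ).trace = (sf (deriv f) A * H).trace := by
      rw [← Matrix.trace_transpose (sf (deriv f) A * Hᵀ), Matrix.transpose_mul,
        Matrix.transpose_transpose, sf_transpose, Matrix.trace_mul_comm]
    rw [symp, Matrix.mul_smul, Matrix.trace_smul, Matrix.mul_add, Matrix.trace_add, e2, smul_eq_mul]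
    ring
  rw [e1, sf, spec]
  have e3 : (eU A * diagonal (fun i => deriv f (eL A i)) * (eU A)ᵀ * symp H).trace =
      (diagonal (fun i => deriv f (eL A i)) * ((eU A)ᵀ * symp H * eU A)).trace := by
    rw [Matrix.mul_assoc, Matrix.mul_assoc, Matrix.trace_mul_comm]
    congr 1
    noncomm_ring
  rw [e3, Matrix.trace]
  refine Finset.sum_congr rfl fun i _ => ?_
  rw [Matrix.diag_apply, Matrix.diagonal_mul]

end General

/-! ## fields on `E n` -/

section Fields

variable {n : ℕ} {m : Type*} [Fintype m] [DecidableEq m]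

/-- partial derivative of a matrix field with any finite index type -/
noncomputable def pdX (k : Fin n) (F : E n → Matrix m m ℝ) (x : E n) : Matrix m m ℝ :=
  Matrix.of fun i j => pd k (fun y => F y i j) x

theorem pdX_eq_pdM (k : Fin n) (F : E n → Mt n) (x : E n) : pdX k F x = pdM k F x := rfl

theorem pdX_eq {S : E n → Matrix m m ℝ} {x : E n} (h : DifferentiableAt ℝ S x) (k : Fin n) :
    pdX k S x = fderiv ℝ S x (EuclideanSpace.single k 1) := (fderiv_field h _).symm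

theorem pdX_symm {S : E n → Matrix m m ℝ} (hs : ∀ x, (S x)ᵀ = S x) (k : Fin n) (x : E n) :
    (pdX k S x)ᵀ = pdX k S x := by
  ext i j
  change pd k (fun y => S y j i) x = pd k (fun y => S y i j) x
  congr 1
  funext y
  conv_lhs => rw [← hs y]
  rfl

/-- entries of `sf f ∘ S` are `C¹` -/
theorem contDiff_sf_entry {f : ℝ → ℝ} (hf : ContDiff ℝ 1 f) {S : E n → Matrix m m ℝ}
    (hS : ∀ i j, ContDiff ℝ 1 fun x => S x i j) (i j : m) :
    ContDiff ℝ 1 fun x => sf f (S x) i j :=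
  contDiff_field.1 ((contDiff_sf hf).comp (contDiff_field.2 hS)) i j

/-- derivative of `sf f ∘ S` in any frame of `S x` -/
theorem pdX_sf {f : ℝ → ℝ} (hf : ContDiff ℝ 1 f) {S : E n → Matrix m m ℝ}
    (hsym : ∀ x, (S x)ᵀ = S x) {x : E n} (hS : ∀ i j, DifferentiableAt ℝ (fun y => S y i j) x)
    {U : Matrix m m ℝ} {l : m → ℝ} (h : Frame (S x) U l) (k : Fin n) :
    pdX k (fun y => sf f (S y)) x = had (fun i j => dd f (l i) (l j)) U (pdX k S x) := by
  have hd : DifferentiableAt ℝ S x := differentiableAt_field.2 hS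
  have h1 := hasFDerivAt_sf_comp hf hd.hasFDerivAt
  rw [pdX_eq h1.differentiableAt, h1.fderiv]
  change dsf f (S x) (fderiv ℝ S x (EuclideanSpace.single k 1)) = _
  rw [← pdX_eq hd, dsf_apply h hf, symp_of_symm (pdX_symm hsym k x)]

/-- `0 ≤ f' ≤ 1`: `|D_k f(S)|² ≤ ⟨D_k S, D_k f(S)⟩ ≤ |D_k S|²` -/
theorem hs_pdX_sf_le {f : ℝ → ℝ} (hf : ContDiff ℝ 1 f) (h0 : ∀ x, 0 ≤ deriv f x)
    (h1 : ∀ x, deriv f x ≤ 1) {S : E n → Matrix m m ℝ}
    (hsym : ∀ x, (S x)ᵀ = S x) {x : E n} (hS : ∀ i j, DifferentiableAt ℝ (fun y => S y i j) x)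
    (k : Fin n) :
    hs (pdX k (fun y => sf f (S y)) x) ≤ (pdX k S x * pdX k (fun y => sf f (S y)) x).trace := by
  have hd := hf.differentiable one_ne_zero
  rw [pdX_sf hf hsym hS (frame_e (S x)) k]
  exact hs_had_le_trace (eU_left _) (eU_right _) (fun i j => dd_nonneg hd h0 _ _)
    (fun i j => dd_le hd h1 _ _) (pdX_symm hsym k x)

theorem trace_pdX_sf_le {f : ℝ → ℝ} (hf : ContDiff ℝ 1 f)
    (h1 : ∀ x, deriv f x ≤ 1) {S : E n → Matrix m m ℝ}
    (hsym : ∀ x, (S x)ᵀ = S x) {x : E n} (hS : ∀ i j, DifferentiableAt ℝ (fun y => S y i j) x)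
    (k : Fin n) :
    (pdX k S x * pdX k (fun y => sf f (S y)) x).trace ≤ hs (pdX k S x) := by
  have hd := hf.differentiable one_ne_zero
  rw [pdX_sf hf hsym hS (frame_e (S x)) k]
  refine (trace_had_le (eU_left _) (eU_right _) (d := fun _ _ => 1)
    (fun i j => dd_le hd h1 _ _) (pdX_symm hsym k x)).trans (le_of_eq ?_)
  rw [trace_mul_had (eU_left _) (eU_right _) _ (pdX_symm hsym k x), ← hs_conj' (eU_right (S x)), hs]
  simp only [one_mul, pow_two]

/-- `|D_k f(S)|² ≤ C² |D_k S|²` if `|f'| ≤ C` on `[-R, R]`, `|S x| ≤ R` -/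
theorem hs_pdX_sf_le' {f : ℝ → ℝ} (hf : ContDiff ℝ 1 f) {C R : ℝ} (hR : 0 ≤ R)
    (h1 : ∀ t, |t| ≤ R → |deriv f t| ≤ C) {S : E n → Matrix m m ℝ}
    (hsym : ∀ x, (S x)ᵀ = S x) {x : E n} (hS : ∀ i j, DifferentiableAt ℝ (fun y => S y i j) x)
    (hb : hs (S x) ≤ R ^ 2) (k : Fin n) :
    hs (pdX k (fun y => sf f (S y)) x) ≤ C ^ 2 * hs (pdX k S x) := by
  have hd := hf.differentiable one_ne_zero
  rw [pdX_sf hf hsym hS (frame_e (S x)) k]
  refine hs_had_le (eU_left _) (eU_right _) (fun i j => ?_) _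
  obtain ⟨c, hc, e⟩ := exists_dd hd (eL (S x) i) (eL (S x) j)
  rw [e]
  refine h1 c ?_
  have h1 := _root_.abs_le.1 ((frame_e (S x)).abs_le hR hb i)
  have h2 := _root_.abs_le.1 ((frame_e (S x)).abs_le hR hb j)
  rw [Set.mem_uIcc] at hc
  rw [_root_.abs_le]
  rcases hc with h | h <;> constructor <;> linarith [h.1, h.2, h1.1, h1.2, h2.1, h2.2]

/-- `x ↦ Tr ψ(S x)` is `C¹` -/
theorem contDiff_tr {ψ : ℝ → ℝ} (hf : ContDiff ℝ 1 ψ) {S : E n → Matrix m m ℝ}
    (hS : ∀ i j, ContDiff ℝ 1 fun x => S x i j) : ContDiff ℝ 1 fun x => (sf ψ (S x)).trace := by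
  simp only [Matrix.trace, Matrix.diag_apply]
  exact ContDiff.sum fun i _ => contDiff_sf_entry hf hS i i

/-- `D_k Tr ψ(S) = ⟨ψ'(S), D_k S⟩` -/
theorem pd_tr {ψ : ℝ → ℝ} (hf : ContDiff ℝ 1 ψ) {S : E n → Matrix m m ℝ}
    {x : E n} (hS : ∀ i j, DifferentiableAt ℝ (fun y => S y i j) x) (k : Fin n) :
    pd k (fun y => (sf ψ (S y)).trace) x = (sf (deriv ψ) (S x) * pdX k S x).trace := by
  have hd : DifferentiableAt ℝ S x := differentiableAt_field.2 hS
  have h1 := hasFDerivAt_sf_comp hf hd.hasFDerivAt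
  have h2 : pd k (fun y => (sf ψ (S y)).trace) x = (pdX k (fun y => sf ψ (S y)) x).trace := by
    have hdi : ∀ i : m, DifferentiableAt ℝ (fun y => sf ψ (S y) i i) x := fun i =>
      differentiableAt_field.1 h1.differentiableAt i i
    simp only [Matrix.trace, Matrix.diag_apply, pd, pdX, Matrix.of_apply]
    rw [fderiv_fun_sum fun i _ => hdi i]
    simp only [FunLike.coe_sum, Finset.sum_apply]
  rw [h2, pdX_eq h1.differentiableAt, h1.fderiv, pdX_eq hd]
  exact hasFDerivAt_tr hf (S x) _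

end Fields

/-! ## curves -/

section Curves

variable {m : Type*} [Fintype m] [DecidableEq m]

theorem hasDerivAt_field {S : ℝ → Matrix m m ℝ} {S' : Matrix m m ℝ} {t : ℝ} :
    HasDerivAt S S' t ↔ ∀ i j, HasDerivAt (fun s => S s i j) (S' i j) t := by
  constructor
  · intro h i j
    exact (entL i j).hasFDerivAt.comp_hasDerivAt t h
  · intro h
    have : HasDerivAt (fun s => ∑ i, ∑ j, S s i j • (Matrix.single i j (1 : ℝ)))
        (∑ i, ∑ j, S' i j • (Matrix.single i j (1 : ℝ))) t :=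
      HasDerivAt.fun_sum fun i _ => HasDerivAt.fun_sum fun j _ => (h i j).smul_const _
    rw [← field_eq_sum S] at this
    have e : S' = ∑ i, ∑ j, S' i j • (Matrix.single i j (1 : ℝ)) :=
      congrFun (field_eq_sum fun _ : ℝ => S') 0
    rwa [← e] at this

/-- `d/dt Tr ψ(S_t) = ⟨ψ'(S_t), S_t'⟩` -/
theorem hasDerivAt_tr {ψ : ℝ → ℝ} (hf : ContDiff ℝ 1 ψ) {S : ℝ → Matrix m m ℝ} {S' : Matrix m m ℝ}
    {t : ℝ} (hS : ∀ i j, HasDerivAt (fun s => S s i j) (S' i j) t) :
    HasDerivAt (fun s => (sf ψ (S s)).trace) ((sf (deriv ψ) (S t) * S').trace) t := by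
  have h := hasDerivAt_field.2 hS
  have h1 : HasDerivAt (fun s => sf ψ (S s)) (dsf ψ (S t) S') t :=
    HasFDerivAt.comp_hasDerivAt t (hasFDerivAt_sf hf (S t)).1 h
  rw [← hasFDerivAt_tr hf]
  have h2 := hasDerivAt_field.1 h1
  simp only [Matrix.trace, Matrix.diag_apply]
  exact HasDerivAt.fun_sum fun i _ => h2 i i

theorem hasDerivAt_sf {f : ℝ → ℝ} (hf : ContDiff ℝ 1 f) {S : ℝ → Matrix m m ℝ} {S' : Matrix m m ℝ}
    {t : ℝ} (hsym : S'ᵀ = S') {U : Matrix m m ℝ} {l : m → ℝ} (hF : Frame (S t) U l)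
    (hS : ∀ i j, HasDerivAt (fun s => S s i j) (S' i j) t) (i j : m) :
    HasDerivAt (fun s => sf f (S s) i j) (had (fun i j => dd f (l i) (l j)) U S' i j) t := by
  have h := hasDerivAt_field.2 hS
  have h1 : HasDerivAt (fun s => sf f (S s)) (dsf f (S t) S') t :=
    HasFDerivAt.comp_hasDerivAt t (hasFDerivAt_sf hf (S t)).1 h
  rw [dsf_apply hF hf, symp_of_symm hsym] at h1
  exact hasDerivAt_field.1 h1 i j

end Curves

end Crest.Agent.R201.Sf95
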