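import Crest.Agent.R201.Sf4_95

/-!
# R201: spectral calculus of bounded fields (class `CB`), order and norm bounds (helper95)
-/

set_option autoImplicit false
set_option linter.unusedSectionVars false
open Matrix Filter Topology
open scoped Matrix.Norms.Frobenius
attribute [-instance] instTopologicalSpaceMatrix Matrix.instUniformSpace

namespace Crest.Agent.R201.Sf95

open Crest.Agent.R201 NB152

variable {n : ℕ} {m : Type*} [Fintype m] [DecidableEq m]

theorem entry_sq_le (A : Matrix m m ℝ) (i j : m) : A i j ^ 2 ≤ hs A :=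
  (Finset.single_le_sum (f := fun j => A i j ^ 2) (fun _ _ => sq_nonneg _) (Finset.mem_univ j)).trans
    (Finset.single_le_sum (f := fun i => ∑ j, A i j ^ 2)
      (fun _ _ => Finset.sum_nonneg fun _ _ => sq_nonneg _) (Finset.mem_univ i))

theorem entry_le {A : Matrix m m ℝ} {R : ℝ} (hR : 0 ≤ R) (h : hs A ≤ R ^ 2) (i j : m) : |A i j| ≤ R :=
  abs_le_of_sq_le_sq ((entry_sq_le A i j).trans h) hR

theorem hs_sf (f : ℝ → ℝ) (A : Matrix m m ℝ) : hs (sf f A) = ∑ i, f (eL A i) ^ 2 :=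
  hs_spec (eU_left A) _

theorem trace_sf (f : ℝ → ℝ) (A : Matrix m m ℝ) : (sf f A).trace = ∑ i, f (eL A i) :=
  trace_spec (eU_left A) _

/-- `|f| ≤ C` on `[-R, R]`, `|A| ≤ R` -/
theorem hs_sf_le {f : ℝ → ℝ} {C R : ℝ} (hR : 0 ≤ R) (hf : ∀ t, |t| ≤ R → |f t| ≤ C)
    {A : Matrix m m ℝ} (hA : hs A ≤ R ^ 2) : hs (sf f A) ≤ C ^ 2 * Fintype.card m := by
  rw [hs_sf]
  refine (Finset.sum_le_card_nsmul _ _ (C ^ 2) fun i _ => ?_).trans (le_of_eq ?_)
  · rw [← sq_abs]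
    exact pow_le_pow_left₀ (abs_nonneg _) (hf _ ((frame_e A).abs_le hR hA i)) 2
  · rw [nsmul_eq_mul, Finset.card_univ, mul_comm]

theorem trace_sf_mono {f g : ℝ → ℝ} (h : ∀ t, f t ≤ g t) (A : Matrix m m ℝ) :
    (sf f A).trace ≤ (sf g A).trace := by
  rw [trace_sf, trace_sf]
  exact Finset.sum_le_sum fun i _ => h _

theorem trace_sf_nonneg {f : ℝ → ℝ} (h : ∀ t, 0 ≤ f t) (A : Matrix m m ℝ) : 0 ≤ (sf f A).trace := by
  rw [trace_sf]
  exact Finset.sum_nonneg fun i _ => h _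

theorem trace_sf_mul (f g : ℝ → ℝ) (A : Matrix m m ℝ) :
    (sf f A * sf g A).trace = ∑ i, f (eL A i) * g (eL A i) := by
  rw [sf_mul, trace_sf]

theorem symp_mul_sf {A : Matrix m m ℝ} (hA : Aᵀ = A) (f : ℝ → ℝ) :
    A * sf f A = sf (fun t => t * f t) A := by
  have h1 : sf (fun x => x) A = A := by rw [sf_id, symp_of_symm hA]
  calc A * sf f A = sf (fun x => x) A * sf f A := by rw [h1]
    _ = _ := sf_mul _ _ _

theorem sf_comm {A : Matrix m m ℝ} (hA : Aᵀ = A) (f : ℝ → ℝ) : A * sf f A = sf f A * A := by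
  have h1 : sf (fun x => x) A = A := by rw [sf_id, symp_of_symm hA]
  have h2 : sf f A * A = sf (fun t => f t * t) A := by
    calc sf f A * A = sf f A * sf (fun x => x) A := by rw [h1]
      _ = _ := sf_mul _ _ _
  rw [symp_mul_sf hA, h2]
  simp only [mul_comm]

theorem sum_sq_le {ι : Type*} (s : Finset ι) (a : ι → ℝ) (h : ∀ i, 0 ≤ a i) :
    ∑ i ∈ s, a i ^ 2 ≤ (∑ i ∈ s, a i) ^ 2 := by
  rw [pow_two (∑ i ∈ s, a i), Finset.sum_mul]
  refine Finset.sum_le_sum fun i hi => ?_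
  rw [pow_two]
  exact mul_le_mul_of_nonneg_left (Finset.single_le_sum (fun j _ => h j) hi) (h i)

/-- boundedness of a field through entries -/
theorem hs_bdd {S : E n → Matrix m m ℝ} (h : ∀ i j, ∃ B : ℝ, ∀ x, |S x i j| ≤ B) :
    ∃ R : ℝ, 0 ≤ R ∧ ∀ x, hs (S x) ≤ R ^ 2 := by
  choose B hB using h
  refine ⟨∑ i, ∑ j, |B i j|, Finset.sum_nonneg fun _ _ => Finset.sum_nonneg fun _ _ => abs_nonneg _,
    fun x => ?_⟩
  have h1 : ∀ i j, |S x i j| ≤ |B i j| := fun i j => (hB i j x).trans (le_abs_self _)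
  have h2 : hs (S x) ≤ ∑ i, ∑ j, |B i j| ^ 2 := by
    unfold hs
    refine Finset.sum_le_sum fun i _ => Finset.sum_le_sum fun j _ => ?_
    rw [← sq_abs (S x i j)]
    exact pow_le_pow_left₀ (abs_nonneg _) (h1 i j) 2
  refine h2.trans ?_
  have h3 : ∀ i, ∑ j, |B i j| ^ 2 ≤ (∑ j, |B i j|) ^ 2 := fun i =>
    sum_sq_le _ _ fun j => abs_nonneg _
  refine (Finset.sum_le_sum fun i _ => h3 i).trans ?_
  exact sum_sq_le _ _ fun i => Finset.sum_nonneg fun _ _ => abs_nonneg _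

/-- `sf f ∘ S` is `CB` for a `CB` symmetric field `S` and `f ∈ C¹` -/
theorem cb_sf {f : ℝ → ℝ} (hf : ContDiff ℝ 1 f) {S : E n → Matrix m m ℝ}
    (hsym : ∀ x, (S x)ᵀ = S x) (hS : ∀ i j, CB fun x => S x i j) (i j : m) :
    CB fun x => sf f (S x) i j := by
  obtain ⟨R, hR0, hR⟩ := hs_bdd (S := S) fun i j => (hS i j).2.imp fun B h x => (h x).1
  refine ⟨contDiff_sf_entry hf (fun i j => (hS i j).1) i j, ?_⟩
  have hc0 : ∃ C : ℝ, 0 ≤ C ∧ ∀ t, |t| ≤ R → |f t| ≤ C := by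
    obtain ⟨C, hC⟩ := (isCompact_Icc (a := -R) (b := R)).exists_bound_of_continuousOn
      hf.continuous.continuousOn
    exact ⟨max C 0, le_max_right _ _, fun t ht => (hC t (abs_le.1 ht)).trans (le_max_left _ _)⟩
  have hc1 : ∃ C : ℝ, 0 ≤ C ∧ ∀ t, |t| ≤ R → |deriv f t| ≤ C := by
    obtain ⟨C, hC⟩ := (isCompact_Icc (a := -R) (b := R)).exists_bound_of_continuousOn
      (hf.continuous_deriv le_rfl).continuousOn
    exact ⟨max C 0, le_max_right _ _, fun t ht => (hC t (abs_le.1 ht)).trans (le_max_left _ _)⟩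
  obtain ⟨C0, hC0, hb0⟩ := hc0
  obtain ⟨C1, hC1, hb1⟩ := hc1
  have hk : ∀ k : Fin n, ∃ Rk : ℝ, 0 ≤ Rk ∧ ∀ x, hs (pdX k S x) ≤ Rk ^ 2 := fun k =>
    hs_bdd (S := pdX k S) fun i j => (hS i j).2.imp fun B h x => (h x).2 k
  choose Rk hRk0 hRk using hk
  refine ⟨C0 * (Fintype.card m + 1) + C1 * ∑ k, Rk k, fun x => ⟨?_, fun k => ?_⟩⟩
  · have h1 := hs_sf_le hR0 hb0 (hR x)
    have h2 : C0 ^ 2 * (Fintype.card m : ℝ) ≤ (C0 * (Fintype.card m + 1)) ^ 2 := by
      rw [mul_pow]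
      refine mul_le_mul_of_nonneg_left ?_ (sq_nonneg _)
      have : (0 : ℝ) ≤ Fintype.card m := Nat.cast_nonneg _
      nlinarith
    have h3 := entry_le (by positivity) (h1.trans h2) i j
    have h4 : 0 ≤ C1 * ∑ k, Rk k := mul_nonneg hC1 (Finset.sum_nonneg fun k _ => hRk0 k)
    linarith
  · have h1 := hs_pdX_sf_le' hf hR0 hb1 hsym (x := x)
      (fun i j => (hS i j).1.differentiable one_ne_zero x) (hR x) k
    have h2 : C1 ^ 2 * hs (pdX k S x) ≤ (C1 * Rk k) ^ 2 := by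
      rw [mul_pow]
      exact mul_le_mul_of_nonneg_left (hRk k x) (sq_nonneg _)
    have h3 := entry_le (mul_nonneg hC1 (hRk0 k)) (h1.trans h2) i j
    have h4 : Rk k ≤ ∑ k, Rk k := Finset.single_le_sum (fun k _ => hRk0 k) (Finset.mem_univ k)
    have h5 : C1 * Rk k ≤ C1 * ∑ k, Rk k := mul_le_mul_of_nonneg_left h4 hC1
    have h6 : 0 ≤ C0 * ((Fintype.card m : ℝ) + 1) := by positivity
    change |pd k (fun y => sf f (S y) i j) x| ≤ _
    have e : pd k (fun y => sf f (S y) i j) x = pdX k (fun y => sf f (S y)) x i j := rfl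
    rw [e]
    linarith

/-- `x ↦ Tr ψ(S x)` is `CB` -/
theorem cb_tr {ψ : ℝ → ℝ} (hf : ContDiff ℝ 1 ψ) {S : E n → Matrix m m ℝ}
    (hsym : ∀ x, (S x)ᵀ = S x) (hS : ∀ i j, CB fun x => S x i j) :
    CB fun x => (sf ψ (S x)).trace := by
  have h := cb_sf hf hsym hS
  refine ⟨contDiff_tr hf fun i j => (hS i j).1, ?_⟩
  choose B hB using fun i => (h i i).2
  refine ⟨∑ i, |B i|, fun x => ⟨?_, fun k => ?_⟩⟩
  · refine (Finset.abs_sum_le_sum_abs _ _).trans (Finset.sum_le_sum fun i _ => ?_)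
    exact (hB i x).1.trans (le_abs_self _)
  · have e : pd k (fun y => (sf ψ (S y)).trace) x = ∑ i, pd k (fun y => sf ψ (S y) i i) x := by
      simp only [Matrix.trace, Matrix.diag_apply, pd]
      rw [fderiv_fun_sum fun i _ => (h i i).1.differentiable one_ne_zero x]
      simp only [FunLike.coe_sum, Finset.sum_apply]
    rw [e]
    refine (Finset.abs_sum_le_sum_abs _ _).trans (Finset.sum_le_sum fun i _ => ?_)
    exact ((hB i x).2 k).trans (le_abs_self _)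

end Crest.Agent.R201.Sf95
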