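import Crest.Agent.R201.Sf5_95

/-!
# R201: singular value calculus through the dilation `[[0, U], [Uᵀ, 0]]` (helper95)

`svf f U` for odd `f` and ANY rectangular matrix `U` (= `Σ f(σ_i) u_i v_iᵀ`).
-/

set_option autoImplicit false
set_option linter.unusedSectionVars false
open Matrix Filter Topology
open scoped Matrix.Norms.Frobenius
attribute [-instance] instTopologicalSpaceMatrix Matrix.instUniformSpace

namespace Crest.Agent.R201.Sf95

open Crest.Agent.R201 NB152

/-! ## frames: conjugation, sign, two matrices -/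

section Sq

variable {m : Type*} [Fintype m] [DecidableEq m]

theorem Frame.conj {A U : Matrix m m ℝ} {l : m → ℝ} (h : Frame A U l) {V : Matrix m m ℝ}
    (h1 : Vᵀ * V = 1) (h2 : V * Vᵀ = 1) : Frame (V * A * Vᵀ) (V * U) l := by
  refine ⟨?_, ?_, ?_⟩
  · rw [Matrix.transpose_mul]
    calc Uᵀ * Vᵀ * (V * U) = Uᵀ * (Vᵀ * V) * U := by noncomm_ring
      _ = 1 := by rw [h1, Matrix.mul_one, h.left]
  · rw [Matrix.transpose_mul]
    calc V * U * (Uᵀ * Vᵀ) = V * (U * Uᵀ) * Vᵀ := by noncomm_ring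
      _ = 1 := by rw [h.right, Matrix.mul_one, h2]
  · have e : symp (V * A * Vᵀ) = V * symp A * Vᵀ := by
      unfold symp
      rw [Matrix.transpose_mul, Matrix.transpose_mul, Matrix.transpose_transpose,
        Matrix.mul_smul, Matrix.smul_mul, Matrix.mul_add, Matrix.add_mul, ← Matrix.mul_assoc V Aᵀ Vᵀ]
    rw [e, h.eq]
    unfold spec
    rw [Matrix.transpose_mul]
    noncomm_ring

theorem sf_conj (f : ℝ → ℝ) (A : Matrix m m ℝ) {V : Matrix m m ℝ}
    (h1 : Vᵀ * V = 1) (h2 : V * Vᵀ = 1) : sf f (V * A * Vᵀ) = V * sf f A * Vᵀ := by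
  rw [sf_eq ((frame_e A).conj h1 h2) f, sf]
  unfold spec
  rw [Matrix.transpose_mul]
  noncomm_ring

theorem Frame.neg {A U : Matrix m m ℝ} {l : m → ℝ} (h : Frame A U l) : Frame (-A) U (fun i => -l i) := by
  refine ⟨h.left, h.right, ?_⟩
  have e : symp (-A) = (-1 : ℝ) • symp A := by rw [← symp_smul, neg_one_smul]
  rw [e, h.eq, spec_smul]
  simp only [neg_mul, one_mul]

theorem sf_neg (f : ℝ → ℝ) (A : Matrix m m ℝ) : sf f (-A) = sf (fun x => f (-x)) A :=
  sf_eq (frame_e A).neg f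

theorem neg_sf (f : ℝ → ℝ) (A : Matrix m m ℝ) : -sf f A = sf (fun x => -f x) A := by
  rw [← neg_one_smul ℝ (sf f A), sf_smul]
  simp only [neg_mul, one_mul]

/-- two frames: `⟨f(A) - g(B), h(A) - k(B)⟩` is a positive double sum -/
theorem trace_two {A B U V : Matrix m m ℝ} {a b : m → ℝ} (hA : Frame A U a) (hB : Frame B V b)
    (f g h k : ℝ → ℝ) :
    ((sf f A - sf g B) * (sf h A - sf k B)).trace =
      ∑ i, ∑ j, (f (a i) - g (b j)) * (h (a i) - k (b j)) * (Uᵀ * V) i j ^ 2 := by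
  set W := Uᵀ * V with hW
  have hW1 : Wᵀ * W = 1 := by
    rw [hW, Matrix.transpose_mul, Matrix.transpose_transpose]
    calc Vᵀ * U * (Uᵀ * V) = Vᵀ * (U * Uᵀ) * V := by noncomm_ring
      _ = 1 := by rw [hA.right, Matrix.mul_one, hB.left]
  have hW2 : W * Wᵀ = 1 := by
    rw [hW, Matrix.transpose_mul, Matrix.transpose_transpose]
    calc Uᵀ * V * (Vᵀ * U) = Uᵀ * (V * Vᵀ) * U := by noncomm_ring
      _ = 1 := by rw [hB.right, Matrix.mul_one, hA.left]
  have hrow : ∀ i, ∑ j, W i j ^ 2 = 1 := by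
    intro i
    have := congrFun (congrFun hW2 i) i
    rw [Matrix.mul_apply, Matrix.one_apply_eq] at this
    rw [← this]
    exact Finset.sum_congr rfl fun j _ => by rw [Matrix.transpose_apply, pow_two]
  have hcol : ∀ j, ∑ i, W i j ^ 2 = 1 := by
    intro j
    have := congrFun (congrFun hW1 j) j
    rw [Matrix.mul_apply, Matrix.one_apply_eq] at this
    rw [← this]
    exact Finset.sum_congr rfl fun j _ => by rw [Matrix.transpose_apply, pow_two]
  have haa : ∀ f h : ℝ → ℝ, (sf f A * sf h A).trace = ∑ i, ∑ j, f (a i) * h (a i) * W i j ^ 2 := by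
    intro f h
    rw [sf_mul, sf_eq hA, trace_spec hA.left]
    refine Finset.sum_congr rfl fun i _ => ?_
    rw [← Finset.mul_sum, hrow i, mul_one]
  have hbb : ∀ f h : ℝ → ℝ, (sf f B * sf h B).trace = ∑ i, ∑ j, f (b j) * h (b j) * W i j ^ 2 := by
    intro f h
    rw [sf_mul, sf_eq hB, trace_spec hB.left, Finset.sum_comm]
    refine Finset.sum_congr rfl fun j _ => ?_
    rw [← Finset.mul_sum, hcol j, mul_one]
  have hab : ∀ f g : ℝ → ℝ, (sf f A * sf g B).trace = ∑ i, ∑ j, f (a i) * g (b j) * W i j ^ 2 := by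
    intro f g
    rw [sf_eq hA, sf_eq hB]
    unfold spec
    have e : (U * diagonal (fun i => f (a i)) * Uᵀ * (V * diagonal (fun i => g (b i)) * Vᵀ)).trace =
        (diagonal (fun i => f (a i)) * W * (diagonal (fun i => g (b i)) * Wᵀ)).trace := by
      have e1 : U * diagonal (fun i => f (a i)) * Uᵀ * (V * diagonal (fun i => g (b i)) * Vᵀ) =
          U * (diagonal (fun i => f (a i)) * W * (diagonal (fun i => g (b i)) * Vᵀ)) := by
        rw [hW]; noncomm_ring
      have e2 : Wᵀ = Vᵀ * U := by rw [hW, Matrix.transpose_mul, Matrix.transpose_transpose]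
      rw [e1, Matrix.trace_mul_comm, e2]
      congr 1
      noncomm_ring
    rw [e, Matrix.trace]
    refine Finset.sum_congr rfl fun i _ => ?_
    rw [Matrix.diag_apply, Matrix.mul_apply]
    refine Finset.sum_congr rfl fun j _ => ?_
    rw [Matrix.diagonal_mul, Matrix.diagonal_mul, Matrix.transpose_apply]
    ring
  have hba : ∀ g h : ℝ → ℝ, (sf g B * sf h A).trace = ∑ i, ∑ j, g (b j) * h (a i) * W i j ^ 2 := by
    intro g h
    rw [Matrix.trace_mul_comm, hab]
    exact Finset.sum_congr rfl fun i _ => Finset.sum_congr rfl fun j _ => by ring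
  rw [Matrix.sub_mul, Matrix.mul_sub, Matrix.mul_sub, Matrix.trace_sub, Matrix.trace_sub,
    Matrix.trace_sub, haa, hbb, hab, hba, ← Finset.sum_sub_distrib, ← Finset.sum_sub_distrib,
    ← Finset.sum_sub_distrib]
  refine Finset.sum_congr rfl fun i _ => ?_
  rw [← Finset.sum_sub_distrib, ← Finset.sum_sub_distrib, ← Finset.sum_sub_distrib]
  exact Finset.sum_congr rfl fun j _ => by ring

theorem hs_symm {A : Matrix m m ℝ} (hA : Aᵀ = A) : hs A = (A * A).trace := by
  rw [hs_eq_trace, hA]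

/-- firm nonexpansiveness -/
theorem sf_firm {f : ℝ → ℝ} (hf : ∀ s t, (f s - f t) ^ 2 ≤ (f s - f t) * (s - t))
    {A B : Matrix m m ℝ} (hA : Aᵀ = A) (hB : Bᵀ = B) :
    hs (sf f A - sf f B) ≤ ((A - B) * (sf f A - sf f B)).trace := by
  have e1 : A = sf (fun x => x) A := by rw [sf_id, symp_of_symm hA]
  have e2 : B = sf (fun x => x) B := by rw [sf_id, symp_of_symm hB]
  have h1 : hs (sf f A - sf f B) = ((sf f A - sf f B) * (sf f A - sf f B)).trace :=
    hs_symm (by rw [Matrix.transpose_sub, sf_transpose, sf_transpose])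
  have h2 : ((A - B) * (sf f A - sf f B)).trace =
      ((sf (fun x => x) A - sf (fun x => x) B) * (sf f A - sf f B)).trace := by rw [← e1, ← e2]
  rw [h1, h2, trace_two (frame_e A) (frame_e B), trace_two (frame_e A) (frame_e B)]
  refine Finset.sum_le_sum fun i _ => Finset.sum_le_sum fun j _ => ?_
  refine mul_le_mul_of_nonneg_right ?_ (sq_nonneg _)
  have := hf (eL A i) (eL B j)
  nlinarith

/-- Lipschitz bound -/
theorem sf_lip {f : ℝ → ℝ} {C : ℝ} (hf : ∀ s t, |f s - f t| ≤ C * |s - t|)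
    {A B : Matrix m m ℝ} (hA : Aᵀ = A) (hB : Bᵀ = B) :
    hs (sf f A - sf f B) ≤ C ^ 2 * hs (A - B) := by
  have e1 : A = sf (fun x => x) A := by rw [sf_id, symp_of_symm hA]
  have e2 : B = sf (fun x => x) B := by rw [sf_id, symp_of_symm hB]
  have h1 : hs (sf f A - sf f B) = ((sf f A - sf f B) * (sf f A - sf f B)).trace :=
    hs_symm (by rw [Matrix.transpose_sub, sf_transpose, sf_transpose])
  have h2 : hs (A - B) =
      ((sf (fun x => x) A - sf (fun x => x) B) * (sf (fun x => x) A - sf (fun x => x) B)).trace := by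
    rw [← e1, ← e2]
    exact hs_symm (by rw [Matrix.transpose_sub, hA, hB])
  rw [h1, h2, trace_two (frame_e A) (frame_e B), trace_two (frame_e A) (frame_e B), Finset.mul_sum]
  refine Finset.sum_le_sum fun i _ => ?_
  rw [Finset.mul_sum]
  refine Finset.sum_le_sum fun j _ => ?_
  rw [← mul_assoc]
  refine mul_le_mul_of_nonneg_right ?_ (sq_nonneg _)
  have h3 := hf (eL A i) (eL B j)
  have h4 := pow_le_pow_left₀ (abs_nonneg _) h3 2
  rw [mul_pow, sq_abs, sq_abs] at h4
  nlinarith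

end Sq

/-! ## the dilation -/

section Dil

variable {p q : Type*} [Fintype p] [DecidableEq p] [Fintype q] [DecidableEq q]

/-- dilation -/
def dil (U : Matrix p q ℝ) : Matrix (p ⊕ q) (p ⊕ q) ℝ := fromBlocks 0 U Uᵀ 0

theorem dil_transpose (U : Matrix p q ℝ) : (dil U)ᵀ = dil U := by
  simp only [dil, fromBlocks_transpose, Matrix.transpose_zero, Matrix.transpose_transpose]

theorem dil_add (U V : Matrix p q ℝ) : dil (U + V) = dil U + dil V := by
  simp only [dil, fromBlocks_add, Matrix.transpose_add, add_zero]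

theorem dil_smul (c : ℝ) (U : Matrix p q ℝ) : dil (c • U) = c • dil U := by
  simp only [dil, fromBlocks_smul, Matrix.transpose_smul, smul_zero]

theorem dil_sub (U V : Matrix p q ℝ) : dil (U - V) = dil U - dil V := by
  rw [sub_eq_add_neg, sub_eq_add_neg, dil_add, ← neg_one_smul ℝ V, dil_smul, neg_one_smul]

theorem dil_mul (U V : Matrix p q ℝ) :
    dil U * dil V = fromBlocks (U * Vᵀ) 0 0 (Uᵀ * V) := by
  simp only [dil, fromBlocks_multiply, Matrix.zero_mul, Matrix.mul_zero, zero_add, add_zero]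

theorem trace_dil_mul (U V : Matrix p q ℝ) : (dil U * dil V).trace = 2 * (Uᵀ * V).trace := by
  have e : (U * Vᵀ).trace = (Uᵀ * V).trace := by
    rw [← Matrix.trace_transpose (U * Vᵀ), Matrix.transpose_mul, Matrix.transpose_transpose,
      Matrix.trace_mul_comm]
  have e2 : (fromBlocks (U * Vᵀ) 0 0 (Uᵀ * V)).trace = (U * Vᵀ).trace + (Uᵀ * V).trace := by
    simp only [Matrix.trace, Matrix.diag_apply, Fintype.sum_sum_type, fromBlocks_apply₁₁,
      fromBlocks_apply₂₂]
  rw [dil_mul, e2, e]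
  ring

theorem hs_dil (U : Matrix p q ℝ) : hs (dil U) = 2 * hs U := by
  rw [hs_symm (dil_transpose U), trace_dil_mul, hs_eq_trace']

/-- the sign matrix -/
def sgn (p q : Type*) [Fintype p] [DecidableEq p] [Fintype q] [DecidableEq q] :
    Matrix (p ⊕ q) (p ⊕ q) ℝ := fromBlocks 1 0 0 (-1)

theorem sgn_transpose : (sgn p q)ᵀ = sgn p q := by
  simp only [sgn, fromBlocks_transpose, Matrix.transpose_zero, Matrix.transpose_one,
    Matrix.transpose_neg]

theorem sgn_mul : sgn p q * sgn p q = 1 := by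
  simp only [sgn, fromBlocks_multiply, Matrix.mul_zero, zero_add, add_zero,
    Matrix.mul_one, Matrix.mul_neg, neg_neg, neg_zero, fromBlocks_one]

theorem sgn_dil (U : Matrix p q ℝ) : sgn p q * dil U * (sgn p q)ᵀ = -dil U := by
  rw [sgn_transpose]
  simp only [sgn, dil, fromBlocks_multiply, Matrix.zero_mul, Matrix.mul_zero, zero_add, add_zero,
    Matrix.mul_one, Matrix.one_mul, Matrix.mul_neg, Matrix.neg_mul, fromBlocks_neg, neg_zero]

/-- singular value calculus (odd `f`) -/
noncomputable def svf (f : ℝ → ℝ) (U : Matrix p q ℝ) : Matrix p q ℝ := (sf f (dil U)).toBlocks₁₂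

theorem sf_dil {f : ℝ → ℝ} (hf : ∀ t, f (-t) = -f t) (U : Matrix p q ℝ) :
    sf f (dil U) = dil (svf f U) := by
  have h1 : sf f (-dil U) = -sf f (dil U) := by
    rw [sf_neg, neg_sf]
    simp only [hf]
  have h2 : sf f (-dil U) = sgn p q * sf f (dil U) * (sgn p q)ᵀ := by
    rw [← sgn_dil, sf_conj f (dil U) (by rw [sgn_transpose, sgn_mul]) (by rw [sgn_transpose, sgn_mul])]
  rw [h1, sgn_transpose] at h2
  set X := sf f (dil U) with hX
  have hXt : Xᵀ = X := sf_transpose f _
  have hb : X = fromBlocks X.toBlocks₁₁ X.toBlocks₁₂ X.toBlocks₂₁ X.toBlocks₂₂ :=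
    (fromBlocks_toBlocks X).symm
  have h3 : sgn p q * X * sgn p q =
      fromBlocks X.toBlocks₁₁ (-X.toBlocks₁₂) (-X.toBlocks₂₁) X.toBlocks₂₂ := by
    conv_lhs => rw [hb]
    simp only [sgn, fromBlocks_multiply, Matrix.zero_mul, Matrix.mul_zero, zero_add, add_zero,
      Matrix.mul_one, Matrix.one_mul, Matrix.mul_neg, Matrix.neg_mul, neg_neg]
  rw [h3] at h2
  have h4 : fromBlocks (-X.toBlocks₁₁) (-X.toBlocks₁₂) (-X.toBlocks₂₁) (-X.toBlocks₂₂) =
      fromBlocks X.toBlocks₁₁ (-X.toBlocks₁₂) (-X.toBlocks₂₁) X.toBlocks₂₂ := by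
    rw [← h2, ← fromBlocks_neg, fromBlocks_toBlocks]
  rw [fromBlocks_inj] at h4
  have hz : ∀ {r s : Type _} (Y : Matrix r s ℝ), -Y = Y → Y = 0 := by
    intro r s Y hY
    ext i j
    have := congrFun (congrFun hY i) j
    rw [Matrix.neg_apply] at this
    rw [Matrix.zero_apply]
    linarith
  have h11 : X.toBlocks₁₁ = 0 := hz _ h4.1
  have h22 : X.toBlocks₂₂ = 0 := by
    ext i j
    have := congrFun (congrFun h4.2.2.2 i) j
    rw [Matrix.neg_apply] at this
    rw [Matrix.zero_apply]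
    linarith
  have h21 : X.toBlocks₂₁ = (X.toBlocks₁₂)ᵀ := by
    ext i j
    have := congrFun (congrFun hXt (Sum.inr i)) (Sum.inl j)
    exact this.symm
  rw [hb, h11, h22, h21]
  rfl

end Dil

end Crest.Agent.R201.Sf95
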