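import Crest.Agent.R201.Sf6_95

/-!
# R201: singular value clip of a rectangular field: order, traces, derivative (helper95)
-/

set_option autoImplicit false
set_option linter.unusedSectionVars false
open Matrix Filter Topology
open scoped Matrix.Norms.Frobenius
attribute [-instance] instTopologicalSpaceMatrix Matrix.instUniformSpace

namespace Crest.Agent.R201.Sf95

open Crest.Agent.R201 NB152

section Alg

variable {p q : Type*} [Fintype p] [DecidableEq p] [Fintype q] [DecidableEq q]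

theorem leq_block11 {A B : Matrix (p ⊕ q) (p ⊕ q) ℝ} (h : LeQ A B) :
    LeQ A.toBlocks₁₁ B.toBlocks₁₁ := by
  have key : ∀ (C : Matrix (p ⊕ q) (p ⊕ q) ℝ) (u : p → ℝ),
      Sum.elim u (0 : q → ℝ) ⬝ᵥ (C *ᵥ Sum.elim u 0) = u ⬝ᵥ (C.toBlocks₁₁ *ᵥ u) := by
    intro C u
    simp only [dotProduct, Matrix.mulVec, Fintype.sum_sum_type, Sum.elim_inl, Sum.elim_inr,
      Pi.zero_apply, mul_zero, zero_mul, Finset.sum_const_zero, add_zero, toBlocks₁₁, Matrix.of_apply]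
  intro u
  have := h (Sum.elim u 0)
  rwa [key, key] at this

theorem leq_block22 {A B : Matrix (p ⊕ q) (p ⊕ q) ℝ} (h : LeQ A B) :
    LeQ A.toBlocks₂₂ B.toBlocks₂₂ := by
  have key : ∀ (C : Matrix (p ⊕ q) (p ⊕ q) ℝ) (u : q → ℝ),
      Sum.elim (0 : p → ℝ) u ⬝ᵥ (C *ᵥ Sum.elim 0 u) = u ⬝ᵥ (C.toBlocks₂₂ *ᵥ u) := by
    intro C u
    simp only [dotProduct, Matrix.mulVec, Fintype.sum_sum_type, Sum.elim_inl, Sum.elim_inr,
      Pi.zero_apply, mul_zero, zero_mul, Finset.sum_const_zero, zero_add, toBlocks₂₂, Matrix.of_apply]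
  intro u
  have := h (Sum.elim 0 u)
  rwa [key, key] at this

variable {f : ℝ → ℝ}

/-- `U Fᵀ` is the upper block of `sf (t f(t))` -/
theorem mul_svf_transpose (hf : ∀ t, f (-t) = -f t) (U : Matrix p q ℝ) :
    U * (svf f U)ᵀ = (sf (fun t => t * f t) (dil U)).toBlocks₁₁ := by
  rw [← symp_mul_sf (dil_transpose U), sf_dil hf, dil_mul, toBlocks_fromBlocks₁₁]

theorem transpose_mul_svf (hf : ∀ t, f (-t) = -f t) (U : Matrix p q ℝ) :
    Uᵀ * svf f U = (sf (fun t => t * f t) (dil U)).toBlocks₂₂ := by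
  rw [← symp_mul_sf (dil_transpose U), sf_dil hf, dil_mul, toBlocks_fromBlocks₂₂]

theorem svf_mul_svf_transpose {g : ℝ → ℝ} (hf : ∀ t, f (-t) = -f t) (hg : ∀ t, g (-t) = -g t)
    (U : Matrix p q ℝ) :
    svf f U * (svf g U)ᵀ = (sf (fun t => f t * g t) (dil U)).toBlocks₁₁ := by
  rw [← sf_mul, sf_dil hf, sf_dil hg, dil_mul, toBlocks_fromBlocks₁₁]

theorem svf_transpose_mul_svf {g : ℝ → ℝ} (hf : ∀ t, f (-t) = -f t) (hg : ∀ t, g (-t) = -g t)
    (U : Matrix p q ℝ) :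
    (svf f U)ᵀ * svf g U = (sf (fun t => f t * g t) (dil U)).toBlocks₂₂ := by
  rw [← sf_mul, sf_dil hf, sf_dil hg, dil_mul, toBlocks_fromBlocks₂₂]

theorem toBlocks11_symm {X : Matrix (p ⊕ q) (p ⊕ q) ℝ} (h : Xᵀ = X) : X.toBlocks₁₁ᵀ = X.toBlocks₁₁ := by
  ext i j
  exact congrFun (congrFun h (Sum.inl i)) (Sum.inl j)

theorem toBlocks22_symm {X : Matrix (p ⊕ q) (p ⊕ q) ℝ} (h : Xᵀ = X) : X.toBlocks₂₂ᵀ = X.toBlocks₂₂ := by
  ext i j
  exact congrFun (congrFun h (Sum.inr i)) (Sum.inr j)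

/-- `U Fᵀ` is symmetric -/
theorem mul_svf_symm (hf : ∀ t, f (-t) = -f t) (U : Matrix p q ℝ) :
    (U * (svf f U)ᵀ)ᵀ = U * (svf f U)ᵀ := by
  rw [mul_svf_transpose hf]
  exact toBlocks11_symm (sf_transpose _ _)

/-- `F Fᵀ ≤ U Fᵀ` -/
theorem leq_svf_mul (hf : ∀ t, f (-t) = -f t) (h : ∀ t, f t ^ 2 ≤ t * f t) (U : Matrix p q ℝ) :
    LeQ (svf f U * (svf f U)ᵀ) (U * (svf f U)ᵀ) := by
  rw [mul_svf_transpose hf, svf_mul_svf_transpose hf hf]
  exact leq_block11 (sf_mono _ fun t => by rw [← pow_two]; exact h t)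

/-- `U Fᵀ ≤ U Uᵀ` -/
theorem leq_mul_svf (hf : ∀ t, f (-t) = -f t) (h : ∀ t, t * f t ≤ t ^ 2) (U : Matrix p q ℝ) :
    LeQ (U * (svf f U)ᵀ) (U * Uᵀ) := by
  have e : U * Uᵀ = (sf (fun t => t * t) (dil U)).toBlocks₁₁ := by
    have h1 : sf (fun x => x) (dil U) = dil U := by rw [sf_id, symp_of_symm (dil_transpose U)]
    rw [← sf_mul, h1, dil_mul, toBlocks_fromBlocks₁₁]
  rw [mul_svf_transpose hf, e]
  exact leq_block11 (sf_mono _ fun t => by rw [← pow_two]; exact h t)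

theorem mul_transpose_nonneg (F : Matrix p q ℝ) : LeQ 0 (F * Fᵀ) := by
  intro u
  rw [Matrix.zero_mulVec, dotProduct_zero, ← Matrix.mulVec_mulVec, Matrix.dotProduct_mulVec,
    ← Matrix.mulVec_transpose]
  exact Finset.sum_nonneg fun _ _ => mul_self_nonneg _

/-- `F Fᵀ ≤ r²` -/
theorem leq_svf_bdd (hf : ∀ t, f (-t) = -f t) {r : ℝ} (h : ∀ t, f t ^ 2 ≤ r ^ 2) (U : Matrix p q ℝ) :
    LeQ (svf f U * (svf f U)ᵀ) (r ^ 2 • (1 : Matrix p p ℝ)) := by
  have e : (r ^ 2 • (1 : Matrix p p ℝ)) = (sf (fun _ => r ^ 2) (dil U)).toBlocks₁₁ := by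
    rw [sf_const, ← fromBlocks_one, fromBlocks_smul, toBlocks_fromBlocks₁₁]
  rw [svf_mul_svf_transpose hf hf, e]
  exact leq_block11 (sf_mono _ fun t => by rw [← pow_two]; exact h t)

/-- `Fᵀ F ≤ r²` -/
theorem leq_svf_bdd' (hf : ∀ t, f (-t) = -f t) {r : ℝ} (h : ∀ t, f t ^ 2 ≤ r ^ 2) (U : Matrix p q ℝ) :
    LeQ ((svf f U)ᵀ * svf f U) (r ^ 2 • (1 : Matrix q q ℝ)) := by
  have e : (r ^ 2 • (1 : Matrix q q ℝ)) = (sf (fun _ => r ^ 2) (dil U)).toBlocks₂₂ := by
    rw [sf_const, ← fromBlocks_one, fromBlocks_smul, toBlocks_fromBlocks₂₂]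
  rw [svf_transpose_mul_svf hf hf, e]
  exact leq_block22 (sf_mono _ fun t => by rw [← pow_two]; exact h t)

theorem hs_svf (hf : ∀ t, f (-t) = -f t) (U : Matrix p q ℝ) :
    2 * hs (svf f U) = (sf (fun t => f t ^ 2) (dil U)).trace := by
  rw [← hs_dil, ← sf_dil hf, hs_symm (sf_transpose _ _), sf_mul]
  simp only [pow_two]

theorem trace_transpose_mul_svf (hf : ∀ t, f (-t) = -f t) (U : Matrix p q ℝ) :
    2 * (Uᵀ * svf f U).trace = (sf (fun t => t * f t) (dil U)).trace := by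
  rw [← trace_dil_mul, ← sf_dil hf, symp_mul_sf (dil_transpose U)]

theorem hs_eq_sf (U : Matrix p q ℝ) : 2 * hs U = (sf (fun t => t ^ 2) (dil U)).trace := by
  have h1 : sf (fun x => x) (dil U) = dil U := by rw [sf_id, symp_of_symm (dil_transpose U)]
  rw [← hs_dil, hs_symm (dil_transpose U)]
  conv_lhs => rw [← h1, sf_mul]
  simp only [pow_two]

/-- any scalar inequality between `f²`, `t f`, `t²` passes to traces -/
theorem hs_svf_le_trace (hf : ∀ t, f (-t) = -f t) (h : ∀ t, f t ^ 2 ≤ t * f t) (U : Matrix p q ℝ) :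
    hs (svf f U) ≤ (Uᵀ * svf f U).trace := by
  have h1 := hs_svf hf U
  have h2 := trace_transpose_mul_svf hf U
  have h3 := trace_sf_mono (f := fun t => f t ^ 2) (g := fun t => t * f t) h (dil U)
  linarith

theorem trace_svf_le_hs (hf : ∀ t, f (-t) = -f t) (h : ∀ t, t * f t ≤ t ^ 2) (U : Matrix p q ℝ) :
    (Uᵀ * svf f U).trace ≤ hs U := by
  have h1 := hs_eq_sf U
  have h2 := trace_transpose_mul_svf hf U
  have h3 := trace_sf_mono (f := fun t => t * f t) (g := fun t => t ^ 2) h (dil U)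
  linarith

theorem svf_id (U : Matrix p q ℝ) : svf (fun t => t) U = U := by
  have h1 : sf (fun x => x) (dil U) = dil U := by rw [sf_id, symp_of_symm (dil_transpose U)]
  rw [svf, h1, dil, toBlocks_fromBlocks₁₂]

theorem svf_sub (f g : ℝ → ℝ) (U : Matrix p q ℝ) : svf f U - svf g U = svf (fun t => f t - g t) U := by
  rw [svf, svf, svf, ← sf_sub]
  rfl

theorem sub_svf (f : ℝ → ℝ) (U : Matrix p q ℝ) : U - svf f U = svf (fun t => t - f t) U := by
  conv_lhs => rw [← svf_id U, svf_id U]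
  nth_rw 1 [← svf_id U]
  exact svf_sub _ _ _

theorem svf_smul (c : ℝ) (f : ℝ → ℝ) (U : Matrix p q ℝ) : c • svf f U = svf (fun t => c * f t) U := by
  rw [svf, svf, ← sf_smul]
  rfl

/-- firm nonexpansiveness of the singular value clip -/
theorem svf_firm (hf : ∀ t, f (-t) = -f t) (h : ∀ s t, (f s - f t) ^ 2 ≤ (f s - f t) * (s - t))
    (U V : Matrix p q ℝ) :
    hs (svf f U - svf f V) ≤ ((U - V)ᵀ * (svf f U - svf f V)).trace := by
  have h1 := sf_firm h (dil_transpose U) (dil_transpose V)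
  rw [sf_dil hf, sf_dil hf, ← dil_sub, ← dil_sub, hs_dil, trace_dil_mul] at h1
  linarith

theorem svf_lip (hf : ∀ t, f (-t) = -f t) {C : ℝ} (h : ∀ s t, |f s - f t| ≤ C * |s - t|)
    (U V : Matrix p q ℝ) : hs (svf f U - svf f V) ≤ C ^ 2 * hs (U - V) := by
  have h1 := sf_lip h (dil_transpose U) (dil_transpose V)
  rw [sf_dil hf, sf_dil hf, ← dil_sub, ← dil_sub, hs_dil, hs_dil] at h1
  linarith

theorem trace_mul_le_of_leq {V X Y : Matrix p p ℝ} (hVt : Vᵀ = V) (hV : LeQ 0 V) (h : LeQ X Y) :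
    (V * X).trace ≤ (V * Y).trace := by
  obtain ⟨W, l, h1, h2, h3⟩ := diagonalize hVt
  have hl : ∀ i, 0 ≤ l i := by
    intro i
    have := hV (fun j => W j i)
    rw [Matrix.zero_mulVec, dotProduct_zero] at this
    have h4 : V = spec W l := h3
    rw [h4, spec_form] at this
    have h5 : ∀ j, (Wᵀ *ᵥ fun j => W j i) j = if j = i then 1 else 0 := by
      intro j
      have := congrFun (congrFun h1 j) i
      rw [Matrix.mul_apply, Matrix.one_apply] at this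
      exact this
    simp only [h5] at this
    simpa using this
  have key : ∀ Z : Matrix p p ℝ, (V * Z).trace =
      ((W * diagonal fun i => Real.sqrt (l i))ᵀ * Z * (W * diagonal fun i => Real.sqrt (l i))).trace := by
    intro Z
    have e : V = (W * diagonal fun i => Real.sqrt (l i)) * (W * diagonal fun i => Real.sqrt (l i))ᵀ := by
      rw [Matrix.transpose_mul, Matrix.diagonal_transpose, h3]
      have : diagonal l = (diagonal fun i => Real.sqrt (l i)) * diagonal fun i => Real.sqrt (l i) := by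
        rw [Matrix.diagonal_mul_diagonal]
        congr 1
        funext i
        exact (Real.mul_self_sqrt (hl i)).symm
      rw [this]
      simp only [Matrix.mul_assoc]
    rw [e, Matrix.mul_assoc, Matrix.trace_mul_comm]
  rw [key, key]
  exact trace_sq_mono h _

theorem trace_mul_comm3 {X : Matrix p p ℝ} (U F : Matrix p q ℝ) :
    (X * (U * Fᵀ)).trace = (Fᵀ * X * U).trace := by
  rw [← Matrix.mul_assoc, Matrix.trace_mul_comm, ← Matrix.mul_assoc]

/-- `Tr V F Fᵀ ≤ Tr V U Fᵀ` for `0 ≤ V` -/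
theorem trace_V_svf {V : Matrix p p ℝ} (hVt : Vᵀ = V) (hV : LeQ 0 V) (hf : ∀ t, f (-t) = -f t)
    (h : ∀ t, f t ^ 2 ≤ t * f t) (U : Matrix p q ℝ) :
    0 ≤ (V * (svf f U * (svf f U)ᵀ)).trace ∧
    (V * (svf f U * (svf f U)ᵀ)).trace ≤ (V * (U * (svf f U)ᵀ)).trace := by
  refine ⟨?_, trace_mul_le_of_leq hVt hV (leq_svf_mul hf h U)⟩
  have := trace_mul_le_of_leq hVt hV (mul_transpose_nonneg (svf f U))
  rwa [Matrix.mul_zero, Matrix.trace_zero] at this

/-- `|Tr H U Fᵀ| ≤ r |H| |U|` -/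
theorem abs_trace_le (hf : ∀ t, f (-t) = -f t) {r : ℝ} (hr : 0 ≤ r) (h : ∀ t, f t ^ 2 ≤ r ^ 2)
    (H : Matrix p p ℝ) (U V : Matrix p q ℝ) :
    |(H * (V * (svf f U)ᵀ)).trace| ≤ r * Real.sqrt (hs H) * Real.sqrt (hs V) := by
  set F := svf f U
  -- `|Hᵀ F|² ≤ r² |H|²`
  have h1 : hs (Hᵀ * F) ≤ r ^ 2 * hs H := by
    rw [hs_eq_trace, Matrix.transpose_mul, Matrix.transpose_transpose]
    have e : Hᵀ * F * (Fᵀ * H) = Hᵀ * (F * Fᵀ) * H := by simp only [Matrix.mul_assoc]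
    rw [e]
    refine (trace_sq_mono (leq_svf_bdd hf h U) H).trans (le_of_eq ?_)
    rw [Matrix.mul_smul, Matrix.smul_mul, Matrix.mul_one, Matrix.trace_smul, smul_eq_mul,
      ← hs_eq_trace']
  have h2 : (H * (V * Fᵀ)).trace = ∑ i, ∑ j, (Hᵀ * F) i j * V i j := by
    rw [trace_mul_comm3]
    have e : Fᵀ * H * V = (Hᵀ * F)ᵀ * V := by
      rw [Matrix.transpose_mul, Matrix.transpose_transpose]
    rw [e, Matrix.trace]
    simp only [Matrix.diag_apply, Matrix.mul_apply (M := (Hᵀ * F)ᵀ), Matrix.transpose_apply]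
    exact Finset.sum_comm
  rw [h2]
  have h3 : (∑ i, ∑ j, (Hᵀ * F) i j * V i j) ^ 2 ≤ hs (Hᵀ * F) * hs V := by
    unfold hs
    simp only [← Finset.sum_product']
    exact Finset.sum_mul_sq_le_sq_mul_sq _ _ _
  refine abs_le_of_sq_le_sq ?_ (by positivity)
  rw [mul_pow, mul_pow, Real.sq_sqrt (hs_nonneg _), Real.sq_sqrt (hs_nonneg _)]
  exact h3.trans (mul_le_mul_of_nonneg_right h1 (hs_nonneg _))

end Alg

/-! ## fields -/

section Fields

variable {n : ℕ} {p q : Type*} [Fintype p] [DecidableEq p] [Fintype q] [DecidableEq q]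

/-- partial derivative of a rectangular matrix field -/
noncomputable def pdR (k : Fin n) (F : E n → Matrix p q ℝ) (x : E n) : Matrix p q ℝ :=
  Matrix.of fun i j => pd k (fun y => F y i j) x

theorem pd_zero (k : Fin n) (x : E n) : pd k (fun _ => (0 : ℝ)) x = 0 := by
  unfold pd
  rw [show (fun _ : E n => (0 : ℝ)) = fun _ => (0 : ℝ) from rfl, fderiv_fun_const]
  rfl

theorem pdX_dil (k : Fin n) (U : E n → Matrix p q ℝ) (x : E n) :
    pdX k (fun y => dil (U y)) x = dil (pdR k U x) := by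
  ext i j
  rcases i with i | i <;> rcases j with j | j
  · change pd k (fun _ => (0 : ℝ)) x = 0
    exact pd_zero k x
  · rfl
  · rfl
  · change pd k (fun _ => (0 : ℝ)) x = 0
    exact pd_zero k x

theorem cb_zero : CB (n := n) fun _ => (0 : ℝ) :=
  ⟨contDiff_const, 0, fun x => ⟨by simp, fun k => by rw [pd_zero]; simp⟩⟩

theorem cb_dil {U : E n → Matrix p q ℝ} (hU : ∀ i j, CB fun x => U x i j) (i j : p ⊕ q) :
    CB fun x => dil (U x) i j := by
  rcases i with i | i <;> rcases j with j | j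
  · exact cb_zero
  · exact hU i j
  · exact hU j i
  · exact cb_zero

theorem cb_svf {f : ℝ → ℝ} (hf : ContDiff ℝ 1 f) {U : E n → Matrix p q ℝ}
    (hU : ∀ i j, CB fun x => U x i j) (i : p) (j : q) : CB fun x => svf f (U x) i j :=
  cb_sf hf (S := fun x => dil (U x)) (fun x => dil_transpose (U x)) (cb_dil hU) (Sum.inl i) (Sum.inr j)

theorem diff_dil {U : E n → Matrix p q ℝ} {x : E n}
    (hU : ∀ i j, DifferentiableAt ℝ (fun y => U y i j) x) (i j : p ⊕ q) :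
    DifferentiableAt ℝ (fun y => dil (U y) i j) x := by
  rcases i with i | i <;> rcases j with j | j
  · exact differentiableAt_const _
  · exact hU i j
  · exact hU j i
  · exact differentiableAt_const _

/-- `|D_k F|² ≤ ⟨D_k U, D_k F⟩` for `F = svf f U`, `0 ≤ f' ≤ 1` -/
theorem hs_pdR_svf_le {f : ℝ → ℝ} (hf : ContDiff ℝ 1 f) (hodd : ∀ t, f (-t) = -f t)
    (h0 : ∀ x, 0 ≤ deriv f x) (h1 : ∀ x, deriv f x ≤ 1) {U : E n → Matrix p q ℝ} {x : E n}
    (hU : ∀ i j, DifferentiableAt ℝ (fun y => U y i j) x) (k : Fin n) :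
    hs (pdR k (fun y => svf f (U y)) x) ≤
      ((pdR k U x)ᵀ * pdR k (fun y => svf f (U y)) x).trace := by
  have h := hs_pdX_sf_le hf h0 h1 (S := fun y => dil (U y)) (fun y => dil_transpose (U y))
    (diff_dil hU) k
  simp only [sf_dil hodd] at h
  rw [pdX_dil, pdX_dil, hs_dil, trace_dil_mul] at h
  linarith

theorem trace_pdR_svf_le {f : ℝ → ℝ} (hf : ContDiff ℝ 1 f) (hodd : ∀ t, f (-t) = -f t)
    (h1 : ∀ x, deriv f x ≤ 1) {U : E n → Matrix p q ℝ} {x : E n}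
    (hU : ∀ i j, DifferentiableAt ℝ (fun y => U y i j) x) (k : Fin n) :
    ((pdR k U x)ᵀ * pdR k (fun y => svf f (U y)) x).trace ≤ hs (pdR k U x) := by
  have h := trace_pdX_sf_le hf h1 (S := fun y => dil (U y)) (fun y => dil_transpose (U y))
    (diff_dil hU) k
  simp only [sf_dil hodd] at h
  rw [pdX_dil, pdX_dil, hs_dil, trace_dil_mul] at h
  linarith

/-- potential: `D_k (1/2) Tr ψ(dil U) = ⟨F, D_k U⟩`, `ψ' = f` odd -/
theorem pd_tr_dil {ψ : ℝ → ℝ} (hψ : ContDiff ℝ 1 ψ) (hodd : ∀ t, deriv ψ (-t) = -deriv ψ t)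
    {U : E n → Matrix p q ℝ} {x : E n} (hU : ∀ i j, DifferentiableAt ℝ (fun y => U y i j) x)
    (k : Fin n) :
    pd k (fun y => (sf ψ (dil (U y))).trace) x = 2 * ((svf (deriv ψ) (U x))ᵀ * pdR k U x).trace := by
  rw [pd_tr hψ (diff_dil hU) k, sf_dil hodd, pdX_dil, trace_dil_mul]

end Fields

end Crest.Agent.R201.Sf95
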