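import Crest.Agent.R201.Sf7_95

/-!
# The smooth clip `u / √(1 + u²/r²)`
-/

open scoped BigOperators Matrix
open Matrix

namespace Crest.Agent.R201.Sf95

/-- smooth clip at height `r` -/
noncomputable def clf (r u : ℝ) : ℝ := u / Real.sqrt (1 + u ^ 2 / r ^ 2)

theorem clf_pos (r u : ℝ) : 0 < 1 + u ^ 2 / r ^ 2 := by positivity

theorem clf_sqrt_pos (r u : ℝ) : 0 < Real.sqrt (1 + u ^ 2 / r ^ 2) := Real.sqrt_pos.2 (clf_pos r u)

theorem one_le_clf_sqrt (r u : ℝ) : 1 ≤ Real.sqrt (1 + u ^ 2 / r ^ 2) := by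
  rw [Real.one_le_sqrt]
  have : 0 ≤ u ^ 2 / r ^ 2 := by positivity
  linarith

theorem clf_odd (r t : ℝ) : clf r (-t) = -clf r t := by
  unfold clf
  rw [neg_sq, neg_div]

theorem clf_zero (r : ℝ) : clf r 0 = 0 := by simp [clf]

theorem contDiff_clf (r : ℝ) {N : WithTop ℕ∞} : ContDiff ℝ N (clf r) := by
  unfold clf
  refine contDiff_id.div ?_ fun x => (clf_sqrt_pos r x).ne'
  exact ContDiff.sqrt (contDiff_const.add ((contDiff_id.pow 2).div_const _)) fun x => (clf_pos r x).ne'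

theorem hasDerivAt_clf (r u : ℝ) :
    HasDerivAt (clf r) ((Real.sqrt (1 + u ^ 2 / r ^ 2))⁻¹ ^ 3) u := by
  have h0 := clf_pos r u
  have hs := clf_sqrt_pos r u
  have h1 : HasDerivAt (fun u : ℝ => 1 + u ^ 2 / r ^ 2) (2 * u / r ^ 2) u := by
    have := ((hasDerivAt_pow 2 u).div_const (r ^ 2)).const_add 1
    simpa using this
  have h2 := h1.sqrt h0.ne'
  have h3 := (hasDerivAt_id u).div h2 hs.ne'
  refine h3.congr_deriv ?_
  have hq : Real.sqrt (1 + u ^ 2 / r ^ 2) ^ 2 = 1 + u ^ 2 / r ^ 2 := Real.sq_sqrt h0.le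
  set q := Real.sqrt (1 + u ^ 2 / r ^ 2)
  have hu : u ^ 2 / r ^ 2 = q ^ 2 - 1 := by linarith
  simp only [id_eq, one_mul]
  have e : u * (2 * u / r ^ 2 / (2 * q)) = (q ^ 2 - 1) / q := by
    rw [← hu]
    field_simp
  rw [e]
  field_simp
  ring

theorem deriv_clf (r u : ℝ) : deriv (clf r) u = (Real.sqrt (1 + u ^ 2 / r ^ 2))⁻¹ ^ 3 :=
  (hasDerivAt_clf r u).deriv

theorem deriv_clf_pos (r u : ℝ) : 0 < deriv (clf r) u := by
  rw [deriv_clf]
  have := clf_sqrt_pos r u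
  positivity

theorem deriv_clf_le_one (r u : ℝ) : deriv (clf r) u ≤ 1 := by
  rw [deriv_clf]
  exact pow_le_one₀ (inv_nonneg.2 (clf_sqrt_pos r u).le) (inv_le_one_of_one_le₀ (one_le_clf_sqrt r u))

theorem deriv_clf_even (r t : ℝ) : deriv (clf r) (-t) = deriv (clf r) t := by
  rw [deriv_clf, deriv_clf, neg_sq]

theorem clf_sq (r u : ℝ) : clf r u ^ 2 * (1 + u ^ 2 / r ^ 2) = u ^ 2 := by
  unfold clf
  rw [div_pow, Real.sq_sqrt (clf_pos r u).le]
  field_simp

/-- `u² - F² = u² F² / r²` -/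
theorem sq_sub_clf_sq (r u : ℝ) : u ^ 2 - clf r u ^ 2 = u ^ 2 * clf r u ^ 2 / r ^ 2 := by
  have := clf_sq r u
  linear_combination -this

theorem clf_sq_le {r : ℝ} (hr : r ≠ 0) (u : ℝ) : clf r u ^ 2 ≤ r ^ 2 := by
  have h := clf_sq r u
  have hr2 : 0 < r ^ 2 := by positivity
  have : clf r u ^ 2 * (1 + u ^ 2 / r ^ 2) ≤ r ^ 2 * (1 + u ^ 2 / r ^ 2) := by
    rw [h]
    have e : r ^ 2 * (1 + u ^ 2 / r ^ 2) = r ^ 2 + u ^ 2 := by field_simp
    rw [e]
    linarith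
  exact le_of_mul_le_mul_right this (clf_pos r u)

theorem abs_clf_le {r : ℝ} (hr : 0 < r) (u : ℝ) : |clf r u| ≤ r :=
  abs_le_of_sq_le_sq (clf_sq_le hr.ne' u) hr.le

theorem clf_sq_le_mul (r u : ℝ) : clf r u ^ 2 ≤ u * clf r u := by
  unfold clf
  set q := Real.sqrt (1 + u ^ 2 / r ^ 2) with hq
  have h1 : 1 ≤ q := one_le_clf_sqrt r u
  have h0 : 0 < q := by linarith
  rw [div_pow, mul_div_assoc', div_le_div_iff₀ (by positivity) h0]
  nlinarith [mul_nonneg (sq_nonneg u) (mul_nonneg h0.le (sub_nonneg.2 h1))]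

theorem mul_clf_le_sq (r u : ℝ) : u * clf r u ≤ u ^ 2 := by
  unfold clf
  set q := Real.sqrt (1 + u ^ 2 / r ^ 2) with hq
  have h1 : 1 ≤ q := one_le_clf_sqrt r u
  have h0 : 0 < q := by linarith
  rw [mul_div_assoc', div_le_iff₀ h0]
  nlinarith [mul_nonneg (sq_nonneg u) (sub_nonneg.2 h1)]

theorem clf_sq_le_sq (r u : ℝ) : clf r u ^ 2 ≤ u ^ 2 :=
  (clf_sq_le_mul r u).trans (mul_clf_le_sq r u)

theorem clf_firm (r s t : ℝ) : (clf r s - clf r t) ^ 2 ≤ (clf r s - clf r t) * (s - t) := by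
  have hmono : StrictMono (clf r) := strictMono_of_deriv_pos (deriv_clf_pos r)
  have hlip : ∀ a b : ℝ, a ≤ b → clf r b - clf r a ≤ b - a := by
    intro a b hab
    have hm : Monotone fun t => t - clf r t := by
      refine monotone_of_deriv_nonneg ?_ fun x => ?_
      · exact differentiable_id.sub ((contDiff_clf r (N := 1)).differentiable (by norm_num))
      · have h := (hasDerivAt_id x).sub (hasDerivAt_clf r x)
        have h' : HasDerivAt (fun t => t - clf r t) (1 - (Real.sqrt (1 + x ^ 2 / r ^ 2))⁻¹ ^ 3) x := h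
        rw [h'.deriv, ← deriv_clf]
        linarith [deriv_clf_le_one r x]
    have := hm hab
    simp only at this
    linarith
  rcases le_total s t with h | h
  · have h1 := hmono.monotone h
    have h2 := hlip s t h
    nlinarith
  · have h1 := hmono.monotone h
    have h2 := hlip t s h
    nlinarith

/-- `|u - F| ≤ |u| F² / r²` in the squared form `(u - F)² ≤ u² (F²/r²)²` -/
theorem sub_clf_sq_le (r u : ℝ) : (u - clf r u) ^ 2 ≤ u ^ 2 * (clf r u ^ 2 / r ^ 2) ^ 2 := by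
  by_cases hr : r = 0
  · subst hr
    simp [clf]
  have hr2 : 0 < r ^ 2 := by positivity
  have h0 := clf_pos r u
  set q := Real.sqrt (1 + u ^ 2 / r ^ 2) with hq
  have hq2 : q ^ 2 = 1 + u ^ 2 / r ^ 2 := Real.sq_sqrt h0.le
  have h1 : 1 ≤ q := one_le_clf_sqrt r u
  have hqp : 0 < q := by linarith
  have hF : clf r u = u / q := rfl
  have e1 : u - clf r u = u * (1 - 1 / q) := by rw [hF]; field_simp
  have e2 : clf r u ^ 2 / r ^ 2 = 1 - (1 / q) ^ 2 := by
    rw [hF]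
    have : u ^ 2 / r ^ 2 = q ^ 2 - 1 := by linarith
    calc (u / q) ^ 2 / r ^ 2 = (u ^ 2 / r ^ 2) / q ^ 2 := by field_simp
      _ = (q ^ 2 - 1) / q ^ 2 := by rw [this]
      _ = 1 - (1 / q) ^ 2 := by field_simp
  rw [e1, e2, mul_pow]
  refine mul_le_mul_of_nonneg_left ?_ (sq_nonneg u)
  have hc0 : 0 < 1 / q := by positivity
  have hc1 : 1 / q ≤ 1 := by rw [div_le_one hqp]; exact h1
  have : 1 - 1 / q ≤ 1 - (1 / q) ^ 2 := by nlinarith
  exact pow_le_pow_left₀ (by linarith) this 2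

/-! ## the matrix clip -/

section Clip

variable {n : ℕ} {p q : Type*} [Fintype p] [DecidableEq p] [Fintype q] [DecidableEq q]

theorem dil_sq (U : Matrix p q ℝ) : sf (fun t => t ^ 2) (dil U) = dil U * dil U := by
  have h1 : sf (fun x => x) (dil U) = dil U := by rw [sf_id, symp_of_symm (dil_transpose U)]
  have h := sf_mul (fun t : ℝ => t) (fun t => t) (dil U)
  rw [h1] at h
  rw [h]
  congr 1
  funext t
  ring

/-- `U Uᵀ - F Fᵀ = r⁻² U Uᵀ F Fᵀ` -/
theorem sub_svf_clf (r : ℝ) (U : Matrix p q ℝ) :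
    U * Uᵀ - svf (clf r) U * (svf (clf r) U)ᵀ =
      (r ^ 2)⁻¹ • (U * Uᵀ * (svf (clf r) U * (svf (clf r) U)ᵀ)) := by
  have hodd := clf_odd r
  have h2 : sf (fun t => clf r t ^ 2) (dil U) = sf (clf r) (dil U) * sf (clf r) (dil U) := by
    rw [sf_mul]
    congr 1
    funext t
    ring
  -- the identity for `dil U`
  have key : dil U * dil U - sf (clf r) (dil U) * sf (clf r) (dil U) =
      (r ^ 2)⁻¹ • (dil U * dil U * (sf (clf r) (dil U) * sf (clf r) (dil U))) := by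
    rw [← dil_sq, ← h2, sf_sub, sf_mul, sf_smul]
    congr 1
    funext t
    rw [sq_sub_clf_sq]
    ring
  rw [sf_dil hodd, dil_mul, dil_mul, fromBlocks_multiply] at key
  ext i j
  have h := congrFun (congrFun key (Sum.inl i)) (Sum.inl j)
  simpa using h

end Clip

end Crest.Agent.R201.Sf95
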