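import Crest.Agent.R201.Conn_152
import Crest.Agent.R201.MX1_354

/-!
# R201, leaf MX8, part 1: row contractions, basis changes, the three scalar lemmas (helper152)
-/

set_option autoImplicit false
set_option linter.unusedSectionVars false
open Matrix

namespace Crest.Agent.R201.NB152

open Crest.Agent.R201

variable {n : ℕ}

/-! ## weighted Cauchy–Schwarz and row contractions -/

section Row

variable {m m' ι : Type*} [Fintype m] [Fintype m'] [Fintype ι]

theorem trace_tmul (A B : Matrix m m' ℝ) : (Aᵀ * B).trace = ∑ i, ∑ j, A i j * B i j := by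
  simp only [Matrix.trace, Matrix.diag_apply, Matrix.mul_apply, Matrix.transpose_apply]
  rw [Finset.sum_comm]

theorem two_tr_le {s : ℝ} (hs0 : 0 < s) (A B : Matrix m m' ℝ) :
    2 * (Aᵀ * B).trace ≤ s * hs A + s⁻¹ * hs B := by
  rw [trace_tmul]
  simp only [hs, Finset.mul_sum]
  rw [← Finset.sum_add_distrib]
  refine Finset.sum_le_sum fun i _ => ?_
  rw [← Finset.sum_add_distrib]
  refine Finset.sum_le_sum fun j _ => ?_
  have h1 : 0 ≤ s⁻¹ * (s * A i j - B i j) ^ 2 := mul_nonneg (inv_pos.2 hs0).le (sq_nonneg _)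
  have h2 : s⁻¹ * (s * A i j - B i j) ^ 2 =
      s * A i j ^ 2 + s⁻¹ * B i j ^ 2 - 2 * (A i j * B i j) := by
    field_simp
    ring
  rw [h2] at h1
  linarith

theorem sum_hs_mul {B : ι → Mt n} (hB : ∀ k, (B k)ᵀ = B k) {c : ℝ}
    (hBb : LeQ (∑ k, B k * B k) (c • (1 : Mt n))) (Y : Matrix (Fin n) m' ℝ) :
    ∑ k, hs (B k * Y) ≤ c * hs Y := by
  have h := trace_sq_mono hBb Y
  have e1 : (Yᵀ * (∑ k, B k * B k) * Y).trace = ∑ k, hs (B k * Y) := by
    rw [Matrix.mul_sum, Matrix.sum_mul, Matrix.trace_sum]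
    refine Finset.sum_congr rfl fun k _ => ?_
    rw [hs_eq_trace', Matrix.transpose_mul, hB k]
    simp only [Matrix.mul_assoc]
  have e2 : (Yᵀ * (c • (1 : Mt n)) * Y).trace = c * hs Y := by
    rw [Matrix.mul_smul, Matrix.smul_mul, Matrix.trace_smul, smul_eq_mul, Matrix.mul_one,
      hs_eq_trace']
  rw [e1, e2] at h
  exact h

theorem row_contr {B : ι → Mt n} (hB : ∀ k, (B k)ᵀ = B k) {c : ℝ} (hc : 0 < c)
    (hBb : LeQ (∑ k, B k * B k) (c • (1 : Mt n))) (X : ι → Matrix (Fin n) m' ℝ) :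
    hs (∑ k, B k * X k) ≤ c * ∑ k, hs (X k) := by
  set Y := ∑ k, B k * X k with hY
  have h1 : hs Y = ∑ k, ((B k * Y)ᵀ * X k).trace := by
    rw [hs_eq_trace']
    conv_lhs => rw [hY, Matrix.mul_sum, Matrix.trace_sum, ← hY]
    refine Finset.sum_congr rfl fun k _ => ?_
    rw [Matrix.transpose_mul, hB k, Matrix.mul_assoc]
  have h2 : ∀ k, 2 * ((B k * Y)ᵀ * X k).trace ≤ c⁻¹ * hs (B k * Y) + c * hs (X k) := by
    intro k
    have := two_tr_le (inv_pos.2 hc) (B k * Y) (X k)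
    rwa [inv_inv] at this
  have h3 := Finset.sum_le_sum fun k (_ : k ∈ Finset.univ) => h2 k
  rw [← Finset.mul_sum, ← h1, Finset.sum_add_distrib, ← Finset.mul_sum, ← Finset.mul_sum] at h3
  have h4 := mul_le_mul_of_nonneg_left (sum_hs_mul hB hBb Y) (inv_pos.2 hc).le
  rw [← mul_assoc, inv_mul_cancel₀ hc.ne', one_mul] at h4
  linarith

theorem row_contr_right {B : ι → Mt n} (hB : ∀ k, (B k)ᵀ = B k) {c : ℝ} (hc : 0 < c)
    (hBb : LeQ (∑ k, B k * B k) (c • (1 : Mt n))) (X : ι → Matrix m' (Fin n) ℝ) :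
    hs (∑ k, X k * B k) ≤ c * ∑ k, hs (X k) := by
  have h := row_contr hB hc hBb fun k => (X k)ᵀ
  have e1 : (∑ k, X k * B k)ᵀ = ∑ k, B k * (X k)ᵀ := by
    rw [Matrix.transpose_sum]
    exact Finset.sum_congr rfl fun k _ => by rw [Matrix.transpose_mul, hB k]
  rw [← hs_transpose, e1]
  simpa only [hs_transpose] using h

end Row

/-! ## flattening of tensors -/

section Flat

variable {R ι : Type*} [Fintype ι]

/-- the first slot against the rest -/
def fl (M : T3 n R) : Matrix (Fin n) (Fin n × Fin n × R) ℝ :=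
  Matrix.of fun a i => M a i.1 i.2.1 i.2.2

theorem fl_act1 (A : Mt n) (M : T3 n R) : fl (act1 A M) = A * fl M := by
  ext a i
  simp only [fl, act1, Matrix.of_apply, Matrix.mul_apply]

theorem fl_sum (X : ι → T3 n R) : fl (∑ k, X k) = ∑ k, fl (X k) := by
  ext a i
  simp only [fl, Matrix.of_apply, Matrix.sum_apply, Finset.sum_apply]

variable [Fintype R]

theorem ip_eq_hs (M : T3 n R) : ip M M = hs (fl M) := by
  simp only [ip, hs, fl, Matrix.of_apply, Fintype.sum_prod_type, pow_two]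

theorem gram_eq_fl (M N : T3 n R) : gram M N = fl M * (fl N)ᵀ := by
  ext a a'
  simp only [gram, fl, Matrix.of_apply, Matrix.mul_apply, Matrix.transpose_apply,
    Fintype.sum_prod_type]

theorem sum_ip_act1 {B : ι → Mt n} (hB : ∀ k, (B k)ᵀ = B k) {c : ℝ}
    (hBb : LeQ (∑ k, B k * B k) (c • (1 : Mt n))) (X : T3 n R) :
    ∑ k, ip (act1 (B k) X) (act1 (B k) X) ≤ c * ip X X := by
  simp only [ip_eq_hs, fl_act1]
  exact sum_hs_mul hB hBb (fl X)

theorem sum_ip_act2 {B : ι → Mt n} (hB : ∀ k, (B k)ᵀ = B k) {c : ℝ}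
    (hBb : LeQ (∑ k, B k * B k) (c • (1 : Mt n))) (X : T3 n R) :
    ∑ k, ip (act2 (B k) X) (act2 (B k) X) ≤ c * ip X X := by
  simp only [act2_eq, ip_sw12]
  rw [← ip_sw12 X X]
  exact sum_ip_act1 hB hBb (sw12 X)

theorem row_contr1 {B : ι → Mt n} (hB : ∀ k, (B k)ᵀ = B k) {c : ℝ} (hc : 0 < c)
    (hBb : LeQ (∑ k, B k * B k) (c • (1 : Mt n))) (X : ι → T3 n R) :
    ip (∑ k, act1 (B k) (X k)) (∑ k, act1 (B k) (X k)) ≤ c * ∑ k, ip (X k) (X k) := by
  simp only [ip_eq_hs, fl_sum, fl_act1]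
  exact row_contr hB hc hBb fun k => fl (X k)

theorem sw12_sum (X : ι → T3 n R) : sw12 (∑ k, X k) = ∑ k, sw12 (X k) := by
  funext a b c r
  simp only [sw12, Finset.sum_apply]

theorem row_contr2 {B : ι → Mt n} (hB : ∀ k, (B k)ᵀ = B k) {c : ℝ} (hc : 0 < c)
    (hBb : LeQ (∑ k, B k * B k) (c • (1 : Mt n))) (X : ι → T3 n R) :
    ip (∑ k, act2 (B k) (X k)) (∑ k, act2 (B k) (X k)) ≤ c * ∑ k, ip (X k) (X k) := by
  simp only [act2_eq]
  rw [← sw12_sum, ip_sw12]
  refine (row_contr1 hB hc hBb fun k => sw12 (X k)).trans (le_of_eq ?_)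
  simp only [ip_sw12]

theorem ip_act1_orth {U : Mt n} (hU : Uᵀ * U = 1) (X : T3 n R) :
    ip (act1 U X) (act1 U X) = ip X X := by
  rw [ip_eq_hs, fl_act1, hs_eq_trace', Matrix.transpose_mul, Matrix.mul_assoc,
    ← Matrix.mul_assoc Uᵀ, hU, Matrix.one_mul, ← hs_eq_trace', ← ip_eq_hs]

theorem ip_act2_orth {U : Mt n} (hU : Uᵀ * U = 1) (X : T3 n R) :
    ip (act2 U X) (act2 U X) = ip X X := by
  rw [act2_eq, ip_sw12, ip_act1_orth hU, ip_sw12]

theorem act2_mul (A B : Mt n) (M : T3 n R) : act2 A (act2 B M) = act2 (A * B) M := by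
  change sw12 (act1 A (act1 B (sw12 M))) = sw12 (act1 (A * B) (sw12 M))
  rw [act1_mul]

theorem act2_sub (A : Mt n) (M N : T3 n R) : act2 A (M - N) = act2 A M - act2 A N := by
  funext a b c r
  simp only [act2, mul_sub, Finset.sum_sub_distrib, Pi.sub_apply]

theorem act2_smul (A : Mt n) (t : ℝ) (M : T3 n R) : act2 A (t • M) = t • act2 A M := by
  funext a b c r
  simp only [act2, Pi.smul_apply, smul_eq_mul, Finset.mul_sum]
  exact Finset.sum_congr rfl fun _ _ => by ring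

theorem act1_diag (f : Fin n → ℝ) (M : T3 n R) :
    act1 (diagonal f) M = fun a b c r => f a * M a b c r := by
  funext a b c r
  simp only [act1, Matrix.diagonal_apply, ite_mul, zero_mul, Finset.sum_ite_eq,
    Finset.mem_univ, if_true]

theorem act2_diag (f : Fin n → ℝ) (M : T3 n R) :
    act2 (diagonal f) M = fun a b c r => f b * M a b c r := by
  funext a b c r
  simp only [act2, Matrix.diagonal_apply, ite_mul, zero_mul, Finset.sum_ite_eq,
    Finset.mem_univ, if_true]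

/-- the tensor in the basis `U` -/
theorem act12_spec {U : Mt n} (hU : Uᵀ * U = 1) (f : Fin n → ℝ) (M : T3 n R) :
    act1 Uᵀ (act2 Uᵀ (act1 (spec U f) M - act2 (spec U f) M)) =
      fun a b c r => (f a - f b) * act1 Uᵀ (act2 Uᵀ M) a b c r := by
  have e1 : act1 Uᵀ (act2 Uᵀ (act1 (spec U f) M)) =
      act1 (diagonal f) (act1 Uᵀ (act2 Uᵀ M)) := by
    rw [← act12_comm, act1_mul, act1_mul]
    congr 1
    rw [spec, ← Matrix.mul_assoc, ← Matrix.mul_assoc, hU, Matrix.one_mul]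
  have e2 : act1 Uᵀ (act2 Uᵀ (act2 (spec U f) M)) =
      act2 (diagonal f) (act1 Uᵀ (act2 Uᵀ M)) := by
    rw [← act12_comm Uᵀ (diagonal f), act2_mul, act2_mul]
    congr 2
    rw [spec, ← Matrix.mul_assoc, ← Matrix.mul_assoc, hU, Matrix.one_mul]
  rw [act2_sub, act1_sub, e1, e2, act1_diag, act2_diag]
  funext a b c r
  simp only [Pi.sub_apply]
  ring

/-- Lipschitz functions of `N` almost commute across the slots if `N` does -/
theorem slot_lip {U : Mt n} (hU : Uᵀ * U = 1) (hU' : U * Uᵀ = 1) {f ν : Fin n → ℝ} {L : ℝ}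
    (hL : ∀ i j, (f i - f j) ^ 2 ≤ L * (ν i - ν j) ^ 2) (M : T3 n R) :
    ip (act1 (spec U f) M - act2 (spec U f) M) (act1 (spec U f) M - act2 (spec U f) M) ≤
      L * ip (act1 (spec U ν) M - act2 (spec U ν) M) (act1 (spec U ν) M - act2 (spec U ν) M) := by
  have hUt : (Uᵀ)ᵀ * Uᵀ = 1 := by rw [Matrix.transpose_transpose, hU']
  have key : ∀ g : Fin n → ℝ, ip (act1 (spec U g) M - act2 (spec U g) M)
      (act1 (spec U g) M - act2 (spec U g) M) =
      ∑ a, ∑ b, ∑ c, ∑ r, (g a - g b) ^ 2 * act1 Uᵀ (act2 Uᵀ M) a b c r ^ 2 := by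
    intro g
    rw [← ip_act2_orth hUt, ← ip_act1_orth hUt, act12_spec hU]
    simp only [ip]
    refine Finset.sum_congr rfl fun a _ => Finset.sum_congr rfl fun b _ =>
      Finset.sum_congr rfl fun c _ => Finset.sum_congr rfl fun r _ => ?_
    ring
  rw [key f, key ν]
  simp only [Finset.mul_sum]
  refine Finset.sum_le_sum fun a _ => Finset.sum_le_sum fun b _ => Finset.sum_le_sum fun c _ =>
    Finset.sum_le_sum fun r _ => ?_
  rw [← mul_assoc]
  exact mul_le_mul_of_nonneg_right (hL a b) (sq_nonneg _)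

end Flat

/-! ## conjugation by an orthogonal matrix -/

section Conj

/-- `X` in the basis `U` -/
def cj (U X : Mt n) : Mt n := Uᵀ * X * U

theorem cj_mul {U : Mt n} (hU' : U * Uᵀ = 1) (X Y : Mt n) : cj U (X * Y) = cj U X * cj U Y := by
  unfold cj
  calc Uᵀ * (X * Y) * U = Uᵀ * X * (1 * (Y * U)) := by rw [Matrix.one_mul]; simp only [Matrix.mul_assoc]
    _ = _ := by rw [← hU']; simp only [Matrix.mul_assoc]

theorem cj_transpose (U X : Mt n) : (cj U X)ᵀ = cj U Xᵀ := by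
  unfold cj
  rw [Matrix.transpose_mul, Matrix.transpose_mul, Matrix.transpose_transpose, Matrix.mul_assoc]

theorem cj_add (U X Y : Mt n) : cj U (X + Y) = cj U X + cj U Y := by
  unfold cj; rw [Matrix.mul_add, Matrix.add_mul]

theorem cj_sub (U X Y : Mt n) : cj U (X - Y) = cj U X - cj U Y := by
  unfold cj; rw [Matrix.mul_sub, Matrix.sub_mul]

theorem cj_smul (U : Mt n) (t : ℝ) (X : Mt n) : cj U (t • X) = t • cj U X := by
  unfold cj; rw [Matrix.mul_smul, Matrix.smul_mul]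

theorem cj_one {U : Mt n} (hU : Uᵀ * U = 1) : cj U 1 = 1 := by
  unfold cj; rw [Matrix.mul_one, hU]

theorem cj_spec {U : Mt n} (hU : Uᵀ * U = 1) (f : Fin n → ℝ) : cj U (spec U f) = diagonal f := by
  unfold cj spec
  calc Uᵀ * (U * diagonal f * Uᵀ) * U = (Uᵀ * U) * diagonal f * (Uᵀ * U) := by
        simp only [Matrix.mul_assoc]
    _ = _ := by rw [hU, Matrix.one_mul, Matrix.mul_one]

theorem hs_cj {U : Mt n} (hU' : U * Uᵀ = 1) (X : Mt n) : hs (cj U X) = hs X := by
  rw [hs_eq_trace, cj_transpose, ← cj_mul hU', hs_eq_trace, cj, Matrix.trace_mul_comm,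
    ← Matrix.mul_assoc, hU', Matrix.one_mul]

theorem posSemidef_cj {X : Mt n} (hX : X.PosSemidef) (U : Mt n) : (cj U X).PosSemidef := by
  have := hX.conjTranspose_mul_mul_same U
  rwa [Matrix.conjTranspose_eq_transpose_of_trivial] at this

theorem posSemidef_spec {U : Mt n} {f : Fin n → ℝ} (hf : ∀ i, 0 ≤ f i) :
    (spec U f).PosSemidef := by
  have h1 : (diagonal f).PosSemidef := Matrix.PosSemidef.diagonal hf
  have := h1.mul_mul_conjTranspose_same U
  rwa [Matrix.conjTranspose_eq_transpose_of_trivial] at this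

/-- commutator with a spectral matrix -/
theorem hs_comm_spec {U : Mt n} (hU : Uᵀ * U = 1) (hU' : U * Uᵀ = 1) (f : Fin n → ℝ) (X : Mt n) :
    hs (spec U f * X - X * spec U f) = ∑ i, ∑ j, (f i - f j) ^ 2 * cj U X i j ^ 2 := by
  rw [← hs_cj hU', cj_sub, cj_mul hU', cj_mul hU', cj_spec hU]
  simp only [hs, Matrix.sub_apply, Matrix.diagonal_mul, Matrix.mul_diagonal]
  refine Finset.sum_congr rfl fun i _ => Finset.sum_congr rfl fun j _ => ?_
  ring

end Conj

end Crest.Agent.R201.NB152
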