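import Crest.Agent.R201.Slow1_152

/-!
# R201, leaf MX8, part 2: the scalar lemmas, in the eigenbasis (helper152)
-/

set_option autoImplicit false
set_option linter.unusedSectionVars false
open Matrix

namespace Crest.Agent.R201.NB152

open Crest.Agent.R201

variable {n : ℕ}

theorem diag_mul_mul_apply (g g' : Fin n → ℝ) (z : Mt n) (i j : Fin n) :
    (diagonal g * z * diagonal g') i j = g i * z i j * g' j := by
  rw [Matrix.mul_diagonal, Matrix.diagonal_mul]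

/-- `Tr (G z G v) = Σ g_i g_j z_ij v_ij ≥ 0` -/
theorem quad_nonneg {z v : Mt n} (hz : z.PosSemidef) (hv : v.PosSemidef) (g : Fin n → ℝ) :
    0 ≤ ∑ i, ∑ j, g i * g j * z i j * v i j := by
  have h1 : (diagonal g * z * diagonal g).PosSemidef := by
    have := hz.mul_mul_conjTranspose_same (diagonal g)
    rwa [Matrix.conjTranspose_eq_transpose_of_trivial, Matrix.diagonal_transpose] at this
  have h2 := MX354.trace_mul_nonneg h1 hv
  have hvt := MX354.posSemidef_transpose hv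
  have e : ((diagonal g * z * diagonal g) * v).trace = ∑ i, ∑ j, g i * g j * z i j * v i j := by
    rw [Matrix.trace]
    refine Finset.sum_congr rfl fun i _ => ?_
    rw [Matrix.diag_apply, Matrix.mul_apply]
    refine Finset.sum_congr rfl fun j _ => ?_
    rw [diag_mul_mul_apply]
    have : v j i = v i j := by
      conv_lhs => rw [← hvt]
      rfl
    rw [this]
    ring
  rw [e] at h2
  exact h2

/-- K-lemma -/
theorem K_lemma {F ν κ : Fin n → ℝ} {z v w E : Mt n} {d : ℝ} (hz : z.PosSemidef)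
    (hv : v.PosSemidef) (hvv : v * v = w * v + (d ^ 2 / 4) • (1 : Mt n))
    (hw : ∀ i j, w i j = F i * z i j + E i j) (hκ : ∀ i, κ i = max (-F i) 0)
    (hF : ∀ i j, (F i - F j) ^ 2 ≤ 16 * (ν i - ν j) ^ 2) (hκb : ∀ i, κ i ≤ 160) :
    ∑ i, ∑ j, κ i * v i j ^ 2 ≤
      5120 * ∑ i, ∑ j, (ν i - ν j) ^ 2 * z i j ^ 2 + 320 * hs E + 80 * (n * d ^ 2) := by
  have hvt := MX354.posSemidef_transpose hv
  have hvs : ∀ i j, v j i = v i j := by
    intro i j
    conv_lhs => rw [← hvt]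
    rfl
  have hκ0 : ∀ i, 0 ≤ κ i := fun i => by rw [hκ]; exact le_max_right _ _
  have hκF : ∀ i, κ i * F i = -κ i ^ 2 := by
    intro i
    rcases le_total (F i) 0 with h | h
    · have : κ i = -F i := by rw [hκ, max_eq_left (by linarith)]
      rw [this]; ring
    · have : κ i = 0 := by rw [hκ, max_eq_right (by linarith)]
      rw [this]; ring
  have hκL : ∀ i j, (κ i - κ j) ^ 2 ≤ 16 * (ν i - ν j) ^ 2 := by
    intro i j
    refine le_trans ?_ (hF i j)
    rw [sq_le_sq]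
    rw [hκ, hκ]
    refine (abs_max_sub_max_le_abs _ _ _).trans (le_of_eq ?_)
    rw [← abs_neg]
    congr 1
    ring
  -- row identities
  have hrow : ∀ i, ∑ j, v i j ^ 2 = ∑ j, w i j * v i j + d ^ 2 / 4 := by
    intro i
    have h := congrFun (congrFun hvv i) i
    rw [Matrix.mul_apply, Matrix.add_apply, Matrix.mul_apply, Matrix.smul_apply,
      Matrix.one_apply_eq, smul_eq_mul, mul_one] at h
    rw [Finset.sum_congr rfl fun j _ => show v i j ^ 2 = v i j * v j i by rw [hvs i j]; ring, h]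
    congr 1
    exact Finset.sum_congr rfl fun j _ => by rw [hvs i j]
  have hS : ∑ i, ∑ j, κ i * v i j ^ 2 =
      ∑ i, ∑ j, (-κ i ^ 2 * z i j * v i j + κ i * (E i j * v i j)) +
        (d ^ 2 / 4) * ∑ i, κ i := by
    rw [Finset.mul_sum, ← Finset.sum_add_distrib]
    refine Finset.sum_congr rfl fun i _ => ?_
    rw [← Finset.mul_sum, hrow, mul_add, Finset.mul_sum]
    congr 1
    · refine Finset.sum_congr rfl fun j _ => ?_
      rw [hw, ← hκF]
      ring
    · ring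
  have hq := quad_nonneg hz hv κ
  have hterm : ∀ i j, -κ i ^ 2 * z i j * v i j + κ i * (E i j * v i j) ≤
      -(κ i * κ j * z i j * v i j) + (1 / 2) * (κ i * v i j ^ 2) +
        2560 * ((ν i - ν j) ^ 2 * z i j ^ 2) + 160 * E i j ^ 2 := by
    intro i j
    have h1 : 0 ≤ κ i * ((1 / 2) * v i j + (κ i - κ j) * z i j) ^ 2 :=
      mul_nonneg (hκ0 i) (sq_nonneg _)
    have h2 : 0 ≤ κ i * ((1 / 2) * v i j - E i j) ^ 2 := mul_nonneg (hκ0 i) (sq_nonneg _)
    have h3 : κ i * ((κ i - κ j) ^ 2 * z i j ^ 2) ≤ 160 * (16 * (ν i - ν j) ^ 2 * z i j ^ 2) := by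
      refine mul_le_mul (hκb i) (mul_le_mul_of_nonneg_right (hκL i j) (sq_nonneg _)) ?_
        (by norm_num)
      positivity
    have h4 : κ i * E i j ^ 2 ≤ 160 * E i j ^ 2 :=
      mul_le_mul_of_nonneg_right (hκb i) (sq_nonneg _)
    nlinarith [h1, h2, h3, h4]
  have hsum := Finset.sum_le_sum fun i (_ : i ∈ Finset.univ) =>
    Finset.sum_le_sum fun j (_ : j ∈ Finset.univ) => hterm i j
  simp only [Finset.sum_add_distrib, ← Finset.mul_sum, Finset.sum_neg_distrib] at hsum hS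
  have hκs : ∑ i, κ i ≤ n * 160 := by
    refine (Finset.sum_le_sum fun i _ => hκb i).trans (le_of_eq ?_)
    simp
  have hd : d ^ 2 / 4 * ∑ i, κ i ≤ d ^ 2 / 4 * (n * 160) :=
    mul_le_mul_of_nonneg_left hκs (by positivity)
  have hE : hs E = ∑ i, ∑ j, E i j ^ 2 := rfl
  rw [hE]
  simp only [← Finset.mul_sum]
  linarith [hsum, hS, hd, hq]

/-- II-lemma -/
theorem II_lemma {F ν g : Fin n → ℝ} {z v w E : Mt n} (hz : z.PosSemidef)
    (hvw : (v - w).PosSemidef)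
    (hw : ∀ i j, w i j = F i * z i j + E i j) (hg : ∀ i, g i = max (F i) 0)
    (hF : ∀ i j, (F i - F j) ^ 2 ≤ 16 * (ν i - ν j) ^ 2) (hgb : ∀ i, g i ≤ 1 / 2) :
    ∑ i, ∑ j, g i ^ 3 * z i j ^ 2 ≤
      (4 / 3) * (hs v + hs E + 8 * ∑ i, ∑ j, (ν i - ν j) ^ 2 * z i j ^ 2) := by
  have hg0 : ∀ i, 0 ≤ g i := fun i => by rw [hg]; exact le_max_right _ _
  have hgF : ∀ i, g i * F i = g i ^ 2 := by
    intro i
    rcases le_total (F i) 0 with h | h
    · have : g i = 0 := by rw [hg, max_eq_right h]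
      rw [this]; ring
    · have : g i = F i := by rw [hg, max_eq_left h]
      rw [this]; ring
  have hgL : ∀ i j, (g i - g j) ^ 2 ≤ 16 * (ν i - ν j) ^ 2 := by
    intro i j
    refine le_trans ?_ (hF i j)
    rw [sq_le_sq]
    rw [hg, hg]
    exact abs_max_sub_max_le_abs _ _ _
  have hq := quad_nonneg hz hvw g
  -- first: `A ≤ hs v + hs E`
  have hA : ∀ i j, g i * g j * z i j * (v - w) i j ≤
      -(1 / 2) * (g i ^ 2 * g j * z i j ^ 2) + (1 / 2) * v i j ^ 2 + (1 / 2) * E i j ^ 2 := by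
    intro i j
    rw [Matrix.sub_apply, hw]
    have e : g i * g j * z i j * (v i j - (F i * z i j + E i j)) =
        g j * (g i * z i j * v i j) - (g i * F i) * (g j * z i j ^ 2) -
          g j * (g i * z i j * E i j) := by ring
    rw [e, hgF]
    have h1 : 0 ≤ g j * ((1 / 2) * (g i * z i j) - v i j) ^ 2 := mul_nonneg (hg0 j) (sq_nonneg _)
    have h2 : 0 ≤ g j * ((1 / 2) * (g i * z i j) + E i j) ^ 2 := mul_nonneg (hg0 j) (sq_nonneg _)
    have h3 : g j * v i j ^ 2 ≤ 1 / 2 * v i j ^ 2 :=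
      mul_le_mul_of_nonneg_right (hgb j) (sq_nonneg _)
    have h4 : g j * E i j ^ 2 ≤ 1 / 2 * E i j ^ 2 :=
      mul_le_mul_of_nonneg_right (hgb j) (sq_nonneg _)
    nlinarith [h1, h2, h3, h4]
  have hB : ∀ i j, g i ^ 3 * z i j ^ 2 ≤ g i ^ 2 * g j * z i j ^ 2 +
      (1 / 4) * (g i ^ 3 * z i j ^ 2) + 8 * ((ν i - ν j) ^ 2 * z i j ^ 2) := by
    intro i j
    have h1 : 0 ≤ (g i ^ 2 - (g i - g j)) ^ 2 * z i j ^ 2 := by positivity
    have h2 : (g i - g j) ^ 2 * z i j ^ 2 ≤ 16 * (ν i - ν j) ^ 2 * z i j ^ 2 :=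
      mul_le_mul_of_nonneg_right (hgL i j) (sq_nonneg _)
    have h3 : g i * (g i ^ 3 * z i j ^ 2) ≤ 1 / 2 * (g i ^ 3 * z i j ^ 2) :=
      mul_le_mul_of_nonneg_right (hgb i) (mul_nonneg (pow_nonneg (hg0 i) 3) (sq_nonneg _))
    nlinarith [h1, h2, h3]
  have hAs := Finset.sum_le_sum fun i (_ : i ∈ Finset.univ) =>
    Finset.sum_le_sum fun j (_ : j ∈ Finset.univ) => hA i j
  have hBs := Finset.sum_le_sum fun i (_ : i ∈ Finset.univ) =>
    Finset.sum_le_sum fun j (_ : j ∈ Finset.univ) => hB i j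
  simp only [Finset.sum_add_distrib, ← Finset.mul_sum] at hAs hBs
  have hE : hs E = ∑ i, ∑ j, E i j ^ 2 := rfl
  have hv : hs v = ∑ i, ∑ j, v i j ^ 2 := rfl
  rw [hE, hv]
  have hq' := hq.trans hAs
  simp only [← Finset.mul_sum]
  linarith

/-- D-lemma, entrywise -/
theorem D_entry {w t y b r s w' t' d : ℝ} (ht : 0 < t) (ht' : 0 < t')
    (htw : t ^ 2 = w ^ 2 + d ^ 2) (htw' : t' ^ 2 = w' ^ 2 + d ^ 2)
    (hs1 : s * (t + t') = (w + w') * y) (hy : y = (w + w') * b + r) :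
    ((1 / 2) * (y + s)) ^ 2 ≤ (4 / 3) * (((w + t) / 2 + (w' + t') / 2) * b) ^ 2 + 4 * r ^ 2 := by
  have hwt : |w| ≤ t := abs_le_of_sq_le_sq (by nlinarith [sq_nonneg d]) ht.le
  have hwt' : |w'| ≤ t' := abs_le_of_sq_le_sq (by nlinarith [sq_nonneg d]) ht'.le
  rw [abs_le] at hwt hwt'
  set τ := t + t' with hτ
  have hτ0 : 0 < τ := by rw [hτ]; linarith
  set om := w + w' with hom
  set π := (w + t) / 2 + (w' + t') / 2 with hπ
  have hπ0 : 0 ≤ π := by rw [hπ]; linarith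
  have hπτ : π ≤ τ := by rw [hπ, hτ]; linarith
  have homτ : om ^ 2 ≤ τ ^ 2 := by
    apply sq_le_sq'
    · rw [hom, hτ]; linarith
    · rw [hom, hτ]; linarith
  have key : τ ^ 2 * ((1 / 2) * (y + s)) ^ 2 = (π * y) ^ 2 := by
    have : τ * ((1 / 2) * (y + s)) = π * y := by
      have h1 : τ * ((1 / 2) * (y + s)) = (1 / 2) * (τ * y + s * τ) := by ring
      rw [h1, hs1]
      have h2 : π = (om + τ) / 2 := by rw [hπ, hom, hτ]; ring
      rw [h2]; ring
    rw [← this]; ring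
  have hτ2 : 0 < τ ^ 2 := by positivity
  rw [← mul_le_mul_iff_right₀ hτ2, key, hy]
  have h1 : (om * b + r) ^ 2 ≤ (4 / 3) * (om * b) ^ 2 + 4 * r ^ 2 := by
    nlinarith [sq_nonneg ((1 / 3) * (om * b) - r)]
  have h2 : (π * (om * b + r)) ^ 2 ≤ π ^ 2 * ((4 / 3) * (om * b) ^ 2 + 4 * r ^ 2) := by
    rw [mul_pow]
    exact mul_le_mul_of_nonneg_left h1 (sq_nonneg _)
  refine h2.trans ?_
  have h3 : π ^ 2 * b ^ 2 * om ^ 2 ≤ π ^ 2 * b ^ 2 * τ ^ 2 :=
    mul_le_mul_of_nonneg_left homτ (by positivity)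
  have h4 : π ^ 2 * r ^ 2 ≤ τ ^ 2 * r ^ 2 :=
    mul_le_mul_of_nonneg_right (pow_le_pow_left₀ hπ0 hπτ 2) (sq_nonneg _)
  nlinarith [h3, h4]

end Crest.Agent.R201.NB152
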