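import Crest.Agent.R201.Slow2_152

/-!
# R201, leaf MX8, part 3: `Z' ≈ Q Z` and the connection of the enlarged pack (helper152)
-/

set_option autoImplicit false
set_option linter.unusedSectionVars false
open Matrix

namespace Crest.Agent.R201.NB152

open Crest.Agent.R201

variable {n : ℕ}

/-! ## commutators of `N = 4 Σ B_k²` -/

section Eta

variable {ι : Type*} [Fintype ι]

theorem eta1 {B : ι → Mt n} (hB : ∀ k, (B k)ᵀ = B k) {c : ℝ} (hc : 0 < c)
    (hBb : LeQ (∑ k, B k * B k) (c • (1 : Mt n))) (Z : Mt n) :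
    hs (((4 : ℝ) • ∑ k, B k * B k) * Z - Z * ((4 : ℝ) • ∑ k, B k * B k)) ≤
      64 * c * ∑ k, hs (Z * B k - B k * Z) := by
  have e1 : ((4 : ℝ) • ∑ k, B k * B k) * Z - Z * ((4 : ℝ) • ∑ k, B k * B k) =
      (4 : ℝ) • (∑ k, B k * (B k * Z - Z * B k) + ∑ k, (B k * Z - Z * B k) * B k) := by
    rw [Matrix.smul_mul, Matrix.mul_smul, ← smul_sub, ← Finset.sum_add_distrib, Matrix.sum_mul,
      Matrix.mul_sum, ← Finset.sum_sub_distrib]
    congr 1
    refine Finset.sum_congr rfl fun k _ => ?_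
    simp only [Matrix.mul_sub, Matrix.sub_mul, Matrix.mul_assoc]
    abel
  have h1 := row_contr hB hc hBb fun k => B k * Z - Z * B k
  have h2 := row_contr_right hB hc hBb fun k => B k * Z - Z * B k
  have h3 := hs_add_le (∑ k, B k * (B k * Z - Z * B k)) (∑ k, (B k * Z - Z * B k) * B k)
  have e2 : ∑ k, hs (B k * Z - Z * B k) = ∑ k, hs (Z * B k - B k * Z) :=
    Finset.sum_congr rfl fun k _ => by rw [← hs_neg, neg_sub]
  simp only [e2] at h1 h2
  rw [e1, hs_smul]
  nlinarith [h1, h2, h3]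

variable {R : Type*} [Fintype R]

theorem act1_sum_left (A : ι → Mt n) (M : T3 n R) : act1 (∑ k, A k) M = ∑ k, act1 (A k) M := by
  funext a b c r
  simp only [act1, Matrix.sum_apply, Finset.sum_mul, Finset.sum_apply]
  rw [Finset.sum_comm]

theorem act2_sum_left (A : ι → Mt n) (M : T3 n R) : act2 (∑ k, A k) M = ∑ k, act2 (A k) M := by
  funext a b c r
  simp only [act2, Matrix.sum_apply, Finset.sum_mul, Finset.sum_apply]
  rw [Finset.sum_comm]

theorem act1_smul_left (t : ℝ) (A : Mt n) (M : T3 n R) : act1 (t • A) M = t • act1 A M := by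
  funext a b c r
  simp only [act1, Matrix.smul_apply, smul_eq_mul, Pi.smul_apply, Finset.mul_sum, mul_assoc]

theorem act2_smul_left (t : ℝ) (A : Mt n) (M : T3 n R) : act2 (t • A) M = t • act2 A M := by
  funext a b c r
  simp only [act2, Matrix.smul_apply, smul_eq_mul, Pi.smul_apply, Finset.mul_sum, mul_assoc]

theorem eta2 {B : ι → Mt n} (hB : ∀ k, (B k)ᵀ = B k) {c : ℝ} (hc : 0 < c)
    (hBb : LeQ (∑ k, B k * B k) (c • (1 : Mt n))) (M : T3 n R) :
    ip (act1 ((4 : ℝ) • ∑ k, B k * B k) M - act2 ((4 : ℝ) • ∑ k, B k * B k) M)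
      (act1 ((4 : ℝ) • ∑ k, B k * B k) M - act2 ((4 : ℝ) • ∑ k, B k * B k) M) ≤
      64 * c * ∑ k, ip (act1 (B k) M - act2 (B k) M) (act1 (B k) M - act2 (B k) M) := by
  have e1 : act1 ((4 : ℝ) • ∑ k, B k * B k) M - act2 ((4 : ℝ) • ∑ k, B k * B k) M =
      (4 : ℝ) • (∑ k, act1 (B k) (act1 (B k) M - act2 (B k) M) +
        ∑ k, act2 (B k) (act1 (B k) M - act2 (B k) M)) := by
    rw [act1_smul_left, act2_smul_left, act1_sum_left, act2_sum_left, ← smul_sub,
      ← Finset.sum_add_distrib, ← Finset.sum_sub_distrib]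
    congr 1
    refine Finset.sum_congr rfl fun k _ => ?_
    rw [act1_sub, act2_sub, act1_mul, act2_mul, act12_comm]
    abel
  have h1 := row_contr1 hB hc hBb fun k => act1 (B k) M - act2 (B k) M
  have h2 := row_contr2 hB hc hBb fun k => act1 (B k) M - act2 (B k) M
  have h3 := ip_add_le (∑ k, act1 (B k) (act1 (B k) M - act2 (B k) M))
    (∑ k, act2 (B k) (act1 (B k) M - act2 (B k) M))
  rw [e1, ip_smul_left, ip_smul_right]
  nlinarith [h1, h2, h3]

end Eta

/-! ## the enlarged tensor -/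

section Big

variable {R : Type} [Fintype R]

/-- left component -/
def resl (X : T3 n (R ⊕ (R × Fin n))) : T3 n R := fun a b c r => X a b c (Sum.inl r)
/-- right component `k` -/
def resr (k : Fin n) (X : T3 n (R ⊕ (R × Fin n))) : T3 n R := fun a b c r => X a b c (Sum.inr (r, k))

theorem gram_split (X Y : T3 n (R ⊕ (R × Fin n))) :
    gram X Y = gram (resl X) (resl Y) + ∑ k, gram (resr k X) (resr k Y) := by
  ext a a'
  simp only [gram, resl, resr, Matrix.of_apply, Matrix.add_apply, Matrix.sum_apply,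
    Fintype.sum_sum_type, Fintype.sum_prod_type, Finset.sum_add_distrib]
  congr 1
  rw [Finset.sum_congr rfl fun b _ => Finset.sum_congr rfl fun c _ => Finset.sum_comm]
  rw [Finset.sum_congr rfl fun b _ => Finset.sum_comm]
  rw [Finset.sum_comm]

theorem ip_split (X Y : T3 n (R ⊕ (R × Fin n))) :
    ip X Y = ip (resl X) (resl Y) + ∑ k, ip (resr k X) (resr k Y) := by
  simp only [ip_eq_trace]
  rw [gram_split, Matrix.trace_add, Matrix.trace_sum]

theorem resl_bigM (M : T3 n R) (Mp : Fin n → T3 n R) : resl (bigM M Mp) = (1 / 4 : ℝ) • M := by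
  funext a b c r
  simp only [resl, bigM, Sum.elim_inl, Pi.smul_apply, smul_eq_mul]
  ring

theorem resr_bigM (M : T3 n R) (Mp : Fin n → T3 n R) (k : Fin n) : resr k (bigM M Mp) = Mp k := by
  funext a b c r
  simp only [resr, bigM, Sum.elim_inr]

theorem gram_smul_left (t : ℝ) (M N : T3 n R) : gram (t • M) N = t • gram M N := by
  ext a a'
  simp only [gram, Matrix.of_apply, Pi.smul_apply, smul_eq_mul, Matrix.smul_apply, mul_assoc,
    Finset.mul_sum]

theorem gram_smul_right (t : ℝ) (M N : T3 n R) : gram M (t • N) = t • gram M N := by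
  rw [← gram_transpose, gram_smul_left, Matrix.transpose_smul, gram_transpose]

theorem gram_bigM (M : T3 n R) (Mp : Fin n → T3 n R) :
    gram (bigM M Mp) (bigM M Mp) = (1 / 16 : ℝ) • gram M M + ∑ k, gram (Mp k) (Mp k) := by
  rw [gram_split, resl_bigM]
  simp only [resr_bigM]
  rw [gram_smul_left, gram_smul_right, smul_smul]
  norm_num

theorem ip_bigM_sub (M : T3 n R) (Mp Mq : Fin n → T3 n R) :
    ip (bigM M Mp - bigM M Mq) (bigM M Mp - bigM M Mq) =
      ∑ k, ip (Mp k - Mq k) (Mp k - Mq k) := by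
  rw [ip_split]
  have h1 : resl (bigM M Mp - bigM M Mq) = 0 := by
    funext a b c r
    simp only [resl, bigM, Sum.elim_inl, Pi.sub_apply, sub_self, Pi.zero_apply]
  have h2 : ∀ k, resr k (bigM M Mp - bigM M Mq) = Mp k - Mq k := by
    intro k
    funext a b c r
    simp only [resr, bigM, Sum.elim_inr, Pi.sub_apply]
  rw [h1, Finset.sum_congr rfl fun k _ => by rw [h2 k]]
  simp only [ip, Pi.zero_apply, mul_zero, Finset.sum_const_zero, zero_add]

theorem gram_act2_left (A : Mt n) (M N : T3 n R) : gram (act2 A M) N = gram M (act2 Aᵀ N) := by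
  ext a a'
  simp only [gram, Matrix.of_apply, act2, Finset.sum_mul, Finset.mul_sum, Matrix.transpose_apply]
  -- `∑ b c r b', A b b' * M a b' c r * N a' b c r = ∑ b c r b', M a b c r * (A b' b * N a' b' c r)`
  have e1 : ∀ b, ∑ c, ∑ r, ∑ b', A b b' * M a b' c r * N a' b c r =
      ∑ b', ∑ c, ∑ r, A b b' * M a b' c r * N a' b c r := by
    intro b
    rw [Finset.sum_congr rfl fun c _ => Finset.sum_comm]
    rw [Finset.sum_comm]
  have e2 : ∀ b, ∑ c, ∑ r, ∑ b', M a b c r * (A b' b * N a' b' c r) =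
      ∑ b', ∑ c, ∑ r, M a b c r * (A b' b * N a' b' c r) := by
    intro b
    rw [Finset.sum_congr rfl fun c _ => Finset.sum_comm]
    rw [Finset.sum_comm]
  rw [Finset.sum_congr rfl fun b _ => e1 b, Finset.sum_congr rfl fun b _ => e2 b,
    Finset.sum_comm]
  refine Finset.sum_congr rfl fun b _ => Finset.sum_congr rfl fun b' _ =>
    Finset.sum_congr rfl fun c _ => Finset.sum_congr rfl fun r _ => ?_
  ring

theorem gram_act2_self {A : Mt n} (hA : Aᵀ = A) (M : T3 n R) :
    gram (act2 A M) (act2 A M) = gram M (act2 (A * A) M) := by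
  rw [gram_act2_left, act2_mul, hA]

theorem gram_sum_right {ι : Type*} [Fintype ι] (M : T3 n R) (X : ι → T3 n R) :
    gram M (∑ k, X k) = ∑ k, gram M (X k) := by
  rw [gram_eq_fl, fl_sum, Matrix.transpose_sum, Matrix.mul_sum]
  exact Finset.sum_congr rfl fun k _ => by rw [gram_eq_fl]

theorem fl_sub (M N : T3 n R) : fl (M - N) = fl M - fl N := by
  ext a i
  simp only [fl, Matrix.of_apply, Matrix.sub_apply, Pi.sub_apply]

theorem rt_gram_lip (X Y : T3 n R) :
    hs (rt (gram X X) - rt (gram Y Y)) ≤ 2 * ip (X - Y) (X - Y) := by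
  rw [gram_eq_fl, gram_eq_fl, ip_eq_hs, fl_sub]
  exact MX354.rt_lip (fl X) (fl Y)

end Big

/-! ## `Z' ≈ Q Z` -/

section QZ

variable {R : Type} [Fintype R]

theorem sqrt_lip {x y : ℝ} (hx : 0 ≤ x) (hy : 0 ≤ y) :
    (Real.sqrt (1 / 16 + x) - Real.sqrt (1 / 16 + y)) ^ 2 ≤ 4 * (x - y) ^ 2 := by
  set a := Real.sqrt (1 / 16 + x) with ha
  set b := Real.sqrt (1 / 16 + y) with hb
  have ha2 : a ^ 2 = 1 / 16 + x := Real.sq_sqrt (by linarith)
  have hb2 : b ^ 2 = 1 / 16 + y := Real.sq_sqrt (by linarith)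
  have ha1 : 1 / 4 ≤ a := Real.le_sqrt_of_sq_le (by norm_num; linarith)
  have hb1 : 1 / 4 ≤ b := Real.le_sqrt_of_sq_le (by norm_num; linarith)
  have e : x - y = (a + b) * (a - b) := by nlinarith
  rw [e, mul_pow]
  have h1 : (1 / 2 : ℝ) ^ 2 ≤ (a + b) ^ 2 := pow_le_pow_left₀ (by norm_num) (by linarith) 2
  nlinarith [sq_nonneg (a - b), mul_le_mul_of_nonneg_right h1 (sq_nonneg (a - b))]

theorem sqrt_half_lip {a b : ℝ} (ha : 0 ≤ a) (hb : 0 ≤ b) :
    (a - Real.sqrt a * Real.sqrt b) ^ 2 ≤ (a - b) ^ 2 := by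
  set s := Real.sqrt a with hs
  set t := Real.sqrt b with ht
  have hs2 : s ^ 2 = a := Real.sq_sqrt ha
  have ht2 : t ^ 2 = b := Real.sq_sqrt hb
  have hs0 : 0 ≤ s := Real.sqrt_nonneg _
  have ht0 : 0 ≤ t := Real.sqrt_nonneg _
  rw [← hs2, ← ht2]
  have e1 : s ^ 2 - s * t = s * (s - t) := by ring
  have e2 : s ^ 2 - t ^ 2 = (s + t) * (s - t) := by ring
  rw [e1, e2, mul_pow, mul_pow]
  exact mul_le_mul_of_nonneg_right (pow_le_pow_left₀ hs0 (by linarith) 2) (sq_nonneg _)

theorem Zp_near {M : T3 n R} {Mp : Fin n → T3 n R} {Z Z' : Mt n} (hZ : Z.PosSemidef)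
    (hZ' : Z'.PosSemidef) (hZM : Z * Z = gram M M)
    (hZM' : Z' * Z' = gram (bigM M Mp) (bigM M Mp)) {B : Fin n → Mt n}
    (hB : ∀ k, (B k)ᵀ = B k) {U : Mt n} {ν : Fin n → ℝ} (hU : Uᵀ * U = 1) (hU' : U * Uᵀ = 1)
    (hN : (4 : ℝ) • ∑ k, B k * B k = spec U ν) (hν : ∀ i, 0 ≤ ν i) :
    hs (Z' - spec U (fun i => Real.sqrt (1 / 16 + ν i)) * Z) ≤
      8 * (∑ k, ip (Mp k - (2 : ℝ) • act2 (B k) M) (Mp k - (2 : ℝ) • act2 (B k) M)) +
      32 * ip (act1 (spec U ν) M - act2 (spec U ν) M) (act1 (spec U ν) M - act2 (spec U ν) M) +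
      48 * hs (spec U ν * Z - Z * spec U ν) := by
  classical
  set q : Fin n → ℝ := fun i => Real.sqrt (1 / 16 + ν i) with hq
  set Q := spec U q with hQ
  have hQt : Qᵀ = Q := spec_transpose _ _
  have hZt := MX354.posSemidef_transpose hZ
  have hq0 : ∀ i, 0 ≤ q i := fun i => Real.sqrt_nonneg _
  have hqL : ∀ i j, (q i - q j) ^ 2 ≤ 4 * (ν i - ν j) ^ 2 := fun i j => sqrt_lip (hν i) (hν j)
  have hQQ : Q * Q = (1 / 16 : ℝ) • 1 + spec U ν := by
    rw [hQ, spec_mul hU, ← spec_one hU', spec_smul, spec_add]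
    congr 1
    funext i
    rw [hq]
    have := Real.mul_self_sqrt (show 0 ≤ 1 / 16 + ν i by have := hν i; linarith)
    simp only [this, mul_one]
  -- the four roots
  have r1 : rt (gram (bigM M Mp) (bigM M Mp)) = Z' := MX354.rt_unique hZ' hZM'
  set Mq : Fin n → T3 n R := fun k => (2 : ℝ) • act2 (B k) M with hMq
  have g2 : gram (bigM M Mq) (bigM M Mq) = gram (act2 Q M) (act2 Q M) := by
    rw [gram_bigM, gram_act2_self hQt, hQQ]
    have e1 : act2 ((1 / 16 : ℝ) • (1 : Mt n) + spec U ν) M =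
        (1 / 16 : ℝ) • M + act2 (spec U ν) M := by
      have h1 : act2 ((1 / 16 : ℝ) • (1 : Mt n) + spec U ν) M =
          act2 ((1 / 16 : ℝ) • (1 : Mt n)) M + act2 (spec U ν) M := by
        funext a b c r
        simp only [act2, Matrix.add_apply, add_mul, Finset.sum_add_distrib, Pi.add_apply]
      have h2 : act2 (1 : Mt n) M = M := by
        rw [← Matrix.diagonal_one, act2_diag]
        funext a b c r
        rw [one_mul]
      rw [h1, act2_smul_left, h2]
    rw [e1]
    have e2 : gram M ((1 / 16 : ℝ) • M + act2 (spec U ν) M) =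
        (1 / 16 : ℝ) • gram M M + gram M (act2 (spec U ν) M) := by
      rw [← gram_smul_right]
      ext a a'
      simp only [gram, Matrix.of_apply, Matrix.add_apply, Pi.add_apply, mul_add,
        Finset.sum_add_distrib]
    rw [e2, ← hN, act2_smul_left, act2_sum_left, gram_smul_right, gram_sum_right]
    congr 1
    rw [Finset.smul_sum]
    refine Finset.sum_congr rfl fun k _ => ?_
    rw [hMq]
    simp only
    rw [gram_smul_left, gram_smul_right, gram_act2_self (hB k), smul_smul]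
    norm_num
  have l1 := rt_gram_lip (bigM M Mp) (bigM M Mq)
  rw [r1, g2, ip_bigM_sub] at l1
  have l2 := rt_gram_lip (act2 Q M) (act1 Q M)
  have l2' := slot_lip (R := R) hU hU' hqL M
  have e2' : ip (act2 Q M - act1 Q M) (act2 Q M - act1 Q M) =
      ip (act1 Q M - act2 Q M) (act1 Q M - act2 Q M) := by
    simp only [ip_sub_left, ip_sub_right]
    rw [ip_comm (act2 Q M) (act1 Q M)]
    ring
  rw [e2'] at l2
  -- third root
  have g3 : gram (act1 Q M) (act1 Q M) = (Q * Z) * (Q * Z)ᵀ := by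
    rw [gram_act1_left, gram_act1_right, ← hZM, Matrix.transpose_mul, hZt]
    simp only [Matrix.mul_assoc]
  set H := spec U (fun i => Real.sqrt (q i)) with hH
  have hHt : Hᵀ = H := spec_transpose _ _
  set S := H * Z * H with hS
  have hSp : S.PosSemidef := by
    have := hZ.mul_mul_conjTranspose_same H
    rwa [Matrix.conjTranspose_eq_transpose_of_trivial, hHt] at this
  have hSt := MX354.posSemidef_transpose hSp
  have r4 : rt (S * Sᵀ) = S := MX354.rt_unique hSp (by rw [hSt])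
  have l3 := MX354.rt_lip (Q * Z) S
  rw [r4, ← g3] at l3
  have l4 : hs (Q * Z - S) ≤ 4 * hs (spec U ν * Z - Z * spec U ν) := by
    rw [hs_comm_spec hU hU', ← hs_cj hU', cj_sub, hS, cj_mul hU', cj_mul hU', cj_mul hU', hQ,
      hH, cj_spec hU, cj_spec hU]
    simp only [hs, Matrix.sub_apply, diag_mul_mul_apply, Matrix.diagonal_mul, Finset.mul_sum]
    refine Finset.sum_le_sum fun i _ => Finset.sum_le_sum fun j _ => ?_
    have h1 := sqrt_half_lip (hq0 i) (hq0 j)
    have h2 := hqL i j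
    have e : (q i * cj U Z i j - Real.sqrt (q i) * cj U Z i j * Real.sqrt (q j)) ^ 2 =
        (q i - Real.sqrt (q i) * Real.sqrt (q j)) ^ 2 * cj U Z i j ^ 2 := by ring
    rw [e, ← mul_assoc]
    exact mul_le_mul_of_nonneg_right (h1.trans h2) (sq_nonneg _)
  -- assemble
  have e5 : Z' - Q * Z = (Z' - rt (gram (act2 Q M) (act2 Q M))) +
      (rt (gram (act2 Q M) (act2 Q M)) - rt (gram (act1 Q M) (act1 Q M))) +
      ((rt (gram (act1 Q M) (act1 Q M)) - S) + (S - Q * Z)) := by abel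
  have m1 := hs_add_le ((Z' - rt (gram (act2 Q M) (act2 Q M))) +
      (rt (gram (act2 Q M) (act2 Q M)) - rt (gram (act1 Q M) (act1 Q M))))
      ((rt (gram (act1 Q M) (act1 Q M)) - S) + (S - Q * Z))
  have m2 := hs_add_le (Z' - rt (gram (act2 Q M) (act2 Q M)))
      (rt (gram (act2 Q M) (act2 Q M)) - rt (gram (act1 Q M) (act1 Q M)))
  have m3 := hs_add_le (rt (gram (act1 Q M) (act1 Q M)) - S) (S - Q * Z)
  have m4 : hs (S - Q * Z) = hs (Q * Z - S) := by rw [← hs_neg, neg_sub]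
  rw [m4] at m3
  rw [e5]
  linarith

end QZ

end Crest.Agent.R201.NB152
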