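import Crest.Agent.R201.Slow3_152

/-!
# R201, leaf MX8, part 4: the connection of the enlarged pack, the D-lemma, spectral bounds
(helper152)
-/

set_option autoImplicit false
set_option linter.unusedSectionVars false
open Matrix

namespace Crest.Agent.R201.NB152

open Crest.Agent.R201

variable {n : ℕ}

/-! ## the connection of the enlarged pack is the connection of the pack -/

section Same

variable {R : Type} [Fintype R]

theorem same_conn {M : T3 n R} {Mp : Fin n → T3 n R} {N : Fin n → T3 n R}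
    {N' : Fin n → T3 n (R ⊕ (R × Fin n))} (hN' : ∀ k a b c r, N' k a b c (Sum.inl r) = N k a b c r / 4)
    {B B' : Fin n → Mt n} (hB : ∀ k, (B k)ᵀ = B k) (hB' : ∀ k, (B' k)ᵀ = B' k) {c : ℝ}
    (hBb : LeQ (∑ k, B k * B k) (c • (1 : Mt n)))
    (hBb' : LeQ (∑ k, B' k * B' k) (c • (1 : Mt n))) {Z' : Mt n} (hZt : Z'ᵀ = Z')
    (hZM' : Z' * Z' = gram (bigM M Mp) (bigM M Mp)) {ε ε' η : ℝ} (hc : 0 < c)
    (h1 : ∑ k, ip (N k - 2 • act1 (B k) M) (N k - 2 • act1 (B k) M) ≤ ε)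
    (h2 : ∑ k, ip (N' k - 2 • act1 (B' k) (bigM M Mp)) (N' k - 2 • act1 (B' k) (bigM M Mp)) ≤ ε')
    (h3 : ∑ k, ip (Mp k - (2 : ℝ) • act2 (B k) M) (Mp k - (2 : ℝ) • act2 (B k) M) ≤ η) :
    ∑ k, hs ((B' k - B k) * Z') ≤ (1 / 16 + 8 * c) * (8 * ε' + ε / 2) + 8 * c * η := by
  -- (a)
  have ha : ∀ k, 4 * ip (act1 (B' k - B k) M) (act1 (B' k - B k) M) ≤
      2 * ip (N k - 2 • act1 (B k) M) (N k - 2 • act1 (B k) M) +
      32 * ip (N' k - 2 • act1 (B' k) (bigM M Mp)) (N' k - 2 • act1 (B' k) (bigM M Mp)) := by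
    intro k
    have e1 : resl (N' k - 2 • act1 (B' k) (bigM M Mp)) =
        (1 / 4 : ℝ) • (N k - 2 • act1 (B' k) M) := by
      have : resl (act1 (B' k) (bigM M Mp)) = (1 / 4 : ℝ) • act1 (B' k) M := by
        rw [← act1_smul, ← resl_bigM]; rfl
      rw [two_smul_T3, two_smul_T3]
      have h0 : resl (N' k - (2 : ℝ) • act1 (B' k) (bigM M Mp)) =
          resl (N' k) - (2 : ℝ) • resl (act1 (B' k) (bigM M Mp)) := rfl
      rw [h0, this, smul_sub, smul_comm]
      congr 1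
      funext a b c r
      simp only [resl, hN', Pi.smul_apply, smul_eq_mul]
      ring
    have e2 : ip (N k - 2 • act1 (B' k) M) (N k - 2 • act1 (B' k) M) ≤
        16 * ip (N' k - 2 • act1 (B' k) (bigM M Mp)) (N' k - 2 • act1 (B' k) (bigM M Mp)) := by
      rw [ip_split (N' k - 2 • act1 (B' k) (bigM M Mp)), e1, ip_smul_left, ip_smul_right]
      have : 0 ≤ ∑ l, ip (resr l (N' k - 2 • act1 (B' k) (bigM M Mp)))
          (resr l (N' k - 2 • act1 (B' k) (bigM M Mp))) :=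
        Finset.sum_nonneg fun l _ => ip_self_nonneg _
      linarith
    have e3 : (N k - 2 • act1 (B k) M) - (N k - 2 • act1 (B' k) M) =
        (2 : ℝ) • act1 (B' k - B k) M := by
      rw [act1_sub_left, two_smul_T3, two_smul_T3, smul_sub]; abel
    have e4 := ip_sub_le (N k - 2 • act1 (B k) M) (N k - 2 • act1 (B' k) M)
    rw [e3, ip_smul_left, ip_smul_right] at e4
    linarith
  have hA : ∑ k, ip (act1 (B' k - B k) M) (act1 (B' k - B k) M) ≤ 8 * ε' + ε / 2 := by
    have := Finset.sum_le_sum fun k (_ : k ∈ Finset.univ) => ha k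
    simp only [Finset.sum_add_distrib, ← Finset.mul_sum] at this
    linarith
  -- (b)
  have hb : ∀ k, hs ((B' k - B k) * Z') =
      (1 / 16) * ip (act1 (B' k - B k) M) (act1 (B' k - B k) M) +
        ∑ l, ip (act1 (B' k - B k) (Mp l)) (act1 (B' k - B k) (Mp l)) := by
    intro k
    rw [← ip_act1_hs hZt hZM', ip_split]
    refine congrArg₂ (· + ·) ?_ ?_
    · have : resl (act1 (B' k - B k) (bigM M Mp)) = (1 / 4 : ℝ) • act1 (B' k - B k) M := by
        rw [← act1_smul, ← resl_bigM]; rfl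
      rw [this, ip_smul_left, ip_smul_right]
      ring
    · refine Finset.sum_congr rfl fun l _ => ?_
      have : resr l (act1 (B' k - B k) (bigM M Mp)) = act1 (B' k - B k) (Mp l) := by
        conv_rhs => rw [← resr_bigM M Mp l]
        rfl
      rw [this]
  -- (c)
  have hcc : ∀ k l, ip (act1 (B' k - B k) (Mp l)) (act1 (B' k - B k) (Mp l)) ≤
      8 * ip (act2 (B l) (act1 (B' k - B k) M)) (act2 (B l) (act1 (B' k - B k) M)) +
      (4 * ip (act1 (B' k) (Mp l - (2 : ℝ) • act2 (B l) M))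
          (act1 (B' k) (Mp l - (2 : ℝ) • act2 (B l) M)) +
        4 * ip (act1 (B k) (Mp l - (2 : ℝ) • act2 (B l) M))
          (act1 (B k) (Mp l - (2 : ℝ) • act2 (B l) M))) := by
    intro k l
    have e1 : act1 (B' k - B k) (Mp l) =
        (2 : ℝ) • act2 (B l) (act1 (B' k - B k) M) +
          act1 (B' k - B k) (Mp l - (2 : ℝ) • act2 (B l) M) := by
      rw [act1_sub, act1_smul, act12_comm]; abel
    have e2 := ip_add_le ((2 : ℝ) • act2 (B l) (act1 (B' k - B k) M))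
      (act1 (B' k - B k) (Mp l - (2 : ℝ) • act2 (B l) M))
    rw [← e1, ip_smul_left, ip_smul_right] at e2
    have e3 := ip_sub_le (act1 (B' k) (Mp l - (2 : ℝ) • act2 (B l) M))
      (act1 (B k) (Mp l - (2 : ℝ) • act2 (B l) M))
    rw [← act1_sub_left] at e3
    linarith
  have hs1 := Finset.sum_le_sum fun k (_ : k ∈ Finset.univ) =>
    Finset.sum_le_sum fun l (_ : l ∈ Finset.univ) => hcc k l
  simp only [Finset.sum_add_distrib, ← Finset.mul_sum] at hs1
  have hs2 : ∑ k, ∑ l, ip (act2 (B l) (act1 (B' k - B k) M)) (act2 (B l) (act1 (B' k - B k) M)) ≤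
      c * (8 * ε' + ε / 2) := by
    refine (Finset.sum_le_sum fun k _ => sum_ip_act2 hB hBb _).trans ?_
    rw [← Finset.mul_sum]
    exact mul_le_mul_of_nonneg_left hA hc.le
  have hs3 : ∑ k, ∑ l, ip (act1 (B' k) (Mp l - (2 : ℝ) • act2 (B l) M))
      (act1 (B' k) (Mp l - (2 : ℝ) • act2 (B l) M)) ≤ c * η := by
    rw [Finset.sum_comm]
    refine (Finset.sum_le_sum fun l _ => sum_ip_act1 hB' hBb' _).trans ?_
    rw [← Finset.mul_sum]
    exact mul_le_mul_of_nonneg_left h3 hc.le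
  have hs4 : ∑ k, ∑ l, ip (act1 (B k) (Mp l - (2 : ℝ) • act2 (B l) M))
      (act1 (B k) (Mp l - (2 : ℝ) • act2 (B l) M)) ≤ c * η := by
    rw [Finset.sum_comm]
    refine (Finset.sum_le_sum fun l _ => sum_ip_act1 hB hBb _).trans ?_
    rw [← Finset.mul_sum]
    exact mul_le_mul_of_nonneg_left h3 hc.le
  rw [Finset.sum_congr rfl fun k _ => hb k, Finset.sum_add_distrib, ← Finset.mul_sum]
  linarith

end Same

/-! ## the smooth positive part -/

theorem rt_spec_eq {U : Mt n} (hU : Uᵀ * U = 1) (hU' : U * Uᵀ = 1) (w : Fin n → ℝ) (d : ℝ) :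
    rt (spec U w * spec U w + d ^ 2 • (1 : Mt n)) = spec U (fun i => Real.sqrt (w i ^ 2 + d ^ 2)) := by
  refine MX354.rt_unique (posSemidef_spec fun i => Real.sqrt_nonneg _) ?_
  rw [spec_mul hU, spec_mul hU, ← spec_one hU', spec_smul, spec_add]
  congr 1
  funext i
  rw [Real.mul_self_sqrt (by positivity)]
  ring

theorem ppd_eq {U : Mt n} (hU : Uᵀ * U = 1) (hU' : U * Uᵀ = 1) (w : Fin n → ℝ) (d : ℝ) :
    ppd d (spec U w) = spec U (fun i => (w i + Real.sqrt (w i ^ 2 + d ^ 2)) / 2) := by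
  unfold ppd
  rw [rt_spec_eq hU hU', spec_add, spec_smul]
  congr 1
  funext i
  ring

theorem abs_le_root (w d : ℝ) : |w| ≤ Real.sqrt (w ^ 2 + d ^ 2) :=
  Real.abs_le_sqrt (by nlinarith [sq_nonneg d])

theorem ppd_facts {W : Mt n} (hW : Wᵀ = W) (d : ℝ) :
    (ppd d W).PosSemidef ∧ (ppd d W - W).PosSemidef ∧
      ppd d W * ppd d W = W * ppd d W + (d ^ 2 / 4) • (1 : Mt n) := by
  obtain ⟨U, w, hU, hU', hWU⟩ := diagonalize hW
  have hWs : W = spec U w := hWU
  rw [hWs, ppd_eq hU hU']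
  refine ⟨posSemidef_spec fun i => ?_, ?_, ?_⟩
  · have := neg_abs_le (w i)
    have := abs_le_root (w i) d
    linarith
  · rw [spec_sub]
    refine posSemidef_spec fun i => ?_
    have := le_abs_self (w i)
    have := abs_le_root (w i) d
    linarith
  · rw [spec_mul hU, spec_mul hU, ← spec_one hU', spec_smul, spec_add]
    congr 1
    funext i
    have := Real.mul_self_sqrt (show 0 ≤ w i ^ 2 + d ^ 2 by positivity)
    nlinarith [this]

theorem D_lemma {W y Sd B : Mt n} (hW : Wᵀ = W) (hB : Bᵀ = B) {d : ℝ} (hd : 0 < d)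
    (hS : Sd * rt (W * W + d ^ 2 • 1) + rt (W * W + d ^ 2 • 1) * Sd = W * y + y * W) :
    hs ((1 / 2 : ℝ) • (y + Sd)) ≤
      (16 / 3) * hs (ppd d W * B) + 4 * hs (y - (B * W + W * B)) := by
  obtain ⟨U, w, hU, hU', hWU⟩ := diagonalize hW
  have hWs : W = spec U w := hWU
  set t : Fin n → ℝ := fun i => Real.sqrt (w i ^ 2 + d ^ 2) with ht
  have ht0 : ∀ i, 0 < t i := fun i => Real.sqrt_pos.2 (by positivity)
  have ht2 : ∀ i, t i ^ 2 = w i ^ 2 + d ^ 2 := fun i => Real.sq_sqrt (by positivity)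
  rw [hWs, rt_spec_eq hU hU'] at hS
  -- entries
  have hS' : ∀ i j, cj U Sd i j * (t i + t j) = (w i + w j) * cj U y i j := by
    intro i j
    have h := congrFun (congrFun (congrArg (cj U) hS) i) j
    rw [cj_add, cj_add, cj_mul hU', cj_mul hU', cj_mul hU', cj_mul hU', cj_spec hU,
      cj_spec hU, Matrix.add_apply, Matrix.add_apply, Matrix.mul_diagonal, Matrix.diagonal_mul,
      Matrix.mul_diagonal, Matrix.diagonal_mul] at h
    simp only [ht]
    linarith
  have hy' : ∀ i j, cj U y i j = (w i + w j) * cj U B i j +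
      cj U (y - (B * W + W * B)) i j := by
    intro i j
    rw [hWs, cj_sub, cj_add, cj_mul hU', cj_mul hU', cj_spec hU, Matrix.sub_apply,
      Matrix.add_apply, Matrix.mul_diagonal, Matrix.diagonal_mul]
    ring
  have hBs : ∀ i j, cj U B j i = cj U B i j := by
    intro i j
    have : (cj U B)ᵀ = cj U B := by rw [cj_transpose, hB]
    conv_rhs => rw [← this]
    rfl
  set p : Fin n → ℝ := fun i => (w i + t i) / 2 with hp
  have hent : ∀ i j, ((1 / 2) * (cj U y i j + cj U Sd i j)) ^ 2 ≤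
      (8 / 3) * ((p i * cj U B i j) ^ 2) + (8 / 3) * ((p j * cj U B i j) ^ 2) +
        4 * cj U (y - (B * W + W * B)) i j ^ 2 := by
    intro i j
    have h := D_entry (ht0 i) (ht0 j) (ht2 i) (ht2 j) (hS' i j) (hy' i j)
    have e : ((w i + t i) / 2 + (w j + t j) / 2) * cj U B i j =
        p i * cj U B i j + p j * cj U B i j := by rw [hp]; ring
    rw [e] at h
    nlinarith [sq_nonneg (p i * cj U B i j - p j * cj U B i j)]
  have hsum := Finset.sum_le_sum fun i (_ : i ∈ Finset.univ) =>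
    Finset.sum_le_sum fun j (_ : j ∈ Finset.univ) => hent i j
  simp only [Finset.sum_add_distrib, ← Finset.mul_sum] at hsum
  have e1 : hs ((1 / 2 : ℝ) • (y + Sd)) =
      ∑ i, ∑ j, ((1 / 2) * (cj U y i j + cj U Sd i j)) ^ 2 := by
    rw [← hs_cj hU', cj_smul, cj_add]
    simp only [hs, Matrix.smul_apply, Matrix.add_apply, smul_eq_mul]
  have e2 : hs (ppd d W * B) = ∑ i, ∑ j, (p i * cj U B i j) ^ 2 := by
    rw [hWs, ppd_eq hU hU', ← hs_cj hU', cj_mul hU', cj_spec hU]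
    simp only [hs, Matrix.diagonal_mul]
    rfl
  have e3 : ∑ i, ∑ j, (p j * cj U B i j) ^ 2 = ∑ i, ∑ j, (p i * cj U B i j) ^ 2 := by
    rw [Finset.sum_comm]
    exact Finset.sum_congr rfl fun i _ => Finset.sum_congr rfl fun j _ => by rw [hBs]
  have e4 : hs (y - (B * W + W * B)) = ∑ i, ∑ j, cj U (y - (B * W + W * B)) i j ^ 2 := by
    rw [← hs_cj hU']
    rfl
  rw [e1, e2, e4]
  rw [e3] at hsum
  linarith

/-! ## spectral bounds -/

theorem spec_form_col {U : Mt n} (hU : Uᵀ * U = 1) (f : Fin n → ℝ) (i : Fin n) :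
    (U *ᵥ Pi.single i 1) ⬝ᵥ (spec U f *ᵥ (U *ᵥ Pi.single i 1)) = f i := by
  rw [spec_form, Matrix.mulVec_mulVec, hU, Matrix.one_mulVec]
  rw [Finset.sum_eq_single i]
  · simp
  · intro j _ hj
    simp [hj]
  · simp

theorem spec_le {U : Mt n} (hU : Uᵀ * U = 1) (hU' : U * Uᵀ = 1) {f : Fin n → ℝ} {c : ℝ}
    (h : LeQ (spec U f) (c • (1 : Mt n))) (i : Fin n) : f i ≤ c := by
  have h1 := h (U *ᵥ Pi.single i 1)
  rw [spec_form_col hU, ← spec_one hU', spec_smul, spec_form_col hU, mul_one] at h1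
  exact h1

theorem spec_ge {U : Mt n} (hU : Uᵀ * U = 1) {f : Fin n → ℝ}
    (h : LeQ 0 (spec U f)) (i : Fin n) : 0 ≤ f i := by
  have h1 := h (U *ᵥ Pi.single i 1)
  rw [spec_form_col hU] at h1
  simpa using h1

theorem err_nonneg {R : Type} [Fintype R] (p : PtD n R) : 0 ≤ p.err := by
  have h1 : 0 ≤ ∑ k, (ip (p.N k) (p.N k) - hs (p.Y k)) := Finset.sum_nonneg fun k _ =>
    sub_nonneg.2 (hs_Y_le p.symM (p.symN k) p.Zpos p.Zsq (p.Ysymm k) (p.Ysq k))
  have h2 : 0 ≤ p.Err.trace := by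
    have := trace_sq_nonneg p.Errpos (1 : Mt n)
    rwa [Matrix.transpose_one, Matrix.one_mul, Matrix.mul_one] at this
  exact add_nonneg h1 h2

end Crest.Agent.R201.NB152
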