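import Crest.Agent.R201.Slow4_152

/-!
# R201, leaf MX8 (`slow_point`): section 6 at a point (helper152)
-/

set_option autoImplicit false
set_option linter.unusedSectionVars false
open Matrix

namespace Crest.Agent.R201.NB152

open Crest.Agent.R201

variable {n : ℕ}

theorem nsmul_eq_rsmul (m : ℕ) (X : Mt n) : m • X = (m : ℝ) • X :=
  (Nat.cast_smul_eq_nsmul ℝ m X).symm

theorem trace_cj {U : Mt n} (hU' : U * Uᵀ = 1) (X : Mt n) : (cj U X).trace = X.trace := by
  rw [cj, Matrix.trace_mul_comm, ← Matrix.mul_assoc, hU', Matrix.one_mul]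

set_option maxHeartbeats 2000000 in
/-- explicit constants -/
theorem slow_explicit {R : Type} [Fintype R]
    (p : PtD n R) (Mp : Fin n → T3 n R) (p' : PtD n (R ⊕ (R × Fin n)))
    (hM' : p'.M = bigM p.M Mp)
    (hN' : ∀ k a b c r, p'.N k a b c (Sum.inl r) = p.N k a b c r / 4)
    (hMp : ∀ k, Sym3 (Mp k)) (d : ℝ) (hd : 0 < d)
    (Sd : Fin n → Mt n)
    (hSd' : ∀ k,
      Sd k * rt ((p.Z - 2 • p'.Z) * (p.Z - 2 • p'.Z) + d ^ 2 • 1)
        + rt ((p.Z - 2 • p'.Z) * (p.Z - 2 • p'.Z) + d ^ 2 • 1) * Sd k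
      = (p.Z - 2 • p'.Z) * (p.Y k - 2 • p'.Y k) + (p.Y k - 2 • p'.Y k) * (p.Z - 2 • p'.Z))
    (e : ℝ) (he : p.err + p'.err + (∑ k, ip (p.N k - Mp k) (p.N k - Mp k)) + n * d ^ 2 ≤ e) :
    ∃ (B : Fin n → Mt n) (Θ L : Mt n), Conn p 1600 (10 ^ 20 * e) B ∧
      Θᵀ = Θ ∧ Θ * Θ = Θ ∧ Lᵀ = L ∧ LeQ 0 L ∧ LeQ L (32 • (1 : Mt n)) ∧
      L * (4 • ∑ k, B k * B k) = 1 - Θ ∧
      (∑ k, hs ((1 / 2 : ℝ) • ((p.Y k - 2 • p'.Y k) + Sd k)) ≤
        (1 / 2) * hs (ppd d (p.Z - 2 • p'.Z)) + 10 ^ 20 * e) ∧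
      hs (Θ * p.Z) ≤ 10 ^ 20 * (hs (ppd d (p.Z - 2 • p'.Z)) + e) := by
  classical
  -- basic nonnegativities
  have hp0 := err_nonneg p
  have hp0' := err_nonneg p'
  have hn0 : 0 ≤ ∑ k, ip (p.N k - Mp k) (p.N k - Mp k) :=
    Finset.sum_nonneg fun k _ => ip_self_nonneg _
  have hnd : 0 ≤ (n : ℝ) * d ^ 2 := by positivity
  have he0 : 0 ≤ e := by linarith
  obtain ⟨B, hB⟩ := conn_explicit p
  obtain ⟨B', hB'⟩ := conn_explicit p'
  have hZt := posDef_symm p.Zpos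
  have hZt' := posDef_symm p'.Zpos
  set W := p.Z - 2 • p'.Z with hW
  have hW2 : W = p.Z - (2 : ℝ) • p'.Z := by rw [hW, nsmul_eq_rsmul]; norm_num
  have hWt : Wᵀ = W := by rw [hW2, Matrix.transpose_sub, Matrix.transpose_smul, hZt, hZt']
  -- the three basic errors
  have c1 : ∑ k, ip (p.N k - 2 • act1 (B k) p.M) (p.N k - 2 • act1 (B k) p.M) ≤ 10000 * e :=
    hB.e1.trans (by linarith)
  have c2 : ∑ k, ip (p.N k - 2 • act2 (B k) p.M) (p.N k - 2 • act2 (B k) p.M) ≤ 10000 * e :=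
    hB.e2.trans (by linarith)
  have cc : ∑ k, hs (p.Z * B k - B k * p.Z) ≤ 10000 * e := hB.comm.trans (by linarith)
  have cZ : ∑ k, hs (p.Y k - 2 • (B k * p.Z)) ≤ 10000 * e := hB.eZ.trans (by linarith)
  have cZ' : ∑ k, hs (p.Y k - 2 • (p.Z * B k)) ≤ 10000 * e := hB.eZ'.trans (by linarith)
  have c1' : ∑ k, ip (p'.N k - 2 • act1 (B' k) p'.M) (p'.N k - 2 • act1 (B' k) p'.M) ≤
      10000 * e := hB'.e1.trans (by linarith)
  have cY : ∑ k, hs (p'.Y k - 2 • (B' k * p'.Z)) ≤ 10000 * e := hB'.eZ.trans (by linarith)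
  have cY' : ∑ k, hs (p'.Y k - 2 • (p'.Z * B' k)) ≤ 10000 * e := hB'.eZ'.trans (by linarith)
  -- `η3`
  have d3 : ∑ k, ip (Mp k - (2 : ℝ) • act2 (B k) p.M) (Mp k - (2 : ℝ) • act2 (B k) p.M) ≤
      20002 * e := by
    have h1 : ∀ k, ip (Mp k - (2 : ℝ) • act2 (B k) p.M) (Mp k - (2 : ℝ) • act2 (B k) p.M) ≤
        2 * ip (p.N k - 2 • act2 (B k) p.M) (p.N k - 2 • act2 (B k) p.M) +
          2 * ip (p.N k - Mp k) (p.N k - Mp k) := by
      intro k
      have e1 : Mp k - (2 : ℝ) • act2 (B k) p.M =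
          (p.N k - 2 • act2 (B k) p.M) - (p.N k - Mp k) := by
        rw [two_smul_T3]; abel
      rw [e1]
      exact ip_sub_le _ _
    have h2 := Finset.sum_le_sum fun k (_ : k ∈ Finset.univ) => h1 k
    simp only [Finset.sum_add_distrib, ← Finset.mul_sum] at h2
    linarith
  -- `Σ |(B¹ - B²) M|²`
  have d12 : ∑ k, ip (act1 (B k) p.M - act2 (B k) p.M) (act1 (B k) p.M - act2 (B k) p.M) ≤
      10000 * e := by
    have h1 : ∀ k, 4 * ip (act1 (B k) p.M - act2 (B k) p.M) (act1 (B k) p.M - act2 (B k) p.M) ≤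
        2 * ip (p.N k - 2 • act2 (B k) p.M) (p.N k - 2 • act2 (B k) p.M) +
          2 * ip (p.N k - 2 • act1 (B k) p.M) (p.N k - 2 • act1 (B k) p.M) := by
      intro k
      have e1 : (p.N k - 2 • act2 (B k) p.M) - (p.N k - 2 • act1 (B k) p.M) =
          (2 : ℝ) • (act1 (B k) p.M - act2 (B k) p.M) := by
        rw [two_smul_T3, two_smul_T3, smul_sub]; abel
      have e2 := ip_sub_le (p.N k - 2 • act2 (B k) p.M) (p.N k - 2 • act1 (B k) p.M)
      rw [e1, ip_smul_left, ip_smul_right] at e2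
      linarith
    have h2 := Finset.sum_le_sum fun k (_ : k ∈ Finset.univ) => h1 k
    simp only [Finset.sum_add_distrib, ← Finset.mul_sum] at h2
    linarith
  -- the spectral decomposition of `N = 4 Σ B²`
  have hNt : ((4 : ℝ) • ∑ k, B k * B k)ᵀ = (4 : ℝ) • ∑ k, B k * B k := by
    rw [Matrix.transpose_smul, Matrix.transpose_sum]
    congr 1
    exact Finset.sum_congr rfl fun k _ => by rw [Matrix.transpose_mul, hB.symm k]
  obtain ⟨U, ν, hU, hU', hNU⟩ := diagonalize hNt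
  have hN : (4 : ℝ) • ∑ k, B k * B k = spec U ν := hNU
  have hν0 : ∀ i, 0 ≤ ν i := by
    refine spec_ge hU ?_
    rw [← hN]
    intro u
    simp only [Matrix.zero_mulVec, dotProduct_zero]
    rw [Matrix.smul_mulVec, dotProduct_smul, smul_eq_mul, Matrix.sum_mulVec, dotProduct_sum]
    refine mul_nonneg (by norm_num) (Finset.sum_nonneg fun k _ => ?_)
    rw [form_sq (hB.symm k)]
    exact Finset.sum_nonneg fun _ _ => mul_self_nonneg _
  have hν1 : ∀ i, ν i ≤ 6400 := by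
    refine spec_le hU hU' ?_
    rw [← hN]
    intro u
    have := hB.bdd u
    rw [Matrix.smul_mulVec, dotProduct_smul, smul_eq_mul] at this ⊢
    rw [Matrix.smul_mulVec, dotProduct_smul, smul_eq_mul]
    linarith
  set q : Fin n → ℝ := fun i => Real.sqrt (1 / 16 + ν i) with hq
  have hq2 : ∀ i, q i ^ 2 = 1 / 16 + ν i := fun i =>
    Real.sq_sqrt (by have := hν0 i; linarith)
  have hq0 : ∀ i, 1 / 4 ≤ q i := fun i =>
    Real.le_sqrt_of_sq_le (by have := hν0 i; norm_num; linarith)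
  have hq1 : ∀ i, q i ≤ 80.5 := fun i =>
    Real.sqrt_le_iff.2 ⟨by norm_num, by have := hν1 i; norm_num; linarith⟩
  have hqL : ∀ i j, (q i - q j) ^ 2 ≤ 4 * (ν i - ν j) ^ 2 := fun i j =>
    sqrt_lip (hν0 i) (hν0 j)
  set F : Fin n → ℝ := fun i => 1 - 2 * q i with hF
  have hFL : ∀ i j, (F i - F j) ^ 2 ≤ 16 * (ν i - ν j) ^ 2 := by
    intro i j
    have h1 := hqL i j
    have e1 : F i - F j = -2 * (q i - q j) := by rw [hF]; ring
    rw [e1]
    nlinarith
  -- `η1`, `η2`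
  have n1 : hs (spec U ν * p.Z - p.Z * spec U ν) ≤ 1024000000 * e := by
    have := eta1 hB.symm (by norm_num : (0 : ℝ) < 1600) hB.bdd p.Z
    rw [hN] at this
    linarith
  have n2 : ip (act1 (spec U ν) p.M - act2 (spec U ν) p.M)
      (act1 (spec U ν) p.M - act2 (spec U ν) p.M) ≤ 1024000000 * e := by
    have := eta2 hB.symm (by norm_num : (0 : ℝ) < 1600) hB.bdd p.M
    rw [hN] at this
    linarith
  -- `Z' ≈ Q Z`
  have hZM' : p'.Z * p'.Z = gram (bigM p.M Mp) (bigM p.M Mp) := by rw [← hM']; exact p'.Zsq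
  have hZp := Zp_near p.Zpos.posSemidef p'.Zpos.posSemidef p.Zsq hZM' hB.symm hU hU' hN hν0
  set Eo : Mt n := (2 : ℝ) • (spec U q * p.Z - p'.Z) with hEo
  have hEo1 : hs Eo ≤ 330000000000 * e := by
    have e1 : hs (spec U q * p.Z - p'.Z) = hs (p'.Z - spec U q * p.Z) := by
      rw [← hs_neg, neg_sub]
    rw [hEo, hs_smul, e1]
    linarith
  have hWE : W = spec U F * p.Z + Eo := by
    have e1 : spec U F = 1 - (2 : ℝ) • spec U q := by
      rw [← spec_one hU', spec_smul, spec_sub]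
    rw [e1, hEo, hW2, Matrix.sub_mul, Matrix.one_mul, Matrix.smul_mul, smul_sub]
    abel
  -- in the basis `U`
  obtain ⟨f1, f2, f3⟩ := ppd_facts hWt d
  have w1 : ∀ i j, cj U W i j = F i * cj U p.Z i j + cj U Eo i j := by
    intro i j
    conv_lhs => rw [hWE]
    rw [cj_add, cj_mul hU', cj_spec hU, Matrix.add_apply, Matrix.diagonal_mul]
  have z1 := posSemidef_cj p.Zpos.posSemidef U
  have v1 := posSemidef_cj f1 U
  have v2 := posSemidef_cj f2 U
  rw [cj_sub] at v2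
  have v3 : cj U (ppd d W) * cj U (ppd d W) =
      cj U W * cj U (ppd d W) + (d ^ 2 / 4) • (1 : Mt n) := by
    rw [← cj_mul hU', f3, cj_add, cj_mul hU', cj_smul, cj_one hU]
  have hcomm : ∑ i, ∑ j, (ν i - ν j) ^ 2 * cj U p.Z i j ^ 2 ≤ 1024000000 * e := by
    rw [← hs_comm_spec hU hU']
    exact n1
  set κ : Fin n → ℝ := fun i => max (-F i) 0 with hκ
  have hκ0 : ∀ i, 0 ≤ κ i := fun i => le_max_right _ _
  have hκb : ∀ i, κ i ≤ 160 := by
    intro i
    refine max_le ?_ (by norm_num)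
    have := hq1 i
    simp only [hF]
    linarith
  have hK := K_lemma z1 v1 v3 w1 (fun i => rfl) hFL hκb
  rw [hs_cj hU'] at hK
  have hK1 : ∑ i, ∑ j, κ i * cj U (ppd d W) i j ^ 2 ≤ 112000000000000 * e := by
    have : (n : ℝ) * d ^ 2 ≤ e := by linarith
    linarith
  set g : Fin n → ℝ := fun i => max (F i) 0 with hg
  have hg0 : ∀ i, 0 ≤ g i := fun i => le_max_right _ _
  have hgb : ∀ i, g i ≤ 1 / 2 := by
    intro i
    refine max_le ?_ (by norm_num)
    have := hq0 i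
    simp only [hF]
    linarith
  have hII := II_lemma z1 v2 w1 (fun i => rfl) hFL hgb
  rw [hs_cj hU', hs_cj hU'] at hII
  -- `4 Σ |Wp B_k|² = Σ ν_i v_ij²`
  have hvt : (ppd d W)ᵀ = ppd d W := MX354.posSemidef_transpose f1
  have t1 : 4 * ∑ k, hs (ppd d W * B k) = ∑ i, ∑ j, ν i * cj U (ppd d W) i j ^ 2 := by
    have e1 : ∀ k, hs (ppd d W * B k) = ((ppd d W) * (B k * B k) * (ppd d W)).trace := by
      intro k
      rw [hs_eq_trace, Matrix.transpose_mul, hB.symm k, hvt]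
      simp only [Matrix.mul_assoc]
    have e2 : 4 * ∑ k, hs (ppd d W * B k) =
        ((ppd d W) * ((4 : ℝ) • ∑ k, B k * B k) * (ppd d W)).trace := by
      rw [Finset.sum_congr rfl fun k _ => e1 k, Matrix.mul_smul, Matrix.smul_mul,
        Matrix.trace_smul, smul_eq_mul, Matrix.mul_sum, Matrix.sum_mul, Matrix.trace_sum]
    rw [e2, hN]
    -- move to the basis
    have e3 : ((ppd d W) * spec U ν * (ppd d W)).trace =
        (cj U (ppd d W) * diagonal ν * cj U (ppd d W)).trace := by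
      rw [← cj_spec hU ν, ← cj_mul hU', ← cj_mul hU', trace_cj hU']
    rw [e3, Matrix.trace_mul_comm, ← Matrix.mul_assoc, Matrix.trace]
    have hvt2 : (cj U (ppd d W))ᵀ = cj U (ppd d W) := by rw [cj_transpose, hvt]
    have e4 : ∀ i, (cj U (ppd d W) * cj U (ppd d W) * diagonal ν).diag i =
        ∑ j, ν i * cj U (ppd d W) i j ^ 2 := by
      intro i
      rw [Matrix.diag_apply, Matrix.mul_diagonal, Matrix.mul_apply, Finset.sum_mul]
      refine Finset.sum_congr rfl fun j _ => ?_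
      have : cj U (ppd d W) j i = cj U (ppd d W) i j := by
        conv_rhs => rw [← hvt2]
        rfl
      rw [this]; ring
    exact Finset.sum_congr rfl fun i _ => e4 i
  have hνκ : ∀ i, ν i ≤ 3 / 8 + 20000 * κ i := by
    intro i
    have h0 := hκ0 i
    rcases le_or_gt (ν i) (3 / 8) with h | h
    · linarith
    · have h1 : 0.66 ≤ q i := Real.le_sqrt_of_sq_le (by norm_num; linarith)
      have h2 : -F i ≤ κ i := le_max_left _ _
      have h3 : -F i = 2 * q i - 1 := by simp only [hF]; ring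
      have h4 := hν1 i
      rw [h3] at h2
      linarith
  have t2 : ∑ i, ∑ j, ν i * cj U (ppd d W) i j ^ 2 ≤
      3 / 8 * hs (ppd d W) + 20000 * ∑ i, ∑ j, κ i * cj U (ppd d W) i j ^ 2 := by
    have e1 : hs (ppd d W) = ∑ i, ∑ j, cj U (ppd d W) i j ^ 2 := by
      rw [← hs_cj hU']; rfl
    rw [e1, Finset.mul_sum, Finset.mul_sum, ← Finset.sum_add_distrib]
    refine Finset.sum_le_sum fun i _ => ?_
    rw [Finset.mul_sum, Finset.mul_sum, ← Finset.sum_add_distrib]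
    refine Finset.sum_le_sum fun j _ => ?_
    have := mul_le_mul_of_nonneg_right (hνκ i) (sq_nonneg (cj U (ppd d W) i j))
    linarith
  -- the connection acts on `W`
  have c1'' : ∑ k, ip (p'.N k - 2 • act1 (B' k) (bigM p.M Mp))
      (p'.N k - 2 • act1 (B' k) (bigM p.M Mp)) ≤ 10000 * e := by
    rw [← hM']; exact c1'
  have hsame := same_conn (Mp := Mp) hN' hB.symm hB'.symm hB.bdd hB'.bdd hZt' hZM'
    (by norm_num : (0 : ℝ) < 1600) c1 c1'' d3
  have hsame1 : ∑ k, hs ((B' k - B k) * p'.Z) ≤ 1400000000 * e := by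
    refine hsame.trans ?_
    linarith
  have hR : ∑ k, hs ((p.Y k - 2 • p'.Y k) - (B k * W + W * B k)) ≤ 100000000000 * e := by
    have h1 : ∀ k, hs ((p.Y k - 2 • p'.Y k) - (B k * W + W * B k)) ≤
        hs (p.Y k - 2 • (B k * p.Z)) + hs (p.Y k - 2 • (p.Z * B k)) +
        8 * hs (p'.Y k - 2 • (B' k * p'.Z)) + 8 * hs (p'.Y k - 2 • (p'.Z * B' k)) +
        64 * hs ((B' k - B k) * p'.Z) := by
      intro k
      have e1 : (p.Y k - 2 • p'.Y k) - (B k * W + W * B k) =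
          (1 / 2 : ℝ) • ((p.Y k - 2 • (B k * p.Z)) + (p.Y k - 2 • (p.Z * B k))) -
          ((p'.Y k - 2 • (B' k * p'.Z)) + (p'.Y k - 2 • (p'.Z * B' k)) +
            (2 : ℝ) • ((B' k - B k) * p'.Z + p'.Z * (B' k - B k))) := by
        rw [hW2]
        simp only [nsmul_eq_rsmul, Matrix.mul_sub, Matrix.sub_mul, Matrix.mul_smul,
          Matrix.smul_mul]
        push_cast
        module
      have m0 := hs_sub_le ((1 / 2 : ℝ) • ((p.Y k - 2 • (B k * p.Z)) + (p.Y k - 2 • (p.Z * B k))))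
        ((p'.Y k - 2 • (B' k * p'.Z)) + (p'.Y k - 2 • (p'.Z * B' k)) +
            (2 : ℝ) • ((B' k - B k) * p'.Z + p'.Z * (B' k - B k)))
      have m1 := hs_add_le (p.Y k - 2 • (B k * p.Z)) (p.Y k - 2 • (p.Z * B k))
      have m2 := hs_add_le ((p'.Y k - 2 • (B' k * p'.Z)) + (p'.Y k - 2 • (p'.Z * B' k)))
        ((2 : ℝ) • ((B' k - B k) * p'.Z + p'.Z * (B' k - B k)))
      have m3 := hs_add_le (p'.Y k - 2 • (B' k * p'.Z)) (p'.Y k - 2 • (p'.Z * B' k))
      have m4 := hs_add_le ((B' k - B k) * p'.Z) (p'.Z * (B' k - B k))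
      have m5 : hs (p'.Z * (B' k - B k)) = hs ((B' k - B k) * p'.Z) := by
        rw [← hs_transpose, Matrix.transpose_mul, Matrix.transpose_sub, hB.symm k, hB'.symm k,
          hZt']
      rw [hs_smul] at m0 m2
      rw [m5] at m4
      rw [e1]
      linarith
    have h2 := Finset.sum_le_sum fun k (_ : k ∈ Finset.univ) => h1 k
    simp only [Finset.sum_add_distrib, ← Finset.mul_sum] at h2
    linarith
  -- the two operators
  refine ⟨B, spec U (fun i => if ν i ≤ 1 / 32 then 1 else 0),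
    spec U (fun i => if ν i ≤ 1 / 32 then 0 else (ν i)⁻¹), ?_, spec_transpose _ _, ?_,
    spec_transpose _ _, ?_, ?_, ?_, ?_, ?_⟩
  · -- the connection, with the larger error
    have hle : 10000 * p.err ≤ 10 ^ 20 * e := by
      have : p.err ≤ e := by linarith
      nlinarith
    exact ⟨hB.symm, hB.bdd, hB.e1.trans hle, hB.e2.trans hle, hB.e3.trans hle,
      hB.comm.trans hle, hB.eZ.trans hle, hB.eZ'.trans hle⟩
  · rw [spec_mul hU]
    congr 1
    funext i
    split_ifs <;> simp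
  · intro u
    rw [spec_form]
    simp only [Matrix.zero_mulVec, dotProduct_zero]
    refine Finset.sum_nonneg fun i _ => mul_nonneg ?_ (sq_nonneg _)
    split_ifs
    · exact le_rfl
    · exact inv_nonneg.2 (hν0 i)
  · have e32 : (32 • (1 : Mt n)) = spec U (fun _ => 32) := by
      rw [nsmul_eq_rsmul, ← spec_one hU', spec_smul]
      norm_num
    rw [e32]
    refine spec_mono U fun i => ?_
    split_ifs with h
    · norm_num
    · push Not at h
      rw [inv_le_comm₀ (by linarith) (by norm_num)]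
      norm_num
      linarith
  · have e4 : (4 • ∑ k, B k * B k : Mt n) = spec U ν := by
      rw [nsmul_eq_rsmul, ← hN]; norm_num
    rw [e4, spec_mul hU, ← spec_one hU', spec_sub]
    congr 1
    funext i
    split_ifs with h
    · simp
    · push Not at h
      rw [inv_mul_cancel₀ (by linarith), sub_zero]
  · -- (I)
    have h1 := Finset.sum_le_sum fun k (_ : k ∈ Finset.univ) =>
      D_lemma hWt (hB.symm k) hd (hSd' k)
    simp only [Finset.sum_add_distrib, ← Finset.mul_sum] at h1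
    refine h1.trans ?_
    linarith
  · -- (II)
    have e1 : hs (spec U (fun i => if ν i ≤ 1 / 32 then (1 : ℝ) else 0) * p.Z) ≤
        19 * ∑ i, ∑ j, g i ^ 3 * cj U p.Z i j ^ 2 := by
      rw [← hs_cj hU', cj_mul hU', cj_spec hU]
      simp only [hs, Matrix.diagonal_mul, Finset.mul_sum]
      refine Finset.sum_le_sum fun i _ => Finset.sum_le_sum fun j _ => ?_
      rw [mul_pow, ← mul_assoc]
      refine mul_le_mul_of_nonneg_right ?_ (sq_nonneg _)
      split_ifs with h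
      · have h1 : q i ≤ 5 / 16 := Real.sqrt_le_iff.2 ⟨by norm_num, by norm_num; linarith⟩
        have h2 : 3 / 8 ≤ g i := by
          refine le_trans ?_ (le_max_left _ _)
          simp only [hF]
          linarith
        have h3 : (3 / 8 : ℝ) ^ 3 ≤ g i ^ 3 := pow_le_pow_left₀ (by norm_num) h2 3
        norm_num at h3 ⊢
        linarith
      · have := pow_nonneg (hg0 i) 3
        norm_num
        linarith
    refine e1.trans ?_
    have h5 : 0 ≤ hs (ppd d W) := hs_nonneg _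
    linarith

/-- MX8 -/
theorem slow_point : ∃ C' C : ℝ, 0 < C' ∧ 0 < C ∧ ∀ (n : ℕ) (R : Type) [Fintype R]
    (p : PtD n R) (Mp : Fin n → T3 n R) (p' : PtD n (R ⊕ (R × Fin n)))
    (hM' : p'.M = bigM p.M Mp)
    (hN' : ∀ k a b c r, p'.N k a b c (Sum.inl r) = p.N k a b c r / 4)
    (hMp : ∀ k, Sym3 (Mp k)) (d : ℝ) (hd : 0 < d)
    (Sd : Fin n → Mt n) (hSd : ∀ k, (Sd k)ᵀ = Sd k)
    (hSd' : ∀ k,
      Sd k * rt ((p.Z - 2 • p'.Z) * (p.Z - 2 • p'.Z) + d ^ 2 • 1)
        + rt ((p.Z - 2 • p'.Z) * (p.Z - 2 • p'.Z) + d ^ 2 • 1) * Sd k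
      = (p.Z - 2 • p'.Z) * (p.Y k - 2 • p'.Y k) + (p.Y k - 2 • p'.Y k) * (p.Z - 2 • p'.Z))
    (e : ℝ) (he : p.err + p'.err + (∑ k, ip (p.N k - Mp k) (p.N k - Mp k)) + n * d ^ 2 ≤ e),
    ∃ (B : Fin n → Mt n) (Θ L : Mt n), Conn p C' (C * e) B ∧
      Θᵀ = Θ ∧ Θ * Θ = Θ ∧ Lᵀ = L ∧ LeQ 0 L ∧ LeQ L (32 • (1 : Mt n)) ∧
      L * (4 • ∑ k, B k * B k) = 1 - Θ ∧
      (∑ k, hs ((1 / 2 : ℝ) • ((p.Y k - 2 • p'.Y k) + Sd k)) ≤
        (1 / 2) * hs (ppd d (p.Z - 2 • p'.Z)) + C * e) ∧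
      hs (Θ * p.Z) ≤ C * (hs (ppd d (p.Z - 2 • p'.Z)) + e) :=
  ⟨1600, 10 ^ 20, by norm_num, by norm_num, fun _ _ _ p Mp p' hM' hN' hMp d hd Sd _ hSd' e he =>
    slow_explicit p Mp p' hM' hN' hMp d hd Sd hSd' e he⟩

end Crest.Agent.R201.NB152
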