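import Crest.Agent.R201.Noi2_402

/-!
# R201 St1: LSI for Lipschitz exponents, posterior gradient, linear DV  (helper352)

Doc 2103, block (M), preparation.
-/

set_option autoImplicit false
open MeasureTheory Matrix Filter Topology
open scoped ContDiff RealInnerProductSpace NNReal

namespace Crest.Agent.R201.St352

open Crest.Agent.R201 Crest.Agent.R144.Fi865 Crest.Agent.R201.An Crest.Agent.R201.DVQ402

variable {n : ℕ} {w ρ F G g : E n → ℝ} {s c R K κ : ℝ}

/-- `C¹` function with bounded gradient -/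
structure LC (g : E n → ℝ) : Prop where
  C1 : ContDiff ℝ 1 g
  bd : ∃ B : ℝ, 0 ≤ B ∧ ∀ k x, |pd k g x| ≤ B

lemma LC.of_cb {g : E n → ℝ} (h : CB g) : LC g := ⟨h.1, by
  obtain ⟨B, hB⟩ := h.2
  exact ⟨B, (abs_nonneg _).trans (hB 0).1, fun k x => (hB x).2 k⟩⟩

lemma LC.diff (h : LC g) : Differentiable ℝ g := h.C1.differentiable (by simp)

lemma LC.cont (h : LC g) : Continuous g := h.C1.continuous

lemma LC.pd_cont (h : LC g) (k : Fin n) : Continuous (pd k g) := by
  unfold pd
  exact (h.C1.continuous_fderiv (by simp)).clm_apply continuous_const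

lemma LC.lip (h : LC g) : ∃ L : ℝ, 0 ≤ L ∧ ∀ x, |g x| ≤ |g 0| + L * ‖x‖ := by
  obtain ⟨B, hB0, hB⟩ := h.bd
  set L := √(∑ _k : Fin n, B ^ 2) with hL
  have hn : ∀ x, ‖fderiv ℝ g x‖ ≤ L := by
    intro x
    rw [hL]
    apply Real.le_sqrt_of_sq_le
    rw [norm_fderiv_sq]
    refine Finset.sum_le_sum fun k _ => ?_
    rw [← sq_abs]
    exact pow_le_pow_left₀ (abs_nonneg _) (hB k x) 2
  refine ⟨L, Real.sqrt_nonneg _, fun x => ?_⟩
  have h1 := Convex.norm_image_sub_le_of_norm_fderiv_le (𝕜 := ℝ) (f := g) (s := Set.univ) (C := L)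
    (fun y _ => h.diff y) (fun y _ => hn y) convex_univ (Set.mem_univ 0) (Set.mem_univ x)
  rw [sub_zero, Real.norm_eq_abs] at h1
  have h2 : |g x| ≤ |g 0| + |g x - g 0| := by
    have := abs_add_le (g 0) (g x - g 0)
    simpa using this
  linarith

lemma LC.eg (h : LC g) : EG g := by
  obtain ⟨L, hL, hb⟩ := h.lip
  refine ⟨h.cont.measurable, |g 0| + L, 1, by positivity, zero_le_one, fun x => ?_⟩
  have h1 := le_exp_norm x
  have h2 : 1 ≤ Real.exp (1 * ‖x‖) := Real.one_le_exp (by positivity)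
  have h3 := mul_le_mul_of_nonneg_left h1 hL
  have h4 := mul_le_mul_of_nonneg_left h2 (abs_nonneg (g 0))
  nlinarith [hb x]

lemma LC.eg_exp_abs (h : LC g) : EG fun x => Real.exp |g x| := by
  obtain ⟨L, hL, hb⟩ := h.lip
  refine ⟨(h.cont.abs.rexp).measurable, Real.exp |g 0|, L, (Real.exp_pos _).le, hL, fun x => ?_⟩
  rw [abs_of_pos (Real.exp_pos _), ← Real.exp_add]
  exact Real.exp_le_exp.2 (hb x)

lemma LC.eg_exp (h : LC g) : EG fun x => Real.exp (g x) := by
  obtain ⟨L, hL, hb⟩ := h.lip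
  refine ⟨h.cont.rexp.measurable, Real.exp |g 0|, L, (Real.exp_pos _).le, hL, fun x => ?_⟩
  rw [abs_of_pos (Real.exp_pos _), ← Real.exp_add]
  exact Real.exp_le_exp.2 ((le_abs_self _).trans (hb x))

lemma LC.eg_pd (h : LC g) (k : Fin n) : EG (pd k g) := by
  obtain ⟨B, _, hB⟩ := h.bd
  exact EG.of_bdd (h.pd_cont k).measurable (hB k)

lemma EG.sq (hF : EG F) : EG fun x => F x ^ 2 := by simpa [_root_.sq] using hF.mul hF

/-- strict positivity of a mean -/
lemma Em_pos (hρ : Ex ρ) (hE : EG F) (hpos : ∀ x, 0 < F x) : 0 < Em ρ F := by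
  unfold Em
  refine div_pos ?_ hρ.pos
  have h1 : 0 ≤ fun x => F x * ρ x := fun x => mul_nonneg (hpos x).le (hρ.nonneg x)
  rw [integral_pos_iff_support_of_nonneg h1 (hρ.int_mul hE)]
  have h2 : (Function.support fun x => F x * ρ x) = Function.support ρ := by
    ext x
    simp [(hpos x).ne']
  rw [h2]
  have h3 := hρ.pos
  rwa [integral_pos_iff_support_of_nonneg hρ.nonneg hρ.integrable] at h3

/-! ### truncation -/

/-- `N arctan (g/N)` -/
noncomputable def trc (N : ℝ) (g : E n → ℝ) (x : E n) : ℝ := N * Real.arctan (g x / N)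

lemma arctan_abs_le (u : ℝ) : |Real.arctan u| ≤ |u| := by
  have h := Convex.norm_image_sub_le_of_norm_deriv_le (f := Real.arctan) (s := Set.univ) (C := 1)
    (fun x _ => Real.differentiableAt_arctan x) (fun x _ => by
      rw [Real.deriv_arctan, Real.norm_eq_abs, abs_of_pos (by positivity)]
      rw [div_le_one (by positivity)]
      nlinarith [sq_nonneg x]) convex_univ (Set.mem_univ 0) (Set.mem_univ u)
  simpa using h

lemma trc_abs {N : ℝ} (hN : 0 < N) (g : E n → ℝ) (x : E n) : |trc N g x| ≤ |g x| := by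
  unfold trc
  rw [abs_mul, abs_of_pos hN]
  calc N * |Real.arctan (g x / N)| ≤ N * |g x / N| :=
        mul_le_mul_of_nonneg_left (arctan_abs_le _) hN.le
    _ = |g x| := by rw [abs_div, abs_of_pos hN]; field_simp

lemma trc_pd {N : ℝ} (hN : 0 < N) (h : LC g) (k : Fin n) (x : E n) :
    pd k (trc N g) x = pd k g x / (1 + (g x / N) ^ 2) := by
  unfold pd
  have d1 : HasFDerivAt (fun x => g x / N) (N⁻¹ • fderiv ℝ g x) x := by
    have := (h.diff x).hasFDerivAt.const_mul N⁻¹
    refine this.congr_of_eventuallyEq (Eventually.of_forall fun y => ?_)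
    simp only
    rw [div_eq_inv_mul]
  have d2 := (d1.arctan).const_mul N
  have e : trc N g = fun x => N * Real.arctan (g x / N) := rfl
  rw [e, d2.fderiv]
  simp only [_root_.smul_apply, smul_eq_mul]
  field_simp

lemma trc_pd_le {N : ℝ} (hN : 0 < N) (h : LC g) (k : Fin n) (x : E n) :
    |pd k (trc N g) x| ≤ |pd k g x| := by
  rw [trc_pd hN h, abs_div, abs_of_pos (by positivity : (0 : ℝ) < 1 + (g x / N) ^ 2)]
  exact div_le_self (abs_nonneg _) (by nlinarith [sq_nonneg (g x / N)])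

lemma trc_cb {N : ℝ} (hN : 0 < N) (h : LC g) : CB (trc N g) := by
  obtain ⟨B, hB0, hB⟩ := h.bd
  refine ⟨?_, N * (Real.pi / 2) + B, fun x => ⟨?_, fun k => ?_⟩⟩
  · unfold trc
    exact contDiff_const.mul (Real.contDiff_arctan.comp (h.C1.div_const N))
  · unfold trc
    rw [abs_mul, abs_of_pos hN]
    have h1 : |Real.arctan (g x / N)| ≤ Real.pi / 2 :=
      abs_le.2 ⟨(Real.neg_pi_div_two_lt_arctan _).le, (Real.arctan_lt_pi_div_two _).le⟩
    have h2 := mul_le_mul_of_nonneg_left h1 hN.le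
    linarith
  · have h1 := (trc_pd_le hN h k x).trans (hB k x)
    have : 0 ≤ N * (Real.pi / 2) := by positivity
    linarith

lemma tendsto_trc (g : E n → ℝ) (x : E n) :
    Tendsto (fun m : ℕ => trc ((m : ℝ) + 1) g x) atTop (𝓝 (g x)) := by
  have hN : Tendsto (fun m : ℕ => ((m : ℝ) + 1)) atTop atTop :=
    tendsto_atTop_add_const_right _ _ tendsto_natCast_atTop_atTop
  by_cases h0 : g x = 0
  · have : (fun m : ℕ => trc ((m : ℝ) + 1) g x) = fun _ => g x := by
      funext m; unfold trc; rw [h0]; simp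
    rw [this]; exact tendsto_const_nhds
  · have h1 : Tendsto (fun m : ℕ => g x / ((m : ℝ) + 1)) atTop (𝓝[≠] 0) := by
      rw [tendsto_nhdsWithin_iff]
      refine ⟨tendsto_const_nhds.div_atTop hN, Eventually.of_forall fun m => ?_⟩
      have : (0 : ℝ) < (m : ℝ) + 1 := by positivity
      exact div_ne_zero h0 this.ne'
    have h2 : Tendsto (slope Real.arctan 0) (𝓝[≠] 0) (𝓝 (1 / (1 + (0 : ℝ) ^ 2))) :=
      hasDerivAt_iff_tendsto_slope.1 (Real.hasDerivAt_arctan 0)
    have h3 := (h2.comp h1).const_mul (g x)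
    have e1 : g x * (1 / (1 + (0 : ℝ) ^ 2)) = g x := by norm_num
    rw [e1] at h3
    refine h3.congr fun m => ?_
    have hm : (0 : ℝ) < (m : ℝ) + 1 := by positivity
    simp only [Function.comp, slope_def_field, Real.arctan_zero, sub_zero]
    unfold trc
    field_simp

/-- dominated convergence for `Em` -/
lemma tendsto_Em (hρ : Ex ρ) {Fm : ℕ → E n → ℝ} (hm : ∀ m, Measurable (Fm m)) (hG : EG G)
    (hb : ∀ m x, |Fm m x| ≤ G x) (hl : ∀ x, Tendsto (fun m => Fm m x) atTop (𝓝 (F x))) :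
    Tendsto (fun m => Em ρ (Fm m)) atTop (𝓝 (Em ρ F)) := by
  unfold Em
  refine Tendsto.div_const ?_ _
  refine tendsto_integral_of_dominated_convergence (fun x => G x * ρ x)
    (fun m => ((hm m).mul hρ.meas).aestronglyMeasurable) (hρ.int_mul hG) (fun m => ?_) ?_
  · refine ae_of_all _ fun x => ?_
    rw [norm_mul, Real.norm_eq_abs, Real.norm_of_nonneg (hρ.nonneg x)]
    exact mul_le_mul_of_nonneg_right (hb m x) (hρ.nonneg x)
  · exact ae_of_all _ fun x => (hl x).mul_const _

/-- LSI holds for exponents of class `LC` -/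
theorem LS_lc (hρ : Ex ρ) (hLS : LSn77.LS ρ K) (h : LC g) :
    Em ρ (fun x => g x * Real.exp (g x)) - Em ρ (fun x => Real.exp (g x)) *
      Real.log (Em ρ fun x => Real.exp (g x)) ≤
    K / 2 * Em ρ (fun x => (∑ k, pd k g x ^ 2) * Real.exp (g x)) := by
  set N : ℕ → ℝ := fun m => (m : ℝ) + 1 with hN
  have hNp : ∀ m, 0 < N m := fun m => by simp only [hN]; positivity
  have hNt : Tendsto N atTop atTop :=
    tendsto_atTop_add_const_right _ _ tendsto_natCast_atTop_atTop
  have hcb := fun m => trc_cb (hNp m) h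
  have hl := fun x => tendsto_trc g x
  have hex : ∀ m x, Real.exp (trc (N m) g x) ≤ Real.exp |g x| := fun m x =>
    Real.exp_le_exp.2 ((le_abs_self _).trans (trc_abs (hNp m) g x))
  have hpdl : ∀ k x, Tendsto (fun m => pd k (trc (N m) g) x) atTop (𝓝 (pd k g x)) := by
    intro k x
    simp only [trc_pd (hNp _) h]
    have h1 : Tendsto (fun m => g x / N m) atTop (𝓝 0) := tendsto_const_nhds.div_atTop hNt
    have h2 := ((h1.pow 2).const_add 1)
    have h3 : Tendsto (fun m => pd k g x / (1 + (g x / N m) ^ 2)) atTop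
        (𝓝 (pd k g x / (1 + (0 : ℝ) ^ 2))) :=
      (tendsto_const_nhds (x := pd k g x)).div h2 (by norm_num)
    simpa using h3
  have c1 : ∀ m, Continuous (trc (N m) g) := fun m => (hcb m).1.continuous
  have L1 : Tendsto (fun m => Em ρ (fun x => trc (N m) g x * Real.exp (trc (N m) g x))) atTop
      (𝓝 (Em ρ fun x => g x * Real.exp (g x))) := by
    refine tendsto_Em hρ (fun m => ((c1 m).mul (c1 m).rexp).measurable)
      (G := fun x => |g x| * Real.exp |g x|) ?_ (fun m x => ?_) fun x => ?_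
    · have : EG fun x => |g x| := by
        obtain ⟨hm, C, a, hC, ha, hb⟩ := h.eg
        exact ⟨h.cont.abs.measurable, C, a, hC, ha, fun x => by rw [abs_abs]; exact hb x⟩
      exact this.mul h.eg_exp_abs
    · rw [abs_mul, abs_of_pos (Real.exp_pos _)]
      exact mul_le_mul (trc_abs (hNp m) g x) (hex m x) (Real.exp_pos _).le (abs_nonneg _)
    · exact (hl x).mul ((Real.continuous_exp.tendsto _).comp (hl x))
  have L2 : Tendsto (fun m => Em ρ (fun x => Real.exp (trc (N m) g x))) atTop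
      (𝓝 (Em ρ fun x => Real.exp (g x))) := by
    refine tendsto_Em hρ (fun m => (c1 m).rexp.measurable) h.eg_exp_abs (fun m x => ?_) fun x => ?_
    · rw [abs_of_pos (Real.exp_pos _)]; exact hex m x
    · exact (Real.continuous_exp.tendsto _).comp (hl x)
  have L3 : Tendsto (fun m => Em ρ (fun x => (∑ k, pd k (trc (N m) g) x ^ 2) *
      Real.exp (trc (N m) g x))) atTop (𝓝 (Em ρ fun x => (∑ k, pd k g x ^ 2) * Real.exp (g x))) := by
    refine tendsto_Em hρ (fun m => ?_)
      (G := fun x => (∑ k, pd k g x ^ 2) * Real.exp |g x|) ?_ (fun m x => ?_) fun x => ?_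
    · exact ((continuous_finsetSum _ fun k _ =>
        ((LC.of_cb (hcb m)).pd_cont k).pow 2).mul (c1 m).rexp).measurable
    · exact (EG.sum _ fun k _ => EG.sq (h.eg_pd k)).mul h.eg_exp_abs
    · have h0 : 0 ≤ ∑ k, pd k (trc (N m) g) x ^ 2 := Finset.sum_nonneg fun k _ => sq_nonneg _
      rw [abs_mul, abs_of_pos (Real.exp_pos _), abs_of_nonneg h0]
      refine mul_le_mul (Finset.sum_le_sum fun k _ => ?_) (hex m x) (Real.exp_pos _).le
        (Finset.sum_nonneg fun k _ => sq_nonneg _)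
      rw [← sq_abs, ← sq_abs (pd k g x)]
      exact pow_le_pow_left₀ (abs_nonneg _) (trc_pd_le (hNp m) h k x) 2
    · exact (tendsto_finsetSum _ fun k _ => (hpdl k x).pow 2).mul
        ((Real.continuous_exp.tendsto _).comp (hl x))
  have hNpos : 0 < Em ρ fun x => Real.exp (g x) := Em_pos hρ h.eg_exp fun x => Real.exp_pos _
  have L4 := L1.sub (L2.mul (((Real.continuousAt_log hNpos.ne').tendsto).comp L2))
  have L5 := L3.const_mul (K / 2)
  exact le_of_tendsto_of_tendsto L4 L5 (Eventually.of_forall fun m => hLS _ (hcb m))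

end Crest.Agent.R201.St352
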