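import Crest.Agent.R201.St1_352

/-!
# R201 St2: two-sided first-order bounds of the potential, co-coercivity of `r = E[X|·]`,
linear Donsker–Varadhan for `r`, translation of densities  (helper352)

Doc 2103, block (M).
-/

set_option autoImplicit false
open MeasureTheory Matrix Filter Topology
open scoped ContDiff RealInnerProductSpace NNReal

namespace Crest.Agent.R201.St352

open Crest.Agent.R201 Crest.Agent.R144.Fi865 Crest.Agent.R201.An Crest.Agent.R201.DVQ402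
open Crest.Agent.R201.Noi402 (EG_exp_inner Lp_exp_inner Vp_conv)

variable {n : ℕ} {w ρ F G g : E n → ℝ} {s c R K κ : ℝ}

/-- posterior mean as a vector -/
noncomputable def rv (w : E n → ℝ) (s : ℝ) (y : E n) : E n :=
  WithLp.toLp 2 fun k => pE w s (fun x => x k) y

lemma rv_apply (w : E n → ℝ) (s : ℝ) (y : E n) (k : Fin n) :
    rv w s y k = pE w s (fun x => x k) y := rfl

lemma inner_sum (u v : E n) : ⟪u, v⟫ = ∑ k, u k * v k := by
  rw [PiLp.inner_apply]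
  exact Finset.sum_congr rfl fun k _ => by simp [mul_comm]

lemma EG_inner (t : E n) : EG fun x : E n => ⟪t, x⟫ := by
  have e : (fun x : E n => ⟪t, x⟫) = fun x => ∑ k, t k * x k := funext fun x => inner_sum t x
  rw [e]
  exact EG.sum _ fun k _ => (EG.coord k).smul _

lemma pE_inner (hw : Ex w) (hs : 0 < s) (t y : E n) :
    pE w s (fun x => ⟪t, x⟫) y = ⟪t, rv w s y⟫ := by
  have e : (fun x : E n => ⟪t, x⟫) = fun x => ∑ k, t k * x k := funext fun x => inner_sum t x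
  rw [e, pE_sum _ hw hs fun k _ => (EG.coord k).smul _, inner_sum]
  exact Finset.sum_congr rfl fun k _ => by rw [pE_smul]; rfl

/-- Jensen for the posterior -/
lemma pE_exp_ge (hw : Ex w) (hs : 0 < s) (t y : E n) :
    Real.exp ⟪t, rv w s y⟫ ≤ pE w s (fun x => Real.exp ⟪t, x⟫) y := by
  set b := ⟪t, rv w s y⟫ with hb
  have h1 : ∀ x : E n, Real.exp b * (1 - b) + Real.exp b * ⟪t, x⟫ ≤ Real.exp ⟪t, x⟫ := by
    intro x
    have h2 := Real.add_one_le_exp (⟪t, x⟫ - b)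
    rw [Real.exp_sub, le_div_iff₀ (Real.exp_pos _)] at h2
    nlinarith
  have h3 := pE_mono hw hs ((EG.const (Real.exp b * (1 - b))).add ((EG_inner t).smul (Real.exp b)))
    (EG_exp_inner t) h1 y
  rw [pE_add hw hs (EG.const _) ((EG_inner t).smul _), pE_const hw hs, pE_smul, pE_inner hw hs,
    ← hb] at h3
  linarith

lemma sum_Vg (hs : 0 < s) (v y : E n) :
    ∑ k, v k * Vg w s k y = (⟪v, y⟫ - ⟪v, rv w s y⟫) / s := by
  rw [inner_sum, inner_sum, ← Finset.sum_sub_distrib, Finset.sum_div]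
  refine Finset.sum_congr rfl fun k _ => ?_
  rw [rv_apply]
  unfold Vg
  ring

/-- second-order upper bound of the potential -/
theorem Vp_upper (hw : Ex w) (hs : 0 < s) (y v : E n) :
    Vp w s (y + v) ≤ Vp w s y + ∑ k, v k * Vg w s k y + ‖v‖ ^ 2 / (2 * s) := by
  set t : E n := s⁻¹ • v with ht
  have ev : s • t = v := by rw [ht, smul_smul, mul_inv_cancel₀ hs.ne', one_smul]
  have p1 := Lp_one_pos hw hs y
  have h1 := pE_exp_ge hw hs t y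
  unfold pE at h1
  rw [Lp_exp_inner hs, ev, le_div_iff₀ p1] at h1
  have e1 : Lp w s (fun _ => 1) (y + v) = Real.exp (-Vp w s (y + v)) := (exp_neg_Vp hw hs _).symm
  have e2 : Lp w s (fun _ => 1) y = Real.exp (-Vp w s y) := (exp_neg_Vp hw hs _).symm
  rw [e1, e2, ← Real.exp_add, ← Real.exp_add, Real.exp_le_exp] at h1
  have e3 : ‖t‖ ^ 2 = ‖v‖ ^ 2 / s ^ 2 := by
    rw [ht, norm_smul, Real.norm_of_nonneg (inv_nonneg.2 hs.le)]
    field_simp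
  have e4 : ⟪t, y⟫ = ⟪v, y⟫ / s := by rw [ht, real_inner_smul_left]; ring
  have e5 : ⟪t, rv w s y⟫ = ⟪v, rv w s y⟫ / s := by rw [ht, real_inner_smul_left]; ring
  rw [e3, e4, e5] at h1
  rw [sum_Vg hs]
  have e6 : s * (‖v‖ ^ 2 / s ^ 2) / 2 = ‖v‖ ^ 2 / (2 * s) := by field_simp
  rw [e6] at h1
  have e7 : (⟪v, y⟫ - ⟪v, rv w s y⟫) / s = ⟪v, y⟫ / s - ⟪v, rv w s y⟫ / s := sub_div _ _ _
  rw [e7]
  linarith

/-- co-coercivity of the posterior mean -/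
theorem rv_coco (hw : Ex w) (hc : 0 ≤ c) (h : SLC c w) (hs : 0 < s) (y z : E n) :
    ‖rv w s y - rv w s z‖ ^ 2 ≤ ⟪rv w s y - rv w s z, y - z⟫ := by
  have key : ∀ y z : E n, Vp w s y - Vp w s z + ⟪rv w s z, y - z⟫ / s - (‖y‖ ^ 2 - ‖z‖ ^ 2) / (2 * s) ≤
      -(‖rv w s y - rv w s z‖ ^ 2 / (2 * s)) := by
    intro y z
    set d := rv w s y - rv w s z with hd
    -- convexity at y in direction -d, upper bound at z in direction y - d - z
    have h1 := Vp_conv hw hc h hs y (-d)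
    have h2 := Vp_upper hw hs z (y - d - z)
    rw [sum_Vg hs] at h1 h2
    have e0 : z + (y - d - z) = y + -d := by abel
    rw [e0] at h2
    have h3 := h1.trans h2
    -- expand
    have e1 : ‖y - d - z‖ ^ 2 = ‖y‖ ^ 2 + ‖d‖ ^ 2 + ‖z‖ ^ 2 - 2 * ⟪y, d⟫ - 2 * ⟪y, z⟫ + 2 * ⟪d, z⟫ := by
      rw [norm_sub_sq_real, norm_sub_sq_real, inner_sub_left]
      ring
    have e2 : ⟪y - d - z, z⟫ = ⟪y, z⟫ - ⟪d, z⟫ - ‖z‖ ^ 2 := by
      rw [inner_sub_left, inner_sub_left, real_inner_self_eq_norm_sq]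
    have e3 : ⟪-d, y⟫ = -⟪y, d⟫ := by rw [inner_neg_left, real_inner_comm]
    have e4 : ⟪-d, rv w s y⟫ = -(⟪d, rv w s z⟫ + ‖d‖ ^ 2) := by
      rw [inner_neg_left]
      have : rv w s y = rv w s z + d := by rw [hd]; abel
      rw [this, inner_add_right, real_inner_self_eq_norm_sq]
    have e5 : ⟪y - d - z, rv w s z⟫ = ⟪rv w s z, y - z⟫ - ⟪d, rv w s z⟫ := by
      rw [show y - d - z = (y - z) - d by abel, inner_sub_left, real_inner_comm]
    rw [e1, e2, e3, e4, e5] at h3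
    have hs' : s ≠ 0 := hs.ne'
    have e6 : ∀ a b : ℝ, a / s = 2 * a / (2 * s) := fun a _ => by field_simp
    have h4 : (Vp w s y - Vp w s z) * (2 * s) + 2 * ⟪rv w s z, y - z⟫ - (‖y‖ ^ 2 - ‖z‖ ^ 2) ≤
        -‖d‖ ^ 2 := by
      have h5 := mul_le_mul_of_nonneg_right h3 (by positivity : 0 ≤ 2 * s)
      have a1 : (Vp w s y + (-⟪y, d⟫ - -(⟪d, rv w s z⟫ + ‖d‖ ^ 2)) / s) * (2 * s) =
          Vp w s y * (2 * s) + 2 * (-⟪y, d⟫ + (⟪d, rv w s z⟫ + ‖d‖ ^ 2)) := by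
        field_simp
        ring
      have a2 : (Vp w s z + (⟪y, z⟫ - ⟪d, z⟫ - ‖z‖ ^ 2 - (⟪rv w s z, y - z⟫ - ⟪d, rv w s z⟫)) / s +
          (‖y‖ ^ 2 + ‖d‖ ^ 2 + ‖z‖ ^ 2 - 2 * ⟪y, d⟫ - 2 * ⟪y, z⟫ + 2 * ⟪d, z⟫) / (2 * s)) * (2 * s) =
          Vp w s z * (2 * s) + 2 * (⟪y, z⟫ - ⟪d, z⟫ - ‖z‖ ^ 2 - (⟪rv w s z, y - z⟫ - ⟪d, rv w s z⟫)) +
          (‖y‖ ^ 2 + ‖d‖ ^ 2 + ‖z‖ ^ 2 - 2 * ⟪y, d⟫ - 2 * ⟪y, z⟫ + 2 * ⟪d, z⟫) := by
        field_simp
      rw [a1, a2] at h5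
      linarith
    have h6 : Vp w s y - Vp w s z + ⟪rv w s z, y - z⟫ / s - (‖y‖ ^ 2 - ‖z‖ ^ 2) / (2 * s) =
        ((Vp w s y - Vp w s z) * (2 * s) + 2 * ⟪rv w s z, y - z⟫ - (‖y‖ ^ 2 - ‖z‖ ^ 2)) / (2 * s) := by
      field_simp
    rw [h6, ← neg_div]
    exact div_le_div_of_nonneg_right h4 (by positivity)
  have k1 := key y z
  have k2 := key z y
  have e1 : ‖rv w s z - rv w s y‖ = ‖rv w s y - rv w s z‖ := norm_sub_rev _ _
  have e2 : ⟪rv w s y, z - y⟫ = -⟪rv w s y, y - z⟫ := by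
    rw [← neg_sub y z, inner_neg_right]
  rw [e1, e2] at k2
  have e3 : (‖z‖ ^ 2 - ‖y‖ ^ 2) / (2 * s) = -((‖y‖ ^ 2 - ‖z‖ ^ 2) / (2 * s)) := by ring
  rw [e3] at k2
  rw [inner_sub_left]
  have k3 : ‖rv w s y - rv w s z‖ ^ 2 / (2 * s) * 2 ≤
      (⟪rv w s y, y - z⟫ - ⟪rv w s z, y - z⟫) / s := by
    have : (⟪rv w s y, y - z⟫ - ⟪rv w s z, y - z⟫) / s =
      ⟪rv w s y, y - z⟫ / s - ⟪rv w s z, y - z⟫ / s := sub_div _ _ _
    rw [this]
    have e4 : -⟪rv w s y, y - z⟫ / s = -(⟪rv w s y, y - z⟫ / s) := neg_div _ _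
    rw [e4] at k2
    linarith
  have e5 : ‖rv w s y - rv w s z‖ ^ 2 / (2 * s) * 2 = ‖rv w s y - rv w s z‖ ^ 2 / s := by
    field_simp
  rw [e5, div_le_div_iff_of_pos_right hs] at k3
  exact k3

end Crest.Agent.R201.St352
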