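import Crest.Agent.R201.St2_352

/-!
# R201 St3: linear DV for `r`, translation of densities, **mean-score lemma** (M) of doc 2103
(helper352)
-/

set_option autoImplicit false
open MeasureTheory Matrix Filter Topology
open scoped ContDiff RealInnerProductSpace NNReal

namespace Crest.Agent.R201.St352

open Crest.Agent.R201 Crest.Agent.R144.Fi865 Crest.Agent.R201.An Crest.Agent.R201.DVQ402
open Crest.Agent.R201.Noi402 (EG_exp_inner Lp_exp_inner Vp_conv)

variable {n : ℕ} {w ρ F G g g₁ g₂ : E n → ℝ} {s c R K κ : ℝ}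

/-! ### class `LC` -/

lemma LC.add (h₁ : LC g₁) (h₂ : LC g₂) : LC fun x => g₁ x + g₂ x := by
  obtain ⟨B₁, b₁, hB₁⟩ := h₁.bd
  obtain ⟨B₂, b₂, hB₂⟩ := h₂.bd
  refine ⟨h₁.C1.add h₂.C1, B₁ + B₂, by positivity, fun k x => ?_⟩
  have e : pd k (fun x => g₁ x + g₂ x) x = pd k g₁ x + pd k g₂ x := by
    unfold pd
    rw [fderiv_fun_add (h₁.diff x) (h₂.diff x)]
    rfl
  rw [e]
  exact (abs_add_le _ _).trans (add_le_add (hB₁ k x) (hB₂ k x))

lemma pd_shift (k : Fin n) (g : E n → ℝ) (a x : E n) :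
    pd k (fun y => g (y + a)) x = pd k g (x + a) := by
  unfold pd
  rw [fderiv_comp_add_right]

lemma LC.shift (h : LC g) (a : E n) : LC fun x => g (x + a) := by
  obtain ⟨B, b, hB⟩ := h.bd
  refine ⟨h.C1.comp (contDiff_id.add contDiff_const), B, b, fun k x => ?_⟩
  rw [pd_shift]
  exact hB k _

lemma rv_coord_le (hw : Wt c R w) (hs : 0 < s) (k : Fin n) (y : E n) : |rv w s y k| ≤ R := by
  rw [rv_apply]
  refine pE_bdd hw hs (EG.coord k) (fun x hx => ?_) y
  refine le_trans ?_ hx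
  have := PiLp.norm_apply_le x k
  rwa [Real.norm_eq_abs] at this

lemma R_nonneg (hw : Wt c R w) : 0 ≤ R := by
  by_contra h
  push Not at h
  have h1 : ∀ x, w x = 0 := fun x => by
    by_contra h2
    have := hw.supp x h2
    linarith [norm_nonneg x]
  have h2 := hw.pos
  simp [h1] at h2

lemma Vg_eq (w : E n → ℝ) (s : ℝ) (k : Fin n) (y : E n) :
    Vg w s k y = (y k - rv w s y k) / s := rfl

/-- increments of the potential are Lipschitz -/
lemma lc_dV (hw : Wt c R w) (hs : 0 < s) (a : E n) :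
    LC (fun y => Vp w s (y + a) - Vp w s y) ∧ ∀ k y,
      pd k (fun y => Vp w s (y + a) - Vp w s y) y = Vg w s k (y + a) - Vg w s k y := by
  have hV := Vp_contDiff hw.ex hs
  have hVd : Differentiable ℝ (Vp w s) := hV.differentiable (by simp)
  have hVs : Differentiable ℝ fun y => Vp w s (y + a) :=
    hVd.comp (differentiable_id.add (differentiable_const a))
  have e : ∀ k y, pd k (fun y => Vp w s (y + a) - Vp w s y) y =
      Vg w s k (y + a) - Vg w s k y := by
    intro k y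
    have e1 : pd k (fun y => Vp w s (y + a) - Vp w s y) y =
        pd k (fun y => Vp w s (y + a)) y - pd k (Vp w s) y := by
      unfold pd
      rw [fderiv_fun_sub (hVs y) (hVd y)]
      rfl
    rw [e1, pd_shift, pd_Vp hw.ex hs, pd_Vp hw.ex hs]
  refine ⟨⟨?_, (‖a‖ + 2 * R) / s, ?_, fun k y => ?_⟩, e⟩
  · exact ((hV.comp (contDiff_id.add contDiff_const)).sub hV).of_le (by exact_mod_cast le_top)
  · have := R_nonneg hw
    positivity
  · rw [e, Vg_eq, Vg_eq, ← sub_div, abs_div, abs_of_pos hs]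
    refine div_le_div_of_nonneg_right ?_ hs.le
    have e2 : (y + a) k - rv w s (y + a) k - (y k - rv w s y k) =
        a k - rv w s (y + a) k + rv w s y k := by
      simp only [PiLp.add_apply]; ring
    rw [e2]
    have h1 := rv_coord_le hw hs k (y + a)
    have h2 := rv_coord_le hw hs k y
    have h3 : |a k| ≤ ‖a‖ := by
      have := PiLp.norm_apply_le a k
      rwa [Real.norm_eq_abs] at this
    rw [abs_le] at h1 h2 h3 ⊢
    constructor <;> linarith

/-! ### exponential moments of `r(Y)` and the linear DV inequality -/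

lemma EG_rv_inner (hw : Wt c R w) (hs : 0 < s) (t : E n) :
    EG (fun y => ⟪t, rv w s y⟫) ∧ ∃ B : ℝ, ∀ y, |⟪t, rv w s y⟫| ≤ B := by
  have e : (fun y => ⟪t, rv w s y⟫) = fun y => ∑ k, t k * rv w s y k :=
    funext fun y => inner_sum t _
  constructor
  · rw [e]
    exact EG.sum _ fun k _ => (EG.pE hw hs (EG.coord k)).smul _
  · refine ⟨∑ k, |t k| * R, fun y => ?_⟩
    rw [inner_sum]
    refine (Finset.abs_sum_le_sum_abs _ _).trans (Finset.sum_le_sum fun k _ => ?_)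
    rw [abs_mul]
    exact mul_le_mul_of_nonneg_left (rv_coord_le hw hs k y) (abs_nonneg _)

lemma EG_exp_rv (hw : Wt c R w) (hs : 0 < s) (t : E n) :
    EG fun y => Real.exp ⟪t, rv w s y⟫ := by
  obtain ⟨h1, B, hB⟩ := EG_rv_inner hw hs t
  refine EG.of_bdd (Real.measurable_exp.comp h1.1) (C := Real.exp B) fun y => ?_
  rw [abs_of_pos (Real.exp_pos _)]
  exact Real.exp_le_exp.2 ((le_abs_self _).trans (hB y))

theorem Em_exp_rv (hw : Wt c R w) (hs : 0 < s) (hSG : SG κ (nm w)) (t : E n) :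
    Em (Lp w s fun _ => 1) (fun y => Real.exp ⟪t, rv w s y⟫) ≤ Real.exp (κ * ‖t‖ ^ 2) := by
  have hρ := hw.ex.noisy hs
  refine (Em_mono hρ (EG_exp_rv hw hs t) (EG.pE hw hs (EG_exp_inner t))
    fun y => pE_exp_ge hw.ex hs t y).trans ?_
  rw [Em_pE hw.ex hs (EG_exp_inner t), ← int_nm hw.ex]
  exact (hSG t).2

/-- linear Donsker–Varadhan for `r(Y)` -/
theorem dv_rv (hw : Wt c R w) (hs : 0 < s) (hSG : SG κ (nm w)) (h : LC g) (t : E n) :
    Em (Lp w s fun _ => 1) (fun y => ⟪t, rv w s y⟫ * Real.exp (g y)) ≤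
      Em (Lp w s fun _ => 1) (fun y => g y * Real.exp (g y)) -
        Em (Lp w s fun _ => 1) (fun y => Real.exp (g y)) *
          Real.log (Em (Lp w s fun _ => 1) fun y => Real.exp (g y)) +
        κ * ‖t‖ ^ 2 * Em (Lp w s fun _ => 1) (fun y => Real.exp (g y)) := by
  have hρ := hw.ex.noisy hs
  set p := Lp w s fun _ => 1 with hp
  set N := Em p fun y => Real.exp (g y) with hN
  have hNpos : 0 < N := Em_pos hρ h.eg_exp fun x => Real.exp_pos _
  have hi := (EG_rv_inner hw hs t).1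
  have young' : ∀ y, (⟪t, rv w s y⟫ + (Real.log N - κ * ‖t‖ ^ 2)) * Real.exp (g y) ≤
      (g y * Real.exp (g y) - Real.exp (g y)) +
        (Real.exp (-(κ * ‖t‖ ^ 2)) * N) * Real.exp ⟪t, rv w s y⟫ := by
    intro y
    refine (young (⟪t, rv w s y⟫ + (Real.log N - κ * ‖t‖ ^ 2)) (Real.exp_pos (g y)).le).trans
      (le_of_eq ?_)
    rw [Real.log_exp, Real.exp_add, Real.exp_sub, Real.exp_log hNpos, Real.exp_neg]
    ring
  have key := Em_mono hρ ((hi.add (EG.const _)).mul h.eg_exp)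
    (((h.eg.mul h.eg_exp).sub h.eg_exp).add ((EG_exp_rv hw hs t).smul _)) young'
  have e1 : (fun y => (⟪t, rv w s y⟫ + (Real.log N - κ * ‖t‖ ^ 2)) * Real.exp (g y)) =
      fun y => ⟪t, rv w s y⟫ * Real.exp (g y) +
        (Real.log N - κ * ‖t‖ ^ 2) * Real.exp (g y) := by
    funext y; ring
  rw [e1, Em_add hρ (hi.mul h.eg_exp) (h.eg_exp.smul _), Em_smul,
    Em_add hρ ((h.eg.mul h.eg_exp).sub h.eg_exp) ((EG_exp_rv hw hs t).smul _),
    Em_sub hρ (h.eg.mul h.eg_exp) h.eg_exp, Em_smul, ← hN] at key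
  have h1 := Em_exp_rv hw hs hSG t
  have h2 : Real.exp (-(κ * ‖t‖ ^ 2)) * N * Em p (fun y => Real.exp ⟪t, rv w s y⟫) ≤ N := by
    calc Real.exp (-(κ * ‖t‖ ^ 2)) * N * Em p (fun y => Real.exp ⟪t, rv w s y⟫)
        ≤ Real.exp (-(κ * ‖t‖ ^ 2)) * N * Real.exp (κ * ‖t‖ ^ 2) :=
          mul_le_mul_of_nonneg_left h1 (by positivity)
      _ = N * (Real.exp (-(κ * ‖t‖ ^ 2)) * Real.exp (κ * ‖t‖ ^ 2)) := by ring
      _ = N := by rw [← Real.exp_add]; simp
  linarith

/-! ### translation of a density -/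

/-- exponent of the translate of `e^g p` by `-a` -/
noncomputable def trl (w : E n → ℝ) (s : ℝ) (a : E n) (g : E n → ℝ) (y : E n) : ℝ :=
  g (y + a) + -(Vp w s (y + a) - Vp w s y)

lemma LC.neg (h : LC g) : LC fun x => -g x := by
  obtain ⟨B, b, hB⟩ := h.bd
  refine ⟨h.C1.neg, B, b, fun k x => ?_⟩
  have e : pd k (fun x => -g x) x = -pd k g x := by
    unfold pd
    rw [fderiv_fun_neg]
    rfl
  rw [e, abs_neg]
  exact hB k x

lemma lc_trl (hw : Wt c R w) (hs : 0 < s) (a : E n) (h : LC g) : LC (trl w s a g) :=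
  (h.shift a).add (lc_dV hw hs a).1.neg

lemma pd_trl (hw : Wt c R w) (hs : 0 < s) (a : E n) (h : LC g) (k : Fin n) (y : E n) :
    pd k (trl w s a g) y = pd k g (y + a) - (Vg w s k (y + a) - Vg w s k y) := by
  have h1 := (h.shift a).diff y
  have h2 := (lc_dV hw hs a).1.diff y
  have e : pd k (trl w s a g) y = pd k (fun y => g (y + a)) y -
      pd k (fun y => Vp w s (y + a) - Vp w s y) y := by
    unfold pd
    have h3 : DifferentiableAt ℝ (fun y => -(Vp w s (y + a) - Vp w s y)) y := h2.neg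
    have : trl w s a g = fun y => g (y + a) + -(Vp w s (y + a) - Vp w s y) := rfl
    rw [this, fderiv_fun_add h1 h3, fderiv_fun_neg, ← sub_eq_add_neg]
    rfl
  rw [e, pd_shift, (lc_dV hw hs a).2]

lemma Em_trl (hw : Wt c R w) (hs : 0 < s) (a : E n) (g Φ : E n → ℝ) :
    Em (Lp w s fun _ => 1) (fun y => Φ y * Real.exp (trl w s a g y)) =
      Em (Lp w s fun _ => 1) (fun y => Φ (y - a) * Real.exp (g y)) := by
  unfold Em
  congr 1
  have h1 := integral_add_right_eq_self (μ := (volume : Measure (E n)))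
    (fun y => Φ (y - a) * Real.exp (g y) * Lp w s (fun _ => 1) y) a
  rw [← h1]
  refine integral_congr_ae (ae_of_all _ fun y => ?_)
  simp only [add_sub_cancel_right]
  rw [mul_assoc, mul_assoc]
  congr 1
  rw [← exp_neg_Vp hw.ex hs, ← exp_neg_Vp hw.ex hs, ← Real.exp_add, ← Real.exp_add]
  unfold trl
  congr 1
  ring

/-! ### the mean-score lemma -/

/-- entropy functional `Em ρ (g e^g) - N log N` -/
noncomputable def AA (ρ g : E n → ℝ) : ℝ :=
  Em ρ (fun x => g x * Real.exp (g x)) - Em ρ (fun x => Real.exp (g x)) *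
    Real.log (Em ρ fun x => Real.exp (g x))

/-- Fisher functional -/
noncomputable def FF (ρ g : E n → ℝ) : ℝ :=
  Em ρ (fun x => (∑ k, pd k g x ^ 2) * Real.exp (g x))

/-- mean score (unnormalised) -/
noncomputable def MM (ρ g : E n → ℝ) (k : Fin n) : ℝ :=
  Em ρ (fun x => pd k g x * Real.exp (g x))

/-- mass -/
noncomputable def NZ (ρ g : E n → ℝ) : ℝ := Em ρ fun x => Real.exp (g x)

lemma NZ_pos (hρ : Ex ρ) (h : LC g) : 0 < NZ ρ g := Em_pos hρ h.eg_exp fun x => Real.exp_pos _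

lemma AA_nonneg (hw : Wt c R w) (hs : 0 < s) (hSG : SG κ (nm w)) (h : LC g) :
    0 ≤ AA (Lp w s fun _ => 1) g := by
  have h1 := dv_rv hw hs hSG h 0
  simp only [inner_zero_left, zero_mul, norm_zero] at h1
  have h2 : Em (Lp w s fun _ => 1) (fun _ => (0 : ℝ)) = 0 := Em_const (hw.ex.noisy hs) 0
  rw [h2] at h1
  unfold AA
  simpa using h1

lemma lc_exp_diff (h : LC g) : Differentiable ℝ fun x => Real.exp (g x) :=
  fun x => (h.diff x).exp

lemma pd_exp (h : LC g) (k : Fin n) (x : E n) :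
    pd k (fun x => Real.exp (g x)) x = pd k g x * Real.exp (g x) := by
  unfold pd
  rw [((h.diff x).hasFDerivAt.exp).fderiv]
  simp [mul_comm]

/-- ibp : `E_q V' = E_q w` -/
lemma Em_Vg (hw : Wt c R w) (hs : 0 < s) (h : LC g) (k : Fin n) :
    Em (Lp w s fun _ => 1) (fun y => Vg w s k y * Real.exp (g y)) = MM (Lp w s fun _ => 1) g k := by
  have e : pd k (fun x => Real.exp (g x)) = fun x => pd k g x * Real.exp (g x) :=
    funext fun x => pd_exp h k x
  rw [ibp_EG hw hs k (lc_exp_diff h) h.eg_exp (by rw [e]; exact (h.eg_pd k).mul h.eg_exp), e]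
  rfl

/-- final arithmetic of the mean-score lemma -/
lemma ms_arith {A Fi X T Bq e κ s K : ℝ} (hA : 0 ≤ A) (hX : 0 ≤ X) (hs : 0 < s)
    (hs1 : s ≤ 1 / 16) (he : 0 < e) (he1 : e ≤ 1 / 8) (hκ : κ ≤ e ^ 3 * s ^ 2 / 128)
    (hK : 1 ≤ K) (hK2 : K ≤ 2) (hT1 : -(s * X) ≤ T)
    (hT2 : T ≤ 0) (hls : A + T ≤ K / 2 * ((1 + e) * (Fi - X) + (1 + 1 / e) * Bq))
    (hB : Bq ≤ e ^ 2 / 4 * (2 * A + T) + 8 * κ * X / (s ^ 2 * e ^ 2))
    (hls' : A ≤ K / 2 * Fi) :
    K * X ≤ 3 * (K / 2 * Fi - A) + 3 * (2 * e) * A := by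
  set D := K / 2 * Fi - A with hD
  have hD0 : 0 ≤ D := by linarith
  -- bound of the B term
  have h1 : 8 * κ * X / (s ^ 2 * e ^ 2) ≤ e / 16 * X := by
    rw [div_le_iff₀ (by positivity)]
    have : 8 * κ * X ≤ 8 * (e ^ 3 * s ^ 2 / 128) * X := by gcongr
    nlinarith [this]
  have h2 : Bq ≤ e ^ 2 / 2 * A + e / 16 * X := by
    have : e ^ 2 / 4 * (2 * A + T) ≤ e ^ 2 / 4 * (2 * A) :=
      mul_le_mul_of_nonneg_left (by linarith) (by positivity)
    linarith
  have h3 : (1 + 1 / e) ≤ 9 / 8 / e := by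
    rw [le_div_iff₀ he, add_mul, one_mul, one_div, inv_mul_cancel₀ he.ne']
    linarith
  have hR : 0 ≤ e ^ 2 / 2 * A + e / 16 * X := by positivity
  have h4 : (1 + 1 / e) * Bq ≤ 9 / 8 / e * (e ^ 2 / 2 * A + e / 16 * X) := by
    have h5 : (1 + 1 / e) * Bq ≤ (1 + 1 / e) * (e ^ 2 / 2 * A + e / 16 * X) :=
      mul_le_mul_of_nonneg_left h2 (by positivity)
    exact h5.trans (mul_le_mul_of_nonneg_right h3 hR)
  have h5 : 9 / 8 / e * (e ^ 2 / 2 * A + e / 16 * X) = 9 / 16 * e * A + 9 / 128 * X := by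
    field_simp
    ring
  rw [h5] at h4
  have h6 : A + T ≤ K / 2 * ((1 + e) * (Fi - X) + (9 / 16 * e * A + 9 / 128 * X)) :=
    hls.trans (mul_le_mul_of_nonneg_left (by linarith) (by linarith))
  have h7 : K / 2 * ((1 + e) * (Fi - X) + (9 / 16 * e * A + 9 / 128 * X)) =
      (1 + e) * (D + A) - K / 2 * (1 + e) * X + K / 2 * (9 / 16 * e * A) + K / 2 * (9 / 128 * X) := by
    rw [hD]; ring
  rw [h7] at h6
  have h8 : K / 2 * (9 / 16 * e * A) ≤ 9 / 16 * e * A := by
    have : 0 ≤ 9 / 16 * e * A := by positivity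
    nlinarith
  have h9 : s * X ≤ K / 16 * X := mul_le_mul_of_nonneg_right (by linarith) hX
  have h10 : 0 ≤ K * e * X := by positivity
  have h11 : 0 ≤ K * X := by positivity
  have h12 : 0 ≤ e * A := by positivity
  have h13 : 0 ≤ e * D := by positivity
  have h14 : e * D ≤ 1 / 8 * D := mul_le_mul_of_nonneg_right he1 hD0
  nlinarith

end Crest.Agent.R201.St352
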