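import Crest.Agent.R201.St3_352

/-!
# R201 St4: **mean-score lemma** (M) of doc 2103 (helper352)
-/

set_option autoImplicit false
open MeasureTheory Matrix Filter Topology
open scoped ContDiff RealInnerProductSpace NNReal

namespace Crest.Agent.R201.St352

open Crest.Agent.R201 Crest.Agent.R144.Fi865 Crest.Agent.R201.An Crest.Agent.R201.DVQ402
open Crest.Agent.R201.Noi402 (EG_exp_inner Lp_exp_inner Vp_conv)

variable {n : ℕ} {w ρ F G g g₁ g₂ : E n → ℝ} {s c R K κ e : ℝ}

lemma EG_rv_shift (hw : Wt c R w) (hs : 0 < s) (a : E n) (k : Fin n) :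
    EG fun y => rv w s (y + a) k := by
  refine EG.of_bdd ?_ fun y => rv_coord_le hw hs k (y + a)
  exact ((contDiff_pE hw.ex hs (EG.coord k)).continuous.comp
    (continuous_id.add continuous_const)).measurable

/-- **mean-score lemma** -/
theorem mean_score (hw : Wt c R w) (hc : 0 ≤ c) (hs : 0 < s) (hs1 : s ≤ 1 / 16)
    (he : 0 < e) (he1 : e ≤ 1 / 8) (hκ : κ ≤ e ^ 3 * s ^ 2 / 128) (hSG : SG κ (nm w))
    (hK : 1 ≤ K) (hK2 : K ≤ 2) (hLS : LSn77.LS (Lp w s fun _ => 1) K) (h : LC g) :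
    K * ((∑ k, MM (Lp w s fun _ => 1) g k ^ 2) / NZ (Lp w s fun _ => 1) g) ≤
      3 * (K / 2 * FF (Lp w s fun _ => 1) g - AA (Lp w s fun _ => 1) g) +
        3 * (2 * e) * AA (Lp w s fun _ => 1) g := by
  have hρ := hw.ex.noisy hs
  set p : E n → ℝ := Lp w s fun _ => 1 with hp
  set N := NZ p g with hN
  have hNpos : 0 < N := NZ_pos hρ h
  set M := MM p g with hM
  set m : E n := WithLp.toLp 2 fun k => M k / N with hm
  have mk : ∀ k, m k = M k / N := fun k => rfl
  set a : E n := s • m with ha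
  have ak : ∀ k, a k = s * m k := fun k => by rw [ha]; rfl
  set X := (∑ k, M k ^ 2) / N with hX
  have hX0 : 0 ≤ X := div_nonneg (Finset.sum_nonneg fun k _ => sq_nonneg _) hNpos.le
  have X1 : ∑ k, m k * M k = X := by
    rw [hX, Finset.sum_div]
    exact Finset.sum_congr rfl fun k _ => by rw [mk]; ring
  have X2 : (∑ k, m k ^ 2) * N = X := by
    rw [hX, Finset.sum_div, Finset.sum_mul]
    exact Finset.sum_congr rfl fun k _ => by rw [mk]; field_simp
  have nm2 : ‖m‖ ^ 2 = ∑ k, m k ^ 2 := by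
    rw [EuclideanSpace.norm_sq_eq]
    exact Finset.sum_congr rfl fun k _ => by rw [Real.norm_eq_abs, sq_abs]
  have na2 : ‖a‖ ^ 2 = s ^ 2 * ∑ k, m k ^ 2 := by
    rw [ha, norm_smul, Real.norm_of_nonneg hs.le, mul_pow, nm2]
  -- the increment of the potential
  set L : E n → ℝ := fun y => Vp w s (y + -a) - Vp w s y with hL
  obtain ⟨hLlc, -⟩ := lc_dV hw hs (-a)
  set T := Em p (fun y => L y * Real.exp (g y)) with hT
  have hA0 : 0 ≤ AA p g := AA_nonneg hw hs hSG h
  -- the translate
  have g'lc := lc_trl hw hs a h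
  have g'N : NZ p (trl w s a g) = N := by
    have := Em_trl hw hs a g (fun _ => 1)
    simp only [one_mul] at this
    exact this
  have g'A : AA p (trl w s a g) = AA p g + T := by
    have h1 := Em_trl hw hs a g (trl w s a g)
    have h2 : (fun y => trl w s a g (y - a) * Real.exp (g y)) =
        fun y => g y * Real.exp (g y) + L y * Real.exp (g y) := by
      funext y
      unfold trl
      rw [sub_add_cancel, hL]
      simp only [← sub_eq_add_neg]
      ring
    rw [h2, Em_add hρ (h.eg.mul h.eg_exp) (hLlc.eg.mul h.eg_exp)] at h1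
    unfold AA
    have h3 : (Em p fun x => Real.exp (trl w s a g x)) = Em p fun x => Real.exp (g x) := g'N
    rw [h1, h3]
    ring
  set b : Fin n → E n → ℝ := fun k y => (rv w s y k - rv w s (y + -a) k) / s with hb
  have bE : ∀ k, EG (b k) := fun k => by
    have e0 : b k = fun y => s⁻¹ * (rv w s y k - rv w s (y + -a) k) := by
      funext y; simp only [hb]; ring
    rw [e0]
    have e1 : EG fun y => rv w s y k := EG.pE hw hs (EG.coord k)
    exact (e1.sub (EG_rv_shift hw hs (-a) k)).smul _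
  have g'F : FF p (trl w s a g) = Em p (fun y => (∑ k, (pd k g y - m k + b k y) ^ 2) *
      Real.exp (g y)) := by
    have h1 := Em_trl hw hs a g (fun y => ∑ k, pd k (trl w s a g) y ^ 2)
    have h2 : (fun y => (∑ k, pd k (trl w s a g) (y - a) ^ 2) * Real.exp (g y)) =
        fun y => (∑ k, (pd k g y - m k + b k y) ^ 2) * Real.exp (g y) := by
      funext y
      congr 1
      refine Finset.sum_congr rfl fun k _ => ?_
      congr 1
      rw [pd_trl hw hs a h, sub_add_cancel, Vg_eq, Vg_eq]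
      simp only [hb, ← sub_eq_add_neg, PiLp.sub_apply]
      rw [ak]
      field_simp
      ring
    rw [h2] at h1
    exact h1
  -- expansion of the Fisher term
  set Bq := Em p (fun y => (∑ k, b k y ^ 2) * Real.exp (g y)) with hBq
  have eE : ∀ k, EG fun y => pd k g y - m k := fun k => (h.eg_pd k).sub (EG.const _)
  have F1 : Em p (fun y => (∑ k, (pd k g y - m k) ^ 2) * Real.exp (g y)) = FF p g - X := by
    have e1 : (fun y => (∑ k, (pd k g y - m k) ^ 2) * Real.exp (g y)) =
        fun y => ((∑ k, pd k g y ^ 2) * Real.exp (g y) -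
          ∑ k, (2 * m k) * (pd k g y * Real.exp (g y))) + (∑ k, m k ^ 2) * Real.exp (g y) := by
      funext y
      have : ∑ k, (pd k g y - m k) ^ 2 = (∑ k, pd k g y ^ 2) - (∑ k, (2 * m k) * pd k g y) +
          ∑ k, m k ^ 2 := by
        rw [← Finset.sum_sub_distrib, ← Finset.sum_add_distrib]
        exact Finset.sum_congr rfl fun k _ => by ring
      rw [this, add_mul, sub_mul, Finset.sum_mul (s := Finset.univ) (f := fun k => 2 * m k * pd k g y)]
      simp only [mul_assoc]
    have i1 : EG fun y => (∑ k, pd k g y ^ 2) * Real.exp (g y) :=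
      (EG.sum _ fun k _ => EG.sq (h.eg_pd k)).mul h.eg_exp
    have i2 : ∀ k, EG fun y => pd k g y * Real.exp (g y) := fun k => (h.eg_pd k).mul h.eg_exp
    rw [e1, Em_add hρ (i1.sub (EG.sum _ fun k _ => (i2 k).smul _)) (h.eg_exp.smul _),
      Em_sub hρ i1 (EG.sum _ fun k _ => (i2 k).smul _), Em_sum _ hρ fun k _ => (i2 k).smul _,
      Em_smul]
    simp only [Em_smul]
    have e2 : ∑ k, 2 * m k * Em p (fun x => pd k g x * Real.exp (g x)) = 2 * X := by
      rw [← X1, Finset.mul_sum]
      exact Finset.sum_congr rfl fun k _ => by rw [hM]; unfold MM; ring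
    have e3 : (∑ k, m k ^ 2) * Em p (fun x => Real.exp (g x)) = X := X2
    rw [e2, e3]
    unfold FF
    ring
  have bE2 : EG fun y => (∑ k, b k y ^ 2) * Real.exp (g y) :=
    (EG.sum _ fun k _ => EG.sq (bE k)).mul h.eg_exp
  have eE2 : EG fun y => (∑ k, (pd k g y - m k) ^ 2) * Real.exp (g y) :=
    (EG.sum _ fun k _ => EG.sq (eE k)).mul h.eg_exp
  have F2 : FF p (trl w s a g) ≤ (1 + e) * (FF p g - X) + (1 + 1 / e) * Bq := by
    rw [g'F, ← F1, hBq, ← Em_smul, ← Em_smul, ← Em_add hρ (eE2.smul _) (bE2.smul _)]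
    refine Em_mono hρ ((EG.sum _ fun k _ => EG.sq ((eE k).add (bE k))).mul h.eg_exp)
      ((eE2.smul _).add (bE2.smul _)) fun y => ?_
    have h1 : ∑ k, (pd k g y - m k + b k y) ^ 2 ≤
        (1 + e) * (∑ k, (pd k g y - m k) ^ 2) + (1 + 1 / e) * ∑ k, b k y ^ 2 := by
      rw [Finset.mul_sum, Finset.mul_sum, ← Finset.sum_add_distrib]
      refine Finset.sum_le_sum fun k _ => ?_
      set x := pd k g y - m k
      set z := b k y
      have h2 : 0 ≤ (e * x - z) ^ 2 / e := by positivity
      have h3 : (e * x - z) ^ 2 / e = e * x ^ 2 - 2 * x * z + 1 / e * z ^ 2 := by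
        field_simp
        ring
      rw [h3] at h2
      nlinarith
    calc (∑ k, (pd k g y - m k + b k y) ^ 2) * Real.exp (g y)
        ≤ ((1 + e) * (∑ k, (pd k g y - m k) ^ 2) + (1 + 1 / e) * ∑ k, b k y ^ 2) *
          Real.exp (g y) := mul_le_mul_of_nonneg_right h1 (Real.exp_pos _).le
      _ = _ := by ring
  -- the two-sided bound of T
  have sumM : Em p (fun y => (∑ k, (-a) k * Vg w s k y) * Real.exp (g y)) = -(s * X) := by
    have e1 : (fun y => (∑ k, (-a) k * Vg w s k y) * Real.exp (g y)) =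
        fun y => ∑ k, (-a) k * (Vg w s k y * Real.exp (g y)) := by
      funext y
      rw [Finset.sum_mul]
      exact Finset.sum_congr rfl fun k _ => by ring
    rw [e1, Em_sum _ hρ fun k _ => ((EG.Vg hw hs k).mul h.eg_exp).smul _]
    have hVg : ∀ k, Em p (fun y => Vg w s k y * Real.exp (g y)) = M k := fun k =>
      Em_Vg hw hs h k
    simp only [Em_smul, hVg]
    rw [← X1, Finset.mul_sum, ← Finset.sum_neg_distrib]
    refine Finset.sum_congr rfl fun k _ => ?_
    rw [PiLp.neg_apply, ak]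
    ring
  have VE : EG fun y => ∑ k, (-a) k * Vg w s k y :=
    EG.sum _ fun k _ => (EG.Vg hw hs k).smul _
  have hT1 : -(s * X) ≤ T := by
    rw [← sumM]
    refine Em_mono hρ (VE.mul h.eg_exp) (hLlc.eg.mul h.eg_exp) fun y => ?_
    refine mul_le_mul_of_nonneg_right ?_ (Real.exp_pos _).le
    have := Vp_conv hw.ex hc hw.slc hs y (-a)
    simp only [hL]
    linarith
  have hT2 : T ≤ 0 := by
    have h1 : T ≤ -(s * X) + ‖a‖ ^ 2 / (2 * s) * N := by
      rw [← sumM, hN]
      unfold NZ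
      rw [← Em_smul, ← Em_add hρ (VE.mul h.eg_exp) (h.eg_exp.smul _)]
      refine Em_mono hρ (hLlc.eg.mul h.eg_exp) ((VE.mul h.eg_exp).add (h.eg_exp.smul _))
        fun y => ?_
      have h2 := Vp_upper hw.ex hs y (-a)
      rw [norm_neg] at h2
      have h3 : L y ≤ ∑ k, (-a) k * Vg w s k y + ‖a‖ ^ 2 / (2 * s) := by
        simp only [hL]; linarith
      calc L y * Real.exp (g y) ≤ (∑ k, (-a) k * Vg w s k y + ‖a‖ ^ 2 / (2 * s)) *
            Real.exp (g y) := mul_le_mul_of_nonneg_right h3 (Real.exp_pos _).le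
        _ = _ := by ring
    have h2 : ‖a‖ ^ 2 / (2 * s) * N = s / 2 * X := by
      rw [na2, ← X2]
      field_simp
    rw [h2] at h1
    have : 0 ≤ s * X := by positivity
    linarith
  -- LSI for the translate and for g
  have hls : AA p g + T ≤ K / 2 * ((1 + e) * (FF p g - X) + (1 + 1 / e) * Bq) := by
    have h1 := LS_lc hρ hLS g'lc
    have h2 : AA p (trl w s a g) ≤ K / 2 * FF p (trl w s a g) := h1
    rw [g'A] at h2
    exact h2.trans (mul_le_mul_of_nonneg_left F2 (by linarith))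
  have hls' : AA p g ≤ K / 2 * FF p g := LS_lc hρ hLS h
  -- the B term
  have hB : Bq ≤ e ^ 2 / 4 * (2 * AA p g + T) + 8 * κ * X / (s ^ 2 * e ^ 2) := by
    set l : ℝ := 4 / (s * e ^ 2) with hl
    have hlp : 0 < l := by positivity
    have d1 := dv_rv hw hs hSG h (l • m)
    have d2 := dv_rv hw hs hSG g'lc (-(l • m))
    have e1 : (fun y => ⟪l • m, rv w s y⟫ * Real.exp (g y)) =
        fun y => l * (⟪m, rv w s y⟫ * Real.exp (g y)) := by
      funext y; rw [real_inner_smul_left]; ring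
    have e2 : (fun y => ⟪-(l • m), rv w s y⟫ * Real.exp (trl w s a g y)) =
        fun y => (-l) * (⟪m, rv w s y⟫ * Real.exp (trl w s a g y)) := by
      funext y; rw [inner_neg_left, real_inner_smul_left]; ring
    rw [e1, Em_smul] at d1
    rw [e2, Em_smul, Em_trl hw hs a g (fun y => ⟪m, rv w s y⟫)] at d2
    have n1 : ‖l • m‖ ^ 2 = l ^ 2 * ∑ k, m k ^ 2 := by
      rw [norm_smul, Real.norm_of_nonneg hlp.le, mul_pow, nm2]
    rw [n1] at d1
    rw [norm_neg, n1] at d2
    have d1' : l * Em p (fun y => ⟪m, rv w s y⟫ * Real.exp (g y)) ≤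
        AA p g + κ * l ^ 2 * X := by
      rw [← X2]
      refine d1.trans (le_of_eq ?_)
      unfold AA
      rw [hN]
      unfold NZ
      ring
    have d2' : -l * Em p (fun y => ⟪m, rv w s (y - a)⟫ * Real.exp (g y)) ≤
        AA p g + T + κ * l ^ 2 * X := by
      rw [← X2, ← g'A, ← g'N]
      refine d2.trans (le_of_eq ?_)
      unfold AA NZ
      ring
    have h1 : Bq ≤ s⁻¹ * (Em p (fun y => ⟪m, rv w s y⟫ * Real.exp (g y)) -
        Em p (fun y => ⟪m, rv w s (y - a)⟫ * Real.exp (g y))) := by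
      have i1 : EG fun y => ⟪m, rv w s y⟫ * Real.exp (g y) :=
        (EG_rv_inner hw hs m).1.mul h.eg_exp
      have i2 : EG fun y => ⟪m, rv w s (y - a)⟫ * Real.exp (g y) := by
        have : (fun y => ⟪m, rv w s (y - a)⟫ * Real.exp (g y)) =
            fun y => (∑ k, m k * rv w s (y + -a) k) * Real.exp (g y) := by
          funext y; rw [inner_sum]; simp only [← sub_eq_add_neg]
        rw [this]
        exact (EG.sum _ fun k _ => (EG_rv_shift hw hs (-a) k).smul _).mul h.eg_exp
      rw [← Em_sub hρ i1 i2, ← Em_smul, hBq]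
      refine Em_mono hρ bE2 ((i1.sub i2).smul _) fun y => ?_
      have h2 := rv_coco hw.ex hc hw.slc hs y (y + -a)
      have h3 : y - (y + -a) = a := by abel
      rw [h3] at h2
      have h4 : ∑ k, b k y ^ 2 = ‖rv w s y - rv w s (y + -a)‖ ^ 2 / s ^ 2 := by
        rw [EuclideanSpace.norm_sq_eq, Finset.sum_div]
        refine Finset.sum_congr rfl fun k _ => ?_
        rw [Real.norm_eq_abs, sq_abs, PiLp.sub_apply]
        simp only [hb]
        rw [div_pow]
      have h5 : ⟪rv w s y - rv w s (y + -a), a⟫ = s * (⟪m, rv w s y⟫ - ⟪m, rv w s (y - a)⟫) := by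
        rw [ha, real_inner_smul_right, inner_sub_left, real_inner_comm m, real_inner_comm m,
          ← sub_eq_add_neg]
      rw [h5] at h2
      have h6 : ∑ k, b k y ^ 2 ≤ s⁻¹ * (⟪m, rv w s y⟫ - ⟪m, rv w s (y - a)⟫) := by
        rw [h4, div_le_iff₀ (by positivity)]
        refine h2.trans (le_of_eq ?_)
        field_simp
      calc (∑ k, b k y ^ 2) * Real.exp (g y)
          ≤ s⁻¹ * (⟪m, rv w s y⟫ - ⟪m, rv w s (y - a)⟫) * Real.exp (g y) :=
            mul_le_mul_of_nonneg_right h6 (Real.exp_pos _).le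
        _ = _ := by ring
    set Q1 := Em p (fun y => ⟪m, rv w s y⟫ * Real.exp (g y))
    set Q2 := Em p (fun y => ⟪m, rv w s (y - a)⟫ * Real.exp (g y))
    have h2 : Q1 - Q2 ≤ l⁻¹ * (2 * AA p g + T + 2 * κ * l ^ 2 * X) := by
      have h3 : l * (Q1 - Q2) ≤ 2 * AA p g + T + 2 * κ * l ^ 2 * X := by linarith
      calc Q1 - Q2 = l⁻¹ * (l * (Q1 - Q2)) := by rw [← mul_assoc, inv_mul_cancel₀ hlp.ne', one_mul]
        _ ≤ _ := mul_le_mul_of_nonneg_left h3 (inv_nonneg.2 hlp.le)
    refine h1.trans ((mul_le_mul_of_nonneg_left h2 (inv_nonneg.2 hs.le)).trans (le_of_eq ?_))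
    rw [hl]
    field_simp
    ring
  exact ms_arith hA0 hX0 hs hs1 he he1 hκ hK hK2 hT1 hT2 hls hB hls'

end Crest.Agent.R201.St352
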