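import Crest.Agent.R201.St4_352

/-!
# R201 St5: averages `z ↦ E_ρ F(· + z)` and the swap of the two averages (helper352)
-/

set_option autoImplicit false
open MeasureTheory Matrix Filter Topology
open scoped ContDiff RealInnerProductSpace NNReal

namespace Crest.Agent.R201.St352

open Crest.Agent.R201 Crest.Agent.R144.Fi865 Crest.Agent.R201.An Crest.Agent.R201.DVQ402

variable {n : ℕ} {w ρ F G f g : E n → ℝ} {s t c R K κ e : ℝ}

/-- `z ↦ E_ρ F(· + z)` -/
noncomputable def Sh (ρ F : E n → ℝ) (z : E n) : ℝ := Em ρ fun y => F (y + z)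

lemma eg_shift {B : ℝ} (hF : Continuous F) (hB : ∀ x, |F x| ≤ B) (z : E n) :
    EG fun y => F (y + z) :=
  EG.of_bdd (hF.comp (continuous_id.add continuous_const)).measurable fun x => hB _

lemma Sh_bdd (hρ : Ex ρ) {B : ℝ} (hF : Continuous F) (hB : ∀ x, |F x| ≤ B) (z : E n) :
    |Sh ρ F z| ≤ B := by
  have hE := eg_shift hF hB z
  unfold Sh
  rw [abs_le]
  constructor
  · have := Em_mono hρ (EG.const (-B)) hE fun x => (abs_le.1 (hB _)).1
    rwa [Em_const hρ] at this
  · have := Em_mono hρ hE (EG.const B) fun x => (abs_le.1 (hB _)).2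
    rwa [Em_const hρ] at this

lemma Sh_cont (hρ : Ex ρ) {B : ℝ} (hF : Continuous F) (hB : ∀ x, |F x| ≤ B) :
    Continuous (Sh ρ F) := by
  unfold Sh Em
  refine Continuous.div_const ?_ _
  refine continuous_of_dominated (bound := fun y => B * ρ y) ?_ ?_ (hρ.integrable.const_mul B) ?_
  · exact fun x => ((hF.comp (continuous_id.add continuous_const)).measurable.mul
      hρ.meas).aestronglyMeasurable
  · intro x
    refine ae_of_all _ fun y => ?_
    rw [norm_mul, Real.norm_eq_abs, Real.norm_of_nonneg (hρ.nonneg y)]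
    exact mul_le_mul_of_nonneg_right (hB _) (hρ.nonneg y)
  · refine ae_of_all _ fun y => ?_
    exact (hF.comp (continuous_const.add continuous_id)).mul continuous_const

lemma Sh_eg (hρ : Ex ρ) {B : ℝ} (hF : Continuous F) (hB : ∀ x, |F x| ≤ B) : EG (Sh ρ F) :=
  EG.of_bdd (Sh_cont hρ hF hB).measurable (Sh_bdd hρ hF hB)

theorem Sh_CB (hρ : Ex ρ) (hf : CB f) :
    CB (Sh ρ f) ∧ ∀ k, pd k (Sh ρ f) = Sh ρ (pd k f) := by
  have hfE := CB.eg hf
  have lc := LC.of_cb hf
  obtain ⟨h1, B, hB⟩ := hf
  have hd : Differentiable ℝ f := h1.differentiable (by simp)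
  have hcd : Continuous (fderiv ℝ f) := h1.continuous_fderiv (by simp)
  set M := √(∑ _k : Fin n, B ^ 2) with hM0
  have hM : ∀ x, ‖fderiv ℝ f x‖ ≤ M := by
    intro x
    rw [hM0]
    apply Real.le_sqrt_of_sq_le
    rw [norm_fderiv_sq]
    refine Finset.sum_le_sum fun k _ => ?_
    rw [← sq_abs]
    exact pow_le_pow_left₀ (abs_nonneg _) ((hB x).2 k) 2
  have ig := hρ.integrable
  set J : E n → E n →L[ℝ] ℝ := fun x => ∫ z, ρ z • fderiv ℝ f (z + x) with hJ
  have mJ : ∀ x, AEStronglyMeasurable (fun z => ρ z • fderiv ℝ f (z + x)) volume := fun x =>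
    hρ.meas.aestronglyMeasurable.smul
      (hcd.comp (continuous_id.add continuous_const)).aestronglyMeasurable
  have bJ : ∀ x z, ‖ρ z • fderiv ℝ f (z + x)‖ ≤ ρ z * M := fun x z => by
    rw [norm_smul, Real.norm_of_nonneg (hρ.nonneg z)]
    exact mul_le_mul_of_nonneg_left (hM _) (hρ.nonneg z)
  have d1 : ∀ x, HasFDerivAt (fun x => ∫ z, f (z + x) * ρ z) (J x) x := by
    intro x
    refine hasFDerivAt_integral_of_dominated_of_fderiv_le (F := fun x z => f (z + x) * ρ z)
      (F' := fun x z => ρ z • fderiv ℝ f (z + x)) (bound := fun z => ρ z * M)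
      (s := Set.univ) Filter.univ_mem ?_ ?_ ?_ ?_ ?_ ?_
    · exact Eventually.of_forall fun x => ((h1.continuous.comp
        (continuous_id.add continuous_const)).measurable.mul hρ.meas).aestronglyMeasurable
    · exact hρ.int_mul (EG.of_bdd (h1.continuous.comp
        (continuous_id.add continuous_const)).measurable fun z => (hB (z + x)).1)
    · exact mJ x
    · exact ae_of_all _ fun z x _ => bJ x z
    · exact ig.mul_const M
    · refine ae_of_all _ fun z x _ => ?_
      have h2 : HasFDerivAt (fun x => f (z + x)) (fderiv ℝ f (z + x)) x := by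
        have h3 : HasFDerivAt (fun x : E n => z + x) (ContinuousLinearMap.id ℝ (E n)) x :=
          (hasFDerivAt_id x).const_add z
        have h4 := (hd (z + x)).hasFDerivAt.comp x h3
        rw [ContinuousLinearMap.comp_id] at h4
        exact h4
      exact h2.mul_const (ρ z)
  have e0 : Sh ρ f = fun x => (∫ z, f (z + x) * ρ z) / ∫ z : E n, ρ z := rfl
  have d2 : ∀ x, HasFDerivAt (Sh ρ f) ((∫ z : E n, ρ z)⁻¹ • J x) x := by
    intro x
    rw [e0]
    have := (d1 x).const_smul ((∫ z : E n, ρ z)⁻¹)
    refine this.congr_of_eventuallyEq (Eventually.of_forall fun y => ?_)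
    simp only [Pi.smul_apply, smul_eq_mul]
    rw [div_eq_inv_mul]
  have cJ : Continuous J := by
    refine continuous_of_dominated (bound := fun z => ρ z * M) mJ
      (fun x => ae_of_all _ fun z => bJ x z) (ig.mul_const M) ?_
    refine ae_of_all _ fun z => ?_
    have h3 : Continuous fun x : E n => fderiv ℝ f (z + x) :=
      hcd.comp (continuous_const.add continuous_id)
    exact h3.fun_const_smul (ρ z)
  have epd : ∀ k, pd k (Sh ρ f) = Sh ρ (pd k f) := by
    intro k
    funext x
    unfold pd
    rw [(d2 x).fderiv]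
    simp only [_root_.smul_apply, smul_eq_mul]
    unfold Sh Em
    rw [div_eq_inv_mul]
    congr 1
    have hint : Integrable fun z => ρ z • fderiv ℝ f (z + x) :=
      (ig.mul_const M).mono' (mJ x) (ae_of_all _ fun z => bJ x z)
    simp only [hJ]
    rw [ContinuousLinearMap.integral_apply hint]
    refine integral_congr_ae (ae_of_all _ fun z => ?_)
    simp only [_root_.smul_apply, smul_eq_mul]
    ring
  have hpc : ∀ k, Continuous (pd k f) := fun k => lc.pd_cont k
  refine ⟨⟨?_, B, fun x => ⟨Sh_bdd hρ h1.continuous (fun x => (hB x).1) x, fun k => ?_⟩⟩, epd⟩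
  · rw [contDiff_one_iff_fderiv]
    refine ⟨fun x => (d2 x).differentiableAt, ?_⟩
    have : fderiv ℝ (Sh ρ f) = fun x => (∫ z : E n, ρ z)⁻¹ • J x :=
      funext fun x => (d2 x).fderiv
    rw [this]
    exact cJ.fun_const_smul _
  · rw [epd k]
    exact Sh_bdd hρ (hpc k) (fun x => (hB x).2 k) x

/-- swap of the two averages -/
theorem swap (hw : Ex w) (ht : 0 < t) {B : ℝ} (hF : Continuous F) (hB : ∀ x, |F x| ≤ B) :
    Em w (NN t F) = NN t (Sh w F) 0 := by
  have i0 : Integrable (Function.uncurry fun (x z : E n) => F (x + z) * (w x * gk t z))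
      (volume.prod volume) := by
    have i1 : Integrable (fun q : E n × E n => w q.1 * gk t q.2) (volume.prod volume) :=
      hw.integrable.mul_prod (int_gk ht)
    have i2 := i1.bdd_mul (c := B) (f := fun q : E n × E n => F (q.1 + q.2))
      (hF.comp (continuous_fst.add continuous_snd)).aestronglyMeasurable
      (ae_of_all _ fun q => by rw [Real.norm_eq_abs]; exact hB _)
    exact i2
  have e1 := integral_integral_swap i0
  unfold Em NN Sh Em
  simp only [sub_zero]
  have a1 : ∀ x, (∫ y, F y * gk t (y - x)) / (∫ z : E n, gk t z) * w x =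
      (∫ z : E n, gk t z)⁻¹ * ∫ z, F (x + z) * (w x * gk t z) := by
    intro x
    have h1 := NN_shift t F x
    unfold NN at h1
    rw [h1, div_mul_eq_mul_div, div_eq_inv_mul, ← integral_mul_const]
    congr 1
    exact integral_congr_ae (ae_of_all _ fun z => by simp only; ring)
  have a2 : ∀ z, (∫ y, F (y + z) * w y) / (∫ z, w z) * gk t z =
      (∫ z, w z)⁻¹ * ∫ x, F (x + z) * (w x * gk t z) := by
    intro z
    rw [div_mul_eq_mul_div, div_eq_inv_mul, ← integral_mul_const]
    congr 1
    exact integral_congr_ae (ae_of_all _ fun z => by simp only; ring)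
  simp only [a1, a2]
  rw [integral_const_mul, integral_const_mul, e1]
  ring

end Crest.Agent.R201.St352
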