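import Crest.Agent.R201.St5_352

/-!
# R201 St6: **stationarity lemma** (S) of doc 2103 (helper352)
-/

set_option autoImplicit false
open MeasureTheory Matrix Filter Topology
open scoped ContDiff RealInnerProductSpace NNReal

namespace Crest.Agent.R201.St352

open Crest.Agent.R201 Crest.Agent.R144.Fi865 Crest.Agent.R201.An Crest.Agent.R201.DVQ402

variable {n : ℕ} {w ρ F G f g : E n → ℝ} {s t c R K κ e : ℝ}

lemma cb_shift (h : CB g) (z : E n) : CB fun y => g (y + z) := by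
  obtain ⟨h1, B, hB⟩ := h
  refine ⟨h1.comp (contDiff_id.add contDiff_const), B, fun x => ⟨(hB _).1, fun k => ?_⟩⟩
  rw [pd_shift]
  exact (hB _).2 k

/-- **the abstract step**: `ρ` any weight with LSI(K) such that every shifted density obeys the
mean-score bound -/
theorem step (hρ : Ex ρ) (ht : 0 < t) (ht1 : t ≤ 1 / 2) (he : 0 < e) (he1 : e ≤ 1 / 8)
    (hK : 1 ≤ K) (hLS : LSn77.LS ρ K) (hA0 : ∀ g : E n → ℝ, CB g → 0 ≤ AA ρ g)
    (hMS : ∀ g : E n → ℝ, CB g → K * ((∑ k, MM ρ g k ^ 2) / NZ ρ g) ≤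
      3 * (K / 2 * FF ρ g - AA ρ g) + 3 * (2 * e) * AA ρ g) (hg : CB g) :
    AA (Lp ρ t fun _ => 1) g ≤ K / (1 - 2 * e) / 2 * FF (Lp ρ t fun _ => 1) g := by
  have lc := LC.of_cb hg
  obtain ⟨hf, hfpd⟩ := LSn77.CB.exp hg
  set f : E n → ℝ := fun x => Real.exp (g x) with hfd
  obtain ⟨B, hB⟩ := hg.2
  have hB0 : 0 ≤ B := (abs_nonneg _).trans (hB 0).1
  have lo : ∀ x, Real.exp (-B) ≤ f x := fun x => Real.exp_le_exp.2 (abs_le.1 (hB x).1).1
  have hi : ∀ x, f x ≤ Real.exp B := fun x => Real.exp_le_exp.2 (abs_le.1 (hB x).1).2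
  have fb : ∀ x, |f x| ≤ Real.exp B := fun x => by rw [abs_of_pos (Real.exp_pos _)]; exact hi x
  have cf : Continuous f := hf.1.continuous
  have cg : Continuous g := hg.1.continuous
  -- Φ
  obtain ⟨hΦ, hΦpd⟩ := Sh_CB hρ hf
  set Φ := Sh ρ f with hΦd
  have Φeg : ∀ z, EG fun y => f (y + z) := fun z => eg_shift cf fb z
  have Φlo : ∀ z, Real.exp (-B) ≤ Φ z := fun z => by
    have := Em_mono hρ (EG.const (Real.exp (-B))) (Φeg z) fun x => lo _
    rwa [Em_const hρ] at this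
  have Φhi : ∀ z, Φ z ≤ Real.exp B := fun z => by
    have := Em_mono hρ (Φeg z) (EG.const (Real.exp B)) fun x => hi _
    rwa [Em_const hρ] at this
  have Φpos : ∀ z, 0 < Φ z := fun z => (Real.exp_pos _).trans_le (Φlo z)
  -- log Φ
  set gh : E n → ℝ := fun z => Real.log (Φ z) with hgh
  have ghpd : ∀ k z, pd k gh z = pd k Φ z / Φ z := by
    intro k z
    unfold pd
    have d := (hΦ.1.differentiable (by simp) z).hasFDerivAt.log (Φpos z).ne'
    rw [hgh, d.fderiv]
    simp only [_root_.smul_apply, smul_eq_mul]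
    ring
  have ghexp : ∀ z, Real.exp (gh z) = Φ z := fun z => Real.exp_log (Φpos z)
  obtain ⟨B', hB'⟩ := hΦ.2
  have hB'0 : 0 ≤ B' := (abs_nonneg _).trans (hB' 0).1
  have ghb : ∀ z, |gh z| ≤ B := fun z => by
    rw [abs_le]
    constructor
    · rw [hgh]
      simp only
      rw [Real.le_log_iff_exp_le (Φpos z)]
      exact Φlo z
    · rw [hgh]
      simp only
      rw [Real.log_le_iff_le_exp (Φpos z)]
      exact Φhi z
  have ghCB : CB gh := by
    refine ⟨hΦ.1.log fun z => (Φpos z).ne', B + B' / Real.exp (-B), fun z => ⟨?_, fun k => ?_⟩⟩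
    · have h2 : 0 ≤ B' / Real.exp (-B) := by positivity
      have := ghb z
      linarith
    · rw [ghpd, abs_div, abs_of_pos (Φpos z)]
      have h1 := (hB' z).2 k
      have h2 : |pd k Φ z| / Φ z ≤ B' / Real.exp (-B) :=
        div_le_div₀ hB'0 h1 (Real.exp_pos _) (Φlo z)
      linarith
  -- the three slice functionals as averages
  have cgf : Continuous fun x => g x * f x := cg.mul cf
  have bgf : ∀ x, |g x * f x| ≤ B * Real.exp B := fun x => by
    rw [abs_mul]
    exact mul_le_mul (hB x).1 (fb x) (abs_nonneg _) hB0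
  have cpd : ∀ k, Continuous (pd k g) := fun k => lc.pd_cont k
  have cff : Continuous fun x => (∑ k, pd k g x ^ 2) * f x :=
    (continuous_finsetSum _ fun k _ => (cpd k).pow 2).mul cf
  have bff : ∀ x, |(∑ k, pd k g x ^ 2) * f x| ≤ (∑ _k : Fin n, B ^ 2) * Real.exp B := fun x => by
    rw [abs_mul, abs_of_nonneg (Finset.sum_nonneg fun k _ => sq_nonneg _)]
    refine mul_le_mul (Finset.sum_le_sum fun k _ => ?_) (fb x) (abs_nonneg _)
      (Finset.sum_nonneg fun k _ => sq_nonneg _)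
    rw [← sq_abs]
    exact pow_le_pow_left₀ (abs_nonneg _) ((hB x).2 k) 2
  have sA : ∀ z, AA ρ (fun y => g (y + z)) = Sh ρ (fun x => g x * f x) z - gh z * Φ z := by
    intro z
    unfold AA
    have e1 : (Em ρ fun x => Real.exp (g (x + z))) = Φ z := rfl
    have e2 : Em ρ (fun x => g (x + z) * Real.exp (g (x + z))) = Sh ρ (fun x => g x * f x) z := rfl
    rw [e1, e2, mul_comm]
  have sF : ∀ z, FF ρ (fun y => g (y + z)) = Sh ρ (fun x => (∑ k, pd k g x ^ 2) * f x) z := by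
    intro z
    unfold FF
    simp only [pd_shift]
    rfl
  have sM : ∀ z k, MM ρ (fun y => g (y + z)) k = pd k Φ z := by
    intro z k
    rw [hΦpd k]
    unfold MM
    simp only [pd_shift]
    have : pd k f = fun x => pd k g x * Real.exp (g x) := funext fun x => hfpd k x
    rw [this]
    rfl
  have sX : ∀ z, (∑ k, MM ρ (fun y => g (y + z)) k ^ 2) / NZ ρ (fun y => g (y + z)) =
      (∑ k, pd k gh z ^ 2) * Φ z := by
    intro z
    have e1 : NZ ρ (fun y => g (y + z)) = Φ z := rfl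
    have h0 := (Φpos z).ne'
    rw [e1, Finset.sum_div, Finset.sum_mul]
    refine Finset.sum_congr rfl fun k _ => ?_
    rw [sM, ghpd]
    field_simp
  -- growth
  have E1 := Sh_eg hρ cgf bgf
  have E2 : EG fun z => gh z * Φ z := (CB.eg ghCB).1.mul (CB.eg hΦ).1
  have E3 := Sh_eg hρ cff bff
  have E4 : EG fun z => (∑ k, pd k gh z ^ 2) * Φ z :=
    (EG.sum _ fun k _ => EG.sq ((CB.eg ghCB).2 k)).mul (CB.eg hΦ).1
  have EΦ : EG Φ := (CB.eg hΦ).1
  -- pointwise inequality in z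
  have pw : ∀ z, (Sh ρ (fun x => g x * f x) z - gh z * Φ z) + t / 2 * ((∑ k, pd k gh z ^ 2) * Φ z) ≤
      K / 2 * Sh ρ (fun x => (∑ k, pd k g x ^ 2) * f x) z +
        2 * e * (Sh ρ (fun x => g x * f x) z - gh z * Φ z) := by
    intro z
    have h1 := hMS _ (cb_shift hg z)
    have h2 : AA ρ (fun y => g (y + z)) ≤ K / 2 * FF ρ (fun y => g (y + z)) :=
      hLS _ (cb_shift hg z)
    have h3 := hA0 _ (cb_shift hg z)
    rw [sX, sF, sA] at h1
    rw [sF, sA] at h2
    rw [sA] at h3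
    set A := Sh ρ (fun x => g x * f x) z - gh z * Φ z
    set Fz := Sh ρ (fun x => (∑ k, pd k g x ^ 2) * f x) z
    set Xz := (∑ k, pd k gh z ^ 2) * Φ z
    have hX : 0 ≤ Xz := mul_nonneg (Finset.sum_nonneg fun k _ => sq_nonneg _) (Φpos z).le
    have h4 : Xz ≤ K * Xz := by nlinarith
    have h5 : Xz ≤ 3 * (K / 2 * Fz - A) + 3 * (2 * e) * A := h4.trans h1
    have h6 : 0 ≤ K / 2 * Fz - A := by linarith
    have h7 : 0 ≤ e * A := by positivity
    have h8 : t / 2 * Xz ≤ 1 / 4 * (3 * (K / 2 * Fz - A) + 3 * (2 * e) * A) := by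
      have : t / 2 * Xz ≤ 1 / 4 * Xz := mul_le_mul_of_nonneg_right (by linarith) hX
      linarith
    linarith
  -- integrate
  have h1 := NN_mono ht ((E1.sub E2).add (E4.smul (t / 2)))
    ((E3.smul (K / 2)).add ((E1.sub E2).smul (2 * e))) pw 0
  rw [NN_add ht (E1.sub E2) (E4.smul _), NN_add ht (E3.smul _) ((E1.sub E2).smul _),
    NN_smul, NN_smul, NN_smul, NN_sub ht E1 E2] at h1
  -- Gaussian LSI
  have h2 := LSn77.NN_lsi ht ghCB 0
  simp only [ghexp] at h2
  -- identification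
  have i1 : Em (Lp ρ t fun _ => 1) (fun x => g x * Real.exp (g x)) =
      NN t (Sh ρ fun x => g x * f x) 0 := by
    rw [Em_NN hρ ht (lc.eg.mul lc.eg_exp)]
    exact swap hρ ht cgf bgf
  have i2 : Em (Lp ρ t fun _ => 1) (fun x => Real.exp (g x)) = NN t Φ 0 := by
    rw [Em_NN hρ ht lc.eg_exp]
    exact swap hρ ht cf fb
  have i3 : Em (Lp ρ t fun _ => 1) (fun x => (∑ k, pd k g x ^ 2) * Real.exp (g x)) =
      NN t (Sh ρ fun x => (∑ k, pd k g x ^ 2) * f x) 0 := by
    rw [Em_NN hρ ht ((EG.sum _ fun k _ => EG.sq (lc.eg_pd k)).mul lc.eg_exp)]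
    exact swap hρ ht cff bff
  -- Jensen
  have NΦpos : 0 < NN t Φ 0 := by
    have := NN_mono ht (EG.const (Real.exp (-B))) EΦ Φlo 0
    rw [NN_const ht] at this
    exact (Real.exp_pos _).trans_le this
  have h3 : NN t Φ 0 * Real.log (NN t Φ 0) ≤ NN t (fun z => gh z * Φ z) 0 := by
    set N := NN t Φ 0 with hN
    have hy : ∀ z, (Real.log N + 1) * Φ z ≤ gh z * Φ z + N := fun z => by
      have := young (Real.log N) (Φpos z).le
      rw [Real.exp_log NΦpos] at this
      simp only [hgh]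
      linarith
    have h4 := NN_mono ht (EΦ.smul (Real.log N + 1)) (E2.add (EG.const N)) hy 0
    rw [NN_smul, NN_add ht E2 (EG.const N), NN_const ht, ← hN] at h4
    linarith
  unfold AA FF
  rw [i1, i2, i3]
  set a1 := NN t (Sh ρ fun x => g x * f x) 0
  set a2 := NN t (fun z => gh z * Φ z) 0
  set a3 := NN t (Sh ρ fun x => (∑ k, pd k g x ^ 2) * f x) 0
  set N := NN t Φ 0
  have h5 : (1 - 2 * e) * (a1 - N * Real.log N) ≤ K / 2 * a3 := by
    have h6 : a1 - N * Real.log N ≤ K / 2 * a3 + 2 * e * (a1 - a2) := by linarith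
    have h7 : 2 * e * (a1 - a2) ≤ 2 * e * (a1 - N * Real.log N) :=
      mul_le_mul_of_nonneg_left (by linarith) (by positivity)
    linarith
  have h6 : 0 < 1 - 2 * e := by linarith
  have h7 : K / (1 - 2 * e) / 2 * a3 = (K / 2 * a3) / (1 - 2 * e) := by ring
  rw [h7, le_div_iff₀ h6]
  linarith

/-- **stationarity lemma** -/
theorem stat (hw : Wt c R w) (hc : 0 ≤ c) (hs : 0 < s) (hs1 : s ≤ 1 / 16)
    (he : 0 < e) (he1 : e ≤ 1 / 8) (hκ : κ ≤ e ^ 3 * s ^ 2 / 128) (hSG : SG κ (nm w))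
    (hK : 1 ≤ K) (hK2 : K ≤ 2) (hLS : LSn77.LS (Lp w s fun _ => 1) K) (ht : 0 < t)
    (ht1 : t ≤ 1 / 2) : LSn77.LS (Lp w (s + t) fun _ => 1) (K / (1 - 2 * e)) := by
  intro g hg
  have hρ := hw.ex.noisy hs
  have h := step hρ ht ht1 he he1 hK hLS (fun g hg => AA_nonneg hw hs hSG (LC.of_cb hg))
    (fun g hg => mean_score hw hc hs hs1 he he1 hκ hSG hK hK2 hLS (LC.of_cb hg)) hg
  unfold AA FF at h
  simp only [← Em_noisy hw.ex ht hs] at h
  exact h

end Crest.Agent.R201.St352
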