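import Crest.Agent.R201.El5_593
import Crest.Agent.R201.Ch6_150

/-!
# R201: interface of the top assembly (helper674)
-/

set_option autoImplicit false
open MeasureTheory Matrix
open scoped ContDiff

namespace Crest.Agent.R201.Top674

open Crest.Agent.R201 Crest.Agent.R201.El593

variable {n : ℕ}

/-- channel bound for `C_c^∞` vector fields -/
def CHp (S : St n) (K δ e D : ℝ) : Prop :=
  ∀ φ : Fin n → E n → ℝ, (∀ i, ContDiff ℝ ∞ (φ i)) → (∀ i, HasCompactSupport (φ i)) →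
    nsq S.ν φ ≤ K * dsq S.ν φ + 2 * δ + 2 * ∑ i, ∫ x, (S.w i x - φ i x) ^ 2 ∂S.ν +
      2 * e * (D + 1 / 2 * nsq S.ν φ)

/-- rigidity channel -/
def RIGp (S : St n) (K δ e D : ℝ) : Prop :=
  ∀ (A : E n → Mt n) (κ : ℝ), 0 < κ → (∀ i j, ContDiff ℝ 1 (fun x => A x i j)) →
    (∀ i j, HasCompactSupport (fun x => A x i j)) → (∀ x, (A x)ᵀ = A x) → (∀ x, LeQ 0 (A x)) →
    nsq S.ν S.w ≤
      K * (∫ x, ∑ k, (fun i => pd k (S.w i) x) ⬝ᵥ ((1 + A x)⁻¹ *ᵥ fun i => pd k (S.w i) x) ∂S.ν) +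
      K * κ / 2 * (∫ x, ∑ k, hs (pdM k (fun x => A x) x) ∂S.ν) + 2 * κ * δ +
      2 * e * (D + nsq S.ν S.w / (2 * κ) + 1 / 2 * ∫ x, (A x).trace ∂S.ν) +
      2 * κ * ∫ x, (A x).trace ∂S.ν

end Crest.Agent.R201.Top674
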