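import Crest.Agent.R201.Tw2_807

/-!
# R201, KLS half (helper807): the resolvent step, scalar inequalities
-/

set_option autoImplicit false
open MeasureTheory Matrix
open scoped ContDiff

namespace Crest.Agent.R201.Tw807

open Crest.Agent.R201

variable {n : ℕ}

theorem two_mul_le {x p δ s : ℝ} (hs : 0 < s) (hp : 0 ≤ p) (hδ : 0 ≤ δ) (h : x ^ 2 ≤ p * δ) :
    |2 * x| ≤ s * p + δ / s := by
  apply abs_le_of_sq_le_sq _ (by positivity)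
  have h1 : (s * p + δ / s) ^ 2 - 4 * (p * δ) = (s * p - δ / s) ^ 2 := by
    field_simp
    ring
  nlinarith [sq_nonneg (s * p - δ / s)]

/-- the algebra behind the recursion -/
theorem alg {ε δ p eψ D τ τφ a X ψE ee g : ℝ} (hε : 0 ≤ ε) (hε' : ε ≤ 1 / 100) (hδ : 0 ≤ δ)
    (hK : X = (1 + ε) * (D - 2 * τ - eψ) + p + 2 * ψE + ee)
    (hK' : X = (1 + ε) * g + (2 + ε) ^ 2 * p + 2 * (2 + ε) * ψE + ee)
    (hMP : 0 ≤ g + 2 * τφ) (hp : 0 ≤ p) (hP : p ≤ eψ) (hE : ψE ^ 2 ≤ p * δ) (_hee : 0 ≤ ee)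
    (hee' : ee ≤ δ) (hτφ : τφ ≤ 1.1 * τ + 0.11 * p) (ha : a ≤ 1.1222 * τ + 0.22 * p + 0.22 * δ)
    (ha' : τ ≤ 1.1 * a + 0.22 * p + 0.22 * δ) (hτ : 0 ≤ τ) (_ha0 : 0 ≤ a) (hD : 0 ≤ D) :
    eψ ≤ 1.01 * (D + 0.2 * τ) + 10.21 * δ ∧ τ ≤ 1.119 * a + 0.085 * D + 1.09 * δ ∧
      X + (1 + ε) * a ≤ 1.165 * D - 0.744 * a + 54 * δ := by
  have e1 : |2 * ψE| ≤ 0.1 * p + δ / 0.1 := two_mul_le (by norm_num) hp hδ hE
  have e2 : |2 * ψE| ≤ 0.02 * p + δ / 0.02 := two_mul_le (by norm_num) hp hδ hE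
  have d1 : δ / 0.1 = δ * 10 := by norm_num [div_eq_mul_inv]
  have d2 : δ / 0.02 = δ * 50 := by norm_num [div_eq_mul_inv]
  rw [d1] at e1
  rw [d2] at e2
  have e3 := (abs_le.1 e1).1
  have e4 := (abs_le.1 e2).2
  have hep : 0 ≤ ε * p := mul_nonneg hε hp
  have hep' : ε * p ≤ 0.01 * p := mul_le_mul_of_nonneg_right (by linarith) hp
  have heD : ε * D ≤ 0.01 * D := mul_le_mul_of_nonneg_right (by linarith) hD
  have heψ : 0 ≤ eψ := hp.trans hP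
  have h0 : 0 ≤ ε * eψ := mul_nonneg hε heψ
  have h0' : ε * p ≤ ε * eψ := mul_le_mul_of_nonneg_left hP hε
  have hετ : 0 ≤ ε * τ := mul_nonneg hε hτ
  have hετ' : ε * τ ≤ 0.01 * τ := mul_le_mul_of_nonneg_right (by linarith) hτ
  have hδε : ε * δ ≤ 0.01 * δ := mul_le_mul_of_nonneg_right (by linarith) hδ
  have hεε : 0 ≤ ε ^ 2 * p := mul_nonneg (sq_nonneg _) hp
  have haε : ε * a ≤ 0.01 * a := mul_le_mul_of_nonneg_right (by linarith) _ha0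
  have h1ε : (0 : ℝ) ≤ 1 + ε := by linarith
  -- first inequality
  have k2 : 0 ≤ (1 + ε) * ((g + 2 * τφ) + 2 * (1.1 * τ + 0.11 * p - τφ)) :=
    mul_nonneg h1ε (by linarith)
  have k3 : 0 ≤ (1 + ε) * (2 * ψE + (0.1 * p + δ * 10)) := mul_nonneg h1ε (by linarith)
  have k4 : 2.6 * p + eψ ≤ 1.01 * (D + 0.2 * τ) + 10.21 * δ := by
    linarith
  have p1 : 3.6 * p ≤ 1.01 * (D + 0.2 * τ) + 10.21 * δ := by linarith
  have q1 : eψ ≤ 1.01 * (D + 0.2 * τ) + 10.21 * δ := by linarith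
  have q2 : τ ≤ 1.119 * a + 0.085 * D + 1.09 * δ := by linarith
  refine ⟨q1, q2, ?_⟩
  have r2 : X ≤ 1.01 * D - 2 * τ + 0.02 * p + 51 * δ := by
    linarith
  linarith

end Crest.Agent.R201.Tw807
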