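import Crest.Agent.R201.GS1_844
import Crest.Agent.R201.LabG3_809
import Crest.Agent.R201.NSL4_674

/-!
# R201, LSI half (helper795): bridge between 844's posterior integrals and 809's Gaussian channels
-/

set_option autoImplicit false
set_option linter.unusedSectionVars false
open MeasureTheory Matrix ProbabilityTheory Filter Topology
open scoped ENNReal RealInnerProductSpace

namespace Crest.Agent.R201.UNPB795

open Crest.Agent.R201 Crest.Agent.R201.An Crest.Agent.R201.GC844 Crest.Agent.R201.GS844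
  Crest.Agent.R201.LL809

variable {n : ℕ}

theorem mv_ofLp (A : Mt n) (g : E n) : (mv A g).ofLp = A *ᵥ g.ofLp := by
  funext k
  rw [show (mv A g).ofLp k = mv A g k from rfl, mv_apply]
  rfl

/-- `σ² A²` is nonnegative -/
theorem quad_sq {A : Mt n} (hA : Aᵀ = A) (u : Fin n → ℝ) :
    u ⬝ᵥ ((A * A) *ᵥ u) = (A *ᵥ u) ⬝ᵥ (A *ᵥ u) := by
  rw [← Matrix.mulVec_mulVec, Matrix.dotProduct_mulVec u, ← Matrix.mulVec_transpose, hA]

theorem leQ_N {A : Mt n} (hA : Aᵀ = A) (σ : ℝ) :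
    LeQ ((1 : ℝ) • (1 : Mt n)) (1 + σ ^ 2 • (A * A)) := by
  intro u
  rw [one_smul, Matrix.add_mulVec, dotProduct_add, Matrix.smul_mulVec, dotProduct_smul, smul_eq_mul,
    quad_sq hA]
  have h1 : 0 ≤ (A *ᵥ u) ⬝ᵥ (A *ᵥ u) := Finset.sum_nonneg fun i _ => mul_self_nonneg _
  have h2 := mul_nonneg (sq_nonneg σ) h1
  linarith

theorem symm_N {A : Mt n} (hA : Aᵀ = A) (σ : ℝ) :
    (1 + σ ^ 2 • (A * A))ᵀ = 1 + σ ^ 2 • (A * A) := by
  rw [Matrix.transpose_add, Matrix.transpose_one, Matrix.transpose_smul, Matrix.transpose_mul, hA]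

/-- the field `1 + σ² A²` -/
theorem MF_N {A : E n → Mt n} (hA : ∀ x, (A x)ᵀ = A x) (hc : ∀ i j, CB fun x => A x i j) (σ : ℝ) :
    MF fun x => 1 + σ ^ 2 • (A x * A x) where
  cb i j := by
    simp only [Matrix.add_apply, Matrix.smul_apply, Matrix.mul_apply, smul_eq_mul]
    exact Tw807.cb_add (Tw807.cb_const _) (Tw807.cb_const_mul _
      (Tw807.cb_sum _ fun l _ => Tw807.cb_mul (hc i l) (hc l j)))
  symm x := symm_N (hA x) σ
  ge := ⟨1, one_pos, fun x => leQ_N (hA x) σ⟩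

theorem gd_one (v : Fin n → ℝ) {B : Mt n} (hBs : Bᵀ = B) (hB : 0 < B.det) :
    ∫ y, gd v (B * B) y ∂(gam n) = 1 := by
  have h := (gd_cov v hBs hB fun _ => 1).2
  simp only [one_mul] at h
  rw [h]
  simp

/-- **(B1)** -/
theorem int_L {A : Mt n} (hA : Aᵀ = A) (σ : ℝ) (y : E n) :
    ∫ g, L σ (mv A g) y ∂(gm n) = gd 0 (1 + σ ^ 2 • (A * A)) y := by
  set N : Mt n := 1 + σ ^ 2 • (A * A) with hN
  have hP : N.PosDef := symm_posDef (symm_N hA σ) one_pos (leQ_N hA σ)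
  have hNs : Nᵀ = N := symm_N hA σ
  have hNu : IsUnit N.det := isUnit_iff_ne_zero.2 hP.det_pos.ne'
  obtain ⟨T, hT, hTT⟩ := MX354.root_exists hP.posSemidef
  have hTs := MX354.posSemidef_transpose hT
  have hTd : 0 < T.det := by
    refine lt_of_le_of_ne hT.det_nonneg fun h0 => ?_
    have h1 := hP.det_pos
    rw [← hTT, Matrix.det_mul, ← h0, mul_zero] at h1
    exact lt_irrefl _ h1
  have hBd : 0 < (T⁻¹).det := by
    rw [Matrix.det_nonsing_inv, Ring.inverse_eq_inv']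
    exact inv_pos.2 hTd
  have hBs : (T⁻¹)ᵀ = T⁻¹ := by rw [Matrix.transpose_nonsing_inv, hTs]
  set M : Mt n := T⁻¹ * T⁻¹ with hM
  have hMN : M = N⁻¹ := by rw [hM, ← Matrix.mul_inv_rev, hTT]
  have hMi : M⁻¹ = N := by rw [hMN, Matrix.nonsing_inv_nonsing_inv _ hNu]
  have hMd : M.det = (N.det)⁻¹ := by
    rw [hMN, Matrix.det_nonsing_inv, Ring.inverse_eq_inv']
  have hg1 : ∀ v : Fin n → ℝ, ∫ g, gd v M g ∂(gm n) = 1 := by
    intro v
    have := gd_one v hBs hBd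
    rwa [gam_eq] at this
  clear_value M
  clear_value N
  set v : Fin n → ℝ := σ • (M *ᵥ (A *ᵥ y.ofLp)) with hv
  have hNM : N * M = 1 := by rw [hMN, Matrix.mul_nonsing_inv _ hNu]
  have hNv : N *ᵥ v = σ • (A *ᵥ y.ofLp) := by
    rw [hv, Matrix.mulVec_smul, Matrix.mulVec_mulVec, hNM, Matrix.one_mulVec]
  have hadj : ∀ (K : Mt n), Kᵀ = K → ∀ z z' : Fin n → ℝ, (K *ᵥ z) ⬝ᵥ z' = z ⬝ᵥ (K *ᵥ z') := by
    intro K hK z z'
    rw [Matrix.dotProduct_mulVec z, ← Matrix.mulVec_transpose, hK]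
  -- `σ² (M A y)·(A y) = y·y - y·My`
  have hcom : A * N = N * A := by
    rw [hN]
    simp only [Matrix.mul_add, Matrix.add_mul, Matrix.mul_one, Matrix.one_mul, Matrix.mul_smul,
      Matrix.smul_mul, Matrix.mul_assoc]
  have hcom2 : M * A = A * M := by
    have : M * (A * N) * M = M * (N * A) * M := by rw [hcom]
    have h1 : M * (A * N) * M = M * A := by
      rw [Matrix.mul_assoc M, Matrix.mul_assoc A, hNM, Matrix.mul_one]
    have h2 : M * (N * A) * M = A * M := by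
      rw [← Matrix.mul_assoc M N A, hMN, Matrix.nonsing_inv_mul _ hNu, Matrix.one_mul]
    rw [← h1, ← h2]
    exact this
  have hq : σ ^ 2 * ((M *ᵥ (A *ᵥ y.ofLp)) ⬝ᵥ (A *ᵥ y.ofLp)) =
      y.ofLp ⬝ᵥ y.ofLp - y.ofLp ⬝ᵥ (M *ᵥ y.ofLp) := by
    have h1 : (M *ᵥ (A *ᵥ y.ofLp)) ⬝ᵥ (A *ᵥ y.ofLp) = y.ofLp ⬝ᵥ ((M * (A * A)) *ᵥ y.ofLp) := by
      rw [dotProduct_comm, hadj A hA, Matrix.mulVec_mulVec, Matrix.mulVec_mulVec]
      rw [← hcom2, Matrix.mul_assoc]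
    have h2 : σ ^ 2 • (M * (A * A)) = 1 - M := by
      have : M * N = 1 := by rw [hMN, Matrix.nonsing_inv_mul _ hNu]
      rw [hN, Matrix.mul_add, Matrix.mul_one, Matrix.mul_smul] at this
      rw [← this]
      abel
    rw [h1]
    calc σ ^ 2 * (y.ofLp ⬝ᵥ ((M * (A * A)) *ᵥ y.ofLp))
        = y.ofLp ⬝ᵥ ((σ ^ 2 • (M * (A * A))) *ᵥ y.ofLp) := by
          rw [Matrix.smul_mulVec, dotProduct_smul, smul_eq_mul]
      _ = _ := by rw [h2, Matrix.sub_mulVec, Matrix.one_mulVec, dotProduct_sub]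
  -- pointwise
  have hpt : ∀ g : E n, L σ (mv A g) y = gd v M g *
      Real.exp (1 / 2 * (σ ^ 2 * ((M *ᵥ (A *ᵥ y.ofLp)) ⬝ᵥ (A *ᵥ y.ofLp))) -
        1 / 2 * Real.log N.det) := by
    intro g
    unfold gd gl L
    rw [← Real.exp_add]
    congr 1
    have e1 : (⟪mv A g, y⟫ : ℝ) = g.ofLp ⬝ᵥ (A *ᵥ y.ofLp) := by
      rw [inner_sum, ← hadj A hA, ← mv_ofLp]
      rfl
    have e2 : ‖mv A g‖ ^ 2 = (A *ᵥ g.ofLp) ⬝ᵥ (A *ᵥ g.ofLp) := by
      rw [norm_sq_dot, mv_ofLp]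
    have e3 : (g.ofLp - v) ⬝ᵥ (N *ᵥ (g.ofLp - v)) = g.ofLp ⬝ᵥ g.ofLp +
        σ ^ 2 * ((A *ᵥ g.ofLp) ⬝ᵥ (A *ᵥ g.ofLp)) - 2 * (σ * (g.ofLp ⬝ᵥ (A *ᵥ y.ofLp))) +
        σ ^ 2 * ((M *ᵥ (A *ᵥ y.ofLp)) ⬝ᵥ (A *ᵥ y.ofLp)) := by
      have f1 : g.ofLp ⬝ᵥ (N *ᵥ g.ofLp) = g.ofLp ⬝ᵥ g.ofLp +
          σ ^ 2 * ((A *ᵥ g.ofLp) ⬝ᵥ (A *ᵥ g.ofLp)) := by
        rw [hN, Matrix.add_mulVec, Matrix.one_mulVec, dotProduct_add, Matrix.smul_mulVec,
          dotProduct_smul, smul_eq_mul, quad_sq hA]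
      have f2 : v ⬝ᵥ (N *ᵥ g.ofLp) = g.ofLp ⬝ᵥ (N *ᵥ v) := by
        rw [← hadj N hNs, dotProduct_comm]
      have f3 : v ⬝ᵥ (σ • (A *ᵥ y.ofLp)) = σ ^ 2 * ((M *ᵥ (A *ᵥ y.ofLp)) ⬝ᵥ (A *ᵥ y.ofLp)) := by
        rw [hv, smul_dotProduct, dotProduct_smul, smul_eq_mul, smul_eq_mul]
        ring
      rw [Matrix.mulVec_sub, sub_dotProduct, dotProduct_sub, dotProduct_sub, f2, hNv, f1, f3,
        dotProduct_smul, smul_eq_mul]
      ring
    rw [e1, e2, hMi, e3, hMd, Real.log_inv]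
    ring
  simp_rw [hpt]
  rw [integral_mul_const, hg1 v, one_mul, hq]
  unfold gd gl
  congr 1
  rw [sub_zero, hMN]
  ring

section Fields

variable {X : Type*} [MeasurableSpace X] {ν : Measure X} [IsProbabilityMeasure ν]
  {A : X → Mt n} {σ : ℝ}

/-- **(B2), (B3)** -/
theorem Z_br (hA : ∀ x, (A x)ᵀ = A x) (hm : ∀ k l, Measurable fun x => A x k l) {φ : X → ℝ}
    (hφ : Integrable φ ν) (y : E n) :
    Z (ν.prod (gm n)) (ze A) σ (fun p => φ p.1) y =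
      ∫ x, φ x * gd 0 (1 + σ ^ 2 • (A x * A x)) y ∂ν := by
  have hφ2 : Integrable (fun p : X × E n => φ p.1) (ν.prod (gm n)) := hφ.comp_fst _
  have h := int_Z (σ := σ) (meas_ze hm) hφ2 y
  unfold Z
  rw [integral_prod _ h]
  refine integral_congr_ae (Eventually.of_forall fun x => ?_)
  simp only
  rw [integral_const_mul]
  congr 1
  exact int_L (hA x) σ y

theorem wt_br (hA : ∀ x, (A x)ᵀ = A x) (hm : ∀ k l, Measurable fun x => A x k l) (y : E n) :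
    wt (ν.prod (gm n)) (ze A) σ y = ∫ x, gd 0 (1 + σ ^ 2 • (A x * A x)) y ∂ν := by
  have h := Z_br (ν := ν) (σ := σ) hA hm (integrable_const (1 : ℝ)) y
  simp only [one_mul] at h
  exact h

end Fields

section Lab

variable {μ : Measure (E n)} {f : E n → ℝ} {Q : E n → Mt n}

theorem integral_wd (mf : Measurable f) (hf : ∀ x, 0 ≤ f x) (g : E n → ℝ) :
    ∫ x, g x ∂(μ.withDensity fun x => ENNReal.ofReal (f x)) = ∫ x, f x * g x ∂μ := by
  rw [integral_withDensity_eq_integral_toReal_smul mf.ennreal_ofReal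
    (Eventually.of_forall fun _ => ENNReal.ofReal_lt_top)]
  refine integral_congr_ae (Eventually.of_forall fun x => ?_)
  simp only [ENNReal.toReal_ofReal (hf x), smul_eq_mul]

theorem cb_meas {φ : E n → ℝ} (h : CB φ) : Measurable φ := h.1.continuous.measurable

/-- `wt = pJ` -/
theorem wt_pJ (hf : CBp f) [IsProbabilityMeasure (μ.withDensity fun x => ENNReal.ofReal (f x))]
    (hQ : ∀ x, (Q x)ᵀ = Q x) (hc : ∀ i j, CB fun x => Q x i j) (σ : ℝ) (y : E n) :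
    wt ((μ.withDensity fun x => ENNReal.ofReal (f x)).prod (gm n)) (ze Q) σ y =
      pJ μ f (gp 0 (fun x => 1 + σ ^ 2 • (Q x * Q x))) y := by
  rw [wt_br hQ fun k l => cb_meas (hc k l), integral_wd hf.cont.measurable fun x => (hf.pos x).le]
  rfl

/-- `Z φ = ∫ f φ p` -/
theorem Z_pJ (hf : CBp f) [IsProbabilityMeasure (μ.withDensity fun x => ENNReal.ofReal (f x))]
    (hQ : ∀ x, (Q x)ᵀ = Q x) (hc : ∀ i j, CB fun x => Q x i j) {φ : E n → ℝ} {b : ℝ}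
    (hφ : Measurable φ) (hb : ∀ x, |φ x| ≤ b) (σ : ℝ) (y : E n) :
    Z ((μ.withDensity fun x => ENNReal.ofReal (f x)).prod (gm n)) (ze Q) σ (fun p => φ p.1) y =
      ∫ x, f x * (φ x * gp 0 (fun x => 1 + σ ^ 2 • (Q x * Q x)) y x) ∂μ := by
  rw [Z_br hQ (fun k l => cb_meas (hc k l)) (i_bdd hφ hb),
    integral_wd hf.cont.measurable fun x => (hf.pos x).le]
  rfl

end Lab

section Gauss

variable {Ω : Type*} [MeasurableSpace Ω] {ρ : Measure Ω} [IsProbabilityMeasure ρ] {ζ : Ω → E n}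

theorem contDiff_wt (hζ : Measurable ζ) (h2 : Integrable (fun ω => ‖ζ ω‖ ^ 2) ρ) (σ : ℝ) :
    ContDiff ℝ 1 (wt ρ ζ σ) := by
  have hk : ∀ k, Continuous (pd k (wt ρ ζ σ)) := by
    intro k
    have : pd k (wt ρ ζ σ) = fun y => σ * Z ρ ζ σ (fun ω => ζ ω k) y := by
      funext y
      exact pd_wt hζ h2 k y
    rw [this]
    exact continuous_const.mul (continuous_Z hζ (i_coord hζ h2 k))
  rw [contDiff_one_iff_fderiv]
  refine ⟨diff_wt hζ h2, ?_⟩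
  refine continuous_clm_apply.2 fun v => ?_
  simp_rw [fderiv_eq_sum]
  exact continuous_finsetSum _ fun k _ => by
    have := hk k
    fun_prop

theorem pd_sq (hζ : Measurable ζ) (h2 : Integrable (fun ω => ‖ζ ω‖ ^ 2) ρ) (y : E n) :
    ‖fderiv ℝ (wt ρ ζ 1) y‖ ^ 2 / wt ρ ζ 1 y = wt ρ ζ 1 y * ∑ k, pm ρ ζ 1 y k ^ 2 := by
  have h0 := wt_pos (σ := 1) (ρ := ρ) hζ y
  rw [norm_fderiv_sq, Finset.sum_div, Finset.mul_sum]
  refine Finset.sum_congr rfl fun k _ => ?_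
  rw [pd_wt hζ h2, Z_eq_pe hζ, one_mul]
  unfold pm
  field_simp

/-- Gaussian LSI for the label density -/
theorem ent_le (hζ : Measurable ζ) (h2 : Integrable (fun ω => ‖ζ ω‖ ^ 2) ρ) :
    Integrable (fun y => wt ρ ζ 1 y * Real.log (wt ρ ζ 1 y)) (gm n) ∧
    ∫ y, wt ρ ζ 1 y * Real.log (wt ρ ζ 1 y) ∂(gm n) ≤ 1 / 2 * En ρ ζ 1 := by
  have hi := int_ZF (σ := 1) hζ (integrable_const (μ := ρ) (1 : ℝ))
  have i1 : Integrable (wt ρ ζ 1) (gm n) := hi.1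
  have e1 : ∫ y, wt ρ ζ 1 y ∂(gm n) = 1 := by
    have := hi.2
    simp only [integral_const, probReal_univ, smul_eq_mul, mul_one] at this
    exact this
  have i2 : Integrable (fun y => ‖fderiv ℝ (wt ρ ζ 1) y‖ ^ 2 / wt ρ ζ 1 y) (gm n) := by
    simp_rw [pd_sq hζ h2, Finset.mul_sum]
    exact integrable_finsetSum _ fun k _ => pm_sq_int hζ h2 k
  obtain ⟨h3, h4⟩ := NSL674.gauss_lsi (contDiff_wt hζ h2 1) (fun y => wt_pos hζ y) i1 i2
  refine ⟨h3, ?_⟩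
  rw [e1, Real.log_one, mul_zero, sub_zero] at h4
  simp_rw [pd_sq hζ h2] at h4
  exact h4

end Gauss

section Final

variable {μ : Measure (E n)} {f : E n → ℝ} {Q : E n → Mt n}

theorem cb_bdd (hc : ∀ i j, CB fun x => Q x i j) : ∃ c : ℝ, ∀ x k l, |Q x k l| ≤ c := by
  have h1 : ∀ i j, ∃ B : ℝ, ∀ x, |Q x i j| ≤ B := fun i j => by
    obtain ⟨-, B, hB⟩ := hc i j
    exact ⟨B, fun x => (hB x).1⟩
  choose B hB using h1
  refine ⟨∑ i, ∑ j, |B i j|, fun x k l => (hB k l x).trans ((le_abs_self _).trans ?_)⟩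
  have h2 : |B k l| ≤ ∑ j, |B k j| :=
    Finset.single_le_sum (f := fun j => |B k j|) (fun j _ => abs_nonneg _) (Finset.mem_univ l)
  have h3 : ∑ j, |B k j| ≤ ∑ i, ∑ j, |B i j| :=
    Finset.single_le_sum (f := fun i => ∑ j, |B i j|)
      (fun i _ => Finset.sum_nonneg fun j _ => abs_nonneg _) (Finset.mem_univ k)
  exact h2.trans h3

/-- **(B4)** `Dis μ f 0 (1 + Q²) ≤ ½ E|m₁(J₁)|²` -/
theorem Dis_le (hf : CBp f) [IsProbabilityMeasure (μ.withDensity fun x => ENNReal.ofReal (f x))]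
    (hQ : ∀ x, (Q x)ᵀ = Q x) (hc : ∀ i j, CB fun x => Q x i j) :
    Dis μ f 0 (fun x => 1 + Q x * Q x) ≤
      1 / 2 * En ((μ.withDensity fun x => ENNReal.ofReal (f x)).prod (gm n)) (ze Q) 1 := by
  obtain ⟨c, hcb⟩ := cb_bdd hc
  have hm : ∀ k l, Measurable fun x => Q x k l := fun k l => cb_meas (hc k l)
  have h := (ent_le (meas_ze hm) (ze_sq (ν := μ.withDensity fun x => ENNReal.ofReal (f x)) hm hcb)).2
  refine le_trans (le_of_eq ?_) h
  unfold Dis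
  rw [gam_eq]
  refine integral_congr_ae (Eventually.of_forall fun y => ?_)
  simp only
  rw [wt_pJ hf hQ hc]
  simp only [one_pow, one_smul]

end Final

end Crest.Agent.R201.UNPB795
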