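import Crest.Agent.R201.Fin4_293
import Crest.Agent.R201.Key_74
import Crest.Agent.R201.St7_352
import Crest.Agent.R201.Hf5_391
import Crest.Agent.R201.Lps8_146
import Crest.Agent.R201.SB_839

/-!
# R201 (S0308): wiring of the dynamic part and of the outer reduction (helper293)
-/

set_option autoImplicit false
open MeasureTheory
open scoped ContDiff ENNReal

namespace Crest.Agent.R201.Fin293

open Crest.Agent.R201

/-- `Key` from the static theorem -/
theorem key_of_nostate (h : L74.NoState) : L74.Key :=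
  L74.key_of h St352.sl_352 Hf391.fl_391 Lps146.lb_146 SB839.sb_839

/-- **S0308 from the static theorem** -/
theorem S0308_of_nostate (h : L74.NoState) :
    ∃ C : ℝ, ∀ (n : ℕ), 1 ≤ n →
      ∀ (ρ : EuclideanSpace ℝ (Fin n) → ℝ) (μ : Measure (EuclideanSpace ℝ (Fin n))) (a : ℝ),
        Measurable ρ → (∀ x, 0 ≤ ρ x) → Convex ℝ {x | 0 < ρ x} →
        ConcaveOn ℝ {x | 0 < ρ x} (fun x => Real.log (ρ x)) →
        μ = volume.withDensity (fun x => ENNReal.ofReal (ρ x)) → IsProbabilityMeasure μ →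
        ∫ x, x ∂μ = 0 → 0 < a →
        (∀ θ : EuclideanSpace ℝ (Fin n), ‖θ‖ = 1 →
          ∫⁻ x, ENNReal.ofReal (Real.exp (inner ℝ x θ ^ 2 / a ^ 2)) ∂μ ≤ 2) →
        ∀ f : EuclideanSpace ℝ (Fin n) → ℝ, ContDiff ℝ ∞ f → HasCompactSupport f →
          ∫ x, f x ^ 2 * Real.log (f x ^ 2) ∂μ - (∫ x, f x ^ 2 ∂μ) * Real.log (∫ x, f x ^ 2 ∂μ) ≤
            C * a ^ 2 * ∫ x, ‖fderiv ℝ f x‖ ^ 2 ∂μ :=
  S0308_of_key (key_of_nostate h)

end Crest.Agent.R201.Fin293
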